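import Vale.Agent.P363.CGidA

/-! P363, block C: increments, closedness under limits. -/

open MeasureTheory Set Metric Filter Topology
open scoped RealInnerProductSpace

namespace Vale.Agent.P363

noncomputable section

variable {f : E3 → ℝ} {g : E3 → E3}

variable {Y : Type} [MeasurableSpace Y] {ν : Measure Y} [SFinite ν]

namespace CGidAux

theorem ae_flip {α β : Type} [MeasurableSpace α] [MeasurableSpace β] {μ : Measure α}
    {ρ : Measure β} [SFinite μ] [SFinite ρ] {p : α × β → Prop} (h : ∀ᵐ w ∂μ.prod ρ, p w) :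
    ∀ᵐ y ∂ρ, ∀ᵐ x ∂μ, p (x, y) :=
  Measure.ae_ae_of_ae_prod (p := fun z : β × α => p z.swap)
    (Measure.measurePreserving_swap.quasiMeasurePreserving.ae h)

theorem ae_of_flip {α β : Type} [MeasurableSpace α] [MeasurableSpace β] {μ : Measure α}
    {ρ : Measure β} [SFinite μ] [SFinite ρ] {D : α × β → ℝ}
    (hD : AEStronglyMeasurable D (μ.prod ρ)) (h : ∀ᵐ y ∂ρ, ∀ᵐ x ∂μ, D (x, y) = 0) :
    ∀ᵐ w ∂μ.prod ρ, D w = 0 := by
  have hm : MeasurableSet {w : α × β | hD.mk D w = 0} :=
    hD.stronglyMeasurable_mk.measurable (measurableSet_singleton 0)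
  have h1 : ∀ᵐ y ∂ρ, ∀ᵐ x ∂μ, hD.mk D (x, y) = 0 := by
    filter_upwards [h, ae_flip hD.ae_eq_mk] with y a b
    filter_upwards [a, b] with x c d
    rw [← d, c]
  have h2 := (Measure.ae_prod_iff_ae_ae hm).2
    ((Measure.ae_ae_comm (p := fun x y => hD.mk D (x, y) = 0) hm).2 h1)
  filter_upwards [h2, hD.ae_eq_mk] with w a b
  rw [b, a]

/-- translation in the first variable -/
def T (v : E3) (t : ℝ) (w : E3 × Y) : E3 × Y := (w.1 + t • v, w.2)

theorem T_mp (ν : Measure Y) [SFinite ν] (v : E3) (t : ℝ) :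
    MeasurePreserving (T v t) ((volume : Measure E3).prod ν) ((volume : Measure E3).prod ν) :=
  (measurePreserving_add_right volume (t • v)).prod (MeasurePreserving.id ν)

theorem T_meas {X : Type} [MeasurableSpace X] (v : E3) {a : X → ℝ} {π : X → E3 × Y}
    (ha : Measurable a) (hπ : Measurable π) : Measurable fun x => T v (a x) (π x) :=
  (hπ.fst.add (ha.smul_const v)).prodMk hπ.snd

theorem shear {X : Type} [MeasurableSpace X] {μ : Measure X} [SFinite μ] (ρ : Measure ℝ)
    [SFinite ρ] (v : E3) {π : X → E3 × Y}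
    (hπ : Measure.QuasiMeasurePreserving π μ ((volume : Measure E3).prod ν)) :
    Measure.QuasiMeasurePreserving (fun p : X × ℝ => T v p.2 (π p.1)) (μ.prod ρ)
      ((volume : Measure E3).prod ν) :=
  QuasiMeasurePreserving.prod_of_left
    (T_meas v measurable_snd (hπ.measurable.comp measurable_fst))
    (Eventually.of_forall fun t => (T_mp ν v t).quasiMeasurePreserving.comp hπ)

theorem aem_Ioc {X : Type} [MeasurableSpace X] {μ : Measure X} {φ : X × ℝ → ℝ}
    (hφ : AEStronglyMeasurable φ (μ.prod volume)) {a b : X → ℝ} (ha : Measurable a)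
    (hb : Measurable b) : AEStronglyMeasurable (fun x => ∫ t in Ioc (a x) (b x), φ (x, t)) μ := by
  have hS : MeasurableSet {p : X × ℝ | a p.1 < p.2 ∧ p.2 ≤ b p.1} :=
    (measurableSet_lt (ha.comp measurable_fst) measurable_snd).inter
      (measurableSet_le measurable_snd (hb.comp measurable_fst))
  refine (hφ.indicator hS).integral_prod_right'.congr (Eventually.of_forall fun x => ?_)
  show _ = ∫ t in Ioc (a x) (b x), φ (x, t)
  rw [← integral_indicator measurableSet_Ioc]
  rfl

theorem aem_ii {X : Type} [MeasurableSpace X] {μ : Measure X} [SFinite μ] (v : E3)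
    {π : X → E3 × Y} (hπ : Measure.QuasiMeasurePreserving π μ ((volume : Measure E3).prod ν))
    {H : E3 × Y → ℝ} (hH : AEStronglyMeasurable H ((volume : Measure E3).prod ν)) {a b : X → ℝ}
    (ha : Measurable a) (hb : Measurable b) :
    AEStronglyMeasurable (fun x => ∫ t in a x..b x, H (T v t (π x))) μ := by
  have h := hH.comp_quasiMeasurePreserving (shear volume v hπ)
  exact (aem_Ioc h ha hb).sub (aem_Ioc h hb ha)

omit [SFinite ν] in
theorem aem_coord {G : E3 × Y → E3} (h : AEStronglyMeasurable G ((volume : Measure E3).prod ν))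
    (k : Fin 3) : AEStronglyMeasurable (fun w => G w k) ((volume : Measure E3).prod ν) :=
  (EuclideanSpace.proj k : E3 →L[ℝ] ℝ).continuous.comp_aestronglyMeasurable h

theorem aem_D {F : E3 × Y → ℝ} {G : E3 × Y → E3}
    (h1 : AEStronglyMeasurable F ((volume : Measure E3).prod ν))
    (h2 : AEStronglyMeasurable G ((volume : Measure E3).prod ν)) (k : Fin 3) (s : ℝ) :
    AEStronglyMeasurable (fun w => F (T (e k) s w) - F w - ∫ t in (0 : ℝ)..s, G (T (e k) t w) k)
      ((volume : Measure E3).prod ν) :=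
  ((h1.comp_measurePreserving (T_mp ν (e k) s)).sub h1).sub
    (aem_ii (e k) (Measure.QuasiMeasurePreserving.id _) (aem_coord h2 k) measurable_const
      measurable_const)

theorem shear_int (ρ : Measure ℝ) [IsFiniteMeasure ρ] (v : E3) {φ : E3 × Y → ℝ}
    (hφ : Integrable φ ((volume : Measure E3).prod ν)) :
    Integrable (fun p : (E3 × Y) × ℝ => φ (T v p.2 p.1))
      (((volume : Measure E3).prod ν).prod ρ) ∧
    ∫ w, ∫ t, φ (T v t w) ∂ρ ∂((volume : Measure E3).prod ν) =
      ρ.real univ * ∫ w, φ w ∂((volume : Measure E3).prod ν) := by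
  have hm : AEStronglyMeasurable (fun p : (E3 × Y) × ℝ => φ (T v p.2 p.1))
      (((volume : Measure E3).prod ν).prod ρ) :=
    hφ.1.comp_quasiMeasurePreserving (shear ρ v (Measure.QuasiMeasurePreserving.id _))
  have he : ∀ (ψ : E3 × Y → ℝ), AEStronglyMeasurable ψ ((volume : Measure E3).prod ν) → ∀ t,
      ∫ w, ψ (T v t w) ∂((volume : Measure E3).prod ν) =
        ∫ w, ψ w ∂((volume : Measure E3).prod ν) := by
    intro ψ hψ t
    have h1 := integral_map (μ := (volume : Measure E3).prod ν) (φ := T v t)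
      (T_mp ν v t).measurable.aemeasurable (f := ψ) (by rw [(T_mp ν v t).map_eq]; exact hψ)
    rw [(T_mp ν v t).map_eq] at h1
    exact h1.symm
  have hi : Integrable (fun p : (E3 × Y) × ℝ => φ (T v p.2 p.1))
      (((volume : Measure E3).prod ν).prod ρ) := by
    refine (integrable_prod_iff' hm).2 ⟨Eventually.of_forall fun t =>
      (T_mp ν v t).integrable_comp_of_integrable hφ, ?_⟩
    have e1 : (fun t : ℝ => ∫ w, ‖φ (T v t w)‖ ∂((volume : Measure E3).prod ν)) =
        fun _ => ∫ w, ‖φ w‖ ∂((volume : Measure E3).prod ν) :=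
      funext fun t => he (fun w => ‖φ w‖) hφ.1.norm t
    show Integrable (fun t : ℝ => ∫ w, ‖φ (T v t w)‖ ∂((volume : Measure E3).prod ν)) ρ
    rw [e1]
    exact integrable_const _
  refine ⟨hi, ?_⟩
  rw [integral_integral_swap (f := fun w t => φ (T v t w)) hi]
  simp only [he φ hφ.1, integral_const, smul_eq_mul]

theorem cs (ρ : Measure ℝ) [IsFiniteMeasure ρ] {h q : ℝ → ℝ} (hh : Integrable h ρ)
    (hq : Integrable q ρ) (hle : ∀ t, h t ^ 2 ≤ q t) :
    (∫ t, h t ∂ρ) ^ 2 ≤ ρ.real univ * ∫ t, q t ∂ρ := by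
  rcases eq_or_ne ρ 0 with rfl | hρ
  · simp
  have hm : 0 < ρ.real univ := by
    have : NeZero ρ := ⟨hρ⟩
    exact measureReal_univ_pos
  obtain ⟨I, hI⟩ : ∃ I, I = ∫ t, h t ∂ρ := ⟨_, rfl⟩
  obtain ⟨m, hm'⟩ : ∃ m, m = ρ.real univ := ⟨_, rfl⟩
  have h1 : ∫ t, 2 * I * m * h t ∂ρ ≤ ∫ t, (I ^ 2 + m ^ 2 * q t) ∂ρ := by
    refine integral_mono (hh.const_mul _) ((integrable_const _).add (hq.const_mul _)) fun t => ?_
    have h2 := mul_le_mul_of_nonneg_left (hle t) (sq_nonneg m)
    show 2 * I * m * h t ≤ I ^ 2 + m ^ 2 * q t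
    nlinarith [sq_nonneg (I - m * h t)]
  rw [integral_const_mul, integral_add (integrable_const _) (hq.const_mul _), integral_const,
    integral_const_mul, smul_eq_mul, ← hI, ← hm'] at h1
  rw [← hm'] at hm
  rw [← hI, ← hm']
  refine le_of_mul_le_mul_left ?_ hm
  nlinarith

omit [MeasurableSpace Y] in
theorem coord_sq (x : E3) (k : Fin 3) : x k ^ 2 ≤ ‖x‖ ^ 2 := by
  have h := EuclideanSpace.norm_sq_eq x
  rw [h]
  have h2 := Finset.single_le_sum (f := fun i => ‖x i‖ ^ 2) (fun i _ => sq_nonneg _)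
    (Finset.mem_univ k)
  rwa [Real.norm_eq_abs, sq_abs] at h2

theorem line_int (ρ : Measure ℝ) [IsFiniteMeasure ρ] {G : E3 × Y → E3}
    (hG : MemLp G 2 ((volume : Measure E3).prod ν)) (k : Fin 3) :
    ∀ᵐ w ∂((volume : Measure E3).prod ν), Integrable (fun t => G (T (e k) t w) k) ρ := by
  have h1 := (shear_int ρ (e k) ((memLp_two_iff_integrable_sq_norm hG.1).1 hG)).1.prod_right_ae
  have h2 := ((aem_coord hG.1 k).comp_quasiMeasurePreserving
    (shear ρ (e k) (Measure.QuasiMeasurePreserving.id _))).prodMk_left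
  filter_upwards [h1, h2] with w a b
  refine ((integrable_const (1 : ℝ)).add a).mono' b (Eventually.of_forall fun t => ?_)
  have h3 := coord_sq (G (T (e k) t w)) k
  show ‖G (T (e k) t w) k‖ ≤ 1 + ‖G (T (e k) t w)‖ ^ 2
  rw [Real.norm_eq_abs]
  nlinarith [sq_nonneg (|G (T (e k) t w) k| - 1), sq_abs (G (T (e k) t w) k)]

theorem ii_sq (h : ℝ → ℝ) (s : ℝ) :
    (∫ t in (0 : ℝ)..s, h t) ^ 2 = (∫ t in uIoc (0 : ℝ) s, h t) ^ 2 := by
  rw [← sq_abs, intervalIntegral.abs_integral_eq_abs_integral_uIoc, sq_abs]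

end CGidAux

open CGidAux

theorem HV.gid {F : E3 × Y → ℝ} {G : E3 × Y → E3} (h : HV ν F G) (k : Fin 3) (s : ℝ) :
    ∀ᵐ w ∂((volume : Measure E3).prod ν),
      F (w.1 + s • e k, w.2) - F w = ∫ t in (0 : ℝ)..s, G (w.1 + t • e k, w.2) k := by
  have h1 := ae_of_flip (aem_D h.l2.1 h.l2g.1 k s) (by
    filter_upwards [h.ld] with y hy
    filter_upwards [hy.gid k s] with x hx
    exact sub_eq_zero.2 hx)
  filter_upwards [h1] with w hw
  exact sub_eq_zero.1 hw

theorem HV.of_gid {F : E3 × Y → ℝ} {G : E3 × Y → E3} (h1 : MemLp F 2 (volume.prod ν))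
    (h2 : MemLp G 2 (volume.prod ν))
    (h : ∀ (k : Fin 3) (s : ℝ), ∀ᵐ w ∂((volume : Measure E3).prod ν),
      F (w.1 + s • e k, w.2) - F w = ∫ t in (0 : ℝ)..s, G (w.1 + t • e k, w.2) k) : HV ν F G := by
  refine ⟨h1, h2, ?_⟩
  have key : ∀ k : Fin 3, ∀ᵐ y ∂ν, ∀ᵐ x : E3, ∀ᵐ a : ℝ, ∀ᵐ b : ℝ,
      F (x + b • e k, y) - F (x + a • e k, y) = ∫ t in a..b, G (x + t • e k, y) k := by
    intro k
    have q : ∀ c : ℝ × ℝ → ℝ, Measurable c → AEStronglyMeasurable
        (fun p : (E3 × Y) × (ℝ × ℝ) => F (T (e k) (c p.2) p.1))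
        (((volume : Measure E3).prod ν).prod ((volume : Measure ℝ).prod (volume : Measure ℝ))) :=
      fun c hc => h1.1.comp_quasiMeasurePreserving (QuasiMeasurePreserving.prod_of_left
        (T_meas (e k) (hc.comp measurable_snd) measurable_fst)
        (Eventually.of_forall fun z => (T_mp ν (e k) (c z)).quasiMeasurePreserving))
    have hD : AEStronglyMeasurable (fun p : (E3 × Y) × (ℝ × ℝ) =>
        F (T (e k) p.2.2 p.1) - F (T (e k) p.2.1 p.1) -
          ∫ t in p.2.1..p.2.2, G (T (e k) t p.1) k)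
        (((volume : Measure E3).prod ν).prod ((volume : Measure ℝ).prod (volume : Measure ℝ))) :=
      ((q Prod.snd measurable_snd).sub (q Prod.fst measurable_fst)).sub
        (aem_ii (e k) Measure.quasiMeasurePreserving_fst (aem_coord h2.1 k)
          (measurable_fst.comp measurable_snd) (measurable_snd.comp measurable_snd))
    have h3 := ae_of_flip hD (Eventually.of_forall fun z => by
      filter_upwards [(T_mp ν (e k) z.1).quasiMeasurePreserving.ae (h k (z.2 - z.1))] with w hw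
      have e1 : ∀ t : ℝ, w.1 + z.1 • e k + t • e k = w.1 + (t + z.1) • e k := fun t => by
        rw [add_smul]; abel
      have e2 := intervalIntegral.integral_comp_add_right (a := 0) (b := z.2 - z.1)
        (fun t => G (w.1 + t • e k, w.2) k) z.1
      simp only [T, e1, sub_add_cancel] at hw
      rw [e2, zero_add, sub_add_cancel] at hw
      exact sub_eq_zero.2 hw)
    filter_upwards [ae_flip (Measure.ae_ae_of_ae_prod h3)] with y hy
    filter_upwards [hy] with x hx
    filter_upwards [Measure.ae_ae_of_ae_prod hx] with a ha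
    filter_upwards [ha] with b hb
    exact sub_eq_zero.1 hb
  have hsq := ((memLp_two_iff_integrable_sq_norm h2.1).1 h2).prod_left_ae
  filter_upwards [ae_all_iff.2 key, h1.1.prodMk_right, h2.1.prodMk_right, hsq] with y a b c d
  refine LD.of_pairs isOpen_univ (by rwa [Measure.restrict_univ]) (by rwa [Measure.restrict_univ])
    (fun K hK _ => ?_) fun k => ?_
  · have hm : MemLp (fun x => G (x, y)) 2 volume := (memLp_two_iff_integrable_sq_norm c).2 d
    exact (hm.norm.locallyIntegrable one_le_two).integrableOn_isCompact hK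
  · filter_upwards [a k] with x hx
    filter_upwards [hx] with p hp
    filter_upwards [hp] with q hq
    exact fun _ => hq

theorem H1.of_gid (h1 : MemLp f 2 volume) (h2 : MemLp g 2 volume)
    (h : ∀ (k : Fin 3) (s : ℝ), ∀ᵐ x : E3,
      f (x + s • e k) - f x = ∫ t in (0 : ℝ)..s, g (x + t • e k) k) : H1 f g := by
  have mp : MeasurePreserving Prod.fst ((volume : Measure E3).prod (Measure.dirac ())) volume :=
    measurePreserving_fst
  have h3 : HV (Measure.dirac ()) (fun w : E3 × Unit => f w.1) (fun w => g w.1) :=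
    HV.of_gid (h1.comp_measurePreserving mp) (h2.comp_measurePreserving mp)
      fun k s => mp.quasiMeasurePreserving.ae (h k s)
  obtain ⟨_, h4⟩ := h3.ld.exists
  exact ⟨h4, h1, h2⟩

theorem HV.closed {F : ℕ → E3 × Y → ℝ} {G : ℕ → E3 × Y → E3} {F0 : E3 × Y → ℝ}
    {G0 : E3 × Y → E3} (h : ∀ n, HV ν (F n) (G n)) (h1 : MemLp F0 2 (volume.prod ν))
    (h2 : MemLp G0 2 (volume.prod ν))
    (c1 : Tendsto (fun n => ∫ w, (F n w - F0 w) ^ 2 ∂(volume.prod ν)) atTop (𝓝 0))
    (c2 : Tendsto (fun n => ∫ w, ‖G n w - G0 w‖ ^ 2 ∂(volume.prod ν)) atTop (𝓝 0)) :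
    HV ν F0 G0 := by
  refine HV.of_gid h1 h2 fun k s => ?_
  obtain ⟨ρ, hρ⟩ : ∃ ρ : Measure ℝ, ρ = volume.restrict (uIoc (0 : ℝ) s) := ⟨_, rfl⟩
  have hfin : IsFiniteMeasure ρ := by
    rw [hρ]
    exact isFiniteMeasure_restrict.2 measure_Ioc_lt_top.ne
  obtain ⟨D, hD⟩ : ∃ D : E3 × Y → ℝ, D = fun w => F0 (T (e k) s w) - F0 w -
    ∫ t in (0 : ℝ)..s, G0 (T (e k) t w) k := ⟨_, rfl⟩
  have hDm : AEStronglyMeasurable D ((volume : Measure E3).prod ν) := by
    rw [hD]; exact aem_D h1.1 h2.1 k s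
  have main : ∀ n, Integrable (fun w => D w ^ 2) ((volume : Measure E3).prod ν) ∧
      ∫ w, D w ^ 2 ∂((volume : Measure E3).prod ν) ≤
        6 * ∫ w, (F n w - F0 w) ^ 2 ∂(volume.prod ν) +
        3 * ρ.real univ ^ 2 * ∫ w, ‖G n w - G0 w‖ ^ 2 ∂(volume.prod ν) := by
    intro n
    have iF : Integrable (fun w => (F n w - F0 w) ^ 2) ((volume : Measure E3).prod ν) :=
      ((h n).l2.sub h1).integrable_sq
    have iG : Integrable (fun w => ‖G n w - G0 w‖ ^ 2) ((volume : Measure E3).prod ν) :=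
      (memLp_two_iff_integrable_sq_norm ((h n).l2g.sub h2).1).1 ((h n).l2g.sub h2)
    have iFT : Integrable (fun w => (F n (T (e k) s w) - F0 (T (e k) s w)) ^ 2)
        ((volume : Measure E3).prod ν) := (T_mp ν (e k) s).integrable_comp_of_integrable iF
    have eFT : ∫ w, (F n (T (e k) s w) - F0 (T (e k) s w)) ^ 2 ∂((volume : Measure E3).prod ν) =
        ∫ w, (F n w - F0 w) ^ 2 ∂(volume.prod ν) := by
      have a1 := integral_map (μ := (volume : Measure E3).prod ν) (φ := T (e k) s)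
        (T_mp ν (e k) s).measurable.aemeasurable (f := fun w => (F n w - F0 w) ^ 2)
        (by rw [(T_mp ν (e k) s).map_eq]; exact iF.1)
      rw [(T_mp ν (e k) s).map_eq] at a1
      exact a1.symm
    obtain ⟨s1, s2⟩ := shear_int ρ (e k) iG
    have iI : Integrable (fun w => ∫ t, ‖G n (T (e k) t w) - G0 (T (e k) t w)‖ ^ 2 ∂ρ)
        ((volume : Measure E3).prod ν) := s1.integral_prod_left
    have iB : Integrable (fun w => 3 * (F n (T (e k) s w) - F0 (T (e k) s w)) ^ 2 +
        3 * (F n w - F0 w) ^ 2 +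
        3 * ρ.real univ * ∫ t, ‖G n (T (e k) t w) - G0 (T (e k) t w)‖ ^ 2 ∂ρ)
        ((volume : Measure E3).prod ν) :=
      ((iFT.const_mul 3).add (iF.const_mul 3)).add (iI.const_mul _)
    have hle : ∀ᵐ w ∂((volume : Measure E3).prod ν), D w ^ 2 ≤
        3 * (F n (T (e k) s w) - F0 (T (e k) s w)) ^ 2 + 3 * (F n w - F0 w) ^ 2 +
        3 * ρ.real univ * ∫ t, ‖G n (T (e k) t w) - G0 (T (e k) t w)‖ ^ 2 ∂ρ := by
      filter_upwards [(h n).gid k s, line_int ρ (h n).l2g k, line_int ρ h2 k, s1.prod_right_ae]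
        with w a1 a2 a3 a4
      have b1 := cs ρ (h := fun t => G n (T (e k) t w) k - G0 (T (e k) t w) k)
        (q := fun t => ‖G n (T (e k) t w) - G0 (T (e k) t w)‖ ^ 2) (a2.sub a3) a4
        fun t => coord_sq (G n (T (e k) t w) - G0 (T (e k) t w)) k
      have a2' : IntervalIntegrable (fun t => G n (T (e k) t w) k) volume 0 s :=
        intervalIntegrable_iff.2 (by rw [hρ] at a2; exact a2)
      have a3' : IntervalIntegrable (fun t => G0 (T (e k) t w) k) volume 0 s :=
        intervalIntegrable_iff.2 (by rw [hρ] at a3; exact a3)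
      have b2 := ii_sq (fun t => G n (T (e k) t w) k - G0 (T (e k) t w) k) s
      rw [← hρ, intervalIntegral.integral_sub a2' a3'] at b2
      rw [← b2] at b1
      have a1' : F n (T (e k) s w) - F n w = ∫ t in (0 : ℝ)..s, G n (T (e k) t w) k := a1
      rw [← a1'] at b1
      rw [hD]
      beta_reduce
      generalize F n (T (e k) s w) = x1 at *
      generalize F0 (T (e k) s w) = x2 at *
      generalize (∫ t in (0 : ℝ)..s, G0 (T (e k) t w) k) = x3 at *
      nlinarith [sq_nonneg ((x1 - x2) + (F n w - F0 w)),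
        sq_nonneg ((x1 - x2) + (x1 - F n w - x3)),
        sq_nonneg ((F n w - F0 w) - (x1 - F n w - x3))]
    have iD : Integrable (fun w => D w ^ 2) ((volume : Measure E3).prod ν) := by
      refine iB.mono' (hDm.pow 2) ?_
      filter_upwards [hle] with w hw
      rwa [Real.norm_of_nonneg (sq_nonneg _)]
    refine ⟨iD, (integral_mono_ae iD iB hle).trans (le_of_eq ?_)⟩
    have iA : Integrable (fun w => 3 * (F n (T (e k) s w) - F0 (T (e k) s w)) ^ 2 +
        3 * (F n w - F0 w) ^ 2) ((volume : Measure E3).prod ν) :=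
      (iFT.const_mul 3).add (iF.const_mul 3)
    rw [integral_add iA (iI.const_mul _),
      integral_add (iFT.const_mul 3) (iF.const_mul 3), integral_const_mul, integral_const_mul,
      integral_const_mul, eFT, s2]
    ring
  have hlim := (c1.const_mul 6).add (c2.const_mul (3 * ρ.real univ ^ 2))
  rw [mul_zero, mul_zero, add_zero] at hlim
  have h0 : ∫ w, D w ^ 2 ∂((volume : Measure E3).prod ν) = 0 :=
    le_antisymm (ge_of_tendsto' hlim fun n => (main n).2) (integral_nonneg fun w => sq_nonneg _)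
  filter_upwards [(integral_eq_zero_iff_of_nonneg (fun w => sq_nonneg (D w)) (main 0).1).1 h0]
    with w hw
  have hw' : D w = 0 := pow_eq_zero_iff two_ne_zero |>.1 hw
  rw [hD] at hw'
  exact sub_eq_zero.1 hw'

theorem H1.closed {F : ℕ → E3 → ℝ} {G : ℕ → E3 → E3} (h : ∀ n, H1 (F n) (G n))
    (h1 : MemLp f 2 volume) (h2 : MemLp g 2 volume)
    (c1 : Tendsto (fun n => ∫ x, (F n x - f x) ^ 2) atTop (𝓝 0))
    (c2 : Tendsto (fun n => ∫ x, ‖G n x - g x‖ ^ 2) atTop (𝓝 0)) : H1 f g := by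
  have mp : MeasurePreserving Prod.fst ((volume : Measure E3).prod (Measure.dirac ())) volume :=
    measurePreserving_fst
  have hi : ∀ φ : E3 → ℝ, ∫ w, φ w.1 ∂((volume : Measure E3).prod (Measure.dirac ())) =
      ∫ x, φ x := fun φ => by
    rw [integral_fun_fst]; simp
  have h3 : HV (Measure.dirac ()) (fun w : E3 × Unit => f w.1) (fun w => g w.1) :=
    HV.closed (F := fun n w => F n w.1) (G := fun n w => G n w.1)
      (fun n => ⟨(h n).l2.comp_measurePreserving mp, (h n).l2g.comp_measurePreserving mp,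
        Eventually.of_forall fun _ => (h n).ld⟩)
      (h1.comp_measurePreserving mp) (h2.comp_measurePreserving mp)
      (c1.congr fun n => (hi fun x => (F n x - f x) ^ 2).symm)
      (c2.congr fun n => (hi fun x => ‖G n x - g x‖ ^ 2).symm)
  obtain ⟨_, h4⟩ := h3.ld.exists
  exact ⟨h4, h1, h2⟩

end

end Vale.Agent.P363
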