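import Vale.Agent.P363.CLd3

/-! P363, block C: integration by parts. -/

open MeasureTheory Set Metric Filter Topology
open scoped RealInnerProductSpace

namespace Vale.Agent.P363

noncomputable section

variable {U : Set E3} {f : E3 → ℝ} {g : E3 → E3}

theorem LD.integral_zero (h : LD univ f g) (k : Fin 3) (h1 : Integrable f)
    (h2 : Integrable (fun x => g x k)) : ∫ x, g x k = 0 := by
  refine integral_zero_of_lines k h2 ?_
  filter_upwards [h.line k, ae_line_integrable k h1, ae_line_integrable k h2]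
    with x ⟨F, a1, a2, a3⟩ b1 b2
  exact (ac_global (h := fun t => g (x + t • e k) k) (fun a b => a2 a b fun _ _ => trivial)
    (a3.mono fun t ht => ht trivial) (b1.congr (a1.mono fun t ht => ht trivial)) b2).1

theorem CIntAx_inner (p q : E3) : ⟪p, q⟫ = ∑ k, p k * q k := by
  simp [PiLp.inner_apply, mul_comm]

theorem CIntAx_sum {X : E3 → E3} {G : Fin 3 → E3 → ℝ}
    (i2 : ∀ k, Integrable (fun x => f x * G k x)) (i3 : ∀ k, Integrable (fun x => X x k * g x k))
    (hz : ∀ k, ∫ x, (f x * G k x + X x k * g x k) = 0) :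
    Integrable (fun x => f x * ∑ k, G k x) ∧ Integrable (fun x => ⟪X x, g x⟫) ∧
    ∫ x, (f x * ∑ k, G k x + ⟪X x, g x⟫) = 0 := by
  simp only [CIntAx_inner, Finset.mul_sum, ← Finset.sum_add_distrib]
  refine ⟨integrable_finsetSum _ fun k _ => i2 k, integrable_finsetSum _ fun k _ => i3 k, ?_⟩
  rw [integral_finsetSum (f := fun k x => f x * G k x + X x k * g x k) _
    fun k _ => (i2 k).add (i3 k)]
  exact Finset.sum_eq_zero fun k _ => hz k

theorem CIntAx_int {φ u : E3 → ℝ} {K : Set E3} (hu : Integrable u) (hφ : ContinuousOn φ K)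
    (hK : IsCompact K) (h0 : ∀ x, x ∉ K → u x = 0) : Integrable fun x => u x * φ x := by
  refine (integrableOn_iff_integrable_of_support_subset (s := K) fun x hx => ?_).1
    (hu.integrableOn.mul_continuousOn hφ hK)
  by_contra hc
  exact hx (by simp [h0 x hc])

/-- Divergence theorem against a vector field whose components are `LD`. -/
theorem div_lemma {X : E3 → E3} {G : Fin 3 → E3 → E3} (h : LD univ f g)
    (hX : ∀ k, LD univ (fun x => X x k) (G k)) (i1 : ∀ k, Integrable (fun x => f x * X x k))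
    (i2 : ∀ k, Integrable (fun x => f x * G k x k)) (i3 : ∀ k, Integrable (fun x => X x k * g x k)) :
    ∫ x, (f x * ∑ k, G k x k + ⟪X x, g x⟫) = 0 := by
  exact (CIntAx_sum (G := fun k x => G k x k) i2 i3 fun k =>
    (h.mul isOpen_univ (hX k)).integral_zero k (i1 k) ((i2 k).add (i3 k))).2.2

/-- Divergence theorem for a `C¹` field on an open set and a compactly supported function. -/
theorem div_cpt {X : E3 → E3} {H : E3 → E3 →L[ℝ] E3} {K : Set E3} (hU : IsOpen U)
    (hX : ∀ x ∈ U, HasFDerivAt X (H x) x) (hH : ContinuousOn H U) (h : LD univ f g)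
    (h1 : Integrable f) (h2 : Integrable g) (hK : IsCompact K) (hKU : K ⊆ U)
    (h0 : ∀ x, x ∉ K → f x = 0 ∧ g x = 0) :
    Integrable (fun x => f x * ∑ k, H x (e k) k) ∧ Integrable (fun x => ⟪X x, g x⟫) ∧
    ∫ x, (f x * ∑ k, H x (e k) k + ⟪X x, g x⟫) = 0 := by
  have hXc : ∀ k, ContinuousOn (fun x => X x k) K := fun k x hx =>
    ((EuclideanSpace.proj k : E3 →L[ℝ] ℝ).continuous.continuousAt.comp
      (hX x (hKU hx)).continuousAt).continuousWithinAt
  have hHc : ∀ j k, ContinuousOn (fun x => H x (e j) k) U := fun j k =>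
    (EuclideanSpace.proj k : E3 →L[ℝ] ℝ).continuous.comp_continuousOn
      (hH.clm_apply continuousOn_const)
  have i1 : ∀ k, Integrable fun x => f x * X x k := fun k =>
    CIntAx_int h1 (hXc k) hK fun x hx => (h0 x hx).1
  have i2 : ∀ k, Integrable fun x => f x * H x (e k) k := fun k =>
    CIntAx_int h1 ((hHc k k).mono hKU) hK fun x hx => (h0 x hx).1
  have i3 : ∀ k, Integrable fun x => X x k * g x k := fun k =>
    (CIntAx_int (u := fun x => g x k) ((EuclideanSpace.proj k : E3 →L[ℝ] ℝ).integrable_comp h2)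
      (hXc k) hK fun x hx => by simp [(h0 x hx).2]).congr
      (Eventually.of_forall fun x => mul_comm _ _)
  refine CIntAx_sum (G := fun k x => H x (e k) k) i2 i3 fun k => ?_
  have a1 : LD U (fun x => X x k) fun x => WithLp.toLp 2 fun j => H x (e j) k := by
    refine LD.of_c1 hU (fun x hx => ?_)
      ((PiLp.continuous_toLp 2 _).comp_continuousOn (continuousOn_pi.2 fun j => hHc j k))
    refine ((EuclideanSpace.proj k : E3 →L[ℝ] ℝ).hasFDerivAt.comp x (hX x hx)).congr_fderiv ?_
    ext v
    have a2 : v = ∑ j, v j • e j := by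
      ext j
      simp [e, Pi.single_apply]
    rw [innerSL_apply_apply, CIntAx_inner]
    conv_lhs => rw [a2]
    simp [mul_comm]
  have a2 := ((h.mono (subset_univ U)).mul hU a1).glue hU hK.isClosed hKU
    (Eventually.of_forall fun x _ hx => by simp [(h0 x hx).1])
  rw [indicator_eq_self.2 fun x hx => by_contra fun hc => hx (by simp [(h0 x hc).1]),
    indicator_eq_self.2 fun x hx => by_contra fun hc => hx (by simp [h0 x hc])] at a2
  exact a2.integral_zero k (i1 k) ((i2 k).add (i3 k))

theorem C2.weak {B l : E3 → ℝ} {gB : E3 → E3} {K : Set E3} (hB : C2 U B gB l) (h : LD univ f g)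
    (h1 : Integrable f) (h2 : Integrable g) (hK : IsCompact K) (hKU : K ⊆ U)
    (h0 : ∀ x, x ∉ K → f x = 0 ∧ g x = 0) :
    Integrable (fun x => ⟪gB x, g x⟫) ∧ Integrable (fun x => l x * f x) ∧
    ∫ x, (⟪gB x, g x⟫ + l x * f x) = 0 := by
  obtain ⟨H, hH, hd⟩ := hB.d2
  obtain ⟨a1, a2, a3⟩ := div_cpt hB.op (fun x hx => (hd x hx).1) hH h h1 h2 hK hKU h0
  have e1 : ∀ x, f x * ∑ k, H x (e k) k = l x * f x := fun x => by
    by_cases hx : x ∈ K
    · rw [(hd x (hKU hx)).2, mul_comm]
    · rw [(h0 x hx).1, zero_mul, mul_zero]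
  simp only [e1] at a1 a3
  exact ⟨a2, a1, by simpa only [add_comm] using a3⟩

/-- Mass in a thin strip. -/
theorem strip_bound (h : H1 f g) {a : ℝ} (ha : 0 ≤ a) :
    ∫ x in {x : E3 | |x 2| ≤ a}, f x ^ 2 ≤ 2 * a * ((∫ x, f x ^ 2) + ∫ x, ‖g x‖ ^ 2) := by
  have hS : MeasurableSet {x : E3 | |x 2| ≤ a} :=
    (isClosed_le (by fun_prop) continuous_const).measurableSet
  have i1 : Integrable fun x => f x ^ 2 := h.l2.integrable_sq
  have i2 : Integrable fun x => ‖g x‖ ^ 2 := h.l2g.norm.integrable_sq
  have i3 : Integrable fun x => f x ^ 2 + ‖g x‖ ^ 2 := i1.add i2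
  have hb : ∀ x, |((2 * f x) • g x) 2| ≤ f x ^ 2 + ‖g x‖ ^ 2 := fun x => by
    have b1 : |g x 2| ≤ ‖g x‖ := PiLp.norm_apply_le (g x) 2
    have b2 := mul_le_mul_of_nonneg_left b1 (abs_nonneg (f x))
    rw [PiLp.smul_apply, smul_eq_mul, abs_mul, abs_mul, abs_two]
    nlinarith [sq_nonneg (|f x| - ‖g x‖), sq_abs (f x)]
  have hl := h.ld.sq isOpen_univ
  have i4 : Integrable fun x => ((2 * f x) • g x) 2 := by
    refine i3.mono' ?_ (Eventually.of_forall hb)
    have := hl.mg
    rw [Measure.restrict_univ] at this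
    exact (EuclideanSpace.proj 2 : E3 →L[ℝ] ℝ).continuous.comp_aestronglyMeasurable this
  have i5 := i1.indicator hS
  have key := integral_nonpos_of_lines 2 (i5.sub (i3.const_mul (2 * a))) (by
    filter_upwards [hl.line 2, ae_line_integrable 2 i1, ae_line_integrable 2 i3,
      ae_line_integrable 2 i4, ae_line_integrable 2 i5] with x ⟨F, a1, a2, a3⟩ b1 b3 b4 b5
    have c1 := (ac_global (h := fun t => ((2 * f (x + t • e 2)) • g (x + t • e 2)) 2)
      (fun a b => a2 a b fun _ _ => trivial) (a3.mono fun t ht => ht trivial)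
      (b1.congr (a1.mono fun t ht => ht trivial)) b4).2
    have c2 := integral_mono b4.abs b3 fun t => hb _
    set M := ∫ t : ℝ, (f (x + t • e 2) ^ 2 + ‖g (x + t • e 2)‖ ^ 2) with hM
    have c3 : ∫ t : ℝ, {x : E3 | |x 2| ≤ a}.indicator (fun x => f x ^ 2) (x + t • e 2)
        ≤ ∫ t : ℝ, (Icc (-a - x 2) (a - x 2)).indicator (fun _ => M) t := by
      refine integral_mono_ae b5 ((integrableOn_const (by simp)).integrable_indicator
        measurableSet_Icc) ?_
      filter_upwards [a1] with t ht
      have c4 : (x + t • e 2) 2 = x 2 + t := by simp [e]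
      by_cases c5 : t ∈ Icc (-a - x 2) (a - x 2)
      · rw [indicator_of_mem c5]
        refine (indicator_le_self' (fun _ _ => sq_nonneg _) _).trans ?_
        exact (ht trivial).le.trans ((le_abs_self _).trans ((c1 t).trans c2))
      · rw [indicator_of_notMem c5, indicator_of_notMem]
        intro c6
        rw [mem_ofPred_eq, c4, abs_le] at c6
        exact c5 ⟨by linarith [c6.1], by linarith [c6.2]⟩
    rw [integral_indicator_const _ measurableSet_Icc, Real.volume_real_Icc_of_le (by linarith),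
      smul_eq_mul] at c3
    simp only [Pi.sub_apply]
    rw [integral_sub b5 (b3.const_mul _), integral_const_mul]
    linarith)
  simp only [Pi.sub_apply] at key
  rw [integral_sub i5 (i3.const_mul _), integral_const_mul, integral_add i1 i2,
    integral_indicator hS] at key
  linarith

end

end Vale.Agent.P363
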