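import Vale.Agent.P363.CSgA

/-! P363, block C: the reflection, distances to the nuclei, permutations. -/

open MeasureTheory Set Metric Filter Topology
open scoped RealInnerProductSpace

namespace Vale.Agent.P363

noncomputable section

theorem csg_cont_coord (k : Fin 3) : Continuous (fun x : E3 => x k) := by
  fun_prop

theorem isOpen_Hp : IsOpen Hp :=
  isOpen_lt continuous_const (csg_cont_coord 2)

theorem csg_nA (L : ℝ) : sg (nA L) = -nA L := by
  unfold sg nA
  have : (L • e 2 : E3) 2 = L := by simp [e_apply]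
  rw [this, mul_smul, two_smul]
  abel

theorem csg_nA_norm {L : ℝ} (hL : 0 ≤ L) : ‖nA L‖ = L := by
  unfold nA
  rw [norm_smul, norm_e, Real.norm_eq_abs, abs_of_nonneg hL, mul_one]

theorem rA_sg (L : ℝ) (x : E3) : rA L (sg x) = rB L x := by
  unfold rA rB
  rw [← norm_sg (x + nA L), sg_add, csg_nA, sub_eq_add_neg]

theorem rB_sg (L : ℝ) (x : E3) : rB L (sg x) = rA L x := by
  rw [← rA_sg, sg_sg]

theorem V_sg (L : ℝ) (x : E3) : V L (sg x) = V L x := by
  unfold V
  rw [rA_sg, rB_sg, add_comm]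

theorem csg_nA_sq (L : ℝ) : ‖nA L‖ ^ 2 = L ^ 2 := by
  unfold nA
  rw [norm_smul, norm_e, Real.norm_eq_abs, mul_one, sq_abs]

theorem csg_inner_nA (L : ℝ) (x : E3) : ⟪x, nA L⟫ = L * x 2 := by
  unfold nA
  rw [real_inner_smul_right, inner_e]

theorem rA_sq (L : ℝ) (x : E3) : rA L x ^ 2 = ‖x‖ ^ 2 - 2 * L * x 2 + L ^ 2 := by
  unfold rA
  rw [norm_sub_sq_real, csg_inner_nA, csg_nA_sq]
  ring

theorem rB_sq (L : ℝ) (x : E3) : rB L x ^ 2 = ‖x‖ ^ 2 + 2 * L * x 2 + L ^ 2 := by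
  unfold rB
  rw [norm_add_sq_real, csg_inner_nA, csg_nA_sq]
  ring

theorem rA_le_rB {L : ℝ} (hL : 0 ≤ L) {x : E3} (hx : 0 ≤ x 2) : rA L x ≤ rB L x ∧ L ≤ rB L x := by
  have hA := rA_sq L x
  have hB := rB_sq L x
  have h0 : 0 ≤ rB L x := norm_nonneg _
  have h1 : 0 ≤ L * x 2 := mul_nonneg hL hx
  constructor
  · apply abs_le_of_sq_le_sq' _ h0 |>.2
    nlinarith
  · apply abs_le_of_sq_le_sq' _ h0 |>.2
    nlinarith [sq_nonneg ‖x‖]

theorem abs_rA_sub {L : ℝ} (hL : 0 ≤ L) (x : E3) : |rA L x - ‖x‖| ≤ L ∧ |rB L x - ‖x‖| ≤ L := by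
  constructor
  · have := abs_norm_sub_norm_le (x - nA L) x
    rw [sub_sub_cancel_left, norm_neg, csg_nA_norm hL] at this
    exact this
  · have := abs_norm_sub_norm_le (x + nA L) x
    rw [add_sub_cancel_left, csg_nA_norm hL] at this
    exact this

theorem continuous_rA (L : ℝ) : Continuous (rA L) ∧ Continuous (rB L) := by
  constructor
  · unfold rA; fun_prop
  · unfold rB; fun_prop

theorem measurable_V (L : ℝ) : Measurable (V L) := by
  unfold V
  exact (((continuous_rA L).1.measurable.inv).add ((continuous_rA L).2.measurable.inv)).neg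

theorem csg_mem_D {L : ℝ} {x : E3} : x ∈ D L ↔ 0 < rA L x ∧ 0 < rB L x := by
  unfold D rA rB
  simp only [mem_ofPred_eq, norm_pos_iff, sub_ne_zero, ne_eq, add_eq_zero_iff_eq_neg]

theorem continuousOn_V (L : ℝ) : ContinuousOn (V L) (D L) := by
  unfold V
  refine ContinuousOn.neg (ContinuousOn.add ?_ ?_)
  · exact (continuous_rA L).1.continuousOn.inv₀ fun x hx => (csg_mem_D.1 hx).1.ne'
  · exact (continuous_rA L).2.continuousOn.inv₀ fun x hx => (csg_mem_D.1 hx).2.ne'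

theorem isOpen_D (L : ℝ) : IsOpen (D L) :=
  (isOpen_ne (x := nA L)).inter (isOpen_ne (x := -nA L))

theorem ae_mem_D (L : ℝ) : ∀ᵐ x : E3, x ∈ D L := by
  have h1 : ∀ᵐ x : E3, x ≠ nA L := by simp [ae_iff]
  have h2 : ∀ᵐ x : E3, x ≠ -nA L := by simp [ae_iff]
  filter_upwards [h1, h2] with x a b using ⟨a, b⟩

theorem mem_D_sg {L : ℝ} {x : E3} (h : x ∈ D L) : sg x ∈ D L := by
  rw [csg_mem_D] at h ⊢
  rw [rA_sg, rB_sg]
  exact ⟨h.2, h.1⟩

theorem isOpen_Ext (ρ : ℝ) : IsOpen (Ext ρ) :=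
  isOpen_lt continuous_const continuous_norm

theorem isOpen_Ext2 (L ρ : ℝ) : IsOpen (Ext2 L ρ) :=
  (isOpen_lt continuous_const (continuous_rA L).1).inter
    (isOpen_lt continuous_const (continuous_rA L).2)

theorem Ext_subset_Ext2 {L ρ r0 : ℝ} (hL : 0 ≤ L) (h : L + r0 ≤ ρ) : Ext ρ ⊆ Ext2 L r0 := by
  intro x hx
  have hx' : ρ < ‖x‖ := hx
  have h1 := abs_le.1 (abs_rA_sub hL x).1
  have h2 := abs_le.1 (abs_rA_sub hL x).2
  exact ⟨by linarith [h1.1], by linarith [h2.1]⟩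

theorem Ext2_subset_D {L ρ : ℝ} (h : 0 ≤ ρ) : Ext2 L ρ ⊆ D L := by
  intro x hx
  exact csg_mem_D.2 ⟨h.trans_lt hx.1, h.trans_lt hx.2⟩

theorem Ext_subset_D {L ρ : ℝ} (hL : 0 ≤ L) (h : L ≤ ρ) : Ext ρ ⊆ D L :=
  (Ext_subset_Ext2 (r0 := 0) hL (by linarith)).trans (Ext2_subset_D le_rfl)

theorem isCompact_Blk (L ρ s : ℝ) : IsCompact (Blk L ρ s) := by
  have hc : IsClosed (Blk L ρ s) :=
    (isClosed_le continuous_norm continuous_const).inter
      ((isClosed_le continuous_const (continuous_rA L).1).inter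
        (isClosed_le continuous_const (continuous_rA L).2))
  refine (isCompact_closedBall (0 : E3) ρ).of_isClosed_subset hc fun x hx => ?_
  rw [mem_closedBall, dist_zero_right]
  exact hx.1

theorem Blk_subset_D {L ρ s : ℝ} (h : 0 < s) : Blk L ρ s ⊆ D L := by
  intro x hx
  exact csg_mem_D.2 ⟨h.trans_le hx.2.1, h.trans_le hx.2.2⟩

theorem mp_swap6 : MeasurePreserving (Prod.swap : E6 → E6) volume volume :=
  Measure.measurePreserving_swap

theorem mp_p12 : MeasurePreserving p12 (volume : Measure E9) volume := by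
  have a := measurePreserving_prodAssoc (volume : Measure E3) (volume : Measure E3)
    (volume : Measure E3)
  have b : MeasurePreserving (Prod.map (Prod.swap : E6 → E6) (id : E3 → E3))
      ((volume : Measure E6).prod (volume : Measure E3))
      ((volume : Measure E6).prod (volume : Measure E3)) :=
    mp_swap6.prod (MeasurePreserving.id _)
  exact (a.comp b).comp a.symm

theorem csg_mp_p23 : MeasurePreserving (Prod.map (id : E3 → E3) (Prod.swap : E6 → E6))
    (volume : Measure E9) volume :=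
  (MeasurePreserving.id _).prod mp_swap6

theorem mp_p13 : MeasurePreserving p13 (volume : Measure E9) volume :=
  (csg_mp_p23.comp mp_p12).comp csg_mp_p23

theorem mp_sg6 : MeasurePreserving sg6 (volume : Measure E6) volume :=
  mp_sg.prod mp_sg

theorem mp_sg9 : MeasurePreserving sg9 (volume : Measure E9) volume :=
  mp_sg.prod mp_sg6

theorem csg_int {X : Type} [MeasurableSpace X] {μ : Measure X} {T : X → X}
    (h : MeasurePreserving T μ μ) (hi : Function.Involutive T) (f : X → ℝ) :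
    ∫ w, f (T w) ∂μ = ∫ w, f w ∂μ :=
  h.integral_comp (MeasurableEquiv.ofInvolutive T hi h.measurable).measurableEmbedding f

theorem integral_p12 (f : E9 → ℝ) : ∫ w, f (p12 w) = ∫ w, f w :=
  csg_int mp_p12 (fun _ => rfl) f

theorem integral_p13 (f : E9 → ℝ) : ∫ w, f (p13 w) = ∫ w, f w :=
  csg_int mp_p13 (fun _ => rfl) f

theorem csg_sg6_inv : Function.Involutive sg6 := fun w => by
  simp only [sg6, sg_sg]

theorem integral_sg6 (f : E6 → ℝ) : ∫ w, f (sg6 w) = ∫ w, f w :=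
  csg_int mp_sg6 csg_sg6_inv f

theorem integral_sg9 (f : E9 → ℝ) : ∫ w, f (sg9 w) = ∫ w, f w :=
  csg_int mp_sg9 (fun w => by simp only [sg9, sg_sg, csg_sg6_inv w.2]) f

theorem integral_swap6 (f : E6 → ℝ) : ∫ w : E6, f w.swap = ∫ w, f w :=
  csg_int mp_swap6 (fun _ => rfl) f

theorem W2_swap (L lam : ℝ) (w : E6) : W2 L lam w.swap = W2 L lam w := by
  unfold W2
  simp only [Prod.fst_swap, Prod.snd_swap]
  rw [norm_sub_rev w.2 w.1]
  ring

theorem W2_sg6 (L lam : ℝ) (w : E6) : W2 L lam (sg6 w) = W2 L lam w := by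
  unfold W2 sg6
  simp only [V_sg, ← sg_sub, norm_sg]

theorem Mx_swap (x : E3) (w : E6) : Mx x w.swap = Mx x w := by
  unfold Mx
  simp only [Prod.fst_swap, Prod.snd_swap]
  ring

theorem Mx_sg (x : E3) (w : E6) : Mx (sg x) (sg6 w) = Mx x w := by
  unfold Mx sg6
  simp only [← sg_sub, norm_sg]

theorem W3_p12 (L lam : ℝ) (w : E9) : W3 L lam (p12 w) = W3 L lam w := by
  unfold W3 W2 Mx p12
  simp only
  rw [norm_sub_rev w.2.1 w.1]
  ring

theorem W3_p13 (L lam : ℝ) (w : E9) : W3 L lam (p13 w) = W3 L lam w := by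
  unfold W3 W2 Mx p13
  simp only
  rw [norm_sub_rev w.2.1 w.1, norm_sub_rev w.2.2 w.1, norm_sub_rev w.2.2 w.2.1]
  ring

theorem W3_sg9 (L lam : ℝ) (w : E9) : W3 L lam (sg9 w) = W3 L lam w := by
  unfold W3 sg9
  simp only [V_sg, W2_sg6, Mx_sg]

end

end Vale.Agent.P363
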