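import Vale.Agent.P363.CVec1A

/-! P363, block C: vector valued functions: algebra. -/

open MeasureTheory Set Metric Filter Topology
open scoped RealInnerProductSpace

namespace Vale.Agent.P363

noncomputable section

variable {Y : Type} [MeasurableSpace Y] {ν : Measure Y} [SFinite ν] {U : Set E3}
  {F F' : E3 × Y → ℝ} {G G' : E3 × Y → E3}

namespace CVec1Aux

theorem slice2 {α : Type} [NormedAddCommGroup α] {μ : Measure E3} [SFinite μ] {a : E3 × Y → α}
    (h : MemLp a 2 (μ.prod ν)) : (∀ᵐ x ∂μ, MemLp (fun y => a (x, y)) 2 ν) ∧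
      Integrable (fun x => ∫ y, ‖a (x, y)‖ ^ 2 ∂ν) μ ∧
      ∫ x, ∫ y, ‖a (x, y)‖ ^ 2 ∂ν ∂μ = ∫ w, ‖a w‖ ^ 2 ∂(μ.prod ν) := by
  have hi := (memLp_two_iff_integrable_sq_norm h.1).1 h
  refine ⟨?_, hi.integral_prod_left, (integral_prod _ hi).symm⟩
  filter_upwards [h.1.prodMk_left, hi.prod_right_ae] with x h1 h2
  exact (memLp_two_iff_integrable_sq_norm h1).2 h2

theorem smul_nrm {μ : Measure E3} [SFinite μ] {gm : E3 → E3} (h : MemLp F 2 (μ.prod ν))
    (hm : AEStronglyMeasurable gm μ) (hg : MemLp (fun x => nrm ν F x • gm x) 2 μ) :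
    MemLp (fun w : E3 × Y => F w • gm w.1) 2 (μ.prod ν) := by
  have m1 : AEStronglyMeasurable (fun w : E3 × Y => F w • gm w.1) (μ.prod ν) :=
    h.1.smul hm.comp_fst
  refine (memLp_two_iff_integrable_sq_norm m1).2 ((integrable_prod_iff (m1.norm.pow 2)).2
    ⟨?_, ((memLp_two_iff_integrable_sq_norm hg.1).1 hg).congr (ae_of_all _ fun x => ?_)⟩)
  · filter_upwards [(slice2 h).1] with x hx
    simp only [Pi.pow_apply, norm_smul, mul_pow]
    exact ((memLp_two_iff_integrable_sq_norm hx.1).1 hx).mul_const _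
  · simp only [Pi.pow_apply, norm_smul, mul_pow, Real.norm_eq_abs, abs_mul, abs_pow, sq_abs,
      integral_mul_const, nrm]
    rw [Real.sq_sqrt (integral_nonneg fun _ => sq_nonneg _)]

theorem mul_bd {Z α : Type} [MeasurableSpace Z] [NormedAddCommGroup α] [NormedSpace ℝ α]
    {μ : Measure Z} {m : Z → ℝ} {a : Z → α} (ha : MemLp a 2 μ) (hm : AEStronglyMeasurable m μ)
    {M : ℝ} (hb : ∀ᵐ w ∂μ, |m w| ≤ M) : MemLp (fun w => m w • a w) 2 μ := by
  refine ha.of_le_mul (c := M) (hm.smul ha.1) (hb.mono fun w hw => ?_)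
  rw [norm_smul]
  exact mul_le_mul_of_nonneg_right hw (norm_nonneg _)

theorem cnt (ν : Measure Y) [SFinite ν] : (Measure.count : Measure Bool).prod ν
    = ν.map (Prod.mk true) + ν.map (Prod.mk false) := by
  rw [Measure.count, Measure.sum_bool, Measure.add_prod, Measure.dirac_prod, Measure.dirac_prod]

theorem join {α : Type} [NormedAddCommGroup α] {a b : E3 × Y → α}
    (ha : MemLp a 2 (volume.prod ν)) (hb : MemLp b 2 (volume.prod ν)) :
    MemLp (fun w : E3 × (Bool × Y) => if w.2.1 then a (w.1, w.2.2) else b (w.1, w.2.2)) 2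
      (volume.prod (Measure.count.prod ν)) := by
  have e : ∀ c : Bool, (volume : Measure E3).prod (ν.map (Prod.mk c))
      = (volume.prod ν).map (Prod.map id (Prod.mk c)) := fun c => by
    rw [← Measure.map_prod_map _ _ measurable_id measurable_prodMk_left, Measure.map_id]
  have me : ∀ c : Bool, MeasurableEmbedding (Prod.map (id : E3 → E3) (Prod.mk c : Y → _)) :=
    fun c => MeasurableEmbedding.id.prodMap (measurableEmbedding_prodMk_left c)
  have h1 : MemLp (fun w : E3 × (Bool × Y) => if w.2.1 then a (w.1, w.2.2) else b (w.1, w.2.2))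
      2 ((volume.prod ν).map (Prod.map id (Prod.mk true))) :=
    (me true).memLp_map_measure_iff.2 ha
  have h2 : MemLp (fun w : E3 × (Bool × Y) => if w.2.1 then a (w.1, w.2.2) else b (w.1, w.2.2))
      2 ((volume.prod ν).map (Prod.map id (Prod.mk false))) :=
    (me false).memLp_map_measure_iff.2 hb
  rw [cnt, Measure.prod_add, e, e]
  exact (memLp_two_iff_integrable_sq_norm (h1.1.add_measure h2.1)).2
    (((memLp_two_iff_integrable_sq_norm h1.1).1 h1).add_measure
      ((memLp_two_iff_integrable_sq_norm h2.1).1 h2))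

end CVec1Aux

open CVec1Aux

theorem HV.tensor {φ : E3 → ℝ} {gφ : E3 → E3} {T : Y → ℝ} (h : H1 φ gφ) (hT : MemLp T 2 ν) :
    HV ν (fun w => φ w.1 * T w.2) (fun w => T w.2 • gφ w.1) := by
  refine ⟨memLp_tensor h.l2 hT, (memLp_tensor h.l2g.norm hT).of_le
    (hT.1.comp_snd.smul h.l2g.1.comp_fst) (ae_of_all _ fun w => ?_), ae_of_all _ fun y => ?_⟩
  · rw [norm_smul, norm_mul, norm_norm, mul_comm]
  · simpa only [mul_comm] using h.ld.cmul (T y)

theorem HV.mulg {m : E3 × Y → ℝ} {gm : E3 × Y → E3} (h : HV ν F G)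
    (hm : ∀ᵐ y ∂ν, LD univ (fun x => m (x, y)) (fun x => gm (x, y)))
    (m1 : AEStronglyMeasurable m (volume.prod ν)) {M : ℝ}
    (hb : ∀ᵐ w ∂((volume : Measure E3).prod ν), |m w| ≤ M)
    (hg : MemLp (fun w => F w • gm w) 2 (volume.prod ν)) :
    HV ν (fun w => m w * F w) (fun w => m w • G w + F w • gm w) := by
  refine ⟨mul_bd h.l2 m1 hb, (mul_bd h.l2g m1 hb).add hg, ?_⟩
  filter_upwards [hm, h.ld] with y h1 h2 using h1.mul isOpen_univ h2

theorem HV.mul1 {m : E3 → ℝ} {gm : E3 → E3} (h : HV ν F G) (hm : LD univ m gm) {M : ℝ}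
    (hb : ∀ᵐ x : E3, |m x| ≤ M) (hg : MemLp (fun x => nrm ν F x • gm x) 2 volume) :
    HV ν (fun w => m w.1 * F w) (fun w => m w.1 • G w + F w • gm w.1) := by
  have m1 := hm.mf
  have m2 := hm.mg
  rw [Measure.restrict_univ] at m1 m2
  exact h.mulg (m := fun w => m w.1) (gm := fun w => gm w.1) (ae_of_all _ fun _ => hm)
    m1.comp_fst (Measure.quasiMeasurePreserving_fst.ae hb) (smul_nrm h.l2 m2 hg)

theorem LV.mul1 {m : E3 → ℝ} {gm : E3 → E3} (hU : IsOpen U) (h : LV U ν F G) (hm : LD U m gm)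
    (hb : LocB U m) (hg : Loc2 U (fun x => nrm ν F x • gm x)) :
    LV U ν (fun w => m w.1 * F w) (fun w => m w.1 • G w + F w • gm w.1) := by
  have key : ∀ K, IsCompact K → K ⊆ U →
      AEStronglyMeasurable (fun w : E3 × Y => m w.1) ((volume.restrict K).prod ν) ∧
      ∃ M, ∀ᵐ w ∂((volume : Measure E3).restrict K).prod ν, |m w.1| ≤ M := by
    intro K h1 h2
    obtain ⟨M, hM⟩ := hb K h1 h2
    exact ⟨(hm.mf.mono_measure (Measure.restrict_mono h2 le_rfl)).comp_fst, M,
      Measure.quasiMeasurePreserving_fst.ae ((ae_restrict_iff' h1.measurableSet).2 hM)⟩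
  refine ⟨fun K h1 h2 => ?_, fun K h1 h2 => ?_, ?_⟩
  · obtain ⟨k1, M, k2⟩ := key K h1 h2
    exact mul_bd (h.l2 K h1 h2) k1 k2
  · obtain ⟨k1, M, k2⟩ := key K h1 h2
    exact (mul_bd (h.l2g K h1 h2) k1 k2).add (smul_nrm (h.l2 K h1 h2)
      (hm.mg.mono_measure (Measure.restrict_mono h2 le_rfl)) (hg K h1 h2))
  · filter_upwards [h.ld] with y h2 using hm.mul hU h2

/-- Two components in one. -/
theorem HV.join (h : HV ν F G) (h' : HV ν F' G') :
    HV ((Measure.count : Measure Bool).prod ν)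
      (fun w => if w.2.1 then F (w.1, w.2.2) else F' (w.1, w.2.2))
      (fun w => if w.2.1 then G (w.1, w.2.2) else G' (w.1, w.2.2)) := by
  refine ⟨CVec1Aux.join h.l2 h'.l2, CVec1Aux.join h.l2g h'.l2g, ?_⟩
  rw [cnt, ae_add_measure_iff, (measurableEmbedding_prodMk_left true).ae_map_iff,
    (measurableEmbedding_prodMk_left false).ae_map_iff]
  exact ⟨h.ld, h'.ld⟩

theorem integral_join {a b : Y → ℝ} (ha : Integrable a ν) (hb : Integrable b ν) :
    Integrable (fun y : Bool × Y => if y.1 then a y.2 else b y.2) (Measure.count.prod ν) ∧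
    ∫ y : Bool × Y, (if y.1 then a y.2 else b y.2) ∂(Measure.count.prod ν) =
      (∫ y, a y ∂ν) + ∫ y, b y ∂ν := by
  have h1 : Integrable (fun y : Bool × Y => if y.1 then a y.2 else b y.2)
      (ν.map (Prod.mk true)) := (measurableEmbedding_prodMk_left true).integrable_map_iff.2 ha
  have h2 : Integrable (fun y : Bool × Y => if y.1 then a y.2 else b y.2)
      (ν.map (Prod.mk false)) := (measurableEmbedding_prodMk_left false).integrable_map_iff.2 hb
  rw [cnt, integral_add_measure h1 h2, (measurableEmbedding_prodMk_left true).integral_map,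
    (measurableEmbedding_prodMk_left false).integral_map]
  exact ⟨h1.add_measure h2, rfl⟩

theorem ae_slice2 {α : Type} [NormedAddCommGroup α] {a : E3 × Y → α}
    (h : MemLp a 2 (volume.prod ν)) : (∀ᵐ x : E3, MemLp (fun y => a (x, y)) 2 ν) ∧
      Integrable (fun x => ∫ y, ‖a (x, y)‖ ^ 2 ∂ν) ∧
      ∫ x, ∫ y, ‖a (x, y)‖ ^ 2 ∂ν = ∫ w, ‖a w‖ ^ 2 ∂(volume.prod ν) := by
  exact slice2 h

end

end Vale.Agent.P363
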