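import Vale.Agent.P363.ADefs
import Vale.Agent.P363.CGid
import Vale.Agent.P363.CIntA
import Vale.Agent.P363.CVec1
import Vale.Agent.P363.CSg
import Vale.Agent.Lib.H1.Sob

/-! P363, block A: weak derivatives and derivatives along lines. -/

open MeasureTheory Set Metric Filter Topology
open scoped RealInnerProductSpace

namespace Vale.Agent.P363

noncomputable section

open Vale.Agent.Lib.H1

/-- The gradient of a `C¹` function. -/
def abrG (φ : E3 → ℝ) (x : E3) : E3 := (InnerProductSpace.toDual ℝ E3).symm (fderiv ℝ φ x)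

theorem abrG_apply (φ : E3 → ℝ) (x : E3) (k : Fin 3) : abrG φ x k = fderiv ℝ φ x (e k) := by
  rw [← inner_e, abrG, InnerProductSpace.toDual_symm_apply]

theorem abr_ld {φ : E3 → ℝ} (hφ : ContDiff ℝ 1 φ) : LD univ φ (abrG φ) := by
  refine LD.of_c1 isOpen_univ (fun x _ => ?_) (Continuous.continuousOn ?_)
  · refine (hφ.differentiable one_ne_zero x).hasFDerivAt.congr_fderiv ?_
    ext v
    simp [abrG]
  · exact (InnerProductSpace.toDual ℝ E3).symm.continuous.comp (hφ.continuous_fderiv one_ne_zero)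

theorem H1.hg {f : E3 → ℝ} {g : E3 → E3} (h : H1 f g) (k : Fin 3) :
    Hg volume f (fun x => g x k) (e k) := by
  refine ⟨h.l2, h.l2g.eval_piLp k, fun φ hφ hc => ?_⟩
  have i1 := int_test' (h.l2.locallyIntegrable (by norm_num)) hφ hc (e k)
  have i2 := int_test ((h.l2g.eval_piLp k).locallyIntegrable (by norm_num)) hφ.continuous hc
  have i3 := int_test (h.l2.locallyIntegrable (by norm_num)) hφ.continuous hc
  have e1 : ∀ x, (φ x • g x + f x • abrG φ x) k = φ x • g x k + fderiv ℝ φ x (e k) • f x :=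
    fun x => by simp [abrG_apply, mul_comm]
  have h1 := ((abr_ld (one_le_inf hφ)).mul isOpen_univ h.ld).integral_zero k i3
    (by simp only [e1]; exact i2.add i1)
  simp only [e1] at h1
  rw [integral_add i2 i1] at h1
  linarith

theorem H1.of_hg {f : E3 → ℝ} {g : E3 → E3} (h : ∀ k, Hg volume f (fun x => g x k) (e k)) :
    H1 f g := by
  obtain ⟨w, D, w1, w2, hD, w3, -⟩ := approx (h 0).u2 h one_pos
  have m := fun n k => hg_of_contDiff (vol := volume) (one_le_inf (w1 n)) (w2 n) (e k)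
  have lim : ∀ {a : ℕ → E3 → ℝ} {b : E3 → ℝ}, (∀ n, MemLp (a n) 2 volume) → MemLp b 2 volume →
      (∀ᵐ x : E3, Tendsto (fun n => a n x) atTop (𝓝 (b x)) ∧ ∀ n, ‖a n x‖ ≤ D x) →
      Tendsto (fun n => ∫ x, (a n x - b x) ^ 2) atTop (𝓝 0) := by
    intro a b ha hb hc
    have := sq_lim (f := fun n x => a n x - b x) (g := fun _ => 0) (D := fun x => D x + ‖b x‖)
      (fun n => ((ha n).sub hb).1) (hD.add hb.norm) (hc.mono fun x hx =>
        ⟨tendsto_sub_nhds_zero_iff.2 hx.1, fun n => (norm_sub_le _ _).trans (by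
          gcongr; exact hx.2 n)⟩)
    simpa using this
  refine H1.closed (F := w) (G := fun n => abrG (w n)) (fun n => ⟨abr_ld (one_le_inf (w1 n)),
    (m n 0).u2, memLp_piLp_iff.2 fun k => ?_⟩) (h 0).u2 (memLp_piLp_iff.2 fun k => (h k).g2)
    (lim (fun n => (m n 0).u2) (h 0).u2 (w3.mono fun x hx => hx.1)) ?_
  · simpa only [abrG_apply] using (m n k).g2
  · have t := tendsto_finset_sum Finset.univ fun k _ =>
      lim (fun n => (m n k).g2) (h k).g2 (w3.mono fun x hx => hx.2 k)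
    simp only [Finset.sum_const_zero] at t
    refine t.congr fun n => ?_
    simp only [normsq_eq_sum, PiLp.sub_apply, abrG_apply]
    exact (integral_finset_sum _ fun k _ => ((m n k).g2.sub (h k).g2).integrable_sq).symm

theorem haar6 : (volume : Measure E6).IsAddHaarMeasure :=
  Measure.prod.instIsAddHaarMeasure volume volume

theorem HV.hg {F : E9 → ℝ} {G : E9 → E3} (h : HV volume F G) (k : Fin 3) :
    Hg volume F (fun w => G w k) (e k, 0) :=
  haveI := haar6
  ⟨h.l2, h.l2g.eval_piLp k, wd_of_slices (h.l2.locallyIntegrable (by norm_num))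
    ((h.l2g.eval_piLp k).locallyIntegrable (by norm_num))
    (h.slice.mono fun _ hy => (hy.hg k).wd)⟩

theorem HV.of_hg {F : E9 → ℝ} {G : E9 → E3}
    (h : ∀ k, Hg volume F (fun w => G w k) (e k, 0)) : HV volume F G := by
  have := haar6
  refine ⟨(h 0).u2, memLp_piLp_iff.2 fun k => (h k).g2, ?_⟩
  have h1 := ae_all_iff.2 fun k => Hg.slice (vol := volume) (ν := volume) (h k)
  filter_upwards [h1] with y hy using (H1.of_hg hy).ld

theorem toE9_ofE9 (w : E9) : toE9 (ofE9 w) = w := rfl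

theorem ofE9_toE9 (x : Fin 3 → E3) : ofE9 (toE9 x) = x := by
  funext i
  fin_cases i <;> rfl

/-- `toE9` as a linear homeomorphism. -/
def toE9L : (Fin 3 → E3) ≃L[ℝ] E9 :=
  LinearEquiv.toContinuousLinearEquiv
    { toFun := toE9
      invFun := ofE9
      map_add' := fun _ _ => rfl
      map_smul' := fun _ _ => rfl
      left_inv := ofE9_toE9
      right_inv := toE9_ofE9 }

def p12C : E9 ≃L[ℝ] E9 :=
  LinearEquiv.toContinuousLinearEquiv
    { toFun := p12
      invFun := p12
      map_add' := fun _ _ => rfl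
      map_smul' := fun _ _ => rfl
      left_inv := fun _ => rfl
      right_inv := fun _ => rfl }

def p13L : E9 ≃L[ℝ] E9 :=
  LinearEquiv.toContinuousLinearEquiv
    { toFun := p13
      invFun := p13
      map_add' := fun _ _ => rfl
      map_smul' := fun _ _ => rfl
      left_inv := fun _ => rfl
      right_inv := fun _ => rfl }

theorem mp_toE9 : MeasurePreserving toE9 volume volume :=
  ((MeasurePreserving.id volume).prod (volume_preserving_finTwoArrow E3)).comp
    (volume_preserving_piFinSuccAbove (fun _ : Fin 3 => E3) 0)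

theorem me_toE9 : MeasurableEmbedding toE9 := toE9L.toHomeomorph.measurableEmbedding

theorem mp_ofE9 : MeasurePreserving ofE9 volume volume :=
  MeasurePreserving.symm toE9L.toHomeomorph.toMeasurableEquiv mp_toE9

theorem integral_toE9 (f : E9 → ℝ) : ∫ x, f (toE9 x) = ∫ w, f w :=
  mp_toE9.integral_comp me_toE9 f

theorem abr_ev0 (k : Fin 3) : toE9 (ev 0 k) = (e k, 0) := by
  simp [toE9, ev, e, Prod.ext_iff]

theorem abr_ev1 (k : Fin 3) : p12 (toE9 (ev 1 k)) = (e k, 0) := by
  simp [toE9, p12, ev, e, Prod.ext_iff]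

theorem abr_ev2 (k : Fin 3) : p13 (toE9 (ev 2 k)) = (e k, 0) := by
  simp [toE9, p13, ev, e, Prod.ext_iff]

theorem O3.hg (a : O3) (i k : Fin 3) :
    Hg volume (fun x => a.f (toE9 x)) (fun x => a.gr i (toE9 x) k) (ev i k) := by
  fin_cases i
  · exact Hg.comp_equiv toE9L mp_toE9 (abr_ev0 k ▸ a.h.h1.hg k)
  · exact Hg.comp_equiv (toE9L.trans p12C) (mp_p12.comp mp_toE9) (abr_ev1 k ▸ a.h.h2.hg k)
  · exact Hg.comp_equiv (toE9L.trans p13L) (mp_p13.comp mp_toE9) (abr_ev2 k ▸ a.h.h3.hg k)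

theorem O3.of_hg {f : (Fin 3 → E3) → ℝ} {G : Fin 3 → Fin 3 → (Fin 3 → E3) → ℝ}
    (h : ∀ i k, Hg volume f (G i k) (ev i k)) :
    ∃ a : O3, (∀ w, a.f w = f (ofE9 w)) ∧ ∀ i w k, a.gr i w k = G i k (ofE9 w) := by
  refine ⟨⟨fun w => f (ofE9 w), fun w => WithLp.toLp 2 fun k => G 0 k (ofE9 w),
    fun w => WithLp.toLp 2 fun k => G 1 k (ofE9 w), fun w => WithLp.toLp 2 fun k => G 2 k (ofE9 w),
    HV.of_hg fun k => ?_, HV.of_hg fun k => ?_, HV.of_hg fun k => ?_⟩, fun _ => rfl,
    fun i w k => by fin_cases i <;> rfl⟩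
  · refine Hg.comp_equiv toE9L.symm mp_ofE9 ?_
    rw [← abr_ev0, show toE9L.symm (toE9 (ev 0 k)) = ev 0 k from ofE9_toE9 _]
    exact h 0 k
  · refine Hg.comp_equiv (p12C.trans toE9L.symm) (mp_ofE9.comp mp_p12) ?_
    rw [← abr_ev1, show (p12C.trans toE9L.symm) (p12 (toE9 (ev 1 k))) = ev 1 k from ofE9_toE9 (ev 1 k)]
    exact h 1 k
  · refine Hg.comp_equiv (p13L.trans toE9L.symm) (mp_ofE9.comp mp_p13) ?_
    rw [← abr_ev2, show (p13L.trans toE9L.symm) (p13 (toE9 (ev 2 k))) = ev 2 k from ofE9_toE9 (ev 2 k)]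
    exact h 2 k

theorem mp_perm (p : Equiv.Perm (Fin 3)) :
    MeasurePreserving (fun x : Fin 3 → E3 => x ∘ p) volume volume :=
  volume_preserving_arrowCongr' p.symm (MeasurableEquiv.refl E3) (MeasurePreserving.id _)

/-- Permuting the particles as a linear homeomorphism. -/
def permL (p : Equiv.Perm (Fin 3)) : (Fin 3 → E3) ≃L[ℝ] (Fin 3 → E3) :=
  LinearEquiv.toContinuousLinearEquiv (LinearEquiv.funCongrLeft ℝ E3 p)

theorem integral_perm (p : Equiv.Perm (Fin 3)) (f : (Fin 3 → E3) → ℝ) :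
    ∫ x : Fin 3 → E3, f (x ∘ p) = ∫ x, f x :=
  (mp_perm p).integral_comp (permL p).toHomeomorph.measurableEmbedding f

/-- Permuting the particles. -/
theorem hg_perm {V : Type} [NormedAddCommGroup V] [NormedSpace ℝ V] {f g : (Fin 3 → E3) → V}
    (p : Equiv.Perm (Fin 3)) {i k : Fin 3} (h : Hg volume f g (ev (p.symm i) k)) :
    Hg volume (fun x => f (x ∘ p)) (fun x => g (x ∘ p)) (ev i k) := by
  refine Hg.comp_equiv (permL p) (mp_perm p) ?_
  have : permL p (ev i k) = ev (p.symm i) k := by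
    funext j
    change ev i k (p j) = _
    simp only [ev, Pi.single_apply, Equiv.eq_symm_apply]
  rwa [this]

theorem State.hg (Ψ : State 3) (σ : Fin 3 → Fin 2) (i k : Fin 3) :
    Hg volume (Ψ.ψ σ) (Ψ.g σ i k) (ev i k) :=
  ⟨Ψ.l2 σ, Ψ.l2g σ i k, fun φ h1 h2 => by
    simpa only [Complex.real_smul] using Ψ.weak σ i k φ h1 h2⟩

theorem isWeakD_of_hg {u g : (Fin 3 → E3) → ℂ} {i k : Fin 3} (h : Hg volume u g (ev i k)) :
    IsWeakD u g i k := fun φ h1 h2 => by
  simpa only [Complex.real_smul] using h.wd φ h1 h2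

/-- The marginal of a function of three particles. -/
theorem integral_cons (f : E9 → ℝ) (x : E3) :
    ∫ y : Fin 2 → E3, f (toE9 (Fin.cons x y)) = ∫ y : E6, f (x, y) :=
  (volume_preserving_finTwoArrow E3).integral_comp' fun y => f (x, y)

end

end Vale.Agent.P363
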