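import Vale.Agent.P363.CO3A

/-! P363, block C: three particle functions. -/

open MeasureTheory Set Metric Filter Topology
open scoped RealInnerProductSpace

namespace Vale.Agent.P363

noncomputable section

namespace CO3x

variable {Y : Type} [MeasurableSpace Y] {ν : Measure Y} [SFinite ν]
  {F : E3 × Y → ℝ} {G : E3 × Y → E3}

theorem int_inner {X : Type} [MeasurableSpace X] {μ : Measure X} {a b : X → E3}
    (ha : MemLp a 2 μ) (hb : MemLp b 2 μ) : Integrable (fun w => ⟪a w, b w⟫) μ :=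
  (ha.norm.integrable_mul hb.norm).mono' (ha.1.inner hb.1)
    (ae_of_all _ fun w => norm_inner_le_norm (𝕜 := ℝ) (a w) (b w))

theorem int_nsq {X : Type} [MeasurableSpace X] {μ : Measure X} {a : X → E3}
    (ha : MemLp a 2 μ) : Integrable (fun w => ‖a w‖ ^ 2) μ :=
  (memLp_two_iff_integrable_sq_norm ha.1).1 ha

/-- Hardy's inequality with a centre depending on the other variables. -/
theorem hv_hardy (h : HV ν F G) {c : Y → E3} (hc : Measurable c) :
    MemLp (fun w : E3 × Y => ‖w.1 - c w.2‖⁻¹ * F w) 2 (volume.prod ν) ∧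
      ∫ w : E3 × Y, (‖w.1 - c w.2‖⁻¹ * F w) ^ 2 ∂(volume.prod ν)
        ≤ 4 * ∫ w, ‖G w‖ ^ 2 ∂(volume.prod ν) := by
  have m1 : AEStronglyMeasurable (fun w : E3 × Y => ‖w.1 - c w.2‖⁻¹ * F w) (volume.prod ν) :=
    (measurable_fst.sub (hc.comp measurable_snd)).norm.inv.aestronglyMeasurable.mul h.l2.1
  have m2 : AEStronglyMeasurable (fun w : E3 × Y => (‖w.1 - c w.2‖⁻¹ * F w) ^ 2)
      (volume.prod ν) := m1.pow 2
  have iG := int_nsq h.l2g
  have e : ∀ (x : E3) (y : Y), (‖x - c y‖⁻¹ * F (x, y)) ^ 2 = F (x, y) ^ 2 / ‖x - c y‖ ^ 2 := by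
    intro x y
    rw [mul_pow, inv_pow, div_eq_inv_mul]
  have hs : ∀ᵐ y ∂ν, Integrable (fun x : E3 => (‖x - c y‖⁻¹ * F (x, y)) ^ 2) ∧
      ∫ x : E3, (‖x - c y‖⁻¹ * F (x, y)) ^ 2 ≤ 4 * ∫ x : E3, ‖G (x, y)‖ ^ 2 := by
    filter_upwards [h.slice] with y hy
    simp only [e]
    exact hardy hy (c y)
  have i4 : Integrable (fun y => 4 * ∫ x : E3, ‖G (x, y)‖ ^ 2) ν :=
    iG.integral_prod_right.const_mul 4
  have i1 : Integrable (fun w : E3 × Y => (‖w.1 - c w.2‖⁻¹ * F w) ^ 2) (volume.prod ν) := by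
    refine (integrable_prod_iff' m2).2 ⟨hs.mono fun y hy => hy.1, ?_⟩
    refine i4.mono' m2.norm.prod_swap.integral_prod_right' (hs.mono fun y hy => ?_)
    rw [Real.norm_of_nonneg (integral_nonneg fun x => norm_nonneg _)]
    simp only [Real.norm_of_nonneg (sq_nonneg _)]
    exact hy.2
  refine ⟨(memLp_two_iff_integrable_sq m1).2 i1, ?_⟩
  rw [integral_prod_symm _ i1, integral_prod_symm _ iG, ← integral_const_mul]
  exact integral_mono_ae i1.integral_prod_right i4 (hs.mono fun y hy => hy.2)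

theorem hv_V (h : HV ν F G) (L : ℝ) :
    MemLp (fun w : E3 × Y => V L w.1 * F w) 2 (volume.prod ν) ∧
      -(1 / 4) * (∫ w, ‖G w‖ ^ 2 ∂(volume.prod ν)) - 16 * ∫ w, F w * F w ∂(volume.prod ν)
        ≤ ∫ w : E3 × Y, V L w.1 * F w * F w ∂(volume.prod ν) := by
  obtain ⟨a1, a2⟩ := hv_hardy h (c := fun _ => nA L) measurable_const
  obtain ⟨b1, b2⟩ := hv_hardy h (c := fun _ => -nA L) measurable_const
  have e : ∀ w : E3 × Y, V L w.1 * F w = -(‖w.1 - nA L‖⁻¹ * F w + ‖w.1 - -nA L‖⁻¹ * F w) := by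
    intro w
    rw [V, rA, rB, sub_neg_eq_add]
    ring
  have hm : MemLp (fun w : E3 × Y => V L w.1 * F w) 2 (volume.prod ν) := by
    simp only [e]
    exact (a1.add b1).neg
  refine ⟨hm, ?_⟩
  have ia := (memLp_two_iff_integrable_sq a1.1).1 a1
  have ib := (memLp_two_iff_integrable_sq b1.1).1 b1
  have iF : Integrable (fun w => F w * F w) (volume.prod ν) := h.l2.integrable_mul h.l2
  have iV : Integrable (fun w : E3 × Y => V L w.1 * F w * F w) (volume.prod ν) :=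
    hm.integrable_mul h.l2
  have iab : Integrable (fun w : E3 × Y => -(1 / 32) * (‖w.1 - nA L‖⁻¹ * F w) ^ 2
      - 1 / 32 * (‖w.1 - -nA L‖⁻¹ * F w) ^ 2) (volume.prod ν) :=
    (ia.const_mul _).sub (ib.const_mul _)
  have h1 := integral_mono (iab.sub (iF.const_mul 16)) iV fun w => by
    change -(1 / 32) * (‖w.1 - nA L‖⁻¹ * F w) ^ 2 - 1 / 32 * (‖w.1 - -nA L‖⁻¹ * F w) ^ 2
      - 16 * (F w * F w) ≤ V L w.1 * F w * F w
    rw [e]
    nlinarith [sq_nonneg (‖w.1 - nA L‖⁻¹ * F w - 16 * F w),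
      sq_nonneg (‖w.1 - -nA L‖⁻¹ * F w - 16 * F w)]
  rw [integral_sub' iab (iF.const_mul 16), integral_sub (ia.const_mul _) (ib.const_mul _),
    integral_const_mul, integral_const_mul, integral_const_mul] at h1
  linarith

theorem mem12 (g : E9 → ℝ) (h : MemLp (fun w => g (p12 w)) 2 volume) : MemLp g 2 volume :=
  h.comp_measurePreserving mp_p12

theorem mem13 (g : E9 → ℝ) (h : MemLp (fun w => g (p13 w)) 2 volume) : MemLp g 2 volume :=
  h.comp_measurePreserving mp_p13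

end CO3x

open CO3x

theorem O3.l2 (a : O3) : MemLp a.f 2 volume ∧ MemLp a.g1 2 volume ∧ MemLp a.g2 2 volume ∧
    MemLp a.g3 2 volume :=
  ⟨a.h.h1.l2, a.h.h1.l2g, a.h.h2.l2g.comp_measurePreserving mp_p12,
    a.h.h3.l2g.comp_measurePreserving mp_p13⟩

theorem CO3x.memV (a : O3) (L : ℝ) : MemLp (fun w : E9 => V L w.1 * a.f w) 2 volume ∧
    MemLp (fun w : E9 => V L w.2.1 * a.f w) 2 volume ∧
    MemLp (fun w : E9 => V L w.2.2 * a.f w) 2 volume :=
  ⟨(hv_V a.h.h1 L).1, mem12 _ (hv_V a.h.h2 L).1, mem13 _ (hv_V a.h.h3 L).1⟩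

theorem O3.mem (a : O3) (L lam : ℝ) : MemLp (fun w : E9 => V L w.1 * a.f w) 2 volume ∧
    MemLp (fun w : E9 => W2 L lam w.2 * a.f w) 2 volume ∧
    MemLp (fun w : E9 => Mx w.1 w.2 * a.f w) 2 volume ∧
    MemLp (fun w : E9 => Mx (sg w.1) w.2 * a.f w) 2 volume ∧
    MemLp (fun w : E9 => ‖w.2.1 - w.2.2‖⁻¹ * a.f w) 2 volume ∧
    MemLp (fun w => W3 L lam w * a.f w) 2 volume := by
  obtain ⟨v1, v2, v3⟩ := memV a L
  have h5 : MemLp (fun w : E9 => ‖w.2.1 - w.2.2‖⁻¹ * a.f w) 2 volume :=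
    mem12 _ (hv_hardy a.h.h2 (c := Prod.snd) measurable_snd).1
  have h2 : MemLp (fun w : E9 => W2 L lam w.2 * a.f w) 2 volume := by
    have := (v2.add v3).add (h5.const_mul lam)
    convert this using 1
    funext w
    simp only [W2, Pi.add_apply]
    ring
  have h3 : MemLp (fun w : E9 => Mx w.1 w.2 * a.f w) 2 volume := by
    have := (hv_hardy a.h.h1 (c := Prod.fst) measurable_fst).1.add
      (hv_hardy a.h.h1 (c := Prod.snd) measurable_snd).1
    simp only [Mx, add_mul]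
    exact this
  have h4 : MemLp (fun w : E9 => Mx (sg w.1) w.2 * a.f w) 2 volume := by
    have := (hv_hardy a.h.h1 (c := fun y => sg y.1)
      (continuous_sg.measurable.comp measurable_fst)).1.add
      (hv_hardy a.h.h1 (c := fun y => sg y.2) (continuous_sg.measurable.comp measurable_snd)).1
    have e : ∀ x y : E3, ‖sg x - y‖ = ‖x - sg y‖ := fun x y => by
      rw [← norm_sg, sg_sub, sg_sg]
    simp only [Mx, add_mul, e]
    exact this
  refine ⟨v1, h2, h3, h4, h5, ?_⟩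
  have := (v1.add h2).add (h3.const_mul lam)
  convert this using 1
  funext w
  simp only [W3, Pi.add_apply]
  ring

theorem O3.int (a b : O3) (L lam : ℝ) : Integrable (fun w => a.f w * b.f w) ∧
    Integrable (fun w => ⟪a.g1 w, b.g1 w⟫) ∧ Integrable (fun w => ⟪a.g2 w, b.g2 w⟫) ∧
    Integrable (fun w => ⟪a.g3 w, b.g3 w⟫) ∧ Integrable (fun w => W3 L lam w * a.f w * b.f w) :=
  ⟨a.l2.1.integrable_mul b.l2.1, int_inner a.l2.2.1 b.l2.2.1, int_inner a.l2.2.2.1 b.l2.2.2.1,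
    int_inner a.l2.2.2.2 b.l2.2.2.2, (a.mem L lam).2.2.2.2.2.integrable_mul b.l2.1⟩

theorem CO3x.intq (a b : O3) (L lam : ℝ) : Integrable fun w =>
    (1 / 2) * (⟪a.g1 w, b.g1 w⟫ + ⟪a.g2 w, b.g2 w⟫ + ⟪a.g3 w, b.g3 w⟫) +
      W3 L lam w * a.f w * b.f w := by
  obtain ⟨-, h1, h2, h3, h4⟩ := a.int b L lam
  exact (((h1.add h2).add h3).const_mul _).add h4

theorem ip3_comm (a b : O3) : ip3 a b = ip3 b a := by
  simp only [ip3, mul_comm]

theorem q3_comm (L lam : ℝ) (a b : O3) : q3 L lam a b = q3 L lam b a := by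
  unfold q3
  congr 1
  funext w
  rw [real_inner_comm (a.g1 w), real_inner_comm (a.g2 w), real_inner_comm (a.g3 w)]
  ring

theorem ip3_add (a b c : O3) : ip3 (a.add b) c = ip3 a c + ip3 b c := by
  unfold ip3
  rw [← integral_add (a.int c 0 0).1 (b.int c 0 0).1]
  congr 1
  funext w
  exact add_mul _ _ _

theorem q3_add (L lam : ℝ) (a b c : O3) :
    q3 L lam (a.add b) c = q3 L lam a c + q3 L lam b c := by
  unfold q3
  rw [← integral_add (intq a c L lam) (intq b c L lam)]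
  congr 1
  funext w
  simp only [O3.add, inner_add_left]
  ring

theorem ip3_cmul (t : ℝ) (a c : O3) : ip3 (a.cmul t) c = t * ip3 a c := by
  unfold ip3
  rw [← integral_const_mul]
  congr 1
  funext w
  exact mul_assoc _ _ _

theorem q3_cmul (L lam t : ℝ) (a c : O3) : q3 L lam (a.cmul t) c = t * q3 L lam a c := by
  unfold q3
  rw [← integral_const_mul]
  congr 1
  funext w
  simp only [O3.cmul, real_inner_smul_left]
  ring

theorem q3_perm12 (L lam : ℝ) (a b : O3) :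
    q3 L lam a.perm12 b.perm12 = q3 L lam a b ∧ ip3 a.perm12 b.perm12 = ip3 a b := by
  refine ⟨?_, integral_p12 fun w => a.f w * b.f w⟩
  rw [q3, q3, ← integral_p12 fun w => (1 / 2) * (⟪a.g1 w, b.g1 w⟫ + ⟪a.g2 w, b.g2 w⟫ +
    ⟪a.g3 w, b.g3 w⟫) + W3 L lam w * a.f w * b.f w]
  congr 1
  funext w
  simp only [O3.perm12, W3_p12]
  ring

theorem q3_perm13 (L lam : ℝ) (a b : O3) :
    q3 L lam a.perm13 b.perm13 = q3 L lam a b ∧ ip3 a.perm13 b.perm13 = ip3 a b := by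
  refine ⟨?_, integral_p13 fun w => a.f w * b.f w⟩
  rw [q3, q3, ← integral_p13 fun w => (1 / 2) * (⟪a.g1 w, b.g1 w⟫ + ⟪a.g2 w, b.g2 w⟫ +
    ⟪a.g3 w, b.g3 w⟫) + W3 L lam w * a.f w * b.f w]
  congr 1
  funext w
  simp only [O3.perm13, W3_p13]
  ring

theorem q3_refl (L lam : ℝ) (a b : O3) :
    q3 L lam a.refl b.refl = q3 L lam a b ∧ ip3 a.refl b.refl = ip3 a b := by
  refine ⟨?_, integral_sg9 fun w => a.f w * b.f w⟩
  rw [q3, q3, ← integral_sg9 fun w => (1 / 2) * (⟪a.g1 w, b.g1 w⟫ + ⟪a.g2 w, b.g2 w⟫ +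
    ⟪a.g3 w, b.g3 w⟫) + W3 L lam w * a.f w * b.f w]
  congr 1
  funext w
  simp only [O3.refl, W3_sg9, inner_sg]

theorem q3_congr (L lam : ℝ) {a a' : O3} (h : ∀ᵐ w : E9, a'.f w = a.f w) (b : O3) :
    q3 L lam a' b = q3 L lam a b ∧ ip3 a' b = ip3 a b := by
  refine ⟨integral_congr_ae ?_, integral_congr_ae (h.mono fun w hw => ?_)⟩
  · filter_upwards [h, a.h.unique a'.h h] with w h0 h1
    rw [h0, h1.1, h1.2.1, h1.2.2]
  · dsimp only
    rw [hw]

theorem q3_kin {lam : ℝ} (hl : 0 ≤ lam) (L : ℝ) (b : O3) :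
    (∫ w, (‖b.g1 w‖ ^ 2 + ‖b.g2 w‖ ^ 2 + ‖b.g3 w‖ ^ 2)) / 4 - 48 * ip3 b b ≤ q3 L lam b b := by
  obtain ⟨v1, v2, v3⟩ := memV b L
  obtain ⟨l0, l1, l2, l3⟩ := b.l2
  have k1 : -(1 / 4) * (∫ w, ‖b.g1 w‖ ^ 2) - 16 * ip3 b b
      ≤ ∫ w : E9, V L w.1 * b.f w * b.f w := (hv_V b.h.h1 L).2
  have k2 : -(1 / 4) * (∫ w, ‖b.g2 w‖ ^ 2) - 16 * ip3 b b
      ≤ ∫ w : E9, V L w.2.1 * b.f w * b.f w := by
    rw [ip3, ← integral_p12 fun w => ‖b.g2 w‖ ^ 2, ← integral_p12 fun w => b.f w * b.f w,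
      ← integral_p12 fun w : E9 => V L w.2.1 * b.f w * b.f w]
    exact (hv_V b.h.h2 L).2
  have k3 : -(1 / 4) * (∫ w, ‖b.g3 w‖ ^ 2) - 16 * ip3 b b
      ≤ ∫ w : E9, V L w.2.2 * b.f w * b.f w := by
    rw [ip3, ← integral_p13 fun w => ‖b.g3 w‖ ^ 2, ← integral_p13 fun w => b.f w * b.f w,
      ← integral_p13 fun w : E9 => V L w.2.2 * b.f w * b.f w]
    exact (hv_V b.h.h3 L).2
  have i1 : Integrable fun w : E9 => V L w.1 * b.f w * b.f w := v1.integrable_mul l0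
  have i2 : Integrable fun w : E9 => V L w.2.1 * b.f w * b.f w := v2.integrable_mul l0
  have i3 : Integrable fun w : E9 => V L w.2.2 * b.f w * b.f w := v3.integrable_mul l0
  have n12 : Integrable fun w => ‖b.g1 w‖ ^ 2 + ‖b.g2 w‖ ^ 2 := (int_nsq l1).add (int_nsq l2)
  have n123 : Integrable fun w => ‖b.g1 w‖ ^ 2 + ‖b.g2 w‖ ^ 2 + ‖b.g3 w‖ ^ 2 :=
    n12.add (int_nsq l3)
  have i12 : Integrable fun w : E9 => V L w.1 * b.f w * b.f w + V L w.2.1 * b.f w * b.f w :=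
    i1.add i2
  have i123 : Integrable fun w : E9 => V L w.1 * b.f w * b.f w + V L w.2.1 * b.f w * b.f w
      + V L w.2.2 * b.f w * b.f w := i12.add i3
  have h1 : ∫ w : E9, ((1 / 2) * (‖b.g1 w‖ ^ 2 + ‖b.g2 w‖ ^ 2 + ‖b.g3 w‖ ^ 2)
      + (V L w.1 * b.f w * b.f w + V L w.2.1 * b.f w * b.f w + V L w.2.2 * b.f w * b.f w))
      ≤ q3 L lam b b := by
    refine integral_mono ((n123.const_mul _).add i123) (intq b b L lam) fun w => ?_
    simp only [real_inner_self_eq_norm_sq, W3, W2, Mx]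
    have h2 : 0 ≤ lam * (‖w.2.1 - w.2.2‖⁻¹ + (‖w.1 - w.2.1‖⁻¹ + ‖w.1 - w.2.2‖⁻¹))
        * (b.f w * b.f w) := mul_nonneg (by positivity) (mul_self_nonneg _)
    linarith
  rw [integral_add (n123.const_mul _) i123, integral_const_mul, integral_add i12 i3,
    integral_add i1 i2] at h1
  rw [integral_add n12 (int_nsq l3), integral_add (int_nsq l1) (int_nsq l2)] at h1 ⊢
  linarith

end

end Vale.Agent.P363
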