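import Vale.Agent.P363.ABr
import Vale.Agent.P363.CO3

/-! P363, block A: every state is described by real functions antisymmetric in a pair. -/

open MeasureTheory Set Metric Filter Topology
open scoped RealInnerProductSpace

namespace Vale.Agent.P363

noncomputable section

open Vale.Agent.Lib.H1

theorem adec_mp (p : Equiv.Perm (Fin 3)) :
    MeasurePreserving (fun w : E9 => ofE9 w ∘ p) volume volume := (mp_perm p).comp mp_ofE9

theorem adec_emb (p : Equiv.Perm (Fin 3)) : MeasurableEmbedding fun w : E9 => ofE9 w ∘ p := by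
  let q : E9 ≃ᵐ (Fin 3 → E3) :=
    { toFun := fun w => ofE9 w ∘ p
      invFun := fun x => toE9 (x ∘ p.symm)
      left_inv := fun w => by
        simp only [Function.comp_assoc, Equiv.self_comp_symm, Function.comp_id]
        rfl
      right_inv := fun x => by
        simp only [ofE9_toE9, Function.comp_assoc, Equiv.symm_comp_self, Function.comp_id]
      measurable_toFun := (adec_mp p).measurable
      measurable_invFun := (mp_toE9.comp (mp_perm p.symm)).measurable }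
  exact q.measurableEmbedding

theorem adec_int (p : Equiv.Perm (Fin 3)) (G : (Fin 3 → E3) → ℝ) :
    ∫ w : E9, G (ofE9 w ∘ p) = ∫ x, G x := (adec_mp p).integral_comp (adec_emb p) G

theorem adec_intg (p : Equiv.Perm (Fin 3)) (G : (Fin 3 → E3) → ℝ) :
    (Integrable fun w : E9 => G (ofE9 w ∘ p)) ↔ Integrable G :=
  (adec_mp p).integrable_comp_emb (adec_emb p)

/-- Sum of the three marginals. -/
def adec_R (h : E9 → ℝ) (x : E3) : ℝ := ∑ i, ∫ y, h (slot i (x, y))

theorem adec_R_eq (h : E9 → ℝ) (x : E3) : adec_R h x = (∫ y : E6, h (x, y)) +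
    (∫ y : E6, h (y.1, (x, y.2))) + ∫ y : E6, h (y.2, (y.1, x)) := by
  rw [adec_R, Fin.sum_univ_three]
  rfl

theorem adec_perm (s : Fin 3 → Fin 2) : ∃ p : Equiv.Perm (Fin 3),
    s ∘ (p⁻¹ * Equiv.swap 0 1 * p : Equiv.Perm (Fin 3)) = s ∧
    (∀ W, Sym3 W → ∀ w, W (toE9 (ofE9 w ∘ p)) = W w) ∧
    ∀ (h : E9 → ℝ) (x : E3), adec_R (fun w => h (toE9 (ofE9 w ∘ p))) x = adec_R h x := by
  have h0 : ∀ s : Fin 3 → Fin 2, ∃ p : Equiv.Perm (Fin 3),
      (p = 1 ∨ p = Equiv.swap 1 2 ∨ p = Equiv.swap 0 2) ∧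
      s ∘ (p⁻¹ * Equiv.swap 0 1 * p : Equiv.Perm (Fin 3)) = s := by decide
  obtain ⟨p, hp, hs⟩ := h0 s
  refine ⟨p, hs, ?_⟩
  rcases hp with rfl | rfl | rfl
  · exact ⟨fun W _ w => rfl, fun h x => rfl⟩
  · have e : ∀ w : E9, toE9 (ofE9 w ∘ Equiv.swap (1 : Fin 3) 2) = (w.1, (w.2.2, w.2.1)) :=
      fun w => rfl
    simp only [e]
    refine ⟨fun W hW w => ((hW.1 (p13 (p12 w))).trans (hW.2 (p12 w))).trans (hW.1 w),
      fun h x => ?_⟩
    rw [adec_R_eq, adec_R_eq, ← integral_swap6 fun y => h (x, y),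
      ← integral_swap6 fun y => h (y.1, (x, y.2)), ← integral_swap6 fun y => h (y.2, (y.1, x))]
    exact add_right_comm _ _ _
  · have e : ∀ w : E9, toE9 (ofE9 w ∘ Equiv.swap (0 : Fin 3) 2) = p13 w := fun w => rfl
    simp only [e]
    refine ⟨fun W hW w => hW.2 w, fun h x => ?_⟩
    rw [adec_R_eq, adec_R_eq, ← integral_swap6 fun y => h (y.1, (x, y.2)), add_comm,
      add_comm (∫ y : E6, h (p13 (x, y))), ← add_assoc]
    rfl

theorem adec_slot (i : Fin 3) : ∃ q : Equiv.Perm (Fin 3), ∀ w, ofE9 (slot i w) = ofE9 w ∘ q := by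
  fin_cases i
  · exact ⟨1, fun w => rfl⟩
  · exact ⟨Equiv.swap 0 1, fun w => by funext j; fin_cases j <;> rfl⟩
  · exact ⟨Equiv.swap 0 2, fun w => by funext j; fin_cases j <;> rfl⟩

theorem adec_dens (Ψ : State 3) (q : Equiv.Perm (Fin 3)) :
    ∀ᵐ x : Fin 3 → E3, Ψ.dens (x ∘ q) = Ψ.dens x := by
  filter_upwards [ae_all_iff.2 (Ψ.anti q)] with x hx
  unfold State.dens
  rw [← (Equiv.arrowCongr q.symm (Equiv.refl (Fin 2))).sum_comp]
  refine Finset.sum_congr rfl fun s _ => ?_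
  have e : (Equiv.arrowCongr q.symm (Equiv.refl (Fin 2))) s = s ∘ q := rfl
  rw [e, hx s, norm_mul]
  rcases Int.units_eq_one_or (Equiv.Perm.sign q) with h | h <;> simp [h]

/-- Real and imaginary part. -/
def adec_L (c : Bool) : ℂ →L[ℝ] ℝ := if c then Complex.imCLM else Complex.reCLM

theorem adec_sq (z : ℂ) : ∑ c, adec_L c z ^ 2 = ‖z‖ ^ 2 := by
  rw [Fintype.sum_bool, Complex.sq_norm, Complex.normSq_apply]
  simp only [adec_L, if_true, Bool.false_eq_true, if_false, Complex.imCLM_apply,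
    Complex.reCLM_apply]
  ring

theorem adec_isq (c : Bool) {u : (Fin 3 → E3) → ℂ} (hu : MemLp u 2 volume) :
    Integrable fun x => adec_L c (u x) ^ 2 := ((adec_L c).comp_memLp' hu).integrable_sq

theorem exists_dec (Ψ : State 3) : ∃ b : (Fin 3 → Fin 2) × Bool → O3, Dec Ψ b := by
  choose p hp hW hR using adec_perm
  choose b hb hg using fun j : (Fin 3 → Fin 2) × Bool =>
    O3.of_hg (f := fun x => adec_L j.2 (Ψ.ψ j.1 (x ∘ p j.1)))
      (G := fun i k x => adec_L j.2 (Ψ.g j.1 ((p j.1).symm i) k (x ∘ p j.1)))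
      fun i k => (hg_perm (p j.1) (Ψ.hg j.1 ((p j.1).symm i) k)).clm (adec_L j.2)
  have hd : ∀ x, Ψ.dens x = ∑ j : (Fin 3 → Fin 2) × Bool, adec_L j.2 (Ψ.ψ j.1 x) ^ 2 := fun x => by
    rw [Fintype.sum_prod_type]
    simp only [adec_sq]
    rfl
  have pot : ∀ W : E9 → ℝ, Sym3 W → (∀ j, Integrable fun w => W w * (b j).f w ^ 2) →
      ∫ x, W (toE9 x) * Ψ.dens x = ∑ j, ∫ w, W w * (b j).f w ^ 2 := fun W hS hi => by
    have e : ∀ j w, W w * (b j).f w ^ 2 = W (toE9 (ofE9 w ∘ p j.1)) *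
        adec_L j.2 (Ψ.ψ j.1 (ofE9 w ∘ p j.1)) ^ 2 := fun j w => by rw [hW _ W hS, hb]
    simp only [e] at hi ⊢
    simp only [hd, Finset.mul_sum]
    rw [integral_finset_sum _ fun j _ =>
      (adec_intg (p j.1) fun x => W (toE9 x) * adec_L j.2 (Ψ.ψ j.1 x) ^ 2).1 (hi j)]
    exact Finset.sum_congr rfl fun j _ =>
      (adec_int (p j.1) fun x => W (toE9 x) * adec_L j.2 (Ψ.ψ j.1 x) ^ 2).symm
  refine ⟨b, fun j => ?_, ?_, ?_, pot, ?_⟩
  · filter_upwards [(adec_mp (p j.1)).quasiMeasurePreserving.ae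
      (Ψ.anti ((p j.1)⁻¹ * Equiv.swap 0 1 * p j.1) j.1)] with w hw
    have e : ofE9 (p12 w) ∘ p j.1 = (ofE9 w ∘ p j.1) ∘
        ((p j.1)⁻¹ * Equiv.swap 0 1 * p j.1 : Equiv.Perm (Fin 3)) := by
      have e1 : ofE9 (p12 w) = ofE9 w ∘ Equiv.swap (0 : Fin 3) 1 := by
        funext i
        fin_cases i <;> rfl
      funext i
      simp [e1]
    have sg : Equiv.Perm.sign ((p j.1)⁻¹ * Equiv.swap 0 1 * p j.1) = -1 := by
      rw [Equiv.Perm.sign_mul, Equiv.Perm.sign_mul, Equiv.Perm.sign_inv, mul_right_comm,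
        Int.units_mul_self, one_mul, Equiv.Perm.sign_swap (by decide)]
    rw [hp, sg] at hw
    rw [hb, hb, e, hw]
    simp
  · have := pot (fun _ => 1) ⟨fun _ => rfl, fun _ => rfl⟩ fun j => by
      simpa only [one_mul] using (b j).l2.1.integrable_sq
    simpa only [one_mul, State.mass, ip3, pow_two] using this
  · have e : ∀ j, k3 (b j) = ∫ x, ∑ i, ∑ k, adec_L j.2 (Ψ.g j.1 i k x) ^ 2 := fun j => by
      rw [← adec_int (p j.1)]
      refine integral_congr_ae (ae_of_all _ fun w => ?_)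
      have e1 : ‖(b j).g1 w‖ ^ 2 + ‖(b j).g2 w‖ ^ 2 + ‖(b j).g3 w‖ ^ 2 =
          ∑ i, ‖(b j).gr i w‖ ^ 2 := by
        rw [Fin.sum_univ_three]
        rfl
      refine e1.trans ?_
      simp only [normsq_eq_sum, hg]
      exact (p j.1).symm.sum_comp fun i => ∑ k, adec_L j.2 (Ψ.g j.1 i k (ofE9 w ∘ p j.1)) ^ 2
    simp only [e]
    rw [← integral_finset_sum _ fun j _ => integrable_finset_sum _ fun i _ =>
      integrable_finset_sum _ fun k _ => adec_isq j.2 (Ψ.l2g j.1 i k)]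
    unfold State.kinetic
    refine congrArg _ (integral_congr_ae (ae_of_all _ fun x => ?_))
    simp only [Fintype.sum_prod_type]
    refine Finset.sum_congr rfl fun s _ => Eq.symm ?_
    rw [Finset.sum_comm]
    refine Finset.sum_congr rfl fun i _ => ?_
    rw [Finset.sum_comm]
    exact Finset.sum_congr rfl fun k _ => adec_sq _
  · have e : ∀ j x, r3 (b j).f x =
        ∑ i, ∫ y, adec_L j.2 (Ψ.ψ j.1 (ofE9 (slot i (x, y)))) ^ 2 := fun j x => by
      have := hR j.1 (fun w => adec_L j.2 (Ψ.ψ j.1 (ofE9 w)) ^ 2) x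
      simp only [ofE9_toE9] at this
      simp only [r3, hb]
      exact this
    have h1 : ∀ (j : (Fin 3 → Fin 2) × Bool) (i : Fin 3), ∀ᵐ x : E3,
        Integrable fun y : E6 => adec_L j.2 (Ψ.ψ j.1 (ofE9 (slot i (x, y)))) ^ 2 := fun j i => by
      obtain ⟨q, hq⟩ := adec_slot i
      simp only [hq]
      exact Integrable.prod_right_ae
        ((adec_intg q fun x => adec_L j.2 (Ψ.ψ j.1 x) ^ 2).2 (adec_isq j.2 (Ψ.l2 j.1)))
    have h2 : ∀ i : Fin 3, ∀ᵐ x : E3, ∀ᵐ y : E6,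
        Ψ.dens (ofE9 (slot i (x, y))) = Ψ.dens (ofE9 (x, y)) := fun i => by
      obtain ⟨q, hq⟩ := adec_slot i
      simp only [hq]
      exact Measure.ae_ae_of_ae_prod (mp_ofE9.quasiMeasurePreserving.ae (adec_dens Ψ q))
    filter_upwards [ae_all_iff.2 fun j => ae_all_iff.2 (h1 j), ae_all_iff.2 h2] with x a1 a2
    have h3 : ∀ i : Fin 3, ∑ j : (Fin 3 → Fin 2) × Bool,
        ∫ y, adec_L j.2 (Ψ.ψ j.1 (ofE9 (slot i (x, y)))) ^ 2 = ∫ y : E6, Ψ.dens (ofE9 (x, y)) :=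
      fun i => by
      rw [← integral_finset_sum _ fun j _ => a1 j i, ← integral_congr_ae (a2 i)]
      simp only [hd]
    simp only [e]
    rw [Finset.sum_comm]
    simp only [h3]
    have h4 := integral_cons (fun w => Ψ.dens (ofE9 w)) x
    simp only [ofE9_toE9] at h4
    rw [State.rho, h4]
    simp
    norm_num

end

end Vale.Agent.P363
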