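import Vale.Agent.P363.Defs

/-! P363, block A: definitions. -/

open MeasureTheory Set Metric Filter Topology
open scoped RealInnerProductSpace

namespace Vale.Agent.P363

noncomputable section

def toE9 (x : Fin 3 → E3) : E9 := (x 0, (x 1, x 2))

def ofE9 (w : E9) : Fin 3 → E3 := ![w.1, w.2.1, w.2.2]

/-- The three gradients of an element of `O3`. -/
def O3.gr (a : O3) : Fin 3 → E9 → E3 := ![a.g1, a.g2, a.g3]

def k3 (a : O3) : ℝ := ∫ w, (‖a.g1 w‖ ^ 2 + ‖a.g2 w‖ ^ 2 + ‖a.g3 w‖ ^ 2)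

/-- Bring particle `i` to the first slot. -/
def slot : Fin 3 → E9 → E9 := ![id, p12, p13]

/-- Sum of the three one-body marginals of `F ^ 2`. -/
def r3 (F : E9 → ℝ) (x : E3) : ℝ := ∑ i, ∫ y, F (slot i (x, y)) ^ 2

def Sym3 (W : E9 → ℝ) : Prop := (∀ w, W (p12 w) = W w) ∧ ∀ w, W (p13 w) = W w

def Anti (a : O3) : Prop := ∀ᵐ w : E9, a.f (p12 w) = -a.f w

/-- A state described by finitely many real functions antisymmetric in the first two
particles. -/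
structure Dec {ι : Type} [Fintype ι] (Ψ : State 3) (b : ι → O3) : Prop where
  anti : ∀ j, Anti (b j)
  mass : Ψ.mass = ∑ j, ip3 (b j) (b j)
  kin : Ψ.kinetic = (1 / 2) * ∑ j, k3 (b j)
  pot : ∀ W : E9 → ℝ, Sym3 W → (∀ j, Integrable fun w => W w * (b j).f w ^ 2) →
    ∫ x, W (toE9 x) * Ψ.dens x = ∑ j, ∫ w, W w * (b j).f w ^ 2
  rho : ∀ᵐ x : E3, Ψ.rho x = ∑ j, r3 (b j).f x

/-- A one-body potential acting on three particles. -/
def Wv (v : E3 → ℝ) (w : E9) : ℝ := v w.1 + v w.2.1 + v w.2.2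

/-- The one-body form. -/
def qv (v f : E3 → ℝ) (g : E3 → E3) : ℝ := (1 / 2) * (∫ x, ‖g x‖ ^ 2) + ∫ x, v x * f x ^ 2

/-- The scaled version of the final statement. -/
def T_Sc : Prop := ∃ (L : ℝ) (Z : ℕ), 0 < L ∧ 1 ≤ Z ∧ ∃ Ψ : State 3,
  IsGround (fun x => W3 L (Z : ℝ)⁻¹ (toE9 x)) Ψ ∧ ¬Representable 2 Ψ.rho

end

end Vale.Agent.P363
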