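import Vale.Agent.P363.CC2A

/-! P363, block C: the `C2` kit. -/

open MeasureTheory Set Metric Filter Topology
open scoped RealInnerProductSpace

namespace Vale.Agent.P363

noncomputable section

variable {U : Set E3} {B B' l l' : E3 → ℝ} {g g' : E3 → E3}

/-- The reflection as a continuous linear map. -/
def cc2L : E3 →L[ℝ] E3 :=
  ContinuousLinearMap.id ℝ E3 -
    ((2 : ℝ) • (EuclideanSpace.proj (2 : Fin 3) : E3 →L[ℝ] ℝ)).smulRight (e 2)

theorem cc2L_apply (x : E3) : cc2L x = sg x := rfl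

theorem cc2_left {f : ℝ → ℝ} {a c : ℝ} (hc : Continuous (deriv f)) (h : ∀ s, s ≤ a → f s = c) :
    ∀ s, s ≤ a → deriv f s = 0 := by
  have h1 : EqOn (deriv f) (fun _ => 0) (Iio a) := fun s hs => by
    have : f =ᶠ[𝓝 s] fun _ => c := by
      filter_upwards [Iio_mem_nhds hs] with t ht using h t (le_of_lt ht)
    rw [this.deriv_eq]
    simp
  have h2 := h1.closure hc continuous_const
  rw [closure_Iio] at h2
  exact fun s hs => h2 hs

theorem cc2_right {f : ℝ → ℝ} {a c : ℝ} (hc : Continuous (deriv f)) (h : ∀ s, a ≤ s → f s = c) :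
    ∀ s, a ≤ s → deriv f s = 0 := by
  have h1 : EqOn (deriv f) (fun _ => 0) (Ioi a) := fun s hs => by
    have : f =ᶠ[𝓝 s] fun _ => c := by
      filter_upwards [Ioi_mem_nhds hs] with t ht using h t (le_of_lt ht)
    rw [this.deriv_eq]
    simp
  have h2 := h1.closure hc continuous_const
  rw [closure_Ioi] at h2
  exact fun s hs => h2 hs

theorem C2.exp (h : C2 U B g l) : C2 U (fun x => Real.exp (B x)) (fun x => Real.exp (B x) • g x)
    (fun x => Real.exp (B x) * (l x + ‖g x‖ ^ 2)) := by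
  refine (h.comp (Γ := Real.exp) (Γ1 := Real.exp) (Γ2 := Real.exp) isOpen_univ
    (fun s _ => ⟨Real.hasDerivAt_exp s, Real.hasDerivAt_exp s⟩)
    Real.continuous_exp.continuousOn (fun _ _ => mem_univ _)).congr (fun _ _ => rfl)
    (fun _ _ => rfl) (fun x _ => ?_)
  ring

theorem C2.lin (hU : IsOpen U) (v c : E3) :
    C2 U (fun x => ⟪v, x - c⟫) (fun _ => v) (fun _ => 0) := by
  refine ⟨hU, fun x _ => ?_, fun _ => 0, continuousOn_const, fun x _ =>
    ⟨hasFDerivAt_const _ _, by simp⟩⟩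
  have h := (innerSL ℝ v).hasFDerivAt.comp x ((hasFDerivAt_id x).sub_const c)
  exact h.congr_fderiv (ContinuousLinearMap.comp_id _)

theorem C2.coord (hU : IsOpen U) (k : Fin 3) :
    C2 U (fun x => x k) (fun _ => e k) (fun _ => 0) := by
  refine (C2.lin hU (e k) 0).congr (fun x _ => ?_) (fun _ _ => rfl) (fun _ _ => rfl)
  simp [e, EuclideanSpace.inner_single_left]

theorem C2.normsq (hU : IsOpen U) (c : E3) :
    C2 U (fun x => ‖x - c‖ ^ 2) (fun x => (2 : ℝ) • (x - c)) (fun _ => 6) := by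
  refine ⟨hU, fun x _ => ?_, fun _ => (2 : ℝ) • ContinuousLinearMap.id ℝ E3, continuousOn_const,
    fun x _ => ⟨((hasFDerivAt_id x).sub_const c).const_smul (2 : ℝ), ?_⟩⟩
  · have h := ((hasFDerivAt_id x).sub_const c).norm_sq
    refine h.congr_fderiv ?_
    ext v
    simp [two_smul]
  · simp [e]
    norm_num

theorem C2.dist (c : E3) :
    C2 {c}ᶜ (fun x => ‖x - c‖) (fun x => ‖x - c‖⁻¹ • (x - c)) (fun x => 2 / ‖x - c‖) := by
  have hp : ∀ x ∈ ({c}ᶜ : Set E3), 0 < ‖x - c‖ := fun x hx => norm_pos_iff.2 (sub_ne_zero.2 hx)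
  have h := (C2.normsq (U := {c}ᶜ) isOpen_compl_singleton c).comp (Γ := fun s => √s)
    (Γ1 := fun s => 1 / (2 * √s)) (Γ2 := fun s => -(1 / (4 * √s ^ 3))) (W := Ioi 0) isOpen_Ioi
    (fun s hs => ?_) ?_ (fun x hx => pow_pos (hp x hx) 2)
  · refine h.congr (fun x _ => (Real.sqrt_sq (norm_nonneg _)).symm) (fun x hx => ?_)
      (fun x hx => ?_)
    · rw [Real.sqrt_sq (norm_nonneg _), smul_smul]
      congr 1
      have := (hp x hx).ne'
      field_simp
    · rw [Real.sqrt_sq (norm_nonneg _), norm_smul, Real.norm_eq_abs, abs_two]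
      have := (hp x hx).ne'
      field_simp
      ring
  · have hs' : (0 : ℝ) < s := hs
    have h0 : √s ≠ 0 := (Real.sqrt_pos.2 hs').ne'
    have h1 := Real.hasDerivAt_sqrt hs'.ne'
    refine ⟨h1, ?_⟩
    have h2 := (h1.const_mul 2).inv (mul_ne_zero two_ne_zero h0)
    have h3 : (fun s : ℝ => 1 / (2 * √s)) = (fun y : ℝ => 2 * √y)⁻¹ := by
      ext t; simp
    rw [h3]
    refine h2.congr_deriv ?_
    field_simp
    ring
  · refine ContinuousOn.neg (continuousOn_const.div (by fun_prop) fun s hs => ?_)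
    have := Real.sqrt_pos.2 (show (0 : ℝ) < s from hs)
    positivity

/-- Radial functions about `c`. -/
theorem C2.radial {φ φ1 φ2 : ℝ → ℝ} {a : ℝ} (ha : 0 ≤ a) (c : E3)
    (hd : ∀ s, a < s → HasDerivAt φ (φ1 s) s ∧ HasDerivAt φ1 (φ2 s) s)
    (hc : ContinuousOn φ2 (Ioi a)) :
    C2 {x | a < ‖x - c‖} (fun x => φ ‖x - c‖) (fun x => (φ1 ‖x - c‖ / ‖x - c‖) • (x - c))
      (fun x => φ2 ‖x - c‖ + 2 * φ1 ‖x - c‖ / ‖x - c‖) := by
  have hp : ∀ x ∈ {x : E3 | a < ‖x - c‖}, 0 < ‖x - c‖ := fun x hx => lt_of_le_of_lt ha hx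
  have h := ((C2.dist c).mono (U' := {x | a < ‖x - c‖})
    (isOpen_lt continuous_const (by fun_prop))
    (fun x hx => sub_ne_zero.1 (norm_pos_iff.1 (hp x hx)))).comp (W := Ioi a) isOpen_Ioi hd hc
    (fun x hx => hx)
  refine h.congr (fun _ _ => rfl) (fun x _ => ?_) (fun x hx => ?_)
  · rw [smul_smul, div_eq_mul_inv]
  · have := (hp x hx).ne'
    rw [norm_smul, norm_inv, norm_norm]
    field_simp
    ring

/-- Products `h z * exp (ψ r)`. -/
theorem C2.zrad {h h1 h2 ψ ψ1 ψ2 : ℝ → ℝ} {a : ℝ} (ha : 0 ≤ a)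
    (hh : ∀ s, HasDerivAt h (h1 s) s ∧ HasDerivAt h1 (h2 s) s) (hc : Continuous h2)
    (hd : ∀ s, a < s → HasDerivAt ψ (ψ1 s) s ∧ HasDerivAt ψ1 (ψ2 s) s)
    (hc' : ContinuousOn ψ2 (Ioi a)) :
    C2 (Ext a) (fun x => h (x 2) * Real.exp (ψ ‖x‖))
      (fun x => Real.exp (ψ ‖x‖) • (h1 (x 2) • e 2 + (h (x 2) * ψ1 ‖x‖ / ‖x‖) • x))
      (fun x => Real.exp (ψ ‖x‖) * (h2 (x 2) + 2 * h1 (x 2) * ψ1 ‖x‖ * x 2 / ‖x‖ +
        h (x 2) * (ψ2 ‖x‖ + ψ1 ‖x‖ ^ 2 + 2 * ψ1 ‖x‖ / ‖x‖))) := by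
  have hr := C2.radial ha (0 : E3) hd hc'
  simp only [sub_zero] at hr
  have hA := (C2.coord hr.op 2).comp (W := univ) isOpen_univ (fun s _ => hh s) hc.continuousOn
    (fun _ _ => mem_univ _)
  have he : ‖e 2‖ = 1 := by simp [e]
  refine (hA.mul hr.exp).congr (fun _ _ => rfl) (fun x _ => ?_) (fun x hx => ?_)
  · simp only [smul_add, smul_smul]
    rw [add_comm]
    congr 2
    ring
  · have hx0 : ‖x‖ ≠ 0 := (lt_of_le_of_lt ha hx).ne'
    have hi : ⟪e 2, x⟫ = x 2 := by simp [e, EuclideanSpace.inner_single_left]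
    rw [he, real_inner_smul_left, real_inner_smul_right, real_inner_smul_right, hi, norm_smul,
      mul_pow, Real.norm_eq_abs, sq_abs]
    field_simp
    ring

theorem C2.refl (h : C2 U B g l) :
    C2 (sg ⁻¹' U) (fun x => B (sg x)) (fun x => sg (g (sg x))) (fun x => l (sg x)) := by
  obtain ⟨H, hH, hd⟩ := h.d2
  have hc : Continuous sg := cc2L.continuous
  refine ⟨h.op.preimage hc, fun x hx => ?_, fun x => cc2L.comp ((H (sg x)).comp cc2L), ?_,
    fun x hx => ⟨?_, ?_⟩⟩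
  · have h1 := (h.d1 _ hx).comp x (cc2L.hasFDerivAt (x := x))
    refine h1.congr_fderiv ?_
    ext v
    simp only [innerSL_apply_apply, ContinuousLinearMap.comp_apply, cc2L_apply]
    simp [PiLp.inner_apply, Fin.sum_univ_three, sg, e]
    ring
  · exact continuousOn_const.clm_comp
      ((hH.comp hc.continuousOn fun _ hx => hx).clm_comp continuousOn_const)
  · exact cc2L.hasFDerivAt.comp x ((hd _ hx).1.comp x (cc2L.hasFDerivAt (x := x)))
  · have e0 : sg (e 0) = e 0 := by simp [sg, e]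
    have e1 : sg (e 1) = e 1 := by simp [sg, e]
    have e2 : sg (e 2) = -e 2 := by
      have : e 2 2 = 1 := by simp [e]
      rw [sg, this, mul_one, two_smul]
      abel
    rw [(hd _ hx).2]
    simp only [Fin.sum_univ_three, ContinuousLinearMap.comp_apply, cc2L_apply, e0, e1, e2, map_neg]
    simp [sg, e]
    ring

/-- A smooth function is `C2` for some gradient and Laplacian. -/
theorem C2.of_contDiff (h : ContDiff ℝ 2 B) : ∃ g l, C2 univ B g l ∧
    ∀ x, x ∉ tsupport B → g x = 0 ∧ l x = 0 := by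
  have hf : ContDiff ℝ 1 (fderiv ℝ B) := h.fderiv_right (by norm_num)
  have hg : ContDiff ℝ 1 fun x => (InnerProductSpace.toDual ℝ E3).symm (fderiv ℝ B x) :=
    (InnerProductSpace.toDual ℝ E3).symm.contDiff.comp hf
  refine ⟨fun x => (InnerProductSpace.toDual ℝ E3).symm (fderiv ℝ B x), fun x => ∑ k,
    fderiv ℝ (fun x => (InnerProductSpace.toDual ℝ E3).symm (fderiv ℝ B x)) x (e k) k,
    ⟨isOpen_univ, fun x _ => ?_, _, (hg.continuous_fderiv one_ne_zero).continuousOn, fun x _ =>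
      ⟨(hg.differentiable one_ne_zero x).hasFDerivAt, rfl⟩⟩, fun x hx => ?_⟩
  · refine (h.differentiable two_ne_zero x).hasFDerivAt.congr_fderiv ?_
    ext v
    simp
  · have h0 : B =ᶠ[𝓝 x] fun _ => 0 := notMem_tsupport_iff_eventuallyEq.1 hx
    have h1 : (fun x => (InnerProductSpace.toDual ℝ E3).symm (fderiv ℝ B x)) =ᶠ[𝓝 x]
        fun _ => 0 := by
      filter_upwards [h0.eventuallyEq_nhds] with y hy
      rw [hy.fderiv_eq]
      simp
    refine ⟨h1.eq_of_nhds, ?_⟩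
    simp only [h1.fderiv_eq]
    simp

/-- A smooth step: `1` on `s ≤ 1`, `0` on `s ≥ 2`. -/
theorem exists_step : ∃ (h h1 h2 : ℝ → ℝ) (M : ℝ), 1 ≤ M ∧
    (∀ s, HasDerivAt h (h1 s) s ∧ HasDerivAt h1 (h2 s) s) ∧ Continuous h2 ∧
    (∀ s, 0 ≤ h s ∧ h s ≤ 1 ∧ h1 s ≤ 0 ∧ |h1 s| ≤ M ∧ |h2 s| ≤ M) ∧
    (∀ s, s ≤ 1 → h s = 1 ∧ h1 s = 0 ∧ h2 s = 0) ∧ ∀ s, 2 ≤ s → h s = 0 ∧ h1 s = 0 ∧ h2 s = 0 := by
  have hs : ContDiff ℝ 2 fun s : ℝ => Real.smoothTransition (2 - s) :=
    Real.smoothTransition.contDiff.comp (contDiff_const.sub contDiff_id)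
  set h : ℝ → ℝ := fun s => Real.smoothTransition (2 - s) with hh
  have hs1 : ContDiff ℝ 1 (deriv h) := hs.deriv'
  have c1 : Continuous (deriv h) := hs1.continuous
  have c2 : Continuous (deriv (deriv h)) := hs1.continuous_deriv le_rfl
  have a0 : ∀ s, s ≤ 1 → h s = 1 := fun s hs =>
    Real.smoothTransition.one_of_one_le (by linarith)
  have b0 : ∀ s, 2 ≤ s → h s = 0 := fun s hs =>
    Real.smoothTransition.zero_of_nonpos (by linarith)
  have a1 := cc2_left c1 a0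
  have a2 := cc2_left c2 a1
  have b1 := cc2_right c1 b0
  have b2 := cc2_right c2 b1
  obtain ⟨M1, m1⟩ := isCompact_Icc.exists_bound_of_continuousOn (c1.continuousOn (s := Icc 1 2))
  obtain ⟨M2, m2⟩ := isCompact_Icc.exists_bound_of_continuousOn (c2.continuousOn (s := Icc 1 2))
  have anti : Antitone h := fun s t hst => Real.smoothTransition.monotone (by linarith)
  have p1 : (1 : ℝ) ≤ max 1 (max M1 M2) := le_max_left _ _
  refine ⟨h, deriv h, deriv (deriv h), max 1 (max M1 M2), p1, fun s =>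
    ⟨(hs.differentiable two_ne_zero s).hasDerivAt, (hs1.differentiable one_ne_zero s).hasDerivAt⟩,
    c2, fun s => ⟨Real.smoothTransition.nonneg _, Real.smoothTransition.le_one _,
      anti.deriv_nonpos, ?_, ?_⟩, fun s hs => ⟨a0 s hs, a1 s hs, a2 s hs⟩,
    fun s hs => ⟨b0 s hs, b1 s hs, b2 s hs⟩⟩
  · rcases le_total s 1 with h1 | h1
    · rw [a1 s h1, abs_zero]; linarith
    rcases le_total 2 s with h2 | h2
    · rw [b1 s h2, abs_zero]; linarith
    exact (m1 s ⟨h1, h2⟩).trans ((le_max_left _ _).trans (le_max_right _ _))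
  · rcases le_total s 1 with h1 | h1
    · rw [a2 s h1, abs_zero]; linarith
    rcases le_total 2 s with h2 | h2
    · rw [b2 s h2, abs_zero]; linarith
    exact (m2 s ⟨h1, h2⟩).trans ((le_max_right _ _).trans (le_max_right _ _))

end

end Vale.Agent.P363
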