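import Vale.Agent.P363.CInt
import Vale.Agent.P363.CC2

/-! P363, block C: `H1`, `L1`, test functions and cutoffs. -/

open MeasureTheory Set Metric Filter Topology
open scoped RealInnerProductSpace

namespace Vale.Agent.P363

noncomputable section

variable {U : Set E3} {f f' ψ : E3 → ℝ} {g g' p : E3 → E3}

theorem ctst_mf (h : LD univ f g) : AEStronglyMeasurable f volume := by
  simpa using h.mf

theorem ctst_mg (h : LD univ f g) : AEStronglyMeasurable g volume := by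
  simpa using h.mg

theorem ctst_sg_zero : sg 0 = 0 := by
  simp [sg]

theorem ctst_fin {K : Set E3} (hK : IsCompact K) : IsFiniteMeasure (volume.restrict K) :=
  ⟨by simpa using hK.measure_lt_top⟩

/-- Square integrability on a compact set from a pointwise bound. -/
theorem ctst_memLp {α : Type} [NormedAddCommGroup α] {K : Set E3} (hK : IsCompact K)
    {F : E3 → α} (hm : AEStronglyMeasurable F (volume.restrict K)) {a : E3 → ℝ}
    (ha : MemLp a 2 (volume.restrict K)) {M : ℝ}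
    (h : ∀ᵐ x : E3, x ∈ K → ‖F x‖ ≤ M * (1 + |a x|)) : MemLp F 2 (volume.restrict K) := by
  have := ctst_fin hK
  have h0 : MemLp (fun x => |a x|) 2 (volume.restrict K) := ha.norm
  have h1 : MemLp (fun x => 1 + |a x|) 2 (volume.restrict K) := (memLp_const (1 : ℝ)).add h0
  refine h1.of_le_mul (c := M) hm ?_
  filter_upwards [(ae_restrict_iff' hK.measurableSet).2 h] with x hx
  rw [Real.norm_eq_abs, abs_of_nonneg (by positivity)]
  exact hx

theorem ctst_memLp_sg {α : Type} [NormedAddCommGroup α] {F : E3 → α} (h : MemLp F 2 volume) :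
    MemLp (fun x => F (sg x)) 2 volume :=
  h.comp_measurePreserving mp_sg

theorem ctst_memLp_sg' {F : E3 → E3} (h : MemLp F 2 volume) :
    MemLp (fun x => sg (F x)) 2 volume :=
  h.of_le (continuous_sg.comp_aestronglyMeasurable h.1)
    (Eventually.of_forall fun _ => (norm_sg _).le)

theorem ctst_memLp_dil {α : Type} [NormedAddCommGroup α] {F : E3 → α} (h : MemLp F 2 volume)
    {c : ℝ} (hc : 0 < c) : MemLp (fun x => F (c • x)) 2 volume := by
  have h1 : MemLp F 2 (Measure.map (fun x : E3 => c • x) volume) := by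
    rw [Measure.map_addHaar_smul _ hc.ne']
    exact h.smul_measure ENNReal.ofReal_ne_top
  exact h1.comp_of_map (measurable_const_smul c).aemeasurable

theorem H1.add (h : H1 f g) (h' : H1 f' g') :
    H1 (fun x => f x + f' x) (fun x => g x + g' x) :=
  ⟨h.ld.add h'.ld, h.l2.add h'.l2, h.l2g.add h'.l2g⟩

theorem H1.sub (h : H1 f g) (h' : H1 f' g') :
    H1 (fun x => f x - f' x) (fun x => g x - g' x) :=
  ⟨h.ld.sub h'.ld, h.l2.sub h'.l2, h.l2g.sub h'.l2g⟩

theorem H1.cmul (c : ℝ) (h : H1 f g) : H1 (fun x => c * f x) (fun x => c • g x) :=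
  ⟨h.ld.cmul c, h.l2.const_mul c, h.l2g.const_smul c⟩

theorem H1.zero : H1 (fun _ => 0) (fun _ => 0) :=
  ⟨LD.const univ 0, MemLp.zero', MemLp.zero'⟩

theorem H1.congr (h : H1 f g) (h1 : ∀ᵐ x : E3, f' x = f x) (h2 : ∀ᵐ x : E3, g' x = g x) :
    H1 f' g' :=
  ⟨h.ld.congr isOpen_univ (h1.mono fun _ hx _ => hx) (h2.mono fun _ hx _ => hx),
    h.l2.ae_eq (h1.mono fun _ hx => hx.symm), h.l2g.ae_eq (h2.mono fun _ hx => hx.symm)⟩

theorem H1.refl (h : H1 f g) : H1 (fun x => f (sg x)) (fun x => sg (g (sg x))) :=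
  ⟨h.ld.refl, ctst_memLp_sg h.l2, ctst_memLp_sg' (ctst_memLp_sg h.l2g)⟩

theorem H1.shift (h : H1 f g) (c : E3) : H1 (fun x => f (x + c)) (fun x => g (x + c)) :=
  ⟨h.ld.shift c, h.l2.comp_measurePreserving (measurePreserving_add_right volume c),
    h.l2g.comp_measurePreserving (measurePreserving_add_right volume c)⟩

theorem H1.dilate (h : H1 f g) {c : ℝ} (hc : 0 < c) :
    H1 (fun x => f (c • x)) (fun x => c • g (c • x)) :=
  ⟨h.ld.dilate hc, ctst_memLp_dil h.l2 hc, (ctst_memLp_dil h.l2g hc).const_smul c⟩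

theorem H1.abs (h : H1 f g) : H1 (fun x => |f x|) (fun x => if 0 < f x then g x else -g x) := by
  have hl := h.ld.abs isOpen_univ
  refine ⟨hl, h.l2.abs, h.l2g.of_le (ctst_mg hl) (Eventually.of_forall fun x => ?_)⟩
  split_ifs <;> simp

theorem H1.hyp (h : H1 f g) (h' : H1 f' g') : H1 (fun x => √(f x ^ 2 + f' x ^ 2))
    (fun x => (√(f x ^ 2 + f' x ^ 2))⁻¹ • (f x • g x + f' x • g' x)) := by
  have hl := h.ld.hyp isOpen_univ h'.ld
  refine ⟨hl, (h.l2.abs.add h'.l2.abs).of_le (ctst_mf hl) (Eventually.of_forall fun x => ?_),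
    (h.l2g.norm.add h'.l2g.norm).of_le (ctst_mg hl) (Eventually.of_forall fun x => ?_)⟩
  · show ‖√(f x ^ 2 + f' x ^ 2)‖ ≤ ‖|f x| + |f' x|‖
    rw [Real.norm_eq_abs, Real.norm_eq_abs, abs_of_nonneg (Real.sqrt_nonneg _),
      abs_of_nonneg (by positivity)]
    apply Real.sqrt_le_iff.2 ⟨by positivity, ?_⟩
    nlinarith [sq_abs (f x), sq_abs (f' x), mul_nonneg (abs_nonneg (f x)) (abs_nonneg (f' x))]
  · show _ ≤ ‖‖g x‖ + ‖g' x‖‖
    rw [Real.norm_eq_abs, abs_of_nonneg (by positivity)]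
    have := hyp_grad_le (f x) (f' x) (g x) (g' x)
    apply (abs_le_of_sq_le_sq' _ (by positivity)).2
    nlinarith [mul_nonneg (norm_nonneg (g x)) (norm_nonneg (g' x))]

/-- Odd extension of the upper part: the squares of the function and of the gradient norm are
the even extensions. -/
theorem H1.oddext (h : H1 f g) (hz : TZ univ f) : ∃ f1 g1, H1 f1 g1 ∧ (∀ x, f1 (sg x) = -f1 x) ∧
    (∀ x, ‖g1 (sg x)‖ = ‖g1 x‖) ∧ ∀ x, 0 < x 2 → f1 x = f x ∧ g1 x = g x := by
  have hm : MeasurableSet Hp := isOpen_Hp.measurableSet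
  refine ⟨_, _, ⟨h.ld.oddext hz, (h.l2.indicator hm).sub (ctst_memLp_sg (h.l2.indicator hm)),
    (h.l2g.indicator hm).sub (ctst_memLp_sg' (ctst_memLp_sg (h.l2g.indicator hm)))⟩,
    fun x => ?_, fun x => ?_, fun x hx => ?_⟩
  · simp only [sg_sg, neg_sub]
  · simp only [sg_sg]
    rw [← norm_sg, sg_sub, sg_sg, norm_sub_rev]
  · have h1 : x ∈ Hp := hx
    have h2 : sg x ∉ Hp := by
      show ¬ 0 < sg x 2
      rw [sg_2]; linarith
    simp only [indicator_of_mem h1, indicator_of_notMem h2, ctst_sg_zero, sub_zero, and_self]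

theorem H1.mul_bdd {m : E3 → ℝ} {gm : E3 → E3} (h : H1 f g) (hm : LD univ m gm) {M : ℝ}
    (hb : ∀ᵐ x : E3, |m x| ≤ M) (hg : MemLp (fun x => f x • gm x) 2 volume) :
    H1 (fun x => m x * f x) (fun x => m x • g x + f x • gm x) := by
  refine ⟨hm.mul isOpen_univ h.ld, h.l2.of_le_mul (c := M) ((ctst_mf hm).mul h.l2.1) ?_,
    MemLp.add (h.l2g.of_le_mul (c := M) ((ctst_mf hm).smul h.l2g.1) ?_) hg⟩
  · filter_upwards [hb] with x hx
    rw [norm_mul]
    exact mul_le_mul_of_nonneg_right hx (norm_nonneg _)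
  · filter_upwards [hb] with x hx
    rw [norm_smul]
    exact mul_le_mul_of_nonneg_right hx (norm_nonneg _)

theorem H1.mul_lip {m : E3 → ℝ} {gm : E3 → E3} (h : H1 f g) (hm : LD univ m gm) {M : ℝ}
    (hb : ∀ᵐ x : E3, |m x| ≤ M ∧ ‖gm x‖ ≤ M) :
    H1 (fun x => m x * f x) (fun x => m x • g x + f x • gm x) := by
  refine h.mul_bdd hm (hb.mono fun _ hx => hx.1)
    (h.l2.of_le_mul (c := M) (h.l2.1.smul (ctst_mg hm)) ?_)
  filter_upwards [hb] with x hx
  rw [norm_smul, mul_comm]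
  exact mul_le_mul_of_nonneg_right hx.2 (norm_nonneg _)

theorem H1.l1 (h : H1 f g) (U : Set E3) : L1 U f g :=
  ⟨h.ld.mono (subset_univ U), fun K _ _ => h.l2.restrict K, fun K _ _ => h.l2g.restrict K⟩

theorem L1.mono {U' : Set E3} (h : L1 U f g) (hU : U' ⊆ U) : L1 U' f g :=
  ⟨h.ld.mono hU, fun K hK hKU => h.l2 K hK (hKU.trans hU),
    fun K hK hKU => h.l2g K hK (hKU.trans hU)⟩

theorem L1.add (h : L1 U f g) (h' : L1 U f' g') :
    L1 U (fun x => f x + f' x) (fun x => g x + g' x) :=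
  ⟨h.ld.add h'.ld, fun K hK hKU => (h.l2 K hK hKU).add (h'.l2 K hK hKU),
    fun K hK hKU => (h.l2g K hK hKU).add (h'.l2g K hK hKU)⟩

theorem L1.sub (h : L1 U f g) (h' : L1 U f' g') :
    L1 U (fun x => f x - f' x) (fun x => g x - g' x) :=
  ⟨h.ld.sub h'.ld, fun K hK hKU => (h.l2 K hK hKU).sub (h'.l2 K hK hKU),
    fun K hK hKU => (h.l2g K hK hKU).sub (h'.l2g K hK hKU)⟩

theorem L1.cmul (c : ℝ) (h : L1 U f g) : L1 U (fun x => c * f x) (fun x => c • g x) :=
  ⟨h.ld.cmul c, fun K hK hKU => (h.l2 K hK hKU).const_mul c,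
    fun K hK hKU => (h.l2g K hK hKU).const_smul c⟩

theorem L1.congr (hU : IsOpen U) (h : L1 U f g) (h1 : ∀ᵐ x : E3, x ∈ U → f' x = f x)
    (h2 : ∀ᵐ x : E3, x ∈ U → g' x = g x) : L1 U f' g' := by
  refine ⟨h.ld.congr hU h1 h2, fun K hK hKU => (h.l2 K hK hKU).ae_eq ?_,
    fun K hK hKU => (h.l2g K hK hKU).ae_eq ?_⟩
  · refine (ae_restrict_iff' hK.measurableSet).2 ?_
    filter_upwards [h1] with x hx hxK using (hx (hKU hxK)).symm
  · refine (ae_restrict_iff' hK.measurableSet).2 ?_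
    filter_upwards [h2] with x hx hxK using (hx (hKU hxK)).symm

/-- `L1` from `LD` and pointwise bounds. -/
theorem L1.of_le {a b : E3 → ℝ} (hU : IsOpen U) (h : LD U f g) (ha : Loc2 U a) (hb : Loc2 U b)
    (h1 : ∀ K, IsCompact K → K ⊆ U → ∃ M, ∀ᵐ x : E3, x ∈ K →
      |f x| ≤ M * (1 + |a x|) ∧ ‖g x‖ ≤ M * (1 + |b x|)) : L1 U f g := by
  have _ := hU
  refine ⟨h, fun K hK hKU => ?_, fun K hK hKU => ?_⟩
  · obtain ⟨M, hM⟩ := h1 K hK hKU
    exact ctst_memLp hK (h.mf.mono_set hKU) (ha K hK hKU) (M := M)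
      (hM.mono fun x hx hxK => (hx hxK).1)
  · obtain ⟨M, hM⟩ := h1 K hK hKU
    exact ctst_memLp hK (h.mg.mono_set hKU) (hb K hK hKU) (M := M)
      (hM.mono fun x hx hxK => (hx hxK).2)

theorem ctst_loc2_zero (U : Set E3) : Loc2 U (fun _ => (0 : ℝ)) :=
  fun _ _ _ => MemLp.zero'

theorem L1.mul (hU : IsOpen U) (h : L1 U f g) (h' : L1 U f' g') (b : LocB U f) (b' : LocB U f') :
    L1 U (fun x => f x * f' x) (fun x => f x • g' x + f' x • g x) := by
  refine L1.of_le (a := fun _ => 0) (b := fun x => ‖g x‖ + ‖g' x‖) hU (h.ld.mul hU h'.ld)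
    (ctst_loc2_zero U) (fun K hK hKU => (h.l2g K hK hKU).norm.add (h'.l2g K hK hKU).norm)
    fun K hK hKU => ?_
  obtain ⟨M, hM⟩ := b K hK hKU
  obtain ⟨M', hM'⟩ := b' K hK hKU
  refine ⟨(1 + |M|) * (1 + |M'|), ?_⟩
  filter_upwards [hM, hM'] with x h1 h2 hx
  have a1 := (h1 hx).trans (le_abs_self M)
  have a2 := (h2 hx).trans (le_abs_self M')
  have n1 := abs_nonneg M
  have n2 := abs_nonneg M'
  have n3 := norm_nonneg (g x)
  have n4 := norm_nonneg (g' x)
  have n5 := mul_nonneg n1 n2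
  constructor
  · rw [abs_mul, abs_zero]
    have := mul_le_mul a1 a2 (abs_nonneg _) n1
    nlinarith
  · refine (norm_add_le _ _).trans ?_
    rw [norm_smul, norm_smul, Real.norm_eq_abs, Real.norm_eq_abs,
      abs_of_nonneg (add_nonneg n3 n4)]
    have e1 := mul_le_mul_of_nonneg_right a1 n4
    have e2 := mul_le_mul_of_nonneg_right a2 n3
    nlinarith [mul_nonneg n1 n3, mul_nonneg n2 n4, mul_nonneg n5 n3, mul_nonneg n5 n4]

theorem LocB.of_cont (h : ContinuousOn f U) : LocB U f := by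
  intro K hK hKU
  obtain ⟨M, hM⟩ := hK.exists_bound_of_continuousOn (h.mono hKU)
  exact ⟨M, Eventually.of_forall fun x hx => hM x hx⟩

theorem LocP.of_cont (h : ContinuousOn f U) (hp : ∀ x ∈ U, 0 < f x) : LocP U f := by
  intro K hK hKU
  rcases K.eq_empty_or_nonempty with rfl | hne
  · exact ⟨1, one_pos, Eventually.of_forall fun x hx => hx.elim⟩
  · obtain ⟨y, hy, hm⟩ := hK.exists_isMinOn hne (h.mono hKU)
    exact ⟨f y, hp y (hKU hy), Eventually.of_forall fun x hx => hm hx⟩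

theorem C2.l1 {l : E3 → ℝ} (h : C2 U f g l) : L1 U f g ∧ LocB U f ∧ LocB U l ∧
    LocB U (fun x => ‖g x‖) := by
  have b1 := LocB.of_cont h.cont.1
  have b2 := LocB.of_cont h.cont.2.1.norm
  refine ⟨L1.of_le h.op h.ld (ctst_loc2_zero U) (ctst_loc2_zero U) fun K hK hKU => ?_, b1,
    LocB.of_cont h.cont.2.2, b2⟩
  obtain ⟨M, hM⟩ := b1 K hK hKU
  obtain ⟨M', hM'⟩ := b2 K hK hKU
  refine ⟨max M M', ?_⟩
  filter_upwards [hM, hM'] with x h1 h2 hx
  simp only [abs_zero, add_zero, mul_one]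
  exact ⟨(h1 hx).trans (le_max_left _ _), ((le_abs_self _).trans (h2 hx)).trans (le_max_right _ _)⟩

theorem L1.mulC {l : E3 → ℝ} (h : L1 U f g) (h' : C2 U f' g' l) :
    L1 U (fun x => f x * f' x) (fun x => f x • g' x + f' x • g x) := by
  refine L1.of_le (a := f) (b := fun x => ‖g x‖ + |f x|) h'.op (h.ld.mul h'.op h'.ld)
    h.l2 (fun K hK hKU => (h.l2g K hK hKU).norm.add (h.l2 K hK hKU).abs)
    fun K hK hKU => ?_
  obtain ⟨M, hM⟩ := h'.l1.2.1 K hK hKU
  obtain ⟨M', hM'⟩ := h'.l1.2.2.2 K hK hKU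
  refine ⟨|M| + |M'|, ?_⟩
  filter_upwards [hM, hM'] with x h1 h2 hx
  have a1 := (h1 hx).trans (le_abs_self M)
  have a2 := ((le_abs_self _).trans (h2 hx)).trans (le_abs_self M')
  have n1 := abs_nonneg M
  have n2 := abs_nonneg M'
  have n3 := norm_nonneg (g x)
  have n4 := abs_nonneg (f x)
  constructor
  · rw [abs_mul]
    have := mul_le_mul_of_nonneg_left a1 n4
    nlinarith [mul_nonneg n2 n4]
  · refine (norm_add_le _ _).trans ?_
    rw [norm_smul, norm_smul, Real.norm_eq_abs, Real.norm_eq_abs,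
      abs_of_nonneg (add_nonneg n3 n4)]
    have e1 := mul_le_mul_of_nonneg_right a1 n3
    have e2 := mul_le_mul_of_nonneg_left a2 n4
    nlinarith [mul_nonneg n1 n4, mul_nonneg n2 n3]

theorem Loc1.of_le (hU : IsOpen U) (hm : AEStronglyMeasurable f (volume.restrict U))
    (h : Loc1 U f') (h1 : ∀ K, IsCompact K → K ⊆ U → ∃ M, ∀ᵐ x : E3, x ∈ K →
      |f x| ≤ M * (1 + |f' x|)) : Loc1 U f := by
  have _ := hU
  intro K hK hKU
  have := ctst_fin hK
  obtain ⟨M, hM⟩ := h1 K hK hKU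
  have h2 : Integrable (fun x => M * (1 + |f' x|)) (volume.restrict K) :=
    ((integrable_const 1).add (h K hK hKU).abs).const_mul M
  exact h2.mono' (hm.mono_set hKU) ((ae_restrict_iff' hK.measurableSet).2 hM)

theorem Loc2.sq {α : Type} [NormedAddCommGroup α] {a : E3 → α} (h : Loc2 U a) :
    Loc1 U (fun x => ‖a x‖ ^ 2) :=
  fun K hK hKU => (memLp_two_iff_integrable_sq_norm (h K hK hKU).1).1 (h K hK hKU)

end

end Vale.Agent.P363
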