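import Vale.Agent.P363.APot
import Vale.Agent.P363.CTstA

/-! P363, block A: the Euler-Lagrange equation of a one-body minimizer. -/

open MeasureTheory Set Metric Filter Topology
open scoped RealInnerProductSpace

namespace Vale.Agent.P363

noncomputable section

theorem ael_real {A M a b : ℝ}
    (h : ∀ t : ℝ, 0 < 1 + 2 * t * A + t ^ 2 * M → 0 ≤ 2 * t * a + t ^ 2 * b) : a = 0 := by
  have hc : Continuous fun t : ℝ => 1 + 2 * t * A + t ^ 2 * M := by fun_prop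
  have hev : ∀ᶠ t : ℝ in 𝓝 0, 0 < 1 + 2 * t * A + t ^ 2 * M := by
    have h0 : (0 : ℝ) < 1 + 2 * 0 * A + 0 ^ 2 * M := by norm_num
    exact (hc.tendsto 0).eventually (lt_mem_nhds h0)
  have hmin : IsLocalMin (fun t : ℝ => 2 * t * a + t ^ 2 * b) 0 := by
    filter_upwards [hev] with t ht
    have := h t ht
    simpa using this
  have hd : HasDerivAt (fun t : ℝ => 2 * t * a + t ^ 2 * b) (2 * a) 0 := by
    have h1 : HasDerivAt (fun t : ℝ => 2 * t * a) (2 * 1 * a) 0 :=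
      ((hasDerivAt_id (0 : ℝ)).const_mul 2).mul_const a
    have h2 : HasDerivAt (fun t : ℝ => t ^ 2 * b) (((2 : ℕ) : ℝ) * 0 ^ (2 - 1) * b) 0 :=
      (hasDerivAt_pow 2 (0 : ℝ)).mul_const b
    have h3 := h1.fun_add h2
    refine h3.congr_deriv ?_
    norm_num
  have := hmin.hasDerivAt_eq_zero hd
  linarith

theorem ael_hom {v φ : E3 → ℝ} {p : E3 → E3}
    (hmin : ∀ ζ r, H1 ζ r → ∫ x, ζ x ^ 2 = 1 → qv v φ p ≤ qv v ζ r)
    {ζ : E3 → ℝ} {r : E3 → E3} (hz : H1 ζ r) (hm : 0 < ∫ x, ζ x ^ 2) :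
    qv v φ p * ∫ x, ζ x ^ 2 ≤ qv v ζ r := by
  set m := ∫ x, ζ x ^ 2 with hmdef
  set c := (√m)⁻¹ with hc
  have hc2 : c ^ 2 * m = 1 := by
    rw [hc, inv_pow, Real.sq_sqrt hm.le]
    exact inv_mul_cancel₀ hm.ne'
  have e1 : ∫ x, (c * ζ x) ^ 2 = 1 := by
    simp only [mul_pow]
    rw [integral_const_mul, hc2]
  have e2 : qv v (fun x => c * ζ x) (fun x => c • r x) = c ^ 2 * qv v ζ r := by
    unfold qv
    have a1 : ∀ x, ‖c • r x‖ ^ 2 = c ^ 2 * ‖r x‖ ^ 2 := fun x => by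
      rw [norm_smul, mul_pow, Real.norm_eq_abs, sq_abs]
    have a2 : ∀ x, v x * (c * ζ x) ^ 2 = c ^ 2 * (v x * ζ x ^ 2) := fun x => by ring
    simp only [a1, a2]
    rw [integral_const_mul, integral_const_mul]
    ring
  have h3 := hmin _ _ (hz.cmul c) e1
  rw [e2] at h3
  calc qv v φ p * m ≤ c ^ 2 * qv v ζ r * m := mul_le_mul_of_nonneg_right h3 hm.le
    _ = (c ^ 2 * m) * qv v ζ r := by ring
    _ = qv v ζ r := by rw [hc2, one_mul]

theorem ael_sq {α : Type} [NormedAddCommGroup α] {g : E3 → α} (h : MemLp g 2 volume) :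
    Integrable (fun x => ‖g x‖ ^ 2) :=
  (memLp_two_iff_integrable_sq_norm h.1).1 h

theorem ael_sq' {f : E3 → ℝ} (h : MemLp f 2 volume) : Integrable (fun x => f x ^ 2) :=
  (memLp_two_iff_integrable_sq h.1).1 h

theorem ael_inner {g g' : E3 → E3} (h : MemLp g 2 volume) (h' : MemLp g' 2 volume) :
    Integrable (fun x => ⟪g x, g' x⟫) := by
  have h1 := ael_sq (h.add h')
  have h2 := ((h1.sub (ael_sq h)).sub (ael_sq h')).div_const 2
  refine h2.congr (Eventually.of_forall fun x => ?_)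
  simp only [Pi.sub_apply, Pi.add_apply]
  rw [norm_add_sq_real]
  ring

theorem ael_exp {a b c : E3 → ℝ} (ha : Integrable a) (hb : Integrable b) (hc : Integrable c)
    (t : ℝ) : ∫ x, (a x + 2 * t * b x + t ^ 2 * c x) =
      (∫ x, a x) + 2 * t * (∫ x, b x) + t ^ 2 * ∫ x, c x := by
  have h1 : Integrable (fun x => a x + 2 * t * b x) := ha.add (hb.const_mul _)
  rw [integral_add h1 (hc.const_mul _), integral_add ha (hb.const_mul _), integral_const_mul,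
    integral_const_mul]

theorem euler_lagrange {v₁ v₂ φ : E3 → ℝ} {p : E3 → E3} (h1 : MemLp v₁ (3 / 2) volume)
    (h2 : MemLp v₂ ⊤ volume) (h : H1 φ p) (n1 : ∫ x, φ x ^ 2 = 1)
    (hmin : ∀ ζ r, H1 ζ r → ∫ x, ζ x ^ 2 = 1 →
      qv (fun x => v₁ x + v₂ x) φ p ≤ qv (fun x => v₁ x + v₂ x) ζ r) :
    ∃ μ : ℝ, ∀ f gf, H1 f gf →
      ∫ x, ((1 / 2) * ⟪p x, gf x⟫ + (v₁ x + v₂ x) * φ x * f x) = μ * ∫ x, φ x * f x := by
  obtain ⟨C, -, hC⟩ := form1 h1 h2
  refine ⟨qv (fun x => v₁ x + v₂ x) φ p, fun f gf hf => ?_⟩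
  have iφ := ael_sq' h.l2
  have iff' := ael_sq' hf.l2
  have iφf : Integrable (fun x => φ x * f x) := h.l2.integrable_mul hf.l2
  have ip := ael_sq h.l2g
  have ig := ael_sq hf.l2g
  have ipg := ael_inner h.l2g hf.l2g
  have vφ := (hC φ p h).1
  have vf := (hC f gf hf).1
  have vφf : Integrable (fun x => (v₁ x + v₂ x) * φ x * f x) := by
    have a1 := (hC _ _ (h.add hf)).1
    refine (((a1.sub vφ).sub vf).div_const 2).congr (Eventually.of_forall fun x => ?_)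
    simp only [Pi.sub_apply]
    ring
  rw [integral_add (ipg.const_mul _) vφf, integral_const_mul]
  set μ := qv (fun x => v₁ x + v₂ x) φ p with hμ
  have key : (1 / 2) * (∫ x, ⟪p x, gf x⟫) + (∫ x, (v₁ x + v₂ x) * φ x * f x) -
      μ * ∫ x, φ x * f x = 0 := by
    refine ael_real (A := ∫ x, φ x * f x) (M := ∫ x, f x ^ 2)
      (b := qv (fun x => v₁ x + v₂ x) f gf - μ * ∫ x, f x ^ 2) fun t ht => ?_
    have hz := h.add (hf.cmul t)
    have m1 : ∫ x, (φ x + t * f x) ^ 2 =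
        1 + 2 * t * (∫ x, φ x * f x) + t ^ 2 * ∫ x, f x ^ 2 := by
      rw [← n1, ← ael_exp iφ iφf iff' t]
      congr 1
      funext x
      ring
    have m2 : ∫ x, ‖p x + t • gf x‖ ^ 2 =
        (∫ x, ‖p x‖ ^ 2) + 2 * t * (∫ x, ⟪p x, gf x⟫) + t ^ 2 * ∫ x, ‖gf x‖ ^ 2 := by
      rw [← ael_exp ip ipg ig t]
      congr 1
      funext x
      rw [norm_add_sq_real, real_inner_smul_right, norm_smul, mul_pow, Real.norm_eq_abs, sq_abs]
      ring
    have m3 : ∫ x, (v₁ x + v₂ x) * (φ x + t * f x) ^ 2 =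
        (∫ x, (v₁ x + v₂ x) * φ x ^ 2) + 2 * t * (∫ x, (v₁ x + v₂ x) * φ x * f x) +
          t ^ 2 * ∫ x, (v₁ x + v₂ x) * f x ^ 2 := by
      rw [← ael_exp vφ vφf vf t]
      congr 1
      funext x
      ring
    have h3 := ael_hom hmin hz (by rw [m1]; exact ht)
    rw [m1, ← hμ] at h3
    have h4 : μ = (1 / 2) * (∫ x, ‖p x‖ ^ 2) + ∫ x, (v₁ x + v₂ x) * φ x ^ 2 := rfl
    have h5 : qv (fun x => v₁ x + v₂ x) f gf =
        (1 / 2) * (∫ x, ‖gf x‖ ^ 2) + ∫ x, (v₁ x + v₂ x) * f x ^ 2 := rfl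
    have h6 : qv (fun x => v₁ x + v₂ x) (fun x => φ x + t * f x) (fun x => p x + t • gf x) =
        (1 / 2) * (∫ x, ‖p x + t • gf x‖ ^ 2) +
          ∫ x, (v₁ x + v₂ x) * (φ x + t * f x) ^ 2 := rfl
    rw [h6, m2, m3] at h3
    rw [h5]
    nlinarith
  linarith

end

end Vale.Agent.P363
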