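import Vale.Agent.P363.CAbsA

/-! P363, block C: abstract lemmas. -/

open MeasureTheory Set Metric Filter Topology
open scoped RealInnerProductSpace

namespace Vale.Agent.P363

noncomputable section

section

variable {α β : Type} [MeasurableSpace α] [MeasurableSpace β] {μ : Measure α} {ν : Measure β}

theorem cabs_mul {f g : α → ℝ} (hf : MemLp f 2 μ) (hg : MemLp g 2 μ) :
    Integrable (fun x => f x * g x) μ := hf.integrable_mul hg

theorem cabs_exp {f g : α → ℝ} (hf : MemLp f 2 μ) (hg : MemLp g 2 μ) (t : ℝ) :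
    ∫ x, (f x + t * g x) ^ 2 ∂μ =
      (∫ x, f x ^ 2 ∂μ) + 2 * t * (∫ x, f x * g x ∂μ) + t ^ 2 * ∫ x, g x ^ 2 ∂μ := by
  have h1 := hf.integrable_sq
  have h2 := (cabs_mul hf hg).const_mul (2 * t)
  have h3 := hg.integrable_sq.const_mul (t ^ 2)
  have h4 : Integrable (fun x => f x ^ 2 + 2 * t * (f x * g x)) μ := h1.add h2
  rw [← integral_const_mul, ← integral_const_mul, ← integral_add h1 h2, ← integral_add h4 h3]
  refine integral_congr_ae (Eventually.of_forall fun x => ?_)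
  show _ = _
  ring

theorem cabs_cs {f g : α → ℝ} (hf : MemLp f 2 μ) (hg : MemLp g 2 μ) :
    (∫ x, f x * g x ∂μ) ^ 2 ≤ (∫ x, f x ^ 2 ∂μ) * ∫ x, g x ^ 2 ∂μ := by
  have h : ∀ t : ℝ, 0 ≤ (∫ x, g x ^ 2 ∂μ) * (t * t) + (2 * ∫ x, f x * g x ∂μ) * t +
      ∫ x, f x ^ 2 ∂μ := by
    intro t
    have h1 : 0 ≤ ∫ x, (f x + t * g x) ^ 2 ∂μ := integral_nonneg fun x => sq_nonneg _
    rw [cabs_exp hf hg t] at h1
    linarith
  have h2 := discrim_le_zero h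
  unfold discrim at h2
  linarith

/-- Bessel identity. -/
theorem cabs_bes {ι : Type} [Fintype ι] [DecidableEq ι] {g : α → ℝ} {a : ι → α → ℝ}
    (hg : MemLp g 2 μ) (ha : ∀ i, MemLp (a i) 2 μ)
    (on : ∀ i j, ∫ x, a i x * a j x ∂μ = if i = j then 1 else 0) (c : ι → ℝ)
    (hc : ∀ i, c i = ∫ x, a i x * g x ∂μ) :
    ∫ x, (g x - ∑ i, a i x * c i) ^ 2 ∂μ = (∫ x, g x ^ 2 ∂μ) - ∑ i, c i ^ 2 := by
  have hs : MemLp (fun x => ∑ i, a i x * c i) 2 μ :=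
    memLp_finsetSum _ fun i _ => (ha i).mul_const (c i)
  have h1 := cabs_exp hg hs (-1)
  have e0 : ∫ x, (g x - ∑ i, a i x * c i) ^ 2 ∂μ =
      ∫ x, (g x + -1 * ∑ i, a i x * c i) ^ 2 ∂μ := by
    refine integral_congr_ae (Eventually.of_forall fun x => ?_)
    show _ = _
    ring
  have key : ∀ h : α → ℝ, MemLp h 2 μ → ∫ x, h x * ∑ i, a i x * c i ∂μ =
      ∑ i, (∫ x, a i x * h x ∂μ) * c i := by
    intro h hh
    have e : ∀ x, h x * ∑ i, a i x * c i = ∑ i, a i x * h x * c i := by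
      intro x
      rw [Finset.mul_sum]
      exact Finset.sum_congr rfl fun i _ => by ring
    simp only [e]
    rw [integral_finsetSum _ fun i _ => (cabs_mul (ha i) hh).mul_const (c i)]
    exact Finset.sum_congr rfl fun i _ => integral_mul_const _ _
  have e1 : ∫ x, g x * ∑ i, a i x * c i ∂μ = ∑ i, c i ^ 2 := by
    rw [key g hg]
    exact Finset.sum_congr rfl fun i _ => by rw [← hc i]; ring
  have e2 : ∫ x, (∑ i, a i x * c i) ^ 2 ∂μ = ∑ i, c i ^ 2 := by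
    have e3 : ∫ x, (∑ i, a i x * c i) ^ 2 ∂μ =
        ∫ x, (∑ i, a i x * c i) * ∑ i, a i x * c i ∂μ := by
      simp only [sq]
    rw [e3, key _ hs]
    refine Finset.sum_congr rfl fun i _ => ?_
    rw [key _ (ha i)]
    simp only [on, ite_mul, one_mul, zero_mul, Finset.sum_ite_eq', Finset.mem_univ, if_true]
    ring
  rw [e0, h1, e1, e2]
  ring

theorem cabs_bes_le {ι : Type} [Fintype ι] [DecidableEq ι] {g : α → ℝ} {a : ι → α → ℝ}
    (hg : MemLp g 2 μ) (ha : ∀ i, MemLp (a i) 2 μ)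
    (on : ∀ i j, ∫ x, a i x * a j x ∂μ = if i = j then 1 else 0) :
    ∑ i, (∫ x, a i x * g x ∂μ) ^ 2 ≤ ∫ x, g x ^ 2 ∂μ := by
  have h1 := cabs_bes hg ha on (fun i => ∫ x, a i x * g x ∂μ) fun _ => rfl
  have h2 : 0 ≤ ∫ x, (g x - ∑ i, a i x * ∫ x, a i x * g x ∂μ) ^ 2 ∂μ :=
    integral_nonneg fun x => sq_nonneg _
  linarith

variable [SFinite μ] [SFinite ν]

theorem cabs_swap {f : α × β → ℝ} (hf : MemLp f 2 (μ.prod ν)) :
    MemLp (fun w : β × α => f w.swap) 2 (ν.prod μ) :=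
  (memLp_two_iff_integrable_sq hf.1.prod_swap).2 hf.integrable_sq.swap

theorem cabs_slice {f : α × β → ℝ} (hf : MemLp f 2 (μ.prod ν)) :
    ∀ᵐ x ∂μ, MemLp (fun y => f (x, y)) 2 ν := by
  filter_upwards [hf.1.prodMk_left, hf.integrable_sq.prod_right_ae] with x h1 h2
  exact (memLp_two_iff_integrable_sq h1).2 h2

theorem memLp_proj {f : α × β → ℝ} {b : β → ℝ} (hf : MemLp f 2 (μ.prod ν)) (hb : MemLp b 2 ν) :
    MemLp (fun x => ∫ y, b y * f (x, y) ∂ν) 2 μ ∧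
      ∀ᵐ x ∂μ, MemLp (fun y => f (x, y)) 2 ν ∧
        (∫ y, b y * f (x, y) ∂ν) ^ 2 ≤ (∫ y, b y ^ 2 ∂ν) * ∫ y, f (x, y) ^ 2 ∂ν := by
  have h2 : ∀ᵐ x ∂μ, MemLp (fun y => f (x, y)) 2 ν ∧
      (∫ y, b y * f (x, y) ∂ν) ^ 2 ≤ (∫ y, b y ^ 2 ∂ν) * ∫ y, f (x, y) ^ 2 ∂ν := by
    filter_upwards [cabs_slice hf] with x hx
    exact ⟨hx, cabs_cs hb hx⟩
  refine ⟨?_, h2⟩
  have hm : AEStronglyMeasurable (fun w : α × β => b w.2 * f w) (μ.prod ν) :=
    hb.1.comp_snd.mul hf.1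
  have hm2 : AEStronglyMeasurable (fun x => ∫ y, b y * f (x, y) ∂ν) μ :=
    hm.integral_prod_right'
  refine (memLp_two_iff_integrable_sq hm2).2 ?_
  have h3 : Integrable (fun x => (∫ y, b y ^ 2 ∂ν) * ∫ y, f (x, y) ^ 2 ∂ν) μ :=
    hf.integrable_sq.integral_prod_left.const_mul _
  refine h3.mono' (hm2.pow 2) ?_
  filter_upwards [h2] with x hx
  rw [Real.norm_of_nonneg (sq_nonneg _)]
  exact hx.2

theorem memLp_tensor {a : α → ℝ} {b : β → ℝ} (ha : MemLp a 2 μ) (hb : MemLp b 2 ν) :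
    MemLp (fun w : α × β => a w.1 * b w.2) 2 (μ.prod ν) := by
  have hm : AEStronglyMeasurable (fun w : α × β => a w.1 * b w.2) (μ.prod ν) :=
    ha.1.comp_fst.mul hb.1.comp_snd
  refine (memLp_two_iff_integrable_sq hm).2 ?_
  have h := ha.integrable_sq.mul_prod hb.integrable_sq
  simpa only [mul_pow] using h

theorem cabs_c1 {f : α × β → ℝ} {a : α → ℝ} {b : β → ℝ} (hf : MemLp f 2 (μ.prod ν))
    (ha : MemLp a 2 μ) (hb : MemLp b 2 ν) :
    ∫ w, a w.1 * b w.2 * f w ∂(μ.prod ν) = ∫ x, a x * ∫ y, b y * f (x, y) ∂ν ∂μ ∧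
    ∫ w, a w.1 * b w.2 * f w ∂(μ.prod ν) = ∫ y, b y * ∫ x, a x * f (x, y) ∂μ ∂ν := by
  have h := cabs_mul (memLp_tensor ha hb) hf
  constructor
  · rw [integral_prod _ h]
    refine integral_congr_ae (Eventually.of_forall fun x => ?_)
    beta_reduce
    rw [← integral_const_mul]
    refine integral_congr_ae (Eventually.of_forall fun y => ?_)
    show _ = _
    ring
  · rw [integral_prod_symm _ h]
    refine integral_congr_ae (Eventually.of_forall fun y => ?_)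
    beta_reduce
    rw [← integral_const_mul]
    refine integral_congr_ae (Eventually.of_forall fun x => ?_)
    show _ = _
    ring

theorem cabs_gen {ι κ : Type} [Fintype ι] [DecidableEq ι] [Fintype κ] [DecidableEq κ]
    {f : α × β → ℝ} {a : ι → α → ℝ} {b : κ → β → ℝ} (hf : MemLp f 2 (μ.prod ν))
    (ha : ∀ i, MemLp (a i) 2 μ) (hb : ∀ j, MemLp (b j) 2 ν)
    (oa : ∀ i j, ∫ x, a i x * a j x ∂μ = if i = j then 1 else 0)
    (ob : ∀ i j, ∫ y, b i y * b j y ∂ν = if i = j then 1 else 0) :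
    (∑ i, ∫ y, (∫ x, a i x * f (x, y) ∂μ) ^ 2 ∂ν) +
        (∑ j, ∫ x, (∫ y, b j y * f (x, y) ∂ν) ^ 2 ∂μ) ≤
      (∫ w, f w ^ 2 ∂(μ.prod ν)) + ∑ i, ∑ j, (∫ w, a i w.1 * b j w.2 * f w ∂(μ.prod ν)) ^ 2 ∧
    (∀ i, ∑ j, (∫ w, a i w.1 * b j w.2 * f w ∂(μ.prod ν)) ^ 2 ≤
      ∫ y, (∫ x, a i x * f (x, y) ∂μ) ^ 2 ∂ν) ∧
    (∀ j, ∑ i, (∫ w, a i w.1 * b j w.2 * f w ∂(μ.prod ν)) ^ 2 ≤
      ∫ x, (∫ y, b j y * f (x, y) ∂ν) ^ 2 ∂μ) := by
  obtain ⟨u, hu⟩ : ∃ u : ι → β → ℝ, ∀ i y, u i y = ∫ x, a i x * f (x, y) ∂μ :=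
    ⟨_, fun _ _ => rfl⟩
  obtain ⟨v, hv⟩ : ∃ v : κ → α → ℝ, ∀ j x, v j x = ∫ y, b j y * f (x, y) ∂ν :=
    ⟨_, fun _ _ => rfl⟩
  obtain ⟨c, hc⟩ : ∃ c : ι → κ → ℝ, ∀ i j, c i j = ∫ w, a i w.1 * b j w.2 * f w ∂(μ.prod ν) :=
    ⟨_, fun _ _ => rfl⟩
  have mu : ∀ i, MemLp (u i) 2 ν := fun i => by
    have h := (memLp_proj (cabs_swap hf) (ha i)).1
    rw [show u i = fun y => ∫ x, a i x * f (x, y) ∂μ from funext (hu i)]
    exact h
  have mv : ∀ j, MemLp (v j) 2 μ := fun j => by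
    have h := (memLp_proj hf (hb j)).1
    rw [show v j = fun x => ∫ y, b j y * f (x, y) ∂ν from funext (hv j)]
    exact h
  have c1 : ∀ i j, c i j = ∫ x, a i x * v j x ∂μ := fun i j => by
    simp only [hc, hv]
    exact (cabs_c1 hf (ha i) (hb j)).1
  have c2 : ∀ i j, c i j = ∫ y, b j y * u i y ∂ν := fun i j => by
    simp only [hc, hu]
    exact (cabs_c1 hf (ha i) (hb j)).2
  simp only [← hu, ← hv, ← hc]
  refine ⟨?_, fun i => ?_, fun j => ?_⟩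
  · have mh : MemLp (fun w : α × β => f w - ∑ i, a i w.1 * u i w.2) 2 (μ.prod ν) :=
      hf.sub (memLp_finsetSum _ fun i _ => memLp_tensor (ha i) (mu i))
    have ih := mh.integrable_sq
    have e1 : ∫ w, (f w - ∑ i, a i w.1 * u i w.2) ^ 2 ∂(μ.prod ν) =
        (∫ w, f w ^ 2 ∂(μ.prod ν)) - ∑ i, ∫ y, u i y ^ 2 ∂ν := by
      have i1 : Integrable (fun y => ∫ x, f (x, y) ^ 2 ∂μ) ν :=
        hf.integrable_sq.integral_prod_right
      have i2 : Integrable (fun y => ∑ i, u i y ^ 2) ν :=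
        integrable_finsetSum _ fun i _ => (mu i).integrable_sq
      rw [integral_prod_symm _ ih, integral_prod_symm _ hf.integrable_sq,
        ← integral_finsetSum _ fun i _ => (mu i).integrable_sq, ← integral_sub i1 i2]
      refine integral_congr_ae ?_
      filter_upwards [cabs_slice (cabs_swap hf)] with y hy
      exact cabs_bes hy ha oa (fun i => u i y) fun i => hu i y
    have mw : ∀ j, MemLp (fun x => v j x - ∑ i, a i x * c i j) 2 μ := fun j =>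
      (mv j).sub (memLp_finsetSum _ fun i _ => (ha i).mul_const (c i j))
    have e2 : ∑ j, ∫ x, (v j x - ∑ i, a i x * c i j) ^ 2 ∂μ ≤
        ∫ w, (f w - ∑ i, a i w.1 * u i w.2) ^ 2 ∂(μ.prod ν) := by
      rw [integral_prod _ ih, ← integral_finsetSum _ fun j _ => (mw j).integrable_sq]
      refine integral_mono_ae (integrable_finsetSum _ fun j _ => (mw j).integrable_sq)
        ih.integral_prod_left ?_
      filter_upwards [cabs_slice hf, cabs_slice mh] with x hx hx2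
      have h1 := cabs_bes_le hx2 hb ob
      refine le_trans (le_of_eq (Finset.sum_congr rfl fun j _ => ?_)) h1
      have e : ∀ y, b j y * (f (x, y) - ∑ i, a i x * u i y) =
          b j y * f (x, y) - ∑ i, a i x * (b j y * u i y) := by
        intro y
        rw [mul_sub, Finset.mul_sum]
        congr 1
        exact Finset.sum_congr rfl fun i _ => by ring
      have i1 : Integrable (fun y => b j y * f (x, y)) ν := cabs_mul (hb j) hx
      have i2 : ∀ i, Integrable (fun y => a i x * (b j y * u i y)) ν := fun i =>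
        (cabs_mul (hb j) (mu i)).const_mul _
      congr 1
      simp only [e]
      rw [integral_sub i1 (integrable_finsetSum _ fun i _ => i2 i),
        integral_finsetSum _ fun i _ => i2 i, ← hv]
      congr 1
      refine Finset.sum_congr rfl fun i _ => ?_
      rw [integral_const_mul, c2]
    have e3 : ∀ j, ∫ x, (v j x - ∑ i, a i x * c i j) ^ 2 ∂μ =
        (∫ x, v j x ^ 2 ∂μ) - ∑ i, c i j ^ 2 := fun j =>
      cabs_bes (mv j) ha oa (fun i => c i j) fun i => c1 i j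
    simp only [e3, Finset.sum_sub_distrib] at e2
    rw [Finset.sum_comm] at e2
    linarith
  · simp only [c2]
    exact cabs_bes_le (mu i) hb ob
  · simp only [c1]
    exact cabs_bes_le (mv j) ha oa

/-- Two commuting rank one projections. -/
theorem two_proj {f : α × β → ℝ} {a : α → ℝ} {b : β → ℝ} (hf : MemLp f 2 (μ.prod ν))
    (ha : MemLp a 2 μ) (hb : MemLp b 2 ν) (na : ∫ x, a x ^ 2 ∂μ = 1) (nb : ∫ y, b y ^ 2 ∂ν = 1) :
    (∫ y, (∫ x, a x * f (x, y) ∂μ) ^ 2 ∂ν) + (∫ x, (∫ y, b y * f (x, y) ∂ν) ^ 2 ∂μ) ≤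
      (∫ w, f w ^ 2 ∂(μ.prod ν)) + (∫ w, a w.1 * b w.2 * f w ∂(μ.prod ν)) ^ 2 ∧
    (∫ w, a w.1 * b w.2 * f w ∂(μ.prod ν)) ^ 2 ≤ ∫ y, (∫ x, a x * f (x, y) ∂μ) ^ 2 ∂ν ∧
    (∫ w, a w.1 * b w.2 * f w ∂(μ.prod ν)) ^ 2 ≤ ∫ x, (∫ y, b y * f (x, y) ∂ν) ^ 2 ∂μ := by
  have h := cabs_gen (ι := Unit) (κ := Unit) (a := fun _ => a) (b := fun _ => b) hf
    (fun _ => ha) (fun _ => hb) (fun _ _ => by simpa only [sq, if_true] using na)
    (fun _ _ => by simpa only [sq, if_true] using nb)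
  simp only [Finset.univ_unique, Finset.sum_singleton] at h
  exact ⟨h.1, h.2.1 (), h.2.2 ()⟩

/-- Two commuting rank two projections. -/
theorem four_proj {f : α × α → ℝ} {a : Fin 2 → α → ℝ} (hf : MemLp f 2 (μ.prod μ))
    (ha : ∀ i, MemLp (a i) 2 μ) (on : ∀ i j, ∫ x, a i x * a j x ∂μ = if i = j then 1 else 0) :
    (∑ i, ∫ y, (∫ x, a i x * f (x, y) ∂μ) ^ 2 ∂μ) + (∑ j, ∫ x, (∫ y, a j y * f (x, y) ∂μ) ^ 2 ∂μ) ≤
      (∫ w, f w ^ 2 ∂(μ.prod μ)) + ∑ i, ∑ j, (∫ w, a i w.1 * a j w.2 * f w ∂(μ.prod μ)) ^ 2 ∧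
    (∀ i, ∑ j, (∫ w, a i w.1 * a j w.2 * f w ∂(μ.prod μ)) ^ 2 ≤
      ∫ y, (∫ x, a i x * f (x, y) ∂μ) ^ 2 ∂μ) ∧
    (∀ j, ∑ i, (∫ w, a i w.1 * a j w.2 * f w ∂(μ.prod μ)) ^ 2 ≤
      ∫ x, (∫ y, a j y * f (x, y) ∂μ) ^ 2 ∂μ) :=
  cabs_gen hf ha ha on on

theorem cs_integral {f g : α → ℝ} (hf : MemLp f 2 μ) (hg : MemLp g 2 μ) :
    Integrable (fun x => f x * g x) μ ∧
      |∫ x, f x * g x ∂μ| ≤ √(∫ x, f x ^ 2 ∂μ) * √(∫ x, g x ^ 2 ∂μ) := by
  refine ⟨cabs_mul hf hg, ?_⟩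
  rw [← Real.sqrt_mul (integral_nonneg fun x => sq_nonneg _)]
  exact Real.abs_le_sqrt (cabs_cs hf hg)

theorem cabs_tri {f g : α → ℝ} (hf : MemLp f 2 μ) (hg : MemLp g 2 μ) :
    √(∫ x, (f x + g x) ^ 2 ∂μ) ≤ √(∫ x, f x ^ 2 ∂μ) + √(∫ x, g x ^ 2 ∂μ) := by
  have h1 := cabs_exp hf hg 1
  simp only [one_mul] at h1
  have h2 := (abs_le.1 (cs_integral hf hg).2).2
  have h3 : 0 ≤ ∫ x, f x ^ 2 ∂μ := integral_nonneg fun x => sq_nonneg _
  have h4 : 0 ≤ ∫ x, g x ^ 2 ∂μ := integral_nonneg fun x => sq_nonneg _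
  have h5 := Real.sq_sqrt h3
  have h6 := Real.sq_sqrt h4
  refine Real.sqrt_le_iff.2 ⟨by positivity, ?_⟩
  rw [h1, add_sq, h5, h6]
  linarith

theorem tri_integral {f g : α → ℝ} (hf : MemLp f 2 μ) (hg : MemLp g 2 μ) :
    √(∫ x, (f x + g x) ^ 2 ∂μ) ≤ √(∫ x, f x ^ 2 ∂μ) + √(∫ x, g x ^ 2 ∂μ) ∧
      |√(∫ x, f x ^ 2 ∂μ) - √(∫ x, g x ^ 2 ∂μ)| ≤ √(∫ x, (f x - g x) ^ 2 ∂μ) := by
  refine ⟨cabs_tri hf hg, ?_⟩
  have h1 := cabs_tri (f := fun x => f x - g x) (hf.sub hg) hg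
  have h2 := cabs_tri (f := fun x => g x - f x) (hg.sub hf) hf
  simp only [sub_add_cancel] at h1 h2
  have e : ∫ x, (g x - f x) ^ 2 ∂μ = ∫ x, (f x - g x) ^ 2 ∂μ := by
    refine integral_congr_ae (Eventually.of_forall fun x => ?_)
    show _ = _
    ring
  rw [e] at h2
  exact abs_le.2 ⟨by linarith, by linarith⟩

end

end

end Vale.Agent.P363
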