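import Vale.Agent.P363.ADefs
import Vale.Agent.P363.CO3
import Vale.Agent.P363.CAbs
import Vale.Agent.P363.CSg

/-! P363, block A: the Pauli principle. -/

open MeasureTheory Set Metric Filter Topology
open scoped RealInnerProductSpace

namespace Vale.Agent.P363

noncomputable section

theorem apauli_proj {β : Type} [MeasurableSpace β] {ν : Measure β} [SFinite ν] {F : E3 × β → ℝ}
    (hF : MemLp F 2 (volume.prod ν)) {f : E3 → ℝ} (hf : MemLp f 2 volume) :
    MemLp (fun y => ∫ x, f x * F (x, y)) 2 ν :=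
  (memLp_proj (cabs_swap hF) hf).1

theorem apauli_cs {F : E9 → ℝ} (hF : MemLp F 2 volume) {f : E3 → ℝ} (hf : MemLp f 2 volume) :
    ∫ y : E6, (∫ x, f x * F (x, y)) ^ 2 ≤ (∫ x, f x ^ 2) * ∫ w, F w ^ 2 := by
  have h1 := memLp_proj (cabs_swap (μ := volume) (ν := volume) hF) hf
  have i1 : Integrable (fun w : E9 => F w ^ 2) ((volume : Measure E3).prod volume) :=
    hF.integrable_sq
  have e : ∫ w, F w ^ 2 = ∫ y : E6, ∫ x, F (x, y) ^ 2 := integral_prod_symm _ i1
  rw [e, ← integral_const_mul]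
  exact integral_mono_ae h1.1.integrable_sq (i1.integral_prod_right.const_mul _)
    (h1.2.mono fun y hy => hy.2)

theorem pauli_pair {F : E9 → ℝ} (hF : MemLp F 2 volume) (ha : ∀ᵐ w : E9, F (p12 w) = -F w)
    {f : E3 → ℝ} (hf : MemLp f 2 volume) :
    ∫ y : E6, (∫ x, f x * F (x, y)) ^ 2 ≤ (1 / 2) * (∫ x, f x ^ 2) * ∫ w, F w ^ 2 := by
  obtain ⟨a, hae⟩ : ∃ a : E6 → ℝ, ∀ y, a y = ∫ x, f x * F (x, y) := ⟨_, fun _ => rfl⟩
  have ma : MemLp a 2 volume := by
    rw [funext hae]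
    exact apauli_proj (ν := volume) hF hf
  obtain ⟨c, hce⟩ : ∃ c : E3 → ℝ, ∀ z, c z = ∫ x, f x * a (x, z) := ⟨_, fun _ => rfl⟩
  have mc : MemLp c 2 volume := by
    rw [funext hce]
    exact apauli_proj (ν := volume) ma hf
  obtain ⟨A, hA⟩ : ∃ A : E9 → ℝ, ∀ w, A w = f w.1 * a w.2 := ⟨_, fun _ => rfl⟩
  have mA : MemLp A 2 volume := by
    rw [funext hA]
    exact memLp_tensor hf ma
  have mB : MemLp (fun w => A (p12 w)) 2 volume := mA.comp_measurePreserving mp_p12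
  have e1 : ∫ w, A w * F w = ∫ y, a y ^ 2 := by
    simp only [hA]
    refine (cabs_c1 (μ := volume) (ν := volume) hF hf ma).2.trans ?_
    simp only [← hae, sq]
  have e2 : ∫ w, A (p12 w) * F w = -∫ y, a y ^ 2 := by
    rw [← integral_p12, ← e1, ← integral_neg]
    refine integral_congr_ae (ha.mono fun w hw => ?_)
    show A w * F (p12 w) = -(A w * F w)
    rw [hw, mul_neg]
  have e3 : ∫ w, A w ^ 2 = (∫ x, f x ^ 2) * ∫ y, a y ^ 2 := by
    simp only [hA, mul_pow]
    exact integral_prod_mul (fun x => f x ^ 2) (fun y => a y ^ 2)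
  have e4 : ∫ w, A (p12 w) ^ 2 = (∫ x, f x ^ 2) * ∫ y, a y ^ 2 :=
    (integral_p12 fun w => A w ^ 2).trans e3
  have e5 : 0 ≤ ∫ w, A w * A (p12 w) := by
    have h1 : ∫ w, A w * A (p12 w) = ∫ y : E6, a y * ∫ x, f x * A (p12 (x, y)) := by
      rw [← (cabs_c1 (μ := volume) (ν := volume) mB hf ma).2]
      simp only [hA]
      rfl
    have h2 : ∀ y : E6, a y * ∫ x, f x * A (p12 (x, y)) = f y.1 * c y.2 * a y := fun y => by
      have : ∀ x, f x * A (p12 (x, y)) = f y.1 * (f x * a (x, y.2)) := fun x => by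
        rw [hA]
        simp only [p12]
        ring
      simp only [this]
      rw [integral_const_mul, ← hce]
      ring
    rw [h1]
    simp only [h2]
    have h3 := (cabs_c1 (μ := volume) (ν := volume) ma hf mc).2
    simp only [← hce] at h3
    exact le_of_le_of_eq (integral_nonneg fun z => mul_self_nonneg (c z)) h3.symm
  have e6 := cabs_exp mA mB (-1)
  have mD : MemLp (fun w => A w + -1 * A (p12 w)) 2 volume := mA.add (mB.const_mul _)
  have e7 := cabs_cs mD hF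
  have e8 : ∫ w, (A w + -1 * A (p12 w)) * F w = 2 * ∫ y, a y ^ 2 := by
    have : ∀ w, (A w + -1 * A (p12 w)) * F w = A w * F w - A (p12 w) * F w := fun w => by ring
    simp only [this]
    rw [integral_sub (cabs_mul mA hF) (cabs_mul mB hF), e1, e2]
    ring
  simp only [← hae]
  rw [e8, e6, e3, e4] at e7
  have p1 : 0 ≤ ∫ y, a y ^ 2 := integral_nonneg fun _ => sq_nonneg _
  have p2 : 0 ≤ ∫ x, f x ^ 2 := integral_nonneg fun _ => sq_nonneg _
  have p3 : 0 ≤ ∫ w, F w ^ 2 := integral_nonneg fun _ => sq_nonneg _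
  rcases p1.eq_or_lt with h0 | h0
  · rw [← h0]
    positivity
  · refine le_of_mul_le_mul_left ?_ h0
    nlinarith [mul_nonneg e5 p3]

theorem pauli (a : O3) (ha : Anti a) {f : E3 → ℝ} (hf : MemLp f 2 volume) :
    ∑ i, ∫ y : E6, (∫ x, f x * a.f (slot i (x, y))) ^ 2 ≤ 2 * (∫ x, f x ^ 2) * ip3 a a := by
  have h0 := pauli_pair (F := a.f) a.h.h1.l2 ha hf
  have h1 := pauli_pair (F := fun w => a.f (p12 w)) a.h.h2.l2
    (Eventually.mono ha fun w hw => by
      show a.f w = -a.f (p12 w)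
      rw [hw, neg_neg]) hf
  have h2 := apauli_cs (F := fun w => a.f (p13 w)) a.h.h3.l2 hf
  rw [integral_p12 fun w => a.f w ^ 2] at h1
  rw [integral_p13 fun w => a.f w ^ 2] at h2
  have e : ip3 a a = ∫ w, a.f w ^ 2 := by simp only [ip3, sq]
  rw [Fin.sum_univ_three, e]
  have : (∫ y : E6, (∫ x, f x * a.f (x, y)) ^ 2) + (∫ y : E6, (∫ x, f x * a.f (p12 (x, y))) ^ 2) +
      (∫ y : E6, (∫ x, f x * a.f (p13 (x, y))) ^ 2) ≤ 2 * (∫ x, f x ^ 2) * ∫ w, a.f w ^ 2 := by
    linarith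
  exact this

end

end Vale.Agent.P363
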