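import Vale.Agent.P363.CSobA

/-! P363, block C: Sobolev and Poincare inequalities. -/

open MeasureTheory Set Metric Filter Topology
open scoped RealInnerProductSpace

namespace Vale.Agent.P363

noncomputable section

theorem csob_e32 : (3 / 2 : ENNReal) = ENNReal.ofReal (3 / 2) := by
  rw [ENNReal.ofReal_div_of_pos (by norm_num)]
  simp

theorem csob_conj : Real.HolderConjugate (3 / 2) 3 := by
  rw [Real.holderConjugate_iff]
  norm_num

theorem sobolev_v : ∃ C : ℝ, 0 < C ∧ ∀ v : E3 → ℝ, MemLp v (3 / 2) volume → ∀ f g, H1 f g →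
    Integrable (fun x => v x * f x ^ 2) ∧
    ∫ x, |v x| * f x ^ 2 ≤ C * (∫ x, |v x| ^ (3 / 2 : ℝ)) ^ (2 / 3 : ℝ) * ∫ x, ‖g x‖ ^ 2 := by
  obtain ⟨C, hC, H⟩ := sobolev
  refine ⟨C ^ (1 / 3 : ℝ), Real.rpow_pos_of_pos hC _, fun v hv f g h => ?_⟩
  obtain ⟨h6, hle⟩ := H f g h
  have e6 : ∀ x, (f x ^ 2) ^ (3 : ℝ) = f x ^ 6 := fun x => by
    rw [show (3 : ℝ) = ((3 : ℕ) : ℝ) by norm_num, Real.rpow_natCast]
    ring
  have h3 : MemLp (fun x => f x ^ 2) (ENNReal.ofReal 3) volume := by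
    have hm : AEStronglyMeasurable (fun x => f x ^ 2) volume := h.l2.1.pow 2
    refine (integrable_norm_rpow_iff hm (by simp) ENNReal.ofReal_ne_top).1 ?_
    refine h6.congr (Eventually.of_forall fun x => ?_)
    simp only
    rw [ENNReal.toReal_ofReal (by norm_num), Real.norm_of_nonneg (sq_nonneg _), e6]
  rw [csob_e32] at hv
  have := csob_conj.ennrealOfReal
  refine ⟨hv.integrable_mul h3, ?_⟩
  have key := integral_mul_le_Lp_mul_Lq_of_nonneg csob_conj
    (Eventually.of_forall fun x => abs_nonneg (v x))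
    (Eventually.of_forall fun x => sq_nonneg (f x)) hv.abs h3
  simp only [e6] at key
  have hg0 : 0 ≤ ∫ x, ‖g x‖ ^ 2 := integral_nonneg fun x => sq_nonneg _
  have h1 : (∫ x, f x ^ 6) ^ (1 / 3 : ℝ) ≤ C ^ (1 / 3 : ℝ) * ∫ x, ‖g x‖ ^ 2 := by
    refine (Real.rpow_le_rpow (integral_nonneg fun x => by positivity) hle (by norm_num)).trans
      (le_of_eq ?_)
    rw [Real.mul_rpow hC.le (pow_nonneg hg0 3), ← Real.rpow_natCast, ← Real.rpow_mul hg0]
    norm_num
  have hv0 : 0 ≤ ∫ x, |v x| ^ (3 / 2 : ℝ) :=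
    integral_nonneg fun x => Real.rpow_nonneg (abs_nonneg (v x)) _
  have h2 := mul_le_mul_of_nonneg_left h1 (Real.rpow_nonneg hv0 (2 / 3 : ℝ))
  have e : (1 / (3 / 2) : ℝ) = 2 / 3 := by norm_num
  rw [e] at key
  calc _ ≤ _ := key
    _ ≤ _ := h2
    _ = _ := by ring

theorem sobolev_int {v f f' : E3 → ℝ} {g g' : E3 → E3} (hv : MemLp v (3 / 2) volume) (h : H1 f g)
    (h' : H1 f' g') : Integrable (fun x => v x * f x * f' x) := by
  obtain ⟨C, -, H⟩ := sobolev_v
  refine (((H v hv f g h).1.abs).add (H v hv f' g' h').1.abs).mono'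
    ((hv.1.mul h.l2.1).mul h'.l2.1) (Eventually.of_forall fun x => ?_)
  simp only [Pi.add_apply, Real.norm_eq_abs, abs_mul, abs_pow]
  have h1 : |f x| * |f' x| ≤ |f x| ^ 2 + |f' x| ^ 2 := by
    nlinarith [sq_nonneg (|f x| - |f' x|), mul_nonneg (abs_nonneg (f x)) (abs_nonneg (f' x))]
  have h2 := mul_le_mul_of_nonneg_left h1 (abs_nonneg (v x))
  linarith

theorem csob_tail {v : E3 → ℝ} (hv : MemLp v (3 / 2) volume) {a : ℝ} (ha : 0 < a)
    (w : ℝ → E3 → ℝ) (hm : ∀ t, AEStronglyMeasurable (w t) volume)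
    (hle : ∀ᶠ t in atTop, ∀ x, |w t x| ≤ |v x|) (h0 : ∀ x, ∀ᶠ t in atTop, w t x = 0) :
    ∀ᶠ t in atTop, ∀ f g, H1 f g → Integrable (fun x => |w t x| * f x ^ 2) ∧
      ∫ x, |w t x| * f x ^ 2 ≤ a * ∫ x, ‖g x‖ ^ 2 := by
  obtain ⟨C, hC, H⟩ := sobolev_v
  have hi : Integrable (fun x => |v x| ^ (3 / 2 : ℝ)) := by
    have h1 := hv
    rw [csob_e32, ← integrable_norm_rpow_iff hv.1 (by simp) ENNReal.ofReal_ne_top,
      ENNReal.toReal_ofReal (by norm_num)] at h1
    exact h1
  have hc : Continuous fun y : ℝ => |y| ^ (3 / 2 : ℝ) :=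
    continuous_abs.rpow_const fun _ => Or.inr (by norm_num)
  have t1 : Tendsto (fun t => ∫ x, |w t x| ^ (3 / 2 : ℝ)) atTop (𝓝 (∫ _x : E3, (0 : ℝ))) := by
    refine tendsto_integral_filter_of_dominated_convergence _
      (Eventually.of_forall fun t => hc.comp_aestronglyMeasurable (hm t)) ?_ hi
      (Eventually.of_forall fun x => ?_)
    · filter_upwards [hle] with t ht
      refine Eventually.of_forall fun x => ?_
      rw [Real.norm_of_nonneg (Real.rpow_nonneg (abs_nonneg _) _)]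
      exact Real.rpow_le_rpow (abs_nonneg _) (ht x) (by norm_num)
    · refine tendsto_const_nhds.congr' ?_
      filter_upwards [h0 x] with t ht
      rw [ht, abs_zero, Real.zero_rpow (by norm_num)]
  rw [integral_zero] at t1
  have t2 := (t1.rpow_const (p := 2 / 3) (Or.inr (by norm_num))).const_mul C
  rw [Real.zero_rpow (by norm_num), mul_zero] at t2
  filter_upwards [t2.eventually (gt_mem_nhds ha), hle] with t ht ht' f g h
  have hw : MemLp (w t) (3 / 2) volume :=
    hv.of_le (hm t) (Eventually.of_forall fun x => ht' x)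
  obtain ⟨k1, k2⟩ := H (w t) hw f g h
  refine ⟨k1.abs.congr (Eventually.of_forall fun x => ?_), k2.trans ?_⟩
  · simp only [abs_mul, abs_pow, sq_abs]
  · exact mul_le_mul_of_nonneg_right ht.le (integral_nonneg fun x => sq_nonneg _)

/-- Infinitesimal form bound. -/
theorem sobolev_small {v : E3 → ℝ} (hv : MemLp v (3 / 2) volume) {a : ℝ} (ha : 0 < a) :
    ∃ M : ℝ, 0 ≤ M ∧ ∀ f g, H1 f g →
      ∫ x, |v x| * f x ^ 2 ≤ a * (∫ x, ‖g x‖ ^ 2) + M * ∫ x, f x ^ 2 := by
  have key := csob_tail hv ha (fun t x => max (|v x| - t) 0)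
    (fun t => (show Continuous fun y : ℝ => max (|y| - t) 0 by fun_prop).comp_aestronglyMeasurable
      hv.1)
    (by
      filter_upwards [eventually_ge_atTop 0] with t ht x
      rw [abs_of_nonneg (le_max_right _ _)]
      exact max_le (by linarith) (abs_nonneg _))
    (fun x => by
      filter_upwards [eventually_ge_atTop |v x|] with t ht
      exact max_eq_right (by linarith))
  obtain ⟨M, hM, hM0⟩ := (key.and (eventually_ge_atTop 0)).exists
  refine ⟨M, hM0, fun f g h => ?_⟩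
  obtain ⟨k1, k2⟩ := hM f g h
  have k3 : Integrable (fun x => f x ^ 2) := h.l2.integrable_sq
  have k4 : ∫ x, |v x| * f x ^ 2 ≤ ∫ x, (|max (|v x| - M) 0| * f x ^ 2 + M * f x ^ 2) := by
    refine integral_mono_of_nonneg (Eventually.of_forall fun x => by positivity)
      (k1.add (k3.const_mul M)) (Eventually.of_forall fun x => ?_)
    have h1 : |v x| ≤ |max (|v x| - M) 0| + M := by
      have := le_abs_self (max (|v x| - M) 0)
      have := le_max_left (|v x| - M) 0
      linarith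
    have := mul_le_mul_of_nonneg_right h1 (sq_nonneg (f x))
    simp only
    linarith
  rw [integral_add k1 (k3.const_mul M), integral_const_mul] at k4
  linarith

/-- Far away the form bound has no lower order term. -/
theorem sobolev_far {v : E3 → ℝ} (hv : MemLp v (3 / 2) volume) {a : ℝ} (ha : 0 < a) :
    ∀ᶠ ρ : ℝ in atTop, ∀ f g, H1 f g → (∀ᵐ x : E3, ‖x‖ < ρ → f x = 0) →
      ∫ x, |v x| * f x ^ 2 ≤ a * ∫ x, ‖g x‖ ^ 2 := by
  have key := csob_tail hv ha (fun t => {x : E3 | t ≤ ‖x‖}.indicator v)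
    (fun t => hv.1.indicator (isClosed_le continuous_const continuous_norm).measurableSet)
    (Eventually.of_forall fun t x => norm_indicator_le_norm_self v x)
    (fun x => by
      filter_upwards [eventually_gt_atTop ‖x‖] with t ht
      exact indicator_of_notMem (show x ∉ {x : E3 | t ≤ ‖x‖} from not_le.2 ht) v)
  filter_upwards [key] with ρ hρ f g h hz
  refine le_trans (le_of_eq (integral_congr_ae ?_)) (hρ f g h).2
  filter_upwards [hz] with x hx
  by_cases hxρ : ‖x‖ < ρ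
  · simp [hx hxρ]
  · rw [indicator_of_mem (show x ∈ {x : E3 | ρ ≤ ‖x‖} from not_lt.1 hxρ)]

end

end Vale.Agent.P363
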