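import Vale.Agent.P363.ADefs
import Vale.Agent.P363.CO3
import Vale.Agent.P363.CSob

/-! P363, block A: one-body potentials acting on three particles. -/

open MeasureTheory Set Metric Filter Topology
open scoped RealInnerProductSpace

namespace Vale.Agent.P363

noncomputable section

theorem O3.hv (a : O3) (i : Fin 3) :
    HV volume (fun w => a.f (slot i w)) (fun w => a.gr i (slot i w)) := by
  fin_cases i
  · exact a.h.h1
  · exact a.h.h2
  · exact a.h.h3

theorem apot_int (i : Fin 3) (f : E9 → ℝ) : ∫ w, f (slot i w) = ∫ w, f w := by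
  fin_cases i
  · rfl
  · exact integral_p12 f
  · exact integral_p13 f

theorem apot_mp (i : Fin 3) : MeasurePreserving (slot i) (volume : Measure E9) volume := by
  fin_cases i
  · exact MeasurePreserving.id _
  · exact mp_p12
  · exact mp_p13

theorem apot_inv (i : Fin 3) (w : E9) : slot i (slot i w) = w := by
  fin_cases i <;> rfl

theorem apot_k3 (a : O3) :
    k3 a = (∫ w, ‖a.g1 w‖ ^ 2) + (∫ w, ‖a.g2 w‖ ^ 2) + ∫ w, ‖a.g3 w‖ ^ 2 := by
  obtain ⟨-, h1, h2, h3⟩ := a.l2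
  have i1 := CO3x.int_nsq h1
  have i2 := CO3x.int_nsq h2
  have i3 := CO3x.int_nsq h3
  have i12 : Integrable fun w => ‖a.g1 w‖ ^ 2 + ‖a.g2 w‖ ^ 2 := i1.add i2
  rw [k3, integral_add i12 i3, integral_add i1 i2]

theorem slot_int (a : O3) : (∀ i, ∫ w, a.f (slot i w) ^ 2 = ip3 a a) ∧
    ∑ i, ∫ w, ‖a.gr i (slot i w)‖ ^ 2 = k3 a ∧ 0 ≤ ip3 a a ∧ 0 ≤ k3 a := by
  refine ⟨fun i => ?_, ?_, integral_nonneg fun w => mul_self_nonneg _,
    integral_nonneg fun w => by positivity⟩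
  · rw [apot_int i fun w => a.f w ^ 2, ip3]
    simp only [sq]
  · have e : ∀ i, ∫ w, ‖a.gr i (slot i w)‖ ^ 2 = ∫ w, ‖a.gr i w‖ ^ 2 :=
      fun i => apot_int i fun w => ‖a.gr i w‖ ^ 2
    simp only [e]
    rw [Fin.sum_univ_three, apot_k3]
    rfl

theorem q3_eq (L lam : ℝ) (a : O3) : Integrable (fun w => W3 L lam w * a.f w ^ 2) ∧
    q3 L lam a a = (1 / 2) * k3 a + ∫ w, W3 L lam w * a.f w ^ 2 := by
  obtain ⟨-, h1, h2, h3⟩ := a.l2
  have i1 := CO3x.int_nsq h1
  have i2 := CO3x.int_nsq h2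
  have i3 := CO3x.int_nsq h3
  have e : ∀ w, W3 L lam w * a.f w * a.f w = W3 L lam w * a.f w ^ 2 := fun w => by ring
  have i4 := (a.int a L lam).2.2.2.2
  simp only [e] at i4
  have i5 : Integrable fun w => (1 / 2 : ℝ) * (‖a.g1 w‖ ^ 2 + ‖a.g2 w‖ ^ 2 + ‖a.g3 w‖ ^ 2) :=
    ((i1.add i2).add i3).const_mul _
  refine ⟨i4, ?_⟩
  simp only [q3, real_inner_self_eq_norm_sq, e]
  rw [integral_add i5 i4, integral_const_mul, k3]

theorem sym_Wv (v : E3 → ℝ) : Sym3 (Wv v) := by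
  constructor <;> intro w <;> simp only [Wv, p12, p13] <;> ring

theorem r3_nonneg (F : E9 → ℝ) (x : E3) : 0 ≤ r3 F x :=
  Finset.sum_nonneg fun _ _ => integral_nonneg fun _ => sq_nonneg _

variable {v₁ v₂ : E3 → ℝ}

/-- One-body form bound. -/
theorem form1 (h1 : MemLp v₁ (3 / 2) volume) (h2 : MemLp v₂ ⊤ volume) : ∃ C : ℝ, 0 ≤ C ∧
    ∀ f g, H1 f g → Integrable (fun x => (v₁ x + v₂ x) * f x ^ 2) ∧
      ∫ x, |v₁ x + v₂ x| * f x ^ 2 ≤ (1 / 4) * (∫ x, ‖g x‖ ^ 2) + C * ∫ x, f x ^ 2 := by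
  obtain ⟨M, hM0, hM⟩ := sobolev_small h1 (a := 1 / 4) (by norm_num)
  obtain ⟨C, -, hC⟩ := sobolev_v
  obtain ⟨B, hB⟩ : ∃ B : ℝ, ∀ᵐ x : E3, ‖v₂ x‖ ≤ B := by
    have h := h2.2
    rw [eLpNorm_exponent_top, eLpNormEssSup_lt_top_iff_isBoundedUnder] at h
    obtain ⟨b, hb⟩ := h
    exact ⟨b, (eventually_map.1 hb).mono fun x hx => by exact_mod_cast hx⟩
  refine ⟨M + max B 0, by positivity, fun f g h => ?_⟩
  have i0 : Integrable fun x => f x ^ 2 := (memLp_two_iff_integrable_sq h.l2.1).1 h.l2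
  have i1 := (hC v₁ h1 f g h).1
  have i2 : Integrable fun x => v₂ x * f x ^ 2 := i0.bdd_mul h2.1 hB
  have i3 : Integrable fun x => (v₁ x + v₂ x) * f x ^ 2 :=
    (i1.add i2).congr (ae_of_all _ fun x => by simp only [Pi.add_apply]; ring)
  have e : ∀ (u : E3 → ℝ) x, ‖u x * f x ^ 2‖ = |u x| * f x ^ 2 := fun u x => by
    rw [Real.norm_eq_abs, abs_mul, abs_of_nonneg (sq_nonneg (f x))]
  have i4 : Integrable fun x => |v₁ x| * f x ^ 2 := by simpa only [e] using i1.norm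
  have i5 : Integrable fun x => |v₁ x + v₂ x| * f x ^ 2 := by
    simpa only [e fun x => v₁ x + v₂ x] using i3.norm
  have i6 : Integrable fun x => max B 0 * f x ^ 2 := i0.const_mul _
  refine ⟨i3, ?_⟩
  have h3 : ∫ x, |v₁ x + v₂ x| * f x ^ 2 ≤ ∫ x, (|v₁ x| * f x ^ 2 + max B 0 * f x ^ 2) := by
    refine integral_mono_ae i5 (i4.add i6) (hB.mono fun x hx => ?_)
    have h4 : |v₁ x + v₂ x| ≤ |v₁ x| + max B 0 :=
      (abs_add_le _ _).trans (add_le_add le_rfl (hx.trans (le_max_left _ _)))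
    have := mul_le_mul_of_nonneg_right h4 (sq_nonneg (f x))
    show |v₁ x + v₂ x| * f x ^ 2 ≤ |v₁ x| * f x ^ 2 + max B 0 * f x ^ 2
    linarith
  rw [integral_add i4 i6, integral_const_mul] at h3
  have h5 := hM f g h
  rw [add_mul]
  linarith

theorem apot_hv {v : E3 → ℝ} {C : ℝ} (hm : AEStronglyMeasurable v volume)
    (hv : ∀ f g, H1 f g → Integrable (fun x => v x * f x ^ 2) ∧
      ∫ x, |v x| * f x ^ 2 ≤ (1 / 4) * (∫ x, ‖g x‖ ^ 2) + C * ∫ x, f x ^ 2)
    {F : E9 → ℝ} {G : E9 → E3} (h : HV volume F G) :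
    Integrable (fun w : E9 => v w.1 * F w ^ 2) ∧
      ∫ w : E9, |v w.1| * F w ^ 2 ≤ (1 / 4) * (∫ w, ‖G w‖ ^ 2) + C * ∫ w, F w ^ 2 := by
  have m1 : AEStronglyMeasurable (fun w : E9 => v w.1 * F w ^ 2)
      ((volume : Measure E3).prod (volume : Measure E6)) :=
    hm.comp_fst.mul (h.l2.1.pow 2)
  have iG := CO3x.int_nsq h.l2g
  have iF : Integrable (fun w => F w ^ 2) ((volume : Measure E3).prod (volume : Measure E6)) :=
    (memLp_two_iff_integrable_sq h.l2.1).1 h.l2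
  have e : ∀ (x : E3) (y : E6), ‖v x * F (x, y) ^ 2‖ = |v x| * F (x, y) ^ 2 := fun x y => by
    rw [Real.norm_eq_abs, abs_mul, abs_of_nonneg (sq_nonneg (F (x, y)))]
  have hs := h.slice.mono fun y hy => hv _ _ hy
  have i3 : Integrable fun y : E6 => (1 / 4 : ℝ) * ∫ x : E3, ‖G (x, y)‖ ^ 2 :=
    iG.integral_prod_right.const_mul _
  have i3' : Integrable fun y : E6 => C * ∫ x : E3, F (x, y) ^ 2 :=
    iF.integral_prod_right.const_mul _
  have i1 : Integrable (fun w : E9 => v w.1 * F w ^ 2)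
      ((volume : Measure E3).prod (volume : Measure E6)) := by
    refine (integrable_prod_iff' m1).2 ⟨hs.mono fun y hy => hy.1, ?_⟩
    refine (i3.add i3').mono' m1.norm.prod_swap.integral_prod_right' (hs.mono fun y hy => ?_)
    rw [Real.norm_of_nonneg (integral_nonneg fun x => norm_nonneg _)]
    simp only [e]
    exact hy.2
  have i2 : Integrable (fun w : E9 => |v w.1| * F w ^ 2)
      ((volume : Measure E3).prod (volume : Measure E6)) :=
    i1.norm.congr (ae_of_all _ fun w => e w.1 w.2)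
  refine ⟨i1, ?_⟩
  rw [Measure.volume_eq_prod, integral_prod_symm _ i2, integral_prod_symm _ iG,
    integral_prod_symm _ iF, ← integral_const_mul, ← integral_const_mul, ← integral_add i3 i3']
  exact integral_mono_ae i2.integral_prod_right (i3.add i3') (hs.mono fun y hy => hy.2)

theorem apot_marg {u : E3 → ℝ} {F : E9 → ℝ}
    (h : ∀ i, Integrable fun w : E9 => u w.1 * F (slot i w) ^ 2) :
    Integrable (fun x => u x * r3 F x) ∧
      ∫ x, u x * r3 F x = ∑ i, ∫ w : E9, u w.1 * F (slot i w) ^ 2 := by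
  have e : ∀ x, u x * r3 F x = ∑ i, ∫ y : E6, u x * F (slot i (x, y)) ^ 2 := fun x => by
    rw [r3, Finset.mul_sum]
    simp only [integral_const_mul]
  have hi : ∀ i, Integrable fun x => ∫ y : E6, u x * F (slot i (x, y)) ^ 2 :=
    fun i => Integrable.integral_prod_left (μ := (volume : Measure E3))
      (ν := (volume : Measure E6)) (h i)
  simp only [e]
  refine ⟨integrable_finsetSum _ fun i _ => hi i, ?_⟩
  rw [integral_finsetSum _ fun i _ => hi i]
  refine Finset.sum_congr rfl fun i _ => ?_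
  exact (integral_prod (μ := (volume : Measure E3)) (ν := (volume : Measure E6)) _ (h i)).symm

/-- Three-body form bound. -/
theorem form3 (h1 : MemLp v₁ (3 / 2) volume) (h2 : MemLp v₂ ⊤ volume) : ∃ C : ℝ, 0 ≤ C ∧
    ∀ a : O3, Integrable (fun w => Wv (fun x => v₁ x + v₂ x) w * a.f w ^ 2) ∧
      Integrable (fun x => (v₁ x + v₂ x) * r3 a.f x) ∧
      ∫ w, Wv (fun x => v₁ x + v₂ x) w * a.f w ^ 2 = ∫ x, (v₁ x + v₂ x) * r3 a.f x ∧
      ∫ x, |v₁ x + v₂ x| * r3 a.f x ≤ (1 / 4) * k3 a + C * ip3 a a := by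
  obtain ⟨C, hC0, hC⟩ := form1 h1 h2
  refine ⟨3 * C, by positivity, fun a => ?_⟩
  have hs := fun i => apot_hv (v := fun x => v₁ x + v₂ x) (h1.1.add h2.1) hC (a.hv i)
  have ia : ∀ i, Integrable fun w : E9 => |v₁ w.1 + v₂ w.1| * a.f (slot i w) ^ 2 := fun i =>
    (hs i).1.norm.congr (ae_of_all _ fun w => by
      show ‖_‖ = _
      rw [Real.norm_eq_abs, abs_mul, abs_of_nonneg (sq_nonneg (a.f (slot i w)))])
  obtain ⟨m1, m2⟩ := apot_marg (u := fun x => v₁ x + v₂ x) fun i => (hs i).1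
  obtain ⟨-, m3⟩ := apot_marg (u := fun x => |v₁ x + v₂ x|) ia
  have e : ∀ w : E9, Wv (fun x => v₁ x + v₂ x) w * a.f w ^ 2 =
      ∑ i, (v₁ (slot i w).1 + v₂ (slot i w).1) * a.f (slot i (slot i w)) ^ 2 := fun w => by
    simp only [apot_inv]
    rw [← Finset.sum_mul, Fin.sum_univ_three]
    rfl
  have ib : ∀ i, Integrable fun w : E9 =>
      (v₁ (slot i w).1 + v₂ (slot i w).1) * a.f (slot i (slot i w)) ^ 2 := fun i =>
    (apot_mp i).integrable_comp_of_integrable (hs i).1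
  obtain ⟨s1, s2, -, -⟩ := slot_int a
  refine ⟨?_, m1, ?_, ?_⟩
  · simp only [e]
    exact integrable_finsetSum _ fun i _ => ib i
  · simp only [e]
    rw [integral_finsetSum _ fun i _ => ib i, m2]
    exact Finset.sum_congr rfl fun i _ =>
      apot_int i fun w => (v₁ w.1 + v₂ w.1) * a.f (slot i w) ^ 2
  · rw [m3]
    refine (Finset.sum_le_sum fun i _ => (hs i).2).trans (le_of_eq ?_)
    simp only [s1]
    rw [Finset.sum_add_distrib, ← Finset.mul_sum, s2]
    simp only [Finset.sum_const, Finset.card_univ, Fintype.card_fin, nsmul_eq_mul]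
    push_cast
    ring

end

end Vale.Agent.P363
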