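import Vale.Agent.P363.AFam
import Vale.Agent.P363.APot
import Vale.Agent.P363.APauli

/-! P363, block A: the kinetic energy of an ensemble. -/

open MeasureTheory Set Metric Filter Topology
open scoped RealInnerProductSpace

namespace Vale.Agent.P363

noncomputable section

theorem aens_group {ι : Type} [Fintype ι] {a : ℕ × ι × Fin 3 → ℝ} {s : ℝ} (h : HasSum a s) :
    HasSum (fun k => ∑ j, ∑ i, a (k, j, i)) s := by
  refine h.prod_fiberwise fun k => ?_
  rw [← Fintype.sum_prod_type (fun c : ι × Fin 3 => a (k, c))]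
  exact hasSum_fintype _

theorem aens_summ {ι : Type} [Fintype ι] {a : ℕ × ι × Fin 3 → ℝ} (h0 : ∀ c, 0 ≤ a c)
    (h : Summable fun k => ∑ j, ∑ i, a (k, j, i)) : Summable a := by
  refine (summable_prod_of_nonneg h0).2 ⟨fun k => (hasSum_fintype _).summable, h.congr fun k => ?_⟩
  rw [tsum_fintype, Fintype.sum_prod_type]

theorem aens_sq {X : Type} [MeasurableSpace X] (μ : Measure X) {c : ℝ} (hc : 0 ≤ c) (f : X → ℝ) :
    ∫ w, (√c * f w) ^ 2 ∂μ = c * ∫ w, f w ^ 2 ∂μ := by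
  simp only [mul_pow, Real.sq_sqrt hc, integral_const_mul]

theorem aens_nsq {X : Type} [MeasurableSpace X] (μ : Measure X) {c : ℝ} (hc : 0 ≤ c)
    (g : X → E3) : ∫ w, ‖√c • g w‖ ^ 2 ∂μ = c * ∫ w, ‖g w‖ ^ 2 ∂μ := by
  simp only [norm_smul, mul_pow, Real.norm_eq_abs, sq_abs, Real.sq_sqrt hc, integral_const_mul]

theorem aens_pr {c : ℝ} (hc : 0 ≤ c) (f : E3 → ℝ) (F : E3 → E6 → ℝ) :
    ∫ y : E6, (∫ x, f x * (√c * F x y)) ^ 2 = c * ∫ y : E6, (∫ x, f x * F x y) ^ 2 := by
  simp only [mul_left_comm _ (√c), integral_const_mul, mul_pow, Real.sq_sqrt hc]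

/-- The kinetic energy of an ensemble with density `N ^ 2` is at least that of the pair. -/
theorem ens_kin {N : E3 → ℝ} (o : Out N) {ι : Type} [Fintype ι] {b : ℕ → ι → O3} {p : ℕ → ℝ}
    (hp : ∀ k, 0 ≤ p k) (hs : HasSum p 1) (ha : ∀ k j, Anti (b k j))
    (hm : ∀ k, ∑ j, ip3 (b k j) (b k j) = 1) {M : ℝ} (hk : ∀ k, ∑ j, k3 (b k j) ≤ M)
    (hN : ∀ᵐ x : E3, HasSum (fun k => p k * ∑ j, r3 (b k j).f x) (N x ^ 2)) :
    ∃ T : ℝ, HasSum (fun k => p k * ∑ j, k3 (b k j)) T ∧
      (∫ x, ‖o.gΦ x‖ ^ 2) + (∫ x, ‖o.gΩ x‖ ^ 2) ≤ T := by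
  letI : MeasurableSpace ι := ⊤
  haveI : MeasurableSingletonClass ι := ⟨fun _ => trivial⟩
  have e1 : ∀ k, ∑ j, ∑ i, ∫ w : E3 × E6, (√(p k) * (b k j).f (slot i w)) ^ 2
      ∂(volume.prod volume) = p k * 3 := fun k => by
    have h1 : ∀ j i, ∫ w : E3 × E6, (√(p k) * (b k j).f (slot i w)) ^ 2 ∂(volume.prod volume) =
        p k * ip3 (b k j) (b k j) := fun j i => by
      rw [aens_sq _ (hp k), ← (slot_int (b k j)).1 i]
      rfl
    simp only [h1, Finset.sum_const, Finset.card_univ, Fintype.card_fin, nsmul_eq_mul,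
      ← Finset.mul_sum, hm k]
    push_cast
    ring
  have e2 : ∀ k, ∑ j, ∑ i, ∫ w : E3 × E6, ‖√(p k) • (b k j).gr i (slot i w)‖ ^ 2
      ∂(volume.prod volume) = p k * ∑ j, k3 (b k j) := fun k => by
    rw [Finset.mul_sum]
    refine Finset.sum_congr rfl fun j _ => ?_
    rw [← (slot_int (b k j)).2.1, Finset.mul_sum]
    exact Finset.sum_congr rfl fun i _ => aens_nsq _ (hp k) _
  obtain ⟨h1, h2, h3, h4⟩ := HV.family (J := ℕ × ι × Fin 3) (ν := (volume : Measure E6))
    (F := fun c w => √(p c.1) * (b c.1 c.2.1).f (slot c.2.2 w))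
    (G := fun c w => √(p c.1) • (b c.1 c.2.1).gr c.2.2 (slot c.2.2 w))
    (fun c => ((b c.1 c.2.1).hv c.2.2).cmul _)
    (aens_summ (fun c => integral_nonneg fun w => sq_nonneg _) (by
      simp only [e1]
      exact hs.summable.mul_right 3))
    (aens_summ (fun c => integral_nonneg fun w => sq_nonneg _) (by
      simp only [e2]
      exact Summable.of_nonneg_of_le
        (fun k => mul_nonneg (hp k) (Finset.sum_nonneg fun j _ => (slot_int (b k j)).2.2.2))
        (fun k => mul_le_mul_of_nonneg_left (hk k) (hp k)) (hs.summable.mul_right M)))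
  have h5 := aens_group h3
  simp only [e2] at h5
  refine ⟨_, h5, o.key _ _ _ _ h1 ?_ fun f hf => ?_⟩
  · filter_upwards [h2, hN] with x hx hx'
    have h6 := aens_group hx
    refine h6.unique (hx'.congr_fun fun k => ?_)
    rw [Finset.mul_sum]
    refine Finset.sum_congr rfl fun j _ => ?_
    unfold r3
    rw [Finset.mul_sum]
    exact Finset.sum_congr rfl fun i _ => aens_sq _ (hp k) _
  · have h6 := aens_group (h4 f hf)
    have h7 := hs.mul_right (2 * ∫ x, f x ^ 2)
    rw [one_mul] at h7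
    refine hasSum_le (fun k => ?_) h6 h7
    have h8 : ∀ j, ∑ i, ∫ y : E6, (∫ x, f x * (√(p k) * (b k j).f (slot i (x, y)))) ^ 2 ≤
        p k * (2 * ∫ x, f x ^ 2) * ip3 (b k j) (b k j) := fun j => by
      simp only [aens_pr (hp k) f (fun x y => (b k j).f (slot _ (x, y))), ← Finset.mul_sum]
      rw [mul_assoc]
      exact mul_le_mul_of_nonneg_left (pauli (b k j) (ha k j) hf) (hp k)
    refine (Finset.sum_le_sum fun j _ => h8 j).trans (le_of_eq ?_)
    rw [← Finset.mul_sum, hm k, mul_one]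

/-- The potential energy of an ensemble. -/
theorem ens_pot {v ρ : E3 → ℝ} {r : ℕ → E3 → ℝ} {p : ℕ → ℝ} (hp : ∀ k, 0 ≤ p k)
    (hs : HasSum p 1) (h0 : ∀ k x, 0 ≤ r k x) (hi : ∀ k, Integrable fun x => v x * r k x)
    {M : ℝ} (hb : ∀ k, ∫ x, |v x| * r k x ≤ M)
    (hρ : ∀ᵐ x : E3, HasSum (fun k => p k * r k x) (ρ x)) :
    HasSum (fun k => p k * ∫ x, v x * r k x) (∫ x, v x * ρ x) := by
  have h1 : Summable fun k => ∫ x, ‖p k * (v x * r k x)‖ := by
    refine Summable.of_nonneg_of_le (fun k => integral_nonneg fun x => norm_nonneg _)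
      (fun k => ?_) (hs.summable.mul_right M)
    simp only [norm_mul, Real.norm_eq_abs, abs_of_nonneg (hp k), abs_of_nonneg (h0 k _),
      integral_const_mul]
    exact mul_le_mul_of_nonneg_left (hb k) (hp k)
  have h2 := hasSum_integral_of_summable_integral_norm (fun k => (hi k).const_mul (p k)) h1
  simp only [integral_const_mul] at h2
  have h3 : ∫ x, ∑' k, p k * (v x * r k x) = ∫ x, v x * ρ x := by
    refine integral_congr_ae ?_
    filter_upwards [hρ] with x hx
    have h4 := hx.mul_left (v x)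
    simp only [mul_left_comm (v x)] at h4
    exact h4.tsum_eq
  rwa [h3] at h2

end

end Vale.Agent.P363
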