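import Vale.Agent.P363.CVec1
import Vale.Agent.P363.CAbs

/-! P363, block A: countable families. -/

open MeasureTheory Set Metric Filter Topology
open scoped RealInnerProductSpace

namespace Vale.Agent.P363

noncomputable section

section aux

variable {J α W : Type} [Countable J] [MeasurableSpace α] [MeasurableSpace W] {μ : Measure α}
  {m : Measure W} {e : J → α → W}

theorem afam_hasSum (he : ∀ j, MeasurableEmbedding (e j))
    (hm : m = Measure.sum fun j => μ.map (e j)) {u : W → ℝ} (hu : Integrable u m) :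
    HasSum (fun j => ∫ a, u (e j a) ∂μ) (∫ w, u w ∂m) := by
  subst hm
  have h := hasSum_integral_measure hu
  simpa only [(he _).integral_map] using h

theorem afam_memLp {E : Type} [NormedAddCommGroup E] (he : ∀ j, MeasurableEmbedding (e j))
    (hm : m = Measure.sum fun j => μ.map (e j)) {u : W → E}
    (h1 : ∀ j, MemLp (fun a => u (e j a)) 2 μ)
    (h2 : Summable fun j => ∫ a, ‖u (e j a)‖ ^ 2 ∂μ) : MemLp u 2 m := by
  subst hm
  have a1 : ∀ j, MemLp u 2 (μ.map (e j)) := fun j => (he j).memLp_map_measure_iff.2 (h1 j)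
  have a2 : AEStronglyMeasurable u (Measure.sum fun j => μ.map (e j)) :=
    aestronglyMeasurable_sum_measure_iff.2 fun j => (a1 j).1
  refine (memLp_two_iff_integrable_sq_norm a2).2 (integrable_sum_measure_iff.2 ⟨fun j => ?_, ?_⟩)
  · exact (memLp_two_iff_integrable_sq_norm (a1 j).1).1 (a1 j)
  · simpa only [(he _).integral_map, norm_pow, norm_norm] using h2

end aux

section dec

variable {J Y : Type} [Countable J] [MeasurableSpace J] [MeasurableSingletonClass J]
  [MeasurableSpace Y] (ν : Measure Y) [SFinite ν]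

theorem afam_dec1 : (Measure.count : Measure J).prod ν =
    Measure.sum fun j => ν.map (Prod.mk j) := by
  rw [Measure.count, Measure.prod_sum_left]
  simp only [Measure.dirac_prod]

theorem afam_dec2 : (volume : Measure E3).prod ((Measure.count : Measure J).prod ν) =
    Measure.sum fun j => ((volume : Measure E3).prod ν).map (Prod.map id (Prod.mk j)) := by
  rw [afam_dec1, Measure.prod_sum_right]
  congr 1
  funext j
  rw [← Measure.map_prod_map _ _ measurable_id measurable_prodMk_left, Measure.map_id]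

end dec

theorem HV.family {J Y : Type} [Countable J] [MeasurableSpace J] [MeasurableSingletonClass J]
    [MeasurableSpace Y] {ν : Measure Y} [SFinite ν] {F : J → E3 × Y → ℝ} {G : J → E3 × Y → E3}
    (h : ∀ j, HV ν (F j) (G j)) (s1 : Summable fun j => ∫ w, F j w ^ 2 ∂(volume.prod ν))
    (s2 : Summable fun j => ∫ w, ‖G j w‖ ^ 2 ∂(volume.prod ν)) :
    HV ((Measure.count : Measure J).prod ν) (fun w => F w.2.1 (w.1, w.2.2))
      (fun w => G w.2.1 (w.1, w.2.2)) ∧
    (∀ᵐ x : E3, HasSum (fun j => ∫ y, F j (x, y) ^ 2 ∂ν)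
      (∫ y : J × Y, F y.1 (x, y.2) ^ 2 ∂(Measure.count.prod ν))) ∧
    HasSum (fun j => ∫ w, ‖G j w‖ ^ 2 ∂(volume.prod ν))
      (∫ w : E3 × (J × Y), ‖G w.2.1 (w.1, w.2.2)‖ ^ 2 ∂(volume.prod (Measure.count.prod ν))) ∧
    ∀ f : E3 → ℝ, MemLp f 2 volume → HasSum (fun j => ∫ y, (∫ x, f x * F j (x, y)) ^ 2 ∂ν)
      (∫ y : J × Y, (∫ x, f x * F y.1 (x, y.2)) ^ 2 ∂(Measure.count.prod ν)) := by
  have e1 : ∀ j : J, MeasurableEmbedding (Prod.mk j : Y → J × Y) := fun j =>
    measurableEmbedding_prodMk_left j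
  have e2 : ∀ j : J, MeasurableEmbedding (Prod.map id (Prod.mk j) : E3 × Y → E3 × (J × Y)) :=
    fun j => MeasurableEmbedding.id.prodMap (e1 j)
  have m1 : MemLp (fun w : E3 × (J × Y) => F w.2.1 (w.1, w.2.2)) 2
      (volume.prod (Measure.count.prod ν)) := by
    refine afam_memLp e2 (afam_dec2 ν) (fun j => (h j).l2) ?_
    simp only [Real.norm_eq_abs, sq_abs]
    exact s1
  have m2 : MemLp (fun w : E3 × (J × Y) => G w.2.1 (w.1, w.2.2)) 2
      (volume.prod (Measure.count.prod ν)) :=
    afam_memLp e2 (afam_dec2 ν) (fun j => (h j).l2g) s2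
  refine ⟨⟨m1, m2, ?_⟩, ?_, ?_, fun f hf => ?_⟩
  · rw [afam_dec1, Measure.ae_sum_iff]
    intro j
    rw [(e1 j).ae_map_iff]
    exact (h j).ld
  · filter_upwards [m1.integrable_sq.prod_right_ae] with x hx
    exact afam_hasSum e1 (afam_dec1 ν) hx
  · exact afam_hasSum e2 (afam_dec2 ν) ((memLp_two_iff_integrable_sq_norm m2.1).1 m2)
  · exact afam_hasSum e1 (afam_dec1 ν) (memLp_proj (cabs_swap m1) hf).1.integrable_sq

end

end Vale.Agent.P363
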