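import Vale.Agent.P363.ABr
import Vale.Agent.P363.CO3

/-! P363, block A: the state built from a function antisymmetric in a pair. -/

open MeasureTheory Set Metric Filter Topology
open scoped RealInnerProductSpace

namespace Vale.Agent.P363

noncomputable section

open Vale.Agent.Lib.H1 Equiv

/-- The permutation that brings the particle with the exceptional spin to the last slot. -/
def amk_t (σ : Fin 3 → Fin 2) : Perm (Fin 3) :=
  if σ 0 = 1 then swap 0 2 else if σ 1 = 1 then swap 1 2 else 1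

/-- The sign of the component. -/
def amk_s (σ : Fin 3 → Fin 2) : ℤ :=
  if σ = ![0, 0, 1] then 1 else if σ = ![0, 1, 0] ∨ σ = ![1, 0, 0] then -1 else 0

theorem amk_cases : ∀ (p : Perm (Fin 3)) (σ : Fin 3 → Fin 2),
    (amk_s (σ ∘ p) = 0 ∧ amk_s σ = 0) ∨
    (p * amk_t (σ ∘ p) = amk_t σ ∧ amk_s (σ ∘ p) = (Perm.sign p : ℤ) * amk_s σ) ∨
    (p * amk_t (σ ∘ p) = amk_t σ * swap 0 1 ∧
      amk_s (σ ∘ p) = -((Perm.sign p : ℤ) * amk_s σ)) := by
  decide +kernel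

theorem amk_sum (h : Perm (Fin 3) → ℝ) :
    ∑ σ, (amk_s σ : ℝ) ^ 2 * h (amk_t σ) = h 1 + h (swap 1 2) + h (swap 0 2) := by
  have h0 : ∀ σ : Fin 3 → Fin 2, σ ∉ ({![0, 0, 1], ![0, 1, 0], ![1, 0, 0]} :
      Finset (Fin 3 → Fin 2)) → amk_s σ = 0 := by decide +kernel
  rw [← Finset.sum_subset (Finset.subset_univ
    ({![0, 0, 1], ![0, 1, 0], ![1, 0, 0]} : Finset (Fin 3 → Fin 2)))
    (fun σ _ hσ => by rw [h0 σ hσ]; simp),
    Finset.sum_insert (by decide +kernel), Finset.sum_pair (by decide +kernel)]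
  rw [show amk_s ![0, 0, 1] = 1 by decide +kernel, show amk_s ![0, 1, 0] = -1 by decide +kernel,
    show amk_s ![1, 0, 0] = -1 by decide +kernel, show amk_t ![0, 0, 1] = 1 by decide +kernel,
    show amk_t ![0, 1, 0] = swap 1 2 by decide +kernel,
    show amk_t ![1, 0, 0] = swap 0 2 by decide +kernel]
  push_cast
  ring

/-- Exchange of the last two particles. -/
def amk_p23 (w : E9) : E9 := (w.1, w.2.swap)

theorem amk_mp : MeasurePreserving amk_p23 (volume : Measure E9) volume := csg_mp_p23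

theorem amk_e01 (x : Fin 3 → E3) : toE9 (x ∘ swap 0 1) = p12 (toE9 x) := rfl

theorem amk_e02 (x : Fin 3 → E3) : toE9 (x ∘ swap 0 2) = p13 (toE9 x) := rfl

theorem amk_e12 (x : Fin 3 → E3) : toE9 (x ∘ swap 1 2) = amk_p23 (toE9 x) := rfl

/-- The average over the three slots. -/
def amk_av (h : E9 → ℝ) (w : E9) : ℝ := (h w + h (amk_p23 w) + h (p13 w)) / 3

theorem amk_int {h : E9 → ℝ} (hi : Integrable h) : ∫ w, amk_av h w = ∫ w, h w := by
  have i1 : Integrable fun w => h (amk_p23 w) := amk_mp.integrable_comp_of_integrable hi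
  have i2 : Integrable fun w => h (p13 w) := mp_p13.integrable_comp_of_integrable hi
  have i3 : Integrable fun w => h w + h (amk_p23 w) := hi.add i1
  unfold amk_av
  rw [integral_div, integral_add i3 i2, integral_add hi i1, integral_p13,
    csg_int amk_mp (fun _ => rfl) h]
  ring

theorem amk_sum' (h : E9 → ℝ) (x : Fin 3 → E3) :
    ∑ σ, ((amk_s σ : ℝ) / √3) ^ 2 * h (toE9 (x ∘ amk_t σ)) = amk_av h (toE9 x) := by
  have h3 : ∀ σ, ((amk_s σ : ℝ) / √3) ^ 2 * h (toE9 (x ∘ amk_t σ)) =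
      (amk_s σ : ℝ) ^ 2 * (h (toE9 (x ∘ amk_t σ)) / 3) := fun σ => by
    rw [div_pow, Real.sq_sqrt (by norm_num)]
    ring
  simp only [h3]
  rw [amk_sum fun p => h (toE9 (x ∘ p)) / 3, amk_e12, amk_e02]
  unfold amk_av
  rw [add_div, add_div]
  rfl

theorem amk_hg (a : O3) (σ : Fin 3 → Fin 2) (i k : Fin 3) :
    Hg volume (fun x => (((amk_s σ : ℝ) / √3 * a.f (toE9 (x ∘ amk_t σ)) : ℝ) : ℂ))
      (fun x => (((amk_s σ : ℝ) / √3 *
        a.gr ((amk_t σ).symm i) (toE9 (x ∘ amk_t σ)) k : ℝ) : ℂ)) (ev i k) :=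
  ((hg_perm (amk_t σ) (a.hg ((amk_t σ).symm i) k)).const_smul ((amk_s σ : ℝ) / √3)).clm
    Complex.ofRealCLM

/-- The state. -/
def amk_state (a : O3) (ha : Anti a) : State 3 where
  ψ σ x := (((amk_s σ : ℝ) / √3 * a.f (toE9 (x ∘ amk_t σ)) : ℝ) : ℂ)
  g σ i k x := (((amk_s σ : ℝ) / √3 * a.gr ((amk_t σ).symm i) (toE9 (x ∘ amk_t σ)) k : ℝ) : ℂ)
  l2 σ := (amk_hg a σ 0 0).u2
  l2g σ i k := (amk_hg a σ i k).g2
  weak σ i k := isWeakD_of_hg (amk_hg a σ i k)
  anti p σ := by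
    have h1 := (mp_perm (amk_t σ)).quasiMeasurePreserving.ae
      (mp_toE9.quasiMeasurePreserving.ae ha)
    filter_upwards [h1] with x hx
    have e1 : (x ∘ p) ∘ amk_t (σ ∘ p) = x ∘ (p * amk_t (σ ∘ p) : Perm (Fin 3)) := rfl
    rcases amk_cases p σ with ⟨h2, h3⟩ | ⟨h2, h3⟩ | ⟨h2, h3⟩
    · rw [h2, h3]
      simp
    · rw [e1, h2, h3]
      push_cast
      ring
    · have e2 : x ∘ (amk_t σ * swap 0 1 : Perm (Fin 3)) = (x ∘ amk_t σ) ∘ swap 0 1 := rfl
      rw [e1, h2, h3, e2, amk_e01, hx]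
      push_cast
      ring

theorem amk_dens (a : O3) (ha : Anti a) (x : Fin 3 → E3) :
    (amk_state a ha).dens x = amk_av (fun w => a.f w ^ 2) (toE9 x) := by
  rw [← amk_sum']
  refine Finset.sum_congr rfl fun σ _ => ?_
  change ‖(((amk_s σ : ℝ) / √3 * a.f (toE9 (x ∘ amk_t σ)) : ℝ) : ℂ)‖ ^ 2 = _
  rw [Complex.norm_real, Real.norm_eq_abs, sq_abs, mul_pow]

theorem amk_grad (a : O3) (ha : Anti a) (x : Fin 3 → E3) :
    ∑ σ, ∑ i, ∑ k, ‖(amk_state a ha).g σ i k x‖ ^ 2 =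
      amk_av (fun w => ‖a.g1 w‖ ^ 2 + ‖a.g2 w‖ ^ 2 + ‖a.g3 w‖ ^ 2) (toE9 x) := by
  rw [← amk_sum']
  refine Finset.sum_congr rfl fun σ _ => ?_
  have h1 : ∀ i, ∑ k, ‖(amk_state a ha).g σ i k x‖ ^ 2 = ((amk_s σ : ℝ) / √3) ^ 2 *
      ‖a.gr ((amk_t σ).symm i) (toE9 (x ∘ amk_t σ))‖ ^ 2 := fun i => by
    rw [EuclideanSpace.real_norm_sq_eq, Finset.mul_sum]
    refine Finset.sum_congr rfl fun k _ => ?_
    change ‖(((amk_s σ : ℝ) / √3 *
      a.gr ((amk_t σ).symm i) (toE9 (x ∘ amk_t σ)) k : ℝ) : ℂ)‖ ^ 2 = _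
    rw [Complex.norm_real, Real.norm_eq_abs, sq_abs, mul_pow]
  simp only [h1]
  rw [← Finset.mul_sum, Equiv.sum_comp (amk_t σ).symm
    fun i => ‖a.gr i (toE9 (x ∘ amk_t σ))‖ ^ 2, Fin.sum_univ_three]
  rfl

theorem exists_state (a : O3) (ha : Anti a) : ∃ Ψ : State 3, Dec Ψ (fun _ : Unit => a) := by
  have i0 : Integrable fun w => a.f w ^ 2 := a.l2.1.integrable_sq
  refine ⟨amk_state a ha, fun _ => ha, ?_, ?_, fun W hW hi => ?_, ?_⟩
  · simp only [State.mass, amk_dens, Finset.univ_unique, Finset.sum_singleton]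
    rw [integral_toE9, amk_int i0]
    simp only [ip3, sq]
  · have i1 : Integrable fun w => ‖a.g1 w‖ ^ 2 + ‖a.g2 w‖ ^ 2 + ‖a.g3 w‖ ^ 2 :=
      ((CO3x.int_nsq a.l2.2.1).add (CO3x.int_nsq a.l2.2.2.1)).add (CO3x.int_nsq a.l2.2.2.2)
    simp only [State.kinetic, amk_grad, Finset.univ_unique, Finset.sum_singleton]
    rw [integral_toE9, amk_int i1]
    rfl
  · simp only [amk_dens, Finset.univ_unique, Finset.sum_singleton]
    rw [integral_toE9 fun w => W w * amk_av (fun w => a.f w ^ 2) w, ← amk_int (hi ())]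
    congr 1
    funext w
    have h1 : W (amk_p23 w) = W w := by
      have : amk_p23 w = p12 (p13 (p12 w)) := rfl
      rw [this, hW.1, hW.2, hW.1]
    simp only [amk_av]
    rw [h1, hW.2]
    ring
  · have i2 : Integrable fun w => a.f (p13 w) ^ 2 := mp_p13.integrable_comp_of_integrable i0
    filter_upwards [i0.prod_right_ae, i2.prod_right_ae, Measure.ae_ae_of_ae_prod ha]
      with x h0 h2 h3
    have h1 : Integrable fun y : E6 => a.f (x, y.swap) ^ 2 :=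
      mp_swap6.integrable_comp_of_integrable h0
    have h4 : Integrable fun y : E6 => a.f (x, y) ^ 2 + a.f (x, y.swap) ^ 2 := h0.add h1
    have h5 : ∫ y : E6, a.f (p12 (x, y)) ^ 2 = ∫ y : E6, a.f (x, y) ^ 2 :=
      integral_congr_ae (by filter_upwards [h3] with y hy; rw [hy, neg_sq])
    have h6 : ∫ y : E6, amk_av (fun w => a.f w ^ 2) (x, y) =
        (∫ y : E6, (a.f (x, y) ^ 2 + a.f (x, y.swap) ^ 2 + a.f (p13 (x, y)) ^ 2)) / 3 :=
      integral_div _ _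
    simp only [State.rho, amk_dens, Finset.univ_unique, Finset.sum_singleton]
    rw [integral_cons, h6, integral_add h4 h2, integral_add h0 h1,
      integral_swap6 fun y => a.f (x, y) ^ 2, r3, Fin.sum_univ_three]
    change _ = (∫ y : E6, a.f (x, y) ^ 2) + (∫ y : E6, a.f (p12 (x, y)) ^ 2) +
      ∫ y : E6, a.f (p13 (x, y)) ^ 2
    rw [h5]
    push_cast
    ring

end

end Vale.Agent.P363
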