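import Vale.Agent.P363.ABr

/-! P363, block A: scaling. -/

open MeasureTheory Set Metric Filter Topology
open scoped RealInnerProductSpace

namespace Vale.Agent.P363

noncomputable section

theorem ascale_int {m : ℕ} (f : (Fin m → E3) → ℝ) {c : ℝ} (hc : 0 < c) :
    ∫ x, c ^ (3 * m) * f (c • x) = ∫ x, f x := by
  have e1 : Module.finrank ℝ (Fin m → E3) = 3 * m := by
    simp [Module.finrank_pi_fintype, mul_comm]
  rw [integral_const_mul, Measure.integral_comp_smul_of_nonneg _ _ _ (hR := hc.le), e1,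
    smul_eq_mul, mul_inv_cancel_left₀ (pow_pos hc _).ne']

/-- The dilated state. -/
def ascale_st {m : ℕ} (Ψ : State m) {c : ℝ} (hc : 0 < c) : State m where
  ψ := fun σ x => √(c ^ (3 * m)) • Ψ.ψ σ (c • x)
  g := fun σ i k x => √(c ^ (3 * m)) • c • Ψ.g σ i k (c • x)
  l2 := fun σ => (Lib.H1.memLp_comp_smul (Ψ.l2 σ) hc.ne').const_smul √(c ^ (3 * m))
  l2g := fun σ i k =>
    ((Lib.H1.memLp_comp_smul (Ψ.l2g σ i k) hc.ne').const_smul c).const_smul √(c ^ (3 * m))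
  weak := fun σ i k φ h1 h2 => by
    have h3 : Lib.H1.WD volume (Ψ.ψ σ) (Ψ.g σ i k) (ev i k) := fun φ h1 h2 => by
      simpa only [Complex.real_smul] using Ψ.weak σ i k φ h1 h2
    have h4 := h3.comp_smul hc.ne' φ h1 h2
    simp only [← Complex.real_smul, smul_comm _ √(c ^ (3 * m)), integral_smul]
    rw [h4, smul_neg]
  anti := fun p σ => by
    filter_upwards [(Measure.quasiMeasurePreserving_smul volume hc.ne').ae (Ψ.anti p σ)] with x hx
    have e1 : c • (x ∘ p) = (c • x) ∘ p := rfl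
    rw [e1, hx, mul_smul_comm]

theorem ascale_dens {m : ℕ} (Ψ : State m) {c : ℝ} (hc : 0 < c) (x : Fin m → E3) :
    (ascale_st Ψ hc).dens x = c ^ (3 * m) * Ψ.dens (c • x) := by
  simp only [State.dens, Finset.mul_sum, ascale_st, norm_smul, mul_pow, Real.norm_eq_abs, sq_abs,
    Real.sq_sqrt (pow_nonneg hc.le _)]

/-- Dilation of a state. -/
theorem exists_scale {n : ℕ} (Ψ : State (n + 1)) {c : ℝ} (hc : 0 < c) : ∃ Φ : State (n + 1),
    Φ.mass = Ψ.mass ∧ Φ.kinetic = c ^ 2 * Ψ.kinetic ∧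
    (∀ W : (Fin (n + 1) → E3) → ℝ, ∫ x, W (c • x) * Φ.dens x = ∫ x, W x * Ψ.dens x) ∧
    ∀ x, Φ.rho x = c ^ 3 * Ψ.rho (c • x) := by
  have hd := ascale_dens Ψ hc
  have hW : ∀ W : (Fin (n + 1) → E3) → ℝ,
      ∫ x, W (c • x) * (ascale_st Ψ hc).dens x = ∫ x, W x * Ψ.dens x := fun W => by
    rw [← ascale_int (fun x => W x * Ψ.dens x) hc]
    simp only [hd, mul_left_comm]
  refine ⟨ascale_st Ψ hc, ?_, ?_, hW, fun x => ?_⟩
  · simpa [State.mass] using hW fun _ => 1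
  · unfold State.kinetic
    rw [← ascale_int (fun x => ∑ σ, ∑ i, ∑ k, ‖Ψ.g σ i k x‖ ^ 2) hc, mul_left_comm,
      ← integral_const_mul (c ^ 2)]
    congr 2
    funext x
    simp only [Finset.mul_sum, ascale_st, norm_smul, mul_pow, Real.norm_eq_abs, sq_abs,
      Real.sq_sqrt (pow_nonneg hc.le _), mul_left_comm]
  · unfold State.rho
    rw [← ascale_int (fun y => Ψ.dens (Fin.cons (c • x) y)) hc, mul_left_comm,
      ← integral_const_mul (c ^ 3)]
    congr 2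
    funext y
    have e1 : c • (Fin.cons x y : Fin (n + 1) → E3) = Fin.cons (c • x) (c • y) := by
      funext i
      refine Fin.cases ?_ (fun j => ?_) i <;> simp
    rw [hd, e1]
    ring

theorem IsGround.scale {n : ℕ} {W : (Fin (n + 1) → E3) → ℝ} {Ψ : State (n + 1)}
    (h : IsGround W Ψ) {c : ℝ} (hc : 0 < c) : ∃ Φ : State (n + 1),
    IsGround (fun x => c ^ 2 * W (c • x)) Φ ∧ ∀ x, Φ.rho x = c ^ 3 * Ψ.rho (c • x) := by
  obtain ⟨Φ, h1, h2, h3, h4⟩ := exists_scale Ψ hc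
  refine ⟨Φ, ⟨h1.trans h.1, fun Θ hΘ => ?_⟩, h4⟩
  obtain ⟨Θ', k1, k2, k3, -⟩ := exists_scale Θ (inv_pos.2 hc)
  have h5 := h.2 Θ' (k1.trans hΘ)
  have k4 := k3 fun x => W (c • x)
  simp only [smul_inv_smul₀ hc.ne'] at k4
  unfold State.energy at h5 ⊢
  simp only [mul_assoc, integral_const_mul]
  rw [h2, h3, ← k4]
  rw [k2] at h5
  have h6 := mul_le_mul_of_nonneg_left h5 (sq_nonneg c)
  have e1 : c ^ 2 * (c⁻¹ ^ 2 * Θ.kinetic) = Θ.kinetic := by field_simp
  linarith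

theorem ascale_memLp {v : E3 → ℝ} {q : ENNReal} (h : MemLp v q volume) {c : ℝ} (hc : 0 < c) :
    MemLp (fun x => v (c • x)) q volume := by
  have h1 : MemLp v q (Measure.map (fun x : E3 => c • x) volume) := by
    rw [Measure.map_addHaar_smul volume hc.ne']
    exact h.smul_measure ENNReal.ofReal_ne_top
  exact h1.comp_of_map (measurable_const_smul c).aemeasurable

theorem Representable.scale {n : ℕ} {ρ : E3 → ℝ} (h : Representable n ρ) {c : ℝ} (hc : 0 < c) :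
    Representable n (fun x => c ^ 3 * ρ (c • x)) := by
  obtain ⟨v₁, v₂, h1, h2, p, Ψ, h3, h4, h5, h6⟩ := h
  choose Φ k1 k2 using fun k => (h5 k).scale hc
  refine ⟨fun x => c ^ 2 * v₁ (c • x), fun x => c ^ 2 * v₂ (c • x),
    (ascale_memLp h1 hc).const_mul _, (ascale_memLp h2 hc).const_mul _, p, Φ, h3, h4,
    fun k => ?_, ?_⟩
  · simpa only [Finset.mul_sum, mul_add, Pi.smul_apply] using k1 k
  · filter_upwards [(Measure.quasiMeasurePreserving_smul volume hc.ne').ae h6] with x hx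
    simpa only [k2, mul_left_comm] using hx.mul_left (c ^ 3)

theorem ascale_coul (L : ℝ) {Z : ℕ} (hc : (0 : ℝ) < Z) (x : Fin 3 → E3) :
    coulomb ![Z, Z] ![(L / Z) • e 2, -((L / Z) • e 2)] x =
      (Z : ℝ) ^ 2 * W3 L (Z : ℝ)⁻¹ (toE9 ((Z : ℝ) • x)) := by
  have e0 : nA L = (Z : ℝ) • (L / Z) • e 2 := by
    rw [smul_smul, mul_div_cancel₀ _ hc.ne', nA]
  have e1 : ∀ y z : E3, ‖(Z : ℝ) • y - (Z : ℝ) • z‖⁻¹ = (Z : ℝ)⁻¹ * ‖y - z‖⁻¹ := fun y z => by
    rw [← smul_sub, norm_smul, Real.norm_of_nonneg hc.le, mul_inv]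
  have e2 : ∀ y z : E3, ‖(Z : ℝ) • y + (Z : ℝ) • z‖⁻¹ = (Z : ℝ)⁻¹ * ‖y + z‖⁻¹ := fun y z => by
    rw [← smul_add, norm_smul, Real.norm_of_nonneg hc.le, mul_inv]
  simp only [W3, W2, Mx, V, rA, rB, toE9, Pi.smul_apply, e0, e1, e2]
  simp only [coulomb, Fin.sum_univ_three, Fin.sum_univ_two, Matrix.cons_val_zero,
    Matrix.cons_val_one, sub_neg_eq_add, div_eq_mul_inv (Z : ℝ)]
  simp only [lt_self_iff_false, if_false, show (0 : Fin 3) < 1 by decide,
    show (0 : Fin 3) < 2 by decide, show (1 : Fin 3) < 2 by decide, if_true,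
    show ¬ (1 : Fin 3) < 0 by decide, show ¬ (2 : Fin 3) < 0 by decide,
    show ¬ (2 : Fin 3) < 1 by decide]
  field_simp
  ring

theorem t_main_of_sc (h : T_Sc) : T_Main := by
  obtain ⟨L, Z, hL, hZ, Ψ, h1, h2⟩ := h
  have hc : (0 : ℝ) < Z := by exact_mod_cast hZ
  obtain ⟨Φ, k1, k2⟩ := h1.scale hc
  have hne : (L / Z) • e 2 ≠ -((L / Z) • e 2) := fun h => by
    have h3 := congrArg (fun v : E3 => v 2) h
    have h4 : 0 < L / Z := by positivity
    simp only [PiLp.smul_apply, PiLp.neg_apply, e_apply, if_true, smul_eq_mul, mul_one] at h3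
    linarith
  refine ⟨![Z, Z], ![(L / Z) • e 2, -((L / Z) • e 2)], fun j => by fin_cases j <;> exact hZ,
    fun i j hij => ?_, Φ, ?_, fun h3 => h2 ?_⟩
  · fin_cases i <;> fin_cases j
    · rfl
    · exact absurd hij hne
    · exact absurd hij.symm hne
    · rfl
  · rwa [funext (ascale_coul L hc)]
  · have h4 := h3.scale (inv_pos.2 hc)
    have e1 : (fun x => (Z : ℝ)⁻¹ ^ 3 * Φ.rho ((Z : ℝ)⁻¹ • x)) = Ψ.rho := by
      funext x
      rw [k2, smul_inv_smul₀ hc.ne']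
      field_simp
    rwa [e1] at h4

end

end Vale.Agent.P363
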