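import Vale.Agent.P363.ADefs
import Vale.Agent.P363.CO3
import Vale.Agent.P363.CAbs

/-! P363, block A: Slater determinants. -/

open MeasureTheory Set Metric Filter Topology
open scoped RealInnerProductSpace

namespace Vale.Agent.P363

noncomputable section

theorem aslater_2 {a b : E3 → ℝ} (ha : Integrable a) (hb : Integrable b) :
    Integrable (fun y : E6 => a y.1 * b y.2) ∧
      ∫ y : E6, a y.1 * b y.2 = (∫ x, a x) * ∫ x, b x :=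
  ⟨ha.mul_prod hb, integral_prod_mul a b⟩

theorem aslater_3 {a b c : E3 → ℝ} (ha : Integrable a) (hb : Integrable b) (hc : Integrable c) :
    Integrable (fun w : E9 => a w.1 * (b w.2.1 * c w.2.2)) ∧
      ∫ w : E9, a w.1 * (b w.2.1 * c w.2.2) = (∫ x, a x) * ((∫ x, b x) * ∫ x, c x) := by
  have h := aslater_2 hb hc
  refine ⟨ha.mul_prod h.1, ?_⟩
  rw [← h.2]
  exact integral_prod_mul a (fun y : E6 => b y.1 * c y.2)

theorem aslater_lin {α : Type} [MeasurableSpace α] {μ : Measure α} {a b c F : α → ℝ}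
    (ha : Integrable a μ) (hb : Integrable b μ) (hc : Integrable c μ) (s t u : ℝ)
    (hF : ∀ x, F x = s * a x + t * b x + u * c x) : Integrable F μ ∧
      ∫ x, F x ∂μ = s * (∫ x, a x ∂μ) + t * (∫ x, b x ∂μ) + u * ∫ x, c x ∂μ := by
  have e : F = fun x => s * a x + t * b x + u * c x := funext hF
  have h1 : Integrable (fun x => s * a x + t * b x) μ := (ha.const_mul s).add (hb.const_mul t)
  rw [e]
  refine ⟨h1.add (hc.const_mul u), ?_⟩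
  rw [integral_add h1 (hc.const_mul u), integral_add (ha.const_mul s) (hb.const_mul t),
    integral_const_mul, integral_const_mul, integral_const_mul]

theorem aslater_S {a1 b1 a2 b2 a3 b3 c : E3 → ℝ} {F : E9 → ℝ} (ha1 : Integrable a1)
    (hb1 : Integrable b1) (ha2 : Integrable a2) (hb2 : Integrable b2) (ha3 : Integrable a3)
    (hb3 : Integrable b3) (hc : Integrable c)
    (hF : ∀ w, F w = (1 / 2) * (a1 w.1 * (b1 w.2.1 * c w.2.2)) +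
      (-1) * (a2 w.1 * (b2 w.2.1 * c w.2.2)) + (1 / 2) * (a3 w.1 * (b3 w.2.1 * c w.2.2))) :
    Integrable F ∧ ∫ w, F w = (1 / 2) * ((∫ x, a1 x) * ((∫ x, b1 x) * ∫ x, c x)) +
      (-1) * ((∫ x, a2 x) * ((∫ x, b2 x) * ∫ x, c x)) +
      (1 / 2) * ((∫ x, a3 x) * ((∫ x, b3 x) * ∫ x, c x)) := by
  have h1 := aslater_3 ha1 hb1 hc
  have h2 := aslater_3 ha2 hb2 hc
  have h3 := aslater_3 ha3 hb3 hc
  rw [← h1.2, ← h2.2, ← h3.2]
  exact aslater_lin h1.1 h2.1 h3.1 _ _ _ hF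

theorem aslater_T {a1 b1 a2 b2 a3 b3 : E3 → ℝ} {F : E6 → ℝ} (ha1 : Integrable a1)
    (hb1 : Integrable b1) (ha2 : Integrable a2) (hb2 : Integrable b2) (ha3 : Integrable a3)
    (hb3 : Integrable b3) (s t u : ℝ)
    (hF : ∀ w, F w = s * (a1 w.1 * b1 w.2) + t * (a2 w.1 * b2 w.2) + u * (a3 w.1 * b3 w.2)) :
    ∫ w, F w = s * ((∫ x, a1 x) * ∫ x, b1 x) + t * ((∫ x, a2 x) * ∫ x, b2 x) +
      u * ((∫ x, a3 x) * ∫ x, b3 x) := by
  have h1 := aslater_2 ha1 hb1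
  have h2 := aslater_2 ha2 hb2
  have h3 := aslater_2 ha3 hb3
  rw [← h1.2, ← h2.2, ← h3.2]
  exact (aslater_lin h1.1 h2.1 h3.1 _ _ _ hF).2

theorem aslater_norm (a b : ℝ) (v w : E3) :
    ‖a • v + b • w‖ ^ 2 = a ^ 2 * ‖v‖ ^ 2 + 2 * a * b * ⟪v, w⟫ + b ^ 2 * ‖w‖ ^ 2 := by
  rw [norm_add_sq_real, norm_smul, norm_smul, real_inner_smul_left, real_inner_smul_right,
    mul_pow, mul_pow, Real.norm_eq_abs, Real.norm_eq_abs, sq_abs, sq_abs]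
  ring

theorem exists_slater {φ ω ζ : E3 → ℝ} {p q r : E3 → E3} (h1 : H1 φ p) (h2 : H1 ω q)
    (h3 : H1 ζ r) (n1 : ∫ x, φ x ^ 2 = 1) (n2 : ∫ x, ω x ^ 2 = 1) (n3 : ∫ x, ζ x ^ 2 = 1)
    (n4 : ∫ x, φ x * ω x = 0) : ∃ a : O3, Anti a ∧ ip3 a a = 1 ∧
      k3 a = (∫ x, ‖p x‖ ^ 2) + (∫ x, ‖q x‖ ^ 2) + ∫ x, ‖r x‖ ^ 2 ∧
      ∀ x, r3 a.f x = φ x ^ 2 + ω x ^ 2 + ζ x ^ 2 := by
  obtain ⟨c, hc⟩ : ∃ c : ℝ, c ^ 2 = 1 / 2 := ⟨√(1 / 2), Real.sq_sqrt (by norm_num)⟩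
  let A : O3 := ⟨_, _, _, _, H3.tensor h1 ⟨_, _, _, H2.tensor h2 h3⟩⟩
  let B : O3 := ⟨_, _, _, _, H3.tensor h2 ⟨_, _, _, H2.tensor h1 h3⟩⟩
  obtain ⟨a, af, a1, a2, a3⟩ : ∃ a : O3,
      (∀ w, a.f w = c * (φ w.1 * ω w.2.1 - ω w.1 * φ w.2.1) * ζ w.2.2) ∧
      (∀ w, a.g1 w = (c * ω w.2.1 * ζ w.2.2) • p w.1 + (-(c * φ w.2.1 * ζ w.2.2)) • q w.1) ∧
      (∀ w, a.g2 w = (-(c * ω w.1 * ζ w.2.2)) • p w.2.1 + (c * φ w.1 * ζ w.2.2) • q w.2.1) ∧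
      (∀ w, a.g3 w = (c * (φ w.1 * ω w.2.1 - ω w.1 * φ w.2.1)) • r w.2.2) := by
    refine ⟨(A.cmul c).add (B.cmul (-c)), fun w => ?_, fun w => ?_, fun w => ?_, fun w => ?_⟩
    · simp only [O3.add, O3.cmul, A, B]; ring
    · simp only [O3.add, O3.cmul, A, B]; module
    · simp only [O3.add, O3.cmul, A, B]; module
    · simp only [O3.add, O3.cmul, A, B]; module
  have i1 := h1.l2.integrable_sq
  have i2 := h2.l2.integrable_sq
  have i3 := h3.l2.integrable_sq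
  have i4 : Integrable (fun x => φ x * ω x) := h1.l2.integrable_mul h2.l2
  have j1 : Integrable (fun x => ‖p x‖ ^ 2) := (memLp_two_iff_integrable_sq_norm h1.l2g.1).1 h1.l2g
  have j2 : Integrable (fun x => ‖q x‖ ^ 2) := (memLp_two_iff_integrable_sq_norm h2.l2g.1).1 h2.l2g
  have j3 : Integrable (fun x => ‖r x‖ ^ 2) := (memLp_two_iff_integrable_sq_norm h3.l2g.1).1 h3.l2g
  have j4 : Integrable (fun x => ⟪p x, q x⟫) := (q1_int h1 h2 0).1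
  refine ⟨a, Eventually.of_forall fun w => ?_, ?_, ?_, fun x => ?_⟩
  · rw [af, af]; simp only [p12]; ring
  · have := (aslater_S (F := fun w => a.f w * a.f w) i1 i2 i4 i4 i2 i1 i3 (fun w => by
      rw [af]; linear_combination ((φ w.1 * ω w.2.1 - ω w.1 * φ w.2.1) * ζ w.2.2) ^ 2 * hc)).2
    rw [n1, n2, n3, n4] at this
    unfold ip3
    rw [this]; norm_num
  · have k1 := aslater_S (F := fun w => ‖a.g1 w‖ ^ 2) j1 i2 j4 i4 j2 i1 i3 (fun w => by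
      rw [a1, aslater_norm]
      linear_combination ((ω w.2.1 * ζ w.2.2) ^ 2 * ‖p w.1‖ ^ 2 -
        2 * (ω w.2.1 * φ w.2.1 * ζ w.2.2 ^ 2) * ⟪p w.1, q w.1⟫ +
        (φ w.2.1 * ζ w.2.2) ^ 2 * ‖q w.1‖ ^ 2) * hc)
    have k2 := aslater_S (F := fun w => ‖a.g2 w‖ ^ 2) i2 j1 i4 j4 i1 j2 i3 (fun w => by
      rw [a2, aslater_norm]
      linear_combination ((ω w.1 * ζ w.2.2) ^ 2 * ‖p w.2.1‖ ^ 2 -
        2 * (ω w.1 * φ w.1 * ζ w.2.2 ^ 2) * ⟪p w.2.1, q w.2.1⟫ +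
        (φ w.1 * ζ w.2.2) ^ 2 * ‖q w.2.1‖ ^ 2) * hc)
    have k3' := aslater_S (F := fun w => ‖a.g3 w‖ ^ 2) i1 i2 i4 i4 i2 i1 j3 (fun w => by
      rw [a3, norm_smul, mul_pow, Real.norm_eq_abs, sq_abs]
      linear_combination ((φ w.1 * ω w.2.1 - ω w.1 * φ w.2.1) ^ 2 * ‖r w.2.2‖ ^ 2) * hc)
    have := (aslater_lin (F := fun w => ‖a.g1 w‖ ^ 2 + ‖a.g2 w‖ ^ 2 + ‖a.g3 w‖ ^ 2) k1.1 k2.1
      k3'.1 1 1 1 (fun w => by ring)).2
    unfold k3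
    rw [this, k1.2, k2.2, k3'.2, n1, n2, n3, n4]
    ring
  · have s0 := aslater_T (F := fun y => a.f (x, y) ^ 2) i2 i3 i4 i3 i1 i3 (φ x ^ 2 / 2)
      (-(φ x * ω x)) (ω x ^ 2 / 2) (fun y => by
        rw [af]; linear_combination ((φ x * ω y.1 - ω x * φ y.1) * ζ y.2) ^ 2 * hc)
    have s1 := aslater_T (F := fun y => a.f (p12 (x, y)) ^ 2) i2 i3 i4 i3 i1 i3 (φ x ^ 2 / 2)
      (-(φ x * ω x)) (ω x ^ 2 / 2) (fun y => by
        rw [af]; simp only [p12]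
        linear_combination ((φ x * ω y.1 - ω x * φ y.1) * ζ y.2) ^ 2 * hc)
    have s2 := aslater_T (F := fun y => a.f (p13 (x, y)) ^ 2) i2 i1 i4 i4 i1 i2 (ζ x ^ 2 / 2)
      (-(ζ x ^ 2)) (ζ x ^ 2 / 2) (fun y => by
        rw [af]; simp only [p13]
        linear_combination ((φ y.2 * ω y.1 - ω y.2 * φ y.1) * ζ x) ^ 2 * hc)
    have e : r3 a.f x = (∫ y, a.f (x, y) ^ 2) + (∫ y, a.f (p12 (x, y)) ^ 2) +
        ∫ y, a.f (p13 (x, y)) ^ 2 := by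
      unfold r3
      rw [Fin.sum_univ_three]
      rfl
    rw [e, s0, s1, s2, n1, n2, n3, n4]
    ring

end

end Vale.Agent.P363
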