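import Vale.Agent.P363.ADec
import Vale.Agent.P363.AMk
import Vale.Agent.P363.AScale
import Vale.Agent.P363.AEns
import Vale.Agent.P363.ASlater
import Vale.Agent.P363.AEL

/-! P363, block A: assembly. -/

open MeasureTheory Set Metric Filter Topology
open scoped RealInnerProductSpace

namespace Vale.Agent.P363

noncomputable section

theorem Dec.energy3 {ι : Type} [Fintype ι] {Ψ : State 3} {b : ι → O3} (h : Dec Ψ b)
    (L lam : ℝ) : Ψ.energy (fun x => W3 L lam (toE9 x)) = ∑ j, q3 L lam (b j) (b j) := by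
  rw [State.energy, h.kin, h.pot (W3 L lam) ⟨W3_p12 L lam, W3_p13 L lam⟩
    fun j => (q3_eq L lam (b j)).1, Finset.mul_sum, ← Finset.sum_add_distrib]
  exact Finset.sum_congr rfl fun j _ => (q3_eq L lam (b j)).2.symm

theorem ground_of_min {L lam E : ℝ} {F : O3} (h1 : ip3 F F = 1) (h2 : q3 L lam F F = E)
    (h3 : ∀ b : O3, (∀ᵐ w : E9, b.f (p12 w) = -b.f w) → E * ip3 b b ≤ q3 L lam b b)
    {Ψ : State 3} (h : Dec Ψ (fun _ : Unit => F)) :
    IsGround (fun x => W3 L lam (toE9 x)) Ψ := by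
  refine ⟨by simpa [h1] using h.mass, fun Φ hΦ => ?_⟩
  obtain ⟨b, hb⟩ := exists_dec Φ
  rw [h.energy3, hb.energy3]
  have h4 := Finset.sum_le_sum (s := Finset.univ) fun j _ => h3 (b j) (hb.anti j)
  rw [← Finset.mul_sum, ← hb.mass, hΦ, mul_one] at h4
  simpa [h2] using h4

theorem Dec.energyv {ι : Type} [Fintype ι] {Ψ : State 3} {b : ι → O3} (h : Dec Ψ b)
    {v₁ v₂ : E3 → ℝ} (h1 : MemLp v₁ (3 / 2) volume) (h2 : MemLp v₂ ⊤ volume) :
    Ψ.energy (fun x => ∑ i, (v₁ (x i) + v₂ (x i))) =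
      (1 / 2) * ∑ j, k3 (b j) + ∫ x, (v₁ x + v₂ x) * ∑ j, r3 (b j).f x := by
  obtain ⟨C, -, hC⟩ := form3 h1 h2
  have e : (fun x : Fin 3 → E3 => ∑ i, (v₁ (x i) + v₂ (x i))) =
      fun x => Wv (fun x => v₁ x + v₂ x) (toE9 x) := by
    funext x
    simp only [Fin.sum_univ_three, Wv, toE9]
  rw [e, State.energy, h.kin, h.pot _ (sym_Wv _) fun j => (hC (b j)).1]
  simp only [Finset.mul_sum _ (fun j => r3 (b j).f _)]
  rw [integral_finset_sum _ fun j _ => (hC (b j)).2.1]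
  congr 1
  exact Finset.sum_congr rfl fun j _ => (hC (b j)).2.2.1

theorem not_rep {N ρ : E3 → ℝ} (o : Out N) (h : ∀ᵐ x : E3, ρ x = N x ^ 2) :
    ¬Representable 2 ρ := by
  rintro ⟨v₁, v₂, h1, h2, p, Ψ, hp, hs, hg, hρ⟩
  obtain ⟨C, C0, hC⟩ := form3 h1 h2
  obtain ⟨C1, -, hC1⟩ := form1 h1 h2
  choose b hb using fun k => exists_dec (Ψ k)
  set v : E3 → ℝ := fun x => v₁ x + v₂ x with hv
  set Es := (Ψ 0).energy fun x => ∑ i, (v₁ (x i) + v₂ (x i)) with hEs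
  have en : ∀ k, (1 / 2) * ∑ j, k3 (b k j) + ∫ x, v x * ∑ j, r3 (b k j).f x = Es := fun k => by
    rw [← (hb k).energyv h1 h2]
    exact le_antisymm ((hg k).2 _ (hg 0).1) ((hg 0).2 _ (hg k).1)
  have ms : ∀ k, ∑ j, ip3 (b k j) (b k j) = 1 := fun k => (hb k).mass.symm.trans (hg k).1
  have r0 : ∀ k x, 0 ≤ ∑ j, r3 (b k j).f x := fun k x =>
    Finset.sum_nonneg fun j _ => r3_nonneg _ _
  have ri : ∀ k, Integrable fun x => v x * ∑ j, r3 (b k j).f x := fun k => by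
    simp only [Finset.mul_sum]
    exact integrable_finset_sum _ fun j _ => (hC (b k j)).2.1
  have rb : ∀ k, ∫ x, |v x| * ∑ j, r3 (b k j).f x ≤ (1 / 4) * ∑ j, k3 (b k j) + C := fun k => by
    have i : ∀ j, Integrable fun x => |v x| * r3 (b k j).f x := fun j =>
      (hC (b k j)).2.1.abs.congr (ae_of_all _ fun x => by
        simp only [abs_mul, abs_of_nonneg (r3_nonneg _ _), hv])
    simp only [Finset.mul_sum _ (fun j => r3 (b k j).f _)]
    rw [integral_finset_sum _ fun j _ => i j]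
    refine (Finset.sum_le_sum fun j _ => (hC (b k j)).2.2.2).trans (le_of_eq ?_)
    rw [Finset.sum_add_distrib, ← Finset.mul_sum, ← Finset.mul_sum, ms, mul_one]
  have kb : ∀ k, ∑ j, k3 (b k j) ≤ 4 * (Es + C) := fun k => by
    have a1 : |∫ x, v x * ∑ j, r3 (b k j).f x| ≤ ∫ x, |v x| * ∑ j, r3 (b k j).f x :=
      abs_integral_le_integral_abs.trans (le_of_eq (integral_congr_ae (ae_of_all _ fun x => by
        simp only [abs_mul, abs_of_nonneg (r0 k x)])))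
    linarith [en k, rb k, neg_abs_le (∫ x, v x * ∑ j, r3 (b k j).f x)]
  have hN : ∀ᵐ x : E3, HasSum (fun k => p k * ∑ j, r3 (b k j).f x) (N x ^ 2) := by
    filter_upwards [h, hρ, ae_all_iff.2 fun k => (hb k).rho] with x a1 a2 a3
    simpa only [a3, a1] using a2
  obtain ⟨T, hT, hT'⟩ := ens_kin o hp hs (fun k => (hb k).anti) ms kb hN
  have hV := ens_pot hp hs r0 ri (M := (1 / 4) * (4 * (Es + C)) + C)
    (fun k => (rb k).trans (by linarith [kb k])) hN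
  have tot : (1 / 2) * T + ∫ x, v x * N x ^ 2 = Es := by
    refine ((hT.mul_left (1 / 2)).add hV).unique ?_
    have := hs.mul_right Es
    rw [one_mul] at this
    refine this.congr_fun ?_
    intro k
    rw [← en k]
    ring
  have s2 : ((√2)⁻¹ : ℝ) ^ 2 = 1 / 2 := by
    rw [inv_pow, Real.sq_sqrt (by norm_num), one_div]
  have hφ := o.pair.h1.cmul (√2)⁻¹
  have n1 : ∫ x, ((√2)⁻¹ * o.Φ x) ^ 2 = 1 := by
    simp only [mul_pow, integral_const_mul, s2, o.m1]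
    norm_num
  have n4 : ∫ x, (√2)⁻¹ * o.Φ x * o.Ω x = 0 := by
    refine integral_odd ?_
    filter_upwards [o.pair.ev, o.pair.od] with x a1 a2
    rw [a1, a2]
    ring
  have kφ : ∫ x, ‖(√2)⁻¹ • o.gΦ x‖ ^ 2 = (1 / 2) * ∫ x, ‖o.gΦ x‖ ^ 2 := by
    simp only [norm_smul, mul_pow, Real.norm_eq_abs, sq_abs, integral_const_mul, s2]
  have pN : ∫ x, v x * N x ^ 2 =
      2 * (∫ x, v x * ((√2)⁻¹ * o.Φ x) ^ 2) + ∫ x, v x * o.Ω x ^ 2 := by
    rw [← integral_const_mul, ← integral_add ((hC1 _ _ hφ).1.const_mul 2) (hC1 _ _ o.pair.h2).1]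
    refine integral_congr_ae ?_
    filter_upwards [o.pair.sum] with x hx
    rw [← hx, mul_pow, s2]
    ring
  obtain ⟨μ, hμ⟩ := euler_lagrange h1 h2 hφ n1 fun ζ r hζ n3 => by
    obtain ⟨a, a1, a2, a3, a4⟩ := exists_slater hφ o.pair.h2 hζ n1 o.m2 n3 n4
    obtain ⟨Φ, hΦ⟩ := exists_state a a1
    have b1 := (hg 0).2 Φ (by simpa [a2] using hΦ.mass)
    rw [hΦ.energyv h1 h2, ← hEs] at b1
    simp only [Finset.univ_unique, Finset.sum_singleton, a3, a4, mul_add] at b1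
    have i12 : Integrable fun x => (v₁ x + v₂ x) * ((√2)⁻¹ * o.Φ x) ^ 2 +
        (v₁ x + v₂ x) * o.Ω x ^ 2 := (hC1 _ _ hφ).1.add (hC1 _ _ o.pair.h2).1
    rw [integral_add i12 (hC1 _ _ hζ).1,
      integral_add (hC1 _ _ hφ).1 (hC1 _ _ o.pair.h2).1] at b1
    simp only [qv]
    linarith
  refine o.nov v₁ v₂ h1 h2 μ fun f gf hf => ?_
  have b1 := hμ f gf hf
  have e1 : ∀ x, (1 / 2) * ⟪(√2)⁻¹ • o.gΦ x, gf x⟫ + (v₁ x + v₂ x) * ((√2)⁻¹ * o.Φ x) * f x =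
      (√2)⁻¹ * ((1 / 2) * ⟪o.gΦ x, gf x⟫ + (v₁ x + v₂ x) * o.Φ x * f x) := fun x => by
    rw [real_inner_smul_left]
    ring
  simp only [e1, mul_assoc (√2)⁻¹, integral_const_mul] at b1
  refine mul_left_cancel₀ (a := (√2)⁻¹) (by positivity) ?_
  rw [b1]
  ring

theorem t_sc (h : T_Core) : T_Sc := by
  obtain ⟨L, hL, h⟩ := h
  have t : Tendsto (fun Z : ℕ => (Z : ℝ)⁻¹) atTop (𝓝[>] 0) :=
    tendsto_inv_atTop_nhdsGT_zero.comp tendsto_natCast_atTop_atTop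
  obtain ⟨Z, ⟨F, E, h1, h2, h3, h4, ⟨o⟩⟩, hZ⟩ := ((t.eventually h).and (eventually_ge_atTop 1)).exists
  obtain ⟨Ψ, hΨ⟩ := exists_state F (ae_of_all _ h2)
  refine ⟨L, Z, hL, hZ, Ψ, ground_of_min h1 h3 h4 hΨ, not_rep o ?_⟩
  filter_upwards [hΨ.rho] with x hx
  rw [hx, N3, Real.sq_sqrt (by positivity)]
  simp only [Finset.univ_unique, Finset.sum_singleton, r3, Fin.sum_univ_three, slot,
    Matrix.cons_val_zero, Matrix.cons_val_one, Matrix.cons_val, id, h2, neg_sq]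
  ring

theorem t_main (h : T_Core) : T_Main := t_main_of_sc (t_sc h)

end

end Vale.Agent.P363
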