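import Vale.Agent.P363.CPh
import Vale.Agent.P363.CSg

/-! P363, block B. -/

open MeasureTheory Set Metric Filter Topology
open scoped RealInnerProductSpace

namespace Vale.Agent.P363

namespace B1Aux

theorem pieces {L t : ℝ} (hL : 0 < L) (ht : 1 ≤ t) :
    (0 ≤ 1 / (t + L) ∧ 1 / (t + L) ≤ 1 / t) ∧ (0 ≤ 1 / (t * √t) ∧ 1 / (t * √t) ≤ 1 / t) ∧
    (0 ≤ L / (t + L) ^ 2 ∧ L / (t + L) ^ 2 ≤ 1 / t / 4) ∧
    (0 ≤ 3 / (2 * t ^ 2 * √t) ∧ 3 / (2 * t ^ 2 * √t) ≤ 3 / 2 * (1 / t) ^ 2) ∧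
    (0 ≤ 2 * L / (t + L) ^ 3 ∧ 2 * L / (t + L) ^ 3 ≤ (1 / t) ^ 2 / 2) := by
  have h0 : 0 < t := by linarith
  have hs : 1 ≤ √t := Real.one_le_sqrt.2 ht
  have h1 : 1 / (t + L) ≤ 1 / t := one_div_le_one_div_of_le h0 (by linarith)
  have h3 : L / (t + L) ^ 2 ≤ 1 / t / 4 := by
    rw [div_div, div_le_div_iff₀ (by positivity) (by positivity)]
    nlinarith [sq_nonneg (t - L)]
  refine ⟨⟨by positivity, h1⟩, ⟨by positivity, one_div_le_one_div_of_le h0 (by nlinarith)⟩,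
    ⟨by positivity, h3⟩, ⟨by positivity, ?_⟩, by positivity, ?_⟩
  · have e : 3 / 2 * (1 / t) ^ 2 = 3 / (2 * t ^ 2) := by field_simp
    rw [e]
    exact div_le_div_of_nonneg_left (by norm_num) (by positivity)
      (le_mul_of_one_le_right (by positivity) hs)
  · have e : 2 * L / (t + L) ^ 3 = 2 * (L / (t + L) ^ 2 * (1 / (t + L))) := by field_simp
    have h4 : L / (t + L) ^ 2 * (1 / (t + L)) ≤ 1 / t / 4 * (1 / t) :=
      mul_le_mul h3 h1 (by positivity) (by positivity)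
    rw [e]
    nlinarith

theorem kinv {k : ℝ} (hk : k ∈ Icc (4 / 5 : ℝ) (6 / 5)) : 0 < 1 / k ∧ 1 / k ≤ 5 / 4 := by
  have h : 0 < k := by linarith [hk.1]
  refine ⟨by positivity, ?_⟩
  rw [div_le_iff₀ h]
  linarith [hk.1]

theorem beta_bd {L k B t : ℝ} (hL : 0 < L) (hk : k ∈ Icc (4 / 5 : ℝ) (6 / 5)) (hB : |B| ≤ 20)
    (ht : 1 ≤ t) : |ph1 L k 1 B t + k + 1 / t| ≤ 55 / 2 * (1 / t) ∧
      |ph2 L k 1 B t - (1 / t) ^ 2| ≤ 85 / 2 * (1 / t) ^ 2 := by
  obtain ⟨⟨v0, v1⟩, ⟨a0, a1⟩, ⟨c0, c1⟩, ⟨b0, b1⟩, d0, d1⟩ := pieces hL ht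
  obtain ⟨k0, k1⟩ := kinv hk
  have u0 : 0 ≤ 1 / t := by positivity
  have e1 : ph1 L k 1 B t + k + 1 / t = 1 / k * (1 / t + 1 / (t + L)) +
      B * (1 / (t * √t) + L / (t + L) ^ 2) := by
    unfold ph1
    ring
  have e2 : ph2 L k 1 B t - (1 / t) ^ 2 = -(1 / k * ((1 / t) ^ 2 + (1 / (t + L)) ^ 2) +
      B * (3 / (2 * t ^ 2 * √t) + 2 * L / (t + L) ^ 3)) := by
    unfold ph2
    rw [one_div_pow, one_div_pow]
    ring
  rw [e1, e2, abs_neg]
  constructor
  · refine (abs_add_le _ _).trans ?_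
    rw [abs_mul, abs_mul, abs_of_pos k0, abs_of_nonneg (add_nonneg u0 v0),
      abs_of_nonneg (add_nonneg a0 c0)]
    have h1 := mul_le_mul k1 (add_le_add_right v1 (1 / t)) (add_nonneg u0 v0) (by norm_num)
    have h2 := mul_le_mul hB (add_le_add a1 c1) (add_nonneg a0 c0) (by norm_num)
    linarith
  · refine (abs_add_le _ _).trans ?_
    rw [abs_mul, abs_mul, abs_of_pos k0, abs_of_nonneg (by positivity : 0 ≤ (1 / t) ^ 2 + _),
      abs_of_nonneg (add_nonneg b0 d0)]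
    have h0 : (1 / (t + L)) ^ 2 ≤ (1 / t) ^ 2 := pow_le_pow_left₀ v0 v1 2
    have h1 := mul_le_mul k1 (add_le_add_right h0 ((1 / t) ^ 2)) (by positivity) (by norm_num)
    have h2 := mul_le_mul hB (add_le_add b1 d1) (add_nonneg b0 d0) (by norm_num)
    linarith

theorem W_eq {L k B t : ℝ} (hL : 0 < L) (hk : k ∈ Icc (4 / 5 : ℝ) (6 / 5)) (hB : |B| ≤ 20)
    (ht : 1 ≤ t) : ∃ E : ℝ, |E| ≤ 400 * (1 / t) ^ 2 ∧
      -(1 / 2) * (ph2 L k 1 B t + ph1 L k 1 B t ^ 2 + 2 * ph1 L k 1 B t / t) + k ^ 2 / 2 =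
        1 / t + 1 / (t + L) + k * B * (1 / (t * √t) + L / (t + L) ^ 2) - E := by
  obtain ⟨h1, h2⟩ := beta_bd hL hk hB ht
  have hk0 : k ≠ 0 := by linarith [hk.1] |> fun h : 0 < k => h.ne'
  refine ⟨((ph1 L k 1 B t + k + 1 / t) ^ 2 + (ph2 L k 1 B t - (1 / t) ^ 2)) / 2, ?_, ?_⟩
  · have h3 : (ph1 L k 1 B t + k + 1 / t) ^ 2 ≤ (55 / 2 * (1 / t)) ^ 2 := by
      rw [← sq_abs]
      exact pow_le_pow_left₀ (abs_nonneg _) h1 2
    have h4 := abs_le.1 h2
    have h5 := sq_nonneg (ph1 L k 1 B t + k + 1 / t)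
    have h6 := sq_nonneg (1 / t)
    rw [abs_le]
    constructor <;> nlinarith [h4.1, h4.2]
  · have e : k * (ph1 L k 1 B t + k + 1 / t) =
        1 / t + 1 / (t + L) + k * B * (1 / (t * √t) + L / (t + L) ^ 2) := by
      unfold ph1
      have : k * (1 / k) = 1 := by field_simp
      linear_combination (1 / t + 1 / (t + L)) * this
    rw [← e]
    ring

theorem ph1_bd {L k B t : ℝ} (hL : 0 < L) (hk : k ∈ Icc (4 / 5 : ℝ) (6 / 5)) (hB : |B| ≤ 20)
    (ht : 100 ≤ t) : ph1 L k 1 B t ≤ -(2 / 5) ∧ |ph1 L k 1 B t| ≤ 2 := by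
  have h1 := abs_le.1 (beta_bd hL hk hB (by linarith : 1 ≤ t)).1
  have h2 : 1 / t ≤ 1 / 100 := one_div_le_one_div_of_le (by norm_num) ht
  have h3 : 0 ≤ 1 / t := by positivity
  rw [abs_le]
  refine ⟨?_, ?_, ?_⟩ <;> linarith [h1.1, h1.2, hk.1, hk.2]

theorem rate {L k B p q : ℝ} (hL : 0 < L) (hk : k ∈ Icc (4 / 5 : ℝ) (6 / 5)) (hB : |B| ≤ 20)
    (hp : 100 ≤ p) (hpq : p ≤ q) :
    fb L k 1 B q ≤ Real.exp (-(2 / 5) * (q - p)) * fb L k 1 B p := by
  have hd : ∀ t ∈ Ici (100 : ℝ), HasDerivAt (ph L k 1 B) (ph1 L k 1 B t) t := fun t ht =>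
    (hasDerivAt_ph k 1 B hL (by linarith [mem_Ici.1 ht])).1
  have h := (convex_Ici (100 : ℝ)).image_sub_le_mul_sub_of_deriv_le (f := ph L k 1 B)
    (fun t ht => (hd t ht).continuousAt.continuousWithinAt)
    (fun t ht => (hd t (interior_subset ht)).differentiableAt.differentiableWithinAt)
    (C := -(2 / 5)) (fun t ht => by
      rw [(hd t (interior_subset ht)).deriv]
      exact (ph1_bd hL hk hB (interior_subset ht)).1) p hp q (hp.trans hpq) hpq
  unfold fb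
  rw [← Real.exp_add]
  exact Real.exp_le_exp.2 (by linarith)

theorem cmp {L k B t : ℝ} (hL : 0 < L) (hB : |B| ≤ 20) (ht : 1 ≤ t) :
    fb L k 1 B t ≤ Real.exp 60 * fb L k 1 0 t ∧ fb L k 1 0 t ≤ Real.exp 60 * fb L k 1 B t := by
  have hs : 1 ≤ √t := Real.one_le_sqrt.2 ht
  have h1 : 2 / √t ≤ 2 := div_le_self (by norm_num) hs
  have h2 : L / (t + L) ≤ 1 := (div_le_one (by linarith)).2 (by linarith)
  have h3 : 0 ≤ 2 / √t + L / (t + L) := by positivity
  have h4 : |B * (2 / √t + L / (t + L))| ≤ 20 * 3 := by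
    rw [abs_mul, abs_of_nonneg h3]
    exact mul_le_mul hB (by linarith) h3 (by norm_num)
  have h5 := abs_le.1 h4
  unfold fb ph
  rw [← Real.exp_add, ← Real.exp_add]
  constructor <;> refine Real.exp_le_exp.2 ?_ <;> linarith [h5.1, h5.2]

theorem cross {L p q F G : ℝ} (hL : 0 < L) (hp : 100 ≤ p) (hpq : p ≤ q) (h1 : q ≤ p + 2 * L)
    (h2 : 2 * L ≤ p + q) (hG : 0 ≤ G) (hF : 0 ≤ F) (h : G ≤ Real.exp (-(2 / 5) * (q - p)) * F) :
    (1 / p - 1 / (q + L)) * G ≤ (1 / (p * √p) + 9 * (L / (p + L) ^ 2)) * F := by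
  have hp0 : 0 < p := by linarith
  have hs : 0 < √p := Real.sqrt_pos.2 hp0
  have hGF : G ≤ F := h.trans (mul_le_of_le_one_left hF
    (Real.exp_le_one_iff.2 (by nlinarith)))
  rcases le_total p (L / 2) with hc | hc
  · have h3 : √p ≤ Real.exp (2 / 5 * (q - p)) := by
      have h4 := Real.add_one_le_exp (2 / 5 * (q - p))
      have h5 : √p ≤ p / 2 := Real.sqrt_le_iff.2 ⟨by linarith, by nlinarith⟩
      linarith
    have h6 : Real.exp (-(2 / 5) * (q - p)) ≤ 1 / √p := by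
      rw [neg_mul, Real.exp_neg, one_div]
      exact inv_anti₀ hs h3
    have h7 : G ≤ 1 / √p * F := h.trans (mul_le_mul_of_nonneg_right h6 hF)
    have h8 : 0 ≤ 1 / (q + L) * G := mul_nonneg (by have : 0 < q + L := by linarith
                                                    positivity) hG
    have h9 : 1 / p * G ≤ 1 / (p * √p) * F := by
      rw [← one_div_mul_one_div, mul_assoc]
      exact mul_le_mul_of_nonneg_left h7 (by positivity)
    have h10 : 0 ≤ 9 * (L / (p + L) ^ 2) * F := by positivity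
    linarith
  · have hq : 0 < q + L := by linarith
    have h3 : 1 / p - 1 / (q + L) ≤ 9 * (L / (p + L) ^ 2) := by
      have e : 1 / p - 1 / (q + L) = (q + L - p) / (p * (q + L)) := by field_simp
      rw [e, ← mul_div_assoc, div_le_div_iff₀ (by positivity) (by positivity)]
      have h4 : (p + L) ^ 2 ≤ 3 * (p * (q + L)) := by nlinarith
      have h5 : (q + L - p) * (p + L) ^ 2 ≤ 3 * L * (3 * (p * (q + L))) :=
        mul_le_mul (by linarith) h4 (by positivity) (by positivity)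
      linarith
    have h4 : 0 ≤ 1 / (p * √p) * F := by positivity
    have h5 := mul_le_mul h3 hGF hG (by positivity)
    linarith

theorem near {L p q : ℝ} (hL : 0 < L) (hp : 100 ≤ p) (hpq : p ≤ q) (h1 : q ≤ p + 2 * L)
    (h2 : 2 * L ≤ p + q) : |1 / (p + L) - 1 / q| ≤ 2 * (L / (p + L) ^ 2) := by
  have hp0 : 0 < p := by linarith
  have hq : 0 < q := by linarith
  have e : 1 / (p + L) - 1 / q = (q - p - L) / ((p + L) * q) := by
    field_simp
    ring
  rw [e, abs_div, abs_of_pos (by positivity : 0 < (p + L) * q), ← mul_div_assoc,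
    div_le_div_iff₀ (by positivity) (by positivity)]
  have h3 : |q - p - L| ≤ L := abs_le.2 ⟨by linarith, by linarith⟩
  have h4 : (p + L) ^ 2 ≤ 2 * ((p + L) * q) := by nlinarith
  have h5 := mul_le_mul h3 h4 (by positivity) hL.le
  linarith

/-- The scalar inequality, `p` is the smaller distance. -/
theorem main {L k s p q : ℝ} (hL : 0 < L) (hk : k ∈ Icc (4 / 5 : ℝ) (6 / 5)) (hs : s = 1 ∨ s = -1)
    (hp : 10000 ≤ p) (hpq : p ≤ q) (h1 : q ≤ p + 2 * L) (h2 : 2 * L ≤ p + q) :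
    3 / p ^ 2 * (fb L k 1 (s * 20) p + fb L k 1 (s * 20) q) ≤
      s * (-(1 / 2) * (fb L k 1 (s * 20) p * (ph2 L k 1 (s * 20) p + ph1 L k 1 (s * 20) p ^ 2 +
          2 * ph1 L k 1 (s * 20) p / p) + fb L k 1 (s * 20) q * (ph2 L k 1 (s * 20) q +
          ph1 L k 1 (s * 20) q ^ 2 + 2 * ph1 L k 1 (s * 20) q / q)) +
        (-(p⁻¹ + q⁻¹) + k ^ 2 / 2) * (fb L k 1 (s * 20) p + fb L k 1 (s * 20) q)) := by
  have hB : |s * 20| ≤ 20 := by rcases hs with rfl | rfl <;> norm_num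
  have hp0 : 0 < p := by linarith
  have hq0 : 0 < q := by linarith
  obtain ⟨E, hE, e1⟩ := W_eq hL hk hB (by linarith : 1 ≤ p)
  obtain ⟨E', hE', e2⟩ := W_eq hL hk hB (by linarith : 1 ≤ q)
  have hF := (fb_pos L k 1 (s * 20) p).le
  have hG := (fb_pos L k 1 (s * 20) q).le
  have hr := rate hL hk hB (by linarith : 100 ≤ p) hpq
  have c1 := cross hL (by linarith) hpq h1 h2 hG hF hr
  have c2 := near hL (by linarith) hpq h1 h2
  generalize fb L k 1 (s * 20) p = F at *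
  generalize fb L k 1 (s * 20) q = G at *
  generalize ph2 L k 1 (s * 20) p + ph1 L k 1 (s * 20) p ^ 2 + 2 * ph1 L k 1 (s * 20) p / p = X at *
  generalize ph2 L k 1 (s * 20) q + ph1 L k 1 (s * 20) q ^ 2 + 2 * ph1 L k 1 (s * 20) q / q = Y at *
  have hGF : G ≤ F := hr.trans (mul_le_of_le_one_left hF (Real.exp_le_one_iff.2 (by nlinarith)))
  have hs2 : s * s = 1 := by rcases hs with rfl | rfl <;> norm_num
  have hs1 : ∀ y : ℝ, -|y| ≤ s * y := fun y => by
    rcases hs with rfl | rfl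
    · linarith [neg_abs_le y]
    · linarith [le_abs_self y]
  have e3 : s * (-(1 / 2) * (F * X + G * Y) + (-(p⁻¹ + q⁻¹) + k ^ 2 / 2) * (F + G)) =
      F * (s * (1 / (p + L) - 1 / q) + 20 * k * (1 / (p * √p) + L / (p + L) ^ 2) + s * -E) +
      G * (s * (1 / (q + L) - 1 / p) + 20 * k * (1 / (q * √q) + L / (q + L) ^ 2) + s * -E') := by
    rw [← one_div p, ← one_div q]
    linear_combination s * F * e1 + s * G * e2 +
      (20 * k * F * (1 / (p * √p) + L / (p + L) ^ 2) +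
        20 * k * G * (1 / (q * √q) + L / (q + L) ^ 2)) * hs2
  have u1 : (1 / q) ^ 2 ≤ (1 / p) ^ 2 :=
    pow_le_pow_left₀ (by positivity) (one_div_le_one_div_of_le hp0 hpq) 2
  have u2 : 100 * (1 / p) ^ 2 ≤ 1 / (p * √p) := by
    have h3 : 100 ≤ √p := Real.le_sqrt_of_sq_le (by linarith)
    have h4 : √p * √p = p := Real.mul_self_sqrt hp0.le
    rw [one_div_pow, ← mul_div_assoc, div_le_div_iff₀ (by positivity) (by positivity)]
    nlinarith [mul_nonneg (mul_nonneg hp0.le (Real.sqrt_nonneg p)) (sub_nonneg.2 h3)]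
  have u3 : |1 / (q + L) - 1 / p| = 1 / p - 1 / (q + L) := by
    rw [abs_sub_comm]
    exact abs_of_nonneg (sub_nonneg.2 (one_div_le_one_div_of_le hp0 (by linarith)))
  have a0 : 0 ≤ 1 / (p * √p) := by positivity
  have a1 : 0 ≤ L / (p + L) ^ 2 := by positivity
  have t1 : 16 * (1 / (p * √p)) + 14 * (L / (p + L) ^ 2) - 400 * (1 / p) ^ 2 ≤
      s * (1 / (p + L) - 1 / q) + 20 * k * (1 / (p * √p) + L / (p + L) ^ 2) + s * -E := by
    have h3 := hs1 (1 / (p + L) - 1 / q)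
    have h4 := hs1 (-E)
    rw [abs_neg] at h4
    have h5 := mul_le_mul_of_nonneg_right hk.1 (add_nonneg a0 a1)
    linarith
  have t2 : -(1 / p - 1 / (q + L)) - 400 * (1 / p) ^ 2 ≤
      s * (1 / (q + L) - 1 / p) + 20 * k * (1 / (q * √q) + L / (q + L) ^ 2) + s * -E' := by
    have h3 := hs1 (1 / (q + L) - 1 / p)
    have h4 := hs1 (-E')
    rw [abs_neg] at h4
    have hk0 : 0 ≤ k := by linarith [hk.1]
    have h5 : 0 ≤ 20 * k * (1 / (q * √q) + L / (q + L) ^ 2) := by positivity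
    linarith
  have t3 := mul_le_mul_of_nonneg_left t1 hF
  have t4 := mul_le_mul_of_nonneg_left t2 hG
  have t5 := mul_le_mul_of_nonneg_left u2 hF
  have t6 := mul_le_mul_of_nonneg_left hGF (sq_nonneg (1 / p))
  have t7 := mul_nonneg hF a1
  have t8 := mul_nonneg hF (sq_nonneg (1 / p))
  have e4 : 3 / p ^ 2 = 3 * (1 / p) ^ 2 := by field_simp
  rw [e3, e4]
  linarith

theorem geo {L : ℝ} (hL : 0 < L) (x : E3) :
    rA L x ≤ rB L x + 2 * L ∧ rB L x ≤ rA L x + 2 * L ∧ 2 * L ≤ rA L x + rB L x := by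
  have hn : ‖nA L + nA L‖ = 2 * L := by
    rw [nA, ← add_smul, norm_smul, norm_e, Real.norm_of_nonneg (by linarith)]
    ring
  unfold rA rB
  refine ⟨?_, ?_, ?_⟩
  · have := norm_sub_le (x + nA L) (nA L + nA L)
    rwa [add_sub_add_right_eq_sub, hn] at this
  · have := norm_add_le (x - nA L) (nA L + nA L)
    rwa [← add_assoc, sub_add_cancel, hn] at this
  · have := norm_sub_le (x + nA L) (x - nA L)
    rw [add_sub_sub_cancel, hn] at this
    linarith

theorem grad {F φ t m y Y : ℝ} (hF : 0 ≤ F) (hφ : |φ| ≤ 2) (hm : 0 < m) (ht : m ≤ t)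
    (hy : |y| ≤ Y) : |F * φ / t * y| ≤ 2 * Y / m * F := by
  have ht0 : 0 < t := by linarith
  rw [abs_mul, abs_div, abs_mul, abs_of_nonneg hF, abs_of_pos ht0]
  have hY : 0 ≤ Y := (abs_nonneg _).trans hy
  calc F * |φ| / t * |y| ≤ F * 2 / m * Y := by gcongr
    _ = _ := by ring

end B1Aux

open B1Aux in
theorem b_even : T_Beven := by
  refine ⟨20, by norm_num, ?_⟩
  filter_upwards [eventually_ge_atTop (10000 : ℝ)] with r0 hr0
  have x1 : 1 ≤ Real.exp 60 := Real.one_le_exp (by norm_num)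
  have x2 : 0 ≤ (r0 + 1) * Real.exp (6 / 5 * (r0 + 1)) := by positivity
  have x3 : 0 ≤ 2 * (r0 + 2) ^ 2 := by positivity
  refine ⟨Real.exp 60 + (r0 + 1) * Real.exp (6 / 5 * (r0 + 1)) + 2 * (r0 + 2) ^ 2, by linarith, ?_⟩
  generalize hC : Real.exp 60 + (r0 + 1) * Real.exp (6 / 5 * (r0 + 1)) + 2 * (r0 + 2) ^ 2 = C
  filter_upwards [eventually_ge_atTop (1 : ℝ)] with L hL1 k hk s hs
  have hL : 0 < L := by linarith
  have hB : |s * 20| ≤ 20 := by rcases hs with rfl | rfl <;> norm_num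
  have c1 := (C2_fb k 1 (s * 20) hL (nA L)).mono (isOpen_D L) fun x hx => hx.1
  have c2 := (C2_fb k 1 (s * 20) hL (-nA L)).mono (isOpen_D L) fun x hx => hx.2
  simp only [sub_neg_eq_add] at c2
  refine ⟨_, _, c1.add c2, fun x hx => ?_⟩
  have ha : r0 < rA L x := hx.1
  have hb : r0 < rB L x := hx.2
  obtain ⟨g1, g2, g3⟩ := geo hL x
  have ea : ‖x - nA L‖ = rA L x := rfl
  have eb : ‖x + nA L‖ = rB L x := rfl
  have hm : 0 < min (rA L x) (rB L x) := lt_min (by linarith) (by linarith)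
  have d1 := cmp (k := k) hL hB (by linarith : 1 ≤ rA L x)
  have d2 := cmp (k := k) hL hB (by linarith : 1 ≤ rB L x)
  have hC1 : Real.exp 60 ≤ C := by linarith
  have one : (1 : ℝ) ∈ Icc (9 / 10 : ℝ) 1 := ⟨by norm_num, le_rfl⟩
  have last : ∀ p q : ℝ, r0 < p → p ≤ q → p ≤ r0 + 1 →
      1 ≤ C * (fb L k 1 0 p + fb L k 1 0 q) ∧ fb L k 1 0 p + fb L k 1 0 q ≤ C := by
    intro p q h1 h2 h3
    obtain ⟨h4, h5⟩ := fb_crude hL1 hk one (by linarith : 1 ≤ p)
    have hF := fb_pos L k 1 0 p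
    have hG := fb_pos L k 1 0 q
    have h6 := (rate hL hk (B := 0) (by norm_num) (by linarith : 100 ≤ p) h2).trans
      (mul_le_of_le_one_left hF.le (Real.exp_le_one_iff.2 (by nlinarith)))
    constructor
    · have h7 : 1 ≤ Real.exp (6 / 5 * (r0 + 1)) * Real.exp (-k * p) := by
        rw [← Real.exp_add]
        exact Real.one_le_exp (by nlinarith [hk.2])
      have h8 := mul_le_mul_of_nonneg_left (h4.trans (mul_le_mul_of_nonneg_right h3 hF.le))
        (Real.exp_pos (6 / 5 * (r0 + 1))).le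
      have h9 : (r0 + 1) * Real.exp (6 / 5 * (r0 + 1)) * fb L k 1 0 p ≤
          C * (fb L k 1 0 p + fb L k 1 0 q) :=
        mul_le_mul (by linarith) (by linarith) hF.le (by linarith)
      linarith
    · have h7 : Real.exp (-k * p) ≤ 1 := Real.exp_le_one_iff.2 (by nlinarith [hk.1])
      have h8 : (1 + p) ^ 2 ≤ (r0 + 2) ^ 2 := pow_le_pow_left₀ (by linarith) (by linarith) 2
      have h9 := mul_le_of_le_one_right (sq_nonneg (1 + p)) h7
      linarith
  simp only [ea, eb]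
  refine ⟨?_, ?_, ?_, ?_, ?_⟩
  · unfold Ye V
    rcases le_total (rA L x) (rB L x) with h | h
    · rw [min_eq_left h]
      exact main hL hk hs (by linarith) h g2 g3
    · rw [min_eq_right h]
      have := main hL hk hs (by linarith : 10000 ≤ rB L x) h g1 (by linarith)
      linarith
  · have := mul_le_mul_of_nonneg_right hC1 (Ye_pos L k 0 x).le
    unfold Ye at *
    linarith [d1.1, d2.1]
  · have := mul_le_mul_of_nonneg_right hC1 (Ye_pos L k (s * 20) x).le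
    unfold Ye at *
    linarith [d1.2, d2.2]
  · have n2 : nA L 2 = L := by simp [nA, e_apply]
    have t1 := grad (y := x 2 - L) (Y := |x 2| + L) (fb_pos L k 1 (s * 20) (rA L x)).le
      (ph1_bd hL hk hB (by linarith : 100 ≤ rA L x)).2 hm (min_le_left _ _)
      ((abs_sub _ _).trans (by rw [abs_of_pos hL]))
    have t2 := grad (y := x 2 + L) (Y := |x 2| + L) (fb_pos L k 1 (s * 20) (rB L x)).le
      (ph1_bd hL hk hB (by linarith : 100 ≤ rB L x)).2 hm (min_le_right _ _)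
      ((abs_add_le _ _).trans (by rw [abs_of_pos hL]))
    simp only [PiLp.add_apply, PiLp.smul_apply, PiLp.sub_apply, smul_eq_mul, n2]
    refine (abs_add_le _ _).trans ((add_le_add t1 t2).trans (le_of_eq ?_))
    unfold Ye
    ring
  · intro h0
    unfold Ye
    rcases le_total (rA L x) (rB L x) with h | h
    · rw [min_eq_left h] at h0
      exact last _ _ ha h h0
    · rw [min_eq_right h] at h0
      rw [add_comm]
      exact last _ _ hb h h0

end Vale.Agent.P363
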