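import Vale.Agent.P363.B2xC

/-! P363, block B. -/

open MeasureTheory Set Metric Filter Topology
open scoped RealInnerProductSpace

namespace Vale.Agent.P363

theorem b2_point {L k c s a b z r P : ℝ} (hL : 1 ≤ L) (hk : k ∈ Icc (4 / 5 : ℝ) (6 / 5))
    (hc : c ∈ Icc (9 / 10 : ℝ) 1) (hs : s = 1 ∨ s = -1) (ha : 2000 ^ 2 ≤ a) (hab : a ≤ b)
    (hLb : L ≤ b) (hb : b ≤ a + 2 * L) (hz : 0 ≤ z) (hw : |z - L| ≤ a)
    (hsq : b ^ 2 - a ^ 2 = 4 * L * z) (hr : 0 ≤ r) (har : a ≤ r + L)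
    (hP : |P - (1 - c) / (a + L)| ≤ 1 / a ^ 2) :
    (100 * Real.exp 15)⁻¹ * (1 + L) ^ (-(5 / 2) : ℝ) * (1 + r) ^ (-(5 / 2) : ℝ) * fb L k c 0 a ≤
      s * (-(1 / 2) * (fb L k c (s * 5) a * (ph2 L k c (s * 5) a + ph1 L k c (s * 5) a ^ 2 +
          2 * ph1 L k c (s * 5) a / a) - fb L k c (s * 5) b * (ph2 L k c (s * 5) b +
          ph1 L k c (s * 5) b ^ 2 + 2 * ph1 L k c (s * 5) b / b) +
          s * (100 * Real.exp 15)⁻¹ * b2l L k c a z) +
        (-(a⁻¹ + b⁻¹) + k ^ 2 / 2 + P) * (fb L k c (s * 5) a - fb L k c (s * 5) b +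
          s * (100 * Real.exp 15)⁻¹ * ((1 - Real.exp (-8 * z)) * Real.exp (b2p L k c a)))) := by
  have hL0 : 0 < L := by linarith
  have ha0 : 0 < a := by linarith
  have hs1 : |s| = 1 := by rcases hs with h | h <;> simp [h]
  have hss : s * s = 1 := by rcases hs with h | h <;> simp [h]
  have hA : |s * 5| ≤ 5 := by
    rw [abs_mul, hs1]
    norm_num
  have m0 := b2_main0 hL0 hk hc hs ha hab hLb hb hP
  have m1 := b2_small hL hk hc hA (show 50 ≤ a by linarith) hab hb hsq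
  have hG : -1 ≤ -(a⁻¹ + b⁻¹) + k ^ 2 / 2 + P := by
    have i1 : a⁻¹ ≤ 4⁻¹ := inv_anti₀ (by norm_num) (by linarith)
    have i2 : b⁻¹ ≤ 4⁻¹ := inv_anti₀ (by norm_num) (by linarith)
    have i3 : 1 / a ^ 2 ≤ 1 / 4 := one_div_le_one_div_of_le (by norm_num) (by nlinarith)
    have i4 : 0 ≤ (1 - c) / (a + L) := div_nonneg (by linarith [hc.2]) (by linarith)
    have i5 : 0 ≤ k ^ 2 / 2 := by positivity
    linarith [(abs_le.1 hP).1]
  have m2 := b2l_bd hL0 hk hc (show 50 ≤ a by linarith) hz hw hG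
  have ht : 0 < (100 * Real.exp 15)⁻¹ := by positivity
  have m3 : (1 + L) ^ (-(5 / 2) : ℝ) * (1 + r) ^ (-(5 / 2) : ℝ) * fb L k c 0 a ≤
      Real.exp (b2p L k c a) := by
    rw [b2p_exp ha0, ← Real.mul_rpow (by linarith) (by linarith)]
    refine mul_le_mul_of_nonneg_right ?_ (fb_pos _ _ _ _ _).le
    exact Real.rpow_le_rpow_of_nonpos (by linarith) (by nlinarith) (by norm_num)
  have m4 := mul_le_mul_of_nonneg_left m2 ht.le
  have m5 := mul_le_mul_of_nonneg_left m3 ht.le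
  unfold b2W at m0
  set t := (100 * Real.exp 15)⁻¹
  set Fa := fb L k c (s * 5) a
  set Fb := fb L k c (s * 5) b
  set Qa := ph2 L k c (s * 5) a + ph1 L k c (s * 5) a ^ 2 + 2 * ph1 L k c (s * 5) a / a
  set Qb := ph2 L k c (s * 5) b + ph1 L k c (s * 5) b ^ 2 + 2 * ph1 L k c (s * 5) b / b
  set R := Real.exp (b2p L k c a)
  set H := (1 - Real.exp (-8 * z)) * R
  set l := b2l L k c a z
  set v := -(a⁻¹ + b⁻¹)
  have e : s * (-(1 / 2) * (Fa * Qa - Fb * Qb + s * t * l) +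
      (v + k ^ 2 / 2 + P) * (Fa - Fb + s * t * H)) =
      s * ((-(1 / 2) * Qa + k ^ 2 / 2 + v + P) * (Fa - Fb) +
        (-(1 / 2) * Qa + k ^ 2 / 2 - (-(1 / 2) * Qb + k ^ 2 / 2)) * Fb) +
      (s * s) * (t * (-(1 / 2) * l + (v + k ^ 2 / 2 + P) * H)) := by ring
  rw [e, hss]
  linarith

theorem b2_cmp2 {L k c s a b z : ℝ} (hL : 1 ≤ L) (hk : k ∈ Icc (4 / 5 : ℝ) (6 / 5))
    (hc : c ∈ Icc (9 / 10 : ℝ) 1) (hs : s = 1 ∨ s = -1) (ha : 50 ≤ a) (hab : a ≤ b)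
    (hb : b ≤ a + 2 * L) (hz : 0 ≤ z) (hsq : b ^ 2 - a ^ 2 = 4 * L * z) :
    0 ≤ fb L k c 0 a - fb L k c 0 b ∧
    fb L k c (s * 5) a - fb L k c (s * 5) b +
      s * (100 * Real.exp 15)⁻¹ * ((1 - Real.exp (-8 * z)) * Real.exp (b2p L k c a)) ≤
      19 * Real.exp 15 * (fb L k c 0 a - fb L k c 0 b) ∧
    fb L k c 0 a - fb L k c 0 b ≤ 19 * Real.exp 15 * (fb L k c (s * 5) a - fb L k c (s * 5) b +
      s * (100 * Real.exp 15)⁻¹ * ((1 - Real.exp (-8 * z)) * Real.exp (b2p L k c a))) := by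
  have hL0 : 0 < L := by linarith
  have hs1 : |s| = 1 := by rcases hs with h | h <;> simp [h]
  have hA : |s * 5| ≤ 5 := by
    rw [abs_mul, hs1]
    norm_num
  have h0 : |(0 : ℝ)| ≤ 5 := by norm_num
  have m1 := b2_small hL hk hc hA ha hab hb hsq
  obtain ⟨f1, f2⟩ := b2_size_fb (k := k) (c := c) hL0.le hA (show 1 ≤ a by linarith)
  have c1 := b2_cmp hL0 hk hc hA h0 ha hab f1
  have c2 := b2_cmp hL0 hk hc h0 hA ha hab f2
  have hd : 0 ≤ b - a := by linarith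
  have n0 : 0 ≤ fb L k c 0 a - fb L k c 0 b :=
    le_trans (mul_nonneg (by linarith) (fb_pos _ _ _ _ _).le) (b2_two hL0 hk hc h0 ha hab).1
  have n1 : 0 ≤ fb L k c (s * 5) a - fb L k c (s * 5) b :=
    le_trans (mul_nonneg (by linarith) (fb_pos _ _ _ _ _).le) (b2_two hL0 hk hc hA ha hab).1
  obtain ⟨v1, -, v3, -⟩ := b2_vars hL0.le (show 1 ≤ a by linarith) le_rfl
  have x1 := mul_le_mul_of_nonneg_right (pow_le_one₀ (n := 3) v1.le v3) n1
  have hH : 0 ≤ (100 * Real.exp 15)⁻¹ * ((1 - Real.exp (-8 * z)) * Real.exp (b2p L k c a)) :=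
    mul_nonneg (by positivity) (mul_nonneg
      (sub_nonneg.2 (Real.exp_le_one_iff.2 (by linarith))) (Real.exp_pos _).le)
  have he := Real.exp_pos 15
  rw [mul_assoc s]
  set H := (100 * Real.exp 15)⁻¹ * ((1 - Real.exp (-8 * z)) * Real.exp (b2p L k c a))
  set U := fb L k c (s * 5) a - fb L k c (s * 5) b
  set O := fb L k c 0 a - fb L k c 0 b
  have j1 : -H ≤ s * H ∧ s * H ≤ H := by
    rcases hs with h | h <;> rw [h] <;> constructor <;> linarith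
  have j2 : 4 / 5 * U ≤ U + s * H := by linarith [j1.1]
  have j3 := mul_le_mul_of_nonneg_left j2 he.le
  have j4 := mul_nonneg he.le n0
  have j5 := mul_nonneg he.le n1
  refine ⟨n0, by linarith [j1.2], by linarith⟩

theorem b2_shell {L k c a b r0 : ℝ} (hL : 1 ≤ L) (hk : k ∈ Icc (4 / 5 : ℝ) (6 / 5))
    (hc : c ∈ Icc (9 / 10 : ℝ) 1) (ha : 50 ≤ a) (hab : a + 5 ≤ b) (hr : a ≤ r0 + 1) :
    1 ≤ 2 * (r0 + 1) * Real.exp (2 * (r0 + 1)) * (fb L k c 0 a - fb L k c 0 b) ∧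
      fb L k c 0 a - fb L k c 0 b ≤ (r0 + 2) ^ 2 := by
  have hL0 : 0 < L := by linarith
  obtain ⟨c1, c2⟩ := fb_crude hL hk hc (show 1 ≤ a by linarith)
  obtain ⟨-, r2, -⟩ := b2_two hL0 hk hc (show |(0 : ℝ)| ≤ 5 by norm_num) ha
    (show a ≤ b by linarith)
  have pa := fb_pos L k c 0 a
  have pb := fb_pos L k c 0 b
  have hka : 0 ≤ k * a := mul_nonneg (by linarith [hk.1]) (by linarith)
  constructor
  · have j1 : Real.exp (-((b - a) / 5)) ≤ 1 / 2 := by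
      rw [Real.exp_neg, one_div]
      exact inv_anti₀ (by norm_num) (by linarith [Real.add_one_le_exp ((b - a) / 5)])
    have j2 : 1 / 2 * fb L k c 0 a ≤ fb L k c 0 a - fb L k c 0 b :=
      le_trans (mul_le_mul_of_nonneg_right (by linarith) pa.le) r2
    have j3 : 1 ≤ Real.exp (2 * (r0 + 1)) * Real.exp (-k * a) := by
      rw [← Real.exp_add]
      exact Real.one_le_exp (by nlinarith [hk.2])
    have j4 : a * fb L k c 0 a ≤ (r0 + 1) * fb L k c 0 a := mul_le_mul_of_nonneg_right hr pa.le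
    have he := Real.exp_pos (2 * (r0 + 1))
    have j5 := mul_le_mul_of_nonneg_left (c1.trans j4) he.le
    have j6 := mul_le_mul_of_nonneg_left j2
      (show 0 ≤ 2 * (r0 + 1) * Real.exp (2 * (r0 + 1)) from
        mul_nonneg (by linarith) he.le)
    linarith
  · have j1 : Real.exp (-k * a) ≤ 1 := Real.exp_le_one_iff.2 (by linarith)
    have j2 := mul_le_mul_of_nonneg_left j1 (sq_nonneg (1 + a))
    have j3 : (1 + a) ^ 2 ≤ (r0 + 2) ^ 2 := pow_le_pow_left₀ (by linarith) (by linarith) 2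
    linarith

theorem b2_geom {L : ℝ} (hL : 0 ≤ L) (x : E3) :
    rB L x ≤ rA L x + 2 * L ∧ 2 * L ≤ rA L x + rB L x ∧ |x 2 - L| ≤ rA L x := by
  have hn : ‖nA L + nA L‖ = 2 * L := by
    rw [← two_smul ℝ, norm_smul, csg_nA_norm hL]
    norm_num
  refine ⟨?_, ?_, ?_⟩
  · have := norm_add_le (x - nA L) (nA L + nA L)
    rwa [hn, show x - nA L + (nA L + nA L) = x + nA L by abel] at this
  · have := norm_sub_le (x + nA L) (x - nA L)
    rw [show x + nA L - (x - nA L) = nA L + nA L by abel, hn] at this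
    unfold rA rB
    linarith
  · have := abs_coord_le (x - nA L) 2
    simpa [nA, e_apply, rA] using this

theorem b_odd : T_Bodd := by
  unfold T_Bodd
  filter_upwards [eventually_ge_atTop ((2000 : ℝ) ^ 2)] with r0 hr0
  have he : 1 ≤ Real.exp 15 := Real.one_le_exp (by norm_num)
  have p1 : 0 ≤ 2 * (r0 + 1) * Real.exp (2 * (r0 + 1)) :=
    mul_nonneg (by linarith) (Real.exp_pos _).le
  have p2 : 0 ≤ (r0 + 2) ^ 2 := sq_nonneg _
  refine ⟨19 * Real.exp 15 + 2 * (r0 + 1) * Real.exp (2 * (r0 + 1)) + (r0 + 2) ^ 2,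
    by linarith, ?_⟩
  filter_upwards [eventually_ge_atTop (r0 + 4)] with L hL
  have hL1 : 1 ≤ L := by linarith
  have hL0 : 0 < L := by linarith
  refine ⟨(100 * Real.exp 15)⁻¹ * (1 + L) ^ (-(5 / 2) : ℝ), by positivity,
    fun k hk c hc s hs => ?_⟩
  obtain ⟨g, hg⟩ := b2R_C2 k c hL0
  have h1 := (C2_fb k c (s * 5) hL0 (nA L)).mono (isOpen_D L) (fun x hx => hx.1)
  have h2 := (C2_fb k c (s * 5) hL0 (-nA L)).mono (isOpen_D L) (fun x hx => hx.2)
  refine ⟨_, _, _, (h1.sub h2).add (hg.cmul (s * (100 * Real.exp 15)⁻¹)), fun x hx hz => ?_⟩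
  have ha : 2000 ^ 2 ≤ rA L x := hr0.trans hx.1.le
  obtain ⟨g1, g2⟩ := rA_le_rB hL0.le hz
  obtain ⟨g3, g4, g5⟩ := b2_geom hL0.le x
  have hsq : rB L x ^ 2 - rA L x ^ 2 = 4 * L * x 2 := by
    rw [rA_sq, rB_sq]
    ring
  have har : rA L x ≤ ‖x‖ + L := by linarith [(abs_le.1 (abs_rA_sub hL0.le x).1).2]
  obtain ⟨c0, c1, c2⟩ := b2_cmp2 hL1 hk hc hs (show 50 ≤ rA L x by linarith) g1 g3 hz hsq
  have eA : ‖x - nA L‖ = rA L x := rfl
  have eB : ‖x - -nA L‖ = rB L x := by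
    rw [sub_neg_eq_add]
    rfl
  simp only [eA, eB]
  unfold Uo b2R V
  refine ⟨fun P hP => b2_point hL1 hk hc hs ha g1 g2 g3 hz g5 hsq (norm_nonneg x) har hP, c0,
    ?_, ?_, fun hsh => ?_⟩
  · have := mul_nonneg (add_nonneg p1 p2) c0
    linarith
  · have j1 := nonneg_of_mul_nonneg_right (c0.trans c2) (by linarith)
    have := mul_nonneg (add_nonneg p1 p2) j1
    linarith
  · obtain ⟨s1, s2⟩ := b2_shell (b := rB L x) hL1 hk hc (show 50 ≤ rA L x by linarith)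
      (by linarith) hsh
    have := mul_nonneg (add_nonneg (show 0 ≤ 19 * Real.exp 15 by linarith) p2) c0
    constructor <;> linarith

end Vale.Agent.P363
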