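import Vale.Agent.P363.CPh
import Vale.Agent.P363.CSg

/-! P363, block B2: polynomial estimates for the radial potential of `fb`. -/

open Set

namespace Vale.Agent.P363

noncomputable section

theorem b2_pow_sub {x y : ℝ} (hy : 0 ≤ y) (h : y ≤ x) (n : ℕ) :
    0 ≤ x ^ (n + 1) - y ^ (n + 1) ∧ x ^ (n + 1) - y ^ (n + 1) ≤ (n + 1) * x ^ n * (x - y) := by
  refine ⟨sub_nonneg.2 (pow_le_pow_left₀ hy h _), ?_⟩
  induction n with
  | zero => simp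
  | succ n ih =>
    have hx : 0 ≤ x := hy.trans h
    have h1 : y ^ (n + 1) ≤ x ^ (n + 1) := pow_le_pow_left₀ hy h _
    have h2 := mul_le_mul_of_nonneg_left ih hx
    have h3 := mul_le_mul_of_nonneg_right h1 (sub_nonneg.2 h)
    push_cast
    have e1 : x ^ (n + 1 + 1) - y ^ (n + 1 + 1) =
        x * (x ^ (n + 1) - y ^ (n + 1)) + y ^ (n + 1) * (x - y) := by ring
    have e2 : ((n : ℝ) + 1 + 1) * x ^ (n + 1) * (x - y) =
        x * (((n : ℝ) + 1) * x ^ n * (x - y)) + x ^ (n + 1) * (x - y) := by ring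
    rw [e1, e2]
    linarith

theorem b2_abs3 {p q A u v w U V W : ℝ} (hp : |p| ≤ 5 / 4) (hq : |q| ≤ 5 / 4) (hA : |A| ≤ 5)
    (hu : 0 ≤ u) (hv : 0 ≤ v) (hw : 0 ≤ w) (hU : u ≤ U) (hV : v ≤ V) (hW : w ≤ W) :
    |p * u + q * v + A * w| ≤ 5 / 4 * U + 5 / 4 * V + 5 * W := by
  have h1 : |p * u| ≤ 5 / 4 * U := by
    rw [abs_mul, abs_of_nonneg hu]
    exact mul_le_mul hp hU hu (by norm_num)
  have h2 : |q * v| ≤ 5 / 4 * V := by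
    rw [abs_mul, abs_of_nonneg hv]
    exact mul_le_mul hq hV hv (by norm_num)
  have h3 : |A * w| ≤ 5 * W := by
    rw [abs_mul, abs_of_nonneg hw]
    exact mul_le_mul hA hW hw (by norm_num)
  linarith [abs_add_three (p * u) (q * v) (A * w)]

def b2b (p q A L x X : ℝ) : ℝ := p * x ^ 2 + q * X + A * (x ^ 3 + L * X ^ 2)

def b2d (p q A L x X : ℝ) : ℝ := p * x ^ 4 + q * X ^ 2 + A * (3 / 2 * x ^ 5 + 2 * (L * X ^ 3))

theorem b2_size {p q A L x X : ℝ} (hp : |p| ≤ 5 / 4) (hq : |q| ≤ 5 / 4) (hA : |A| ≤ 5)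
    (hL : 0 ≤ L) (hx : 0 < x) (hx1 : x ≤ 1) (hX : 0 < X) (hXx : X ≤ x ^ 2) (hLX : L * X ≤ 1) :
    |b2b p q A L x X| ≤ 13 * x ^ 2 ∧ |b2d p q A L x X| ≤ 20 * x ^ 4 := by
  have a3 : x ^ 3 ≤ x ^ 2 := pow_le_pow_of_le_one hx.le hx1 (by norm_num)
  have a5 : x ^ 5 ≤ x ^ 4 := pow_le_pow_of_le_one hx.le hx1 (by norm_num)
  have b1 : L * X ^ 2 ≤ X := by nlinarith
  have b2 : X ^ 2 ≤ x ^ 4 := by nlinarith
  have b3 : L * X ^ 3 ≤ X ^ 2 := by nlinarith [pow_pos hX 2]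
  have p2 : 0 < x ^ 2 := by positivity
  have p4 : 0 < x ^ 4 := by positivity
  constructor
  · have := b2_abs3 (u := x ^ 2) (v := X) (w := x ^ 3 + L * X ^ 2) (U := x ^ 2) (V := x ^ 2)
      (W := 2 * x ^ 2) hp hq hA p2.le hX.le (by positivity) le_rfl hXx (by linarith)
    unfold b2b
    linarith
  · have := b2_abs3 (u := x ^ 4) (v := X ^ 2) (w := 3 / 2 * x ^ 5 + 2 * (L * X ^ 3))
      (U := x ^ 4) (V := x ^ 4) (W := 7 / 2 * x ^ 4) hp hq hA p4.le (by positivity)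
      (by positivity) le_rfl b2 (by linarith)
    unfold b2d
    linarith

theorem b2_lip {p q A L x X y Y d : ℝ} (hp : |p| ≤ 5 / 4) (hq : |q| ≤ 5 / 4) (hA : |A| ≤ 5)
    (hL : 0 ≤ L) (hy : 0 < y) (hyx : y ≤ x) (hx1 : x ≤ 1) (hY : 0 < Y) (hYX : Y ≤ X)
    (hXx : X ≤ x ^ 2) (hLX : L * X ≤ 1) (hd : 0 ≤ d) (h1 : x - y ≤ d * x ^ 3 / 2)
    (h2 : X - Y ≤ d * X ^ 2) :
    |b2b p q A L x X - b2b p q A L y Y| ≤ 20 * (d * x ^ 4) ∧
      |b2d p q A L x X - b2d p q A L y Y| ≤ 54 * (d * x ^ 4) := by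
  have hx : 0 < x := hy.trans_le hyx
  have hX : 0 < X := hY.trans_le hYX
  have hX1 : X ≤ 1 := hXx.trans (pow_le_one₀ hx.le hx1)
  have b2 : X ^ 2 ≤ x ^ 4 := by nlinarith
  have kx : ∀ n : ℕ, 0 ≤ x ^ (n + 2) - y ^ (n + 2) ∧
      x ^ (n + 2) - y ^ (n + 2) ≤ (n + 2) / 2 * (d * x ^ 4) := by
    intro n
    obtain ⟨i1, i2⟩ := b2_pow_sub hy.le hyx (n + 1)
    refine ⟨i1, i2.trans ?_⟩
    push_cast
    have j1 : x ^ (n + 1) ≤ x := by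
      simpa using pow_le_pow_of_le_one hx.le hx1 (show 1 ≤ n + 1 by omega)
    have j2 : x ^ (n + 1) * (x - y) ≤ x * (d * x ^ 3 / 2) :=
      mul_le_mul j1 h1 (sub_nonneg.2 hyx) hx.le
    have j3 : (0 : ℝ) ≤ n + 1 + 1 := by positivity
    have := mul_le_mul_of_nonneg_left j2 j3
    calc ((n : ℝ) + 1 + 1) * x ^ (n + 1) * (x - y)
        = ((n : ℝ) + 1 + 1) * (x ^ (n + 1) * (x - y)) := by ring
      _ ≤ ((n : ℝ) + 1 + 1) * (x * (d * x ^ 3 / 2)) := this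
      _ = _ := by ring
  have hD : d * X ^ 2 ≤ d * x ^ 4 := mul_le_mul_of_nonneg_left b2 hd
  have hXY : 0 ≤ X - Y := sub_nonneg.2 hYX
  have c1 : X - Y ≤ d * x ^ 4 := h2.trans hD
  obtain ⟨s2, t2⟩ := b2_pow_sub hY.le hYX 1
  obtain ⟨s3, t3⟩ := b2_pow_sub hY.le hYX 2
  norm_num at s2 t2 s3 t3
  have c2 : X ^ 2 - Y ^ 2 ≤ 2 * (d * x ^ 4) := by nlinarith
  have c3 : L * (X ^ 2 - Y ^ 2) ≤ 2 * (d * x ^ 4) := by
    have j1 : L * (X ^ 2 - Y ^ 2) ≤ L * (2 * X * (X - Y)) :=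
      mul_le_mul_of_nonneg_left (by linarith) hL
    have j2 : L * X * (X - Y) ≤ 1 * (X - Y) := mul_le_mul_of_nonneg_right hLX hXY
    nlinarith
  have c4 : L * (X ^ 3 - Y ^ 3) ≤ 3 * (d * x ^ 4) := by
    have j1 : L * (X ^ 3 - Y ^ 3) ≤ L * (3 * X ^ 2 * (X - Y)) :=
      mul_le_mul_of_nonneg_left (by linarith) hL
    have j0 : L * X * X ≤ 1 := by nlinarith
    have j2 : L * X * X * (X - Y) ≤ 1 * (X - Y) := mul_le_mul_of_nonneg_right j0 hXY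
    nlinarith
  have n3 : 0 ≤ L * (X ^ 2 - Y ^ 2) := mul_nonneg hL (by linarith)
  have n4 : 0 ≤ L * (X ^ 3 - Y ^ 3) := mul_nonneg hL (by linarith)
  obtain ⟨u2, v2⟩ := kx 0
  obtain ⟨u3, v3⟩ := kx 1
  obtain ⟨u4, v4⟩ := kx 2
  obtain ⟨u5, v5⟩ := kx 3
  norm_num at u2 v2 u3 v3 u4 v4 u5 v5
  have p4 : 0 ≤ d * x ^ 4 := by positivity
  constructor
  · have := b2_abs3 (u := x ^ 2 - y ^ 2) (v := X - Y)
      (w := x ^ 3 - y ^ 3 + L * (X ^ 2 - Y ^ 2)) (U := d * x ^ 4) (V := d * x ^ 4)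
      (W := 7 / 2 * (d * x ^ 4)) hp hq hA (by linarith) hXY (by linarith) (by linarith) c1
      (by linarith)
    have e : b2b p q A L x X - b2b p q A L y Y = p * (x ^ 2 - y ^ 2) + q * (X - Y) +
        A * (x ^ 3 - y ^ 3 + L * (X ^ 2 - Y ^ 2)) := by
      unfold b2b
      ring
    rw [e]
    linarith
  · have := b2_abs3 (u := x ^ 4 - y ^ 4) (v := X ^ 2 - Y ^ 2)
      (w := 3 / 2 * (x ^ 5 - y ^ 5) + 2 * (L * (X ^ 3 - Y ^ 3))) (U := 2 * (d * x ^ 4))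
      (V := 2 * (d * x ^ 4)) (W := 39 / 4 * (d * x ^ 4)) hp hq hA (by linarith) (by linarith)
      (by linarith) (by linarith) c2 (by linarith)
    have e : b2d p q A L x X - b2d p q A L y Y = p * (x ^ 4 - y ^ 4) + q * (X ^ 2 - Y ^ 2) +
        A * (3 / 2 * (x ^ 5 - y ^ 5) + 2 * (L * (X ^ 3 - Y ^ 3))) := by
      unfold b2d
      ring
    rw [e]
    linarith

/-- The radial potential. -/
def b2W (L k c A t : ℝ) : ℝ :=
  -(1 / 2) * (ph2 L k c A t + ph1 L k c A t ^ 2 + 2 * ph1 L k c A t / t) + k ^ 2 / 2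

theorem b2_inv_sqrt {t : ℝ} (ht : 0 < t) : (√t)⁻¹ ^ 2 = t⁻¹ := by
  rw [inv_pow, Real.sq_sqrt ht.le]

theorem b2W_eq {L k c A t : ℝ} (ht : 0 < t) :
    b2W L k c A t = k * b2b (1 / k) (c / k) A L (√t)⁻¹ (t + L)⁻¹ -
      (b2b (1 / k) (c / k) A L (√t)⁻¹ (t + L)⁻¹ ^ 2 -
        b2d (1 / k) (c / k) A L (√t)⁻¹ (t + L)⁻¹) / 2 := by
  have e2 := b2_inv_sqrt ht
  set x := (√t)⁻¹ with hx
  set X := (t + L)⁻¹ with hX
  have e3 : 1 / (t * √t) = x ^ 3 := by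
    rw [one_div, mul_inv, ← e2, ← hx]
    ring
  have e5 : 3 / (2 * t ^ 2 * √t) = 3 / 2 * x ^ 5 := by
    rw [div_eq_mul_inv, mul_inv, mul_inv, ← inv_pow, ← e2, ← hx]
    ring
  have h1 : ph1 L k c A t = -k - x ^ 2 + b2b (1 / k) (c / k) A L x X := by
    unfold ph1 b2b
    rw [e3, div_eq_mul_inv (1 / k - 1) t, ← e2, div_eq_mul_inv (c / k) (t + L),
      div_eq_mul_inv L, ← inv_pow, ← hX]
    ring
  have h2 : ph2 L k c A t = x ^ 4 - b2d (1 / k) (c / k) A L x X := by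
    unfold ph2 b2d
    rw [e5, div_eq_mul_inv (-(1 / k - 1)), ← inv_pow, ← e2, div_eq_mul_inv (c / k) ((t + L) ^ 2),
      div_eq_mul_inv (2 * L), ← inv_pow, ← inv_pow, ← hX]
    ring
  unfold b2W
  rw [div_eq_mul_inv (2 * ph1 L k c A t), ← e2, h1, h2]
  ring

theorem b2_vars {L a b : ℝ} (hL : 0 ≤ L) (ha : 1 ≤ a) (hab : a ≤ b) :
    0 < (√b)⁻¹ ∧ (√b)⁻¹ ≤ (√a)⁻¹ ∧ (√a)⁻¹ ≤ 1 ∧ 0 < (b + L)⁻¹ ∧ (b + L)⁻¹ ≤ (a + L)⁻¹ ∧
      (a + L)⁻¹ ≤ (√a)⁻¹ ^ 2 ∧ L * (a + L)⁻¹ ≤ 1 ∧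
      (√a)⁻¹ - (√b)⁻¹ ≤ (b - a) * (√a)⁻¹ ^ 3 / 2 ∧
      (a + L)⁻¹ - (b + L)⁻¹ ≤ (b - a) * (a + L)⁻¹ ^ 2 := by
  have ha0 : 0 < a := by linarith
  have hu : 0 < √a := Real.sqrt_pos.2 ha0
  have huv : √a ≤ √b := Real.sqrt_le_sqrt hab
  have hv : 0 < √b := hu.trans_le huv
  have hu1 : 1 ≤ √a := Real.one_le_sqrt.2 ha
  have hA : 0 < a + L := by linarith
  have hB : 0 < b + L := by linarith
  have su := Real.sq_sqrt ha0.le
  have sv := Real.sq_sqrt (show 0 ≤ b by linarith)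
  refine ⟨inv_pos.2 hv, inv_anti₀ hu huv, inv_le_one_of_one_le₀ hu1, inv_pos.2 hB,
    inv_anti₀ hA (by linarith), ?_, ?_, ?_, ?_⟩
  · rw [b2_inv_sqrt ha0]
    exact inv_anti₀ ha0 (by linarith)
  · rw [← div_eq_mul_inv, div_le_one hA]
    linarith
  · set u := √a
    set v := √b
    rw [← su, ← sv]
    have e1 : u⁻¹ - v⁻¹ = (v - u) / (u * v) := by field_simp
    have e2 : (v ^ 2 - u ^ 2) * u⁻¹ ^ 3 / 2 = (v - u) * (v + u) / (2 * u ^ 3) := by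
      field_simp
      ring
    rw [e1, e2, div_le_div_iff₀ (by positivity) (by positivity)]
    have h1 : 0 ≤ v - u := by linarith
    have h2 : 2 * u ^ 3 ≤ (v + u) * (u * v) := by nlinarith [mul_pos hu hu, mul_pos hu hv]
    nlinarith
  · have e1 : (a + L)⁻¹ - (b + L)⁻¹ = (b - a) * ((a + L)⁻¹ * (b + L)⁻¹) := by
      field_simp
      ring
    rw [e1, sq]
    exact mul_le_mul_of_nonneg_left (mul_le_mul_of_nonneg_left (inv_anti₀ hA (by linarith))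
      (inv_pos.2 hA).le) (by linarith)

theorem b2_pq {k c : ℝ} (hk : k ∈ Icc (4 / 5 : ℝ) (6 / 5)) (hc : c ∈ Icc (9 / 10 : ℝ) 1) :
    |1 / k| ≤ 5 / 4 ∧ |c / k| ≤ 5 / 4 := by
  obtain ⟨h1, h2⟩ := inv_k_bound hk
  obtain ⟨h3, h4⟩ := c_k_bound hk hc
  exact ⟨abs_le.2 ⟨by linarith, h2⟩, abs_le.2 ⟨by linarith, h4⟩⟩

theorem b2W_lip {L k c A a b : ℝ} (hL : 0 ≤ L) (hk : k ∈ Icc (4 / 5 : ℝ) (6 / 5))
    (hc : c ∈ Icc (9 / 10 : ℝ) 1) (hA : |A| ≤ 5) (ha : 1 ≤ a) (hab : a ≤ b) :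
    |b2W L k c A a - b2W L k c A b| ≤ 311 * ((b - a) * (√a)⁻¹ ^ 4) := by
  obtain ⟨v1, v2, v3, v4, v5, v6, v7, v8, v9⟩ := b2_vars hL ha hab
  obtain ⟨w1, -, w3, w4, -, w6, w7, -, -⟩ := b2_vars hL (ha.trans hab) le_rfl
  obtain ⟨hp, hq⟩ := b2_pq hk hc
  obtain ⟨l1, l2⟩ := b2_lip hp hq hA hL v1 v2 v3 v4 v5 v6 v7 (sub_nonneg.2 hab) v8 v9
  have s1 := (b2_size hp hq hA hL (v1.trans_le v2) v3 (v4.trans_le v5) v6 v7).1
  have s2 := (b2_size hp hq hA hL w1 w3 w4 w6 w7).1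
  rw [b2W_eq (show 0 < a by linarith), b2W_eq (show 0 < b by linarith)]
  set B := b2b (1 / k) (c / k) A L (√a)⁻¹ (a + L)⁻¹
  set B' := b2b (1 / k) (c / k) A L (√b)⁻¹ (b + L)⁻¹
  set E := b2d (1 / k) (c / k) A L (√a)⁻¹ (a + L)⁻¹
  set E' := b2d (1 / k) (c / k) A L (√b)⁻¹ (b + L)⁻¹
  set M := (b - a) * (√a)⁻¹ ^ 4
  have q1 : (√a)⁻¹ ^ 2 ≤ 1 := pow_le_one₀ (v1.trans_le v2).le v3
  have q2 : (√b)⁻¹ ^ 2 ≤ 1 := pow_le_one₀ w1.le w3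
  have hS : |k - (B + B') / 2| ≤ 6 / 5 + 13 := by
    have := abs_le.1 s1
    have := abs_le.1 s2
    refine abs_le.2 ⟨?_, ?_⟩ <;> linarith [hk.1, hk.2]
  have e : k * B - (B ^ 2 - E) / 2 - (k * B' - (B' ^ 2 - E') / 2) =
      (k - (B + B') / 2) * (B - B') + (E - E') / 2 := by ring
  rw [e]
  have h1 : |(k - (B + B') / 2) * (B - B')| ≤ (6 / 5 + 13) * (20 * M) := by
    rw [abs_mul]
    exact mul_le_mul hS l1 (abs_nonneg _) (by norm_num)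
  have h2 : |(E - E') / 2| ≤ 27 * M := by
    rw [abs_div, abs_two]
    linarith
  linarith [abs_add_le ((k - (B + B') / 2) * (B - B')) ((E - E') / 2)]

theorem b2W_low {L k c s a b P : ℝ} (hL : 0 ≤ L) (hk : k ∈ Icc (4 / 5 : ℝ) (6 / 5))
    (hc : c ∈ Icc (9 / 10 : ℝ) 1) (hs : s = 1 ∨ s = -1) (ha : 1 ≤ a) (hab : a ≤ b) (hLb : L ≤ b)
    (hb : b ≤ a + 2 * L) (hP : |P - (1 - c) / (a + L)| ≤ 1 / a ^ 2) :
    2 * (√a)⁻¹ ^ 3 - 96 * (√a)⁻¹ ^ 4 ≤ s * (b2W L k c (s * 5) a + -(a⁻¹ + b⁻¹) + P) := by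
  obtain ⟨v1, -, v3, v4, -, v6, v7, -, -⟩ := b2_vars hL ha le_rfl
  obtain ⟨hp, hq⟩ := b2_pq hk hc
  have hs1 : |s| = 1 := by rcases hs with h | h <;> simp [h]
  have hss : s * s = 1 := by rcases hs with h | h <;> simp [h]
  have hA : |s * 5| ≤ 5 := by
    rw [abs_mul, hs1]
    norm_num
  obtain ⟨s1, s2⟩ := b2_size hp hq hA hL v1 v3 v4 v6 v7
  have ha0 : 0 < a := by linarith
  have hb0 : 0 < b := by linarith
  have hk0 : k ≠ 0 := by linarith [hk.1]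
  have e2 := b2_inv_sqrt ha0
  rw [b2W_eq ha0]
  set x := (√a)⁻¹
  set X := (a + L)⁻¹ with hX
  set B := b2b (1 / k) (c / k) (s * 5) L x X with hB
  set E := b2d (1 / k) (c / k) (s * 5) L x X
  have hkB : k * B = x ^ 2 + c * X + k * (s * 5) * (x ^ 3 + L * X ^ 2) := by
    rw [hB]
    unfold b2b
    field_simp
  have hP' : |P - (1 - c) * X| ≤ x ^ 4 := by
    have : 1 / a ^ 2 = x ^ 4 := by
      rw [one_div, ← inv_pow, ← e2]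
      ring
    rwa [div_eq_mul_inv, this] at hP
  have hG : |X - b⁻¹| ≤ 2 * (L * X ^ 2) := by
    have hA0 : 0 < a + L := by linarith
    have e : X - b⁻¹ = (b - a - L) * X * b⁻¹ := by
      rw [hX]
      field_simp
      ring
    have j1 : |b - a - L| ≤ L := abs_le.2 ⟨by linarith, by linarith⟩
    have j2 : b⁻¹ ≤ 2 * X := by
      rw [hX, ← div_eq_mul_inv, inv_eq_one_div, div_le_div_iff₀ hb0 hA0]
      linarith
    rw [e, abs_mul, abs_mul, abs_of_pos v4, abs_of_pos (inv_pos.2 hb0)]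
    calc |b - a - L| * X * b⁻¹ ≤ L * X * (2 * X) :=
          mul_le_mul (mul_le_mul_of_nonneg_right j1 v4.le) j2 (inv_pos.2 hb0).le
            (mul_nonneg hL v4.le)
      _ = _ := by ring
  have hB2 : B ^ 2 ≤ 169 * x ^ 4 := by
    have := sq_le_sq' (by linarith [(abs_le.1 s1).1]) (abs_le.1 s1).2
    calc B ^ 2 ≤ (13 * x ^ 2) ^ 2 := this
      _ = _ := by ring
  set T := (X - b⁻¹) + (P - (1 - c) * X) - (B ^ 2 - E) / 2 with hT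
  have hTb : |T| ≤ 2 * (L * X ^ 2) + 96 * x ^ 4 := by
    have j1 := abs_le.1 hG
    have j2 := abs_le.1 hP'
    have j3 := abs_le.1 s2
    have j4 := sq_nonneg B
    have j5 : 0 ≤ x ^ 4 := by positivity
    refine abs_le.2 ⟨?_, ?_⟩ <;> linarith [j1.1, j1.2, j2.1, j2.2, j3.1, j3.2]
  have e : s * (k * B - (B ^ 2 - E) / 2 + -(a⁻¹ + b⁻¹) + P) =
      (s * s) * (5 * k * (x ^ 3 + L * X ^ 2)) + s * T := by
    rw [hkB, ← e2, hT]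
    ring
  rw [e, hss, one_mul]
  have j1 : |s * T| ≤ 2 * (L * X ^ 2) + 96 * x ^ 4 := by
    rw [abs_mul, hs1, one_mul]
    exact hTb
  have j2 : 0 ≤ L * X ^ 2 := by positivity
  have j3 : 0 ≤ x ^ 3 := by positivity
  have j4 : 4 * (x ^ 3 + L * X ^ 2) ≤ 5 * k * (x ^ 3 + L * X ^ 2) :=
    mul_le_mul_of_nonneg_right (by linarith [hk.1]) (by linarith)
  linarith [(abs_le.1 j1).1]

end

end Vale.Agent.P363
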