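import Vale.Agent.P363.B2xA

/-! P363, block B2: the uncorrected odd barrier. -/

open Set

namespace Vale.Agent.P363

noncomputable section

def b2g (L t : ℝ) : ℝ := 2 / √t + L / (t + L)

theorem b2_fb_eq (L k c A t : ℝ) :
    fb L k c A t = fb L k c 0 t * Real.exp (-(A * b2g L t)) := by
  unfold fb ph b2g
  rw [← Real.exp_add]
  congr 1
  ring

theorem b2g_bd {L a b : ℝ} (hL : 0 ≤ L) (ha : 1 ≤ a) (hab : a ≤ b) :
    0 ≤ b2g L a ∧ b2g L a ≤ 3 ∧ 0 ≤ b2g L a - b2g L b ∧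
      b2g L a - b2g L b ≤ 2 * ((b - a) * a⁻¹) := by
  obtain ⟨v1, v2, v3, v4, v5, v6, v7, v8, v9⟩ := b2_vars hL ha hab
  have e2 := b2_inv_sqrt (show 0 < a by linarith)
  unfold b2g
  simp only [div_eq_mul_inv] at v8 ⊢
  rw [← e2]
  set x := (√a)⁻¹
  set y := (√b)⁻¹
  set X := (a + L)⁻¹
  set Y := (b + L)⁻¹
  have hx : 0 < x := v1.trans_le v2
  have hX : 0 < X := v4.trans_le v5
  have hd : 0 ≤ b - a := by linarith
  have a3 : x ^ 3 ≤ x ^ 2 := pow_le_pow_of_le_one hx.le v3 (by norm_num)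
  have j1 : (b - a) * x ^ 3 ≤ (b - a) * x ^ 2 := mul_le_mul_of_nonneg_left a3 hd
  have j2 : L * (X - Y) ≤ L * ((b - a) * X ^ 2) := mul_le_mul_of_nonneg_left v9 hL
  have j3 : L * X * X ≤ x ^ 2 := by nlinarith
  have j4 : (b - a) * (L * X * X) ≤ (b - a) * x ^ 2 := mul_le_mul_of_nonneg_left j3 hd
  have j5 : 0 ≤ L * (X - Y) := mul_nonneg hL (by linarith)
  refine ⟨by positivity, by linarith, by linarith, by nlinarith⟩

theorem b2_conc {lam : ℝ} (h0 : 0 ≤ lam) (h1 : lam ≤ 1) (x : ℝ) :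
    lam * (1 - Real.exp (-x)) ≤ 1 - Real.exp (-(lam * x)) := by
  have h := convexOn_exp.2 (mem_univ (-x)) (mem_univ 0) h0 (sub_nonneg.2 h1) (by ring)
  simp only [smul_eq_mul, mul_zero, add_zero, Real.exp_zero, mul_one] at h
  rw [mul_neg] at h
  linarith

theorem b2_rate {L k c A a b : ℝ} (hL : 0 < L) (hk : k ∈ Icc (4 / 5 : ℝ) (6 / 5))
    (hc : c ∈ Icc (9 / 10 : ℝ) 1) (hA : |A| ≤ 5) (ha : 50 ≤ a) (hab : a ≤ b) :
    fb L k c A b ≤ Real.exp (-((b - a) / 5)) * fb L k c A a ∧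
      Real.exp (-(3 * (b - a))) * fb L k c A a ≤ fb L k c A b := by
  obtain ⟨r1, r2⟩ := fb_rate hL hk hc (show 5 ≤ a by linarith) hab
  obtain ⟨-, -, g3, g4⟩ := b2g_bd hL.le (show 1 ≤ a by linarith) hab
  have hd : 0 ≤ b - a := by linarith
  have hi : a⁻¹ ≤ 1 / 50 := by
    rw [one_div]
    exact inv_anti₀ (by norm_num) ha
  have j1 : (b - a) * a⁻¹ ≤ (b - a) * (1 / 50) := mul_le_mul_of_nonneg_left hi hd
  have j2 : |A * (b2g L a - b2g L b)| ≤ (b - a) / 5 := by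
    rw [abs_mul, abs_of_nonneg g3]
    have := mul_le_mul hA g4 g3 (by norm_num)
    linarith
  obtain ⟨j3, j4⟩ := abs_le.1 j2
  unfold fb at r1 r2
  rw [← Real.exp_add, Real.exp_le_exp] at r1 r2
  rw [b2_fb_eq L k c A a, b2_fb_eq L k c A b]
  unfold fb
  simp only [← Real.exp_add, Real.exp_le_exp]
  constructor <;> linarith

theorem b2_size_fb {L k c A a : ℝ} (hL : 0 ≤ L) (hA : |A| ≤ 5) (ha : 1 ≤ a) :
    fb L k c A a ≤ Real.exp 15 * fb L k c 0 a ∧ fb L k c 0 a ≤ Real.exp 15 * fb L k c A a := by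
  obtain ⟨g1, g2, -, -⟩ := b2g_bd hL ha le_rfl
  have j2 : |A * b2g L a| ≤ 15 := by
    rw [abs_mul, abs_of_nonneg g1]
    have := mul_le_mul hA g2 g1 (by norm_num)
    linarith
  obtain ⟨j3, j4⟩ := abs_le.1 j2
  rw [b2_fb_eq L k c A a]
  unfold fb
  simp only [← Real.exp_add, Real.exp_le_exp]
  constructor <;> linarith

theorem b2_two {L k c A a b : ℝ} (hL : 0 < L) (hk : k ∈ Icc (4 / 5 : ℝ) (6 / 5))
    (hc : c ∈ Icc (9 / 10 : ℝ) 1) (hA : |A| ≤ 5) (ha : 50 ≤ a) (hab : a ≤ b) :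
    (b - a) / 5 * fb L k c A b ≤ fb L k c A a - fb L k c A b ∧
      (1 - Real.exp (-((b - a) / 5))) * fb L k c A a ≤ fb L k c A a - fb L k c A b ∧
      fb L k c A a - fb L k c A b ≤ 15 * ((1 - Real.exp (-((b - a) / 5))) * fb L k c A a) := by
  obtain ⟨r1, r2⟩ := b2_rate hL hk hc hA ha hab
  have pa := fb_pos L k c A a
  have pb := fb_pos L k c A b
  refine ⟨?_, by linarith, ?_⟩
  · have j1 := Real.add_one_le_exp ((b - a) / 5)
    have j2 := mul_le_mul_of_nonneg_left r1 (Real.exp_pos ((b - a) / 5)).le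
    rw [← mul_assoc, ← Real.exp_add, add_neg_cancel, Real.exp_zero, one_mul] at j2
    nlinarith
  · have j1 := b2_conc (lam := 1 / 15) (by norm_num) (by norm_num) (3 * (b - a))
    rw [show 1 / 15 * (3 * (b - a)) = (b - a) / 5 by ring] at j1
    nlinarith

theorem b2_cmp {L k c A A' a b : ℝ} (hL : 0 < L) (hk : k ∈ Icc (4 / 5 : ℝ) (6 / 5))
    (hc : c ∈ Icc (9 / 10 : ℝ) 1) (hA : |A| ≤ 5) (hA' : |A'| ≤ 5) (ha : 50 ≤ a) (hab : a ≤ b)
    (h : fb L k c A a ≤ Real.exp 15 * fb L k c A' a) :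
    fb L k c A a - fb L k c A b ≤ 15 * Real.exp 15 * (fb L k c A' a - fb L k c A' b) := by
  obtain ⟨-, -, r1⟩ := b2_two hL hk hc hA ha hab
  obtain ⟨-, r2, -⟩ := b2_two hL hk hc hA' ha hab
  have hE : 0 ≤ 1 - Real.exp (-((b - a) / 5)) :=
    sub_nonneg.2 (Real.exp_le_one_iff.2 (by linarith))
  have j1 := mul_le_mul_of_nonneg_left h hE
  have j2 := mul_le_mul_of_nonneg_left r2 (Real.exp_pos 15).le
  nlinarith

theorem b2_main0 {L k c s a b P : ℝ} (hL : 0 < L) (hk : k ∈ Icc (4 / 5 : ℝ) (6 / 5))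
    (hc : c ∈ Icc (9 / 10 : ℝ) 1) (hs : s = 1 ∨ s = -1) (ha : 2000 ^ 2 ≤ a) (hab : a ≤ b)
    (hLb : L ≤ b) (hb : b ≤ a + 2 * L) (hP : |P - (1 - c) / (a + L)| ≤ 1 / a ^ 2) :
    (√a)⁻¹ ^ 3 * (fb L k c (s * 5) a - fb L k c (s * 5) b) ≤
      s * ((b2W L k c (s * 5) a + -(a⁻¹ + b⁻¹) + P) * (fb L k c (s * 5) a - fb L k c (s * 5) b) +
        (b2W L k c (s * 5) a - b2W L k c (s * 5) b) * fb L k c (s * 5) b) := by
  have hs1 : |s| = 1 := by rcases hs with h | h <;> simp [h]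
  have hA : |s * 5| ≤ 5 := by
    rw [abs_mul, hs1]
    norm_num
  have ha1 : 1 ≤ a := by linarith
  have w1 := b2W_low hL.le hk hc hs ha1 hab hLb hb hP
  have w2 := b2W_lip hL.le hk hc hA ha1 hab
  obtain ⟨r1, -, -⟩ := b2_two hL hk hc hA (show 50 ≤ a by linarith) hab
  have pb := fb_pos L k c (s * 5) b
  have hu : 2000 ≤ √a := Real.le_sqrt_of_sq_le ha
  have hx : 0 < (√a)⁻¹ := inv_pos.2 (by linarith)
  have hx1 : (√a)⁻¹ ≤ 2000⁻¹ := inv_anti₀ (by norm_num) hu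
  set x := (√a)⁻¹
  set U := fb L k c (s * 5) a - fb L k c (s * 5) b
  set F := fb L k c (s * 5) b
  set G := b2W L k c (s * 5) a + -(a⁻¹ + b⁻¹) + P
  set H := b2W L k c (s * 5) a - b2W L k c (s * 5) b
  have hd : 0 ≤ b - a := by linarith
  have hU : 0 ≤ U := le_trans (by positivity) r1
  have j1 : |s * H| ≤ 311 * ((b - a) * x ^ 4) := by
    rw [abs_mul, hs1, one_mul]
    exact w2
  have j2 := mul_le_mul_of_nonneg_right (abs_le.1 j1).1 pb.le
  have j3 := mul_le_mul_of_nonneg_right w1 hU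
  have p4 : 0 ≤ x ^ 4 := by positivity
  have j4 := mul_le_mul_of_nonneg_left r1 p4
  have j5 : 2000 * x ^ 4 ≤ x ^ 3 := by
    have : 2000 * x ≤ 1 := by linarith
    have := mul_le_mul_of_nonneg_right this (show 0 ≤ x ^ 3 by positivity)
    linarith
  have j6 := mul_le_mul_of_nonneg_right j5 hU
  have j7 : 0 ≤ x ^ 4 * U := mul_nonneg p4 hU
  have e : s * (G * U + H * F) = s * G * U + s * H * F := by ring
  rw [e]
  nlinarith

end

end Vale.Agent.P363
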