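import Vale.Agent.P363.B2xB

/-! P363, block B2: the correction near the symmetry plane. -/

open Set
open scoped RealInnerProductSpace

namespace Vale.Agent.P363

noncomputable section

def b2p (L k c t : ℝ) : ℝ := ph L k c 0 t - 5 / 2 * Real.log (1 + t)

def b2p1 (L k c t : ℝ) : ℝ := ph1 L k c 0 t - 5 / 2 / (1 + t)

def b2p2 (L k c t : ℝ) : ℝ := ph2 L k c 0 t + 5 / 2 / (1 + t) ^ 2

theorem b2p_deriv {L s : ℝ} (k c : ℝ) (hL : 0 < L) (hs : 0 < s) :
    HasDerivAt (b2p L k c) (b2p1 L k c s) s ∧ HasDerivAt (b2p1 L k c) (b2p2 L k c s) s := by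
  obtain ⟨h1, h2⟩ := hasDerivAt_ph k c 0 hL hs
  have h0 : (1 + s) ≠ 0 := by linarith
  have d1 : HasDerivAt (fun t : ℝ => 1 + t) 1 s := (hasDerivAt_id s).const_add 1
  constructor
  · refine (h1.sub ((d1.log h0).const_mul (5 / 2))).congr_deriv ?_
    unfold b2p1
    ring
  · refine (h2.sub ((hasDerivAt_const s (5 / 2 : ℝ)).div d1 h0)).congr_deriv ?_
    unfold b2p2
    ring

theorem b2p2_cont {L : ℝ} (k c : ℝ) (hL : 0 < L) : ContinuousOn (b2p2 L k c) (Ioi 0) := by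
  refine (continuousOn_ph2 k c 0 hL).add (continuousOn_const.div (by fun_prop) fun s hs => ?_)
  have : (0 : ℝ) < s := hs
  positivity

/-- The correction. -/
def b2R (L k c : ℝ) (x : E3) : ℝ := (1 - Real.exp (-8 * x 2)) * Real.exp (b2p L k c (rA L x))

/-- Its Laplacian. -/
def b2l (L k c a z : ℝ) : ℝ := Real.exp (b2p L k c a) *
  ((1 - Real.exp (-8 * z)) * (b2p2 L k c a + 2 * b2p1 L k c a / a + b2p1 L k c a ^ 2) +
    16 * Real.exp (-8 * z) * (b2p1 L k c a * ((z - L) / a)) - 64 * Real.exp (-8 * z))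

theorem b2R_C2 {L : ℝ} (k c : ℝ) (hL : 0 < L) :
    ∃ g, C2 (D L) (b2R L k c) g (fun x => b2l L k c (rA L x) (x 2)) := by
  have h1 := ((C2.radial (a := 0) le_rfl (nA L) (fun s hs => b2p_deriv k c hL hs)
    (b2p2_cont k c hL)).exp).mono (isOpen_D L) (fun x hx => (csg_mem_D.1 hx).1)
  have h2 := (C2.coord (isOpen_D L) 2).comp (Γ := fun s => 1 - Real.exp (-8 * s))
    (Γ1 := fun s => 8 * Real.exp (-8 * s)) (Γ2 := fun s => -64 * Real.exp (-8 * s)) isOpen_univ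
    (fun s _ => ?_) (by fun_prop) (fun _ _ => mem_univ _)
  · refine ⟨_, (h2.mul h1).congr (fun _ _ => rfl) (fun _ _ => rfl) (fun x hx => ?_)⟩
    have ha : 0 < ‖x - nA L‖ := (csg_mem_D.1 hx).1
    have e1 : ⟪e 2, x - nA L⟫ = x 2 - L := by
      rw [real_inner_comm, inner_e]
      simp [nA, e_apply]
    simp only [real_inner_smul_left, real_inner_smul_right, e1, norm_e, norm_smul, mul_pow,
      Real.norm_eq_abs, sq_abs]
    unfold b2l rA
    field_simp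
    ring
  · have d : HasDerivAt (fun t : ℝ => Real.exp (-8 * t)) (Real.exp (-8 * s) * (-8 * 1)) s :=
      ((hasDerivAt_id s).const_mul (-8)).exp
    constructor
    · exact (d.const_sub 1).congr_deriv (by ring)
    · exact (d.const_mul 8).congr_deriv (by ring)

theorem b2l_bd {L k c a z G : ℝ} (hL : 0 < L) (hk : k ∈ Icc (4 / 5 : ℝ) (6 / 5))
    (hc : c ∈ Icc (9 / 10 : ℝ) 1) (ha : 50 ≤ a) (hz : 0 ≤ z) (hw : |z - L| ≤ a) (hG : -1 ≤ G) :
    Real.exp (b2p L k c a) - 5 * ((1 - Real.exp (-8 * z)) * Real.exp (b2p L k c a)) ≤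
      -(1 / 2) * b2l L k c a z + G * ((1 - Real.exp (-8 * z)) * Real.exp (b2p L k c a)) := by
  have ha0 : 0 < a := by linarith
  obtain ⟨h1, h2⟩ := ph1_bound hL hk hc ha0
  have i1 : 2 / a ≤ 1 / 25 := by
    rw [div_le_div_iff₀ ha0 (by norm_num)]
    linarith
  have i2 : 5 / 2 / (1 + a) ≤ 1 / 20 := by
    rw [div_le_div_iff₀ (by linarith) (by norm_num)]
    linarith
  have i2' : 0 ≤ 5 / 2 / (1 + a) := by positivity
  have i3 : 2 / a ^ 2 ≤ 1 / 2 := by
    rw [div_le_div_iff₀ (by positivity) (by norm_num)]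
    nlinarith
  have i4 : 5 / 2 / (1 + a) ^ 2 ≤ 1 / 2 := by
    rw [div_le_div_iff₀ (by positivity) (by norm_num)]
    nlinarith
  have q1 : -2 ≤ b2p1 L k c a ∧ b2p1 L k c a ≤ 0 := by
    unfold b2p1
    obtain ⟨j1, j2⟩ := abs_le.1 h1
    constructor <;> linarith [hk.1, hk.2]
  have q2 : b2p2 L k c a ≤ 1 := by
    unfold b2p2
    linarith [(abs_le.1 h2).2]
  have q3 : 2 * b2p1 L k c a / a ≤ 0 := div_nonpos_of_nonpos_of_nonneg (by linarith [q1.2]) ha0.le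
  have q4 : b2p1 L k c a ^ 2 ≤ 4 := by nlinarith [q1.1, q1.2]
  have q5 : b2p1 L k c a * ((z - L) / a) ≤ 2 := by
    have j1 : |(z - L) / a| ≤ 1 := by
      rw [abs_div, abs_of_pos ha0, div_le_one ha0]
      exact hw
    have j2 : |b2p1 L k c a| ≤ 2 := abs_le.2 ⟨q1.1, by linarith [q1.2]⟩
    have j3 := mul_le_mul j2 j1 (abs_nonneg _) (by norm_num)
    rw [← abs_mul] at j3
    linarith [le_abs_self (b2p1 L k c a * ((z - L) / a))]
  have hE : 0 < Real.exp (-8 * z) := Real.exp_pos _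
  have hE1 : Real.exp (-8 * z) ≤ 1 := Real.exp_le_one_iff.2 (by linarith)
  have hR : 0 < Real.exp (b2p L k c a) := Real.exp_pos _
  unfold b2l
  set E := Real.exp (-8 * z)
  set R := Real.exp (b2p L k c a)
  set Q := b2p2 L k c a + 2 * b2p1 L k c a / a + b2p1 L k c a ^ 2
  set T := b2p1 L k c a * ((z - L) / a)
  have hQ : Q ≤ 5 := by linarith
  have j1 : (1 - E) * Q ≤ (1 - E) * 5 := mul_le_mul_of_nonneg_left hQ (by linarith)
  have j2 : E * T ≤ E * 2 := mul_le_mul_of_nonneg_left q5 hE.le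
  have j3 : -1 * (1 - E) ≤ G * (1 - E) := mul_le_mul_of_nonneg_right hG (by linarith)
  have j4 : 1 - 5 * (1 - E) ≤
      -(1 / 2) * ((1 - E) * Q + 16 * E * T - 64 * E) + G * (1 - E) := by nlinarith
  have j5 := mul_le_mul_of_nonneg_left j4 hR.le
  nlinarith

theorem b2p_exp {L k c a : ℝ} (ha : 0 < a) :
    Real.exp (b2p L k c a) = (1 + a) ^ (-(5 / 2) : ℝ) * fb L k c 0 a := by
  unfold b2p fb
  rw [Real.rpow_def_of_pos (by linarith), ← Real.exp_add]
  congr 1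
  ring

theorem b2_rpow {a : ℝ} (ha : 0 < a) : (1 + a) * (1 + a) ^ (-(5 / 2) : ℝ) ≤ (√a)⁻¹ ^ 3 := by
  have h1 : (1 + a) * (1 + a) ^ (-(5 / 2) : ℝ) = (1 + a) ^ (-(3 / 2) : ℝ) := by
    rw [show (-(3 / 2) : ℝ) = 1 + -(5 / 2) by norm_num, Real.rpow_add (by linarith),
      Real.rpow_one]
  have h2 : (√a)⁻¹ ^ 3 = a ^ (-(3 / 2) : ℝ) := by
    rw [Real.sqrt_eq_rpow, ← Real.rpow_neg ha.le, ← Real.rpow_natCast, ← Real.rpow_mul ha.le]
    norm_num
  rw [h1, h2]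
  exact Real.rpow_le_rpow_of_nonpos ha (by linarith) (by norm_num)

/-- The correction is small compared with the uncorrected barrier. -/
theorem b2_small {L k c A a b z : ℝ} (hL : 1 ≤ L) (hk : k ∈ Icc (4 / 5 : ℝ) (6 / 5))
    (hc : c ∈ Icc (9 / 10 : ℝ) 1) (hA : |A| ≤ 5) (ha : 50 ≤ a) (hab : a ≤ b) (hb : b ≤ a + 2 * L)
    (hsq : b ^ 2 - a ^ 2 = 4 * L * z) :
    5 * ((100 * Real.exp 15)⁻¹ * ((1 - Real.exp (-8 * z)) * Real.exp (b2p L k c a))) ≤
      (√a)⁻¹ ^ 3 * (fb L k c A a - fb L k c A b) := by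
  have ha0 : 0 < a := by linarith
  have hd : 0 ≤ b - a := by linarith
  obtain ⟨-, r2, -⟩ := b2_two (show 0 < L by linarith) hk hc hA ha hab
  obtain ⟨-, r3⟩ := b2_size_fb (k := k) (c := c) (show 0 ≤ L by linarith) hA
    (show 1 ≤ a by linarith)
  have h1a : 0 < 1 + a := by linarith
  have j0 : 2 * z ≤ (b - a) * (1 + a) := by
    have k1 : a + b ≤ 2 * L * (1 + a) := by nlinarith
    have k2 := mul_le_mul_of_nonneg_left k1 hd
    have k3 : 2 * L * (2 * z) ≤ 2 * L * ((b - a) * (1 + a)) := by nlinarith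
    exact le_of_mul_le_mul_left k3 (by linarith)
  have l0 : 0 < (20 * (1 + a))⁻¹ := by positivity
  have l1 : (20 * (1 + a))⁻¹ ≤ 1 := inv_le_one_of_one_le₀ (by linarith)
  have j1 := b2_conc l0.le l1 (8 * z)
  have j2 : (20 * (1 + a))⁻¹ * (8 * z) ≤ (b - a) / 5 := by
    rw [inv_mul_le_iff₀ (by positivity)]
    linarith
  have j3 : Real.exp (-((b - a) / 5)) ≤ Real.exp (-((20 * (1 + a))⁻¹ * (8 * z))) :=
    Real.exp_le_exp.2 (by linarith)
  have j4 : 1 - Real.exp (-8 * z) ≤ 20 * (1 + a) * (1 - Real.exp (-((b - a) / 5))) := by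
    rw [← inv_mul_le_iff₀ (by positivity), neg_mul]
    linarith
  have hE : 0 ≤ 1 - Real.exp (-((b - a) / 5)) :=
    sub_nonneg.2 (Real.exp_le_one_iff.2 (by linarith))
  have j5 := b2_rpow ha0
  have hw : 0 < (1 + a) ^ (-(5 / 2) : ℝ) := Real.rpow_pos_of_pos h1a _
  rw [b2p_exp ha0]
  have pa := fb_pos L k c A a
  have p0 := fb_pos L k c 0 a
  have he := Real.exp_pos 15
  set w := (1 + a) ^ (-(5 / 2) : ℝ)
  set E1 := 1 - Real.exp (-((b - a) / 5))
  set h := 1 - Real.exp (-8 * z)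
  set F := fb L k c A a
  set f0 := fb L k c 0 a
  set x3 := (√a)⁻¹ ^ 3
  calc 5 * ((100 * Real.exp 15)⁻¹ * (h * (w * f0)))
      ≤ 5 * ((100 * Real.exp 15)⁻¹ * ((20 * (1 + a) * E1) * (w * (Real.exp 15 * F)))) := by
        gcongr
    _ = ((1 + a) * w) * (E1 * F) := by
        field_simp
        ring
    _ ≤ _ := mul_le_mul j5 r2 (by positivity) ((by positivity : 0 ≤ (1 + a) * w).trans j5)

end

end Vale.Agent.P363
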