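import Vale.Agent.P363.CPh
import Vale.Agent.P363.CSg

/-! P363, block B. -/

open MeasureTheory Set Metric Filter Topology
open scoped RealInnerProductSpace

namespace Vale.Agent.P363

theorem b3_up {L k c a r : ℝ} (hL : 0 < L) (hk : k ∈ Icc (4 / 5 : ℝ) (6 / 5))
    (hc : c ∈ Icc (9 / 10 : ℝ) 1) (ha : 5 ≤ a) (hr : 5 ≤ r) (har : a ≤ r + 1) :
    fb L k c 0 r ≤ Real.exp 2 * Real.exp (-(2 / 5) * (r - a)) * fb L k c 0 a := by
  have hp := fb_pos L k c 0 a
  rcases le_total a r with h | h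
  · refine (fb_rate hL hk hc ha h).1.trans ?_
    refine mul_le_mul_of_nonneg_right ?_ hp.le
    rw [← Real.exp_add, Real.exp_le_exp]
    linarith
  · refine (fb_rate hL hk hc hr h).2.trans ?_
    refine mul_le_mul_of_nonneg_right ?_ hp.le
    rw [← Real.exp_add, Real.exp_le_exp]
    linarith

theorem b3_up' {L k c a r : ℝ} (hL : 0 < L) (hk : k ∈ Icc (4 / 5 : ℝ) (6 / 5))
    (hc : c ∈ Icc (9 / 10 : ℝ) 1) (ha : 5 ≤ a) (hr : 5 ≤ r) (har : a ≤ r + 1) :
    fb L k c 0 r ≤ Real.exp 2 * fb L k c 0 a := by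
  have hp := fb_pos L k c 0 a
  rcases le_total a r with h | h
  · refine (fb_rate hL hk hc ha h).1.trans ?_
    refine mul_le_mul_of_nonneg_right ?_ hp.le
    rw [Real.exp_le_exp]
    linarith
  · refine (fb_rate hL hk hc hr h).2.trans ?_
    refine mul_le_mul_of_nonneg_right ?_ hp.le
    rw [Real.exp_le_exp]
    linarith

theorem b3_dn {L k c a r w : ℝ} (hL : 0 < L) (hk : k ∈ Icc (4 / 5 : ℝ) (6 / 5))
    (hc : c ∈ Icc (9 / 10 : ℝ) 1) (ha : 5 ≤ a) (hr : 5 ≤ r) (hw : 0 ≤ w) (har : r - a ≤ 2 * w) :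
    fb L k c 0 a ≤ Real.exp (4 * w) * fb L k c 0 r := by
  have hp := fb_pos L k c 0 r
  rcases le_total a r with h | h
  · refine (fb_rate hL hk hc ha h).2.trans ?_
    refine mul_le_mul_of_nonneg_right ?_ hp.le
    rw [Real.exp_le_exp]
    linarith
  · refine (fb_rate hL hk hc hr h).1.trans ?_
    refine mul_le_mul_of_nonneg_right ?_ hp.le
    rw [Real.exp_le_exp]
    linarith

/-- Geometry of one distance. -/
theorem b3_geo {L a r y : ℝ} (hL : 1 ≤ L) (hr : L ^ 2 + L + 5 ≤ r) (hd : |a - r| ≤ L)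
    (ha : a ^ 2 = r ^ 2 - 2 * y + L ^ 2) :
    5 ≤ a ∧ r - a ≤ 2 * (|y| / r) ∧ (0 ≤ y → a ≤ r + 1 ∧ 2 / 3 * (y / r) - 1 ≤ r - a) := by
  obtain ⟨d1, d2⟩ := abs_le.1 hd
  have hL2 : 0 ≤ L ^ 2 := sq_nonneg L
  have hr0 : 0 < r := by linarith
  have ha5 : 5 ≤ a := by linarith
  have hy := le_abs_self y
  have hy0 := abs_nonneg y
  refine ⟨ha5, ?_, fun h0 => ⟨?_, ?_⟩⟩
  · rw [← mul_div_assoc, le_div_iff₀ hr0]
    rcases le_total a r with h | h
    · nlinarith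
    · nlinarith
  · apply abs_le_of_sq_le_sq' _ (by linarith) |>.2
    nlinarith
  · have h1 : a ≤ r + 1 := by
      apply abs_le_of_sq_le_sq' _ (by linarith) |>.2
      nlinarith
    have key : 2 / 3 * y ≤ (r - a + 1) * r := by
      have e1 : (r - a) * (r + a) = 2 * y - L ^ 2 := by nlinarith
      have e2 : (r - a + 1) * (r + a) ≤ (r - a + 1) * (3 * r) :=
        mul_le_mul_of_nonneg_left (by nlinarith) (by linarith)
      nlinarith
    have : 2 / 3 * (y / r) ≤ r - a + 1 := by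
      rw [← mul_div_assoc, div_le_iff₀ hr0]
      exact key
    linarith

/-- Geometry of the two distances. -/
theorem b3_geo2 {L a b r y : ℝ} (hL : 1 ≤ L) (hr : L ^ 2 + L + 5 ≤ r) (hd : |a - r| ≤ L)
    (hd' : |b - r| ≤ L) (ha : a ^ 2 = r ^ 2 - 2 * y + L ^ 2) (hb : b ^ 2 = r ^ 2 + 2 * y + L ^ 2)
    (hy : 0 ≤ y) : y / r ≤ b - a ∧ b - a ≤ 4 * (y / r) := by
  obtain ⟨d1, d2⟩ := abs_le.1 hd
  obtain ⟨d3, d4⟩ := abs_le.1 hd'
  have hL2 : L ≤ L ^ 2 := by nlinarith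
  have hr0 : 0 < r := by linarith
  have hab : a ≤ b := by
    apply abs_le_of_sq_le_sq' _ (by linarith) |>.2
    nlinarith
  have e1 : (b - a) * (a + b) = 4 * y := by nlinarith
  constructor
  · rw [div_le_iff₀ hr0]
    have : (b - a) * (a + b) ≤ (b - a) * (4 * r) :=
      mul_le_mul_of_nonneg_left (by linarith) (by linarith)
    nlinarith
  · rw [← mul_div_assoc, le_div_iff₀ hr0]
    have : (b - a) * r ≤ (b - a) * (a + b) :=
      mul_le_mul_of_nonneg_left (by linarith) (by linarith)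
    linarith

theorem b3_exp {w : ℝ} (hw : 0 ≤ w) :
    w * Real.exp (-(4 / 15) * w) ≤ 4 * (1 - Real.exp (-(2 / 5) * w)) := by
  have h1 : Real.exp (-(4 / 15) * w) * (1 + 4 / 15 * w) ≤ 1 := by
    have := Real.add_one_le_exp (4 / 15 * w)
    have e : Real.exp (-(4 / 15) * w) * Real.exp (4 / 15 * w) = 1 := by
      rw [← Real.exp_add]; simp
    nlinarith [Real.exp_pos (-(4 / 15) * w)]
  have h2 : Real.exp (-(2 / 5) * w) * (1 + 2 / 5 * w) ≤ 1 := by
    have := Real.add_one_le_exp (2 / 5 * w)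
    have e : Real.exp (-(2 / 5) * w) * Real.exp (2 / 5 * w) = 1 := by
      rw [← Real.exp_add]; simp
    nlinarith [Real.exp_pos (-(2 / 5) * w)]
  have p1 : 0 < 1 + 4 / 15 * w := by positivity
  have p2 : 0 < 1 + 2 / 5 * w := by positivity
  have h1' : Real.exp (-(4 / 15) * w) ≤ 1 / (1 + 4 / 15 * w) := by
    rw [le_div_iff₀ p1]; exact h1
  have h2' : Real.exp (-(2 / 5) * w) ≤ 1 / (1 + 2 / 5 * w) := by
    rw [le_div_iff₀ p2]; exact h2
  have h3 : w * (1 / (1 + 4 / 15 * w)) ≤ 4 * (1 - 1 / (1 + 2 / 5 * w)) := by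
    have e : 4 * (1 - 1 / (1 + 2 / 5 * w)) = (8 / 5 * w) / (1 + 2 / 5 * w) := by
      field_simp; ring
    rw [e, mul_one_div, div_le_div_iff₀ p1 p2]
    nlinarith [mul_nonneg hw hw]
  have := mul_le_mul_of_nonneg_left h1' hw
  linarith

theorem b3_odd {L k c a b r w : ℝ} (hL : 0 < L) (hk : k ∈ Icc (4 / 5 : ℝ) (6 / 5))
    (hc : c ∈ Icc (9 / 10 : ℝ) 1) (ha : 5 ≤ a) (hr : 5 ≤ r) (hw : 0 ≤ w) (har : a ≤ r + 1)
    (h1 : r - a ≤ 2 * w) (h2 : 2 / 3 * w - 1 ≤ r - a) (h3 : w ≤ b - a) (h4 : b - a ≤ 4 * w) :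
    w * fb L k c 0 r ≤ 8 * Real.exp 3 * (fb L k c 0 a - fb L k c 0 b) ∧
      fb L k c 0 a - fb L k c 0 b ≤ 8 * Real.exp 3 * (w * fb L k c 0 r * Real.exp (4 * w)) := by
  have pa := fb_pos L k c 0 a
  have pb := fb_pos L k c 0 b
  have pr := fb_pos L k c 0 r
  have hab : a ≤ b := by linarith
  have r1 := fb_rate hL hk hc ha hab
  have e3 : 1 ≤ Real.exp 3 := Real.one_le_exp (by norm_num)
  constructor
  · have u := b3_up hL hk hc ha hr har
    have u2 : Real.exp 2 * Real.exp (-(2 / 5) * (r - a)) ≤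
        Real.exp 3 * Real.exp (-(4 / 15) * w) := by
      rw [← Real.exp_add, ← Real.exp_add, Real.exp_le_exp]
      linarith
    have u3 : fb L k c 0 r ≤ Real.exp 3 * Real.exp (-(4 / 15) * w) * fb L k c 0 a :=
      u.trans (mul_le_mul_of_nonneg_right u2 pa.le)
    have u4 : fb L k c 0 b ≤ Real.exp (-(2 / 5) * w) * fb L k c 0 a := by
      refine r1.1.trans (mul_le_mul_of_nonneg_right ?_ pa.le)
      rw [Real.exp_le_exp]
      linarith
    have u5 := b3_exp hw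
    have u6 : 0 ≤ 1 - Real.exp (-(2 / 5) * w) := by
      have : Real.exp (-(2 / 5) * w) ≤ 1 := Real.exp_le_one_iff.2 (by linarith)
      linarith
    calc w * fb L k c 0 r ≤ w * (Real.exp 3 * Real.exp (-(4 / 15) * w) * fb L k c 0 a) :=
          mul_le_mul_of_nonneg_left u3 hw
      _ = Real.exp 3 * fb L k c 0 a * (w * Real.exp (-(4 / 15) * w)) := by ring
      _ ≤ Real.exp 3 * fb L k c 0 a * (8 * (1 - Real.exp (-(2 / 5) * w))) :=
          mul_le_mul_of_nonneg_left (by linarith) (by positivity)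
      _ = 8 * Real.exp 3 * (fb L k c 0 a - Real.exp (-(2 / 5) * w) * fb L k c 0 a) := by ring
      _ ≤ 8 * Real.exp 3 * (fb L k c 0 a - fb L k c 0 b) :=
          mul_le_mul_of_nonneg_left (by linarith) (by positivity)
  · have d := b3_dn hL hk hc ha hr hw h1
    have v1 : Real.exp (-(2 * (b - a))) * fb L k c 0 a ≤ fb L k c 0 b := by
      have := mul_le_mul_of_nonneg_left r1.2 (Real.exp_pos (-(2 * (b - a)))).le
      rwa [← mul_assoc, ← Real.exp_add, neg_add_cancel, Real.exp_zero, one_mul] at this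
    have v2 : 1 - 8 * w ≤ Real.exp (-(2 * (b - a))) := by
      have := Real.add_one_le_exp (-(2 * (b - a)))
      linarith
    have v3 : fb L k c 0 a - fb L k c 0 b ≤ 8 * w * fb L k c 0 a := by
      have := mul_le_mul_of_nonneg_right v2 pa.le
      nlinarith
    have v4 : 0 ≤ w * fb L k c 0 r * Real.exp (4 * w) := by positivity
    calc fb L k c 0 a - fb L k c 0 b ≤ 8 * w * fb L k c 0 a := v3
      _ ≤ 8 * w * (Real.exp (4 * w) * fb L k c 0 r) :=
          mul_le_mul_of_nonneg_left d (by positivity)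
      _ = 8 * (w * fb L k c 0 r * Real.exp (4 * w)) := by ring
      _ ≤ 8 * Real.exp 3 * (w * fb L k c 0 r * Real.exp (4 * w)) :=
          mul_le_mul_of_nonneg_right (by linarith) v4

theorem b_far : T_Bfar := by
  have e3 : 1 ≤ Real.exp 3 := Real.one_le_exp (by norm_num)
  have e23 : Real.exp 2 ≤ Real.exp 3 := Real.exp_le_exp.2 (by norm_num)
  refine ⟨8 * Real.exp 3, by linarith, fun L hL => ?_⟩
  filter_upwards [eventually_ge_atTop (L ^ 2 + L + 5)] with ρ hρ k hk c hc x hx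
  have hL0 : 0 < L := by linarith
  have hr : L ^ 2 + L + 5 ≤ ‖x‖ := hρ.trans hx
  have hr5 : 5 ≤ ‖x‖ := by nlinarith [sq_nonneg L]
  have hr0 : 0 < ‖x‖ := by linarith
  obtain ⟨dA, dB⟩ := abs_rA_sub hL0.le x
  have qA : rA L x ^ 2 = ‖x‖ ^ 2 - 2 * (L * x 2) + L ^ 2 := by rw [rA_sq]; ring
  have qB : rB L x ^ 2 = ‖x‖ ^ 2 + 2 * (L * x 2) + L ^ 2 := by rw [rB_sq]; ring
  have qB' : rB L x ^ 2 = ‖x‖ ^ 2 - 2 * (-(L * x 2)) + L ^ 2 := by rw [qB]; ring
  obtain ⟨a5, a1, a2⟩ := b3_geo hL hr dA qA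
  obtain ⟨b5, b1, b2⟩ := b3_geo hL hr dB qB'
  have h1 : (1 : ℝ) ∈ Icc (9 / 10 : ℝ) 1 := ⟨by norm_num, le_rfl⟩
  have hab : |L * x 2| = L * |x 2| := by rw [abs_mul, abs_of_pos hL0]
  rw [abs_neg] at b1
  refine ⟨fun hz => ?_, ?_, ?_⟩
  · have hy : 0 ≤ L * x 2 := mul_nonneg hL0.le hz
    obtain ⟨g1, g2⟩ := b3_geo2 hL hr dA dB qA qB hy
    obtain ⟨a3, a4⟩ := a2 hy
    rw [abs_of_nonneg hy] at a1
    have hw : 0 ≤ L * x 2 / ‖x‖ := by positivity
    obtain ⟨o1, o2⟩ := b3_odd hL0 hk hc a5 hr5 hw a3 a1 a4 g1 g2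
    have e : 4 * L * x 2 / ‖x‖ = 4 * (L * x 2 / ‖x‖) := by ring
    refine ⟨o1, ?_, ?_⟩
    · rw [e]; exact o2
    · refine (b3_up' hL0 hk hc a5 hr5 a3).trans ?_
      exact mul_le_mul_of_nonneg_right (by linarith) (fb_pos _ _ _ _ _).le
  · have pa := fb_pos L k 1 0 (rA L x)
    have pb := fb_pos L k 1 0 (rB L x)
    unfold Ye
    rcases le_total 0 (L * x 2) with hy | hy
    · refine (b3_up' hL0 hk h1 a5 hr5 (a2 hy).1).trans ?_
      exact mul_le_mul (by linarith) (by linarith) pa.le (by linarith)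
    · refine (b3_up' hL0 hk h1 b5 hr5 (b2 (by linarith)).1).trans ?_
      exact mul_le_mul (by linarith) (by linarith) pb.le (by linarith)
  · have hw : 0 ≤ |L * x 2| / ‖x‖ := by positivity
    have d1 := b3_dn hL0 hk h1 a5 hr5 hw a1
    have d2 := b3_dn hL0 hk h1 b5 hr5 hw b1
    have e : 4 * L * |x 2| / ‖x‖ = 4 * (|L * x 2| / ‖x‖) := by rw [hab]; ring
    rw [e]
    unfold Ye
    have p : 0 ≤ fb L k 1 0 ‖x‖ * Real.exp (4 * (|L * x 2| / ‖x‖)) :=
      (mul_pos (fb_pos _ _ _ _ _) (Real.exp_pos _)).le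
    nlinarith

end Vale.Agent.P363
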