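import Vale.Agent.P363.CPh
import Vale.Agent.P363.CSg

/-! P363, block B. -/

open MeasureTheory Set Metric Filter Topology
open scoped RealInnerProductSpace

namespace Vale.Agent.P363

theorem b4_lo {r L s : ℝ} (hr : 0 < r) (hL : 0 ≤ L) (hs : 0 < s) (h : s ≤ r + L) :
    1 / r - L * (1 / r) ^ 2 ≤ 1 / s := by
  refine le_trans ?_ (one_div_le_one_div_of_le hs h)
  rw [le_div_iff₀ (by linarith), ← sub_nonneg]
  have : 1 - (1 / r - L * (1 / r) ^ 2) * (r + L) = (L / r) ^ 2 := by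
    field_simp
    ring
  rw [this]
  positivity

theorem b4_hi {r L s : ℝ} (hr : 0 < r) (hL : 0 ≤ L) (h2 : 2 * L ≤ r) (h : r - L ≤ s) :
    s⁻¹ ≤ 1 / r + 2 * L * (1 / r) ^ 2 := by
  have h0 : 0 < r - L := by linarith
  refine (inv_anti₀ h0 h).trans ?_
  rw [inv_eq_one_div, div_le_iff₀ h0, ← sub_nonneg]
  have : (1 / r + 2 * L * (1 / r) ^ 2) * (r - L) - 1 = L * (r - 2 * L) / r ^ 2 := by
    field_simp
    ring
  rw [this]
  exact div_nonneg (mul_nonneg hL (by linarith)) (sq_nonneg r)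

theorem b4_alg {L k c κ i j a b p A B M N : ℝ} (hL : 1 ≤ L) (k1 : 4 / 5 ≤ k) (c1 : 9 / 10 ≤ c)
    (c2 : c ≤ 1) (hk : k * κ = 1) (b3 : κ ≤ 5 / 4) (b4 : 5 / 6 ≤ κ) (i0 : 0 < i) (b2 : 0 < j)
    (b1 : j ≤ i) (a1 : A ≤ i + 2 * L * i ^ 2) (a2 : B ≤ i + 2 * L * i ^ 2) (a3 : i - L * i ^ 2 ≤ j)
    (a4 : i - 2 * L * i ^ 2 ≤ M) (a5 : N ≤ 4 * i ^ 2) (a6 : 24 * L * i ^ 2 ≤ a) (a7 : a ≤ i)
    (a8 : b ≤ 1 / 4 * i) (a9 : 0 ≤ b) (b5 : p ≤ 1 / 6 * i ^ 2) {u : ℝ}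
    (hu : u = (κ - 1) * i + c * κ * j + (a + b)) :
    0 ≤ -(1 / 2) * (p + (u - k) ^ 2 + 2 * (u - k) * i) +
      (-(A + B) + k ^ 2 / 2 + (1 - c) * M - N) := by
  have d2 : k * u = (1 - k) * i + c * j + k * (a + b) := by
    rw [hu]
    linear_combination (i + c * j) * hk
  have d3 : c * κ ≤ 5 / 4 := by nlinarith
  have d4 : 0 ≤ c * κ * j := mul_nonneg (mul_nonneg (by linarith) (by linarith)) b2.le
  have f0 : 0 ≤ L * i ^ 2 := mul_nonneg (by linarith) (sq_nonneg i)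
  have g1 := mul_le_mul_of_nonneg_right b3 i0.le
  have g2 := mul_le_mul_of_nonneg_right b4 i0.le
  have g3 := mul_le_mul_of_nonneg_right d3 b2.le
  have d8 : u ^ 2 ≤ (3 * i) ^ 2 := sq_le_sq' (by linarith) (by linarith)
  have d9 := mul_le_mul_of_nonneg_right (by linarith : u ≤ 3 * i) i0.le
  have f1 := mul_le_mul_of_nonneg_left a3 (by linarith : 0 ≤ c)
  have f2 := mul_le_mul_of_nonneg_left a4 (by linarith : 0 ≤ 1 - c)
  have f3 := mul_le_mul_of_nonneg_right k1 (by linarith : 0 ≤ a + b)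
  have f4 := mul_le_mul_of_nonneg_right hL (sq_nonneg i)
  have f5 := mul_le_mul_of_nonneg_right c1 f0
  linarith

theorem b4_main {L k c r A B : ℝ} (hL : 1 ≤ L) (hk : k ∈ Icc (4 / 5 : ℝ) (6 / 5))
    (hc : c ∈ Icc (9 / 10 : ℝ) 1) (hr : (24 * L) ^ 2 ≤ r) (hA : |A - r| ≤ L) (hB : |B - r| ≤ L) :
    0 ≤ -(1 / 2) * (ph2 L k c 1 r + ph1 L k c 1 r ^ 2 + 2 * ph1 L k c 1 r / r) +
      (-(A⁻¹ + B⁻¹) + k ^ 2 / 2 + (1 - c) / (min A B + L) - 1 / min A B ^ 2) := by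
  obtain ⟨k1, k2⟩ := hk
  obtain ⟨c1, c2⟩ := hc
  rw [abs_le] at hA hB
  have r1 : 2 * L ≤ r := by nlinarith
  have r0 : 0 < r := by linarith
  have k0 : 0 < k := by linarith
  have s1 : 24 * L ≤ √r := Real.le_sqrt_of_sq_le hr
  have s0 : 0 < √r := by linarith
  have s2 : √r * √r = r := Real.mul_self_sqrt r0.le
  have i0 : 0 < 1 / r := by positivity
  have m1 : r / 2 ≤ min A B := le_min (by linarith) (by linarith)
  have a1 := b4_hi r0 (by linarith) r1 (by linarith : r - L ≤ A)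
  have a2 := b4_hi r0 (by linarith) r1 (by linarith : r - L ≤ B)
  have a3 := b4_lo r0 (by linarith : 0 ≤ L) (by linarith : 0 < r + L) le_rfl
  have a4 := b4_lo r0 (by linarith : 0 ≤ 2 * L) (by linarith : 0 < min A B + L)
    (by linarith [min_le_left A B])
  have a5 : 1 / min A B ^ 2 ≤ 4 * (1 / r) ^ 2 := by
    refine (one_div_le_one_div_of_le (by positivity) (pow_le_pow_left₀ (by positivity) m1 2)).trans
      (le_of_eq ?_)
    field_simp
    norm_num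
  have a6 : 24 * L * (1 / r) ^ 2 ≤ 1 / (r * √r) := by
    refine (mul_le_mul_of_nonneg_right s1 (sq_nonneg _)).trans (le_of_eq ?_)
    field_simp
    nlinarith
  have a7 : 1 / (r * √r) ≤ 1 / r := one_div_le_one_div_of_le r0 (by nlinarith)
  have a8 : L / (r + L) ^ 2 ≤ 1 / 4 * (1 / r) := by
    rw [one_div_mul_one_div, div_le_div_iff₀ (by positivity) (by positivity)]
    nlinarith [sq_nonneg (r - L)]
  have a9 : 0 ≤ L / (r + L) ^ 2 := by positivity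
  have b1 : 1 / (r + L) ≤ 1 / r := one_div_le_one_div_of_le r0 (by linarith)
  have b2 : 0 < 1 / (r + L) := by positivity
  have b3 : 1 / k ≤ 5 / 4 := by rw [div_le_iff₀ k0]; linarith
  have b4 : 5 / 6 ≤ 1 / k := by rw [le_div_iff₀ k0]; linarith
  have b5 : ph2 L k c 1 r ≤ 1 / 6 * (1 / r) ^ 2 := by
    have e1 : 0 ≤ c / k / (r + L) ^ 2 := by
      have : 0 ≤ c := by linarith
      positivity
    have e2 : 0 ≤ 3 / (2 * r ^ 2 * √r) + 2 * L / (r + L) ^ 3 := by positivity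
    have e3 : -(1 / k - 1) / r ^ 2 = (1 - 1 / k) * (1 / r) ^ 2 := by ring
    have e4 := mul_le_mul_of_nonneg_right (by linarith : 1 - 1 / k ≤ 1 / 6) (sq_nonneg (1 / r))
    unfold ph2
    linarith
  have d1 : ph1 L k c 1 r = (1 / k - 1) * (1 / r) + c * (1 / k) * (1 / (r + L)) +
      (1 / (r * √r) + L / (r + L) ^ 2) - k := by
    rw [ph1]
    ring
  rw [div_eq_mul_one_div (2 * ph1 L k c 1 r), d1, div_eq_mul_one_div (1 - c)]
  exact b4_alg hL k1 c1 c2 (mul_one_div_cancel k0.ne') b3 b4 i0 b2 b1 a1 a2 a3 a4 a5 a6 a7 a8 a9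
    b5 rfl

theorem b_rad : T_Brad := by
  intro L hL
  filter_upwards [eventually_ge_atTop ((24 * L) ^ 2)] with ρ hρ k hk c hc
  have h := C2_fb k c 1 (by linarith : 0 < L) 0
  simp only [sub_zero] at h
  refine ⟨_, _, h, fun x hx => ?_⟩
  have hr := hρ.trans hx
  have s1 : 24 * L ≤ √‖x‖ := Real.le_sqrt_of_sq_le hr
  have e : fb L k c 0 ‖x‖ = Real.exp (2 / √‖x‖ + L / (‖x‖ + L)) * fb L k c 1 ‖x‖ := by
    unfold fb ph
    rw [← Real.exp_add]
    congr 1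
    ring
  have p : 0 < fb L k c 1 ‖x‖ := Real.exp_pos _
  have n := norm_nonneg x
  have t1 : 2 / √‖x‖ ≤ 1 := (div_le_one (by linarith)).2 (by linarith)
  have t2 : L / (‖x‖ + L) ≤ 1 := (div_le_one (by linarith)).2 (by linarith)
  have t3 : 0 ≤ 2 / √‖x‖ + L / (‖x‖ + L) := by positivity
  refine ⟨?_, ?_, ?_⟩
  · have := mul_nonneg p.le (b4_main hL hk hc hr (abs_rA_sub (by linarith) x).1
      (abs_rA_sub (by linarith) x).2)
    unfold V
    linarith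
  · rw [e]
    exact le_mul_of_one_le_left p.le (Real.one_le_exp t3)
  · rw [e]
    refine mul_le_mul_of_nonneg_right ((Real.exp_le_exp.2 (add_le_add t1 t2)).trans ?_) p.le
    rw [Real.exp_add]
    nlinarith [Real.exp_one_lt_d9, Real.exp_pos 1]

end Vale.Agent.P363
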