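import Vale.Agent.P363.CPh
import Vale.Agent.P363.CSg

/-! P363, block B. -/

open MeasureTheory Set Metric Filter Topology
open scoped RealInnerProductSpace

namespace Vale.Agent.P363

theorem b5_eta : Tendsto eta (𝓝[>] 0) (𝓝 0) := by
  have h := (Real.continuous_rpow_const (q := (1 / 16 : ℝ)) (by norm_num)).tendsto 0
  rw [Real.zero_rpow (by norm_num)] at h
  exact h.mono_left nhdsWithin_le_nhds

theorem b5_pow {lam : ℝ} (h : 0 < lam) : 0 < eta lam ∧ eta lam ^ 16 = lam := by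
  refine ⟨Real.rpow_pos_of_pos h _, ?_⟩
  rw [eta, ← Real.rpow_natCast, ← Real.rpow_mul h.le]
  norm_num

theorem b5_exp {a : ℝ} (ha : 0 < a) : ∀ᶠ r : ℝ in atTop, 4 * r ^ 24 ≤ Real.exp (a * r) := by
  have h := (isLittleO_pow_exp_pos_mul_atTop 24 ha).bound (c := 1 / 4) (by norm_num)
  filter_upwards [h, eventually_ge_atTop 0] with r h1 h2
  rw [Real.norm_of_nonneg (by positivity), Real.norm_of_nonneg (by positivity)] at h1
  linarith

theorem b5_log {η r : ℝ} (h0 : 0 < η) (h1 : η ≤ 1 / 2000) (hr : 1 ≤ r) (h : η * r ≤ 1) :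
    12 * η * Real.log (1 + r) ≤ 1 := by
  have h2 : Real.log (1 + r) ≤ 2 * √(1 + r) := by
    have h3 : 0 < √(1 + r) := Real.sqrt_pos.2 (by linarith)
    have h4 := Real.log_le_sub_one_of_pos h3
    rw [Real.log_sqrt (by linarith)] at h4
    linarith
  have h3 : η * √(1 + r) ≤ 1 / 24 := by
    refine abs_le_of_sq_le_sq' ?_ (by norm_num) |>.2
    rw [mul_pow, Real.sq_sqrt (by linarith)]
    nlinarith
  nlinarith

theorem b5_far {L k k0 lam δ η r : ℝ} (hL : 1 ≤ L) (hk : k ∈ Icc (4 / 5 : ℝ) (6 / 5))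
    (hk0 : k0 ∈ Icc (4 / 5 : ℝ) (6 / 5)) (hc : 1 - 2 * lam ∈ Icc (9 / 10 : ℝ) 1) (hδ : 0 < δ)
    (hδ1 : δ ≤ 1) (hη : η ^ 16 = lam) (hr : 1 ≤ r) (h1 : 1 ≤ η * r) (hkk : k0 + δ / 2 ≤ k)
    (he : 4 * r ^ 24 ≤ Real.exp (δ / 2 * r)) :
    fb L k 1 0 r ≤ η * (lam * L * (L / r * fb L k0 (1 - 2 * lam) 0 r) / (δ ^ 2 * r ^ 3)) := by
  have h2 := (fb_crude hL hk (c := 1) ⟨by norm_num, le_rfl⟩ hr).2
  have h3 := (fb_crude hL hk0 hc hr).1
  have hr0 : 0 < r := by linarith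
  have h4 := fb_pos L k0 (1 - 2 * lam) 0 r
  set f := fb L k0 (1 - 2 * lam) 0 r
  have h5 : Real.exp (-k * r) * (4 * r ^ 24) ≤ r * f := by
    refine le_trans ?_ h3
    refine (mul_le_mul_of_nonneg_left he (Real.exp_pos _).le).trans ?_
    rw [← Real.exp_add]
    exact Real.exp_le_exp.2 (by nlinarith)
  have h6 : fb L k 1 0 r * r ^ 21 ≤ f := by
    have h7 : (1 + r) ^ 2 ≤ 4 * r ^ 2 := by nlinarith
    have h8 : fb L k 1 0 r ≤ 4 * r ^ 2 * Real.exp (-k * r) :=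
      h2.trans (mul_le_mul_of_nonneg_right h7 (Real.exp_pos _).le)
    have h9 : r * (fb L k 1 0 r * r ^ 21) ≤ r * f := by
      refine le_trans ?_ h5
      calc r * (fb L k 1 0 r * r ^ 21) = fb L k 1 0 r * r ^ 22 := by ring
        _ ≤ 4 * r ^ 2 * Real.exp (-k * r) * r ^ 22 :=
          mul_le_mul_of_nonneg_right h8 (by positivity)
        _ = _ := by ring
    exact le_of_mul_le_mul_left h9 hr0
  have h7 : δ ^ 2 ≤ (η * r) ^ 17 * L ^ 2 := by
    have h8 : 1 ≤ (η * r) ^ 17 := one_le_pow₀ h1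
    have h9 : 1 ≤ L ^ 2 := one_le_pow₀ hL
    have h10 : δ ^ 2 ≤ 1 := pow_le_one₀ hδ.le hδ1
    nlinarith
  have h8 : η * (lam * L * (L / r * f) / (δ ^ 2 * r ^ 3)) =
      (η * r) ^ 17 * L ^ 2 / δ ^ 2 * (f / r ^ 21) := by
    rw [← hη]
    field_simp
  rw [h8]
  have h9 : fb L k 1 0 r ≤ f / r ^ 21 := (le_div_iff₀ (by positivity)).2 h6
  exact h9.trans (le_mul_of_one_le_left (by positivity) ((one_le_div (by positivity)).2 h7))

theorem b_cmp : T_Bcmp := by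
  intro L hL δ hδ hδ1
  obtain ⟨R, hR⟩ := eventually_atTop.1 (b5_exp (half_pos hδ))
  have hp : 0 < min (min (1 / 2000) (δ / 10)) (1 / (|R| + 1)) := by positivity
  filter_upwards [b5_eta.eventually (eventually_le_nhds hp), self_mem_nhdsWithin]
    with lam h1 hl I hI r hr
  obtain ⟨h0, h16⟩ := b5_pow hl
  have e1 : eta lam ≤ 1 / 2000 := h1.trans ((min_le_left _ _).trans (min_le_left _ _))
  have e2 : eta lam ≤ δ / 10 := h1.trans ((min_le_left _ _).trans (min_le_right _ _))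
  have e3 : eta lam ≤ 1 / (|R| + 1) := h1.trans (min_le_right _ _)
  have hl1 : lam ≤ eta lam := by
    have h2 := pow_le_of_le_one (n := 16) h0.le (by linarith) (by norm_num)
    rwa [h16] at h2
  obtain ⟨hI1, hI2⟩ := hI
  have a1 : 89 / 100 ≤ √(2 * I) := Real.le_sqrt_of_sq_le (by linarith)
  have a2 : √(2 * (I + δ)) ≤ 119 / 100 := Real.sqrt_le_iff.2 ⟨by norm_num, by linarith⟩
  have a3 : √(2 * I) + 7 / 10 * δ ≤ √(2 * (I + δ)) := by
    refine Real.le_sqrt_of_sq_le ?_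
    have a4 : √(2 * I) ≤ 11 / 10 := Real.sqrt_le_iff.2 ⟨by norm_num, by linarith⟩
    have a5 := Real.sq_sqrt (show 0 ≤ 2 * I by linarith)
    nlinarith
  have k1 : √(2 * (I + δ)) - 2 * eta lam ∈ Icc (4 / 5 : ℝ) (6 / 5) := ⟨by linarith, by linarith⟩
  have k2 : √(2 * (I + δ)) + eta lam ∈ Icc (4 / 5 : ℝ) (6 / 5) := ⟨by linarith, by linarith⟩
  have k0 : √(2 * I) ∈ Icc (4 / 5 : ℝ) (6 / 5) := ⟨by linarith, by linarith⟩
  have c1 : (1 : ℝ) ∈ Icc (9 / 10 : ℝ) 1 := ⟨by norm_num, le_rfl⟩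
  refine ⟨fun h => ?_, fun h => ?_⟩
  · have h2 : eta lam * r ≤ 1 := by rwa [le_div_iff₀' h0] at h
    refine (fb_param hL k1 k2 c1 c1 hr).trans
      (mul_le_mul_of_nonneg_right ?_ (fb_pos _ _ _ _ _).le)
    have h3 := b5_log h0 e1 hr h2
    have h4 : |√(2 * (I + δ)) - 2 * eta lam - (√(2 * (I + δ)) + eta lam)| = 3 * eta lam := by
      rw [abs_of_nonpos (by linarith)]
      ring
    rw [h4, sub_self, abs_zero]
    refine (Real.exp_le_exp.2 (show _ ≤ ((4 : ℕ) : ℝ) * 1 by push_cast; nlinarith)).trans ?_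
    rw [Real.exp_nat_mul]
    exact (pow_le_pow_left₀ (Real.exp_pos _).le Real.exp_one_lt_three.le 4).trans (by norm_num)
  · have h2 : 1 ≤ eta lam * r := by rwa [div_le_iff₀' h0] at h
    have h3 : R ≤ r := by
      have h4 : 0 < |R| + 1 := by positivity
      rw [le_div_iff₀ h4] at e3
      have h5 := le_abs_self R
      by_contra h6
      nlinarith
    have hc : 1 - 2 * lam ∈ Icc (9 / 10 : ℝ) 1 := ⟨by linarith, by linarith [mem_Ioi.1 hl]⟩
    exact ⟨b5_far hL k1 k0 hc hδ (by linarith) h16 hr h2 (by linarith) (hR r h3),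
      b5_far hL k2 k0 hc hδ (by linarith) h16 hr h2 (by linarith) (hR r h3)⟩

end Vale.Agent.P363
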