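import Vale.Agent.P363.Defs

/-! P363, block C: abstract lemmas. -/

open MeasureTheory Set Metric Filter Topology
open scoped RealInnerProductSpace

namespace Vale.Agent.P363

noncomputable section

namespace CAbsAx

variable {X : Type} [AddCommGroup X] [Module ℝ X]

theorem expand (B : X →ₗ[ℝ] X →ₗ[ℝ] ℝ) (hB : ∀ x y, B x y = B y x) (a b : ℝ) (x y : X) :
    B (a • x + b • y) (a • x + b • y) = a ^ 2 * B x x + 2 * a * b * B x y + b ^ 2 * B y y := by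
  simp only [map_add, map_smul, LinearMap.add_apply, LinearMap.smul_apply, smul_eq_mul, hB y x]
  ring

theorem cs (B : X →ₗ[ℝ] X →ₗ[ℝ] ℝ) (hB : ∀ x y, B x y = B y x) (nn : ∀ x, 0 ≤ B x x) (x y : X) :
    B x y ^ 2 ≤ B x x * B y y := by
  have h : ∀ t : ℝ, 0 ≤ B x x * (t * t) + 2 * B x y * t + B y y := fun t => by
    have := nn (t • x + (1 : ℝ) • y)
    rw [expand B hB] at this
    nlinarith
  have := discrim_le_zero h
  unfold discrim at this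
  nlinarith

theorem two (B : X →ₗ[ℝ] X →ₗ[ℝ] ℝ) (hB : ∀ x y, B x y = B y x) (nn : ∀ x, 0 ≤ B x x) (a b : ℝ)
    (x y : X) : B (a • x + b • y) (a • x + b • y) ≤ 2 * a ^ 2 * B x x + 2 * b ^ 2 * B y y := by
  have := nn (a • x + (-b) • y)
  rw [expand B hB] at this ⊢
  nlinarith

theorem scale (B : X →ₗ[ℝ] X →ₗ[ℝ] ℝ) (a : ℝ) (x : X) : B (a • x) (a • x) = a ^ 2 * B x x := by
  simp only [map_smul, LinearMap.smul_apply, smul_eq_mul]
  ring

theorem normalize (B : X →ₗ[ℝ] X →ₗ[ℝ] ℝ) {x : X} (h : 0 < B x x) :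
    ∃ a : ℝ, a ^ 2 * B x x = 1 := by
  refine ⟨1 / Real.sqrt (B x x), ?_⟩
  rw [div_pow, Real.sq_sqrt h.le]
  field_simp

theorem low (ip Q : X →ₗ[ℝ] X →ₗ[ℝ] ℝ) (hip : ∀ x y, ip x y = ip y x) (nn : ∀ x, 0 ≤ ip x x)
    (hQs : ∀ x y, Q x y = Q y x) (hQn : ∀ x, 0 ≤ Q x x) (φ : X →ₗ[ℝ] ℝ) {g : ℝ} (gp : 0 < g)
    (hgap : ∀ z, φ z = 0 → g * ip z z ≤ Q z z) {x1 y : X} (n1 : ip x1 x1 = 1) (hφ1 : φ x1 ≠ 0)
    (s1 : ip y y = 1) (s2 : Q y y ≤ g / 8) :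
    φ x1 ^ 2 * g / (8 * Q x1 x1 + 4 * g) ≤ φ y ^ 2 := by
  obtain ⟨t, ht⟩ : ∃ t, φ y = t * φ x1 := ⟨φ y / φ x1, by field_simp⟩
  have hz : φ ((1 : ℝ) • y + (-t) • x1) = 0 := by
    simp only [map_add, map_smul, smul_eq_mul, ht]
    ring
  have b1 := hgap _ hz
  have b2 := two Q hQs hQn 1 (-t) y x1
  have b3 := two ip hip nn 1 t ((1 : ℝ) • y + (-t) • x1) x1
  have e : (1 : ℝ) • ((1 : ℝ) • y + (-t) • x1) + t • x1 = y := by
    simp
  rw [e, s1, n1] at b3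
  have Dn := hQn x1
  have b4 : g / 2 ≤ t ^ 2 * (4 * Q x1 x1 + 2 * g) := by
    have := mul_le_mul_of_nonneg_left b3 gp.le
    nlinarith
  rw [div_le_iff₀ (by positivity), ht]
  have := mul_le_mul_of_nonneg_left b4 (sq_nonneg (φ x1))
  nlinarith

theorem close (ip Q : X →ₗ[ℝ] X →ₗ[ℝ] ℝ) (hip : ∀ x y, ip x y = ip y x) (nn : ∀ x, 0 ≤ ip x x)
    (hQs : ∀ x y, Q x y = Q y x) (hQn : ∀ x, 0 ≤ Q x x) (φ : X →ₗ[ℝ] ℝ) {g M A : ℝ} (gp : 0 < g)
    (hgap : ∀ z, φ z = 0 → g * ip z z ≤ Q z z) (hφ : ∀ x, φ x ^ 2 ≤ M * ip x x) (hM : 0 ≤ M)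
    (Ap : 0 < A) {y z : X} (y1 : ip y y = 1) (z1 : ip z z = 1) (y2 : 0 ≤ φ y) (z2 : 0 ≤ φ z)
    (y3 : A ≤ φ y ^ 2) (z3 : A ≤ φ z ^ 2) :
    g * A * ip (y - z) (y - z) ≤ 2 * M * (Q y y + Q z z) := by
  have hpr : A ≤ φ y * φ z := by
    refine (pow_le_pow_iff_left₀ Ap.le (mul_nonneg y2 z2) two_ne_zero).1 ?_
    rw [mul_pow, sq A]
    exact mul_le_mul y3 z3 Ap.le (sq_nonneg _)
  have hz : φ ((φ z) • y + (-(φ y)) • z) = 0 := by
    simp only [map_add, map_smul, smul_eq_mul]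
    ring
  have b1 := hgap _ hz
  have b2 := two Q hQs hQn (φ z) (-(φ y)) y z
  rw [expand ip hip, y1, z1] at b1
  have b3 := nn (y - z)
  have hsub : y - z = (1 : ℝ) • y + (-1 : ℝ) • z := by simp [sub_eq_add_neg]
  rw [hsub, expand ip hip, y1, z1] at b3 ⊢
  have c1 := hφ y
  have c2 := hφ z
  rw [y1, mul_one] at c1
  rw [z1, mul_one] at c2
  have d1 : φ z ^ 2 * Q y y ≤ M * Q y y := mul_le_mul_of_nonneg_right c2 (hQn _)
  have d2 : φ y ^ 2 * Q z z ≤ M * Q z z := mul_le_mul_of_nonneg_right c1 (hQn _)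
  have d3 : A * (2 - 2 * ip y z) ≤ φ z ^ 2 + φ y ^ 2 - 2 * φ z * φ y * ip y z := by
    have := mul_le_mul_of_nonneg_right hpr (show 0 ≤ 2 - 2 * ip y z by linarith)
    nlinarith [sq_nonneg (φ z - φ y)]
  have d4 := mul_le_mul_of_nonneg_left d3 gp.le
  nlinarith

theorem lim0 (Q : X →ₗ[ℝ] X →ₗ[ℝ] ℝ) (hQs : ∀ x y, Q x y = Q y x) (hQn : ∀ x, 0 ≤ Q x x)
    {s : ℕ → X} {x : X} {δ : ℕ → ℝ} (δt : Tendsto δ atTop (𝓝 0)) (s2 : ∀ n, Q (s n) (s n) ≤ δ n)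
    (t2 : Tendsto (fun n => Q (s n - x) (s n - x)) atTop (𝓝 0)) : Q x x = 0 := by
  refine le_antisymm ?_ (hQn x)
  have t3 : Tendsto (fun n => 2 * δ n + 2 * Q (s n - x) (s n - x)) atTop (𝓝 0) := by
    simpa using (δt.const_mul 2).add (t2.const_mul 2)
  refine ge_of_tendsto' t3 fun n => ?_
  have := two Q hQs hQn 1 (-1) (s n) (s n - x)
  have hxe : (1 : ℝ) • s n + (-1 : ℝ) • (s n - x) = x := by simp
  rw [hxe] at this
  linarith [s2 n]

theorem lim1 (ip : X →ₗ[ℝ] X →ₗ[ℝ] ℝ) (hip : ∀ x y, ip x y = ip y x) (nn : ∀ x, 0 ≤ ip x x)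
    {s : ℕ → X} {x : X} (s1 : ∀ n, ip (s n) (s n) = 1)
    (t1 : Tendsto (fun n => ip (s n - x) (s n - x)) atTop (𝓝 0)) : ip x x = 1 := by
  have t3 : Tendsto (fun n => 8 * ip (s n - x) (s n - x) + 2 * ip (s n - x) (s n - x) ^ 2)
      atTop (𝓝 0) := by
    have := (t1.const_mul 8).add ((t1.pow 2).const_mul 2)
    rw [show (8 : ℝ) * 0 + 2 * 0 ^ 2 = 0 by norm_num] at this
    exact this
  have : (ip x x - 1) ^ 2 ≤ 0 := by
    refine ge_of_tendsto' t3 fun n => ?_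
    have b1 := expand ip hip 1 (-1) (s n) (s n - x)
    have hxe : (1 : ℝ) • s n + (-1 : ℝ) • (s n - x) = x := by simp
    rw [hxe, s1] at b1
    have b2 := cs ip hip nn (s n) (s n - x)
    rw [s1] at b2
    rw [b1]
    nlinarith [sq_nonneg (2 * ip (s n) (s n - x) + ip (s n - x) (s n - x))]
  have := pow_eq_zero_iff (two_ne_zero) |>.1 (le_antisymm this (sq_nonneg _))
  linarith

theorem infimum (ip q : X →ₗ[ℝ] X →ₗ[ℝ] ℝ) (nn : ∀ x, 0 ≤ ip x x) {K : ℝ}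
    (hK : ∀ x, ip x x ≤ q x x + K * ip x x) {x1 : X} (n1 : ip x1 x1 = 1) :
    ∃ E, 1 - K ≤ E ∧ E ≤ q x1 x1 ∧ (∀ y, E * ip y y ≤ q y y) ∧
      ∀ δ > 0, ∃ y, ip y y = 1 ∧ q y y < E + δ := by
  set S : Set ℝ := {r | ∃ y, ip y y = 1 ∧ q y y = r} with hS
  have hne : S.Nonempty := ⟨_, x1, n1, rfl⟩
  have hlb : ∀ r ∈ S, 1 - K ≤ r := by
    rintro r ⟨y, h1, rfl⟩
    have := hK y
    rw [h1] at this
    linarith
  have hbd : BddBelow S := ⟨_, hlb⟩
  refine ⟨sInf S, le_csInf hne hlb, csInf_le hbd ⟨x1, n1, rfl⟩, fun y => ?_, fun δ hδ => ?_⟩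
  · rcases (nn y).eq_or_lt with h | h
    · have := hK y
      rw [← h] at this ⊢
      linarith
    · obtain ⟨a, ha⟩ := normalize ip h
      have h1 : sInf S ≤ q (a • y) (a • y) := csInf_le hbd ⟨a • y, by rw [scale, ha], rfl⟩
      rw [scale] at h1
      calc sInf S * ip y y ≤ a ^ 2 * q y y * ip y y := by gcongr
        _ = q y y * (a ^ 2 * ip y y) := by ring
        _ = q y y := by rw [ha, mul_one]
  · obtain ⟨r, ⟨y, h1, rfl⟩, h2⟩ := exists_lt_of_csInf_lt hne (b := sInf S + δ) (by linarith)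
    exact ⟨y, h1, h2⟩

end CAbsAx

open CAbsAx

section

variable {X : Type} [AddCommGroup X] [Module ℝ X] (ip q : X →ₗ[ℝ] X →ₗ[ℝ] ℝ)

/-- A normalized minimizer is an eigenvector and inherits a codimension one gap. -/
theorem AF_of_min (hip : ∀ x y, ip x y = ip y x) (hq : ∀ x y, q x y = q y x)
    (nn : ∀ x, 0 ≤ ip x x) (φ : X →ₗ[ℝ] ℝ) {Λ E : ℝ} (gap : ∀ x, φ x = 0 → Λ * ip x x ≤ q x x)
    (hE : E < Λ) {x : X} (h1 : ip x x = 1) (h2 : q x x = E) (h3 : ∀ y, E * ip y y ≤ q y y) :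
    (∀ y, q x y = E * ip x y) ∧ (∀ y, ip x y = 0 → Λ * ip y y ≤ q y y) ∧
      ∀ y, Λ * ip y y - (Λ - E) * ip x y ^ 2 ≤ q y y := by
  have a1 : ∀ y, q x y = E * ip x y := fun y => by
    have := cs (q - E • ip) (fun x y => by simp [hip x y, hq x y])
      (fun x => by simpa using h3 x) x y
    simp only [LinearMap.sub_apply, LinearMap.smul_apply, smul_eq_mul, h1, h2, mul_one, sub_self,
      zero_mul] at this
    have := pow_eq_zero_iff (two_ne_zero) |>.1 (le_antisymm this (sq_nonneg _))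
    linarith
  have hφ : φ x ≠ 0 := fun h => by
    have := gap x h
    rw [h1, h2] at this
    linarith
  have a2 : ∀ y, ip x y = 0 → Λ * ip y y ≤ q y y := fun y hy => by
    have := gap ((-(φ y / φ x)) • x + (1 : ℝ) • y) (by
      simp only [map_add, map_smul, smul_eq_mul]
      field_simp
      ring)
    rw [expand ip hip, expand q hq, a1 y, hy, h1, h2] at this
    nlinarith [sq_nonneg (φ y / φ x)]
  refine ⟨a1, a2, fun y => ?_⟩
  have := a2 ((-(ip x y)) • x + (1 : ℝ) • y) (by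
    simp only [map_add, map_smul, smul_eq_mul, h1]
    ring)
  rw [expand ip hip, expand q hq, a1 y, h1, h2] at this
  nlinarith

/-- Existence of a minimizer from a codimension one gap. -/
theorem AF (hip : ∀ x y, ip x y = ip y x) (hq : ∀ x y, q x y = q y x) (nn : ∀ x, 0 ≤ ip x x)
    {K : ℝ} (hK : ∀ x, ip x x ≤ q x x + K * ip x x)
    (cpl : ∀ s : ℕ → X, (∀ ε > 0, ∃ N, ∀ m ≥ N, ∀ n ≥ N,
      q (s m - s n) (s m - s n) + K * ip (s m - s n) (s m - s n) < ε) →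
      ∃ x, Tendsto (fun n => q (s n - x) (s n - x) + K * ip (s n - x) (s n - x)) atTop (𝓝 0))
    (φ : X →ₗ[ℝ] ℝ) {M : ℝ} (hφ : ∀ x, φ x ^ 2 ≤ M * ip x x) {Λ : ℝ}
    (gap : ∀ x, φ x = 0 → Λ * ip x x ≤ q x x) {x0 : X} (h0 : q x0 x0 < Λ * ip x0 x0) :
    ∃ (x : X) (E : ℝ), E < Λ ∧ ip x x = 1 ∧ q x x = E ∧ ∀ y, E * ip y y ≤ q y y := by
  have p0 : 0 < ip x0 x0 := by
    refine (nn x0).lt_of_ne fun h => ?_
    have := hK x0
    rw [← h] at this h0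
    linarith
  obtain ⟨a0, ha0⟩ := normalize ip p0
  obtain ⟨x1, n1, q1⟩ : ∃ x1 : X, ip x1 x1 = 1 ∧ q x1 x1 < Λ := by
    refine ⟨a0 • x0, by rw [scale, ha0], ?_⟩
    rw [scale]
    have : 0 < a0 ^ 2 := by
      refine (sq_nonneg a0).lt_of_ne fun h => ?_
      rw [← h] at ha0
      simp at ha0
    calc a0 ^ 2 * q x0 x0 < a0 ^ 2 * (Λ * ip x0 x0) := by gcongr
      _ = Λ * (a0 ^ 2 * ip x0 x0) := by ring
      _ = Λ := by rw [ha0, mul_one]
  obtain ⟨E, hEK, hE1, hmin, hinf⟩ := infimum ip q nn hK n1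
  have hEΛ : E < Λ := hE1.trans_lt q1
  obtain ⟨Q, hQ⟩ : ∃ Q : X →ₗ[ℝ] X →ₗ[ℝ] ℝ, ∀ x y, Q x y = q x y - E * ip x y :=
    ⟨q - E • ip, fun x y => by simp⟩
  have hQs : ∀ x y, Q x y = Q y x := fun x y => by rw [hQ, hQ, hip x y, hq x y]
  have hQn : ∀ x, 0 ≤ Q x x := fun x => by rw [hQ]; linarith [hmin x]
  obtain ⟨g, hg⟩ : ∃ g, g = Λ - E := ⟨_, rfl⟩
  have gp : 0 < g := by linarith
  have hgap : ∀ z, φ z = 0 → g * ip z z ≤ Q z z := fun z hz => by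
    rw [hQ, hg]; linarith [gap z hz]
  have hφ1 : φ x1 ≠ 0 := fun h => by
    have := gap x1 h
    rw [n1] at this
    linarith
  have hM : 0 ≤ M := by
    have := hφ x1
    rw [n1] at this
    linarith [sq_nonneg (φ x1)]
  obtain ⟨δ, δp, δle, δt⟩ : ∃ δ : ℕ → ℝ, (∀ n, 0 < δ n) ∧ (∀ n, δ n ≤ g / 8) ∧
      Tendsto δ atTop (𝓝 0) := by
    refine ⟨fun n => g / 8 * (1 / ((n : ℝ) + 1)), fun n => by positivity, fun n => ?_, ?_⟩
    · refine mul_le_of_le_one_right (by positivity) ?_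
      rw [div_le_one (by positivity)]
      linarith [Nat.cast_nonneg (α := ℝ) n]
    · have := (tendsto_one_div_add_atTop_nhds_zero_nat (𝕜 := ℝ)).const_mul (g / 8)
      rwa [mul_zero] at this
  have hex : ∀ n, ∃ y, ip y y = 1 ∧ Q y y ≤ δ n ∧ 0 ≤ φ y := fun n => by
    obtain ⟨y, h1, h2⟩ := hinf (δ n) (δp n)
    have h3 : Q y y ≤ δ n := by rw [hQ, h1]; linarith
    rcases le_total 0 (φ y) with c | c
    · exact ⟨y, h1, h3, c⟩
    · refine ⟨(-1 : ℝ) • y, by rw [scale, h1]; norm_num, by rw [scale]; linarith, ?_⟩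
      rw [map_smul, smul_eq_mul]; linarith
  choose s s1 s2 s3 using hex
  obtain ⟨A, Ap, hlow⟩ : ∃ A > 0, ∀ n, A ≤ φ (s n) ^ 2 := by
    have Dn := hQn x1
    exact ⟨_, by positivity, fun n =>
      low ip Q hip nn hQs hQn φ gp hgap n1 hφ1 (s1 n) ((s2 n).trans (δle n))⟩
  have hN : ∀ v, q v v + K * ip v v = Q v v + (E + K) * ip v v := fun v => by
    rw [hQ]; ring
  have EK : 0 < E + K := by linarith
  obtain ⟨C, Cp, hc2⟩ : ∃ C > 0, ∀ m n, q (s m - s n) (s m - s n) +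
      K * ip (s m - s n) (s m - s n) ≤ C * (δ m + δ n) := by
    refine ⟨2 + (E + K) * (2 * M / (g * A)), by positivity, fun m n => ?_⟩
    rw [hN]
    have b0 := close ip Q hip nn hQs hQn φ gp hgap hφ hM Ap (s1 m) (s1 n) (s3 m) (s3 n)
      (hlow m) (hlow n)
    have b1 : ip (s m - s n) (s m - s n) ≤ 2 * M / (g * A) * (δ m + δ n) := by
      rw [div_mul_eq_mul_div, le_div_iff₀ (by positivity)]
      have : 2 * M * (Q (s m) (s m) + Q (s n) (s n)) ≤ 2 * M * (δ m + δ n) := by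
        gcongr
        exacts [s2 m, s2 n]
      linarith
    have b2 : Q (s m - s n) (s m - s n) ≤ 2 * (δ m + δ n) := by
      have := two Q hQs hQn 1 (-1) (s m) (s n)
      have hsub : (1 : ℝ) • s m + (-1 : ℝ) • s n = s m - s n := by simp [sub_eq_add_neg]
      rw [hsub] at this
      linarith [s2 m, s2 n]
    have b3 := mul_le_mul_of_nonneg_left b1 EK.le
    linarith
  obtain ⟨x, hx⟩ := cpl s fun ε hε => by
    have := (δt.eventually (gt_mem_nhds (show 0 < ε / (2 * C) by positivity)))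
    obtain ⟨N, hN⟩ := eventually_atTop.1 this
    refine ⟨N, fun m hm n hn => (hc2 m n).trans_lt ?_⟩
    have b1 := hN m hm
    have b2 := hN n hn
    rw [lt_div_iff₀ (by positivity)] at b1 b2
    linarith
  have t1 : Tendsto (fun n => ip (s n - x) (s n - x)) atTop (𝓝 0) :=
    squeeze_zero (fun n => nn _) (fun n => hK _) hx
  have t2 : Tendsto (fun n => Q (s n - x) (s n - x)) atTop (𝓝 0) :=
    squeeze_zero (fun n => hQn _) (fun n => by
      rw [hN]; linarith [mul_nonneg EK.le (nn (s n - x))]) hx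
  have q0 := lim0 Q hQs hQn δt s2 t2
  have i1 := lim1 ip hip nn s1 t1
  refine ⟨x, E, hEΛ, i1, ?_, hmin⟩
  rw [hQ, i1] at q0
  linarith

/-- Simplicity: another normalized minimizer is `± x` up to a null vector. -/
theorem AF_simple (hip : ∀ x y, ip x y = ip y x) (nn : ∀ x, 0 ≤ ip x x) {Λ E : ℝ} (hE : E < Λ)
    {x y : X} (h1 : ip x x = 1) (h2 : ∀ y, Λ * ip y y - (Λ - E) * ip x y ^ 2 ≤ q y y)
    (h3 : ip y y = 1) (h4 : q y y = E) :
    ip (y - x) (y - x) = 0 ∨ ip (y + x) (y + x) = 0 := by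
  have a1 := h2 y
  rw [h3, h4] at a1
  have a2 := cs ip hip nn x y
  rw [h1, h3] at a2
  have a3 : 1 ≤ ip x y ^ 2 := by
    by_contra hc
    nlinarith [not_le.1 hc]
  have a4 : (ip x y - 1) * (ip x y + 1) = 0 := by nlinarith
  simp only [map_add, map_sub, LinearMap.add_apply, LinearMap.sub_apply, hip y x, h1, h3]
  rcases mul_eq_zero.1 a4 with c | c
  · left; linarith
  · right; linarith

end

end

end Vale.Agent.P363
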