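import Vale.Agent.P363.CAcA

/-! P363, block C: absolutely continuous functions of one variable. -/

open MeasureTheory Set Metric Filter Topology
open scoped RealInnerProductSpace

namespace Vale.Agent.P363

noncomputable section

/-- The derivative vanishes at almost every zero. -/
theorem ae_deriv_zero (F h : ℝ → ℝ) : ∀ᵐ t : ℝ, HasDerivAt F (h t) t → F t = 0 → h t = 0 := by
  have hc := countable_setOfPred_isolated_right_within (s := {t : ℝ | F t = 0})
  filter_upwards [hc.ae_notMem volume] with t ht hd h0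
  by_contra hne
  refine ht ⟨h0, ?_⟩
  have h1 : ∀ᶠ z in 𝓝[≠] t, F z ≠ 0 := hd.eventually_ne hne
  rw [← Filter.empty_mem_iff_bot]
  have h2 : ∀ᶠ z in 𝓝[{t : ℝ | F t = 0} ∩ Ioi t] t, F z ≠ 0 :=
    h1.filter_mono (nhdsWithin_mono _ fun z hz => ne_of_gt hz.2)
  filter_upwards [h2, self_mem_nhdsWithin] with z hz hz'
  exact hz hz'.1

/-- Continuous functions which agree a.e. on an open set agree on it. -/
theorem eq_of_ae_open {F G : ℝ → ℝ} {U : Set ℝ} (hU : IsOpen U) (hF : ContinuousOn F U)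
    (hG : ContinuousOn G U) (h : ∀ᵐ t : ℝ, t ∈ U → F t = G t) : ∀ t ∈ U, F t = G t := by
  exact Measure.eqOn_open_of_ae_eq (μ := volume) ((ae_restrict_iff' hU.measurableSet).2 h) hU hF hG

/-- A continuous function with values a.e. in a closed set has all its values there. -/
theorem mem_of_ae_open {α : Type} [TopologicalSpace α] {F : ℝ → α} {U : Set ℝ} {Q : Set α}
    (hU : IsOpen U) (hF : ContinuousOn F U) (hQ : IsClosed Q) (h : ∀ᵐ t : ℝ, t ∈ U → F t ∈ Q) :
    ∀ t ∈ U, F t ∈ Q := by
  have h1 : IsOpen (U ∩ F ⁻¹' Qᶜ) := hF.isOpen_inter_preimage hU hQ.isOpen_compl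
  have h2 : volume (U ∩ F ⁻¹' Qᶜ) = 0 := by
    refine measure_mono_null (fun t ht => ?_) (ae_iff.1 h)
    exact fun h3 => ht.2 (h3 ht.1)
  rw [h1.measure_eq_zero_iff volume] at h2
  intro t ht
  by_contra h3
  exact h2.subset ⟨ht, h3⟩

/-- Fundamental theorem of calculus with an a.e. derivative. -/
theorem ac_ftc {F h : ℝ → ℝ} {a b : ℝ} (hF : AbsolutelyContinuousOnInterval F a b)
    (hd : ∀ᵐ t : ℝ, t ∈ uIcc a b → HasDerivAt F (h t) t) :
    IntervalIntegrable h volume a b ∧ F b - F a = ∫ t in a..b, h t := by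
  have h1 : ∀ᵐ t : ℝ, t ∈ uIoc a b → deriv F t = h t := by
    filter_upwards [hd] with t ht h2
    exact (ht (uIoc_subset_uIcc h2)).deriv
  refine ⟨hF.intervalIntegrable_deriv.congr_ae ((ae_restrict_iff' measurableSet_uIoc).2 h1), ?_⟩
  rw [← hF.integral_deriv_eq_sub]
  exact intervalIntegral.integral_congr_ae h1

theorem CAc_congr {F G : ℝ → ℝ} {a b : ℝ} (hF : AbsolutelyContinuousOnInterval F a b)
    (h : ∀ x ∈ uIcc a b, F x = G x) : AbsolutelyContinuousOnInterval G a b := by
  refine Tendsto.congr' ?_ hF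
  refine Filter.mem_inf_of_right (Filter.mem_principal.2 fun E hE => ?_)
  refine Finset.sum_congr rfl fun i hi => ?_
  rw [h _ (hE.1 i hi).1, h _ (hE.1 i hi).2]

/-- A representative from the increments. -/
theorem rep_of_pairs {f h : ℝ → ℝ} {U : Set ℝ} (hU : IsOpen U)
    (hi : ∀ a b, uIcc a b ⊆ U → IntervalIntegrable h volume a b)
    (hp : ∀ᵐ a : ℝ, ∀ᵐ b : ℝ, uIcc a b ⊆ U → f b - f a = ∫ t in a..b, h t) :
    ∃ F : ℝ → ℝ, (∀ᵐ t : ℝ, t ∈ U → f t = F t) ∧
      (∀ a b, uIcc a b ⊆ U → AbsolutelyContinuousOnInterval F a b) ∧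
      ∀ᵐ t : ℝ, t ∈ U → HasDerivAt F (h t) t := by
  classical
  set P : Set ℝ := {a | ∀ᵐ b : ℝ, uIcc a b ⊆ U → f b - f a = ∫ t in a..b, h t} with hP
  have hPae : ∀ᵐ a : ℝ, a ∈ P := hp
  set β : ℝ → ℝ := fun t => Classical.epsilon fun a => a ∈ connectedComponentIn U t ∧ a ∈ P
    with hβ
  have hβs : ∀ t ∈ U, β t ∈ connectedComponentIn U t ∧ β t ∈ P := by
    intro t ht
    refine Classical.epsilon_spec (p := fun a => a ∈ connectedComponentIn U t ∧ a ∈ P) ?_
    have h1 : volume (connectedComponentIn U t) ≠ 0 :=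
      (hU.connectedComponentIn.measure_pos volume ⟨t, mem_connectedComponentIn ht⟩).ne'
    obtain ⟨a, ha, ha'⟩ := Measure.exists_mem_of_measure_ne_zero_of_ae h1 (ae_restrict_of_ae hPae)
    exact ⟨a, ha, ha'⟩
  have hsub : ∀ t a b, a ∈ connectedComponentIn U t → b ∈ connectedComponentIn U t →
      uIcc a b ⊆ U := fun t a b ha hb =>
    (isPreconnected_connectedComponentIn.ordConnected.uIcc_subset ha hb).trans
      (connectedComponentIn_subset U t)
  have hβe : ∀ t s, s ∈ connectedComponentIn U t → β s = β t := by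
    intro t s hs
    simp only [hβ, connectedComponentIn_eq hs]
  have hmem : ∀ a b, uIcc a b ⊆ U → ∀ x ∈ uIcc a b, x ∈ connectedComponentIn U a :=
    fun a b hab x hx => isPreconnected_uIcc.subset_connectedComponentIn left_mem_uIcc hab hx
  set F : ℝ → ℝ := fun t => f (β t) + ∫ s in β t..t, h s with hF
  have hloc : ∀ a b, uIcc a b ⊆ U → ∀ x ∈ uIcc a b, F x = F a + ∫ s in a..x, h s := by
    intro a b hab x hx
    have ha : a ∈ U := hab left_mem_uIcc
    have h1 := hmem a b hab x hx
    simp only [hF, hβe a x h1]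
    rw [add_assoc, intervalIntegral.integral_add_adjacent_intervals
      (hi _ _ (hsub a _ _ (hβs a ha).1 (mem_connectedComponentIn ha)))
      (hi _ _ (hsub a _ _ (mem_connectedComponentIn ha) h1))]
  refine ⟨F, ?_, fun a b hab => ?_, ?_⟩
  · have h1 : ∀ q : ℚ, ∀ᵐ b : ℝ, (q : ℝ) ∈ U → uIcc (β q) b ⊆ U →
        f b - f (β q) = ∫ t in β q..b, h t := by
      intro q
      by_cases hq : (q : ℝ) ∈ U
      · filter_upwards [(hβs q hq).2] with b hb _
        exact hb
      · exact Eventually.of_forall fun b h => absurd h hq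
    filter_upwards [ae_all_iff.2 h1] with t ht htU
    obtain ⟨q, hq⟩ := Rat.denseRange_cast.exists_mem_open
      (hU.connectedComponentIn (x := t)) ⟨t, mem_connectedComponentIn htU⟩
    have h2 := ht q (connectedComponentIn_subset U t hq)
    rw [hβe t q hq] at h2
    have h3 := h2 (hsub t _ _ (hβs t htU).1 (mem_connectedComponentIn htU))
    simp only [hF]
    linarith
  · have h1 : AbsolutelyContinuousOnInterval (fun _ : ℝ => F a) a b :=
      (contDiffOn_const (c := F a)).absolutelyContinuousOnInterval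
    exact CAc_congr (h1.add
      ((hi a b hab).absolutelyContinuousOnInterval_intervalIntegral left_mem_uIcc))
      fun x hx => (hloc a b hab x hx).symm
  · have h1 : ∀ p : ℚ × ℚ, ∀ᵐ x : ℝ, uIcc (p.1 : ℝ) p.2 ⊆ U → x ∈ uIcc (p.1 : ℝ) p.2 →
        HasDerivAt (fun x => ∫ t in (p.1 : ℝ)..x, h t) (h x) x := by
      intro p
      by_cases hq : uIcc (p.1 : ℝ) p.2 ⊆ U
      · filter_upwards [(hi _ _ hq).ae_hasDerivAt_integral] with x hx _ hx'
        exact hx hx' _ left_mem_uIcc
      · exact Eventually.of_forall fun b h => absurd h hq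
    filter_upwards [ae_all_iff.2 h1] with t ht htU
    obtain ⟨l, u, ⟨hl, hu⟩, hlu⟩ := mem_nhds_iff_exists_Ioo_subset.1 (hU.mem_nhds htU)
    obtain ⟨p, hp1, hp2⟩ := exists_rat_btwn hl
    obtain ⟨q, hq1, hq2⟩ := exists_rat_btwn hu
    have hpq : (p : ℝ) ≤ q := (hp2.trans hq1).le
    have h2 : uIcc (p : ℝ) q ⊆ U := by
      rw [uIcc_of_le hpq]
      exact (Icc_subset_Ioo hp1 hq2).trans hlu
    have h3 := (ht (p, q) h2 (by rw [uIcc_of_le hpq]; exact ⟨hp2.le, hq1.le⟩)).const_add (F p)
    refine h3.congr_of_eventuallyEq ?_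
    filter_upwards [Icc_mem_nhds hp2 hq1] with x hx
    exact hloc p q h2 x (by rw [uIcc_of_le hpq]; exact hx)

/-- An integrable function with integrable derivative: the derivative has integral zero and the
function is bounded by the integral of the derivative. -/
theorem ac_global {F h : ℝ → ℝ} (hF : ∀ a b, AbsolutelyContinuousOnInterval F a b)
    (hd : ∀ᵐ t : ℝ, HasDerivAt F (h t) t) (h1 : Integrable F) (h2 : Integrable h) :
    ∫ t, h t = 0 ∧ ∀ t, |F t| ≤ ∫ s, |h s| := by
  have hI : ∀ a b, F b - F a = ∫ t in a..b, h t := fun a b =>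
    (ac_ftc (hF a b) (hd.mono fun t ht _ => ht)).2
  have hbot : ∀ t, F t = ∫ s in Iic t, h s := by
    intro t
    have e1 : Tendsto F atBot (𝓝 (F t - ∫ s in Iic t, h s)) := by
      have e2 := (intervalIntegral_tendsto_integral_Iic t h2.integrableOn tendsto_id).const_sub
        (F t)
      refine e2.congr fun a => ?_
      rw [id, ← hI]
      ring
    have e3 := (h1.integrableAtFilter atBot).eq_zero_of_tendsto (fun s hs => by
      obtain ⟨c, hc⟩ := mem_atBot_sets.1 hs
      exact top_unique ((Real.volume_Iic (a := c)).symm.le.trans (measure_mono hc))) e1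
    linarith
  have htop : F 0 + ∫ s in Ioi 0, h s = 0 := by
    have e1 : Tendsto F atTop (𝓝 (F 0 + ∫ s in Ioi 0, h s)) := by
      have e2 := (intervalIntegral_tendsto_integral_Ioi 0 h2.integrableOn tendsto_id).const_add
        (F 0)
      refine e2.congr fun a => ?_
      rw [id, ← hI]
      ring
    exact (h1.integrableAtFilter atTop).eq_zero_of_tendsto (fun s hs => by
      obtain ⟨c, hc⟩ := mem_atTop_sets.1 hs
      exact top_unique ((Real.volume_Ici (a := c)).symm.le.trans (measure_mono hc))) e1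
  refine ⟨?_, fun t => ?_⟩
  · rw [← intervalIntegral.integral_Iic_add_Ioi h2.integrableOn h2.integrableOn (b := 0),
      ← hbot, htop]
  · rw [hbot]
    exact (abs_integral_le_integral_abs).trans
      (setIntegral_le_integral h2.abs (Eventually.of_forall fun s => abs_nonneg _))

end

end Vale.Agent.P363
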