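import Vale.Agent.P363.Defs

/-! P363, block C: absolutely continuous functions of one variable. -/

open MeasureTheory Set Metric Filter Topology
open scoped RealInnerProductSpace

namespace Vale.Agent.P363

noncomputable section

theorem acx_dom {X Y Z : Type*} [PseudoMetricSpace X] [PseudoMetricSpace Y] [PseudoMetricSpace Z]
    {F : ℝ → X} {G : ℝ → Y} {H : ℝ → Z} {a b : ℝ} (K : ℝ)
    (hF : AbsolutelyContinuousOnInterval F a b) (hG : AbsolutelyContinuousOnInterval G a b)
    (h : ∀ x ∈ uIcc a b, ∀ y ∈ uIcc a b,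
      dist (H x) (H y) ≤ K * (dist (F x) (F y) + dist (G x) (G y))) :
    AbsolutelyContinuousOnInterval H a b := by
  have h1 := (Tendsto.add hF hG).const_mul K
  rw [add_zero, mul_zero] at h1
  refine squeeze_zero' (Eventually.of_forall fun E => Finset.sum_nonneg fun _ _ => dist_nonneg)
    (eventually_inf_principal.2 (Eventually.of_forall fun E hE => ?_)) h1
  rw [← Finset.sum_add_distrib, Finset.mul_sum]
  exact Finset.sum_le_sum fun i hi => h _ (hE.1 i hi).1 _ (hE.1 i hi).2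

theorem acx_le {F H : ℝ → ℝ} {a b : ℝ} (hF : AbsolutelyContinuousOnInterval F a b)
    (h : (∀ x ∈ uIcc a b, H x = F x) ∨ ∀ x ∈ uIcc a b, H x = 0) :
    AbsolutelyContinuousOnInterval H a b := by
  refine acx_dom 1 hF hF fun x hx y hy => ?_
  have := dist_nonneg (x := F x) (y := F y)
  rcases h with h | h <;> rw [h x hx, h y hy]
  · linarith
  · rw [dist_self]
    linarith

theorem acx_zero {H : ℝ → ℝ} {a b : ℝ} (h : ∀ x ∈ uIcc a b, H x = 0) :
    AbsolutelyContinuousOnInterval H a b :=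
  acx_le (F := fun _ => 0)
    (LipschitzWith.const (0 : ℝ)).lipschitzOnWith.absolutelyContinuousOnInterval (Or.inl h)

theorem acx_mono {F c : ℝ → ℝ} {a b a' b' : ℝ} (hF : AbsolutelyContinuousOnInterval F a' b')
    (hc : Monotone c) (hl : ∀ x y, dist (c x) (c y) ≤ dist x y)
    (hm : ∀ x ∈ uIcc a b, c x ∈ uIcc a' b') :
    AbsolutelyContinuousOnInterval (fun x => F (c x)) a b := by
  rw [absolutelyContinuousOnInterval_iff] at hF ⊢
  intro ε hε
  obtain ⟨δ, hδ, h⟩ := hF ε hε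
  refine ⟨δ, hδ, fun E hE hs => h (E.1, fun i => (c (E.2 i).1, c (E.2 i).2))
    ⟨fun i hi => ⟨hm _ (hE.1 i hi).1, hm _ (hE.1 i hi).2⟩, fun i hi j hj hij => ?_⟩
    ((Finset.sum_le_sum fun i _ => hl _ _).trans_lt hs)⟩
  refine disjoint_left.2 fun z h1 h2 => ?_
  simp only [uIoc, mem_Ioc, ← hc.map_min, ← hc.map_max] at h1 h2
  have b1 := hc.reflect_lt (h1.1.trans_le h1.2)
  have b2 := hc.reflect_lt (h1.1.trans_le h2.2)
  have b3 := hc.reflect_lt (h2.1.trans_le h1.2)
  have b4 := hc.reflect_lt (h2.1.trans_le h2.2)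
  exact disjoint_left.1 (hE.2 hi hj hij) ⟨lt_min b1 b2, min_le_left _ _⟩
    ⟨lt_min b3 b4, min_le_right _ _⟩

theorem acx_max (t x y : ℝ) : dist (max x t) (max y t) ≤ dist x y := abs_max_sub_max_le_abs x y t

theorem acx_min (t x y : ℝ) : dist (min x t) (min y t) ≤ dist x y := by
  simpa using (LipschitzWith.id.min_const t).dist_le_mul x y

theorem acx_join {F : ℝ → ℝ} {a b c : ℝ} (hab : a ≤ b) (hbc : b ≤ c)
    (h1 : AbsolutelyContinuousOnInterval F a b) (h2 : AbsolutelyContinuousOnInterval F b c) :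
    AbsolutelyContinuousOnInterval F a c := by
  refine acx_dom 1
    (acx_mono h1 (monotone_id.min monotone_const) (acx_min b) (a := a) (b := c) fun x hx => ?_)
    (acx_mono h2 (monotone_id.max monotone_const) (acx_max b) (a := a) (b := c) fun x hx => ?_)
    fun x _ y _ => ?_
  · rw [uIcc_of_le (hab.trans hbc)] at hx
    rw [uIcc_of_le hab]
    exact ⟨le_min hx.1 hab, min_le_right _ _⟩
  · rw [uIcc_of_le (hab.trans hbc)] at hx
    rw [uIcc_of_le hbc]
    exact ⟨le_max_right _ _, max_le hx.2 hbc⟩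
  · have := dist_triangle (F x) (F b) (F y)
    have := dist_comm (F x) (F b)
    have := dist_comm (F y) (F b)
    rcases le_total x b with k | k <;> rcases le_total y b with k' | k' <;>
      simp only [id, min_eq_left, min_eq_right, max_eq_left, max_eq_right, k, k', dist_self] <;>
      linarith

theorem acx_trans {F : ℝ → ℝ} {a b c : ℝ} (h1 : AbsolutelyContinuousOnInterval F a b)
    (h2 : AbsolutelyContinuousOnInterval F b c) : AbsolutelyContinuousOnInterval F a c := by
  rcases le_total a b with k | k <;> rcases le_total b c with k' | k'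
  · exact acx_join k k' h1 h2
  · rcases le_total a c with l | l
    · exact h1.mono (uIcc_subset_uIcc left_mem_uIcc (mem_uIcc_of_le l k'))
    · exact h2.mono (uIcc_subset_uIcc (mem_uIcc_of_ge l k) right_mem_uIcc)
  · rcases le_total a c with l | l
    · exact h2.mono (uIcc_subset_uIcc (mem_uIcc_of_le k l) right_mem_uIcc)
    · exact h1.mono (uIcc_subset_uIcc left_mem_uIcc (mem_uIcc_of_ge k' l))
  · exact (acx_join k' k h2.symm h1.symm).symm

theorem acx_lip {E : Type*} [NormedAddCommGroup E] [NormedSpace ℝ E] {Φ : ℝ → E} {Γ : E → ℝ}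
    {Γ' : E → E →L[ℝ] ℝ} {W : Set E} {a b : ℝ} (hΦ : ContinuousOn Φ (uIcc a b)) (hW : IsOpen W)
    (hd : ∀ p ∈ W, HasFDerivAt Γ (Γ' p) p) (hc : ContinuousOn Γ' W)
    (hm : ∀ t ∈ uIcc a b, Φ t ∈ W) : ∃ K : ℝ, 0 ≤ K ∧ ∀ x ∈ uIcc a b, ∀ y ∈ uIcc a b,
      dist (Γ (Φ x)) (Γ (Φ y)) ≤ K * dist (Φ x) (Φ y) := by
  obtain ⟨K, hK⟩ := LocallyLipschitzOn.exists_lipschitzOnWith_of_compact (f := Γ)
    (isCompact_uIcc.image_of_continuousOn hΦ) (by
      rintro _ ⟨t, ht, rfl⟩
      have h1 := hW.mem_nhds (hm t ht)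
      obtain ⟨K, s, hs, h⟩ := (hasStrictFDerivAt_of_hasFDerivAt_of_continuousAt
        (mem_of_superset h1 hd) (hc.continuousAt h1)).exists_lipschitzOnWith
      exact ⟨K, s, mem_nhdsWithin_of_mem_nhds hs, h⟩)
  exact ⟨K, K.2, fun x hx y hy => hK.dist_le_mul _ (mem_image_of_mem _ hx) _
    (mem_image_of_mem _ hy)⟩

theorem acx_prod (x y z w : ℝ) : dist (x, y) (z, w) ≤ dist x z + dist y w :=
  max_le (le_add_of_nonneg_right dist_nonneg) (le_add_of_nonneg_left dist_nonneg)

theorem acx_int {U : Set ℝ} (hU : IsOpen U) {t : ℝ} (ht : t ∈ U) :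
    ∃ s > 0, uIcc (t - s) (t + s) ⊆ U := by
  obtain ⟨s, hs, h⟩ := nhds_basis_closedBall.mem_iff.1 (hU.mem_nhds ht)
  exact ⟨s, hs, by rwa [uIcc_of_le (by linarith), ← Real.closedBall_eq_Icc]⟩

theorem ac_comp {F Γ Γ' : ℝ → ℝ} {W : Set ℝ} {a b : ℝ} (hF : AbsolutelyContinuousOnInterval F a b)
    (hW : IsOpen W) (hd : ∀ s ∈ W, HasDerivAt Γ (Γ' s) s) (hc : ContinuousOn Γ' W)
    (hm : ∀ t ∈ uIcc a b, F t ∈ W) : AbsolutelyContinuousOnInterval (fun t => Γ (F t)) a b := by
  obtain ⟨K, h0, hK⟩ := acx_lip (Γ' := fun s => ContinuousLinearMap.toSpanSingleton ℝ (Γ' s))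
    hF.continuousOn hW (fun s hs => (hd s hs).hasFDerivAt)
    (ContinuousLinearMap.toSpanSingletonCLE.continuous.comp_continuousOn hc) hm
  exact acx_dom K hF hF fun x hx y hy => (hK x hx y hy).trans
    (mul_le_mul_of_nonneg_left (le_add_of_nonneg_left dist_nonneg) h0)

theorem ac_comp2 {F G : ℝ → ℝ} {Γ Γ1 Γ2 : ℝ × ℝ → ℝ} {W : Set (ℝ × ℝ)} {a b : ℝ}
    (hF : AbsolutelyContinuousOnInterval F a b) (hG : AbsolutelyContinuousOnInterval G a b)
    (hW : IsOpen W) (hd : ∀ p ∈ W, HasFDerivAt Γ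
      (Γ1 p • ContinuousLinearMap.fst ℝ ℝ ℝ + Γ2 p • ContinuousLinearMap.snd ℝ ℝ ℝ) p)
    (h1 : ContinuousOn Γ1 W) (h2 : ContinuousOn Γ2 W) (hm : ∀ t ∈ uIcc a b, (F t, G t) ∈ W) :
    AbsolutelyContinuousOnInterval (fun t => Γ (F t, G t)) a b := by
  obtain ⟨K, h0, hK⟩ := acx_lip (hF.continuousOn.prodMk hG.continuousOn) hW hd
    ((h1.smul continuousOn_const).add (h2.smul continuousOn_const)) hm
  exact acx_dom K hF hG fun x hx y hy => (hK x hx y hy).trans
    (mul_le_mul_of_nonneg_left (acx_prod _ _ _ _) h0)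

/-- Composition with a Lipschitz function of two variables. -/
theorem ac_lip2 {F G : ℝ → ℝ} {Γ : ℝ × ℝ → ℝ} {K : NNReal} {a b : ℝ}
    (hF : AbsolutelyContinuousOnInterval F a b) (hG : AbsolutelyContinuousOnInterval G a b)
    (hΓ : LipschitzWith K Γ) : AbsolutelyContinuousOnInterval (fun t => Γ (F t, G t)) a b := by
  exact acx_dom K hF hG fun x _ y _ => (hΓ.dist_le_mul _ _).trans
    (mul_le_mul_of_nonneg_left (acx_prod _ _ _ _) K.2)

/-- Local absolute continuity gives continuity on the open set. -/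
theorem ac_continuousOn {F : ℝ → ℝ} {U : Set ℝ} (hU : IsOpen U)
    (hF : ∀ a b, uIcc a b ⊆ U → AbsolutelyContinuousOnInterval F a b) : ContinuousOn F U := by
  intro t ht
  obtain ⟨s, hs, h⟩ := acx_int hU ht
  refine ((hF _ _ h).continuousOn.continuousAt ?_).continuousWithinAt
  rw [uIcc_of_le (by linarith)]
  exact Icc_mem_nhds (by linarith) (by linarith)

/-- Absolute continuity is a local property on a compact interval. -/
theorem ac_of_local {F : ℝ → ℝ} {a b : ℝ}
    (h : ∀ t ∈ uIcc a b, ∃ s > 0, AbsolutelyContinuousOnInterval F (t - s) (t + s)) :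
    AbsolutelyContinuousOnInterval F a b := by
  refine isPreconnected_uIcc.induction₂' (AbsolutelyContinuousOnInterval F) (fun t ht => ?_)
    (fun _ _ _ _ _ _ => acx_trans) left_mem_uIcc right_mem_uIcc
  obtain ⟨s, hs, h⟩ := h t ht
  filter_upwards [mem_nhdsWithin_of_mem_nhds
    (Icc_mem_nhds (by linarith : t - s < t) (by linarith : t < t + s))] with y hy
  have := h.mono (uIcc_subset_uIcc (mem_uIcc_of_le (by linarith : t - s ≤ t) (by linarith))
    (mem_uIcc_of_le hy.1 hy.2))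
  exact ⟨this, this.symm⟩

/-- Extension by zero. -/
theorem ac_glue {F : ℝ → ℝ} {U A : Set ℝ} (hU : IsOpen U) (hA : IsClosed A) (hAU : A ⊆ U)
    (hF : ∀ a b, uIcc a b ⊆ U → AbsolutelyContinuousOnInterval F a b)
    (h0 : ∀ t ∈ U, t ∉ A → F t = 0) (a b : ℝ) :
    AbsolutelyContinuousOnInterval (A.indicator F) a b := by
  refine ac_of_local fun t _ => ?_
  by_cases ht : t ∈ U
  · obtain ⟨s, hs, h⟩ := acx_int hU ht
    refine ⟨s, hs, acx_le (hF _ _ h) (Or.inl fun x hx => ?_)⟩
    by_cases k : x ∈ A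
    · exact indicator_of_mem k _
    · rw [indicator_of_notMem k, h0 x (h hx) k]
  · obtain ⟨s, hs, h⟩ := acx_int hA.isOpen_compl fun k => ht (hAU k)
    exact ⟨s, hs, acx_zero fun x hx => indicator_of_notMem (h hx) _⟩

/-- Cutting at a zero. -/
theorem ac_cut {F : ℝ → ℝ} {a b t0 : ℝ} (hF : AbsolutelyContinuousOnInterval F a b)
    (h0 : t0 ∈ uIcc a b → F t0 = 0) :
    AbsolutelyContinuousOnInterval ((Ioi t0).indicator F) a b := by
  by_cases ht : t0 ∈ uIcc a b
  · refine acx_le (acx_mono hF (monotone_id.max monotone_const) (acx_max t0) fun x hx => ?_)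
      (Or.inl fun x _ => ?_)
    · rcases le_total x t0 with k | k
      · simpa only [id, max_eq_right k] using ht
      · simpa only [id, max_eq_left k] using hx
    · rcases lt_or_ge t0 x with k | k
      · rw [indicator_of_mem (show x ∈ Ioi t0 from k), id, max_eq_left k.le]
      · rw [indicator_of_notMem (show x ∉ Ioi t0 from not_lt.2 k), id, max_eq_right k, h0 ht]
  · rw [uIcc, mem_Icc, not_and_or, not_le, not_le] at ht
    exact acx_le hF (ht.imp (fun k x hx => indicator_of_mem (k.trans_le hx.1) _)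
      fun k x hx => indicator_of_notMem (not_lt.2 (hx.2.trans k.le)) _)

end

end Vale.Agent.P363
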