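import Vale.Agent.P363.CLd1

/-! P363, block C: the `C2` kit. -/

open MeasureTheory Set Metric Filter Topology
open scoped RealInnerProductSpace

namespace Vale.Agent.P363

noncomputable section

variable {U : Set E3} {B B' l l' : E3 → ℝ} {g g' : E3 → E3}

theorem c2a_rank (h : ContinuousOn g U) (h' : ContinuousOn g' U) :
    ContinuousOn (fun x => (innerSL ℝ (g x)).smulRight (g' x)) U :=
  ((ContinuousLinearMap.smulRightL ℝ E3 E3).continuous.comp_continuousOn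
    ((innerSL ℝ (E := E3)).continuous.comp_continuousOn h)).clm_apply h'

theorem c2a_tr (a b : E3) : ∑ k, (innerSL ℝ a).smulRight b (e k) k = ⟪a, b⟫ := by
  simp [e, EuclideanSpace.inner_single_right, PiLp.inner_apply, mul_comm]

theorem C2.mono {U' : Set E3} (h : C2 U B g l) (hU : IsOpen U') (hs : U' ⊆ U) : C2 U' B g l := by
  obtain ⟨H, h1, h2⟩ := h.d2
  exact ⟨hU, fun x hx => h.d1 x (hs hx), H, h1.mono hs, fun x hx => h2 x (hs hx)⟩

theorem C2.congr (h : C2 U B g l) (h1 : ∀ x ∈ U, B' x = B x) (h2 : ∀ x ∈ U, g' x = g x)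
    (h3 : ∀ x ∈ U, l' x = l x) : C2 U B' g' l' := by
  obtain ⟨H, a, b⟩ := h.d2
  refine ⟨h.op, fun x hx => ?_, H, a, fun x hx => ⟨?_, by rw [h3 x hx, (b x hx).2]⟩⟩
  · rw [h2 x hx]
    exact (h.d1 x hx).congr_of_eventuallyEq (mem_of_superset (h.op.mem_nhds hx) h1)
  · exact (b x hx).1.congr_of_eventuallyEq (mem_of_superset (h.op.mem_nhds hx) h2)

theorem C2.cont (h : C2 U B g l) : ContinuousOn B U ∧ ContinuousOn g U ∧ ContinuousOn l U := by
  obtain ⟨H, a, b⟩ := h.d2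
  refine ⟨fun x hx => (h.d1 x hx).continuousAt.continuousWithinAt,
    fun x hx => (b x hx).1.continuousAt.continuousWithinAt,
    ContinuousOn.congr (f := fun x => ∑ k, H x (e k) k) ?_ fun x hx => (b x hx).2⟩
  exact continuousOn_finsetSum _ fun k _ =>
    (EuclideanSpace.proj k : E3 →L[ℝ] ℝ).continuous.comp_continuousOn
      (a.clm_apply continuousOn_const)

theorem C2.ld (h : C2 U B g l) : LD U B g := by
  exact LD.of_c1 h.op h.d1 h.cont.2.1

theorem C2.const (hU : IsOpen U) (c : ℝ) : C2 U (fun _ => c) (fun _ => 0) (fun _ => 0) := by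
  refine ⟨hU, fun x _ => ?_, fun _ => 0, continuousOn_const,
    fun x _ => ⟨hasFDerivAt_const _ _, by simp⟩⟩
  rw [map_zero]
  exact hasFDerivAt_const _ _

theorem C2.add (h : C2 U B g l) (h' : C2 U B' g' l') :
    C2 U (fun x => B x + B' x) (fun x => g x + g' x) (fun x => l x + l' x) := by
  obtain ⟨H, a, b⟩ := h.d2
  obtain ⟨H', a', b'⟩ := h'.d2
  refine ⟨h.op, fun x hx => ?_, fun x => H x + H' x, a.add a',
    fun x hx => ⟨(b x hx).1.add (b' x hx).1, ?_⟩⟩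
  · rw [map_add]
    exact (h.d1 x hx).add (h'.d1 x hx)
  · rw [(b x hx).2, (b' x hx).2, ← Finset.sum_add_distrib]
    rfl

theorem C2.sub (h : C2 U B g l) (h' : C2 U B' g' l') :
    C2 U (fun x => B x - B' x) (fun x => g x - g' x) (fun x => l x - l' x) := by
  obtain ⟨H, a, b⟩ := h.d2
  obtain ⟨H', a', b'⟩ := h'.d2
  refine ⟨h.op, fun x hx => ?_, fun x => H x - H' x, a.sub a',
    fun x hx => ⟨(b x hx).1.sub (b' x hx).1, ?_⟩⟩
  · rw [map_sub]
    exact (h.d1 x hx).sub (h'.d1 x hx)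
  · rw [(b x hx).2, (b' x hx).2, ← Finset.sum_sub_distrib]
    rfl

theorem C2.cmul (c : ℝ) (h : C2 U B g l) :
    C2 U (fun x => c * B x) (fun x => c • g x) (fun x => c * l x) := by
  obtain ⟨H, a, b⟩ := h.d2
  refine ⟨h.op, fun x hx => ?_, fun x => c • H x, a.const_smul c,
    fun x hx => ⟨(b x hx).1.const_smul c, ?_⟩⟩
  · refine ((h.d1 x hx).const_mul c).congr_fderiv ?_
    ext v
    simp [real_inner_smul_left]
  · rw [(b x hx).2, Finset.mul_sum]
    rfl

theorem C2.mul (h : C2 U B g l) (h' : C2 U B' g' l') :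
    C2 U (fun x => B x * B' x) (fun x => B x • g' x + B' x • g x)
      (fun x => B x * l' x + 2 * ⟪g x, g' x⟫ + B' x * l x) := by
  obtain ⟨H, a, b⟩ := h.d2
  obtain ⟨H', a', b'⟩ := h'.d2
  obtain ⟨c1, c2, -⟩ := h.cont
  obtain ⟨c1', c2', -⟩ := h'.cont
  refine ⟨h.op, fun x hx => ?_, fun x => (B x • H' x + (innerSL ℝ (g x)).smulRight (g' x)) +
    (B' x • H x + (innerSL ℝ (g' x)).smulRight (g x)),
    ((c1.smul a').add (c2a_rank c2 c2')).add ((c1'.smul a).add (c2a_rank c2' c2)),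
    fun x hx => ⟨((h.d1 x hx).smul (b' x hx).1).add ((h'.d1 x hx).smul (b x hx).1), ?_⟩⟩
  · refine ((h.d1 x hx).mul (h'.d1 x hx)).congr_fderiv ?_
    ext v
    simp [real_inner_smul_left, inner_add_left]
  · simp only [add_apply, PiLp.add_apply, smul_apply, PiLp.smul_apply, smul_eq_mul,
      Finset.sum_add_distrib, ← Finset.mul_sum, c2a_tr, ← (b x hx).2, ← (b' x hx).2]
    rw [real_inner_comm (g x) (g' x)]
    ring

theorem C2.comp {Γ Γ1 Γ2 : ℝ → ℝ} {W : Set ℝ} (h : C2 U B g l) (hW : IsOpen W)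
    (hd : ∀ s ∈ W, HasDerivAt Γ (Γ1 s) s ∧ HasDerivAt Γ1 (Γ2 s) s) (hc : ContinuousOn Γ2 W)
    (hm : ∀ x ∈ U, B x ∈ W) :
    C2 U (fun x => Γ (B x)) (fun x => Γ1 (B x) • g x)
      (fun x => Γ1 (B x) * l x + Γ2 (B x) * ‖g x‖ ^ 2) := by
  obtain ⟨H, a, b⟩ := h.d2
  obtain ⟨c1, c2, -⟩ := h.cont
  have c3 : ContinuousOn (fun x => Γ1 (B x)) U :=
    ContinuousOn.comp (g := Γ1) (fun s hs => (hd s hs).2.continuousAt.continuousWithinAt) c1 hm
  have c4 : ContinuousOn (fun x => Γ2 (B x)) U := hc.comp c1 hm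
  have key : ∀ {Γ : ℝ → ℝ} {d : ℝ} {x : E3}, x ∈ U → HasDerivAt Γ d (B x) →
      HasFDerivAt (fun x => Γ (B x)) (innerSL ℝ (d • g x)) x := fun {Γ d x} hx hΓ => by
    refine (hΓ.comp_hasFDerivAt x (h.d1 x hx)).congr_fderiv ?_
    ext v
    simp [real_inner_smul_left]
  refine ⟨h.op, fun x hx => key hx (hd _ (hm x hx)).1,
    fun x => Γ1 (B x) • H x + (innerSL ℝ (Γ2 (B x) • g x)).smulRight (g x),
    (c3.smul a).add (c2a_rank (c4.smul c2) c2),
    fun x hx => ⟨(key hx (hd _ (hm x hx)).2).smul (b x hx).1, ?_⟩⟩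
  simp only [add_apply, PiLp.add_apply, smul_apply, PiLp.smul_apply, smul_eq_mul,
    Finset.sum_add_distrib, ← Finset.mul_sum, c2a_tr, ← (b x hx).2]
  rw [real_inner_smul_left, real_inner_self_eq_norm_sq]

end

end Vale.Agent.P363
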