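import Vale.Agent.P363.CLd1

/-! P363, block C: increments, closedness under limits. -/

open MeasureTheory Set Metric Filter Topology
open scoped RealInnerProductSpace

namespace Vale.Agent.P363

noncomputable section

variable {U : Set E3} {f : E3 → ℝ} {g : E3 → E3}

theorem LD.pairs (h : LD U f g) (k : Fin 3) : ∀ᵐ x : E3, ∀ᵐ a : ℝ, ∀ᵐ b : ℝ,
    (∀ t ∈ uIcc a b, x + t • e k ∈ U) →
      IntervalIntegrable (fun t => g (x + t • e k) k) volume a b ∧
      f (x + b • e k) - f (x + a • e k) = ∫ t in a..b, g (x + t • e k) k := by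
  filter_upwards [h.line k] with x ⟨F, h1, h2, h3⟩
  filter_upwards [h1] with a ha
  filter_upwards [h1] with b hb hU
  have := ac_ftc (h := fun t => g (x + t • e k) k) (h2 a b hU)
    (h3.mono fun t ht htm => ht (hU t htm))
  rw [ha (hU a left_mem_uIcc), hb (hU b right_mem_uIcc)]
  exact this

theorem LD.of_pairs (hU : IsOpen U) (mf : AEStronglyMeasurable f (volume.restrict U))
    (mg : AEStronglyMeasurable g (volume.restrict U)) (hg : Loc1 U (fun x => ‖g x‖))
    (h : ∀ k : Fin 3, ∀ᵐ x : E3, ∀ᵐ a : ℝ, ∀ᵐ b : ℝ, (∀ t ∈ uIcc a b, x + t • e k ∈ U) →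
      f (x + b • e k) - f (x + a • e k) = ∫ t in a..b, g (x + t • e k) k) : LD U f g := by
  refine ⟨mf, mg, fun k => ?_⟩
  filter_upwards [h k, ae_line_loc k hU hg, ae_line_meas k hU mg] with x hx hl hm
  have ho : IsOpen {t : ℝ | x + t • e k ∈ U} :=
    hU.preimage (f := fun t : ℝ => x + t • e k) (by fun_prop)
  refine rep_of_pairs (U := {t : ℝ | x + t • e k ∈ U}) (f := fun t => f (x + t • e k))
    (h := fun t => g (x + t • e k) k) ho (fun a b hab => ?_) hx
  have h1 := intervalIntegrable_iff.1 (hl a b hab)
  rw [intervalIntegrable_iff]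
  have h2 : AEStronglyMeasurable (fun t : ℝ => g (x + t • e k)) (volume.restrict (uIoc a b)) :=
    hm.mono_measure (Measure.restrict_mono (uIoc_subset_uIcc.trans hab) le_rfl)
  refine Integrable.mono' h1
    ((EuclideanSpace.proj k : E3 →L[ℝ] ℝ).continuous.comp_aestronglyMeasurable h2)
    (Eventually.of_forall fun t => ?_)
  exact PiLp.norm_apply_le (g (x + t • e k)) k

theorem LD.gid (h : LD univ f g) (k : Fin 3) (s : ℝ) :
    ∀ᵐ x : E3, f (x + s • e k) - f x = ∫ t in (0 : ℝ)..s, g (x + t • e k) k := by
  have mf : AEStronglyMeasurable f volume := by simpa using h.mf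
  have mg : AEStronglyMeasurable g volume := by simpa using h.mg
  have mk : AEStronglyMeasurable (fun x => g x k) volume :=
    (EuclideanSpace.proj k : E3 →L[ℝ] ℝ).continuous.comp_aestronglyMeasurable mg
  have m1 : AEStronglyMeasurable (fun x => f (x + s • e k) - f x) volume :=
    (mf.comp_quasiMeasurePreserving
      (measurePreserving_add_right volume (s • e k)).quasiMeasurePreserving).sub mf
  have m2 : ∀ I : Set ℝ,
      AEStronglyMeasurable (fun x : E3 => ∫ t in I, g (x + t • e k) k) volume := by
    intro I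
    have q : Measure.QuasiMeasurePreserving (fun p : E3 × ℝ => p.1 + p.2 • e k)
        (volume.prod (volume.restrict I)) volume :=
      MeasureTheory.QuasiMeasurePreserving.prod_of_left (by fun_prop) (Eventually.of_forall fun t =>
        (measurePreserving_add_right volume (t • e k)).quasiMeasurePreserving)
    exact (mk.comp_quasiMeasurePreserving q).integral_prod_right'
  have m3 : AEStronglyMeasurable (fun x : E3 => ∫ t in (0 : ℝ)..s, g (x + t • e k) k) volume :=
    (m2 _).sub (m2 _)
  refine ae_of_line k (nullMeasurableSet_eq_fun m1.aemeasurable m3.aemeasurable) ?_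
  filter_upwards [h.line k] with x ⟨F, h1, h2, h3⟩
  have h4 : ∀ᵐ a : ℝ, x + (a + s) • e k ∈ univ → f (x + (a + s) • e k) = F (a + s) :=
    (measurePreserving_add_right volume s).quasiMeasurePreserving.ae h1
  filter_upwards [h1, h4] with a ha hb
  have h5 := (ac_ftc (h := fun t => g (x + t • e k) k) (h2 a (a + s) fun _ _ => mem_univ _)
    (h3.mono fun t ht _ => ht (mem_univ _))).2
  have h6 := intervalIntegral.integral_comp_add_left (fun t => g (x + t • e k) k) a
    (a := 0) (b := s)
  rw [add_zero] at h6
  rw [add_assoc, ← add_smul, ha (mem_univ _), hb (mem_univ _), h5, ← h6]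
  simp only [add_smul, add_assoc]

end

end Vale.Agent.P363
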