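import Vale.Agent.P363.CHeatx

/-! P363, block C: the heat kernel. -/

open MeasureTheory Set Metric Filter Topology
open scoped RealInnerProductSpace

namespace Vale.Agent.P363

noncomputable section

/-- Approximate identity, a.e. along a sequence. -/
theorem hk_approx {f : E3 → ℝ} (hf : Integrable f) : ∃ t : ℕ → ℝ, (∀ n, 0 < t n) ∧
    Tendsto t atTop (𝓝 0) ∧
    ∀ᵐ x : E3, Tendsto (fun n => ∫ y, hk (t n) (x - y) * f y) atTop (𝓝 (f x)) :=
  hk_approx_p le_rfl ENNReal.one_ne_top (memLp_one_iff_integrable.2 hf)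

theorem hk_approx2 {f : E3 → ℝ} (hf : MemLp f 2 volume) : ∃ t : ℕ → ℝ, (∀ n, 0 < t n) ∧
    Tendsto t atTop (𝓝 0) ∧
    ∀ᵐ x : E3, Tendsto (fun n => ∫ y, hk (t n) (x - y) * f y) atTop (𝓝 (f x)) :=
  hk_approx_p one_le_two ENNReal.ofNat_ne_top hf

theorem hk_cmp {s t : ℝ} (ht : 0 < t) (h1 : t / 2 ≤ s) (h2 : s ≤ 2 * t) (z : E3) :
    hk s z ≤ 4 ^ (3 / 2 : ℝ) * hk (2 * t) z := by
  have hπ := Real.pi_pos
  have hs : 0 < s := by linarith
  unfold hk
  rw [← mul_assoc]
  refine mul_le_mul ?_ (Real.exp_le_exp.2 ?_) (Real.exp_pos _).le (by positivity)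
  · have e : (4 : ℝ) ^ (3 / 2 : ℝ) * (2 * Real.pi * (2 * t)) ^ (-(3 / 2) : ℝ)
        = (2 * Real.pi * (2 * t) / 4) ^ (-(3 / 2) : ℝ) := by
      rw [Real.div_rpow (by positivity) (by norm_num), Real.rpow_neg (x := 4) (by norm_num),
        div_inv_eq_mul, mul_comm]
    rw [e]
    exact Real.rpow_le_rpow_of_nonpos (by positivity) (by nlinarith) (by norm_num)
  · rw [neg_div, neg_div, neg_le_neg_iff]
    exact div_le_div_of_nonneg_left (by positivity) (by positivity) (by linarith)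

theorem heat_der {w : E3 → ℝ} (hw : MemLp w 2 volume) (x : E3) {t : ℝ} (ht : 0 < t) :
    HasDerivAt (fun s => ∫ y, hk s (x - y) * w y)
      (∫ y, hk t (x - y) * (‖x - y‖ ^ 2 / t ^ 2 - 3 / t) / 2 * w y) t := by
  have hc := continuous_hk
  have t2 : 0 < 2 * t := by linarith
  obtain ⟨C, hC⟩ : ∃ C : ℝ, C = 4 ^ (3 / 2 : ℝ) * (4 / t ^ 2 + 6 / t) := ⟨_, rfl⟩
  have C0 : 0 ≤ C := by rw [hC]; positivity
  have hb : MemLp (fun y => C * ((1 + ‖x - y‖ ^ 2) * hk (2 * t) (x - y))) 2 volume :=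
    memLp_of_hk t2 x (by have := hc (2 * t); fun_prop) C0 fun y =>
      (Real.norm_of_nonneg (by have := hk_pos t2 (x - y); positivity)).le
  refine (hasDerivAt_integral_of_dominated_loc_of_deriv_le (s := Icc (t / 2) (2 * t))
    (F' := fun s y => hk s (x - y) * (‖x - y‖ ^ 2 / s ^ 2 - 3 / s) / 2 * w y)
    (bound := fun y => C * ((1 + ‖x - y‖ ^ 2) * hk (2 * t) (x - y)) * ‖w y‖)
    (Icc_mem_nhds (by linarith) (by linarith)) (Eventually.of_forall fun s => ?_)
    ((hk_H1 ht x).l2.integrable_mul hw) ?_ (Eventually.of_forall fun y s hs => ?_)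
    (hb.integrable_mul hw.norm) (Eventually.of_forall fun y s hs => ?_)).2
  · exact (Continuous.aestronglyMeasurable (by have := hc s; fun_prop)).mul hw.1
  · exact (Continuous.aestronglyMeasurable (by have := hc t; fun_prop)).mul hw.1
  · have s0 : 0 < s := by linarith [hs.1]
    rw [norm_mul]
    refine mul_le_mul_of_nonneg_right ?_ (norm_nonneg _)
    have a1 : ‖x - y‖ ^ 2 / s ^ 2 ≤ 4 / t ^ 2 * ‖x - y‖ ^ 2 := by
      rw [div_mul_eq_mul_div, div_le_div_iff₀ (by positivity) (by positivity)]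
      have : t ^ 2 ≤ 4 * s ^ 2 := by nlinarith [hs.1]
      nlinarith [sq_nonneg ‖x - y‖]
    have a2 : 3 / s ≤ 6 / t := by
      rw [div_le_div_iff₀ s0 ht]
      linarith [hs.1]
    have a3 : 0 ≤ ‖x - y‖ ^ 2 / s ^ 2 := by positivity
    have a4 : 0 ≤ 3 / s := by positivity
    have a5 : 0 ≤ 4 / t ^ 2 := by positivity
    have a6 : 0 ≤ 6 / t * ‖x - y‖ ^ 2 := by positivity
    have a7 : |(‖x - y‖ ^ 2 / s ^ 2 - 3 / s) / 2| ≤ (4 / t ^ 2 + 6 / t) * (1 + ‖x - y‖ ^ 2) := by
      rw [abs_le]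
      constructor <;> nlinarith
    rw [mul_div_assoc, Real.norm_eq_abs, abs_mul, abs_of_pos (hk_pos s0 _)]
    refine (mul_le_mul (hk_cmp ht hs.1 hs.2 _) a7 (abs_nonneg _)
      (by have := hk_pos t2 (x - y); positivity)).trans_eq ?_
    rw [hC]
    ring
  · exact (hk_dt (by linarith [hs.1]) (x - y)).mul_const (w y)

theorem heat_ibp {w : E3 → ℝ} {gw : E3 → E3} (h : H1 w gw) (x : E3) {t : ℝ} (ht : 0 < t) :
    ∫ y, hk t (x - y) * (‖x - y‖ ^ 2 / t ^ 2 - 3 / t) / 2 * w y
      = -∫ y, (1 / 2) * ⟪gw y, (hk t (x - y) / t) • (x - y)⟫ := by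
  have hc := continuous_hk t
  have hH := hk_H1 ht x
  have hp := fun y => hk_pos ht (x - y)
  have ld : ∀ k, LD univ (fun y => ((hk t (x - y) / t) • (x - y)) k)
      (fun y => (1 / t * hk t (x - y)) • ((0 : E3) - e k)
        + (x k - y k) • ((1 / t) • ((hk t (x - y) / t) • (x - y)))) := fun k => by
    refine ((hH.ld.cmul (1 / t)).mul isOpen_univ ((LD.const univ (x k)).sub
      (LD.coord univ k))).congr isOpen_univ (Eventually.of_forall fun y _ => ?_)
      (Eventually.of_forall fun y _ => rfl)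
    simp only [PiLp.smul_apply, PiLp.sub_apply, smul_eq_mul]
    ring
  have eG : ∀ (k : Fin 3) (y : E3), ((1 / t * hk t (x - y)) • ((0 : E3) - e k)
      + (x k - y k) • ((1 / t) • ((hk t (x - y) / t) • (x - y)))) k
      = hk t (x - y) * ((x - y) k ^ 2 / t ^ 2 - 1 / t) := fun k y => by
    simp only [PiLp.add_apply, PiLp.smul_apply, PiLp.sub_apply, smul_eq_mul, e, PiLp.zero_apply,
      PiLp.single_apply, if_true]
    ring
  have m1 : ∀ k, MemLp (fun y => ((hk t (x - y) / t) • (x - y)) k) 2 volume := fun k =>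
    hH.l2g.of_le (Continuous.aestronglyMeasurable (by fun_prop))
      (Eventually.of_forall fun y => PiLp.norm_apply_le _ k)
  have m2 : ∀ k, MemLp (fun y => hk t (x - y) * ((x - y) k ^ 2 / t ^ 2 - 1 / t)) 2 volume := by
    intro k
    refine memLp_of_hk ht x (by fun_prop) (C := 1 / t ^ 2 + 1 / t) (by positivity) fun y => ?_
    have a1 : (x - y) k ^ 2 ≤ ‖x - y‖ ^ 2 := by
      have := pow_le_pow_left₀ (norm_nonneg _) (PiLp.norm_apply_le (x - y) k) 2
      rwa [Real.norm_eq_abs, sq_abs] at this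
    have a2 : (x - y) k ^ 2 / t ^ 2 ≤ 1 / t ^ 2 * ‖x - y‖ ^ 2 := by
      rw [one_div_mul_eq_div]
      exact div_le_div_of_nonneg_right a1 (by positivity)
    have a3 : 0 ≤ (x - y) k ^ 2 / t ^ 2 := by positivity
    have a4 : 0 ≤ 1 / t := by positivity
    have a5 : 0 ≤ 1 / t ^ 2 := by positivity
    have a6 : 0 ≤ 1 / t * ‖x - y‖ ^ 2 := by positivity
    have a7 : |(x - y) k ^ 2 / t ^ 2 - 1 / t| ≤ (1 / t ^ 2 + 1 / t) * (1 + ‖x - y‖ ^ 2) := by
      rw [abs_le]
      constructor <;> nlinarith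
    rw [Real.norm_eq_abs, abs_mul, abs_of_pos (hp y)]
    refine (mul_le_mul_of_nonneg_left a7 (hp y).le).trans_eq ?_
    ring
  have m3 : ∀ k, MemLp (fun y => gw y k) 2 volume := fun k =>
    h.l2g.of_le ((EuclideanSpace.proj k : E3 →L[ℝ] ℝ).continuous.comp_aestronglyMeasurable
      h.l2g.1) (Eventually.of_forall fun y => PiLp.norm_apply_le _ k)
  have hd := div_lemma h.ld ld (fun k => h.l2.integrable_mul (m1 k))
    (fun k => by simp only [eG]; exact h.l2.integrable_mul (m2 k))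
    (fun k => (m1 k).integrable_mul (m3 k))
  simp only [eG] at hd
  have i1 : Integrable fun y => w y * ∑ k, hk t (x - y) * ((x - y) k ^ 2 / t ^ 2 - 1 / t) :=
    h.l2.integrable_mul (memLp_finsetSum _ fun k _ => m2 k)
  have i2 : Integrable fun y => ⟪(hk t (x - y) / t) • (x - y), gw y⟫ :=
    (hH.l2g.norm.integrable_mul h.l2g.norm).mono' (hH.l2g.1.inner h.l2g.1)
      (Eventually.of_forall fun y => norm_inner_le_norm _ _)
  rw [integral_add i1 i2] at hd
  have e1 : ∫ y, hk t (x - y) * (‖x - y‖ ^ 2 / t ^ 2 - 3 / t) / 2 * w y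
      = ∫ y, 1 / 2 * (w y * ∑ k, hk t (x - y) * ((x - y) k ^ 2 / t ^ 2 - 1 / t)) := by
    refine integral_congr_ae (Eventually.of_forall fun y => ?_)
    beta_reduce
    rw [EuclideanSpace.real_norm_sq_eq, Fin.sum_univ_three, Fin.sum_univ_three]
    ring
  rw [e1, integral_const_mul, integral_const_mul]
  simp only [real_inner_comm (gw _)] at hd ⊢
  linarith

/-- Supersolutions dominate their heat averages. -/
theorem heat_super {w : E3 → ℝ} {gw : E3 → E3} (h : H1 w gw) (c : ℝ) {S : Set E3}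
    (hs : ∀ x ∈ S, ∀ t, 0 < t → 0 ≤ ∫ y, ((1 / 2) * ⟪gw y, (hk t (x - y) / t) • (x - y)⟫ +
      c * w y * hk t (x - y))) :
    ∀ᵐ x : E3, x ∈ S → ∀ t, 0 < t → Real.exp (-c * t) * ∫ y, hk t (x - y) * w y ≤ w x := by
  obtain ⟨τ, τ0, τ1, hτ⟩ := hk_approx2 h.l2
  filter_upwards [hτ] with x hx hS t ht
  have der : ∀ s, 0 < s → HasDerivAt (fun s => Real.exp (-c * s) * ∫ y, hk s (x - y) * w y)
      (Real.exp (-c * s) * (-c * 1) * (∫ y, hk s (x - y) * w y) + Real.exp (-c * s) *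
        ∫ y, hk s (x - y) * (‖x - y‖ ^ 2 / s ^ 2 - 3 / s) / 2 * w y) s := fun s s0 =>
    ((hasDerivAt_id' s).const_mul (-c)).exp.mul (heat_der h.l2 x s0)
  have anti : AntitoneOn (fun s => Real.exp (-c * s) * ∫ y, hk s (x - y) * w y) (Ioi 0) := by
    refine antitoneOn_of_deriv_nonpos (convex_Ioi 0)
      (fun s s0 => (der s s0).continuousAt.continuousWithinAt)
      (fun s s0 => (der s (interior_subset s0)).differentiableAt.differentiableWithinAt)
      fun s s0 => ?_
    have s1 : 0 < s := interior_subset s0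
    have hH := hk_H1 s1 x
    have i1 : Integrable fun y => (1 / 2) * ⟪gw y, (hk s (x - y) / s) • (x - y)⟫ :=
      ((h.l2g.norm.integrable_mul hH.l2g.norm).mono' (h.l2g.1.inner hH.l2g.1)
        (Eventually.of_forall fun y => norm_inner_le_norm _ _)).const_mul _
    have i2 : Integrable fun y => c * w y * hk s (x - y) :=
      (h.l2.const_mul c).integrable_mul hH.l2
    have h1 := hs x hS s s1
    have e : ∫ y, c * w y * hk s (x - y) = c * ∫ y, hk s (x - y) * w y := by
      rw [← integral_const_mul]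
      exact integral_congr_ae (Eventually.of_forall fun y => by ring)
    rw [integral_add i1 i2, e] at h1
    rw [(der s s1).deriv, heat_ibp h x s1]
    nlinarith [Real.exp_pos (-c * s)]
  have lim : Tendsto (fun n => Real.exp (-c * τ n) * ∫ y, hk (τ n) (x - y) * w y) atTop
      (𝓝 (Real.exp (-c * 0) * w x)) :=
    ((Real.continuous_exp.tendsto _).comp (τ1.const_mul (-c))).mul hx
  rw [mul_zero, Real.exp_zero, one_mul] at lim
  refine ge_of_tendsto lim ?_
  filter_upwards [τ1.eventually (ge_mem_nhds ht)] with n hn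
  exact anti (τ0 n) ht hn

end

end Vale.Agent.P363
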