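import Vale.Agent.P363.CSub

/-! P363, block C: the heat kernel. -/

open MeasureTheory Set Metric Filter Topology
open scoped RealInnerProductSpace

namespace Vale.Agent.P363

noncomputable section

theorem hk_pos {t : ℝ} (ht : 0 < t) (x : E3) : 0 < hk t x := by
  unfold hk
  have := Real.pi_pos
  positivity

theorem gauss_integral {b : ℝ} (hb : 0 < b) :
    ∫ x : E3, Real.exp (-b * ‖x‖ ^ 2) = (Real.pi / b) ^ (3 / 2 : ℝ) := by
  rw [GaussianFourier.integral_rexp_neg_mul_sq_norm hb]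
  simp

theorem gauss_integrable {b : ℝ} (hb : 0 < b) :
    Integrable fun x : E3 => Real.exp (-b * ‖x‖ ^ 2) := by
  refine Integrable.of_integral_ne_zero ?_
  rw [gauss_integral hb]
  have := Real.pi_pos
  positivity

theorem hk_eq (t : ℝ) (x : E3) :
    hk t x = (2 * Real.pi * t) ^ (-(3 / 2) : ℝ) * Real.exp (-(1 / (2 * t)) * ‖x‖ ^ 2) := by
  unfold hk
  congr 2
  ring

theorem hk_int {t : ℝ} (ht : 0 < t) : Integrable (hk t) ∧ ∫ x, hk t x = 1 := by
  have hb : 0 < 1 / (2 * t) := by positivity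
  have hπ := Real.pi_pos
  have e : hk t = fun x => (2 * Real.pi * t) ^ (-(3 / 2) : ℝ) *
      Real.exp (-(1 / (2 * t)) * ‖x‖ ^ 2) := funext (hk_eq t)
  rw [e]
  refine ⟨(gauss_integrable hb).const_mul _, ?_⟩
  rw [integral_const_mul, gauss_integral hb]
  have e2 : Real.pi / (1 / (2 * t)) = 2 * Real.pi * t := by field_simp
  rw [e2, ← Real.rpow_add (by positivity)]
  norm_num

theorem continuous_hk (t : ℝ) : Continuous (hk t) := by
  unfold hk
  fun_prop

theorem hk_C2 {t : ℝ} (ht : 0 < t) (c : E3) : C2 univ (fun y => hk t (c - y))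
    (fun y => (hk t (c - y) / t) • (c - y))
    (fun y => hk t (c - y) * (‖c - y‖ ^ 2 / t ^ 2 - 3 / t)) := by
  have h := (((C2.normsq isOpen_univ c).cmul (-(1 / (2 * t)))).exp).cmul
    ((2 * Real.pi * t) ^ (-(3 / 2) : ℝ))
  refine h.congr (fun y _ => ?_) (fun y _ => ?_) (fun y _ => ?_)
  · rw [hk_eq, norm_sub_rev]
  · rw [hk_eq, norm_sub_rev, smul_smul, smul_smul, smul_smul, ← neg_sub y c, smul_neg, ← neg_smul]
    congr 1
    field_simp
  · rw [hk_eq, norm_sub_rev, smul_smul, norm_smul, mul_pow, Real.norm_eq_abs, sq_abs]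
    field_simp
    ring

theorem sq_gauss {b : ℝ} (hb : 0 < b) (r : ℝ) :
    (1 + r ^ 2) * Real.exp (-b * r ^ 2) ≤ (1 + 2 / b) * Real.exp (-(b / 2) * r ^ 2) := by
  have h1 : b / 2 * r ^ 2 + 1 ≤ Real.exp (b / 2 * r ^ 2) := Real.add_one_le_exp _
  have h0 : 0 ≤ b / 2 * r ^ 2 := by positivity
  have h2 : r ^ 2 ≤ 2 / b * Real.exp (b / 2 * r ^ 2) := by
    rw [div_mul_eq_mul_div, le_div_iff₀ hb]
    linarith
  have e : Real.exp (-(b / 2) * r ^ 2) = Real.exp (b / 2 * r ^ 2) * Real.exp (-b * r ^ 2) := by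
    rw [← Real.exp_add]
    congr 1
    ring
  rw [e, ← mul_assoc]
  refine mul_le_mul_of_nonneg_right ?_ (Real.exp_pos _).le
  linarith

/-- Functions dominated by a quadratic multiple of the heat kernel are square integrable. -/
theorem memLp_of_hk {α : Type} [NormedAddCommGroup α] {t : ℝ} (ht : 0 < t) (c : E3) {f : E3 → α}
    (hf : Continuous f) {C : ℝ} (hC : 0 ≤ C)
    (h : ∀ y, ‖f y‖ ≤ C * ((1 + ‖c - y‖ ^ 2) * hk t (c - y))) : MemLp f 2 volume := by
  have hb : 0 < 1 / (2 * t) := by positivity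
  have hπ := Real.pi_pos
  have h1 : MemLp (fun y : E3 => Real.exp (-(1 / (2 * t) / 2) * ‖c - y‖ ^ 2)) 2 volume := by
    rw [memLp_two_iff_integrable_sq (by fun_prop)]
    refine ((gauss_integrable hb).comp_sub_left c).congr (Eventually.of_forall fun y => ?_)
    beta_reduce
    rw [← Real.exp_nat_mul]
    congr 1
    push_cast
    ring
  refine (h1.const_mul (C * ((2 * Real.pi * t) ^ (-(3 / 2) : ℝ) * (1 + 2 / (1 / (2 * t)))))).mono'
    hf.aestronglyMeasurable (Eventually.of_forall fun y => (h y).trans ?_)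
  rw [mul_assoc C]
  refine mul_le_mul_of_nonneg_left ?_ hC
  rw [hk_eq, mul_left_comm, mul_assoc (_ ^ (-(3 / 2) : ℝ))]
  exact mul_le_mul_of_nonneg_left (sq_gauss hb _) (by positivity)

theorem hk_H1 {t : ℝ} (ht : 0 < t) (c : E3) :
    H1 (fun y => hk t (c - y)) (fun y => (hk t (c - y) / t) • (c - y)) := by
  have hc := continuous_hk t
  refine ⟨(hk_C2 ht c).ld, memLp_of_hk ht c (by fun_prop) zero_le_one fun y => ?_,
    memLp_of_hk ht c (by fun_prop) (C := 1 / t) (by positivity) fun y => ?_⟩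
  · have := hk_pos ht (c - y)
    rw [Real.norm_of_nonneg this.le, one_mul]
    exact le_mul_of_one_le_left this.le (by nlinarith [sq_nonneg ‖c - y‖])
  · have := hk_pos ht (c - y)
    rw [norm_smul, Real.norm_of_nonneg (by positivity)]
    have e : hk t (c - y) / t * ‖c - y‖ = 1 / t * (‖c - y‖ * hk t (c - y)) := by ring
    rw [e]
    refine mul_le_mul_of_nonneg_left (mul_le_mul_of_nonneg_right ?_ this.le) (by positivity)
    nlinarith [sq_nonneg (‖c - y‖ - 1), norm_nonneg (c - y)]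

theorem hk_dt {t : ℝ} (ht : 0 < t) (x : E3) :
    HasDerivAt (fun s => hk s x) (hk t x * (‖x‖ ^ 2 / t ^ 2 - 3 / t) / 2) t := by
  have hπ := Real.pi_pos
  have h0 : 0 < 2 * Real.pi * t := by positivity
  have h1 := (((hasDerivAt_id' t).const_mul (2 * Real.pi)).rpow_const
    (p := -(3 / 2)) (Or.inl h0.ne'))
  have h2 := ((hasDerivAt_const t (-‖x‖ ^ 2)).div ((hasDerivAt_id' t).const_mul 2)
    (by positivity)).exp
  refine (h1.mul h2).congr_deriv ?_
  simp only [hk, Pi.div_apply]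
  rw [Real.rpow_sub_one h0.ne']
  field_simp
  ring

theorem hk_le {t : ℝ} (ht : 0 < t) (x : E3) :
    hk t x ≤ (1 + (1 / (2 * t)) ^ 2) * Real.exp (-(‖x‖ ^ 2 / (2 * t))) := by
  have hπ := Real.pi_gt_three
  have h0 : 0 < 2 * Real.pi * t := by positivity
  unfold hk
  rw [neg_div]
  refine mul_le_mul_of_nonneg_right ?_ (Real.exp_pos _).le
  rw [Real.rpow_neg h0.le, ← Real.inv_rpow h0.le]
  have h1 : (2 * Real.pi * t)⁻¹ ≤ 1 / (2 * t) := by
    rw [← one_div]
    exact one_div_le_one_div_of_le (by positivity) (by nlinarith)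
  have h2 : 0 < (2 * Real.pi * t)⁻¹ := inv_pos.2 h0
  generalize (2 * Real.pi * t)⁻¹ = y at h1 h2
  have h3 : y ^ 2 ≤ (1 / (2 * t)) ^ 2 := pow_le_pow_left₀ h2.le h1 2
  rcases le_total y 1 with h | h
  · exact (Real.rpow_le_one h2.le h (by norm_num)).trans (by nlinarith [sq_nonneg y])
  · have := Real.rpow_le_rpow_of_exponent_le h (show (3 / 2 : ℝ) ≤ (2 : ℕ) by norm_num)
    rw [Real.rpow_natCast] at this
    linarith

/-- Away from the origin everything is bounded uniformly in time. -/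
theorem hk_far {s : ℝ} (hs : 0 < s) : ∃ M, 0 ≤ M ∧ ∀ t, 0 < t → ∀ x : E3, s ≤ ‖x‖ →
    hk t x ≤ M ∧ hk t x * ‖x‖ / t ≤ M := by
  refine ⟨1 + 2 / s ^ 4 + 2 / s * (1 + 6 / s ^ 4), by positivity, fun t ht x hx => ?_⟩
  have hr : 0 < ‖x‖ := hs.trans_le hx
  have h1 := hk_le ht x
  obtain ⟨u, hu⟩ : ∃ u, u = ‖x‖ ^ 2 / (2 * t) := ⟨_, rfl⟩
  have u0 : 0 < u := by rw [hu]; positivity
  have e1 : 1 / (2 * t) = u / ‖x‖ ^ 2 := by rw [hu]; field_simp
  have e2 : ‖x‖ / t = 2 * u / ‖x‖ := by rw [hu]; field_simp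
  rw [← hu, e1] at h1
  have h2 : (u / ‖x‖ ^ 2) ^ 2 ≤ u ^ 2 / s ^ 4 := by
    rw [div_pow, ← pow_mul]
    exact div_le_div_of_nonneg_left (by positivity) (by positivity) (pow_le_pow_left₀ hs.le hx 4)
  have hp : ∀ n : ℕ, u ^ n * Real.exp (-u) ≤ n.factorial := fun n => by
    have := Real.pow_div_factorial_le_exp u u0.le n
    rw [div_le_iff₀ (by positivity)] at this
    rw [Real.exp_neg, ← div_eq_mul_inv, div_le_iff₀ (Real.exp_pos u), mul_comm]
    exact this
  have p0 := hp 0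
  have p1 := hp 1
  have p2 := hp 2
  have p3 := hp 3
  norm_num [Nat.factorial] at p0 p1 p2 p3
  have q0 : Real.exp (-u) ≤ 1 := Real.exp_le_one_iff.2 (by linarith)
  have h3 : hk t x ≤ (1 + u ^ 2 / s ^ 4) * Real.exp (-u) :=
    h1.trans (mul_le_mul_of_nonneg_right (by linarith) (Real.exp_pos _).le)
  have s4 : 0 < 1 / s ^ 4 := by positivity
  have a1 : (1 + u ^ 2 / s ^ 4) * Real.exp (-u) ≤ 1 + 2 / s ^ 4 := by
    have := mul_le_mul_of_nonneg_left p2 s4.le
    have e : (1 + u ^ 2 / s ^ 4) * Real.exp (-u)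
      = Real.exp (-u) + 1 / s ^ 4 * (u ^ 2 * Real.exp (-u)) := by ring
    have e' : 2 / s ^ 4 = 1 / s ^ 4 * 2 := by ring
    linarith
  have a2 : (1 + u ^ 2 / s ^ 4) * Real.exp (-u) * u ≤ 1 + 6 / s ^ 4 := by
    have := mul_le_mul_of_nonneg_left p3 s4.le
    have e : (1 + u ^ 2 / s ^ 4) * Real.exp (-u) * u
      = u * Real.exp (-u) + 1 / s ^ 4 * (u ^ 3 * Real.exp (-u)) := by ring
    have e' : 6 / s ^ 4 = 1 / s ^ 4 * 6 := by ring
    linarith
  have a3 : 0 ≤ 2 / s * (1 + 6 / s ^ 4) := by positivity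
  have a4 : 0 ≤ 1 + 2 / s ^ 4 := by positivity
  refine ⟨by linarith, ?_⟩
  have a5 : hk t x * ‖x‖ / t = 2 / ‖x‖ * (hk t x * u) := by
    rw [mul_div_assoc, e2]; ring
  have a6 : 2 / ‖x‖ * (hk t x * u) ≤ 2 / s * (1 + 6 / s ^ 4) :=
    mul_le_mul (div_le_div_of_nonneg_left zero_le_two hs hx)
      ((mul_le_mul_of_nonneg_right h3 u0.le).trans a2) (mul_pos (hk_pos ht x) u0).le
      (by positivity)
  linarith

end

end Vale.Agent.P363
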