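import Vale.Agent.P363.CHeatA

/-! P363, block C: approximate identities converge along a sequence. -/

open MeasureTheory Set Metric Filter Topology
open scoped RealInnerProductSpace ENNReal

namespace Vale.Agent.P363

noncomputable section

theorem shift_tendsto {p : ℝ≥0∞} (h1 : 1 ≤ p) (hp : p ≠ ∞) {f : E3 → ℝ} (hf : MemLp f p volume) :
    Tendsto (fun w : E3 => eLpNorm (fun x => f (x - w) - f x) p volume) (𝓝 0) (𝓝 0) := by
  have : Fact (1 ≤ p) := ⟨h1⟩
  let g : E3 → C(E3, E3) := fun w => ⟨fun x => x - w, by fun_prop⟩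
  have hg : Continuous g :=
    (ContinuousMap.curry (⟨fun q : E3 × E3 => q.2 - q.1, by fun_prop⟩ : C(E3 × E3, E3))).continuous
  have hm : ∀ w, MeasurePreserving (g w) volume volume := fun w =>
    measurePreserving_sub_right volume w
  have h2 := (Continuous.compMeasurePreservingLp (f := fun _ : E3 => hf.toLp f) continuous_const
    hg hm hp).tendsto 0
  simp only [Lp.toLp_compMeasurePreserving] at h2
  rw [Lp.tendsto_Lp_iff_tendsto_eLpNorm''] at h2
  refine h2.congr fun w => ?_
  congr 1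
  funext x
  simp [g]

theorem avg_tendsto {p : ℝ≥0∞} (h1 : 1 ≤ p) (hp : p ≠ ∞) {f : E3 → ℝ} (hm : Measurable f)
    (hf : MemLp f p volume) (ν : Measure E3) [IsProbabilityMeasure ν] {a : ℕ → ℝ}
    (ha : Tendsto a atTop (𝓝 0)) : ∃ φ : ℕ → ℕ, StrictMono φ ∧
      ∀ᵐ x : E3, Tendsto (fun n => ∫ z, f (x - a (φ n) • z) ∂ν) atTop (𝓝 (f x)) := by
  have p0 : p ≠ 0 := (zero_lt_one.trans_le h1).ne'
  have q0 : 0 < p.toReal := ENNReal.toReal_pos p0 hp
  have mD : ∀ n, Measurable fun w : E3 × E3 => ‖f (w.1 - a n • w.2) - f w.1‖ₑ ^ p.toReal :=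
    fun n => by fun_prop
  have eG : ∀ w : E3, ∫⁻ x, ‖f (x - w) - f x‖ₑ ^ p.toReal
      = eLpNorm (fun x => f (x - w) - f x) p volume ^ p.toReal := fun w => by
    rw [eLpNorm_eq_eLpNorm' p0 hp, lintegral_rpow_enorm_eq_rpow_eLpNorm' q0]
  have hI : Tendsto (fun n => ∫⁻ z, (∫⁻ x, ‖f (x - a n • z) - f x‖ₑ ^ p.toReal) ∂ν) atTop
      (𝓝 (∫⁻ _, 0 ∂ν)) := by
    refine tendsto_lintegral_of_dominated_convergence
      (fun _ => (eLpNorm f p volume + eLpNorm f p volume) ^ p.toReal)
      (fun n => (mD n).lintegral_prod_left') (fun n => Eventually.of_forall fun z => ?_) ?_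
      (Eventually.of_forall fun z => ?_)
    · beta_reduce
      rw [eG]
      refine ENNReal.rpow_le_rpow ?_ q0.le
      have e := eLpNorm_comp_measurePreserving (p := p) hf.1
        (measurePreserving_sub_right volume (a n • z))
      exact (eLpNorm_sub_le (hm.comp (measurable_sub_const _)).aestronglyMeasurable hf.1 h1).trans
        (add_le_add e.le le_rfl)
    · rw [lintegral_const, measure_univ, mul_one]
      exact ENNReal.rpow_ne_top_of_nonneg q0.le (ENNReal.add_ne_top.2 ⟨hf.2.ne, hf.2.ne⟩)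
    · simp only [eG]
      have h2 : Tendsto (fun n => a n • z) atTop (𝓝 0) := by simpa using ha.smul_const z
      have h3 := ((ENNReal.continuous_rpow_const (y := p.toReal)).tendsto 0).comp
        ((shift_tendsto h1 hp hf).comp h2)
      rwa [ENNReal.zero_rpow_of_pos q0] at h3
  rw [lintegral_zero] at hI
  have hpt : ∀ n x, ‖∫ z, f (x - a n • z) ∂ν - f x‖ₑ ^ p.toReal
      ≤ ∫⁻ z, ‖f (x - a n • z) - f x‖ₑ ^ p.toReal ∂ν := by
    intro n x
    have m1 : AEStronglyMeasurable (fun z : E3 => f (x - a n • z) - f x) ν :=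
      Measurable.aestronglyMeasurable (by fun_prop)
    rw [lintegral_rpow_enorm_eq_rpow_eLpNorm' q0, ← eLpNorm_eq_eLpNorm' p0 hp]
    refine ENNReal.rpow_le_rpow ?_ q0.le
    by_cases ht : eLpNorm (fun z : E3 => f (x - a n • z) - f x) p ν = ∞
    · rw [ht]; exact le_top
    have i1 : Integrable (fun z : E3 => f (x - a n • z) - f x) ν :=
      MemLp.integrable h1 ⟨m1, lt_top_iff_ne_top.2 ht⟩
    have i2 : Integrable (fun z : E3 => f (x - a n • z)) ν :=
      (i1.add (integrable_const (f x))).congr (Eventually.of_forall fun z => sub_add_cancel _ _)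
    have e : ∫ z, f (x - a n • z) ∂ν - f x = ∫ z, (f (x - a n • z) - f x) ∂ν := by
      rw [integral_sub i2 (integrable_const _)]
      simp
    rw [e]
    refine (enorm_integral_le_lintegral_enorm _).trans ?_
    rw [← eLpNorm_one_eq_lintegral_enorm]
    exact eLpNorm_le_eLpNorm_of_exponent_le h1 m1
  have hT : Tendsto (fun n => eLpNorm ((fun x => ∫ z, f (x - a n • z) ∂ν) - f) p volume) atTop
      (𝓝 0) := by
    have h3 := ((ENNReal.continuous_rpow_const (y := 1 / p.toReal)).tendsto 0).comp hI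
    rw [ENNReal.zero_rpow_of_pos (by positivity)] at h3
    refine tendsto_of_tendsto_of_tendsto_of_le_of_le tendsto_const_nhds h3 (fun _ => zero_le)
      fun n => ?_
    beta_reduce
    rw [eLpNorm_eq_lintegral_rpow_enorm_toReal p0 hp, Function.comp_apply]
    refine ENNReal.rpow_le_rpow ?_ (by positivity)
    rw [← lintegral_lintegral_swap (mD n).aemeasurable]
    exact lintegral_mono fun x => hpt n x
  refine (tendstoInMeasure_of_tendsto_eLpNorm p0 (fun n => ?_) hf.1 hT).exists_seq_tendsto_ae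
  exact (StronglyMeasurable.integral_prod_right' (f := fun w : E3 × E3 => f (w.1 - a n • w.2))
    (Measurable.stronglyMeasurable (by fun_prop))).aestronglyMeasurable

theorem hk_scale {a : ℝ} (ha : 0 < a) (z : E3) : hk (a ^ 2) (a • z) = (a ^ 3)⁻¹ * hk 1 z := by
  have hπ := Real.pi_pos
  unfold hk
  rw [norm_smul, mul_pow, Real.norm_eq_abs, sq_abs, Real.mul_rpow (by positivity) (by positivity),
    mul_one, ← Real.rpow_natCast a 2, ← Real.rpow_mul ha.le, ← Real.rpow_natCast a 3,
    ← Real.rpow_neg ha.le]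
  have e1 : ((2 : ℕ) : ℝ) * -(3 / 2) = -((3 : ℕ) : ℝ) := by norm_num
  have e2 : -(a ^ ((2 : ℕ) : ℝ) * ‖z‖ ^ 2) / (2 * a ^ ((2 : ℕ) : ℝ)) = -‖z‖ ^ 2 / (2 * 1) := by
    have : 0 < a ^ ((2 : ℕ) : ℝ) := by positivity
    field_simp
  rw [e1, e2]
  ring

theorem hk_conv {a : ℝ} (ha : 0 < a) (f : E3 → ℝ) (x : E3) :
    ∫ y, hk (a ^ 2) (x - y) * f y
      = ∫ z, f (x - a • z) ∂(volume.withDensity fun z => ENNReal.ofReal (hk 1 z)) := by
  rw [integral_withDensity_eq_integral_toReal_smul (continuous_hk 1).measurable.ennreal_ofReal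
    (Eventually.of_forall fun _ => ENNReal.ofReal_lt_top),
    ← integral_sub_left_eq_self (fun y => hk (a ^ 2) (x - y) * f y) volume x]
  have h := Measure.integral_comp_smul volume (fun y : E3 => hk (a ^ 2) y * f (x - y)) a
  simp only [hk_scale ha, mul_assoc, finrank_euclideanSpace, Fintype.card_fin, smul_eq_mul] at h
  rw [integral_const_mul, abs_of_pos (by positivity)] at h
  have h2 := mul_left_cancel₀ (by positivity) h
  simp only [sub_sub_cancel, smul_eq_mul, ENNReal.toReal_ofReal (hk_pos one_pos _).le]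
  exact h2.symm

theorem hk_approx_p {p : ℝ≥0∞} (h1 : 1 ≤ p) (hp : p ≠ ∞) {f : E3 → ℝ} (hf : MemLp f p volume) :
    ∃ t : ℕ → ℝ, (∀ n, 0 < t n) ∧ Tendsto t atTop (𝓝 0) ∧
    ∀ᵐ x : E3, Tendsto (fun n => ∫ y, hk (t n) (x - y) * f y) atTop (𝓝 (f x)) := by
  have : IsProbabilityMeasure (volume.withDensity fun z : E3 => ENNReal.ofReal (hk 1 z)) := by
    refine ⟨?_⟩
    rw [withDensity_apply _ MeasurableSet.univ, Measure.restrict_univ,
      ← ofReal_integral_eq_lintegral_ofReal (hk_int one_pos).1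
        (Eventually.of_forall fun z => (hk_pos one_pos z).le), (hk_int one_pos).2,
      ENNReal.ofReal_one]
  have he := hf.1.ae_eq_mk
  have ha : Tendsto (fun n : ℕ => 1 / ((n : ℝ) + 1)) atTop (𝓝 0) :=
    tendsto_one_div_add_atTop_nhds_zero_nat
  obtain ⟨φ, hφ, h⟩ := avg_tendsto h1 hp hf.1.stronglyMeasurable_mk.measurable (hf.ae_eq he)
    (volume.withDensity fun z : E3 => ENNReal.ofReal (hk 1 z)) ha
  refine ⟨fun n => (1 / ((φ n : ℝ) + 1)) ^ 2, fun n => by positivity, ?_, ?_⟩
  · simpa using (ha.comp hφ.tendsto_atTop).pow 2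
  · filter_upwards [h, he] with x hx ex
    rw [ex]
    refine hx.congr fun n => ?_
    rw [← hk_conv (by positivity)]
    exact integral_congr_ae (he.mono fun y hy => by simp only [hy])

end

end Vale.Agent.P363
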