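import Vale.Agent.P363.CIntA

/-! P363, block C: integration by parts. -/

open MeasureTheory Set Metric Filter Topology
open scoped RealInnerProductSpace

namespace Vale.Agent.P363

noncomputable section

variable {U : Set E3} {f : E3 → ℝ} {g : E3 → E3}

namespace CIntAux

theorem int_sq (h : H1 f g) : Integrable (fun x => f x ^ 2) := h.l2.integrable_sq

theorem int_gsq (h : H1 f g) : Integrable (fun x => ‖g x‖ ^ 2) := h.l2g.norm.integrable_sq

theorem int_fg (h : H1 f g) : Integrable (fun x => |f x| * ‖g x‖) :=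
  h.l2.norm.integrable_mul h.l2g.norm

theorem meas_k {G : E3 → E3} (hG : AEStronglyMeasurable G volume) (k : Fin 3) :
    AEStronglyMeasurable (fun x => G x k) volume :=
  (EuclideanSpace.proj (𝕜 := ℝ) k : E3 →L[ℝ] ℝ).continuous.comp_aestronglyMeasurable hG

theorem abs_k (v : E3) (k : Fin 3) : |v k| ≤ ‖v‖ := by
  simpa using PiLp.norm_apply_le v k

theorem meas_r (c : E3) : Measurable fun x : E3 => ‖x - c‖ :=
  (continuous_id.sub continuous_const).norm.measurable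

theorem ae_ne (c : E3) : ∀ᵐ x : E3, ‖x - c‖ ≠ 0 := ae_norm_ne c 0

/-- divergence theorem for a radial field -/
theorem radial (h : H1 f g) (c : E3) {φ ψ : E3 → ℝ} {M : ℝ}
    (hφ : LD univ φ fun x => ψ x • (x - c)) (hM : ∀ x, |φ x| * ‖x - c‖ ≤ M)
    (i1 : Integrable fun x => f x ^ 2 * φ x)
    (i2 : Integrable fun x => f x ^ 2 * (ψ x * ‖x - c‖ ^ 2)) :
    Integrable (fun x => f x * φ x * ⟪x - c, g x⟫) ∧
    ∫ x, f x ^ 2 * (3 * φ x + ψ x * ‖x - c‖ ^ 2) = -2 * ∫ x, f x * φ x * ⟪x - c, g x⟫ := by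
  have mf := h.l2.aestronglyMeasurable
  have mg := h.l2g.aestronglyMeasurable
  have mφ : AEStronglyMeasurable φ volume := by simpa using hφ.mf
  have mc : AEStronglyMeasurable (fun x : E3 => x - c) volume :=
    (continuous_id.sub continuous_const).aestronglyMeasurable
  have hM0 : 0 ≤ M := le_trans (by positivity) (hM c)
  have hX : ∀ k, LD univ (fun x => (φ x • (x - c)) k)
      (fun x => φ x • e k + (x k - c k) • (ψ x • (x - c))) := fun k => by
    have h1 := hφ.mul isOpen_univ ((LD.coord univ k).sub (LD.const univ (c k)))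
    simpa using h1
  have hXb : ∀ x k, |(φ x • (x - c)) k| ≤ M := fun x k => by
    refine (abs_k _ k).trans ?_
    rw [norm_smul]
    exact hM x
  have mX : ∀ k, AEStronglyMeasurable (fun x => (φ x • (x - c)) k) volume := fun k => by
    simpa using (hX k).mf
  have hG : ∀ x k, (φ x • e k + (x k - c k) • (ψ x • (x - c))) k =
      φ x + ψ x * (x - c) k ^ 2 := fun x k => by
    simp [e]
    ring
  have j0 : Integrable (fun x => f x * φ x * ⟪x - c, g x⟫) := by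
    refine ((int_fg h).const_mul M).mono' ((mf.mul mφ).mul (mc.inner mg)) (ae_of_all _ fun x => ?_)
    rw [Real.norm_eq_abs, abs_mul, abs_mul]
    have h1 := abs_real_inner_le_norm (x - c) (g x)
    calc |f x| * |φ x| * |⟪x - c, g x⟫| ≤ |f x| * |φ x| * (‖x - c‖ * ‖g x‖) := by gcongr
      _ = (|φ x| * ‖x - c‖) * (|f x| * ‖g x‖) := by ring
      _ ≤ M * (|f x| * ‖g x‖) := by gcongr; exact hM x
  have key := div_lemma (X := fun x => φ x • (x - c))
    (G := fun k x => φ x • e k + (x k - c k) • (ψ x • (x - c))) (h.ld.sq isOpen_univ) hX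
    (fun k => by
      refine ((int_sq h).mul_const M).mono' ((mf.pow 2).mul (mX k)) (ae_of_all _ fun x => ?_)
      rw [Real.norm_eq_abs, abs_mul, abs_of_nonneg (sq_nonneg _)]
      exact mul_le_mul_of_nonneg_left (hXb x k) (sq_nonneg _))
    (fun k => by
      refine (i1.norm.add i2.norm).mono' ((mf.pow 2).mul
        (meas_k (by simpa using (hX k).mg) k)) (ae_of_all _ fun x => ?_)
      simp only [hG, Pi.add_apply, Real.norm_eq_abs, abs_mul, abs_pow, sq_abs]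
      rw [← mul_add]
      refine mul_le_mul_of_nonneg_left ((abs_add_le _ _).trans (add_le_add_right ?_ _))
        (sq_nonneg _)
      rw [abs_mul, abs_pow]
      exact mul_le_mul_of_nonneg_left (pow_le_pow_left₀ (abs_nonneg _) (abs_k _ k) 2)
        (abs_nonneg _))
    (fun k => by
      refine ((int_fg h).const_mul (M * 2)).mono' ((mX k).mul
        (meas_k (((mf.const_mul 2).smul mg)) k)) (ae_of_all _ fun x => ?_)
      rw [Real.norm_eq_abs, abs_mul]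
      have h1 : |((2 * f x) • g x) k| ≤ 2 * (|f x| * ‖g x‖) := by
        refine (abs_k _ k).trans (le_of_eq ?_)
        rw [norm_smul, Real.norm_eq_abs, abs_mul, abs_two, mul_assoc]
      calc _ ≤ M * (2 * (|f x| * ‖g x‖)) := mul_le_mul (hXb x k) h1 (abs_nonneg _) hM0
        _ = _ := by ring)
  refine ⟨j0, ?_⟩
  have e1 : ∀ x, f x ^ 2 * ∑ k, (φ x • e k + (x k - c k) • (ψ x • (x - c))) k +
      ⟪φ x • (x - c), (2 * f x) • g x⟫ =
      f x ^ 2 * (3 * φ x + ψ x * ‖x - c‖ ^ 2) + 2 * (f x * φ x * ⟪x - c, g x⟫) := fun x => by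
    simp only [hG]
    rw [EuclideanSpace.real_norm_sq_eq, real_inner_smul_left, real_inner_smul_right,
      Fin.sum_univ_three, Fin.sum_univ_three]
    ring
  have j1 : Integrable fun x => f x ^ 2 * (3 * φ x + ψ x * ‖x - c‖ ^ 2) :=
    ((i1.const_mul 3).add i2).congr (ae_of_all _ fun x => by simp only [Pi.add_apply]; ring)
  simp only [e1] at key
  rw [integral_add j1 (j0.const_mul 2), integral_const_mul] at key
  linarith

theorem fatou {u : ℕ → E3 → ℝ} {v : E3 → ℝ} {C : ℝ} (hu : ∀ n, Integrable (u n))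
    (h0 : ∀ n x, 0 ≤ u n x) (hv : ∀ x, 0 ≤ v x) (mv : AEStronglyMeasurable v volume)
    (hl : ∀ᵐ x : E3, Tendsto (fun n => u n x) atTop (𝓝 (v x))) (hC : ∀ n, ∫ x, u n x ≤ C) :
    Integrable v ∧ ∫ x, v x ≤ C := by
  have hC0 : 0 ≤ C := (integral_nonneg (h0 0)).trans (hC 0)
  have h1 : ∫⁻ x, ENNReal.ofReal (v x) ≤ ENNReal.ofReal C := by
    calc ∫⁻ x, ENNReal.ofReal (v x)
        = ∫⁻ x, liminf (fun n => ENNReal.ofReal (u n x)) atTop :=
          lintegral_congr_ae (hl.mono fun x hx =>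
            ((ENNReal.continuous_ofReal.tendsto _).comp hx).liminf_eq.symm)
      _ ≤ liminf (fun n => ∫⁻ x, ENNReal.ofReal (u n x)) atTop :=
          lintegral_liminf_le' fun n => (hu n).aemeasurable.ennreal_ofReal
      _ ≤ ENNReal.ofReal C := by
          refine liminf_le_of_frequently_le' (Frequently.of_forall fun n => ?_)
          rw [← ofReal_integral_eq_lintegral_ofReal (hu n) (ae_of_all _ (h0 n))]
          exact ENNReal.ofReal_le_ofReal (hC n)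
  have h2 : Integrable v := ⟨mv, by
    rw [hasFiniteIntegral_iff_ofReal (ae_of_all _ hv)]
    exact h1.trans_lt ENNReal.ofReal_lt_top⟩
  refine ⟨h2, ?_⟩
  rw [← ofReal_integral_eq_lintegral_ofReal h2 (ae_of_all _ hv)] at h1
  exact (ENNReal.ofReal_le_ofReal_iff hC0).1 h1

theorem hardy_eps (h : H1 f g) (c : E3) {ε : ℝ} (hε : 0 < ε) :
    Integrable (fun x => f x ^ 2 * (‖x - c‖ ^ 2 + ε)⁻¹) ∧
    ∫ x, f x ^ 2 * (‖x - c‖ ^ 2 + ε)⁻¹ ≤ 4 * ∫ x, ‖g x‖ ^ 2 := by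
  have mf := h.l2.aestronglyMeasurable
  have hd : ∀ s : ℝ, HasDerivAt (fun s : ℝ => (s ^ 2 + ε)⁻¹) (-(2 * s) / (s ^ 2 + ε) ^ 2) s :=
    fun s => by
      have := ((hasDerivAt_pow 2 s).add_const ε).fun_inv (by positivity)
      simpa using this
  have hc : Continuous fun s : ℝ => -(2 * s) / (s ^ 2 + ε) ^ 2 :=
    Continuous.div (by fun_prop) (by fun_prop) fun s => by positivity
  have hφ := (LD.dist c).comp isOpen_univ hd hc
  simp only [smul_smul] at hφ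
  have hψ : ∀ x : E3, -(2 * ‖x - c‖) / (‖x - c‖ ^ 2 + ε) ^ 2 * ‖x - c‖⁻¹ * ‖x - c‖ ^ 2 =
      -2 * (‖x - c‖ ^ 2 * (‖x - c‖ ^ 2 + ε)⁻¹) * (‖x - c‖ ^ 2 + ε)⁻¹ := fun x => by
    rcases eq_or_ne ‖x - c‖ 0 with h0 | h0
    · simp [h0]
    · field_simp
  have hq : ∀ x : E3, ‖x - c‖ ^ 2 * (‖x - c‖ ^ 2 + ε)⁻¹ ≤ 1 := fun x => by
    rw [← div_eq_mul_inv, div_le_one (by positivity)]
    linarith
  have hi : ∀ x : E3, (‖x - c‖ ^ 2 + ε)⁻¹ ≤ ε⁻¹ := fun x =>
    inv_anti₀ hε (by linarith [sq_nonneg ‖x - c‖])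
  have mφ : Measurable fun x : E3 => (‖x - c‖ ^ 2 + ε)⁻¹ :=
    (((meas_r c).pow_const 2).add_const ε).inv
  have i1 : Integrable (fun x => f x ^ 2 * (‖x - c‖ ^ 2 + ε)⁻¹) := by
    refine ((int_sq h).mul_const ε⁻¹).mono' ((mf.pow 2).mul mφ.aestronglyMeasurable)
      (ae_of_all _ fun x => ?_)
    rw [Real.norm_eq_abs, abs_of_nonneg (by positivity)]
    exact mul_le_mul_of_nonneg_left (hi x) (sq_nonneg _)
  have i2 : Integrable (fun x => f x ^ 2 *
      (-2 * (‖x - c‖ ^ 2 * (‖x - c‖ ^ 2 + ε)⁻¹) * (‖x - c‖ ^ 2 + ε)⁻¹)) := by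
    refine (i1.const_mul 2).mono' ((mf.pow 2).mul
      (((((meas_r c).pow_const 2).mul mφ).const_mul (-2)).mul mφ).aestronglyMeasurable)
      (ae_of_all _ fun x => ?_)
    have h1 : 0 ≤ f x ^ 2 * (‖x - c‖ ^ 2 + ε)⁻¹ := by positivity
    have h2 : 0 ≤ ‖x - c‖ ^ 2 * (‖x - c‖ ^ 2 + ε)⁻¹ := by positivity
    rw [Real.norm_eq_abs, abs_of_nonpos (by nlinarith [mul_nonneg h1 h2])]
    nlinarith [mul_le_mul_of_nonneg_left (hq x) h1]
  obtain ⟨j0, key⟩ := radial h c (M := 1 + ε⁻¹) hφ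
    (fun x => by
      rw [abs_of_nonneg (by positivity)]
      rcases le_total ‖x - c‖ 1 with h1 | h1
      · have := mul_le_mul (hi x) h1 (norm_nonneg _) (by positivity)
        linarith
      · have h2 : (‖x - c‖ ^ 2 + ε)⁻¹ * ‖x - c‖ ≤ (‖x - c‖ ^ 2 + ε)⁻¹ * ‖x - c‖ ^ 2 :=
          mul_le_mul_of_nonneg_left (by nlinarith) (by positivity)
        have h3 : 0 < ε⁻¹ := by positivity
        linarith [hq x])
    i1 (by simpa only [hψ] using i2)
  simp only [hψ] at key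
  refine ⟨i1, ?_⟩
  have s1 : ∫ x, f x ^ 2 * (‖x - c‖ ^ 2 + ε)⁻¹ ≤ ∫ x, f x ^ 2 * (3 * (‖x - c‖ ^ 2 + ε)⁻¹ +
      -2 * (‖x - c‖ ^ 2 * (‖x - c‖ ^ 2 + ε)⁻¹) * (‖x - c‖ ^ 2 + ε)⁻¹) := by
    refine integral_mono i1 (((i1.const_mul 3).add i2).congr
      (ae_of_all _ fun x => by simp only [Pi.add_apply]; ring)) fun x => ?_
    have h1 : 0 ≤ f x ^ 2 * (‖x - c‖ ^ 2 + ε)⁻¹ := by positivity
    simp only
    nlinarith [mul_le_mul_of_nonneg_left (hq x) h1]
  have s2 : ∫ x, -2 * (f x * (‖x - c‖ ^ 2 + ε)⁻¹ * ⟪x - c, g x⟫) ≤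
      ∫ x, ((1 / 2) * (f x ^ 2 * (‖x - c‖ ^ 2 + ε)⁻¹) + 2 * ‖g x‖ ^ 2) := by
    refine integral_mono (j0.const_mul _) ((i1.const_mul _).add ((int_gsq h).const_mul _))
      fun x => ?_
    have h1 : 0 ≤ f x ^ 2 * (‖x - c‖ ^ 2 + ε)⁻¹ := by positivity
    have h2 := abs_real_inner_le_norm (x - c) (g x)
    set p := (‖x - c‖ ^ 2 + ε)⁻¹ with hp
    have hp0 : 0 ≤ p := by positivity
    have h3 : -(f x * p * ⟪x - c, g x⟫) ≤ |f x| * p * ‖x - c‖ * ‖g x‖ := by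
      refine (neg_le_abs _).trans ?_
      rw [abs_mul, abs_mul, abs_of_nonneg hp0, mul_assoc (|f x| * p)]
      gcongr
    have h4 : (|f x| * p * ‖x - c‖) ^ 2 ≤ f x ^ 2 * p := by
      have : (|f x| * p * ‖x - c‖) ^ 2 = f x ^ 2 * p * (‖x - c‖ ^ 2 * p) := by
        rw [mul_pow, mul_pow, sq_abs]
        ring
      rw [this]
      exact mul_le_of_le_one_right h1 (hq x)
    simp only
    nlinarith [sq_nonneg (|f x| * p * ‖x - c‖ - 2 * ‖g x‖)]
  rw [integral_const_mul, integral_add (i1.const_mul _) ((int_gsq h).const_mul _),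
    integral_const_mul, integral_const_mul] at s2
  linarith

end CIntAux

open CIntAux

theorem hardy (h : H1 f g) (c : E3) : Integrable (fun x => f x ^ 2 / ‖x - c‖ ^ 2) ∧
    ∫ x, f x ^ 2 / ‖x - c‖ ^ 2 ≤ 4 * ∫ x, ‖g x‖ ^ 2 := by
  have hp : ∀ n : ℕ, (0 : ℝ) < 1 / ((n : ℝ) + 1) := fun n => by positivity
  refine fatou (u := fun n x => f x ^ 2 * (‖x - c‖ ^ 2 + 1 / ((n : ℝ) + 1))⁻¹)
    (fun n => (hardy_eps h c (hp n)).1) (fun n x => by positivity) (fun x => by positivity)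
    ((h.l2.aestronglyMeasurable.aemeasurable.pow_const 2).div
      ((meas_r c).pow_const 2).aemeasurable).aestronglyMeasurable
    ((ae_ne c).mono fun x hx => ?_) fun n => (hardy_eps h c (hp n)).2
  rw [div_eq_mul_inv]
  refine Tendsto.const_mul _ (Tendsto.inv₀ ?_ (pow_ne_zero 2 hx))
  simpa using (tendsto_one_div_add_atTop_nhds_zero_nat (𝕜 := ℝ)).const_add (‖x - c‖ ^ 2)

theorem hardy1 (h : H1 f g) (c : E3) {a : ℝ} (ha : 0 < a) :
    Integrable (fun x => f x ^ 2 / ‖x - c‖) ∧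
    ∫ x, f x ^ 2 / ‖x - c‖ ≤ a * (∫ x, ‖g x‖ ^ 2) + a⁻¹ * ∫ x, f x ^ 2 := by
  obtain ⟨h1, h2⟩ := hardy h c
  have hb : ∀ x, f x ^ 2 / ‖x - c‖ ≤ a / 4 * (f x ^ 2 / ‖x - c‖ ^ 2) + a⁻¹ * f x ^ 2 := fun x => by
    have h3 : ‖x - c‖⁻¹ ≤ a / 4 * ‖x - c‖⁻¹ ^ 2 + a⁻¹ := by
      have h4 : a / 4 * ‖x - c‖⁻¹ ^ 2 + a⁻¹ - ‖x - c‖⁻¹ = a⁻¹ * (a / 2 * ‖x - c‖⁻¹ - 1) ^ 2 := by
        field_simp
        ring
      have h5 : 0 ≤ a⁻¹ * (a / 2 * ‖x - c‖⁻¹ - 1) ^ 2 := by positivity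
      linarith
    rw [div_eq_mul_inv (f x ^ 2), div_eq_mul_inv (f x ^ 2), ← inv_pow]
    nlinarith [mul_le_mul_of_nonneg_left h3 (sq_nonneg (f x))]
  have hi := (h1.const_mul (a / 4)).add ((int_sq h).const_mul a⁻¹)
  have i1 : Integrable (fun x => f x ^ 2 / ‖x - c‖) := by
    refine hi.mono' ((h.l2.aestronglyMeasurable.aemeasurable.pow_const 2).div
      (meas_r c).aemeasurable).aestronglyMeasurable (ae_of_all _ fun x => ?_)
    rw [Real.norm_eq_abs, abs_of_nonneg (by positivity)]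
    exact hb x
  refine ⟨i1, (integral_mono i1 hi hb).trans ?_⟩
  simp only [Pi.add_apply]
  rw [integral_add (h1.const_mul _) ((int_sq h).const_mul _), integral_const_mul,
    integral_const_mul]
  nlinarith

/-- Completing the square for hydrogen. -/
theorem hydrogen (h : H1 f g) (c : E3) :
    ∫ x, ‖g x + (f x * ‖x - c‖⁻¹) • (x - c)‖ ^ 2 =
      (∫ x, ‖g x‖ ^ 2) + (∫ x, f x ^ 2) - 2 * ∫ x, f x ^ 2 / ‖x - c‖ := by
  obtain ⟨i1, -⟩ := hardy1 h c one_pos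
  have hP : LocP (univ \ {c}) fun x : E3 => ‖x - c‖ := fun K hK hKU => by
    obtain ⟨a, ha, hb⟩ := hK.exists_forall_le' (a := (0 : ℝ)) (f := fun x : E3 => ‖x - c‖)
      (continuous_id.sub continuous_const).norm.continuousOn
      fun x hx => norm_pos_iff.2 (sub_ne_zero.2 (hKU hx).2)
    exact ⟨a, ha, ae_of_all _ hb⟩
  have hφ := LD.remove (finite_singleton c)
    (((LD.dist c).mono (subset_univ _)).inv (isOpen_univ.sdiff isClosed_singleton) hP)
  simp only [smul_smul] at hφ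
  have hψ : ∀ x : E3, -(‖x - c‖⁻¹ ^ 2) * ‖x - c‖⁻¹ * ‖x - c‖ ^ 2 = -‖x - c‖⁻¹ := fun x => by
    rcases eq_or_ne ‖x - c‖ 0 with h0 | h0
    · simp [h0]
    · field_simp
  have i1' : Integrable fun x => f x ^ 2 * ‖x - c‖⁻¹ := by simpa only [div_eq_mul_inv] using i1
  obtain ⟨j0, key⟩ := radial h c (M := 1) hφ
    (fun x => by
      rw [abs_of_nonneg (by positivity)]
      exact inv_mul_le_one)
    i1' (by simp only [hψ, mul_neg]; exact i1'.neg)
  have e1 : ∀ x, f x ^ 2 * (3 * ‖x - c‖⁻¹ + -(‖x - c‖⁻¹ ^ 2) * ‖x - c‖⁻¹ * ‖x - c‖ ^ 2) =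
      2 * (f x ^ 2 / ‖x - c‖) := fun x => by
    rw [hψ, div_eq_mul_inv]
    ring
  simp only [e1] at key
  rw [integral_const_mul] at key
  have e2 : ∀ᵐ x : E3, ‖g x + (f x * ‖x - c‖⁻¹) • (x - c)‖ ^ 2 =
      ‖g x‖ ^ 2 + f x ^ 2 + 2 * (f x * ‖x - c‖⁻¹ * ⟪x - c, g x⟫) := (ae_ne c).mono fun x hx => by
    rw [norm_add_sq_real, real_inner_smul_right, real_inner_comm, norm_smul, mul_pow,
      Real.norm_eq_abs, sq_abs]
    field_simp
    ring
  rw [integral_congr_ae e2, integral_add (f := fun x => ‖g x‖ ^ 2 + f x ^ 2)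
    ((int_gsq h).add (int_sq h)) (j0.const_mul 2), integral_add (int_gsq h) (int_sq h),
    integral_const_mul]
  linarith

theorem memLp_V (h : H1 f g) (L : ℝ) : MemLp (fun x => V L x * f x) 2 volume := by
  have key : ∀ c : E3, MemLp (fun x => ‖x - c‖⁻¹ * f x) 2 volume := fun c => by
    refine (memLp_two_iff_integrable_sq (f := fun x => ‖x - c‖⁻¹ * f x)
      ((meas_r c).inv.aestronglyMeasurable.mul h.l2.aestronglyMeasurable)).2 ?_
    refine (hardy h c).1.congr (ae_of_all _ fun x => ?_)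
    simp only [mul_pow, inv_pow, div_eq_inv_mul]
  have := ((key (nA L)).add (key (-nA L))).neg
  refine (memLp_congr_ae (ae_of_all _ fun x => ?_)).1 this
  simp only [V, rA, rB, Pi.neg_apply, Pi.add_apply, sub_neg_eq_add]
  ring

theorem q1_int {f' : E3 → ℝ} {g' : E3 → E3} (h : H1 f g) (h' : H1 f' g') (L : ℝ) :
    Integrable (fun x => ⟪g x, g' x⟫) ∧ Integrable (fun x => V L x * f x * f' x) ∧
      Integrable (fun x => f x * f' x) := by
  refine ⟨?_, (memLp_V h L).integrable_mul h'.l2, h.l2.integrable_mul h'.l2⟩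
  exact (h.l2g.norm.integrable_mul h'.l2g.norm).mono'
    (h.l2g.aestronglyMeasurable.inner h'.l2g.aestronglyMeasurable)
    (ae_of_all _ fun x => norm_inner_le_norm _ _)

theorem q1_lower (h : H1 f g) (L : ℝ) :
    (1 / 4) * (∫ x, ‖g x‖ ^ 2) - 16 * ∫ x, f x ^ 2 ≤ q1 L f g f g := by
  obtain ⟨a1, a2⟩ := hardy1 h (nA L) (a := 1 / 8) (by norm_num)
  obtain ⟨b1, b2⟩ := hardy1 h (-nA L) (a := 1 / 8) (by norm_num)
  have e : ∀ x, (1 / 2) * ⟪g x, g x⟫ + V L x * f x * f x =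
      (1 / 2) * ‖g x‖ ^ 2 - (f x ^ 2 / ‖x - nA L‖ + f x ^ 2 / ‖x - -nA L‖) := fun x => by
    rw [real_inner_self_eq_norm_sq]
    simp only [V, rA, rB, sub_neg_eq_add, div_eq_mul_inv]
    ring
  unfold q1
  simp only [e]
  rw [integral_sub (f := fun x => (1 / 2) * ‖g x‖ ^ 2)
    (g := fun x => f x ^ 2 / ‖x - nA L‖ + f x ^ 2 / ‖x - -nA L‖) ((int_gsq h).const_mul _)
    (a1.add b1), integral_add a1 b1, integral_const_mul]
  norm_num at a2 b2 ⊢
  linarith

end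

end Vale.Agent.P363
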