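import Vale.Agent.P363.CLine
import Vale.Agent.P363.CSg
import Vale.Agent.P363.CAc

/-! P363, block C: algebra of `LD`. -/

open MeasureTheory Set Metric Filter Topology
open scoped RealInnerProductSpace

namespace Vale.Agent.P363

noncomputable section

variable {U : Set E3} {f f' : E3 → ℝ} {g g' : E3 → E3}

namespace CLd1Aux

theorem ac_congr {F G : ℝ → ℝ} {a b : ℝ} (hF : AbsolutelyContinuousOnInterval F a b)
    (h : ∀ t ∈ uIcc a b, F t = G t) : AbsolutelyContinuousOnInterval G a b := by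
  refine Tendsto.congr' ?_ hF
  refine Filter.eventually_inf_principal.2 (Eventually.of_forall fun E hE => ?_)
  refine Finset.sum_congr rfl fun i hi => ?_
  rw [h _ (hE.1 i hi).1, h _ (hE.1 i hi).2]

theorem ac_id (a b : ℝ) : AbsolutelyContinuousOnInterval (fun t : ℝ => t) a b :=
  (LipschitzWith.id.lipschitzOnWith (s := uIcc a b)).absolutelyContinuousOnInterval

theorem ac_const (c a b : ℝ) : AbsolutelyContinuousOnInterval (fun _ : ℝ => c) a b :=
  ((LipschitzWith.const c).lipschitzOnWith (s := uIcc a b)).absolutelyContinuousOnInterval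

theorem cont_line (x : E3) (k : Fin 3) : Continuous fun t : ℝ => x + t • e k := by fun_prop

theorem deriv_line (x : E3) (k : Fin 3) (t : ℝ) :
    HasDerivAt (fun t : ℝ => x + t • e k) (e k) t := by
  simpa using ((hasDerivAt_id t).smul_const (e k)).const_add x

theorem norm_fderiv (c : E3) {x : E3} (hx : x ≠ c) :
    HasFDerivAt (fun x : E3 => ‖x - c‖) (innerSL ℝ (‖x - c‖⁻¹ • (x - c))) x := by
  have h0 : ‖x - c‖ ≠ 0 := norm_ne_zero_iff.2 (sub_ne_zero.2 hx)
  have h1 := ((hasFDerivAt_id x).sub_const c).norm_sq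
  have h2 := h1.sqrt (by simpa using sub_ne_zero.2 hx)
  simp only [id, Real.sqrt_sq (norm_nonneg _)] at h2
  refine h2.congr_fderiv (ContinuousLinearMap.ext fun v => ?_)
  simp only [innerSL_apply_apply, ContinuousLinearMap.smul_apply, ContinuousLinearMap.comp_apply,
    ContinuousLinearMap.id_apply, real_inner_smul_left, smul_eq_mul, nsmul_eq_mul, Nat.cast_ofNat]
  field_simp

end CLd1Aux

open CLd1Aux

theorem LD.mono {U' : Set E3} (h : LD U f g) (hU : U' ⊆ U) : LD U' f g := by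
  refine ⟨h.mf.mono_measure (Measure.restrict_mono hU le_rfl),
    h.mg.mono_measure (Measure.restrict_mono hU le_rfl), fun k => ?_⟩
  filter_upwards [h.line k] with x ⟨F, h1, h2, h3⟩
  exact ⟨F, h1.mono fun t ht hx => ht (hU hx), fun a b hab => h2 a b fun t ht => hU (hab t ht),
    h3.mono fun t ht hx => ht (hU hx)⟩

theorem LD.congr (hU : IsOpen U) (h : LD U f g) (h1 : ∀ᵐ x : E3, x ∈ U → f' x = f x)
    (h2 : ∀ᵐ x : E3, x ∈ U → g' x = g x) : LD U f' g' := by
  refine ⟨h.mf.congr ((ae_restrict_iff' hU.measurableSet).2 (h1.mono fun x hx hxU =>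
    (hx hxU).symm)), h.mg.congr ((ae_restrict_iff' hU.measurableSet).2 (h2.mono fun x hx hxU =>
    (hx hxU).symm)), fun k => ?_⟩
  filter_upwards [h.line k, ae_line k h1, ae_line k h2] with x ⟨F, h3, h4, h5⟩ h6 h7
  refine ⟨F, ?_, h4, ?_⟩
  · filter_upwards [h3, h6] with t h8 h9 hx
    rw [h9 hx, h8 hx]
  · filter_upwards [h5, h7] with t h8 h9 hx
    rw [h9 hx]
    exact h8 hx

theorem LD.const (U : Set E3) (c : ℝ) : LD U (fun _ => c) (fun _ => 0) := by
  refine ⟨aestronglyMeasurable_const, aestronglyMeasurable_const, fun k =>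
    Eventually.of_forall fun x => ⟨fun _ => c, Eventually.of_forall fun _ _ => rfl,
      fun a b _ => ac_const c a b, Eventually.of_forall fun t _ => ?_⟩⟩
  simpa using hasDerivAt_const t c

theorem LD.add (h : LD U f g) (h' : LD U f' g') :
    LD U (fun x => f x + f' x) (fun x => g x + g' x) := by
  refine ⟨h.mf.add h'.mf, h.mg.add h'.mg, fun k => ?_⟩
  filter_upwards [h.line k, h'.line k] with x ⟨F, h1, h2, h3⟩ ⟨G, h4, h5, h6⟩
  refine ⟨fun t => F t + G t, ?_, fun a b hab => (h2 a b hab).add (h5 a b hab), ?_⟩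
  · filter_upwards [h1, h4] with t h7 h8 hx
    rw [h7 hx, h8 hx]
  · filter_upwards [h3, h6] with t h7 h8 hx
    exact (h7 hx).add (h8 hx)

theorem LD.sub (h : LD U f g) (h' : LD U f' g') :
    LD U (fun x => f x - f' x) (fun x => g x - g' x) := by
  refine ⟨h.mf.sub h'.mf, h.mg.sub h'.mg, fun k => ?_⟩
  filter_upwards [h.line k, h'.line k] with x ⟨F, h1, h2, h3⟩ ⟨G, h4, h5, h6⟩
  refine ⟨fun t => F t - G t, ?_, fun a b hab => (h2 a b hab).sub (h5 a b hab), ?_⟩
  · filter_upwards [h1, h4] with t h7 h8 hx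
    rw [h7 hx, h8 hx]
  · filter_upwards [h3, h6] with t h7 h8 hx
    exact (h7 hx).sub (h8 hx)

theorem LD.neg (h : LD U f g) : LD U (fun x => -f x) (fun x => -g x) := by
  refine ⟨h.mf.neg, h.mg.neg, fun k => ?_⟩
  filter_upwards [h.line k] with x ⟨F, h1, h2, h3⟩
  refine ⟨fun t => -F t, ?_, fun a b hab => (h2 a b hab).neg, ?_⟩
  · filter_upwards [h1] with t h7 hx
    rw [h7 hx]
  · filter_upwards [h3] with t h7 hx
    exact (h7 hx).neg

theorem LD.cmul (c : ℝ) (h : LD U f g) : LD U (fun x => c * f x) (fun x => c • g x) := by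
  refine ⟨h.mf.const_mul c, h.mg.const_smul c, fun k => ?_⟩
  filter_upwards [h.line k] with x ⟨F, h1, h2, h3⟩
  refine ⟨fun t => c * F t, ?_, fun a b hab => (h2 a b hab).const_mul c, ?_⟩
  · filter_upwards [h1] with t h7 hx
    rw [h7 hx]
  · filter_upwards [h3] with t h7 hx
    exact (h7 hx).const_mul c

theorem LD.mul (hU : IsOpen U) (h : LD U f g) (h' : LD U f' g') :
    LD U (fun x => f x * f' x) (fun x => f x • g' x + f' x • g x) := by
  refine ⟨h.mf.mul h'.mf, (h.mf.smul h'.mg).add (h'.mf.smul h.mg), fun k => ?_⟩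
  filter_upwards [h.line k, h'.line k] with x ⟨F, h1, h2, h3⟩ ⟨G, h4, h5, h6⟩
  refine ⟨fun t => F t * G t, ?_, fun a b hab => (h2 a b hab).mul (h5 a b hab), ?_⟩
  · filter_upwards [h1, h4] with t h7 h8 hx
    rw [h7 hx, h8 hx]
  · filter_upwards [h3, h6, h1, h4] with t h7 h8 h9 h10 hx
    refine ((h7 hx).fun_mul (h8 hx)).congr_deriv ?_
    simp only [PiLp.add_apply, PiLp.smul_apply, smul_eq_mul, h9 hx, h10 hx]
    ring

theorem LD.of_c1 (hU : IsOpen U) (hd : ∀ x ∈ U, HasFDerivAt f (innerSL ℝ (g x)) x)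
    (hc : ContinuousOn g U) : LD U f g := by
  have hf : ContinuousOn f U := fun x hx => (hd x hx).continuousAt.continuousWithinAt
  refine ⟨hf.aestronglyMeasurable hU.measurableSet, hc.aestronglyMeasurable hU.measurableSet,
    fun k => Eventually.of_forall fun x => ?_⟩
  have h1 : ∀ t : ℝ, x + t • e k ∈ U →
      HasDerivAt (fun t : ℝ => f (x + t • e k)) (g (x + t • e k) k) t := by
    intro t ht
    have := (hd _ ht).comp_hasDerivAt t (deriv_line x k t)
    rwa [innerSL_apply_apply, inner_e] at this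
  refine ⟨fun t => f (x + t • e k), Eventually.of_forall fun _ _ => rfl, fun a b hab => ?_,
    Eventually.of_forall h1⟩
  refine ac_comp (Γ := fun t : ℝ => f (x + t • e k)) (Γ' := fun t : ℝ => g (x + t • e k) k)
    (W := {t : ℝ | x + t • e k ∈ U}) (ac_id a b) (hU.preimage (cont_line x k)) h1 ?_ hab
  have h2 : ContinuousOn (fun t : ℝ => g (x + t • e k)) {t : ℝ | x + t • e k ∈ U} :=
    hc.comp (cont_line x k).continuousOn fun t ht => ht
  exact (EuclideanSpace.proj k : E3 →L[ℝ] ℝ).continuous.comp_continuousOn h2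

theorem LD.coord (U : Set E3) (k : Fin 3) : LD U (fun x => x k) (fun _ => e k) := by
  refine (LD.of_c1 isOpen_univ (fun x _ => ?_) continuousOn_const).mono (subset_univ U)
  refine ((EuclideanSpace.proj k : E3 →L[ℝ] ℝ).hasFDerivAt (x := x)).congr_fderiv
    (ContinuousLinearMap.ext fun v => ?_)
  rw [innerSL_apply_apply, real_inner_comm, inner_e]
  rfl

/-- A finite set can be removed. -/
theorem LD.remove {S : Set E3} (hS : S.Finite) (h : LD (U \ S) f g) : LD U f g := by
  have h0 : (volume : Measure E3).restrict (U \ S) = volume.restrict U :=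
    Measure.restrict_congr_set (diff_ae_eq_self.2
      (measure_mono_null inter_subset_right (hS.measure_zero _)))
  refine ⟨h0 ▸ h.mf, h0 ▸ h.mg, fun k => ?_⟩
  filter_upwards [h.line k, ae_line_miss k hS] with x ⟨F, h1, h2, h3⟩ h4
  exact ⟨F, h1.mono fun t ht hx => ht ⟨hx, h4 t⟩,
    fun a b hab => h2 a b fun t ht => ⟨hab t ht, h4 t⟩, h3.mono fun t ht hx => ht ⟨hx, h4 t⟩⟩

theorem LD.dist (c : E3) : LD univ (fun x => ‖x - c‖) (fun x => ‖x - c‖⁻¹ • (x - c)) := by
  refine LD.remove (finite_singleton c) (LD.of_c1 (isOpen_univ.sdiff isClosed_singleton)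
    (fun x hx => norm_fderiv c hx.2) ?_)
  have h1 : Continuous fun x : E3 => x - c := by fun_prop
  exact (h1.norm.continuousOn.inv₀ fun x hx => norm_ne_zero_iff.2 (sub_ne_zero.2 hx.2)).smul
    h1.continuousOn

theorem LD.norm' : LD univ (fun x : E3 => ‖x‖) (fun x => ‖x‖⁻¹ • x) := by
  simpa using LD.dist 0

/-- The gradient vanishes a.e. on the zero set. -/
theorem LD.zero_set (hU : IsOpen U) (h : LD U f g) : ∀ᵐ x : E3, x ∈ U → f x = 0 → g x = 0 := by
  have e1 : ∀ᵐ x : E3, x ∈ U → h.mf.mk f x = f x :=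
    (ae_restrict_iff' hU.measurableSet).1 h.mf.ae_eq_mk.symm
  have e2 : ∀ᵐ x : E3, x ∈ U → h.mg.mk g x = g x :=
    (ae_restrict_iff' hU.measurableSet).1 h.mg.ae_eq_mk.symm
  have h0 := h.congr hU e1 e2
  have m1 := h.mf.stronglyMeasurable_mk.measurable
  have m2 := h.mg.stronglyMeasurable_mk.measurable
  have key : ∀ k : Fin 3, ∀ᵐ x : E3, x ∈ U → h.mf.mk f x = 0 → h.mg.mk g x k = 0 := by
    intro k
    refine ae_of_line k (MeasurableSet.nullMeasurableSet ?_) ?_
    · have m3 : Measurable fun x => h.mg.mk g x k :=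
        (EuclideanSpace.proj k : E3 →L[ℝ] ℝ).continuous.measurable.comp m2
      exact hU.measurableSet.imp ((m1 (measurableSet_singleton 0)).imp
        (m3 (measurableSet_singleton 0)))
    · filter_upwards [h0.line k] with x ⟨F, h1, _, h3⟩
      filter_upwards [h1, h3, ae_deriv_zero F fun t => h.mg.mk g (x + t • e k) k] with t h4 h5 h6
        hx h7
      exact h6 (h5 hx) (by rw [← h4 hx, h7])
  filter_upwards [ae_all_iff.2 key, e1, e2] with x h1 h2 h3 hx h4
  rw [← h3 hx]
  ext k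
  exact h1 k hx (by rw [h2 hx, h4])

theorem LD.level (hU : IsOpen U) (h : LD U f g) (h' : LD U f' g') :
    ∀ᵐ x : E3, x ∈ U → f x = f' x → g x = g' x := by
  filter_upwards [(h.sub h').zero_set hU] with x h1 hx h2
  exact sub_eq_zero.1 (h1 hx (sub_eq_zero.2 h2))

theorem LD.unique (hU : IsOpen U) (h : LD U f g) (h' : LD U f g') :
    ∀ᵐ x : E3, x ∈ U → g x = g' x := by
  filter_upwards [h.level hU h'] with x h1 hx
  exact h1 hx rfl

/-- `LD` is local. -/
theorem LD.of_local (hU : IsOpen U) (h : ∀ x ∈ U, ∃ r > 0, LD (ball x r) f g) : LD U f g := by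
  classical
  choose! r hr hL using h
  obtain ⟨T, hTU, hT, hc⟩ := TopologicalSpace.countable_cover_nhdsWithin
    (f := fun x => ball x (r x)) (s := U)
    (fun x hx => mem_nhdsWithin_of_mem_nhds (ball_mem_nhds x (hr x hx)))
  have := hT.to_subtype
  have hc' : U ⊆ ⋃ y : T, ball (y : E3) (r y) := by
    intro x hx
    obtain ⟨y, hy, hxy⟩ := mem_iUnion₂.1 (hc hx)
    exact mem_iUnion.2 ⟨⟨y, hy⟩, hxy⟩
  refine LD.mono (U := ⋃ y : T, ball (y : E3) (r y)) ?_ hc'
  refine ⟨aestronglyMeasurable_iUnion_iff.2 fun y => (hL y (hTU y.2)).mf,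
    aestronglyMeasurable_iUnion_iff.2 fun y => (hL y (hTU y.2)).mg, fun k => ?_⟩
  filter_upwards [ae_all_iff.2 fun y : T => (hL y (hTU y.2)).line k] with x hx
  choose F h1 h2 h3 using hx
  set W : T → Set ℝ := fun y => {t : ℝ | x + t • e k ∈ ball (y : E3) (r y)} with hW
  have hWo : ∀ y, IsOpen (W y) := fun y => isOpen_ball.preimage (cont_line x k)
  have hFc : ∀ y, ContinuousOn (F y) (W y) := fun y =>
    ac_continuousOn (hWo y) fun a b hab => h2 y a b fun t ht => hab ht
  have hagree : ∀ y z, ∀ t ∈ W y ∩ W z, F y t = F z t := fun y z =>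
    eq_of_ae_open ((hWo y).inter (hWo z)) ((hFc y).mono inter_subset_left)
      ((hFc z).mono inter_subset_right) (by
        filter_upwards [h1 y, h1 z] with t h4 h5 ht
        rw [← h4 ht.1, ← h5 ht.2])
  set G : ℝ → ℝ := fun t => if h : ∃ y, t ∈ W y then F h.choose t else 0 with hG
  have hGF : ∀ y, ∀ t ∈ W y, F y t = G t := by
    intro y t ht
    have h4 : ∃ y, t ∈ W y := ⟨y, ht⟩
    simp only [hG, dif_pos h4]
    exact hagree y _ t ⟨ht, h4.choose_spec⟩
  refine ⟨G, ?_, fun a b hab => ac_of_local fun t ht => ?_, ?_⟩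
  · filter_upwards [ae_all_iff.2 h1] with t h4 ht
    obtain ⟨y, hy⟩ := mem_iUnion.1 ht
    rw [h4 y hy, hGF y t hy]
  · obtain ⟨y, hy⟩ := mem_iUnion.1 (hab t ht)
    obtain ⟨s, hs, h4⟩ := Metric.nhds_basis_closedBall.mem_iff.1 ((hWo y).mem_nhds hy)
    have h5 : uIcc (t - s) (t + s) ⊆ W y := by
      rw [uIcc_of_le (by linarith), ← Real.closedBall_eq_Icc]
      exact h4
    exact ⟨s, hs, ac_congr (h2 y _ _ fun u hu => h5 hu) fun u hu => hGF y u (h5 hu)⟩
  · filter_upwards [ae_all_iff.2 h3] with t h4 ht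
    obtain ⟨y, hy⟩ := mem_iUnion.1 ht
    refine (h4 y hy).congr_of_eventuallyEq ?_
    filter_upwards [(hWo y).mem_nhds hy] with u hu
    exact (hGF y u hu).symm

end

end Vale.Agent.P363
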