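import Vale.Agent.P363.CLd2A

/-! P363, block C: chain rules for `LD`. -/

open MeasureTheory Set Metric Filter Topology
open scoped RealInnerProductSpace

namespace Vale.Agent.P363

noncomputable section

variable {U : Set E3} {f f' : E3 → ℝ} {g g' : E3 → E3}

namespace CLd2Aux

theorem der_zero {F G H : ℝ → ℝ} {t : ℝ} (hF : HasDerivAt F 0 t) (hG : HasDerivAt G 0 t)
    (h1 : F t = 0) (h2 : G t = 0) (hH : ∀ s, |H s| ≤ |F s| + |G s|) : HasDerivAt H 0 t := by
  have h3 : H t = 0 := by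
    have := hH t
    rw [h1, h2, abs_zero, add_zero] at this
    exact abs_nonpos_iff.1 this
  rw [hasDerivAt_iff_isLittleO] at hF hG ⊢
  simp only [h1, h2, h3, smul_zero, sub_zero] at hF hG ⊢
  refine Asymptotics.IsBigO.trans_isLittleO (Asymptotics.isBigO_of_le _ fun s => ?_)
    (hF.norm_left.add hG.norm_left)
  simp only [Real.norm_eq_abs]
  exact (hH s).trans (le_abs_self _)

theorem der_pos {F : ℝ → ℝ} {d t : ℝ} (h : HasDerivAt F d t) (h0 : F t = 0 → d = 0) :
    HasDerivAt (fun s => max (F s) 0) (if 0 < F t then d else 0) t := by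
  rcases lt_trichotomy (F t) 0 with h1 | h1 | h1
  · rw [if_neg h1.not_gt]
    refine (hasDerivAt_const t (0 : ℝ)).congr_of_eventuallyEq ?_
    filter_upwards [h.continuousAt.eventually (gt_mem_nhds h1)] with s hs
    exact max_eq_right hs.le
  · rw [if_neg h1.not_gt]
    rw [h0 h1] at h
    refine der_zero h h h1 h1 fun s => ?_
    rw [abs_of_nonneg (le_max_right _ _)]
    exact max_le ((le_abs_self _).trans (le_add_of_nonneg_right (abs_nonneg _))) (by positivity)
  · rw [if_pos h1]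
    refine h.congr_of_eventuallyEq ?_
    filter_upwards [h.continuousAt.eventually (lt_mem_nhds h1)] with s hs
    exact max_eq_left hs.le

theorem hyp_le (a b : ℝ) : √(a ^ 2 + b ^ 2) ≤ |a| + |b| := by
  refine Real.sqrt_le_iff.2 ⟨by positivity, ?_⟩
  rw [← sq_abs a, ← sq_abs b]
  nlinarith [mul_nonneg (abs_nonneg a) (abs_nonneg b)]

theorem der_hyp {F G : ℝ → ℝ} {d d' t : ℝ} (h : HasDerivAt F d t) (h' : HasDerivAt G d' t)
    (h0 : F t = 0 → d = 0) (h0' : G t = 0 → d' = 0) :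
    HasDerivAt (fun s => √(F s ^ 2 + G s ^ 2))
      ((√(F t ^ 2 + G t ^ 2))⁻¹ * (F t * d + G t * d')) t := by
  by_cases h1 : F t ^ 2 + G t ^ 2 = 0
  · have e1 : F t = 0 := by nlinarith [sq_nonneg (F t), sq_nonneg (G t)]
    have e2 : G t = 0 := by nlinarith [sq_nonneg (F t), sq_nonneg (G t)]
    rw [h0 e1] at h
    rw [h0' e2] at h'
    rw [h1, Real.sqrt_zero, inv_zero, zero_mul]
    refine der_zero h h' e1 e2 fun s => ?_
    rw [abs_of_nonneg (Real.sqrt_nonneg _)]
    exact hyp_le _ _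
  · refine (((h.fun_pow 2).fun_add (h'.fun_pow 2)).sqrt h1).congr_deriv ?_
    norm_num
    ring

theorem lip_hyp : LipschitzWith 2 fun p : ℝ × ℝ => √(p.1 ^ 2 + p.2 ^ 2) := by
  refine LipschitzWith.of_dist_le_mul fun p q => ?_
  have h1 := abs_norm_sub_norm_le (⟨p.1, p.2⟩ : ℂ) ⟨q.1, q.2⟩
  have h2 := Complex.norm_le_abs_re_add_abs_im ((⟨p.1, p.2⟩ : ℂ) - ⟨q.1, q.2⟩)
  rw [Complex.norm_eq_sqrt_sq_add_sq, Complex.norm_eq_sqrt_sq_add_sq (⟨q.1, q.2⟩ : ℂ)] at h1
  simp only [Complex.sub_re, Complex.sub_im] at h2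
  have h3 : |p.1 - q.1| ≤ dist p q := le_max_left _ _
  have h4 : |p.2 - q.2| ≤ dist p q := le_max_right _ _
  rw [Real.dist_eq]
  push_cast
  linarith

end CLd2Aux

theorem LD.pos (hU : IsOpen U) (h : LD U f g) :
    LD U (fun x => max (f x) 0) (fun x => if 0 < f x then g x else 0) := by
  refine ⟨(continuous_id.max continuous_const).comp_aestronglyMeasurable h.mf, ?_, fun k => ?_⟩
  · refine (h.mg.indicator₀ (nullMeasurableSet_lt (aemeasurable_const (b := (0 : ℝ)))
      h.mf.aemeasurable)).congr (ae_of_all _ fun x => ?_)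
    by_cases hx : 0 < f x
    · simp [hx]
    · simp [hx]
  · filter_upwards [h.line k] with x ⟨F, h1, h2, h3⟩
    refine ⟨fun t => max (F t) 0, ?_, fun a b hab => ?_, ?_⟩
    · filter_upwards [h1] with t ht hm
      rw [ht hm]
    · exact ac_lip2 (Γ := fun p => max p.1 0) (h2 a b hab) (h2 a b hab)
        (LipschitzWith.prod_fst.max_const 0)
    · filter_upwards [h1, h3, ae_deriv_zero F fun t => g (x + t • e k) k] with t t1 t3 t4 hm
      refine (CLd2Aux.der_pos (t3 hm) (t4 (t3 hm))).congr_deriv ?_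
      rw [t1 hm]
      by_cases hx : 0 < F t
      · rw [if_pos hx, if_pos hx]
      · rw [if_neg hx, if_neg hx]
        rfl

theorem LD.abs (hU : IsOpen U) (h : LD U f g) :
    LD U (fun x => |f x|) (fun x => if 0 < f x then g x else -g x) := by
  refine ((h.pos hU).add (h.neg.pos hU)).congr hU (ae_of_all _ fun x _ => ?_) ?_
  · rcases le_total 0 (f x) with hx | hx
    · rw [abs_of_nonneg hx, max_eq_left hx, max_eq_right (neg_nonpos.2 hx), add_zero]
    · rw [abs_of_nonpos hx, max_eq_right hx, max_eq_left (neg_nonneg.2 hx), zero_add]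
  · filter_upwards [h.zero_set hU] with x hx hm
    rcases lt_trichotomy (f x) 0 with h1 | h1 | h1
    · rw [if_neg h1.not_gt, if_neg h1.not_gt, if_pos (neg_pos.2 h1), zero_add]
    · simp [hx hm h1]
    · rw [if_pos h1, if_pos h1, if_neg (neg_neg_of_pos h1).not_gt, add_zero]

theorem LD.max (hU : IsOpen U) (h : LD U f g) (h' : LD U f' g') :
    LD U (fun x => max (f x) (f' x)) (fun x => if f' x < f x then g x else g' x) := by
  refine (h'.add ((h.sub h').pos hU)).congr hU (ae_of_all _ fun x _ => ?_)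
    (ae_of_all _ fun x _ => ?_)
  · rcases le_total (f' x) (f x) with hx | hx
    · rw [max_eq_left hx, max_eq_left (sub_nonneg.2 hx), add_sub_cancel]
    · rw [max_eq_right hx, max_eq_right (sub_nonpos.2 hx), add_zero]
  · by_cases hx : f' x < f x
    · rw [if_pos hx, if_pos (sub_pos.2 hx), add_sub_cancel]
    · rw [if_neg hx, if_neg (fun h1 => hx (sub_pos.1 h1)), add_zero]

theorem LD.min (hU : IsOpen U) (h : LD U f g) (h' : LD U f' g') :
    LD U (fun x => min (f x) (f' x)) (fun x => if f x < f' x then g x else g' x) := by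
  refine (h'.sub ((h'.sub h).pos hU)).congr hU (ae_of_all _ fun x _ => ?_)
    (ae_of_all _ fun x _ => ?_)
  · rcases le_total (f x) (f' x) with hx | hx
    · rw [min_eq_left hx, max_eq_left (sub_nonneg.2 hx), sub_sub_cancel]
    · rw [min_eq_right hx, max_eq_right (sub_nonpos.2 hx), sub_zero]
  · by_cases hx : f x < f' x
    · rw [if_pos hx, if_pos (sub_pos.2 hx), sub_sub_cancel]
    · rw [if_neg hx, if_neg (fun h1 => hx (sub_pos.1 h1)), sub_zero]

/-- Truncation to `[a, b]`. -/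
theorem LD.clamp (hU : IsOpen U) (h : LD U f g) {a b : ℝ} (hab : a ≤ b) :
    LD U (fun x => Max.max a (Min.min b (f x))) (fun x => if a < f x ∧ f x < b then g x else 0) := by
  refine ((LD.const U a).max hU ((LD.const U b).min hU h)).congr hU (ae_of_all _ fun x _ => rfl) ?_
  filter_upwards [h.level hU (LD.const U a), h.level hU (LD.const U b)] with x h1 h2 hm
  rcases lt_trichotomy (f x) a with k1 | k1 | k1
  · rw [if_neg (fun k => k1.not_gt k.1), if_pos ((min_le_right _ _).trans_lt k1)]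
  · simp [h1 hm k1]
  · rw [if_neg (le_min hab k1.le).not_gt]
    rcases lt_trichotomy (f x) b with k2 | k2 | k2
    · rw [if_pos ⟨k1, k2⟩, if_neg k2.not_gt]
    · simp [h2 hm k2]
    · rw [if_neg (fun k => k2.not_gt k.2), if_pos k2]

/-- Euclidean norm of a pair, no positivity needed. -/
theorem LD.hyp (hU : IsOpen U) (h : LD U f g) (h' : LD U f' g') :
    LD U (fun x => √(f x ^ 2 + f' x ^ 2))
      (fun x => (√(f x ^ 2 + f' x ^ 2))⁻¹ • (f x • g x + f' x • g' x)) := by
  have hm : AEStronglyMeasurable (fun x => √(f x ^ 2 + f' x ^ 2)) (volume.restrict U) :=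
    CLd2Aux.lip_hyp.continuous.comp_aestronglyMeasurable (h.mf.prodMk h'.mf)
  refine ⟨hm, hm.aemeasurable.inv.aestronglyMeasurable.smul
    ((h.mf.smul h.mg).add (h'.mf.smul h'.mg)), fun k => ?_⟩
  filter_upwards [h.line k, h'.line k] with x ⟨F, h1, h2, h3⟩ ⟨G, k1, k2, k3⟩
  refine ⟨fun t => √(F t ^ 2 + G t ^ 2), ?_, fun a b hab => ?_, ?_⟩
  · filter_upwards [h1, k1] with t ht ht' hm
    rw [ht hm, ht' hm]
  · exact ac_lip2 (Γ := fun p : ℝ × ℝ => √(p.1 ^ 2 + p.2 ^ 2)) (h2 a b hab) (k2 a b hab)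
      CLd2Aux.lip_hyp
  · filter_upwards [h1, h3, ae_deriv_zero F fun t => g (x + t • e k) k, k1, k3,
      ae_deriv_zero G fun t => g' (x + t • e k) k] with t t1 t3 t4 s1 s3 s4 hm
    refine (CLd2Aux.der_hyp (t3 hm) (s3 hm) (t4 (t3 hm)) (s4 (s3 hm))).congr_deriv ?_
    rw [t1 hm, s1 hm]
    rfl

theorem hyp_grad_le (a b : ℝ) (p q : E3) :
    ‖(√(a ^ 2 + b ^ 2))⁻¹ • (a • p + b • q)‖ ^ 2 ≤ ‖p‖ ^ 2 + ‖q‖ ^ 2 := by
  have h0 : 0 ≤ a ^ 2 + b ^ 2 := by positivity
  rcases h0.eq_or_lt with h1 | h1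
  · rw [← h1, Real.sqrt_zero, inv_zero, zero_smul, norm_zero, zero_pow two_ne_zero]
    positivity
  · have h2 : ‖a • p + b • q‖ ≤ |a| * ‖p‖ + |b| * ‖q‖ := by
      refine (norm_add_le _ _).trans (le_of_eq ?_)
      rw [norm_smul, norm_smul, Real.norm_eq_abs, Real.norm_eq_abs]
    have h3 := pow_le_pow_left₀ (norm_nonneg _) h2 2
    rw [norm_smul, mul_pow, Real.norm_eq_abs, sq_abs, inv_pow, Real.sq_sqrt h0,
      inv_mul_le_iff₀ h1]
    refine h3.trans ?_
    rw [← sq_abs a, ← sq_abs b]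
    nlinarith [sq_nonneg (|a| * ‖q‖ - |b| * ‖p‖)]

end

end Vale.Agent.P363
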