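import Vale.Agent.P363.CLd1

/-! P363, block C: chain rules for `LD`. -/

open MeasureTheory Set Metric Filter Topology
open scoped RealInnerProductSpace

namespace Vale.Agent.P363

noncomputable section

variable {U : Set E3} {f f' : E3 → ℝ} {g g' : E3 → E3}

theorem cld2a_meas {Γ : ℝ × ℝ → ℝ} {W : Set (ℝ × ℝ)} (hW : IsOpen W) (hc : ContinuousOn Γ W)
    {μ : Measure E3} {φ : E3 → ℝ × ℝ} (hφ : AEStronglyMeasurable φ μ) (hm : ∀ᵐ x ∂μ, φ x ∈ W) :
    AEStronglyMeasurable (fun x => Γ (φ x)) μ := by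
  classical
  have h1 : Measurable (W.piecewise Γ fun _ => 0) :=
    hc.measurable_piecewise continuousOn_const hW.measurableSet
  refine (h1.comp_aemeasurable hφ.aemeasurable).aestronglyMeasurable.congr ?_
  filter_upwards [hm] with x hx
  exact Set.piecewise_eq_of_mem _ _ _ hx

theorem LD.comp2 {Γ Γ1 Γ2 : ℝ × ℝ → ℝ} {W : Set (ℝ × ℝ)} (hU : IsOpen U) (h : LD U f g)
    (h' : LD U f' g') (hW : IsOpen W) (hd : ∀ p ∈ W, HasFDerivAt Γ
      (Γ1 p • ContinuousLinearMap.fst ℝ ℝ ℝ + Γ2 p • ContinuousLinearMap.snd ℝ ℝ ℝ) p)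
    (h1 : ContinuousOn Γ1 W) (h2 : ContinuousOn Γ2 W)
    (hm : ∀ K, IsCompact K → K ⊆ U → ∃ Q, IsClosed Q ∧ Q ⊆ W ∧
      ∀ᵐ x : E3, x ∈ K → (f x, f' x) ∈ Q) :
    LD U (fun x => Γ (f x, f' x))
      (fun x => Γ1 (f x, f' x) • g x + Γ2 (f x, f' x) • g' x) := by
  have hae : ∀ᵐ x ∂(volume.restrict U), (f x, f' x) ∈ W := by
    rw [ae_restrict_iff' hU.measurableSet]
    refine ae_of_compacts hU fun K hK hKU => ?_
    obtain ⟨Q, -, hQ, hx⟩ := hm K hK hKU
    filter_upwards [hx] with x hx hxK using hQ (hx hxK)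
  have hφ := h.mf.prodMk h'.mf
  have h0 : ContinuousOn Γ W := fun p hp => (hd p hp).continuousAt.continuousWithinAt
  refine ⟨cld2a_meas hW h0 hφ hae, ((cld2a_meas hW h1 hφ hae).smul h.mg).add
    ((cld2a_meas hW h2 hφ hae).smul h'.mg), fun k => ?_⟩
  obtain ⟨K, hK, hKU, -, hex⟩ := exists_exhaust hU
  choose Q hQ hQW hQa using fun n => hm (K n) (hK n) (hKU n)
  filter_upwards [h.line k, h'.line k, ae_all_iff.2 fun n => ae_line k (hQa n)]
    with x ⟨F, a1, a2, a3⟩ ⟨G, b1, b2, b3⟩ hx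
  have hl : Continuous fun t : ℝ => x + t • e k := by fun_prop
  have hO : IsOpen {t : ℝ | x + t • e k ∈ U} := hU.preimage hl
  have cF := ac_continuousOn hO fun a b hab => a2 a b hab
  have cG := ac_continuousOn hO fun a b hab => b2 a b hab
  have hin : ∀ t : ℝ, x + t • e k ∈ U → (F t, G t) ∈ W := fun t ht => by
    obtain ⟨n, hn⟩ := hex {x + t • e k} isCompact_singleton (singleton_subset_iff.2 ht)
    have hs : {t : ℝ | x + t • e k ∈ interior (K n)} ⊆ {t : ℝ | x + t • e k ∈ U} :=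
      fun s hs => hKU n (interior_subset hs)
    refine hQW n (mem_of_ae_open (isOpen_interior.preimage hl) ((cF.prodMk cG).mono hs) (hQ n) ?_ t
      (hn rfl))
    filter_upwards [a1, b1, hx n] with s s1 s2 s3 hs'
    rw [← s1 (hs hs'), ← s2 (hs hs')]
    exact s3 (interior_subset hs')
  refine ⟨fun t => Γ (F t, G t), ?_, fun a b hab => ac_comp2 (a2 a b hab) (b2 a b hab) hW hd h1 h2
    fun t ht => hin t (hab t ht), ?_⟩
  · filter_upwards [a1, b1] with t s1 s2 ht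
    rw [s1 ht, s2 ht]
  · filter_upwards [a1, b1, a3, b3] with t s1 s2 s3 s4 ht
    have := (hd _ (hin t ht)).comp_hasDerivAt t ((s3 ht).prodMk (s4 ht))
    rw [s1 ht, s2 ht]
    simpa [Function.comp_def] using this

theorem LD.comp1 {Γ Γ' : ℝ → ℝ} {W : Set ℝ} (hU : IsOpen U) (h : LD U f g) (hW : IsOpen W)
    (hd : ∀ s ∈ W, HasDerivAt Γ (Γ' s) s) (hc : ContinuousOn Γ' W)
    (hm : ∀ K, IsCompact K → K ⊆ U → ∃ Q, IsClosed Q ∧ Q ⊆ W ∧ ∀ᵐ x : E3, x ∈ K → f x ∈ Q) :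
    LD U (fun x => Γ (f x)) (fun x => Γ' (f x) • g x) := by
  have := LD.comp2 (Γ := fun p => Γ p.1) (Γ1 := fun p => Γ' p.1) (Γ2 := fun _ => 0)
    (W := Prod.fst ⁻¹' W) hU h h (hW.preimage continuous_fst) (fun p hp => by
      rw [zero_smul, add_zero]
      exact (hd p.1 hp).comp_hasFDerivAt p hasFDerivAt_fst)
    (hc.comp continuousOn_fst fun _ hp => hp) continuousOn_const fun K hK hKU => by
      obtain ⟨Q, h1, h2, h3⟩ := hm K hK hKU
      exact ⟨Prod.fst ⁻¹' Q, h1.preimage continuous_fst, fun _ hp => h2 hp, h3⟩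
  simpa only [zero_smul, add_zero] using this

theorem LD.comp {Γ Γ' : ℝ → ℝ} (hU : IsOpen U) (h : LD U f g) (hd : ∀ s, HasDerivAt Γ (Γ' s) s)
    (hc : Continuous Γ') : LD U (fun x => Γ (f x)) (fun x => Γ' (f x) • g x) :=
  h.comp1 hU isOpen_univ (fun s _ => hd s) hc.continuousOn fun _ _ _ =>
    ⟨univ, isClosed_univ, Subset.rfl, ae_of_all _ fun _ _ => trivial⟩

theorem cld2a_pos {Γ Γ' : ℝ → ℝ} (hU : IsOpen U) (h : LD U f g) (hp : LocP U f)
    (hd : ∀ s, 0 < s → HasDerivAt Γ (Γ' s) s) (hc : ContinuousOn Γ' (Ioi 0)) :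
    LD U (fun x => Γ (f x)) (fun x => Γ' (f x) • g x) :=
  h.comp1 hU isOpen_Ioi hd hc fun K hK hKU => by
    obtain ⟨c, hc, hx⟩ := hp K hK hKU
    exact ⟨Ici c, isClosed_Ici, fun s hs => lt_of_lt_of_le hc hs, hx⟩

theorem LD.exp (hU : IsOpen U) (h : LD U f g) :
    LD U (fun x => Real.exp (f x)) (fun x => Real.exp (f x) • g x) :=
  h.comp hU Real.hasDerivAt_exp Real.continuous_exp

theorem LD.log (hU : IsOpen U) (h : LD U f g) (hp : LocP U f) :
    LD U (fun x => Real.log (f x)) (fun x => (f x)⁻¹ • g x) :=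
  cld2a_pos (Γ' := fun s => s⁻¹) hU h hp (fun _ hs => Real.hasDerivAt_log hs.ne')
    (continuousOn_id.inv₀ fun _ hs => ne_of_gt hs)

theorem LD.inv (hU : IsOpen U) (h : LD U f g) (hp : LocP U f) :
    LD U (fun x => (f x)⁻¹) (fun x => -((f x)⁻¹ ^ 2) • g x) :=
  cld2a_pos (Γ := fun s => s⁻¹) (Γ' := fun s => -(s⁻¹ ^ 2)) hU h hp
    (fun s hs => by simpa only [inv_pow] using hasDerivAt_inv hs.ne')
    ((continuousOn_id.inv₀ fun _ hs => ne_of_gt hs).pow 2).neg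

theorem LD.div (hU : IsOpen U) (h : LD U f g) (h' : LD U f' g') (hp : LocP U f') :
    LD U (fun x => f x / f' x) (fun x => (f' x)⁻¹ • g x - (f x / f' x ^ 2) • g' x) := by
  refine (h.mul hU (h'.inv hU hp)).congr hU (ae_of_all _ fun x _ => div_eq_mul_inv _ _)
    (ae_of_all _ fun x _ => ?_)
  rw [smul_smul, add_comm, sub_eq_add_neg, ← neg_smul, div_eq_mul_inv, inv_pow, mul_neg]

theorem LD.sqrt (hU : IsOpen U) (h : LD U f g) (hp : LocP U f) :
    LD U (fun x => √(f x)) (fun x => (2 * √(f x))⁻¹ • g x) :=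
  cld2a_pos (Γ := fun s => √s) (Γ' := fun s => (2 * √s)⁻¹) hU h hp
    (fun s hs => by simpa only [one_div] using Real.hasDerivAt_sqrt hs.ne')
    (ContinuousOn.inv₀ (by fun_prop) fun s hs => by
      have := Real.sqrt_pos.2 (show 0 < s from hs)
      positivity)

theorem LD.sq (hU : IsOpen U) (h : LD U f g) :
    LD U (fun x => f x ^ 2) (fun x => (2 * f x) • g x) :=
  h.comp (Γ := fun s => s ^ 2) (Γ' := fun s => 2 * s) hU
    (fun s => by simpa using hasDerivAt_pow 2 s) (by fun_prop)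

end

end Vale.Agent.P363
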