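import Vale.Agent.P363.CLd3A

/-! P363, block C: reflection, translation, dilation, gluing, traces. -/

open MeasureTheory Set Metric Filter Topology
open scoped RealInnerProductSpace

namespace Vale.Agent.P363

noncomputable section

variable {U : Set E3} {f f' : E3 → ℝ} {g g' : E3 → E3}

theorem cld3_coord (x : E3) (t : ℝ) : (x + t • e 2) 2 = x 2 + t := by
  simp [e_apply]

theorem cld3_near {x : E3} {P : E3 → Prop} (h : ∀ᶠ y in 𝓝 (x - x 2 • e 2), P y) :
    ∃ s > 0, ∀ t : ℝ, |x 2 + t| < s → P (x + t • e 2) := by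
  have hc : Continuous fun t : ℝ => x + t • e 2 := by fun_prop
  have e1 : x - x 2 • e 2 = x + (-x 2) • e 2 := by rw [neg_smul, sub_eq_add_neg]
  rw [e1] at h
  obtain ⟨s, hs, h2⟩ := Metric.eventually_nhds_iff.1 ((hc.tendsto (-x 2)).eventually h)
  refine ⟨s, hs, fun t ht => h2 ?_⟩
  rw [Real.dist_eq, sub_neg_eq_add, add_comm]
  exact ht

theorem cld3_sg (x : E3) (t : ℝ) : sg (x + t • e 2) = x + (-(2 * x 2) - t) • e 2 := by
  unfold sg
  rw [cld3_coord]
  module

theorem TZ.mono {U' : Set E3} (h : TZ U f) (hU : U' ⊆ U) : TZ U' f := by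
  filter_upwards [h] with x hx hm using hx (hU hm)

theorem TZ.add (h : TZ U f) (h' : TZ U f') : TZ U (fun x => f x + f' x) := by
  filter_upwards [h, h'] with x hx hx' hm ε hε
  obtain ⟨s, hs, h1⟩ := hx hm (ε / 2) (half_pos hε)
  obtain ⟨s', hs', h2⟩ := hx' hm (ε / 2) (half_pos hε)
  refine ⟨min s s', lt_min hs hs', ?_⟩
  filter_upwards [h1, h2] with t a b c d
  have a1 := a c (d.trans_le (min_le_left _ _))
  have b1 := b c (d.trans_le (min_le_right _ _))
  exact (abs_add_le _ _).trans (by linarith)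

/-- Domination with a local constant. -/
theorem TZ.dom (hU : IsOpen U) (h : TZ U f)
    (hd : ∀ K, IsCompact K → K ⊆ U → ∃ M, ∀ᵐ x : E3, x ∈ K → 0 < x 2 → x 2 < 1 →
      |f' x| ≤ M * (|f x| + x 2)) : TZ U f' := by
  obtain ⟨K, k1, k2, -, k4⟩ := exists_exhaust hU
  choose M hM using fun n => hd (K n) (k1 n) (k2 n)
  have hl := ae_all_iff.2 fun n => ae_line 2 (hM n)
  filter_upwards [h, hl] with x hx hl hm ε hε
  obtain ⟨n, hn⟩ := k4 {x - x 2 • e 2} isCompact_singleton (singleton_subset_iff.2 hm)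
  obtain ⟨s1, hs1, h1⟩ := cld3_near (P := fun y => y ∈ K n)
    (mem_interior_iff_mem_nhds.1 (hn (mem_singleton _)))
  have hM0 : 0 < |M n| + 1 := by positivity
  have hε' : 0 < ε / (2 * (|M n| + 1)) := by positivity
  obtain ⟨s2, hs2, h2⟩ := hx hm _ hε'
  refine ⟨min (min s1 s2) (min 1 (ε / (2 * (|M n| + 1)))),
    lt_min (lt_min hs1 hs2) (lt_min one_pos hε'), ?_⟩
  filter_upwards [h2, hl n] with t a b c d
  simp only [lt_min_iff] at d
  obtain ⟨⟨d1, d2⟩, d3, d4⟩ := d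
  rw [cld3_coord] at b
  have b1 := b (h1 t (by rwa [abs_of_pos c])) c d3
  have a1 := a c d2
  have e1 : (|M n| + 1) * (ε / (2 * (|M n| + 1)) + ε / (2 * (|M n| + 1))) = ε := by
    field_simp
    ring
  calc |f' (x + t • e 2)| ≤ M n * (|f (x + t • e 2)| + (x 2 + t)) := b1
    _ ≤ (|M n| + 1) * (|f (x + t • e 2)| + (x 2 + t)) :=
        mul_le_mul_of_nonneg_right (by linarith [le_abs_self (M n)]) (by positivity)
    _ ≤ (|M n| + 1) * (ε / (2 * (|M n| + 1)) + ε / (2 * (|M n| + 1))) :=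
        mul_le_mul_of_nonneg_left (by linarith) hM0.le
    _ = ε := e1

theorem TZ.of_le (hU : IsOpen U)
    (hd : ∀ K, IsCompact K → K ⊆ U → ∃ M, ∀ᵐ x : E3, x ∈ K → 0 < x 2 → x 2 < 1 →
      |f x| ≤ M * x 2) : TZ U f := by
  refine TZ.dom (f := fun _ => 0) hU ?_ fun K h1 h2 => ?_
  · refine Eventually.of_forall fun x _ ε hε => ⟨1, one_pos, Eventually.of_forall fun t _ _ => ?_⟩
    simpa using hε.le
  · simpa using hd K h1 h2

theorem TZ.of_odd (hU : IsOpen U) (hs : ∀ x ∈ U, sg x ∈ U) (h : LD U f g)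
    (ho : ∀ᵐ x : E3, x ∈ U → f (sg x) = -f x) : TZ U f := by
  filter_upwards [h.line 2, ae_line 2 ho] with x ⟨F, f1, f2, _⟩ ho hm ε hε
  obtain ⟨s1, hs1, h1⟩ := cld3_near (P := fun y => y ∈ U) (hU.mem_nhds hm)
  have hab : -x 2 - s1 / 2 ≤ -x 2 + s1 / 2 := by linarith
  have hac := f2 (-x 2 - s1 / 2) (-x 2 + s1 / 2) fun t ht => h1 t (by
    rw [uIcc_of_le hab] at ht
    rw [abs_lt]
    constructor <;> linarith [ht.1, ht.2])
  have hc : ContinuousAt F (-x 2) := by
    have := hac.continuousOn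
    rw [uIcc_of_le hab] at this
    exact this.continuousAt (Icc_mem_nhds (by linarith) (by linarith))
  obtain ⟨s2, hs2, h2⟩ := Metric.continuousAt_iff.1 hc ε hε
  have f3 := (Measure.measurePreserving_sub_left (volume : Measure ℝ)
    (-(2 * x 2))).quasiMeasurePreserving.ae f1
  refine ⟨min s1 s2, lt_min hs1 hs2, ?_⟩
  filter_upwards [f1, f3, ho] with t a b c d1 d2
  have hu := h1 t (by rw [abs_of_pos d1]; exact d2.trans_le (min_le_left _ _))
  have hu' := hs _ hu
  have c1 := c hu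
  rw [cld3_sg] at hu' c1
  have d3 := d2.trans_le (min_le_right _ _)
  have e1 := h2 (x := t) (by
    rw [Real.dist_eq, abs_lt]
    constructor <;> linarith)
  have e2 := h2 (x := -(2 * x 2) - t) (by
    rw [Real.dist_eq, abs_lt]
    constructor <;> linarith)
  rw [Real.dist_eq, abs_lt] at e1 e2
  rw [b hu', a hu] at c1
  rw [a hu, abs_le]
  constructor <;> linarith [e1.1, e1.2, e2.1, e2.2]

/-- If `f` has trace zero and `f' ≤ f + B` near the plane with `B` continuous and `≤ 0` on the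
plane, then the positive part of `f'` has trace zero. -/
theorem TZ.pos_of_cont (hU : IsOpen U) {B : E3 → ℝ} (h : TZ U f) (hB : ContinuousOn B U)
    (h0 : ∀ x ∈ U, x 2 = 0 → B x ≤ 0) (hd : ∀ᵐ x : E3, x ∈ U → 0 < x 2 → f' x ≤ f x + B x) :
    TZ U (fun x => max (f' x) 0) := by
  filter_upwards [h, ae_line 2 hd] with x hx hl hm ε hε
  have p0 : B (x - x 2 • e 2) ≤ 0 := h0 _ hm (by simp [e_apply])
  have hc : ContinuousAt B (x - x 2 • e 2) := hB.continuousAt (hU.mem_nhds hm)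
  have h3 : ∀ᶠ y in 𝓝 (x - x 2 • e 2), B y < ε / 2 :=
    hc.eventually (gt_mem_nhds (by linarith))
  obtain ⟨s1, hs1, h1⟩ := cld3_near (P := fun y => y ∈ U ∧ B y < ε / 2)
    (Eventually.and (hU.mem_nhds hm) h3)
  obtain ⟨s2, hs2, h2⟩ := hx hm _ (half_pos hε)
  refine ⟨min s1 s2, lt_min hs1 hs2, ?_⟩
  filter_upwards [h2, hl] with t a b c d
  obtain ⟨u1, u2⟩ := h1 t (by rw [abs_of_pos c]; exact d.trans_le (min_le_left _ _))
  rw [cld3_coord] at b
  have b1 := b u1 c
  have a1 := (le_abs_self _).trans (a c (d.trans_le (min_le_right _ _)))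
  rw [abs_of_nonneg (le_max_right _ _)]
  exact max_le (by linarith) hε.le

end

end Vale.Agent.P363
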