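import Vale.Agent.P363.CLd2

/-! P363, block C: reflection, translation, dilation, gluing, traces. -/

open MeasureTheory Set Metric Filter Topology
open scoped RealInnerProductSpace

namespace Vale.Agent.P363

noncomputable section

variable {U : Set E3} {f f' : E3 → ℝ} {g g' : E3 → E3}

namespace CLd3Ax

theorem disj_scale (c : ℝ) {a b a' b' : ℝ} (h : Disjoint (uIoc a b) (uIoc a' b')) :
    Disjoint (uIoc (c * a) (c * b)) (uIoc (c * a') (c * b')) := by
  unfold uIoc at h ⊢
  rw [Ioc_disjoint_Ioc] at h ⊢
  rcases le_total 0 c with hc | hc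
  · have hf : Monotone fun t : ℝ => c * t := fun _ _ k => mul_le_mul_of_nonneg_left k hc
    have := hf h
    simpa only [hf.map_max, hf.map_min] using this
  · have hf : Antitone fun t : ℝ => c * t := fun _ _ k => mul_le_mul_of_nonpos_left k hc
    have := hf h
    simpa only [hf.map_max, hf.map_min] using this

theorem ac_scale {F : ℝ → ℝ} {c a b : ℝ} (hc : c ≠ 0)
    (h : AbsolutelyContinuousOnInterval F (c * a) (c * b)) :
    AbsolutelyContinuousOnInterval (fun t => F (c * t)) a b := by
  rw [absolutelyContinuousOnInterval_iff] at h ⊢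
  intro ε hε
  obtain ⟨δ, hδ, h⟩ := h ε hε
  have hc' : 0 < |c| := abs_pos.2 hc
  refine ⟨δ / |c|, by positivity, fun E hE hl => ?_⟩
  refine h (E.1, fun i => (c * (E.2 i).1, c * (E.2 i).2)) ⟨fun i hi => ?_, ?_⟩ ?_
  · rw [← image_const_mul_uIcc]
    exact ⟨mem_image_of_mem _ (hE.1 i hi).1, mem_image_of_mem _ (hE.1 i hi).2⟩
  · exact fun i hi j hj hij => disj_scale c (hE.2 hi hj hij)
  · rw [lt_div_iff₀ hc', Finset.sum_mul] at hl
    refine lt_of_eq_of_lt (Finset.sum_congr rfl fun i _ => ?_) hl
    simp only [Real.dist_eq]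
    rw [← mul_sub, abs_mul, mul_comm]

theorem qmp {T : E3 → E3} (hT : MeasurableEmbedding T)
    (hq : Measure.QuasiMeasurePreserving T volume volume) (U : Set E3) :
    Measure.QuasiMeasurePreserving T (volume.restrict (T ⁻¹' U)) (volume.restrict U) :=
  ⟨hT.measurable, by
    rw [← hT.restrict_map]
    exact hq.absolutelyContinuous.restrict U⟩

theorem transport (h : LD U f g) {T : E3 → E3} (hT : MeasurableEmbedding T)
    (hq : Measure.QuasiMeasurePreserving T volume volume) (c : Fin 3 → ℝ) (hc : ∀ k, c k ≠ 0)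
    (hl : ∀ x t k, T (x + t • e k) = T x + (c k * t) • e k) {S : E3 → E3} (hS : Continuous S)
    (hs : ∀ v k, S v k = v k * c k) :
    LD (T ⁻¹' U) (fun x => f (T x)) (fun x => S (g (T x))) where
  mf := h.mf.comp_quasiMeasurePreserving (qmp hT hq U)
  mg := hS.comp_aestronglyMeasurable (h.mg.comp_quasiMeasurePreserving (qmp hT hq U))
  line k := by
    filter_upwards [hq.ae (h.line k)] with x ⟨F, h1, h2, h3⟩
    have hm := Measure.quasiMeasurePreserving_smul (volume : Measure ℝ) (hc k)
    refine ⟨fun t => F (c k * t), ?_, fun a b hab => ac_scale (hc k) (h2 _ _ ?_), ?_⟩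
    · filter_upwards [hm.ae h1] with t ht hU
      rw [mem_preimage, hl] at hU
      rw [hl]
      exact ht hU
    · rw [← image_const_mul_uIcc]
      rintro _ ⟨t, ht, rfl⟩
      rw [← hl]
      exact hab t ht
    · filter_upwards [hm.ae h3] with t ht hU
      rw [mem_preimage, hl] at hU
      rw [hl, hs]
      have := (ht hU).comp t ((hasDerivAt_id' t).const_mul (c k))
      rw [mul_one] at this
      exact this

theorem sg_apply (v : E3) (k : Fin 3) : sg v k = v k * if k = 2 then -1 else 1 := by
  fin_cases k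
  · simpa using sg_0 v
  · simpa using sg_1 v
  · simpa using sg_2 v

theorem open_line (hU : IsOpen U) (x : E3) (k : Fin 3) : IsOpen {t : ℝ | x + t • e k ∈ U} :=
  hU.preimage (by fun_prop)

theorem coord_line (x : E3) (t : ℝ) (k : Fin 3) :
    (x + t • e k) 2 = x 2 + if k = 2 then t else 0 := by
  simp only [PiLp.add_apply, PiLp.smul_apply, smul_eq_mul, e_apply, eq_comm (a := (2 : Fin 3))]
  split_ifs <;> simp

end CLd3Ax

open CLd3Ax

theorem LD.refl (h : LD U f g) : LD (sg ⁻¹' U) (fun x => f (sg x)) (fun x => sg (g (sg x))) := by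
  refine transport h (T := sg) (MeasurableEquiv.ofInvolutive sg sg_sg
    continuous_sg.measurable).measurableEmbedding mp_sg.quasiMeasurePreserving
    (fun k => if k = 2 then -1 else 1) (fun k => by split_ifs <;> norm_num) ?_ continuous_sg
    sg_apply
  intro x t k
  rw [sg_add, sg_smul, mul_comm, mul_smul]
  congr 2
  ext j
  rw [sg_apply, PiLp.smul_apply, smul_eq_mul, e_apply]
  by_cases hj : j = k
  · rw [hj, mul_comm]
  · simp [hj]

theorem LD.shift (h : LD U f g) (c : E3) :
    LD ((fun x => x + c) ⁻¹' U) (fun x => f (x + c)) (fun x => g (x + c)) :=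
  transport h (measurableEmbedding_addRight c)
    (measurePreserving_add_right volume c).quasiMeasurePreserving (fun _ => 1)
    (fun _ => one_ne_zero) (fun x t k => by rw [one_mul, add_right_comm]) continuous_id
    fun v k => (mul_one _).symm

theorem LD.dilate (h : LD U f g) {c : ℝ} (hc : 0 < c) :
    LD ((fun x => c • x) ⁻¹' U) (fun x => f (c • x)) (fun x => c • g (c • x)) :=
  transport h (measurableEmbedding_const_smul₀ hc.ne')
    (Measure.quasiMeasurePreserving_smul volume hc.ne') (fun _ => c)
    (fun _ => hc.ne') (fun x t k => by rw [smul_add, smul_smul]) (continuous_const_smul c)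
    fun v k => mul_comm _ _

/-- Gradient of an even (`s = 1`) or odd (`s = -1`) function. -/
theorem LD.sym_grad (hU : IsOpen U) (hs : ∀ x ∈ U, sg x ∈ U) (h : LD U f g) {s : ℝ}
    (he : ∀ᵐ x : E3, x ∈ U → f (sg x) = s * f x) :
    ∀ᵐ x : E3, x ∈ U → sg (g (sg x)) = s • g x :=
  LD.unique hU (h.refl.mono hs)
    (LD.congr hU (h.cmul s) he (Eventually.of_forall fun _ _ => rfl))

theorem LD.glue {A : Set E3} (hU : IsOpen U) (hA : IsClosed A) (hAU : A ⊆ U) (h : LD U f g)
    (h0 : ∀ᵐ x : E3, x ∈ U → x ∉ A → f x = 0) :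
    LD univ (A.indicator f) (A.indicator g) := by
  refine ⟨?_, ?_, fun k => ?_⟩
  · rw [Measure.restrict_univ]
    exact (aestronglyMeasurable_indicator_iff hA.measurableSet).2 (h.mf.mono_set hAU)
  · rw [Measure.restrict_univ]
    exact (aestronglyMeasurable_indicator_iff hA.measurableSet).2 (h.mg.mono_set hAU)
  filter_upwards [h.line k, ae_line k h0] with x ⟨F, h1, h2, h3⟩ h4
  have hU' := open_line hU x k
  have hA' : IsClosed {t : ℝ | x + t • e k ∈ A} := hA.preimage (by fun_prop)
  have hz : ∀ t ∈ {t : ℝ | x + t • e k ∈ U}, t ∉ {t : ℝ | x + t • e k ∈ A} → F t = 0 := by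
    intro t ht ht'
    refine eq_of_ae_open (G := fun _ => 0) (hU'.sdiff hA')
      ((ac_continuousOn hU' h2).mono diff_subset) continuousOn_const ?_ t ⟨ht, ht'⟩
    filter_upwards [h1, h4] with s a1 a2 hs
    rw [← a1 hs.1]
    exact a2 hs.1 hs.2
  refine ⟨{t : ℝ | x + t • e k ∈ A}.indicator F, ?_,
    fun a b _ => ac_glue hU' hA' (fun _ ht => hAU ht) h2 hz a b, ?_⟩
  · filter_upwards [h1] with t ht _
    by_cases hm : x + t • e k ∈ A
    · rw [indicator_of_mem hm, indicator_of_mem (show t ∈ {t : ℝ | x + t • e k ∈ A} from hm)]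
      exact ht (hAU hm)
    · rw [indicator_of_notMem hm,
        indicator_of_notMem (show t ∉ {t : ℝ | x + t • e k ∈ A} from hm)]
  · filter_upwards [h3] with t ht _
    by_cases hm : x + t • e k ∈ A
    · rw [indicator_of_mem hm]
      refine (ht (hAU hm)).congr_of_eventuallyEq ?_
      filter_upwards [hU'.mem_nhds (hAU hm)] with s hs
      by_cases hs' : s ∈ {t : ℝ | x + t • e k ∈ A}
      · exact indicator_of_mem hs' F
      · rw [indicator_of_notMem hs', hz s hs hs']
    · rw [indicator_of_notMem hm]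
      refine (hasDerivAt_const t (0 : ℝ)).congr_of_eventuallyEq ?_
      filter_upwards [hA'.isOpen_compl.mem_nhds hm] with s hs
      exact indicator_of_notMem hs F

theorem LD.cut (hU : IsOpen U) (h : LD U f g) (hz : TZ U f) :
    LD U (Hp.indicator f) (Hp.indicator g) := by
  refine ⟨h.mf.indicator isOpen_Hp.measurableSet, h.mg.indicator isOpen_Hp.measurableSet,
    fun k => ?_⟩
  by_cases hk : k = 2
  · subst hk
    filter_upwards [h.line 2, hz] with x ⟨F, h1, h2, h3⟩ h4
    have hm : ∀ t : ℝ, x + t • e 2 ∈ Hp ↔ t ∈ Ioi (-x 2) := by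
      intro t
      show 0 < (x + t • e 2) 2 ↔ -x 2 < t
      rw [coord_line, if_pos rfl]
      constructor <;> intro <;> linarith
    have hU' := open_line hU x 2
    have hc := ac_continuousOn hU' h2
    have h0 : x + (-x 2) • e 2 ∈ U → F (-x 2) = 0 := by
      intro ht
      refine abs_nonpos_iff.1 (le_of_forall_pos_le_add fun ε hε => ?_)
      obtain ⟨s, hs, h5⟩ := h4 (by rwa [neg_smul, ← sub_eq_add_neg] at ht) ε hε
      have h6 := mem_of_ae_open (F := fun t => |F t|) (Q := Iic ε)
        (hU'.inter (isOpen_Ioo (a := -x 2) (b := -x 2 + s))) (hc.mono inter_subset_left).abs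
        isClosed_Iic (by
          filter_upwards [h1, h5] with t a1 a2 ht'
          rw [← a1 ht'.1]
          exact a2 (by linarith [ht'.2.1]) (by linarith [ht'.2.2]))
      rw [zero_add]
      refine le_of_tendsto (((hc.continuousAt (hU'.mem_nhds ht)).abs).mono_left
        (nhdsWithin_le_nhds (s := Ioi (-x 2)))) ?_
      filter_upwards [mem_nhdsWithin_of_mem_nhds (hU'.mem_nhds ht),
        Ioo_mem_nhdsGT (show -x 2 < -x 2 + s by linarith)] with t a1 a2
      exact h6 t ⟨a1, a2⟩
    refine ⟨(Ioi (-x 2)).indicator F, ?_,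
      fun a b hab => ac_cut (h2 a b hab) fun ht => h0 (hab _ ht), ?_⟩
    · filter_upwards [h1] with t ht hU
      by_cases hp : t ∈ Ioi (-x 2)
      · rw [indicator_of_mem hp, indicator_of_mem ((hm t).2 hp)]
        exact ht hU
      · rw [indicator_of_notMem hp, indicator_of_notMem fun c => hp ((hm t).1 c)]
    · filter_upwards [h3, (countable_singleton (-x 2)).ae_notMem volume] with t ht hne hU
      by_cases hp : t ∈ Ioi (-x 2)
      · rw [indicator_of_mem ((hm t).2 hp)]
        refine (ht hU).congr_of_eventuallyEq ?_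
        filter_upwards [isOpen_Ioi.mem_nhds hp] with s hs
        exact indicator_of_mem hs F
      · rw [indicator_of_notMem fun c => hp ((hm t).1 c)]
        refine (hasDerivAt_const t (0 : ℝ)).congr_of_eventuallyEq ?_
        filter_upwards [Iio_mem_nhds (lt_of_le_of_ne (not_lt.1 hp) hne)] with s hs
        exact indicator_of_notMem (fun c => lt_asymm hs c) F
  · filter_upwards [h.line k] with x ⟨F, h1, h2, h3⟩
    have hm : ∀ t : ℝ, x + t • e k ∈ Hp ↔ 0 < x 2 := by
      intro t
      show 0 < (x + t • e k) 2 ↔ _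
      rw [coord_line, if_neg hk, add_zero]
    by_cases hx : 0 < x 2
    · simp only [indicator_of_mem ((hm _).2 hx)]
      exact ⟨F, h1, h2, h3⟩
    · simp only [indicator_of_notMem fun c => hx ((hm _).1 c)]
      exact ⟨fun _ => 0, Eventually.of_forall fun _ _ => rfl,
        fun a b _ => contDiffOn_const.absolutelyContinuousOnInterval,
        Eventually.of_forall fun t _ => hasDerivAt_const t (0 : ℝ)⟩

/-- Odd extension of the upper part. -/
theorem LD.oddext (h : LD univ f g) (hz : TZ univ f) :
    LD univ (fun x => Hp.indicator f x - Hp.indicator f (sg x))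
      (fun x => Hp.indicator g x - sg (Hp.indicator g (sg x))) :=
  (h.cut isOpen_univ hz).sub (h.cut isOpen_univ hz).refl

end

end Vale.Agent.P363
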