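import Vale.Agent.P363.Defs

/-! P363, block C: almost all lines, Fubini along lines. -/

open MeasureTheory Set Metric Filter Topology
open scoped RealInnerProductSpace

namespace Vale.Agent.P363

noncomputable section

/-- Coordinates adapted to the direction `e k`. -/
theorem cline_coords (k : Fin 3) : ∃ Φ : (Fin 2 → ℝ) × ℝ ≃ᵐ E3,
    MeasurePreserving Φ (volume.prod volume) volume ∧
    (∀ y s t, Φ (y, s) + t • e k = Φ (y, s + t)) ∧ ∀ y s, Φ (y, s) k = s := by
  refine ⟨MeasurableEquiv.prodComm.trans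
    ((MeasurableEquiv.piFinSuccAbove (fun _ : Fin 3 => ℝ) k).symm.trans
      (MeasurableEquiv.toLp 2 (Fin 3 → ℝ))), ?_, fun y s t => ?_, fun y s => ?_⟩
  · have h1 := (volume_preserving_piFinSuccAbove (fun _ : Fin 3 => ℝ) k).symm
    have h2 := PiLp.volume_preserving_toLp (Fin 3)
    have h3 : MeasurePreserving (Prod.swap : (Fin 2 → ℝ) × ℝ → ℝ × (Fin 2 → ℝ))
        (volume.prod volume) (volume.prod volume) := Measure.measurePreserving_swap
    exact (h2.comp h1).comp h3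
  · ext i
    show (Fin.insertNth k s y : Fin 3 → ℝ) i + t * (e k) i = (Fin.insertNth k (s + t) y : Fin 3 → ℝ) i
    refine Fin.succAboveCases k ?_ (fun j => ?_) i
    · simp [e]
    · simp [e, Fin.succAbove_ne]
  · show (Fin.insertNth k s y : Fin 3 → ℝ) k = s
    simp

theorem cline_up {Φ : (Fin 2 → ℝ) × ℝ ≃ᵐ E3}
    (hΦ : MeasurePreserving Φ (volume.prod volume) volume) {Q : E3 → Prop}
    (h : ∀ᵐ y : Fin 2 → ℝ, ∀ s : ℝ, Q (Φ (y, s))) : ∀ᵐ x : E3, Q x := by
  have h1 : ∀ᵐ p : (Fin 2 → ℝ) × ℝ ∂(volume.prod volume), Q (Φ p) :=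
    (Measure.quasiMeasurePreserving_fst.ae h).mono fun p hp => hp p.2
  have h2 := (hΦ.symm Φ).quasiMeasurePreserving.ae h1
  simpa using h2

theorem cline_down {Φ : (Fin 2 → ℝ) × ℝ ≃ᵐ E3}
    (hΦ : MeasurePreserving Φ (volume.prod volume) volume) {Q : E3 → Prop}
    (h : ∀ᵐ x : E3, Q x) : ∀ᵐ y : Fin 2 → ℝ, ∀ᵐ s : ℝ, Q (Φ (y, s)) :=
  Measure.ae_ae_of_ae_prod (hΦ.quasiMeasurePreserving.ae h)

theorem cline_shift {Q : ℝ → Prop} (h : ∀ᵐ t : ℝ, Q t) (s : ℝ) : ∀ᵐ t : ℝ, Q (s + t) :=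
  (measurePreserving_add_left volume s).quasiMeasurePreserving.ae h

theorem ae_line {P : E3 → Prop} (k : Fin 3) (h : ∀ᵐ x : E3, P x) :
    ∀ᵐ x : E3, ∀ᵐ t : ℝ, P (x + t • e k) := by
  obtain ⟨Φ, hΦ, h1, -⟩ := cline_coords k
  refine cline_up hΦ ((cline_down hΦ h).mono fun y hy s => ?_)
  simp only [h1]
  exact cline_shift hy s

theorem ae_of_line {P : E3 → Prop} (k : Fin 3) (hP : NullMeasurableSet {x | P x} volume)
    (h : ∀ᵐ x : E3, ∀ᵐ t : ℝ, P (x + t • e k)) : ∀ᵐ x : E3, P x := by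
  obtain ⟨Φ, hΦ, h1, -⟩ := cline_coords k
  obtain ⟨T, hT, hTm, hTe⟩ := hP.exists_measurable_subset_ae_eq
  have h2 : ∀ᵐ x : E3, P x → x ∈ T := hTe.mono fun x hx hp => hx.mpr hp
  have h3 : ∀ᵐ y : Fin 2 → ℝ, ∀ᵐ t : ℝ, Φ (y, t) ∈ T := by
    filter_upwards [cline_down hΦ h, cline_down hΦ h2] with y hy hy2
    obtain ⟨s, hs⟩ := hy.exists
    simp only [h1] at hs
    have h4 := cline_shift hs (-s)
    simp only [add_neg_cancel_left] at h4
    filter_upwards [h4, hy2] with t ht ht2 using ht2 ht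
  have h5 : ∀ᵐ p : (Fin 2 → ℝ) × ℝ ∂(volume.prod volume), Φ p ∈ T :=
    (Measure.ae_prod_iff_ae_ae (Φ.measurable hTm)).2 h3
  have h6 := (hΦ.symm Φ).quasiMeasurePreserving.ae h5
  simp only [MeasurableEquiv.apply_symm_apply] at h6
  exact h6.mono fun x hx => hT hx

theorem ae_line_integrable {α : Type} [NormedAddCommGroup α] (k : Fin 3) {f : E3 → α}
    (hf : Integrable f) : ∀ᵐ x : E3, Integrable (fun t : ℝ => f (x + t • e k)) := by
  obtain ⟨Φ, hΦ, h1, -⟩ := cline_coords k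
  have h2 : Integrable (f ∘ Φ) (volume.prod volume) :=
    (hΦ.integrable_comp_emb Φ.measurableEmbedding).2 hf
  refine cline_up hΦ (h2.prod_right_ae.mono fun y hy s => ?_)
  simp only [h1]
  exact hy.comp_add_left s

theorem ae_line_meas {α : Type} [NormedAddCommGroup α] (k : Fin 3) {U : Set E3} (hU : IsOpen U)
    {f : E3 → α} (hf : AEStronglyMeasurable f (volume.restrict U)) :
    ∀ᵐ x : E3, AEStronglyMeasurable (fun t : ℝ => f (x + t • e k))
      (volume.restrict {t : ℝ | x + t • e k ∈ U}) := by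
  obtain ⟨g, hg, hfg⟩ := hf
  have h1 : ∀ᵐ x : E3, x ∈ U → f x = g x := (ae_restrict_iff' hU.measurableSet).1 hfg
  filter_upwards [ae_line k h1] with x hx
  have hc : Continuous fun t : ℝ => x + t • e k := by fun_prop
  refine ⟨fun t => g (x + t • e k), hg.comp_measurable hc.measurable, ?_⟩
  exact (ae_restrict_iff' (hU.preimage hc).measurableSet).2 hx

/-- A countable family of compact sets whose interiors cover an open set. -/
theorem exists_exhaust {U : Set E3} (hU : IsOpen U) : ∃ K : ℕ → Set E3, (∀ n, IsCompact (K n)) ∧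
    (∀ n, K n ⊆ U) ∧ Monotone K ∧ ∀ Q, IsCompact Q → Q ⊆ U → ∃ n, Q ⊆ interior (K n) := by
  haveI := hU.locallyCompactSpace
  let C := CompactExhaustion.choice U
  refine ⟨fun n => Subtype.val '' C n, fun n => (C.isCompact n).image continuous_subtype_val,
    fun n => ?_, fun m n h => image_mono (C.subset h), fun Q hQ hQU => ?_⟩
  · rintro _ ⟨x, -, rfl⟩
    exact x.2
  · have h1 : IsCompact ((Subtype.val : U → E3) ⁻¹' Q) := by
      rw [Subtype.isCompact_iff, Subtype.image_preimage_coe, inter_eq_right.2 hQU]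
      exact hQ
    obtain ⟨n, hn⟩ := C.exists_superset_of_isCompact h1
    refine ⟨n + 1, fun x hx => hU.isOpenMap_subtype_val.image_interior_subset _ ?_⟩
    exact ⟨⟨x, hQU hx⟩, C.subset_interior_succ n (hn hx), rfl⟩

/-- Local integrability on almost every line. -/
theorem ae_line_loc (k : Fin 3) {U : Set E3} (hU : IsOpen U) {f : E3 → ℝ} (hf : Loc1 U f) :
    ∀ᵐ x : E3, ∀ a b : ℝ, (∀ t ∈ uIcc a b, x + t • e k ∈ U) →
      IntervalIntegrable (fun t : ℝ => f (x + t • e k)) volume a b := by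
  obtain ⟨K, hK, hKU, -, hK'⟩ := exists_exhaust hU
  have h1 : ∀ n, ∀ᵐ x : E3, Integrable (fun t : ℝ => (K n).indicator f (x + t • e k)) := fun n =>
    ae_line_integrable k ((integrable_indicator_iff (hK n).measurableSet).2 (hf _ (hK n) (hKU n)))
  filter_upwards [ae_all_iff.2 h1] with x hx a b hab
  have hc : Continuous fun t : ℝ => x + t • e k := by fun_prop
  obtain ⟨n, hn⟩ := hK' _ (isCompact_uIcc.image hc) (by
    rintro _ ⟨t, ht, rfl⟩
    exact hab t ht)
  refine (intervalIntegrable_iff.2 ((hx n).integrableOn.congr_fun (fun t ht => ?_)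
    measurableSet_uIoc))
  exact Set.indicator_of_mem (interior_subset (hn ⟨t, uIoc_subset_uIcc ht, rfl⟩)) f

theorem integral_nonpos_of_lines (k : Fin 3) {f : E3 → ℝ} (hf : Integrable f)
    (h : ∀ᵐ x : E3, ∫ t : ℝ, f (x + t • e k) ≤ 0) : ∫ x, f x ≤ 0 := by
  obtain ⟨Φ, hΦ, h1, -⟩ := cline_coords k
  have h2 : Integrable (f ∘ Φ) (volume.prod volume) :=
    (hΦ.integrable_comp_emb Φ.measurableEmbedding).2 hf
  rw [← hΦ.integral_comp' f]
  have h3 := integral_prod _ h2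
  simp only [Function.comp] at h3
  rw [h3]
  refine integral_nonpos_of_ae ?_
  filter_upwards [cline_down hΦ h] with y hy
  obtain ⟨s, hs⟩ := hy.exists
  simp only [h1] at hs
  rwa [integral_add_left_eq_self (fun t => f (Φ (y, t))) s] at hs

theorem integral_zero_of_lines (k : Fin 3) {f : E3 → ℝ} (hf : Integrable f)
    (h : ∀ᵐ x : E3, ∫ t : ℝ, f (x + t • e k) = 0) : ∫ x, f x = 0 := by
  refine le_antisymm (integral_nonpos_of_lines k hf (h.mono fun x hx => hx.le)) ?_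
  have h1 := integral_nonpos_of_lines k hf.neg (h.mono fun x hx => by
    simp only [Pi.neg_apply, integral_neg, hx, neg_zero, le_refl])
  simp only [Pi.neg_apply, integral_neg] at h1
  linarith

/-- Almost every line misses a given finite set. -/
theorem ae_line_miss (k : Fin 3) {S : Set E3} (hS : S.Finite) :
    ∀ᵐ x : E3, ∀ t : ℝ, x + t • e k ∉ S := by
  obtain ⟨Φ, hΦ, h1, -⟩ := cline_coords k
  have h2 : ∀ᵐ y : Fin 2 → ℝ, y ∉ (fun c => (Φ.symm c).1) '' S :=
    compl_mem_ae_iff.2 ((hS.image _).measure_zero volume)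
  refine cline_up hΦ (h2.mono fun y hy s t ht => hy ⟨_, ht, ?_⟩)
  simp only [h1, MeasurableEquiv.symm_apply_apply]

theorem ae_coord_ne (k : Fin 3) (c : ℝ) : ∀ᵐ x : E3, x k ≠ c := by
  obtain ⟨Φ, hΦ, -, h1⟩ := cline_coords k
  have h2 : ∀ᵐ s : ℝ, s ≠ c := compl_mem_ae_iff.2 (measure_singleton c)
  have h3 : ∀ᵐ p : (Fin 2 → ℝ) × ℝ ∂(volume.prod volume), Φ p k ≠ c :=
    (Measure.quasiMeasurePreserving_snd.ae h2).mono fun p hp => by
      rw [show Φ p = Φ (p.1, p.2) from rfl, h1]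
      exact hp
  have h4 := (hΦ.symm Φ).quasiMeasurePreserving.ae h3
  simpa using h4

theorem ae_norm_ne (c : E3) (r : ℝ) : ∀ᵐ x : E3, ‖x - c‖ ≠ r := by
  have h1 : ∀ᵐ x : E3, x ∉ sphere c r := compl_mem_ae_iff.2 (Measure.addHaar_sphere volume c r)
  exact h1.mono fun x hx h => hx (mem_sphere_iff_norm.2 h)

/-- A property that holds a.e. on each compact subset holds a.e. on the open set. -/
theorem ae_of_compacts {U : Set E3} (hU : IsOpen U) {P : E3 → Prop}
    (h : ∀ K, IsCompact K → K ⊆ U → ∀ᵐ x : E3, x ∈ K → P x) : ∀ᵐ x : E3, x ∈ U → P x := by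
  obtain ⟨K, hK, hKU, -, hK'⟩ := exists_exhaust hU
  filter_upwards [ae_all_iff.2 fun n => h (K n) (hK n) (hKU n)] with x hx hxU
  obtain ⟨n, hn⟩ := hK' {x} isCompact_singleton (singleton_subset_iff.2 hxU)
  exact hx n (interior_subset (hn rfl))

end

end Vale.Agent.P363
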