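import Vale.Agent.P363.CLscA

/-! P363, block C: completeness and lower semicontinuity. -/

open MeasureTheory Set Metric Filter Topology
open scoped RealInnerProductSpace

namespace Vale.Agent.P363

noncomputable section

namespace CLscAux

variable {α β : Type} [MeasurableSpace α] {μ : Measure α} [NormedAddCommGroup β]

theorem sqi {f g : α → β} (hf : MemLp f 2 μ) (hg : MemLp g 2 μ) :
    Integrable (fun x => ‖f x - g x‖ ^ 2) μ :=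
  (memLp_two_iff_integrable_sq_norm (hf.sub hg).1).1 (hf.sub hg)

theorem sqr {f g : α → ℝ} (hf : MemLp f 2 μ) (hg : MemLp g 2 μ) :
    Integrable (fun x => (f x - g x) ^ 2) μ := (hf.sub hg).integrable_sq

theorem comp [CompleteSpace β] {f : ℕ → α → β} (h : ∀ n, MemLp (f n) 2 μ) {T : ℕ → ℕ → ℝ}
    (hc : ∀ ε > 0, ∃ N, ∀ m ≥ N, ∀ n ≥ N, T m n < ε)
    (hT : ∀ m n, ∫ x, ‖f m x - f n x‖ ^ 2 ∂μ ≤ T m n) :
    ∃ f0 : α → β, MemLp f0 2 μ ∧ Tendsto (fun n => ∫ x, ‖f n x - f0 x‖ ^ 2 ∂μ) atTop (𝓝 0) :=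
  L2_complete h fun ε hε => (hc ε hε).imp fun _ hN m hm n hn => (hT m n).trans_lt (hN m hm n hn)

theorem compr {f : ℕ → α → ℝ} (h : ∀ n, MemLp (f n) 2 μ) {T : ℕ → ℕ → ℝ}
    (hc : ∀ ε > 0, ∃ N, ∀ m ≥ N, ∀ n ≥ N, T m n < ε)
    (hT : ∀ m n, ∫ x, (f m x - f n x) ^ 2 ∂μ ≤ T m n) :
    ∃ f0 : α → ℝ, MemLp f0 2 μ ∧ Tendsto (fun n => ∫ x, (f n x - f0 x) ^ 2 ∂μ) atTop (𝓝 0) := by
  simpa only [Real.norm_eq_abs, sq_abs] using
    comp h hc (by simpa only [Real.norm_eq_abs, sq_abs] using hT)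

theorem nn {f : α → β} : 0 ≤ ∫ x, ‖f x‖ ^ 2 ∂μ := integral_nonneg fun _ => sq_nonneg _

theorem nnr {f : α → ℝ} : 0 ≤ ∫ x, f x ^ 2 ∂μ := integral_nonneg fun _ => sq_nonneg _

theorem add3 {f f' : α → ℝ} {g g' k k' : α → β} (hf : MemLp f 2 μ) (hf' : MemLp f' 2 μ)
    (hg : MemLp g 2 μ) (hg' : MemLp g' 2 μ) (hk : MemLp k 2 μ) (hk' : MemLp k' 2 μ) :
    ∫ x, ((f x - f' x) ^ 2 + ‖g x - g' x‖ ^ 2 + ‖k x - k' x‖ ^ 2) ∂μ =
      ∫ x, (f x - f' x) ^ 2 ∂μ + ∫ x, ‖g x - g' x‖ ^ 2 ∂μ + ∫ x, ‖k x - k' x‖ ^ 2 ∂μ :=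
  (integral_add ((sqr hf hf').add (sqi hg hg')) (sqi hk hk')).trans
    (congrArg (· + _) (integral_add (sqr hf hf') (sqi hg hg')))

theorem add4 {f f' : α → ℝ} {g g' k k' l l' : α → β} (hf : MemLp f 2 μ) (hf' : MemLp f' 2 μ)
    (hg : MemLp g 2 μ) (hg' : MemLp g' 2 μ) (hk : MemLp k 2 μ) (hk' : MemLp k' 2 μ)
    (hl : MemLp l 2 μ) (hl' : MemLp l' 2 μ) :
    ∫ x, ((f x - f' x) ^ 2 + ‖g x - g' x‖ ^ 2 + ‖k x - k' x‖ ^ 2 + ‖l x - l' x‖ ^ 2) ∂μ =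
      ∫ x, (f x - f' x) ^ 2 ∂μ + ∫ x, ‖g x - g' x‖ ^ 2 ∂μ + ∫ x, ‖k x - k' x‖ ^ 2 ∂μ +
        ∫ x, ‖l x - l' x‖ ^ 2 ∂μ :=
  (integral_add (((sqr hf hf').add (sqi hg hg')).add (sqi hk hk')) (sqi hl hl')).trans
    (congrArg (· + _) (add3 hf hf' hg hg' hk hk'))

end CLscAux

open CLscAux

theorem H1.complete {F : ℕ → E3 → ℝ} {G : ℕ → E3 → E3} (h : ∀ n, H1 (F n) (G n))
    (hc : ∀ ε > 0, ∃ N, ∀ m ≥ N, ∀ n ≥ N,
      (∫ x, (F m x - F n x) ^ 2) + ∫ x, ‖G m x - G n x‖ ^ 2 < ε) :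
    ∃ f g, H1 f g ∧ Tendsto (fun n => ∫ x, (F n x - f x) ^ 2) atTop (𝓝 0) ∧
      Tendsto (fun n => ∫ x, ‖G n x - g x‖ ^ 2) atTop (𝓝 0) := by
  obtain ⟨f, hf, c1⟩ := compr (fun n => (h n).l2) hc fun m n => le_add_of_nonneg_right nn
  obtain ⟨g, hg, c2⟩ := comp (fun n => (h n).l2g) hc fun m n => le_add_of_nonneg_left nnr
  exact ⟨f, g, H1.closed h hf hg c1 c2, c1, c2⟩

theorem O2.complete (a : ℕ → O2) (hc : ∀ ε > 0, ∃ N, ∀ m ≥ N, ∀ n ≥ N,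
    ∫ w, (((a m).f w - (a n).f w) ^ 2 + ‖(a m).g1 w - (a n).g1 w‖ ^ 2 +
      ‖(a m).g2 w - (a n).g2 w‖ ^ 2) < ε) :
    ∃ b : O2, Tendsto (fun n => ∫ w, (((a n).f w - b.f w) ^ 2 + ‖(a n).g1 w - b.g1 w‖ ^ 2 +
      ‖(a n).g2 w - b.g2 w‖ ^ 2)) atTop (𝓝 0) := by
  have m0 : ∀ n, MemLp (a n).f 2 volume := fun n => (a n).h.h1.l2
  have m1 : ∀ n, MemLp (a n).g1 2 volume := fun n => (a n).h.h1.l2g
  have m2 : ∀ n, MemLp (a n).g2 2 volume := fun n =>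
    (MemLp.comp_measurePreserving (a n).h.h2.l2g mp_swap6 :)
  simp only [fun m n => add3 (m0 m) (m0 n) (m1 m) (m1 n) (m2 m) (m2 n)] at hc
  obtain ⟨f, hf, c0⟩ := compr m0 hc fun m n =>
    le_add_of_le_of_nonneg (le_add_of_nonneg_right nn) nn
  obtain ⟨g1, hg1, c1⟩ := comp m1 hc fun m n =>
    le_add_of_le_of_nonneg (le_add_of_nonneg_left nnr) nn
  obtain ⟨g2, hg2, c2⟩ := comp m2 hc fun m n => le_add_of_nonneg_left (add_nonneg nnr nn)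
  refine ⟨⟨f, g1, g2, HV.closed (fun n => (a n).h.h1) hf hg1 c0 c1,
    HV.closed (fun n => (a n).h.h2) (hf.comp_measurePreserving mp_swap6)
      (hg2.comp_measurePreserving mp_swap6)
      (c0.congr fun n => (integral_swap6 fun w => ((a n).f w - f w) ^ 2).symm)
      (c2.congr fun n => (integral_swap6 fun w => ‖(a n).g2 w - g2 w‖ ^ 2).symm)⟩, ?_⟩
  simpa only [fun n => add3 (m0 n) hf (m1 n) hg1 (m2 n) hg2, add_zero] using (c0.add c1).add c2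

theorem O3.complete (a : ℕ → O3) (hc : ∀ ε > 0, ∃ N, ∀ m ≥ N, ∀ n ≥ N,
    ∫ w, (((a m).f w - (a n).f w) ^ 2 + ‖(a m).g1 w - (a n).g1 w‖ ^ 2 +
      ‖(a m).g2 w - (a n).g2 w‖ ^ 2 + ‖(a m).g3 w - (a n).g3 w‖ ^ 2) < ε) :
    ∃ b : O3, Tendsto (fun n => ∫ w, (((a n).f w - b.f w) ^ 2 + ‖(a n).g1 w - b.g1 w‖ ^ 2 +
      ‖(a n).g2 w - b.g2 w‖ ^ 2 + ‖(a n).g3 w - b.g3 w‖ ^ 2)) atTop (𝓝 0) := by
  have m0 : ∀ n, MemLp (a n).f 2 volume := fun n => (a n).h.h1.l2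
  have m1 : ∀ n, MemLp (a n).g1 2 volume := fun n => (a n).h.h1.l2g
  have m2 : ∀ n, MemLp (a n).g2 2 volume := fun n =>
    (MemLp.comp_measurePreserving (a n).h.h2.l2g mp_p12 :)
  have m3 : ∀ n, MemLp (a n).g3 2 volume := fun n =>
    (MemLp.comp_measurePreserving (a n).h.h3.l2g mp_p13 :)
  simp only [fun m n => add4 (m0 m) (m0 n) (m1 m) (m1 n) (m2 m) (m2 n) (m3 m) (m3 n)] at hc
  obtain ⟨f, hf, c0⟩ := compr m0 hc fun m n =>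
    le_add_of_le_of_nonneg (le_add_of_le_of_nonneg (le_add_of_nonneg_right nn) nn) nn
  obtain ⟨g1, hg1, c1⟩ := comp m1 hc fun m n =>
    le_add_of_le_of_nonneg (le_add_of_le_of_nonneg (le_add_of_nonneg_left nnr) nn) nn
  obtain ⟨g2, hg2, c2⟩ := comp m2 hc fun m n =>
    le_add_of_le_of_nonneg (le_add_of_nonneg_left (add_nonneg nnr nn)) nn
  obtain ⟨g3, hg3, c3⟩ := comp m3 hc fun m n =>
    le_add_of_nonneg_left (add_nonneg (add_nonneg nnr nn) nn)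
  refine ⟨⟨f, g1, g2, g3, HV.closed (fun n => (a n).h.h1) hf hg1 c0 c1,
    HV.closed (fun n => (a n).h.h2) (hf.comp_measurePreserving mp_p12)
      (hg2.comp_measurePreserving mp_p12)
      (c0.congr fun n => (integral_p12 fun w => ((a n).f w - f w) ^ 2).symm)
      (c2.congr fun n => (integral_p12 fun w => ‖(a n).g2 w - g2 w‖ ^ 2).symm),
    HV.closed (fun n => (a n).h.h3) (hf.comp_measurePreserving mp_p13)
      (hg3.comp_measurePreserving mp_p13)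
      (c0.congr fun n => (integral_p13 fun w => ((a n).f w - f w) ^ 2).symm)
      (c3.congr fun n => (integral_p13 fun w => ‖(a n).g3 w - g3 w‖ ^ 2).symm)⟩, ?_⟩
  simpa only [fun n => add4 (m0 n) hf (m1 n) hg1 (m2 n) hg2 (m3 n) hg3, add_zero] using
    ((c0.add c1).add c2).add c3

end

end Vale.Agent.P363
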