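import Vale.Agent.P363.CGid

/-! P363, block C: completeness and lower semicontinuity. -/

open MeasureTheory Set Metric Filter Topology
open scoped RealInnerProductSpace

namespace Vale.Agent.P363

noncomputable section

theorem clsca_elp {α β : Type} [MeasurableSpace α] {μ : Measure α} [NormedAddCommGroup β]
    {f : α → β} (h : MemLp f 2 μ) : eLpNorm f 2 μ = ENNReal.ofReal √(∫ x, ‖f x‖ ^ 2 ∂μ) := by
  rw [h.eLpNorm_eq_integral_rpow_norm (by simp) (by simp), Real.sqrt_eq_rpow]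
  simp

theorem clsca_norm {α β : Type} [MeasurableSpace α] {μ : Measure α} [NormedAddCommGroup β]
    {f : α → β} (h : MemLp f 2 μ) : ‖h.toLp f‖ = √(∫ x, ‖f x‖ ^ 2 ∂μ) := by
  rw [Lp.norm_toLp, clsca_elp h, ENNReal.toReal_ofReal (Real.sqrt_nonneg _)]

theorem clsca_dist {α β : Type} [MeasurableSpace α] {μ : Measure α} [NormedAddCommGroup β]
    {f g : α → β} (h : MemLp f 2 μ) (h' : MemLp g 2 μ) :
    ‖h.toLp f - h'.toLp g‖ = √(∫ x, ‖f x - g x‖ ^ 2 ∂μ) := by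
  rw [← MemLp.toLp_sub h h', clsca_norm]
  rfl

theorem clsca_lim {α β : Type} [MeasurableSpace α] {μ : Measure α} [NormedAddCommGroup β]
    {f : ℕ → α → β} {g : α → β} (h : ∀ n, MemLp (f n) 2 μ) (h' : MemLp g 2 μ)
    (hc : Tendsto (fun n => (h n).toLp (f n)) atTop (𝓝 (h'.toLp g))) :
    Tendsto (fun n => ∫ x, ‖f n x - g x‖ ^ 2 ∂μ) atTop (𝓝 0) := by
  have h1 := (tendsto_iff_norm_sub_tendsto_zero.mp hc).pow 2
  rw [zero_pow two_ne_zero] at h1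
  refine h1.congr fun n => ?_
  rw [clsca_dist, Real.sq_sqrt (integral_nonneg fun _ => sq_nonneg _)]

theorem L2_complete {α β : Type} [MeasurableSpace α] {μ : Measure α} [NormedAddCommGroup β]
    [CompleteSpace β] {f : ℕ → α → β} (h : ∀ n, MemLp (f n) 2 μ)
    (hc : ∀ ε > 0, ∃ N, ∀ m ≥ N, ∀ n ≥ N, ∫ x, ‖f m x - f n x‖ ^ 2 ∂μ < ε) :
    ∃ f0 : α → β, MemLp f0 2 μ ∧ Tendsto (fun n => ∫ x, ‖f n x - f0 x‖ ^ 2 ∂μ) atTop (𝓝 0) := by
  have h1 : CauchySeq fun n => (h n).toLp (f n) := by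
    refine Metric.cauchySeq_iff.mpr fun ε hε => ?_
    obtain ⟨N, hN⟩ := hc (ε ^ 2) (by positivity)
    refine ⟨N, fun m hm n hn => ?_⟩
    rw [dist_eq_norm, clsca_dist]
    exact (Real.sqrt_lt' hε).mpr (hN m hm n hn)
  obtain ⟨g, hg⟩ := cauchySeq_tendsto_of_complete h1
  refine ⟨g, Lp.memLp g, clsca_lim h (Lp.memLp g) ?_⟩
  rwa [Lp.toLp_coeFn]

theorem L2_ae_subseq {α β : Type} [MeasurableSpace α] {μ : Measure α} [NormedAddCommGroup β]
    {f : ℕ → α → β} {f0 : α → β} (h : ∀ n, MemLp (f n) 2 μ) (h0 : MemLp f0 2 μ)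
    (hc : Tendsto (fun n => ∫ x, ‖f n x - f0 x‖ ^ 2 ∂μ) atTop (𝓝 0)) :
    ∃ s : ℕ → ℕ, StrictMono s ∧ ∀ᵐ x ∂μ, Tendsto (fun n => f (s n) x) atTop (𝓝 (f0 x)) := by
  refine (tendstoInMeasure_of_tendsto_eLpNorm (p := 2) two_ne_zero
    (fun n => (h n).aestronglyMeasurable) h0.aestronglyMeasurable ?_).exists_seq_tendsto_ae
  have h1 := ENNReal.tendsto_ofReal hc.sqrt
  rw [Real.sqrt_zero, ENNReal.ofReal_zero] at h1
  refine h1.congr fun n => ?_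
  rw [clsca_elp ((h n).sub h0)]
  rfl

/-- Nested nonempty midpoint-convex sets with bounded norms contain a Cauchy sequence. -/
theorem nested_cauchy {H : Type} [NormedAddCommGroup H] [InnerProductSpace ℝ H] {K : ℕ → Set H}
    (hm : Antitone K) {M : ℝ} (hb : ∀ n, ∃ x ∈ K n, ‖x‖ ≤ M)
    (hc : ∀ n, ∀ x ∈ K n, ∀ y ∈ K n, (1 / 2 : ℝ) • (x + y) ∈ K n) :
    ∃ x : ℕ → H, (∀ n, x n ∈ K n) ∧ CauchySeq x := by
  have hbb : ∀ n, BddBelow (norm '' K n) := fun n => ⟨0, by rintro _ ⟨x, -, rfl⟩; positivity⟩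
  have hne : ∀ n, (norm '' K n).Nonempty := fun n => (hb n).elim fun x hx => ⟨_, x, hx.1, rfl⟩
  set d : ℕ → ℝ := fun n => sInf (norm '' K n) with hd
  have hdm : Monotone d := fun m n hmn => csInf_le_csInf (hbb m) (hne n) (image_mono (hm hmn))
  have hdM : BddAbove (range d) := ⟨M, by
    rintro _ ⟨n, rfl⟩
    obtain ⟨x, hx, hxM⟩ := hb n
    exact (csInf_le (hbb n) ⟨x, hx, rfl⟩).trans hxM⟩
  have hd0 : ∀ n, 0 ≤ d n := fun n => le_csInf (hne n) (by rintro _ ⟨x, -, rfl⟩; positivity)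
  have hx : ∀ n : ℕ, ∃ x ∈ K n, ‖x‖ < d n + 1 / ((n : ℝ) + 1) := fun n => by
    obtain ⟨_, ⟨x, hx, rfl⟩, h2⟩ := exists_lt_of_csInf_lt (hne n)
      (lt_add_of_pos_right (d n) (Nat.one_div_pos_of_nat (n := n)))
    exact ⟨x, hx, h2⟩
  choose x hxK hxd using hx
  refine ⟨x, hxK, cauchySeq_of_le_tendsto_0
    (fun N : ℕ => √(4 * ((⨆ n, d n) + 1 / ((N : ℝ) + 1)) ^ 2 - 4 * d N ^ 2))
    (fun n m N hn hm' => ?_) ?_⟩
  · have h1 : ∀ n, N ≤ n → ‖x n‖ ^ 2 ≤ ((⨆ n, d n) + 1 / ((N : ℝ) + 1)) ^ 2 := by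
      intro n hn
      refine pow_le_pow_left₀ (norm_nonneg _) ((hxd n).le.trans ?_) 2
      exact add_le_add (le_ciSup hdM n) (Nat.one_div_le_one_div hn)
    have h2 : d N ≤ ‖(1 / 2 : ℝ) • (x n + x m)‖ :=
      csInf_le (hbb N) ⟨_, hc N _ (hm hn (hxK n)) _ (hm hm' (hxK m)), rfl⟩
    rw [norm_smul, Real.norm_of_nonneg (by norm_num)] at h2
    have h3 := parallelogram_law_with_norm ℝ (x n) (x m)
    have h4 := pow_le_pow_left₀ (hd0 N) h2 2
    rw [dist_eq_norm]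
    refine Real.le_sqrt_of_sq_le ?_
    nlinarith [h1 n hn, h1 m hm']
  · have h1 := tendsto_atTop_ciSup hdm hdM
    have h2 := ((((tendsto_const_nhds (x := ⨆ n, d n)).add
      tendsto_one_div_add_atTop_nhds_zero_nat).pow 2).const_mul 4).sub ((h1.pow 2).const_mul 4)
    simpa using h2.sqrt

/-- Lower semicontinuity of the Dirichlet integral. -/
theorem H1.lsc {F : ℕ → E3 → ℝ} {G : ℕ → E3 → E3} {f : E3 → ℝ} (h : ∀ n, H1 (F n) (G n))
    (h1 : MemLp f 2 volume) (c1 : Tendsto (fun n => ∫ x, (F n x - f x) ^ 2) atTop (𝓝 0)) {M : ℝ}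
    (c2 : Tendsto (fun n => ∫ x, ‖G n x‖ ^ 2) atTop (𝓝 M)) :
    ∃ g, H1 f g ∧ ∫ x, ‖g x‖ ^ 2 ≤ M := by
  have hM : 0 ≤ M := ge_of_tendsto' c2 fun n => integral_nonneg fun _ => sq_nonneg _
  let K : ℕ → Set (Lp E3 2 (volume : Measure E3)) := fun n =>
    {B | ∃ A : Lp ℝ 2 (volume : Measure E3), LD univ A B ∧
      ‖A - h1.toLp f‖ ≤ 1 / ((n : ℝ) + 1) ∧ ‖B‖ ≤ √M + 1 / ((n : ℝ) + 1)}
  have hm : Antitone K := by
    rintro m n hmn B ⟨A, a1, a2, a3⟩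
    have := Nat.one_div_le_one_div (α := ℝ) hmn
    exact ⟨A, a1, by linarith, by linarith⟩
  have hb : ∀ n, ∃ B ∈ K n, ‖B‖ ≤ √M + 1 := by
    intro n
    have hε := Nat.one_div_pos_of_nat (α := ℝ) (n := n)
    have e1 := c1.sqrt.eventually (gt_mem_nhds (by rw [Real.sqrt_zero]; exact hε))
    have e2 := c2.sqrt.eventually (gt_mem_nhds (lt_add_of_pos_right _ hε))
    obtain ⟨m, m1, m2⟩ := (e1.and e2).exists
    rw [← clsca_norm (h m).l2g] at m2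
    have h5 : 1 / ((n : ℝ) + 1) ≤ 1 := by
      rw [div_le_one (by positivity)]
      linarith [Nat.cast_nonneg (α := ℝ) n]
    refine ⟨(h m).l2g.toLp _, ⟨(h m).l2.toLp _, (h m).ld.congr isOpen_univ
      ((h m).l2.coeFn_toLp.mono fun x hx _ => hx) ((h m).l2g.coeFn_toLp.mono fun x hx _ => hx),
      ?_, m2.le⟩, by linarith⟩
    rw [clsca_dist]
    simpa only [Real.norm_eq_abs, sq_abs] using m1.le
  have hc : ∀ n, ∀ x ∈ K n, ∀ y ∈ K n, (1 / 2 : ℝ) • (x + y) ∈ K n := by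
    rintro n B ⟨A, a1, a2, a3⟩ B' ⟨A', b1, b2, b3⟩
    refine ⟨(1 / 2 : ℝ) • (A + A'), ((a1.add b1).cmul (1 / 2)).congr isOpen_univ ?_ ?_, ?_, ?_⟩
    · filter_upwards [Lp.coeFn_smul (1 / 2 : ℝ) (A + A'), Lp.coeFn_add A A'] with x h2 h3 _
      rw [h2, Pi.smul_apply, h3, Pi.add_apply, smul_eq_mul]
    · filter_upwards [Lp.coeFn_smul (1 / 2 : ℝ) (B + B'), Lp.coeFn_add B B'] with x h2 h3 _
      rw [h2, Pi.smul_apply, h3, Pi.add_apply]
    · have e : (1 / 2 : ℝ) • (A + A') - h1.toLp f =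
          (1 / 2 : ℝ) • ((A - h1.toLp f) + (A' - h1.toLp f)) := by module
      rw [e, norm_smul, Real.norm_of_nonneg (by norm_num)]
      linarith [norm_add_le (A - h1.toLp f) (A' - h1.toLp f)]
    · rw [norm_smul, Real.norm_of_nonneg (by norm_num)]
      linarith [norm_add_le B B']
  obtain ⟨B, hB, hBc⟩ := nested_cauchy hm hb hc
  choose A a1 a2 a3 using hB
  obtain ⟨g, hg⟩ := cauchySeq_tendsto_of_complete hBc
  have hA : Tendsto A atTop (𝓝 (h1.toLp f)) := tendsto_iff_norm_sub_tendsto_zero.mpr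
    (squeeze_zero (fun _ => norm_nonneg _) a2 tendsto_one_div_add_atTop_nhds_zero_nat)
  refine ⟨g, H1.closed (F := fun n => A n) (G := fun n => B n)
    (fun n => ⟨a1 n, Lp.memLp _, Lp.memLp _⟩) h1 (Lp.memLp g) ?_ ?_, ?_⟩
  · have := clsca_lim (fun n => Lp.memLp (A n)) h1 (by simpa only [Lp.toLp_coeFn] using hA)
    simpa only [Real.norm_eq_abs, sq_abs] using this
  · exact clsca_lim (fun n => Lp.memLp (B n)) (Lp.memLp g) (by simpa only [Lp.toLp_coeFn] using hg)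
  · have h2 : ‖g‖ ≤ √M + 0 := le_of_tendsto_of_tendsto' hg.norm
      (tendsto_const_nhds.add tendsto_one_div_add_atTop_nhds_zero_nat) a3
    have h3 := clsca_norm (Lp.memLp g)
    rw [Lp.toLp_coeFn] at h3
    rw [add_zero, h3] at h2
    exact (Real.sqrt_le_sqrt_iff hM).mp h2

end

end Vale.Agent.P363
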