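import Vale.Agent.P363.CMv0

/-! P363, block C: mean value inequalities. -/

open MeasureTheory Set Metric Filter Topology
open scoped RealInnerProductSpace

namespace Vale.Agent.P363

noncomputable section

theorem cmv_ker {s : ℝ} {κ : E3 → ℝ} (h : Ker s κ) :
    Integrable κ ∧ ∃ B, 0 ≤ B ∧ ∀ y, κ y ≤ B := by
  have hc : HasCompactSupport κ := by
    refine HasCompactSupport.intro (isCompact_closedBall (0 : E3) s) fun x hx => h.supp x ?_
    rw [mem_closedBall_zero_iff, not_le] at hx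
    exact hx.le
  refine ⟨h.cont.integrable_of_hasCompactSupport hc, ?_⟩
  obtain ⟨B, hB⟩ := h.cont.bounded_above_of_compact_support hc
  exact ⟨B, (norm_nonneg _).trans (hB 0), fun y => (le_abs_self _).trans (hB y)⟩

theorem cmv_sq {U : Set E3} {w : E3 → ℝ} (h : Loc2 U w) : Loc1 U (fun x => w x ^ 2) := by
  have := Loc2.sq h
  simpa only [Real.norm_eq_abs, sq_abs] using this

theorem cmv_memLp {U : Set E3} {w ψ : E3 → ℝ} {p : E3 → E3} (hw : Loc2 U w) (ht : Tst U ψ p)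
    (hp : Continuous p) : MemLp (fun x => w x • p x) 2 volume := by
  obtain ⟨K, hK, hKU, h0⟩ := ht.cpt
  have hc : HasCompactSupport p := HasCompactSupport.intro hK fun x hx => (h0 x hx).2
  obtain ⟨B, hB⟩ := hp.bounded_above_of_compact_support hc
  have e : (fun x => w x • p x) = K.indicator (fun x => w x • p x) := by
    funext x
    by_cases hx : x ∈ K
    · rw [indicator_of_mem hx]
    · rw [indicator_of_notMem hx, (h0 x hx).2, smul_zero]
  rw [e, memLp_indicator_iff_restrict hK.measurableSet]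
  have h1 := hw K hK hKU
  refine MemLp.of_le_mul (c := B) h1 (h1.1.smul hp.aestronglyMeasurable) ?_
  refine Eventually.of_forall fun x => ?_
  rw [norm_smul, mul_comm]
  exact mul_le_mul_of_nonneg_right (hB x) (norm_nonneg _)

theorem mv0 {s : ℝ} (hs : 0 < s) : ∃ Cs : ℝ, 0 ≤ Cs ∧ ∀ t, 0 < t → t ≤ 1 → ∃ κ, Ker s κ ∧
    ∀ (U : Set E3) (w : E3 → ℝ) (gw : E3 → E3) (R : E3 → ℝ) (C F : ℝ), IsOpen U → 0 ≤ C → 0 ≤ F →
      SubQ U w gw R → (∀ᵐ x : E3, x ∈ U → -(C * w x ^ 2 + F) ≤ R x) →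
      ∀ᵐ x : E3, closedBall x s ⊆ U → w x ^ 2 ≤ Real.exp (2 * C * t) *
        ((∫ y, κ (x - y) * w y ^ 2) + t * (2 * F + Cs * ∫ y in closedBall x s, w y ^ 2)) := by
  obtain ⟨Cs, hCs, H⟩ := mv_core hs
  refine ⟨Cs, hCs, fun t ht ht1 => ?_⟩
  obtain ⟨κ, hκ, H⟩ := H t ht ht1
  refine ⟨κ, hκ, fun U w gw R C F hU hC hF h hR => ?_⟩
  have hw2 := cmv_sq h.l1.l2
  have hg2 := Loc2.sq h.l1.l2g
  have key := H U (fun x => w x ^ 2) (fun x => (2 * w x) • gw x) (2 * C) (2 * F) hU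
    (by positivity) (by positivity) (LD.sq hU h.l1.ld) hw2 ?_ ?_
  · filter_upwards [key] with x hx hxs
    have := hx hxs
    simpa only [abs_of_nonneg (sq_nonneg (w _))] using this
  · intro K hK hKU
    refine Integrable.mono' ((hw2 K hK hKU).add (hg2 K hK hKU)) ?_ ?_
    · exact (((h.l1.l2 K hK hKU).1.const_mul 2).smul (h.l1.l2g K hK hKU).1).norm
    · refine Eventually.of_forall fun x => ?_
      simp only [norm_smul, Real.norm_eq_abs, abs_mul, Pi.add_apply, abs_abs,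
        abs_norm, abs_two]
      nlinarith [sq_nonneg (|w x| - ‖gw x‖), sq_abs (w x)]
  · intro ψ p ht _ hp h0
    have hm := cmv_memLp h.l1.l2 ht hp
    obtain ⟨i1, i2, i3⟩ := h.int ht hm
    have hi := h.ineq ψ p ht (Eventually.of_forall h0) hm
    have hl : Loc1 U (fun x => C * w x ^ 2 + F) := fun K hK hKU =>
      ((hw2 K hK hKU).const_mul C).add (integrableOn_const hK.measure_lt_top.ne)
    have i4 := (ht.int hl h.l1.l2g).1
    obtain ⟨K, hK, hKU, hK0⟩ := ht.cpt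
    have e1 : ∫ x, (1 / 2) * ⟪(2 * w x) • gw x, p x⟫ = ∫ x, w x * ⟪gw x, p x⟫ := by
      refine integral_congr_ae (Eventually.of_forall fun x => ?_)
      simp only [real_inner_smul_left]
      ring
    have e2 : ∫ x, (2 * C * w x ^ 2 + 2 * F) * ψ x = 2 * ∫ x, (C * w x ^ 2 + F) * ψ x := by
      rw [← integral_const_mul]
      refine integral_congr_ae (Eventually.of_forall fun x => ?_)
      simp only
      ring
    have e3 : ∫ x, ((1 / 2) * (w x * ⟪gw x, p x⟫) - (C * w x ^ 2 + F) * ψ x) ≤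
        ∫ x, ((1 / 2) * (‖gw x‖ ^ 2 * ψ x + w x * ⟪gw x, p x⟫) + R x * ψ x) := by
      refine integral_mono_ae ((i2.const_mul _).sub i4) (((i1.add i2).const_mul _).add i3) ?_
      filter_upwards [hR] with x hx
      by_cases hxK : x ∈ K
      · have h1 := mul_le_mul_of_nonneg_right (hx (hKU hxK)) (h0 x)
        have h2 : 0 ≤ ‖gw x‖ ^ 2 * ψ x := mul_nonneg (sq_nonneg _) (h0 x)
        nlinarith
      · simp [(hK0 x hxK).1]
    rw [integral_sub (i2.const_mul _) i4, integral_const_mul] at e3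
    rw [e1, e2]
    linarith

theorem mvb {s C : ℝ} (hs : 0 < s) (hC : 0 ≤ C) : ∃ K : ℝ, 0 ≤ K ∧
    ∀ (U : Set E3) (w : E3 → ℝ) (gw : E3 → E3) (R : E3 → ℝ) (F : ℝ), IsOpen U → 0 ≤ F →
      SubQ U w gw R → (∀ᵐ x : E3, x ∈ U → -(C * w x ^ 2 + F) ≤ R x) →
      ∀ᵐ x : E3, closedBall x s ⊆ U → w x ^ 2 ≤ K * ((∫ y in closedBall x s, w y ^ 2) + F) := by
  obtain ⟨Cs, hCs, H⟩ := mv0 hs
  obtain ⟨κ, hκ, H⟩ := H 1 one_pos le_rfl
  obtain ⟨-, B, hB0, hB⟩ := cmv_ker hκ
  refine ⟨Real.exp (2 * C * 1) * (B + Cs + 2), by positivity, fun U w gw R F hU hF h hR => ?_⟩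
  filter_upwards [H U w gw R C F hU hC hF h hR] with x hx hxs
  have h1 := hx hxs
  have hi := cmv_sq h.l1.l2 _ (isCompact_closedBall x s) hxs
  have hI : 0 ≤ ∫ y in closedBall x s, w y ^ 2 := integral_nonneg fun y => sq_nonneg _
  have h2 : ∫ y, κ (x - y) * w y ^ 2 ≤ B * ∫ y in closedBall x s, w y ^ 2 := by
    rw [← integral_const_mul, ← integral_indicator measurableSet_closedBall]
    refine integral_mono_of_nonneg (Eventually.of_forall fun y =>
      mul_nonneg (hκ.nn _) (sq_nonneg _)) ?_ (Eventually.of_forall fun y => ?_)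
    · exact (integrable_indicator_iff measurableSet_closedBall).2 (hi.const_mul B)
    · by_cases hy : y ∈ closedBall x s
      · simp only [indicator_of_mem hy]
        exact mul_le_mul_of_nonneg_right (hB _) (sq_nonneg _)
      · simp only [indicator_of_notMem hy]
        rw [mem_closedBall, dist_comm, dist_eq_norm, not_le] at hy
        rw [hκ.supp _ hy.le, zero_mul]
  refine h1.trans ?_
  rw [mul_assoc (Real.exp _)]
  refine mul_le_mul_of_nonneg_left ?_ (Real.exp_pos _).le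
  nlinarith [mul_nonneg hB0 hF, mul_nonneg hCs hF]

theorem cmv_ball {K : Set E3} {x : E3} {δ s : ℝ} (hx : x ∈ K) (hs : s < δ) :
    closedBall x s ⊆ thickening δ K := fun _ hy =>
  mem_thickening_iff.2 ⟨x, hx, lt_of_le_of_lt hy hs⟩

/-- Local boundedness. -/
theorem locB_of_subQ {U : Set E3} {w : E3 → ℝ} {gw : E3 → E3} {R : E3 → ℝ} (hU : IsOpen U)
    (h : SubQ U w gw R) (hR : ∀ K, IsCompact K → K ⊆ U → ∃ M, ∀ᵐ x : E3, x ∈ K →
      -(M * (w x ^ 2 + 1)) ≤ R x) : LocB U w := by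
  intro K hK hKU
  obtain ⟨δ, hδ, hδU⟩ := hK.exists_cthickening_subset_open hU hKU
  have hK' : IsCompact (cthickening δ K) := hK.cthickening
  obtain ⟨M, hM⟩ := hR _ hK' hδU
  have hsub : thickening δ K ⊆ cthickening δ K := thickening_subset_cthickening δ K
  obtain ⟨A, hA, H⟩ := mvb (s := δ / 2) (C := max M 0) (by positivity) (le_max_right _ _)
  have h1 := H (thickening δ K) w gw R (max M 0) isOpen_thickening (le_max_right _ _)
    (h.mono (hsub.trans hδU)) (by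
      filter_upwards [hM] with x hx hxt
      have h2 := hx (hsub hxt)
      have h3 : M * (w x ^ 2 + 1) ≤ max M 0 * (w x ^ 2 + 1) :=
        mul_le_mul_of_nonneg_right (le_max_left _ _) (by positivity)
      linarith)
  refine ⟨√(A * ((∫ y in cthickening δ K, w y ^ 2) + max M 0)), ?_⟩
  filter_upwards [h1] with x hx hxK
  have hb : closedBall x (δ / 2) ⊆ thickening δ K := cmv_ball hxK (by linarith)
  refine Real.abs_le_sqrt ((hx hb).trans (mul_le_mul_of_nonneg_left ?_ hA))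
  have : ∫ y in closedBall x (δ / 2), w y ^ 2 ≤ ∫ y in cthickening δ K, w y ^ 2 :=
    setIntegral_mono_set (cmv_sq h.l1.l2 _ hK' hδU)
      (Eventually.of_forall fun y => sq_nonneg _) (hb.trans hsub).eventuallyLE
  linarith

theorem cmv_young {t : ℝ} (ht : 0 < t) (a b : ℝ) :
    a ^ 2 ≤ (1 + t) * b ^ 2 + (1 + 1 / t) * (a - b) ^ 2 := by
  have h : 0 ≤ (t * b - (a - b)) ^ 2 / t := by positivity
  have e : (1 + t) * b ^ 2 + (1 + 1 / t) * (a - b) ^ 2 - a ^ 2 = (t * b - (a - b)) ^ 2 / t := by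
    field_simp
    ring
  linarith

theorem cmv_small (C X Y : ℝ) {ε : ℝ} (hε : 0 < ε) : ∃ t : ℝ, 0 < t ∧ t ≤ 1 ∧
    (Real.exp (2 * C * t) * (1 + t) - 1) * X + Real.exp (2 * C * t) * t * Y ≤ ε := by
  have hc : Continuous fun t : ℝ =>
      (Real.exp (2 * C * t) * (1 + t) - 1) * X + Real.exp (2 * C * t) * t * Y := by fun_prop
  have h0 := hc.tendsto 0
  simp only [mul_zero, Real.exp_zero, add_zero, mul_one, sub_self, zero_mul] at h0
  have h1 := (h0.mono_left (nhdsWithin_le_nhds (s := Ioi 0))).eventually (ge_mem_nhds hε)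
  have h2 : ∀ᶠ t : ℝ in 𝓝[>] 0, t ∈ Ioc (0 : ℝ) 1 := Ioc_mem_nhdsGT one_pos
  obtain ⟨t, h3, h4⟩ := (h1.and h2).exists
  exact ⟨t, h4.1, h4.2, h3⟩

theorem cmv_h3 {U : Set E3} (hU : IsOpen U) {s t G X a : ℝ} {κ w v : E3 → ℝ} {x : E3}
    (hκ : Ker s κ) (hG0 : 0 ≤ G) (hG : ∀ y, κ y ≤ G) (ht : 0 < t) (hX0 : 0 ≤ X)
    (hbU : closedBall x s ⊆ U) (hX : ∀ y ∈ closedBall x s, v y ^ 2 ≤ X)
    (hi : IntegrableOn (fun x => (w x - v x) ^ 2) U) (hia : ∫ x in U, (w x - v x) ^ 2 ≤ a) :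
    ∫ y, κ (x - y) * w y ^ 2 ≤ (1 + t) * X + (1 + 1 / t) * G * a := by
  have hκx : Integrable (fun y => κ (x - y)) := (cmv_ker hκ).1.comp_sub_left x
  have hind : Integrable (U.indicator fun y => (w y - v y) ^ 2) :=
    (integrable_indicator_iff hU.measurableSet).2 hi
  have h4 : ∫ y, κ (x - y) * w y ^ 2 ≤ ∫ y, (((1 + t) * X) * κ (x - y) +
      ((1 + 1 / t) * G) * U.indicator (fun y => (w y - v y) ^ 2) y) := by
    refine integral_mono_of_nonneg (Eventually.of_forall fun y =>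
      mul_nonneg (hκ.nn _) (sq_nonneg _)) ((hκx.const_mul _).add (hind.const_mul _))
      (Eventually.of_forall fun y => ?_)
    have hk0 := hκ.nn (x - y)
    by_cases hy : y ∈ closedBall x s
    · simp only [indicator_of_mem (hbU hy)]
      have h6 := hX y hy
      have h7 := cmv_young ht (w y) (v y)
      have h8 : κ (x - y) * w y ^ 2 ≤
          κ (x - y) * ((1 + t) * X + (1 + 1 / t) * (w y - v y) ^ 2) := by
        refine mul_le_mul_of_nonneg_left (h7.trans ?_) hk0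
        have := mul_le_mul_of_nonneg_left h6 (by positivity : 0 ≤ 1 + t)
        linarith
      have h9 : κ (x - y) * ((1 + 1 / t) * (w y - v y) ^ 2) ≤
          G * ((1 + 1 / t) * (w y - v y) ^ 2) :=
        mul_le_mul_of_nonneg_right (hG _) (by positivity)
      linarith
    · rw [mem_closedBall, dist_comm, dist_eq_norm, not_le] at hy
      have h5 : 0 ≤ U.indicator (fun y => (w y - v y) ^ 2) y :=
        indicator_nonneg (fun y _ => sq_nonneg _) y
      simp only [hκ.supp _ hy.le, zero_mul, mul_zero, zero_add]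
      positivity
  rw [integral_add (hκx.const_mul _) (hind.const_mul _), integral_const_mul, integral_const_mul,
    integral_sub_left_eq_self κ volume x, integral_indicator hU.measurableSet] at h4
  have h5 := mul_le_mul_of_nonneg_left hκ.one (by positivity : 0 ≤ (1 + t) * X)
  have h6 := mul_le_mul_of_nonneg_left hia (by positivity : 0 ≤ (1 + 1 / t) * G)
  linarith

theorem cmv_h4 {U : Set E3} {s B a : ℝ} {w v : E3 → ℝ} {x : E3} (hw : Loc2 U w)
    (hbU : closedBall x s ⊆ U) (hB : ∀ y ∈ closedBall x s, |v y| ≤ B)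
    (hi : IntegrableOn (fun x => (w x - v x) ^ 2) U) (hia : ∫ x in U, (w x - v x) ^ 2 ≤ a) :
    ∫ y in closedBall x s, w y ^ 2 ≤ 2 * B ^ 2 * volume.real (closedBall (0 : E3) s) + 2 * a := by
  have hib : IntegrableOn (fun y => (w y - v y) ^ 2) (closedBall x s) := hi.mono_set hbU
  have hcb : IntegrableOn (fun _ : E3 => 2 * B ^ 2) (closedBall x s) :=
    integrableOn_const (isCompact_closedBall x s).measure_lt_top.ne
  have h5 : ∫ y in closedBall x s, w y ^ 2 ≤
      ∫ y in closedBall x s, (2 * B ^ 2 + 2 * (w y - v y) ^ 2) := by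
    refine setIntegral_mono_on (cmv_sq hw _ (isCompact_closedBall x s) hbU)
      (hcb.add (hib.const_mul 2)) measurableSet_closedBall fun y hy => ?_
    have h6 : v y ^ 2 ≤ B ^ 2 := by
      rw [← sq_abs]
      exact pow_le_pow_left₀ (abs_nonneg _) (hB y hy) 2
    nlinarith [sq_nonneg (w y - 2 * v y)]
  have h7 : ∫ y in closedBall x s, (w y - v y) ^ 2 ≤ ∫ y in U, (w y - v y) ^ 2 :=
    setIntegral_mono_set hi (Eventually.of_forall fun y => sq_nonneg _) hbU.eventuallyLE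
  have h8 : volume.real (closedBall x s) = volume.real (closedBall (0 : E3) s) := by
    rw [measureReal_def, measureReal_def, Measure.addHaar_closedBall_center]
  rw [integral_add hcb (hib.const_mul 2), integral_const_mul 2 (fun y => (w y - v y) ^ 2),
    setIntegral_const, h8, smul_eq_mul] at h5
  linarith

theorem cmv_fin {E t G a Cs B Vol τ W u I J : ℝ} (hE : 1 ≤ E) (ht : 0 < t) (hτ : 0 < τ)
    (hCs : 0 ≤ Cs) (hu : |u| ≤ B) (ha1 : a ≤ 1) (haZ : E * ((1 + 1 / t) * G) * a ≤ τ ^ 2 / 4)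
    (hsm : (E * (1 + t) - 1) * (B + τ) ^ 2 + E * t * (Cs * (2 * B ^ 2 * Vol + 2)) ≤ τ ^ 2 / 2)
    (h2 : W ^ 2 ≤ E * (I + t * (2 * 0 + Cs * J)))
    (h3 : I ≤ (1 + t) * (|u| + τ / 2) ^ 2 + (1 + 1 / t) * G * a)
    (h4 : J ≤ 2 * B ^ 2 * Vol + 2 * a) : |W| ≤ |u| + τ := by
  have h8 := abs_nonneg u
  have hXB : (|u| + τ / 2) ^ 2 ≤ (B + τ) ^ 2 :=
    pow_le_pow_left₀ (by positivity) (by linarith) 2
  have h9 : (|u| + τ / 2) ^ 2 + 3 * τ ^ 2 / 4 ≤ (|u| + τ) ^ 2 := by nlinarith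
  generalize (|u| + τ / 2) ^ 2 = X at hXB h9 h3
  have h5 : W ^ 2 ≤ E * (((1 + t) * X + (1 + 1 / t) * G * a) +
      t * (Cs * (2 * B ^ 2 * Vol + 2))) := by
    refine h2.trans (mul_le_mul_of_nonneg_left ?_ (by linarith))
    have h4' : J ≤ 2 * B ^ 2 * Vol + 2 := by linarith
    have := mul_le_mul_of_nonneg_left (mul_le_mul_of_nonneg_left h4' hCs) ht.le
    linarith
  have h6 : (E * (1 + t) - 1) * X ≤ (E * (1 + t) - 1) * (B + τ) ^ 2 :=
    mul_le_mul_of_nonneg_left hXB (by nlinarith)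
  have e : E * (((1 + t) * X + (1 + 1 / t) * G * a) + t * (Cs * (2 * B ^ 2 * Vol + 2))) =
      X + (E * (1 + t) - 1) * X + E * ((1 + 1 / t) * G) * a +
        E * t * (Cs * (2 * B ^ 2 * Vol + 2)) := by ring
  exact abs_le.2 (abs_le_of_sq_le_sq' (by linarith) (by positivity))

/-- Upper semicontinuity under `L²` perturbation: if `w` is `L²` close to a continuous function
`v`, then `|w| ≤ |v| + τ` on a given compact set. -/
theorem mv_close {U Q : Set E3} (hU : IsOpen U) (hQ : IsCompact Q) (hQU : Q ⊆ U) {v c : E3 → ℝ}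
    (hv : ContinuousOn v U) (hc : ContinuousOn c U) {τ : ℝ} (hτ : 0 < τ) :
    ∃ a > 0, ∀ (w : E3 → ℝ) (gw : E3 → E3) (R : E3 → ℝ), SubQ U w gw R →
      (∀ᵐ x : E3, x ∈ U → c x * w x ^ 2 ≤ R x) →
      IntegrableOn (fun x => (w x - v x) ^ 2) U → ∫ x in U, (w x - v x) ^ 2 ≤ a →
      ∀ᵐ x : E3, x ∈ Q → |w x| ≤ |v x| + τ := by
  obtain ⟨δ, hδ, hδU⟩ := hQ.exists_cthickening_subset_open hU hQU
  have hK : IsCompact (cthickening δ Q) := hQ.cthickening
  have hsub : thickening δ Q ⊆ cthickening δ Q := thickening_subset_cthickening δ Q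
  obtain ⟨s0, hs0, huc⟩ := Metric.uniformContinuousOn_iff.1
    (hK.uniformContinuousOn_of_continuous (hv.mono hδU)) (τ / 2) (by positivity)
  obtain ⟨C, hC0, hC⟩ : ∃ C, 0 ≤ C ∧ ∀ x ∈ cthickening δ Q, |c x| ≤ C := by
    obtain ⟨C, hC⟩ := hK.exists_bound_of_continuousOn (hc.mono hδU)
    exact ⟨max C 0, le_max_right _ _, fun x hx => (hC x hx).trans (le_max_left _ _)⟩
  obtain ⟨B, hB⟩ : ∃ B, ∀ x ∈ cthickening δ Q, |v x| ≤ B :=
    hK.exists_bound_of_continuousOn (hv.mono hδU)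
  obtain ⟨s, hs, hsδ, hss⟩ : ∃ s : ℝ, 0 < s ∧ s < δ ∧ s < s0 :=
    ⟨min δ s0 / 2, by positivity, by linarith [min_le_left δ s0],
      by linarith [min_le_right δ s0]⟩
  obtain ⟨Cs, hCs, H⟩ := mv0 hs
  obtain ⟨t, ht, ht1, hsm⟩ := cmv_small C ((B + τ) ^ 2)
    (Cs * (2 * B ^ 2 * volume.real (closedBall (0 : E3) s) + 2)) (ε := τ ^ 2 / 2) (by positivity)
  obtain ⟨κ, hκ, H⟩ := H t ht ht1
  obtain ⟨-, G, hG0, hG⟩ := cmv_ker hκ
  have hE1 : 1 ≤ Real.exp (2 * C * t) := Real.one_le_exp (by positivity)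
  obtain ⟨a, ha, ha1, haZ⟩ : ∃ a : ℝ, 0 < a ∧ a ≤ 1 ∧
      Real.exp (2 * C * t) * ((1 + 1 / t) * G) * a ≤ τ ^ 2 / 4 := by
    have hZ0 : 0 ≤ Real.exp (2 * C * t) * ((1 + 1 / t) * G) := by positivity
    generalize Real.exp (2 * C * t) * ((1 + 1 / t) * G) = Z at hZ0
    refine ⟨min 1 (τ ^ 2 / 4 / (Z + 1)), by positivity, min_le_left _ _, ?_⟩
    have h1 : Z * min 1 (τ ^ 2 / 4 / (Z + 1)) ≤ (Z + 1) * (τ ^ 2 / 4 / (Z + 1)) :=
      mul_le_mul (by linarith) (min_le_right _ _) (by positivity) (by positivity)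
    rwa [mul_div_cancel₀ _ (by positivity : Z + 1 ≠ 0)] at h1
  refine ⟨a, ha, fun w gw R h hR hi hia => ?_⟩
  have h1 := H (thickening δ Q) w gw R C 0 isOpen_thickening hC0 le_rfl
    (h.mono (hsub.trans hδU)) (by
      filter_upwards [hR] with x hx hxt
      have h2 := hx (hδU (hsub hxt))
      have h3 := mul_le_mul_of_nonneg_right (abs_le.1 (hC x (hsub hxt))).1 (sq_nonneg (w x))
      linarith)
  filter_upwards [h1] with x hx hxQ
  have hb : closedBall x s ⊆ thickening δ Q := cmv_ball hxQ hsδ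
  have hbK := hb.trans hsub
  have hbU := hbK.trans hδU
  have hxK : x ∈ cthickening δ Q := hbK (mem_closedBall_self hs.le)
  refine cmv_fin hE1 ht hτ hCs (hB x hxK) ha1 haZ hsm (hx hb)
    (cmv_h3 hU hκ hG0 hG ht (sq_nonneg _) hbU (fun y hy => ?_) hi hia)
    (cmv_h4 h.l1.l2 hbU (fun y hy => hB y (hbK hy)) hi hia)
  have h5 : |v y| ≤ |v x| + τ / 2 := by
    have := huc y (hbK hy) x hxK (lt_of_le_of_lt hy hss)
    rw [Real.dist_eq] at this
    linarith [abs_sub_abs_le_abs_sub (v y) (v x)]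
  rw [← sq_abs]
  exact pow_le_pow_left₀ (abs_nonneg _) h5 2

end

end Vale.Agent.P363
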