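import Vale.Agent.P363.CHeat

/-! P363, block C: the core mean value inequality. -/

open MeasureTheory Set Metric Filter Topology
open scoped RealInnerProductSpace

namespace Vale.Agent.P363

noncomputable section

/-- The localized heat kernels. -/
structure Ker (s : ℝ) (κ : E3 → ℝ) : Prop where
  cont : Continuous κ
  nn : ∀ y, 0 ≤ κ y
  supp : ∀ y, s ≤ ‖y‖ → κ y = 0
  one : ∫ y, κ y ≤ 1

namespace Mv0

structure Bump (r M : ℝ) (ξ : E3 → ℝ) : Prop where
  cont : Continuous ξ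
  nn : ∀ z, 0 ≤ ξ z
  le : ∀ z, ξ z ≤ 1
  one : ∀ z, ‖z‖ ≤ r / 2 → ξ z = 1
  zero : ∀ z, r ≤ ‖z‖ → ξ z = 0
  c2 : ∀ c, ∃ g l, C2 univ (fun y => ξ (c - y)) g l ∧ ∀ y, ‖g y‖ ≤ M ∧ |l y| ≤ M ∧
    (‖c - y‖ ≤ r / 2 ∨ r ≤ ‖c - y‖ → g y = 0 ∧ l y = 0)

theorem bump {r : ℝ} (hr : 0 < r) : ∃ M ξ, 0 ≤ M ∧ Bump r M ξ := by
  obtain ⟨h, h1, h2, M, hM, hd, hc, hb, s1, s2⟩ := exists_step
  have a1 : ∀ z : E3, ‖z‖ ≤ r / 2 → 2 / r ^ 2 * ‖z‖ ^ 2 ≤ 1 := fun z hz => by
    rw [div_mul_eq_mul_div, div_le_one (by positivity)]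
    nlinarith [norm_nonneg z]
  have a2 : ∀ z : E3, r ≤ ‖z‖ → 2 ≤ 2 / r ^ 2 * ‖z‖ ^ 2 := fun z hz => by
    rw [div_mul_eq_mul_div, le_div_iff₀ (by positivity)]
    gcongr
  have hh : Continuous h := continuous_iff_continuousAt.2 fun s => (hd s).1.continuousAt
  have M0 : 0 ≤ M := by linarith
  refine ⟨M * (4 / r) + M * (2 / r ^ 2 * 6) + M * (4 / r) ^ 2, fun z => h (2 / r ^ 2 * ‖z‖ ^ 2),
    by positivity, by fun_prop, fun z => (hb _).1, fun z => (hb _).2.1,
    fun z hz => (s1 _ (a1 z hz)).1, fun z hz => (s2 _ (a2 z hz)).1, fun c => ?_⟩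
  have k := ((C2.normsq isOpen_univ c).cmul (2 / r ^ 2)).comp isOpen_univ (fun s _ => hd s)
    hc.continuousOn fun _ _ => mem_univ _
  simp only [norm_sub_rev c]
  refine ⟨_, _, k, fun y => ?_⟩
  have a3 : ‖y - c‖ ≤ r / 2 ∨ r ≤ ‖y - c‖ → h1 (2 / r ^ 2 * ‖y - c‖ ^ 2) = 0 ∧
      h2 (2 / r ^ 2 * ‖y - c‖ ^ 2) = 0 := fun hy =>
    hy.elim (fun hy => (s1 _ (a1 _ hy)).2) fun hy => (s2 _ (a2 _ hy)).2
  rcases le_total r ‖y - c‖ with hy | hy
  · obtain ⟨b1, b2⟩ := a3 (Or.inr hy)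
    simp only [b1, b2, zero_smul, zero_mul, add_zero, norm_zero, abs_zero, and_self, implies_true,
      and_true]
    positivity
  · have b1 : ‖(2 / r ^ 2) • (2 : ℝ) • (y - c)‖ ≤ 4 / r := by
      rw [norm_smul, norm_smul, Real.norm_of_nonneg (by positivity), Real.norm_two]
      calc _ ≤ 2 / r ^ 2 * (2 * r) := by gcongr
        _ = _ := by field_simp; norm_num
    obtain ⟨-, -, -, b2, b3⟩ := hb (2 / r ^ 2 * ‖y - c‖ ^ 2)
    refine ⟨?_, ?_, fun hy => ?_⟩
    · rw [norm_smul, Real.norm_eq_abs, add_assoc]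
      exact le_add_of_le_of_nonneg (by gcongr) (by positivity)
    · rw [add_assoc]
      refine le_add_of_nonneg_of_le (by positivity) ((abs_add_le _ _).trans (add_le_add ?_ ?_))
      · rw [abs_mul, abs_of_nonneg (a := 2 / r ^ 2 * 6) (by positivity)]
        gcongr
      · rw [abs_mul, abs_sq]
        gcongr
    · simp only [(a3 hy).1, (a3 hy).2, zero_smul, zero_mul, add_zero, and_self]

theorem out {x y : E3} {s : ℝ} (h : y ∉ closedBall x s) : s ≤ ‖x - y‖ := by
  rw [mem_closedBall, dist_comm, dist_eq_norm, not_le] at h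
  exact h.le

theorem tst {U K : Set E3} {ψ l : E3 → ℝ} {p : E3 → E3} (h : C2 univ ψ p l) (hK : IsCompact K)
    (hU : K ⊆ U) (h0 : ∀ y, y ∉ K → ψ y = 0 ∧ p y = 0) : Tst U ψ p := by
  obtain ⟨c1, c2, -⟩ := h.cont
  rw [continuousOn_univ] at c1 c2
  obtain ⟨M, hM⟩ := c1.bounded_above_of_compact_support
    (HasCompactSupport.intro hK fun y hy => (h0 y hy).1)
  exact ⟨h.ld, c2.memLp_of_hasCompactSupport (HasCompactSupport.intro hK fun y hy => (h0 y hy).2),
    ⟨M, .of_forall hM⟩, K, hK, hU, h0⟩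

theorem intc {K : Set E3} {φ W : E3 → ℝ} (hK : IsCompact K) (hφ : Continuous φ)
    (h0 : ∀ y, y ∉ K → φ y = 0) (hW : IntegrableOn W K) : Integrable fun y => φ y * W y :=
  (hW.continuousOn_mul hφ.continuousOn hK).integrable_of_forall_notMem_eq_zero fun y hy => by
    rw [h0 y hy, zero_mul]

theorem hk_le {t : ℝ} (ht : 0 < t) (z : E3) : hk t z ≤ (2 * Real.pi * t) ^ (-(3 / 2) : ℝ) :=
  mul_le_of_le_one_right (by positivity) (Real.exp_le_one_iff.2
    (div_nonpos_of_nonpos_of_nonneg (neg_nonpos.2 (sq_nonneg _)) (by positivity)))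

theorem hk_mul {t : ℝ} (ht : 0 < t) (x : E3) {w : E3 → ℝ} (hw : Integrable w) :
    Integrable fun y => hk t (x - y) * w y :=
  hw.bdd_mul ((continuous_hk t).comp (continuous_const.sub continuous_id)).aestronglyMeasurable
    (.of_forall fun y => by
      rw [Real.norm_of_nonneg (hk_pos ht _).le]
      exact hk_le ht _)

theorem der {x : E3} {s t : ℝ} (ht : 0 < t) {w : E3 → ℝ} (hw : Integrable w)
    (h0 : ∀ y, s ≤ ‖x - y‖ → w y = 0) : HasDerivAt (fun t => ∫ y, hk t (x - y) * w y)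
      (∫ y, hk t (x - y) * (‖x - y‖ ^ 2 / t ^ 2 - 3 / t) / 2 * w y) t := by
  have hc := continuous_hk t
  refine (hasDerivAt_integral_of_dominated_loc_of_deriv_le (s := Ioi (t / 2))
    (F' := fun t y => hk t (x - y) * (‖x - y‖ ^ 2 / t ^ 2 - 3 / t) / 2 * w y)
    (bound := fun y => (2 * Real.pi * (t / 2)) ^ (-(3 / 2) : ℝ) *
      (s ^ 2 / (t / 2) ^ 2 + 3 / (t / 2)) / 2 * ‖w y‖)
    (Ioi_mem_nhds (by linarith)) ?_ (hk_mul ht x hw) ?_ (.of_forall fun y τ hτ => ?_)
    (hw.norm.const_mul _) (.of_forall fun y τ hτ => ?_)).2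
  · filter_upwards [Ioi_mem_nhds ht] with τ hτ
    exact (hk_mul hτ x hw).1
  · exact (Continuous.aestronglyMeasurable (by fun_prop)).mul hw.1
  · have h1 : t / 2 < τ := hτ
    have h2 : 0 < τ := by linarith
    rcases le_total s ‖x - y‖ with hy | hy
    · simp only [h0 y hy, mul_zero, norm_zero, le_refl]
    · rw [norm_mul, norm_div, norm_mul, Real.norm_of_nonneg (hk_pos h2 _).le, Real.norm_two]
      gcongr
      · exact (hk_le h2 _).trans (Real.rpow_le_rpow_of_nonpos (by positivity) (by gcongr)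
          (by norm_num))
      · refine (norm_sub_le _ _).trans ?_
        rw [Real.norm_of_nonneg (by positivity), Real.norm_of_nonneg (by positivity)]
        gcongr
  · have h1 : t / 2 < τ := hτ
    exact (hk_dt (by linarith) _).mul_const _

theorem ker {s M t : ℝ} {ξ : E3 → ℝ} (hs : 0 < s) (hξ : Bump (s / 2) M ξ) (ht : 0 < t) :
    Ker s fun z => hk t z * ξ z := by
  refine ⟨(continuous_hk t).mul hξ.cont, fun y => mul_nonneg (hk_pos ht y).le (hξ.nn y),
    fun y hy => by rw [hξ.zero y (by linarith), mul_zero], ?_⟩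
  rw [← (hk_int ht).2]
  exact integral_mono_of_nonneg (.of_forall fun y => mul_nonneg (hk_pos ht y).le (hξ.nn y))
    (hk_int ht).1 (.of_forall fun y => mul_le_of_le_one_right (hk_pos ht y).le (hξ.le y))

theorem ineq {s M M' N t C F : ℝ} {ξ η W : E3 → ℝ} {gW : E3 → E3} {U : Set E3} {x : E3}
    (hs : 0 < s) (hξ : Bump (s / 2) M ξ) (hη : Bump s M' η) (M0 : 0 ≤ M) (N0 : 0 ≤ N) (ht : 0 < t)
    (far : ∀ z : E3, s / 4 ≤ ‖z‖ → hk t z ≤ N ∧ hk t z * ‖z‖ / t ≤ N) (hU : IsOpen U)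
    (hF : 0 ≤ F) (hW : LD U W gW) (i1 : Loc1 U W) (i2 : Loc1 U fun x => ‖gW x‖)
    (H : ∀ ψ p, Tst U ψ p → Continuous ψ → Continuous p → (∀ x, 0 ≤ ψ x) →
      ∫ x, (1 / 2) * ⟪gW x, p x⟫ ≤ ∫ x, (C * W x + F) * ψ x) (hB : closedBall x s ⊆ U) :
    -(C * (∫ y, hk t (x - y) * (ξ (x - y) * W y)) + F + 2 * M * N * ∫ y in closedBall x s, |W y|) ≤
      ∫ y, hk t (x - y) * (‖x - y‖ ^ 2 / t ^ 2 - 3 / t) / 2 * (ξ (x - y) * W y) := by
  have hK := isCompact_closedBall x s
  have iW := i1 _ hK hB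
  obtain ⟨g1, l1, k1, b1⟩ := hξ.c2 x
  obtain ⟨g2, l2, k2, b2⟩ := hη.c2 x
  have k0 := hk_C2 ht x
  have k3 := k0.mul k1
  obtain ⟨E, hE⟩ : ∃ E : E3 → ℝ, ∀ y, E y = hk t (x - y) * l1 y +
    2 * ⟪(hk t (x - y) / t) • (x - y), g1 y⟫ := ⟨_, fun _ => rfl⟩
  have cE : Continuous E := by
    have c1 := continuousOn_univ.1 k0.cont.1
    have c2 := continuousOn_univ.1 k0.cont.2.1
    have c3 := continuousOn_univ.1 k1.cont.2.1
    have c4 := continuousOn_univ.1 k1.cont.2.2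
    rw [funext hE]
    exact (c1.mul c4).add (continuous_const.mul (c2.inner c3))
  have E0 : ∀ y, ‖x - y‖ ≤ s / 2 / 2 ∨ s / 2 ≤ ‖x - y‖ → E y = 0 := fun y hy => by
    rw [hE, ((b1 y).2.2 hy).1, ((b1 y).2.2 hy).2, inner_zero_right, mul_zero, mul_zero, add_zero]
  have E1 : ∀ y, E y ≤ 4 * M * N ∧ -(4 * M * N) ≤ E y := fun y => by
    have MN : 0 ≤ M * N := by positivity
    rcases le_total ‖x - y‖ (s / 2 / 2) with hy | hy
    · rw [E0 y (Or.inl hy)]
      constructor <;> linarith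
    · obtain ⟨f1, f2⟩ := far (x - y) (by linarith)
      have f3 := (hk_pos ht (x - y)).le
      have f4 : |hk t (x - y) * l1 y| ≤ N * M := by
        rw [abs_mul, abs_of_nonneg f3]
        gcongr
        exact (b1 y).2.1
      have f5 : |⟪(hk t (x - y) / t) • (x - y), g1 y⟫| ≤ N * M := by
        refine (abs_real_inner_le_norm _ _).trans ?_
        rw [norm_smul, Real.norm_of_nonneg (by positivity), div_mul_eq_mul_div]
        gcongr
        exact (b1 y).1
      rw [abs_le] at f4 f5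
      rw [hE]
      constructor <;> linarith
  simp only [← hE] at k3
  generalize hp : (fun y => hk t (x - y) • g1 y + ξ (x - y) • (hk t (x - y) / t) • (x - y)) = p at k3
  have z1 : ∀ y, s / 2 ≤ ‖x - y‖ → p y = 0 := fun y hy => by
    simp only [← hp, hξ.zero _ hy, ((b1 y).2.2 (Or.inr hy)).1, smul_zero, zero_smul, add_zero]
  have o1 : ∀ y, y ∉ closedBall x s → s / 2 ≤ ‖x - y‖ := fun y hy => by linarith [out hy]
  have κ0 := ker hs hξ ht
  have T1 := tst k3 hK hB fun y hy => ⟨κ0.supp _ (out hy), z1 y (o1 y hy)⟩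
  have T2 := tst k2 hK hB fun y hy => ⟨hη.zero _ (out hy), ((b2 y).2.2 (Or.inr (out hy))).1⟩
  have cκ := continuousOn_univ.1 k3.cont.1
  have H1 := H _ _ T1 cκ (continuousOn_univ.1 k3.cont.2.1) fun y => κ0.nn _
  obtain ⟨w1, w2, w3⟩ := T2.w11_mul hU hW i1 i2 (IntegrableOn.integrable_of_forall_notMem_eq_zero
    (iW.smul_continuousOn (k2.cont.2.1.mono (subset_univ _)) hK)
    fun y hy => by rw [((b2 y).2.2 (Or.inr (out hy))).1, smul_zero])
  obtain ⟨v1, v2, v3⟩ := k3.weak w1 w2 w3 hK (subset_univ _) fun y hy => by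
    simp only [hη.zero _ (out hy), ((b2 y).2.2 (Or.inr (out hy))).1, mul_zero, smul_zero,
      zero_smul, add_zero, and_self]
  rw [integral_add v1 v2] at v3
  have e1 : ∀ y, ⟪p y, W y • g2 y + η (x - y) • gW y⟫ = 2 * ((1 / 2) * ⟪gW y, p y⟫) := fun y => by
    rcases le_total ‖x - y‖ (s / 2) with hy | hy
    · rw [hη.one _ hy, ((b2 y).2.2 (Or.inl hy)).1, smul_zero, zero_add, one_smul, real_inner_comm]
      ring
    · simp only [z1 y hy, inner_zero_left, inner_zero_right, mul_zero]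
  have e2 : ∀ y, (E y + ξ (x - y) * (hk t (x - y) * (‖x - y‖ ^ 2 / t ^ 2 - 3 / t))) *
      (W y * η (x - y)) = E y * W y +
      2 * (hk t (x - y) * (‖x - y‖ ^ 2 / t ^ 2 - 3 / t) / 2 * (ξ (x - y) * W y)) := fun y => by
    rcases le_total ‖x - y‖ (s / 2) with hy | hy
    · rw [hη.one _ hy]
      ring
    · simp only [E0 y (Or.inr hy), hξ.zero _ hy, zero_mul, mul_zero, add_zero]
  have iE := intc hK cE (fun y hy => E0 y (Or.inr (o1 y hy))) iW
  simp only [e1, e2] at v2 v3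
  rw [integral_add iE ((integrable_add_iff_integrable_right iE).1 v2), integral_const_mul 2,
    integral_const_mul 2] at v3
  have iκ := intc hK cκ (fun y hy => κ0.supp _ (out hy)) iW
  have jκ := cκ.integrable_of_hasCompactSupport (μ := volume)
    (HasCompactSupport.intro hK fun y hy => κ0.supp _ (out hy))
  have e3 : ∀ y, (C * W y + F) * (hk t (x - y) * ξ (x - y)) =
      C * (hk t (x - y) * ξ (x - y) * W y) + F * (hk t (x - y) * ξ (x - y)) := fun y => by ring
  simp only [e3] at H1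
  rw [integral_add (iκ.const_mul C) (jκ.const_mul F), integral_const_mul C, integral_const_mul F,
    integral_sub_left_eq_self (fun z => hk t z * ξ z)] at H1
  have u1 := mul_le_of_le_one_right hF κ0.one
  have u2 : ∫ y, E y * W y ≤ 4 * M * N * ∫ y in closedBall x s, |W y| := by
    rw [← setIntegral_eq_integral_of_forall_compl_eq_zero (s := closedBall x s)
      fun y hy => by rw [E0 y (Or.inr (o1 y hy)), zero_mul], ← integral_const_mul]
    refine integral_mono iE.integrableOn (iW.abs.const_mul _) fun y => ?_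
    refine (le_abs_self _).trans ?_
    rw [abs_mul]
    exact mul_le_mul_of_nonneg_right (abs_le.2 ⟨(E1 y).2, (E1 y).1⟩) (abs_nonneg _)
  simp only [mul_assoc (hk t _)] at H1
  linarith

theorem lim {s M N : ℝ} {ξ W : E3 → ℝ} {U : Set E3} (hs : 0 < s) (hξ : Bump (s / 2) M ξ)
    (far : ∀ t, 0 < t → ∀ z : E3, s / 4 ≤ ‖z‖ → hk t z ≤ N ∧ hk t z * ‖z‖ / t ≤ N)
    (hU : IsOpen U) (i1 : Loc1 U W) : ∀ᵐ x : E3, closedBall x s ⊆ U → ∃ t : ℕ → ℝ,
      (∀ n, 0 < t n) ∧ Tendsto t atTop (𝓝 0) ∧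
      Tendsto (fun n => ∫ y, hk (t n) (x - y) * (ξ (x - y) * W y)) atTop (𝓝 (W x)) := by
  obtain ⟨K, k1, k2, -, k3⟩ := exists_exhaust hU
  have iK : ∀ j, Integrable ((K j).indicator W) := fun j =>
    (integrable_indicator_iff (k1 j).measurableSet).2 (i1 _ (k1 j) (k2 j))
  choose t t1 t2 t3 using fun j => hk_approx (iK j)
  filter_upwards [ae_all_iff.2 t3] with x hx hB
  obtain ⟨j, hj⟩ := k3 _ (isCompact_closedBall x s) hB
  have hj' := hj.trans interior_subset
  refine ⟨t j, t1 j, t2 j, ?_⟩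
  have h1 := hx j
  rw [indicator_of_mem (hj' (mem_closedBall_self hs.le))] at h1
  have cξ : Continuous fun y => ξ (x - y) := hξ.cont.comp (continuous_const.sub continuous_id)
  have i2 : Integrable fun y => (1 - ξ (x - y)) * (K j).indicator W y :=
    (iK j).bdd_mul (c := 1) (continuous_const.sub cξ).aestronglyMeasurable (.of_forall fun y => by
      rw [Real.norm_of_nonneg (sub_nonneg.2 (hξ.le _))]
      linarith [hξ.nn (x - y)])
  have h2 : Tendsto (fun n => ∫ y, hk (t j n) (x - y) * ((1 - ξ (x - y)) * (K j).indicator W y))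
      atTop (𝓝 0) := by
    refine squeeze_zero_norm (a := fun n => t j n * ∫ y, N / (s / 4) * ‖(K j).indicator W y‖)
      (fun n => ?_) (by simpa only [zero_mul] using (t2 j).mul_const _)
    rw [← integral_const_mul]
    refine norm_integral_le_of_norm_le (((iK j).norm.const_mul _).const_mul _)
      (.of_forall fun y => ?_)
    have h3 := hk_pos (t1 j n) (x - y)
    have h4 := t1 j n
    have N0 : 0 ≤ N := (hk_pos one_pos _).le.trans (far 1 one_pos ((s / 4) • e 0) (by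
      rw [norm_smul, norm_e, mul_one, Real.norm_of_nonneg (by positivity)])).1
    rcases le_total ‖x - y‖ (s / 2 / 2) with hy | hy
    · rw [hξ.one _ hy, sub_self, zero_mul, mul_zero, norm_zero]
      positivity
    · have h5 := (far _ h4 (x - y) (by linarith)).2
      rw [div_le_iff₀ h4] at h5
      rw [norm_mul, norm_mul, Real.norm_of_nonneg h3.le,
        Real.norm_of_nonneg (sub_nonneg.2 (hξ.le _)), ← mul_assoc, ← mul_assoc]
      refine mul_le_mul_of_nonneg_right ?_ (norm_nonneg _)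
      refine (mul_le_of_le_one_right h3.le (sub_le_self _ (hξ.nn _))).trans ?_
      rw [← mul_div_assoc, le_div_iff₀ (by positivity)]
      nlinarith
  have h3 := h1.sub h2
  rw [sub_zero] at h3
  refine h3.congr fun n => ?_
  rw [← integral_sub (hk_mul (t1 j n) x (iK j)) (hk_mul (t1 j n) x i2)]
  refine integral_congr_ae (.of_forall fun y => ?_)
  by_cases hy : y ∈ K j
  · simp only [indicator_of_mem hy]
    ring
  · simp only [indicator_of_notMem hy, hξ.zero (x - y) (by linarith [out fun c => hy (hj' c)]),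
      mul_zero, zero_mul, sub_zero]

end Mv0

open Mv0 in
theorem mv_core {s : ℝ} (hs : 0 < s) : ∃ Cs : ℝ, 0 ≤ Cs ∧ ∀ t, 0 < t → t ≤ 1 → ∃ κ, Ker s κ ∧
    ∀ (U : Set E3) (W : E3 → ℝ) (gW : E3 → E3) (C F : ℝ), IsOpen U → 0 ≤ C → 0 ≤ F →
      LD U W gW → Loc1 U W → Loc1 U (fun x => ‖gW x‖) →
      (∀ ψ p, Tst U ψ p → Continuous ψ → Continuous p → (∀ x, 0 ≤ ψ x) →
        ∫ x, (1 / 2) * ⟪gW x, p x⟫ ≤ ∫ x, (C * W x + F) * ψ x) →
      ∀ᵐ x : E3, closedBall x s ⊆ U → W x ≤ Real.exp (C * t) *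
        ((∫ y, κ (x - y) * W y) + t * (F + Cs * ∫ y in closedBall x s, |W y|)) := by
  obtain ⟨M, ξ, M0, hξ⟩ := bump (half_pos hs)
  obtain ⟨M', η, -, hη⟩ := bump hs
  obtain ⟨N, N0, far⟩ := hk_far (s := s / 4) (by positivity)
  refine ⟨2 * M * N, by positivity, fun T hT _ => ⟨_, ker hs hξ hT,
    fun U W gW C F hU hC hF hW i1 i2 H => ?_⟩⟩
  filter_upwards [lim hs hξ far hU i1] with x hx hB
  obtain ⟨t, t1, t2, t3⟩ := hx hB
  have hK := isCompact_closedBall x s
  have iw : Integrable fun y => ξ (x - y) * W y :=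
    intc hK (hξ.cont.comp (continuous_const.sub continuous_id))
      (fun y hy => hξ.zero _ (by linarith [out hy])) (i1 _ hK hB)
  have hd := fun τ (hτ : 0 < τ) => der (x := x) (s := s) hτ iw fun y hy => by
    rw [hξ.zero _ (by linarith), zero_mul]
  have hi := fun τ (hτ : 0 < τ) => ineq hs hξ hη M0 N0 hτ (far τ hτ) hU hF hW i1 i2 H hB
  have A0 : 0 ≤ F + 2 * M * N * ∫ y in closedBall x s, |W y| :=
    add_nonneg hF (mul_nonneg (by positivity) (integral_nonneg fun y => abs_nonneg _))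
  simp only [add_assoc] at hi
  simp only [mul_assoc (hk T _)]
  generalize F + 2 * M * N * ∫ y in closedBall x s, |W y| = A at hi A0 ⊢
  obtain ⟨m, hm⟩ : ∃ m : ℝ → ℝ, ∀ τ, m τ = ∫ y, hk τ (x - y) * (ξ (x - y) * W y) :=
    ⟨_, fun _ => rfl⟩
  simp only [← hm] at hd hi t3 ⊢
  have hφ := fun τ (hτ : 0 < τ) => (((hasDerivAt_id' τ).const_mul C).exp.mul (hd τ hτ)).add
    (((hasDerivAt_id' τ).mul_const A).const_mul (Real.exp (C * T)))
  have mono : MonotoneOn (fun τ => Real.exp (C * τ) * m τ + Real.exp (C * T) * (τ * A))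
      (Ioc 0 T) := by
    refine monotoneOn_of_hasDerivWithinAt_nonneg (convex_Ioc 0 T)
      (fun τ hτ => (hφ τ hτ.1).continuousAt.continuousWithinAt)
      (fun τ hτ => (hφ τ (interior_subset hτ).1).hasDerivWithinAt) fun τ hτ => ?_
    obtain ⟨a1, a2⟩ := interior_subset hτ
    have a3 := mul_le_mul_of_nonneg_left (hi τ a1) (Real.exp_pos (C * τ)).le
    have a4 : Real.exp (C * τ) * A ≤ Real.exp (C * T) * A := by gcongr
    linarith
  have l1 : Tendsto (fun n => Real.exp (C * t n) * m (t n) + Real.exp (C * T) * (t n * A)) atTop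
      (𝓝 (W x)) := by
    have := ((t2.const_mul C).rexp.mul t3).add ((t2.mul_const A).const_mul (Real.exp (C * T)))
    simpa only [mul_zero, Real.exp_zero, one_mul, zero_mul, add_zero] using this
  rw [mul_add]
  refine le_of_tendsto l1 ?_
  filter_upwards [t2.eventually (Iic_mem_nhds hT)] with n hn
  exact mono ⟨t1 n, hn⟩ ⟨hT, le_rfl⟩ hn

end

end Vale.Agent.P363
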