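import Vale.Agent.P363.CMv0

/-! P363, block C: continuity of weak solutions. -/

open MeasureTheory Set Metric Filter Topology
open scoped RealInnerProductSpace

namespace Vale.Agent.P363

noncomputable section

theorem cmvl_loc1 {α : Type} [NormedAddCommGroup α] {U K : Set E3} {a : E3 → α} (h : Loc2 U a)
    (hK : IsCompact K) (hKU : K ⊆ U) : IntegrableOn a K := by
  have : IsFiniteMeasure (volume.restrict K) := isFiniteMeasure_restrict.mpr hK.measure_lt_top.ne
  exact (h K hK hKU).integrable one_le_two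

theorem cmvl_hyp {U : Set E3} {w R : E3 → ℝ} {gw : E3 → E3} (h : Sub U w gw R) {F : ℝ}
    (hF : ∀ᵐ x : E3, x ∈ U → |R x| ≤ F) (ψ : E3 → ℝ) (p : E3 → E3) (ht : Tst U ψ p)
    (h0 : ∀ x, 0 ≤ ψ x) : ∫ x, (1 / 2) * ⟪gw x, p x⟫ ≤ ∫ x, (0 * w x + F) * ψ x := by
  obtain ⟨i1, i2⟩ := ht.int h.li h.l1.l2g
  have h1 := h.ineq ψ p ht (ae_of_all _ h0)
  rw [integral_add (i2.const_mul _) i1] at h1
  have h2 : ∫ x, -(R x * ψ x) ≤ ∫ x, (0 * w x + F) * ψ x := by
    simp only [zero_mul, zero_add]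
    refine integral_mono_ae i1.neg (ht.h1.2.1.const_mul F) ?_
    obtain ⟨K, -, hKU, hK⟩ := ht.cpt
    filter_upwards [hF] with x hx
    by_cases hxK : x ∈ K
    · have := neg_abs_le (R x)
      nlinarith [hx (hKU hxK), h0 x]
    · simp [(hK x hxK).1]
  rw [integral_neg] at h2
  linarith

theorem cmvl_approx {U : Set E3} {w R : E3 → ℝ} {gw : E3 → E3} (h1 : Sub U w gw R)
    (h2 : Sub U (fun x => -w x) (fun x => -gw x) (fun x => -R x)) (hR : LocB U R) {c : E3} {r : ℝ}
    (hr : 0 < r) (hc : closedBall c (3 * r) ⊆ U) {ε : ℝ} (hε : 0 < ε) :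
    ∃ v : E3 → ℝ, Continuous v ∧ ∀ᵐ x : E3, x ∈ ball c r → |w x - v x| ≤ ε := by
  have hK := isCompact_closedBall c (3 * r)
  have hs : ball c (3 * r) ⊆ U := ball_subset_closedBall.trans hc
  obtain ⟨M, hM⟩ := hR _ hK hc
  have hF : ∀ᵐ x : E3, x ∈ ball c (3 * r) → |R x| ≤ |M| :=
    hM.mono fun x hx hx' => (hx (ball_subset_closedBall hx')).trans (le_abs_self M)
  have hw := cmvl_loc1 h1.l1.l2 hK hc
  obtain ⟨Cs, hCs, hmv⟩ := mv_core hr
  have hI : 0 ≤ ∫ y in closedBall c (3 * r), |w y| := integral_nonneg fun _ => abs_nonneg _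
  set A : ℝ := |M| + Cs * ∫ y in closedBall c (3 * r), |w y| with hA
  have hA0 : 0 ≤ A := by positivity
  have ht0 : 0 < min 1 (ε / (A + 1)) := lt_min one_pos (by positivity)
  have htA : min 1 (ε / (A + 1)) * A ≤ ε := by
    have := (le_div_iff₀ (by positivity : 0 < A + 1)).mp (min_le_right 1 (ε / (A + 1)))
    nlinarith
  obtain ⟨κ, hκ, hm⟩ := hmv _ ht0 (min_le_left _ _)
  have k1 := h1.mono hs
  have k2 := h2.mono hs
  have m1 := hm _ _ _ 0 |M| isOpen_ball le_rfl (abs_nonneg M) k1.l1.ld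
    (fun K a b => cmvl_loc1 k1.l1.l2 a b) (fun K a b => (cmvl_loc1 k1.l1.l2g a b).norm)
    fun ψ p ht _ _ h0 => cmvl_hyp k1 hF ψ p ht h0
  have m2 := hm _ _ _ 0 |M| isOpen_ball le_rfl (abs_nonneg M) k2.l1.ld
    (fun K a b => cmvl_loc1 k2.l1.l2 a b) (fun K a b => (cmvl_loc1 k2.l1.l2g a b).norm)
    fun ψ p ht _ _ h0 => cmvl_hyp k2 (by simpa only [abs_neg] using hF) ψ p ht h0
  have hκc : HasCompactSupport κ :=
    HasCompactSupport.intro (isCompact_closedBall 0 r) fun y hy =>
      hκ.supp y (by simpa using (not_le.mp (mt mem_closedBall_zero_iff.mpr hy)).le)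
  obtain ⟨B, hB⟩ := hκ.cont.bounded_above_of_compact_support hκc
  have hi := (integrable_indicator_iff hK.measurableSet).mpr hw
  refine ⟨fun x => ∫ y, κ (x - y) * (closedBall c (3 * r)).indicator w y, ?_, ?_⟩
  · refine continuous_of_dominated (bound := fun y => B * ‖(closedBall c (3 * r)).indicator w y‖)
      (fun x => (hκ.cont.comp (continuous_const.sub continuous_id)).aestronglyMeasurable.mul
        hi.aestronglyMeasurable) (fun x => ae_of_all _ fun y => ?_) (hi.norm.const_mul B)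
      (ae_of_all _ fun y => (hκ.cont.comp (continuous_id.sub continuous_const)).mul
        continuous_const)
    rw [norm_mul]
    exact mul_le_mul_of_nonneg_right (hB _) (norm_nonneg _)
  · filter_upwards [m1, m2] with x a1 a2 hx
    have hx' := mem_ball.mp hx
    have hsub : closedBall x r ⊆ ball c (3 * r) := closedBall_subset_ball' (by linarith)
    have e : ∫ y, κ (x - y) * (closedBall c (3 * r)).indicator w y = ∫ y, κ (x - y) * w y := by
      refine integral_congr_ae (ae_of_all _ fun y => ?_)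
      by_cases hy : y ∈ closedBall c (3 * r)
      · simp only [indicator_of_mem hy]
      · have h3 : y ∉ closedBall x r := fun h => hy (ball_subset_closedBall (hsub h))
        rw [mem_closedBall, dist_comm, dist_eq_norm, not_le] at h3
        simp only [hκ.supp _ h3.le, zero_mul]
    have h4 : ∫ y in closedBall x r, |w y| ≤ ∫ y in closedBall c (3 * r), |w y| :=
      setIntegral_mono_set hw.abs (ae_of_all _ fun _ => abs_nonneg _)
        (hsub.trans ball_subset_closedBall).eventuallyLE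
    have h5 : min 1 (ε / (A + 1)) * (|M| + Cs * ∫ y in closedBall x r, |w y|) ≤ ε :=
      le_trans (by gcongr; rw [hA]; gcongr) htA
    have b1 := a1 hsub
    have b2 := a2 hsub
    simp only [zero_mul, Real.exp_zero, one_mul, mul_neg, integral_neg, abs_neg] at b1 b2
    rw [e, abs_le]
    constructor <;> linarith

theorem cmvl_lim {B : Set E3} (hB : IsOpen B) {w : E3 → ℝ}
    (h : ∀ ε > 0, ∃ v : E3 → ℝ, Continuous v ∧ ∀ᵐ x : E3, x ∈ B → |w x - v x| ≤ ε) :
    ∃ v : E3 → ℝ, ContinuousOn v B ∧ ∀ᵐ x : E3, x ∈ B → w x = v x := by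
  choose v hv hw using fun n : ℕ => h _ (Nat.one_div_pos_of_nat (n := n))
  have h1 : ∀ m n : ℕ, ∀ x ∈ B, |v m x - v n x| ≤ 1 / ((m : ℝ) + 1) + 1 / ((n : ℝ) + 1) := by
    intro m n x hx
    have ho : IsOpen (B ∩ {x | 1 / ((m : ℝ) + 1) + 1 / ((n : ℝ) + 1) < |v m x - v n x|}) :=
      hB.inter (isOpen_lt continuous_const ((hv m).sub (hv n)).abs)
    have h0 := ho.eq_empty_of_measure_zero (μ := volume) (by
      rw [measure_eq_zero_iff_ae_notMem]
      filter_upwards [hw m, hw n] with y a1 a2 hy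
      have b1 := abs_le.mp (a1 hy.1)
      have b2 := abs_le.mp (a2 hy.1)
      have b3 : 1 / ((m : ℝ) + 1) + 1 / ((n : ℝ) + 1) < |v m y - v n y| := hy.2
      exact absurd b3 (not_lt.mpr (abs_le.mpr ⟨by linarith [b1.2, b2.1], by linarith [b1.1, b2.2]⟩)))
    by_contra hlt
    exact Set.eq_empty_iff_forall_notMem.mp h0 x ⟨hx, lt_of_not_ge hlt⟩
  have h2 : UniformCauchySeqOn v atTop B := by
    refine Metric.uniformCauchySeqOn_iff.mpr fun ε hε => ?_
    obtain ⟨N, hN⟩ := exists_nat_one_div_lt (half_pos hε)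
    refine ⟨N, fun m hm n hn x hx => (h1 m n x hx).trans_lt ?_⟩
    have := Nat.one_div_le_one_div (α := ℝ) hm
    have := Nat.one_div_le_one_div (α := ℝ) hn
    linarith
  have h3 : ∀ x ∈ B, Tendsto (fun n => v n x) atTop (𝓝 (limUnder atTop fun n => v n x)) :=
    fun x hx => (h2.cauchySeq hx).tendsto_limUnder
  refine ⟨_, (h2.tendstoUniformlyOn_of_tendsto h3).continuousOn
    (Frequently.of_forall fun n => (hv n).continuousOn), ?_⟩
  filter_upwards [ae_all_iff.mpr hw] with x hx hxB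
  refine tendsto_nhds_unique (tendsto_iff_norm_sub_tendsto_zero.mpr (squeeze_zero
    (fun _ => norm_nonneg _) (fun n => ?_) tendsto_one_div_add_atTop_nhds_zero_nat)) (h3 x hxB)
  rw [Real.norm_eq_abs, abs_sub_comm]
  exact hx n hxB

/-- A weak solution with locally bounded right side has a continuous representative. -/
theorem cont_rep {U : Set E3} {w R : E3 → ℝ} {gw : E3 → E3} (hU : IsOpen U) (h1 : Sub U w gw R)
    (h2 : Sub U (fun x => -w x) (fun x => -gw x) (fun x => -R x)) (hR : LocB U R) :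
    ∃ v : E3 → ℝ, ContinuousOn v U ∧ ∀ᵐ x : E3, x ∈ U → w x = v x := by
  have h3 : ∀ c ∈ U, ∃ (r : ℝ) (v : E3 → ℝ), 0 < r ∧ ball c r ⊆ U ∧ ContinuousOn v (ball c r) ∧
      ∀ᵐ x : E3, x ∈ ball c r → w x = v x := by
    intro c hc
    obtain ⟨s, hs, hsU⟩ := Metric.nhds_basis_closedBall.mem_iff.mp (hU.mem_nhds hc)
    obtain ⟨v, hv⟩ := cmvl_lim isOpen_ball fun ε hε => cmvl_approx h1 h2 hR (c := c) (r := s / 3)
      (by positivity) (by rwa [mul_div_cancel₀ _ three_ne_zero]) hε
    exact ⟨s / 3, v, by positivity,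
      (ball_subset_closedBall.trans (closedBall_subset_closedBall (by linarith))).trans hsU, hv⟩
  choose! r v hr hrU hv hw using h3
  have h4 : ∀ c ∈ U, ∀ y ∈ ball c (r c), v y y = v c y := by
    intro c hc y hy
    have hyU := hrU c hc hy
    have ho : IsOpen (ball c (r c) ∩ ball y (r y)) := isOpen_ball.inter isOpen_ball
    refine Measure.eqOn_open_of_ae_eq (μ := volume) ?_ ho ((hv y hyU).mono inter_subset_right)
      ((hv c hc).mono inter_subset_left) ⟨hy, mem_ball_self (hr y hyU)⟩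
    rw [EventuallyEq, ae_restrict_iff' ho.measurableSet]
    filter_upwards [hw c hc, hw y hyU] with x a1 a2 hx
    rw [← a1 hx.1, ← a2 hx.2]
  refine ⟨fun x => v x x, fun c hc => ?_, ?_⟩
  · exact (((hv c hc).congr (h4 c hc)).continuousAt
      (ball_mem_nhds c (hr c hc))).continuousWithinAt
  · rw [ae_iff]
    refine measure_null_of_locally_null _ fun c hc => ?_
    simp only [mem_ofPred_eq, Classical.not_imp] at hc
    refine ⟨_, inter_mem_nhdsWithin _ (ball_mem_nhds c (hr c hc.1)), ?_⟩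
    rw [measure_eq_zero_iff_ae_notMem]
    filter_upwards [hw c hc.1] with x hx hx'
    exact hx'.1 fun _ => (hx hx'.2).trans (h4 c hc.1 x hx'.2).symm

end

end Vale.Agent.P363
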