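import Vale.Agent.P363.CO2A

/-! P363, block C: two particle functions. -/

open MeasureTheory Set Metric Filter Topology
open scoped RealInnerProductSpace

namespace Vale.Agent.P363

noncomputable section

namespace CO2Aux

theorem hardyV {Y : Type} [MeasurableSpace Y] {ν : Measure Y} [SFinite ν] {F : E3 × Y → ℝ}
    {G : E3 × Y → E3} (h : HV ν F G) {c : Y → E3} (hc : Measurable c) :
    MemLp (fun w : E3 × Y => ‖c w.2 - w.1‖⁻¹ * F w) 2 (volume.prod ν) ∧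
      ∫ w : E3 × Y, (‖c w.2 - w.1‖⁻¹ * F w) ^ 2 ∂(volume.prod ν)
        ≤ 4 * ∫ w, ‖G w‖ ^ 2 ∂(volume.prod ν) := by
  have m0 : Measurable fun w : E3 × Y => ‖c w.2 - w.1‖⁻¹ := by fun_prop
  have m1 : AEStronglyMeasurable (fun w : E3 × Y => ‖c w.2 - w.1‖⁻¹ * F w) (volume.prod ν) :=
    m0.aestronglyMeasurable.mul h.l2.1
  have m2 : AEStronglyMeasurable (fun w : E3 × Y => (‖c w.2 - w.1‖⁻¹ * F w) ^ 2)
      (volume.prod ν) := m1.pow 2
  have i0 := (memLp_two_iff_integrable_sq_norm h.l2g.1).1 h.l2g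
  have h1 : ∀ᵐ y ∂ν, Integrable (fun x : E3 => (‖c y - x‖⁻¹ * F (x, y)) ^ 2) ∧
      ∫ x : E3, (‖c y - x‖⁻¹ * F (x, y)) ^ 2 ≤ 4 * ∫ x, ‖G (x, y)‖ ^ 2 := by
    filter_upwards [h.slice] with y hy
    have e : ∀ x : E3, (‖c y - x‖⁻¹ * F (x, y)) ^ 2 = F (x, y) ^ 2 / ‖x - c y‖ ^ 2 := fun x => by
      rw [norm_sub_rev, mul_pow, inv_pow, div_eq_inv_mul]
    simp only [e]
    exact hardy hy (c y)
  have i1 : Integrable (fun w : E3 × Y => (‖c w.2 - w.1‖⁻¹ * F w) ^ 2) (volume.prod ν) := by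
    refine (integrable_prod_iff' m2).2 ⟨h1.mono fun y hy => hy.1,
      (i0.integral_prod_right.const_mul 4).mono' m2.norm.prod_swap.integral_prod_right'
        (h1.mono fun y hy => ?_)⟩
    simp only [Real.norm_eq_abs, abs_pow, sq_abs]
    rw [abs_of_nonneg (integral_nonneg fun _ => sq_nonneg _)]
    exact hy.2
  refine ⟨(memLp_two_iff_integrable_sq m1).2 i1, ?_⟩
  rw [integral_prod_symm _ i1, integral_prod_symm _ i0, ← integral_const_mul]
  exact integral_mono_ae i1.integral_prod_right (i0.integral_prod_right.const_mul 4)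
    (h1.mono fun y hy => hy.2)

theorem int_inner {p q : E6 → E3} (hp : MemLp p 2 volume) (hq : MemLp q 2 volume) :
    Integrable fun w => ⟪p w, q w⟫ :=
  (hp.norm.integrable_mul hq.norm).mono' (hp.1.inner hq.1)
    (ae_of_all _ fun _ => norm_inner_le_norm _ _)

theorem V_eq (L : ℝ) (x : E3) : V L x = -(‖nA L - x‖⁻¹ + ‖-nA L - x‖⁻¹) := by
  rw [V, rA, rB, norm_sub_rev (nA L), norm_sub_rev (-nA L), sub_neg_eq_add]

end CO2Aux

open CO2Aux

theorem O2.l2 (a : O2) : MemLp a.f 2 volume ∧ MemLp a.g1 2 volume ∧ MemLp a.g2 2 volume := by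
  exact ⟨a.h.h1.l2, a.h.h1.l2g, a.h.h2.l2g.comp_measurePreserving mp_swap6⟩

theorem O2.hardy (a : O2) (x : E3) :
    (MemLp (fun w : E6 => ‖x - w.1‖⁻¹ * a.f w) 2 volume ∧
      ∫ w : E6, (‖x - w.1‖⁻¹ * a.f w) ^ 2 ≤ 4 * ∫ w, ‖a.g1 w‖ ^ 2) ∧
    (MemLp (fun w : E6 => ‖x - w.2‖⁻¹ * a.f w) 2 volume ∧
      ∫ w : E6, (‖x - w.2‖⁻¹ * a.f w) ^ 2 ≤ 4 * ∫ w, ‖a.g2 w‖ ^ 2) ∧
    (MemLp (fun w : E6 => ‖w.1 - w.2‖⁻¹ * a.f w) 2 volume ∧
      ∫ w : E6, (‖w.1 - w.2‖⁻¹ * a.f w) ^ 2 ≤ 4 * ∫ w, ‖a.g1 w‖ ^ 2) ∧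
    (MemLp (fun w => Mx x w * a.f w) 2 volume ∧ ∫ w, (Mx x w * a.f w) ^ 2 ≤ 8 * k2 a) := by
  have h1 : MemLp (fun w : E6 => ‖x - w.1‖⁻¹ * a.f w) 2 volume ∧
      ∫ w : E6, (‖x - w.1‖⁻¹ * a.f w) ^ 2 ≤ 4 * ∫ w, ‖a.g1 w‖ ^ 2 :=
    hardyV a.h.h1 (c := fun _ => x) measurable_const
  have h2 : MemLp (fun w : E6 => ‖x - w.2‖⁻¹ * a.f w) 2 volume ∧
      ∫ w : E6, (‖x - w.2‖⁻¹ * a.f w) ^ 2 ≤ 4 * ∫ w, ‖a.g2 w‖ ^ 2 := by
    obtain ⟨k1, k2⟩ := hardyV a.h.h2 (c := fun _ => x) measurable_const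
    have k3 := k1.comp_measurePreserving mp_swap6
    simp only [Function.comp_def, Prod.swap_swap, Prod.fst_swap] at k3
    refine ⟨k3, ?_⟩
    rw [← integral_swap6, ← integral_swap6 fun w => ‖a.g2 w‖ ^ 2]
    exact k2
  refine ⟨h1, h2, ?_, ?_, ?_⟩
  · simp only [norm_sub_rev (Prod.fst _)]
    exact hardyV a.h.h1 (c := id) measurable_id
  · simp only [Mx, add_mul]
    exact h1.1.add h2.1
  · have i1 := h1.1.integrable_sq
    have i2 := h2.1.integrable_sq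
    have h3 := integral_mono_of_nonneg (f := fun w => (Mx x w * a.f w) ^ 2)
      (ae_of_all _ fun _ => sq_nonneg _) ((i1.add i2).const_mul 2) (ae_of_all _ fun w => by
        simp only [Mx, add_mul, Pi.add_apply]
        nlinarith [sq_nonneg (‖x - w.1‖⁻¹ * a.f w - ‖x - w.2‖⁻¹ * a.f w)])
    simp only [Pi.add_apply] at h3
    rw [integral_const_mul, integral_add i1 i2] at h3
    rw [k2, integral_add ((memLp_two_iff_integrable_sq_norm a.l2.2.1.1).1 a.l2.2.1)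
      ((memLp_two_iff_integrable_sq_norm a.l2.2.2.1).1 a.l2.2.2)]
    linarith [h1.2, h2.2]

theorem O2.memW (a : O2) (L lam : ℝ) : MemLp (fun w => W2 L lam w * a.f w) 2 volume := by
  obtain ⟨a1, a2, a3, -⟩ := a.hardy (nA L)
  obtain ⟨b1, b2, -⟩ := a.hardy (-nA L)
  refine (memLp_congr_ae (ae_of_all _ fun w => ?_)).1
    (((a1.1.add b1.1).neg.add (a2.1.add b2.1).neg).add (a3.1.const_mul lam))
  simp only [W2, V_eq, Pi.add_apply, Pi.neg_apply]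
  ring

theorem O2.int (a b : O2) (L lam : ℝ) : Integrable (fun w => a.f w * b.f w) ∧
    Integrable (fun w => ⟪a.g1 w, b.g1 w⟫) ∧ Integrable (fun w => ⟪a.g2 w, b.g2 w⟫) ∧
    Integrable (fun w => W2 L lam w * a.f w * b.f w) := by
  exact ⟨a.l2.1.integrable_mul b.l2.1, int_inner a.l2.2.1 b.l2.2.1,
    int_inner a.l2.2.2 b.l2.2.2, (a.memW L lam).integrable_mul b.l2.1⟩

theorem CO2Aux.intq (a b : O2) (L lam : ℝ) : Integrable fun w =>
    (1 / 2) * (⟪a.g1 w, b.g1 w⟫ + ⟪a.g2 w, b.g2 w⟫) + W2 L lam w * a.f w * b.f w :=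
  (((a.int b L lam).2.1.add (a.int b L lam).2.2.1).const_mul _).add (a.int b L lam).2.2.2

theorem ip2_comm (a b : O2) : ip2 a b = ip2 b a := by
  simp only [ip2, mul_comm]

theorem q2_comm (L lam : ℝ) (a b : O2) : q2 L lam a b = q2 L lam b a := by
  refine integral_congr_ae (ae_of_all _ fun w => ?_)
  simp only [real_inner_comm (a.g1 w), real_inner_comm (a.g2 w)]
  ring

theorem ip2_add (a b c : O2) : ip2 (a.add b) c = ip2 a c + ip2 b c := by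
  simp only [ip2, O2.add, add_mul]
  exact integral_add (a.int c 0 0).1 (b.int c 0 0).1

theorem q2_add (L lam : ℝ) (a b c : O2) :
    q2 L lam (a.add b) c = q2 L lam a c + q2 L lam b c := by
  rw [q2, q2, q2, ← integral_add (intq a c L lam) (intq b c L lam)]
  refine integral_congr_ae (ae_of_all _ fun w => ?_)
  simp only [O2.add, inner_add_left]
  ring

theorem ip2_cmul (t : ℝ) (a c : O2) : ip2 (a.cmul t) c = t * ip2 a c := by
  simp only [ip2, O2.cmul, mul_assoc, integral_const_mul]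

theorem q2_cmul (L lam t : ℝ) (a c : O2) : q2 L lam (a.cmul t) c = t * q2 L lam a c := by
  rw [q2, q2, ← integral_const_mul]
  refine integral_congr_ae (ae_of_all _ fun w => ?_)
  simp only [O2.cmul, real_inner_smul_left]
  ring

theorem ip2_swap (a b : O2) : ip2 a.swap b.swap = ip2 a b := by
  exact integral_swap6 fun w => a.f w * b.f w

theorem q2_swap (L lam : ℝ) (a b : O2) : q2 L lam a.swap b.swap = q2 L lam a b := by
  rw [q2, q2, ← integral_swap6 fun w => (1 / 2) * (⟪a.g1 w, b.g1 w⟫ + ⟪a.g2 w, b.g2 w⟫)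
    + W2 L lam w * a.f w * b.f w]
  refine integral_congr_ae (ae_of_all _ fun w => ?_)
  simp only [O2.swap, W2_swap]
  ring

theorem ip2_refl (a b : O2) : ip2 a.refl b.refl = ip2 a b := by
  exact integral_sg6 fun w => a.f w * b.f w

theorem q2_refl (L lam : ℝ) (a b : O2) : q2 L lam a.refl b.refl = q2 L lam a b := by
  rw [q2, q2, ← integral_sg6 fun w => (1 / 2) * (⟪a.g1 w, b.g1 w⟫ + ⟪a.g2 w, b.g2 w⟫)
    + W2 L lam w * a.f w * b.f w]
  refine integral_congr_ae (ae_of_all _ fun w => ?_)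
  simp only [O2.refl, W2_sg6, inner_sg]

theorem q2_congr (L lam : ℝ) {a a' : O2} (h : ∀ᵐ w : E6, a'.f w = a.f w) (b : O2) :
    q2 L lam a' b = q2 L lam a b ∧ ip2 a' b = ip2 a b := by
  refine ⟨integral_congr_ae ?_, integral_congr_ae ?_⟩
  · filter_upwards [h, a.h.unique a'.h h] with w h1 h2
    rw [h1, h2.1, h2.2]
  · filter_upwards [h] with w h1
    rw [h1]

theorem q2_kin {lam : ℝ} (hl : 0 ≤ lam) (L : ℝ) (b : O2) :
    k2 b / 4 - 32 * ip2 b b ≤ q2 L lam b b := by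
  obtain ⟨a1, a2, -⟩ := b.hardy (nA L)
  obtain ⟨b1, b2, -⟩ := b.hardy (-nA L)
  have i1 := (memLp_two_iff_integrable_sq_norm b.l2.2.1.1).1 b.l2.2.1
  have i2 := (memLp_two_iff_integrable_sq_norm b.l2.2.2.1).1 b.l2.2.2
  have i3 := (b.int b L lam).1
  have j1 := a1.1.integrable_sq
  have j2 := a2.1.integrable_sq
  have j3 := b1.1.integrable_sq
  have j4 := b2.1.integrable_sq
  have k0 : Integrable fun w => (1 / 2 : ℝ) * (‖b.g1 w‖ ^ 2 + ‖b.g2 w‖ ^ 2) :=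
    (i1.add i2).const_mul _
  have k1 : Integrable fun w : E6 => (‖nA L - w.1‖⁻¹ * b.f w) ^ 2
      + (‖nA L - w.2‖⁻¹ * b.f w) ^ 2 := j1.add j2
  have k2' : Integrable fun w : E6 => (‖-nA L - w.1‖⁻¹ * b.f w) ^ 2
      + (‖-nA L - w.2‖⁻¹ * b.f w) ^ 2 := j3.add j4
  have k3 : Integrable fun w : E6 => (1 / 32 : ℝ) * (((‖nA L - w.1‖⁻¹ * b.f w) ^ 2
      + (‖nA L - w.2‖⁻¹ * b.f w) ^ 2) + ((‖-nA L - w.1‖⁻¹ * b.f w) ^ 2
      + (‖-nA L - w.2‖⁻¹ * b.f w) ^ 2)) := (k1.add k2').const_mul _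
  have k4 : Integrable fun w : E6 => (1 / 2 : ℝ) * (‖b.g1 w‖ ^ 2 + ‖b.g2 w‖ ^ 2)
      - (1 / 32 : ℝ) * (((‖nA L - w.1‖⁻¹ * b.f w) ^ 2
      + (‖nA L - w.2‖⁻¹ * b.f w) ^ 2) + ((‖-nA L - w.1‖⁻¹ * b.f w) ^ 2
      + (‖-nA L - w.2‖⁻¹ * b.f w) ^ 2)) := k0.sub k3
  have k5 : Integrable fun w : E6 => 32 * (b.f w * b.f w) := i3.const_mul _
  have h := integral_mono (k4.sub k5) (intq b b L lam) fun w => by
    have p : 0 ≤ lam * ‖w.1 - w.2‖⁻¹ * (b.f w * b.f w) :=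
      mul_nonneg (by positivity) (mul_self_nonneg _)
    simp only [W2, V_eq, real_inner_self_eq_norm_sq, Pi.sub_apply]
    nlinarith [sq_nonneg (‖nA L - w.1‖⁻¹ * b.f w - 16 * b.f w),
      sq_nonneg (‖nA L - w.2‖⁻¹ * b.f w - 16 * b.f w),
      sq_nonneg (‖-nA L - w.1‖⁻¹ * b.f w - 16 * b.f w),
      sq_nonneg (‖-nA L - w.2‖⁻¹ * b.f w - 16 * b.f w)]
  simp only [Pi.sub_apply] at h
  rw [integral_sub k4 k5, integral_sub k0 k3, integral_const_mul, integral_const_mul,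
    integral_const_mul, integral_add k1 k2', integral_add j1 j2, integral_add j3 j4,
    integral_add i1 i2] at h
  rw [k2, ip2, q2, integral_add i1 i2]
  linarith [a1.2, a2.2, b1.2, b2.2]

end

end Vale.Agent.P363
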