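import Vale.Agent.P363.CVec1

/-! P363, block C: two particle functions. -/

open MeasureTheory Set Metric Filter Topology
open scoped RealInnerProductSpace

namespace Vale.Agent.P363

noncomputable section

def O2.add (a b : O2) : O2 :=
  ⟨fun w => a.f w + b.f w, fun w => a.g1 w + b.g1 w, fun w => a.g2 w + b.g2 w,
    ⟨a.h.h1.add b.h.h1, a.h.h2.add b.h.h2⟩⟩

def O2.cmul (c : ℝ) (a : O2) : O2 :=
  ⟨fun w => c * a.f w, fun w => c • a.g1 w, fun w => c • a.g2 w, ⟨a.h.h1.cmul c, a.h.h2.cmul c⟩⟩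

def O2.swap (a : O2) : O2 :=
  ⟨fun w => a.f w.swap, fun w => a.g2 w.swap, fun w => a.g1 w.swap, ⟨a.h.h2, a.h.h1⟩⟩

theorem H2.refl {f : E6 → ℝ} {g1 g2 : E6 → E3} (h : H2 f g1 g2) :
    H2 (fun w => f (sg6 w)) (fun w => sg (g1 (sg6 w))) (fun w => sg (g2 (sg6 w))) := by
  exact ⟨HV.map mp_sg h.h1.refl, HV.map mp_sg h.h2.refl⟩

def O2.refl (a : O2) : O2 :=
  ⟨fun w => a.f (sg6 w), fun w => sg (a.g1 (sg6 w)), fun w => sg (a.g2 (sg6 w)), a.h.refl⟩

theorem H2.tensor {φ ψ : E3 → ℝ} {p q : E3 → E3} (h : H1 φ p) (h' : H1 ψ q) :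
    H2 (fun w => φ w.1 * ψ w.2) (fun w => ψ w.2 • p w.1) (fun w => φ w.1 • q w.2) := by
  refine ⟨HV.tensor h h'.l2, ?_⟩
  refine (HV.tensor (ν := (volume : Measure E3)) h' h.l2).congr ?_ ?_
  · exact Eventually.of_forall fun w => mul_comm _ _
  · exact Eventually.of_forall fun w => rfl

theorem H2.congr {f f' : E6 → ℝ} {g1 g2 : E6 → E3} (h : H2 f g1 g2) (h1 : ∀ᵐ w : E6, f' w = f w) :
    H2 f' g1 g2 := by
  refine ⟨h.h1.congr h1 (Eventually.of_forall fun w => rfl), ?_⟩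
  exact h.h2.congr (mp_swap6.quasiMeasurePreserving.ae h1) (Eventually.of_forall fun w => rfl)

theorem H2.unique {f f' : E6 → ℝ} {g1 g2 g1' g2' : E6 → E3} (h : H2 f g1 g2) (h' : H2 f' g1' g2')
    (h1 : ∀ᵐ w : E6, f' w = f w) : ∀ᵐ w : E6, g1' w = g1 w ∧ g2' w = g2 w := by
  have k := h.congr h1
  have a1 : ∀ᵐ w : E6, g1' w = g1 w := h'.h1.unique k.h1
  have a2 : ∀ᵐ w : E6, g2' w.swap = g2 w.swap := h'.h2.unique k.h2
  have a3 := mp_swap6.quasiMeasurePreserving.ae a2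
  filter_upwards [a1, a3] with w b1 b2
  exact ⟨b1, b2⟩

theorem CO2A_memLp {f : E6 → ℝ} {m : E6 → E3} {μ : Measure E6} (hf : MemLp f 2 μ)
    (hm : Measurable m) {M : ℝ} (hb : ∀ w, ‖m w‖ ≤ M) : MemLp (fun w => f w • m w) 2 μ := by
  refine (hf.const_mul M).of_le (hf.1.smul hm.aestronglyMeasurable)
    (Eventually.of_forall fun w => ?_)
  rw [norm_smul, norm_mul, mul_comm]
  exact mul_le_mul_of_nonneg_right ((hb w).trans (le_abs_self M)) (norm_nonneg _)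

/-- Product with a bounded Lipschitz weight. -/
theorem H2.mul {f m : E6 → ℝ} {g1 g2 m1 m2 : E6 → E3} (h : H2 f g1 g2) (hm : Measurable m)
    (hm1 : Measurable m1) (hm2 : Measurable m2)
    (l1 : ∀ y, LD univ (fun x => m (x, y)) (fun x => m1 (x, y)))
    (l2 : ∀ x, LD univ (fun y => m (x, y)) (fun y => m2 (x, y))) {M : ℝ}
    (hb : ∀ w, |m w| ≤ M ∧ ‖m1 w‖ ≤ M ∧ ‖m2 w‖ ≤ M) :
    H2 (fun w => m w * f w) (fun w => m w • g1 w + f w • m1 w)
      (fun w => m w • g2 w + f w • m2 w) := by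
  refine ⟨h.h1.mulg (Eventually.of_forall l1) hm.aestronglyMeasurable (M := M)
    (Eventually.of_forall fun w => (hb w).1) ?_, ?_⟩
  · exact CO2A_memLp h.h1.l2 hm1 fun w => (hb w).2.1
  · refine HV.mulg (m := fun w => m w.swap) (gm := fun w => m2 w.swap) h.h2
      (Eventually.of_forall l2) (hm.comp measurable_swap).aestronglyMeasurable (M := M)
      (Eventually.of_forall fun w => (hb w.swap).1) ?_
    exact CO2A_memLp h.h2.l2 (hm2.comp measurable_swap) fun w => (hb w.swap).2.2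

end

end Vale.Agent.P363
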