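import Vale.Agent.P363.CO2

/-! P363, block C: three particle functions. -/

open MeasureTheory Set Metric Filter Topology
open scoped RealInnerProductSpace

namespace Vale.Agent.P363

noncomputable section

def O3.add (a b : O3) : O3 :=
  ⟨fun w => a.f w + b.f w, fun w => a.g1 w + b.g1 w, fun w => a.g2 w + b.g2 w,
    fun w => a.g3 w + b.g3 w, ⟨a.h.h1.add b.h.h1, a.h.h2.add b.h.h2, a.h.h3.add b.h.h3⟩⟩

def O3.cmul (c : ℝ) (a : O3) : O3 :=
  ⟨fun w => c * a.f w, fun w => c • a.g1 w, fun w => c • a.g2 w, fun w => c • a.g3 w,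
    ⟨a.h.h1.cmul c, a.h.h2.cmul c, a.h.h3.cmul c⟩⟩

namespace CO3Ax

theorem dil {F : E9 → ℝ} {G : E9 → E3} (h : HV volume F G) {c : ℝ} (hc : 0 < c) :
    HV volume (fun w : E9 => F (c • w)) (fun w : E9 => c • G (c • w)) := by
  have h1 := h.dilate hc
  haveI : Measure.IsAddHaarMeasure (volume : Measure E6) :=
    Measure.prod.instIsAddHaarMeasure (volume : Measure E3) (volume : Measure E3)
  let a : ENNReal := ENNReal.ofReal |(c ^ Module.finrank ℝ E6)⁻¹|
  have hT : MeasurePreserving (fun y : E6 => c • y) volume (a • (volume : Measure E6)) :=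
    ⟨by fun_prop, Measure.map_addHaar_smul (volume : Measure E6) hc.ne'⟩
  have h2 : HV (a • (volume : Measure E6)) (fun w : E9 => F (c • w.1, w.2))
      (fun w : E9 => c • G (c • w.1, w.2)) := by
    refine ⟨?_, ?_, Measure.ae_smul_measure h1.ld a⟩
    · rw [Measure.prod_smul_right]
      exact h1.l2.smul_measure ENNReal.ofReal_ne_top
    · rw [Measure.prod_smul_right]
      exact h1.l2g.smul_measure ENNReal.ofReal_ne_top
  exact h2.map hT

theorem tens {φ : E3 → ℝ} {T : E6 → E3} (h : MemLp φ 2 volume) (hT : MemLp T 2 volume) :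
    MemLp (fun w : E9 => φ w.1 • T w.2) 2 ((volume : Measure E3).prod (volume : Measure E6)) := by
  have m : AEStronglyMeasurable (fun w : E9 => φ w.1 • T w.2)
      ((volume : Measure E3).prod (volume : Measure E6)) := h.1.comp_fst.smul hT.1.comp_snd
  rw [memLp_two_iff_integrable_sq_norm m]
  have := ((memLp_two_iff_integrable_sq_norm h.1).1 h).mul_prod
    ((memLp_two_iff_integrable_sq_norm hT.1).1 hT)
  simpa only [norm_smul, mul_pow] using this

theorem mulp {F : E9 → ℝ} {G : E9 → E3} {T : E6 → ℝ} (h : HV volume F G)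
    (hT : AEStronglyMeasurable T volume) {M : ℝ} (hb : ∀ᵐ y : E6, |T y| ≤ M) :
    HV volume (fun w : E9 => T w.2 * F w) (fun w : E9 => T w.2 • G w) := by
  have q := Measure.quasiMeasurePreserving_snd (μ := (volume : Measure E3))
    (ν := (volume : Measure E6))
  refine ⟨h.l2.of_le_mul (c := M) (hT.comp_snd.mul h.l2.1) ?_,
    h.l2g.of_le_mul (c := M) (hT.comp_snd.smul h.l2g.1) ?_, ?_⟩
  · filter_upwards [q.ae hb] with w hw
    rw [norm_mul]
    exact mul_le_mul_of_nonneg_right hw (norm_nonneg _)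
  · filter_upwards [q.ae hb] with w hw
    rw [norm_smul]
    exact mul_le_mul_of_nonneg_right hw (norm_nonneg _)
  · filter_upwards [h.ld] with y hy
    exact hy.cmul (T y)

end CO3Ax

variable {f : E9 → ℝ} {g1 g2 g3 : E9 → E3}

theorem H3.perm12 (h : H3 f g1 g2 g3) :
    H3 (fun w => f (p12 w)) (fun w => g2 (p12 w)) (fun w => g1 (p12 w)) (fun w => g3 (p12 w)) := by
  exact ⟨h.h2, h.h1, h.h3.map mp_swap6⟩

theorem H3.perm13 (h : H3 f g1 g2 g3) :
    H3 (fun w => f (p13 w)) (fun w => g3 (p13 w)) (fun w => g2 (p13 w)) (fun w => g1 (p13 w)) := by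
  exact ⟨h.h3, h.h2.map mp_swap6, h.h1⟩

theorem H3.refl (h : H3 f g1 g2 g3) : H3 (fun w => f (sg9 w)) (fun w => sg (g1 (sg9 w)))
    (fun w => sg (g2 (sg9 w))) (fun w => sg (g3 (sg9 w))) := by
  exact ⟨h.h1.refl.map mp_sg6, h.h2.refl.map mp_sg6, h.h3.refl.map mp_sg6⟩

/-- Reflection of the first particle only. -/
theorem H3.refl1 (h : H3 f g1 g2 g3) : H3 (fun w => f (sg w.1, w.2))
    (fun w => sg (g1 (sg w.1, w.2))) (fun w => g2 (sg w.1, w.2)) (fun w => g3 (sg w.1, w.2)) := by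
  exact ⟨h.h1.refl, h.h2.map (mp_sg.prod (MeasurePreserving.id volume)),
    h.h3.map ((MeasurePreserving.id volume).prod mp_sg)⟩

theorem H3.dilate (h : H3 f g1 g2 g3) {c : ℝ} (hc : 0 < c) : H3 (fun w => f (c • w))
    (fun w => c • g1 (c • w)) (fun w => c • g2 (c • w)) (fun w => c • g3 (c • w)) := by
  exact ⟨CO3Ax.dil h.h1 hc, CO3Ax.dil h.h2 hc, CO3Ax.dil h.h3 hc⟩

def O3.perm12 (a : O3) : O3 := ⟨_, _, _, _, a.h.perm12⟩

def O3.perm13 (a : O3) : O3 := ⟨_, _, _, _, a.h.perm13⟩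

def O3.refl (a : O3) : O3 := ⟨_, _, _, _, a.h.refl⟩

def O3.refl1 (a : O3) : O3 := ⟨_, _, _, _, a.h.refl1⟩

theorem H3.tensor {φ : E3 → ℝ} {p : E3 → E3} (h : H1 φ p) (a : O2) :
    H3 (fun w => φ w.1 * a.f w.2) (fun w => a.f w.2 • p w.1) (fun w => φ w.1 • a.g1 w.2)
      (fun w => φ w.1 • a.g2 w.2) := by
  have t1 := HV.tensor (ν := (volume : Measure E6)) h a.l2.1
  refine ⟨t1, ⟨t1.l2.comp_measurePreserving mp_p12,
    (CO3Ax.tens h.l2 a.l2.2.1).comp_measurePreserving mp_p12, ?_⟩,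
    ⟨t1.l2.comp_measurePreserving mp_p13,
    (CO3Ax.tens h.l2 a.l2.2.2).comp_measurePreserving mp_p13, ?_⟩⟩
  · filter_upwards [(Measure.quasiMeasurePreserving_snd (μ := (volume : Measure E3))
      (ν := (volume : Measure E3))).ae a.h.h1.ld] with y hy
    exact hy.cmul (φ y.1)
  · filter_upwards [(Measure.quasiMeasurePreserving_fst (μ := (volume : Measure E3))
      (ν := (volume : Measure E3))).ae a.h.h2.ld] with y hy
    exact hy.cmul (φ y.2)

theorem H3.congr {f' : E9 → ℝ} (h : H3 f g1 g2 g3) (h1 : ∀ᵐ w : E9, f' w = f w) :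
    H3 f' g1 g2 g3 := by
  exact ⟨h.h1.congr h1 (Eventually.of_forall fun _ => rfl),
    h.h2.congr (mp_p12.quasiMeasurePreserving.ae h1) (Eventually.of_forall fun _ => rfl),
    h.h3.congr (mp_p13.quasiMeasurePreserving.ae h1) (Eventually.of_forall fun _ => rfl)⟩

theorem H3.unique {f' : E9 → ℝ} {g1' g2' g3' : E9 → E3} (h : H3 f g1 g2 g3)
    (h' : H3 f' g1' g2' g3') (h1 : ∀ᵐ w : E9, f' w = f w) :
    ∀ᵐ w : E9, g1' w = g1 w ∧ g2' w = g2 w ∧ g3' w = g3 w := by
  have h2 := h.congr h1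
  filter_upwards [h'.h1.unique h2.h1, mp_p12.quasiMeasurePreserving.ae (h'.h2.unique h2.h2),
    mp_p13.quasiMeasurePreserving.ae (h'.h3.unique h2.h3)] with w a b c
  exact ⟨a, b, c⟩

theorem H3.slice (h : H3 f g1 g2 g3) :
    ∀ᵐ x : E3, H2 (fun y => f (x, y)) (fun y => g2 (x, y)) (fun y => g3 (x, y)) := by
  have a2 : MemLp g2 2 ((volume : Measure E3).prod (volume : Measure E6)) :=
    h.h2.l2g.comp_measurePreserving mp_p12
  have a3 : MemLp g3 2 ((volume : Measure E3).prod (volume : Measure E6)) :=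
    h.h3.l2g.comp_measurePreserving mp_p13
  filter_upwards [(ae_slice2 h.h1.l2).1, (ae_slice2 a2).1, (ae_slice2 a3).1,
    Measure.ae_ae_of_ae_prod (μ := (volume : Measure E3)) (ν := (volume : Measure E3)) h.h2.ld,
    Measure.ae_ae_of_ae_prod (μ := (volume : Measure E3)) (ν := (volume : Measure E3))
      (mp_swap6.quasiMeasurePreserving.ae h.h3.ld)] with x b1 b2 b3 b4 b5
  exact ⟨⟨b1, b2, b4⟩, ⟨b1.comp_measurePreserving mp_swap6, b3.comp_measurePreserving mp_swap6,
    b5⟩⟩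

theorem H3.mul1 {m : E3 → ℝ} {gm : E3 → E3} (h : H3 f g1 g2 g3) (hm : LD univ m gm) {M : ℝ}
    (hb : ∀ᵐ x : E3, |m x| ≤ M) (hg : MemLp (fun x => nrm volume f x • gm x) 2 volume) :
    H3 (fun w => m w.1 * f w) (fun w => m w.1 • g1 w + f w • gm w.1) (fun w => m w.1 • g2 w)
      (fun w => m w.1 • g3 w) := by
  have mm : AEStronglyMeasurable m volume := by simpa using hm.mf
  have q1 := Measure.quasiMeasurePreserving_fst (μ := (volume : Measure E3))
    (ν := (volume : Measure E3))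
  have q2 := Measure.quasiMeasurePreserving_snd (μ := (volume : Measure E3))
    (ν := (volume : Measure E3))
  exact ⟨h.h1.mul1 hm hb hg,
    CO3Ax.mulp (T := fun y : E6 => m y.1) h.h2 (mm.comp_quasiMeasurePreserving q1) (q1.ae hb),
    CO3Ax.mulp (T := fun y : E6 => m y.2) h.h3 (mm.comp_quasiMeasurePreserving q2) (q2.ae hb)⟩

/-- Product with a bounded Lipschitz weight in the last two particles. -/
theorem H3.mul23 {m : E6 → ℝ} {m1 m2 : E6 → E3} (h : H3 f g1 g2 g3) (hm : Measurable m)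
    (hm1 : Measurable m1) (hm2 : Measurable m2)
    (l1 : ∀ y, LD univ (fun x => m (x, y)) (fun x => m1 (x, y)))
    (l2 : ∀ x, LD univ (fun y => m (x, y)) (fun y => m2 (x, y))) {M : ℝ}
    (hb : ∀ w, |m w| ≤ M ∧ ‖m1 w‖ ≤ M ∧ ‖m2 w‖ ≤ M) :
    H3 (fun w => m w.2 * f w) (fun w => m w.2 • g1 w) (fun w => m w.2 • g2 w + f w • m1 w.2)
      (fun w => m w.2 • g3 w + f w • m2 w.2) := by
  refine ⟨CO3Ax.mulp h.h1 hm.aestronglyMeasurable (Eventually.of_forall fun y => (hb y).1),
    h.h2.mulg (m := fun w : E9 => m (w.1, w.2.2)) (gm := fun w : E9 => m1 (w.1, w.2.2))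
      (Eventually.of_forall fun y => l1 y.2)
      (Measurable.aestronglyMeasurable (by fun_prop))
      (Eventually.of_forall fun w => (hb _).1) ?_,
    h.h3.mulg (m := fun w : E9 => m (w.2.1, w.1)) (gm := fun w : E9 => m2 (w.2.1, w.1))
      (Eventually.of_forall fun y => l2 y.1)
      (Measurable.aestronglyMeasurable (by fun_prop))
      (Eventually.of_forall fun w => (hb _).1) ?_⟩
  · refine h.h2.l2.of_le_mul (c := M) (h.h2.l2.1.smul
      (Measurable.aestronglyMeasurable (by fun_prop))) (Eventually.of_forall fun w => ?_)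
    rw [norm_smul, mul_comm]
    exact mul_le_mul_of_nonneg_right (hb _).2.1 (norm_nonneg _)
  · refine h.h3.l2.of_le_mul (c := M) (h.h3.l2.1.smul
      (Measurable.aestronglyMeasurable (by fun_prop))) (Eventually.of_forall fun w => ?_)
    rw [norm_smul, mul_comm]
    exact mul_le_mul_of_nonneg_right (hb _).2.2 (norm_nonneg _)

end

end Vale.Agent.P363
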