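import Vale.Agent.P363.CC2
import Vale.Agent.P363.CSg

/-! P363, block C: the profile `ph`. -/

open MeasureTheory Set Metric Filter Topology
open scoped RealInnerProductSpace

namespace Vale.Agent.P363

noncomputable section

theorem hasDerivAt_ph {L s : ℝ} (k c A : ℝ) (hL : 0 < L) (hs : 0 < s) :
    HasDerivAt (ph L k c A) (ph1 L k c A s) s ∧ HasDerivAt (ph1 L k c A) (ph2 L k c A s) s := by
  have hq : 0 < √s := Real.sqrt_pos.2 hs
  have hqq : √s * √s = s := Real.mul_self_sqrt hs.le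
  have hsL : 0 < s + L := by linarith
  have h1 : 0 < 1 + s / L := by positivity
  have dsq : HasDerivAt (fun x : ℝ => √x) (1 / (2 * √s)) s := Real.hasDerivAt_sqrt hs.ne'
  have did : HasDerivAt (fun x : ℝ => x) 1 s := hasDerivAt_id s
  have dL : HasDerivAt (fun x : ℝ => x + L) 1 s := did.add_const L
  constructor
  · have a1 : HasDerivAt (fun x : ℝ => -k * x) (-k) s := by
      simpa using did.const_mul (-k)
    have a2 : HasDerivAt (fun x : ℝ => (1 / k - 1) * Real.log x) ((1 / k - 1) / s) s := by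
      simpa [div_eq_mul_inv] using (Real.hasDerivAt_log hs.ne').const_mul (1 / k - 1)
    have a3 : HasDerivAt (fun x : ℝ => c / k * Real.log (1 + x / L)) (c / k / (s + L)) s := by
      have := (((did.div_const L).const_add 1).log h1.ne').const_mul (c / k)
      refine this.congr_deriv ?_
      field_simp
      ring
    have a4 : HasDerivAt (fun x : ℝ => 2 / √x) (-(1 / (s * √s))) s := by
      have := (hasDerivAt_const s (2 : ℝ)).div dsq hq.ne'
      refine this.congr_deriv ?_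
      rw [Real.sq_sqrt hs.le]
      field_simp
      ring
    have a5 : HasDerivAt (fun x : ℝ => L / (x + L)) (-(L / (s + L) ^ 2)) s := by
      have := (hasDerivAt_const s L).div dL hsL.ne'
      refine this.congr_deriv ?_
      field_simp
      ring
    have := ((a1.add a2).add a3).sub ((a4.add a5).const_mul A)
    refine this.congr_deriv ?_
    unfold ph1
    ring
  · have a1 : HasDerivAt (fun _ : ℝ => -k) 0 s := hasDerivAt_const s _
    have a2 : HasDerivAt (fun x : ℝ => (1 / k - 1) / x) (-(1 / k - 1) / s ^ 2) s := by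
      have := (hasDerivAt_const s (1 / k - 1)).div did hs.ne'
      refine this.congr_deriv ?_
      field_simp
      ring
    have a3 : HasDerivAt (fun x : ℝ => c / k / (x + L)) (-(c / k / (s + L) ^ 2)) s := by
      have := (hasDerivAt_const s (c / k)).div dL hsL.ne'
      refine this.congr_deriv ?_
      field_simp
      ring
    have a4 : HasDerivAt (fun x : ℝ => 1 / (x * √x)) (-(3 / (2 * s ^ 2 * √s))) s := by
      have := (hasDerivAt_const s (1 : ℝ)).div (did.mul dsq) (mul_pos hs hq).ne'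
      refine this.congr_deriv ?_
      simp only [Pi.mul_apply]
      rw [mul_pow, Real.sq_sqrt hs.le]
      field_simp
      rw [Real.sq_sqrt hs.le]
      ring
    have a5 : HasDerivAt (fun x : ℝ => L / (x + L) ^ 2) (-(2 * L / (s + L) ^ 3)) s := by
      have := (hasDerivAt_const s L).div (dL.pow 2) (pow_pos hsL 2).ne'
      refine this.congr_deriv ?_
      simp only [Pi.pow_apply]
      field_simp
      ring
    have := ((a1.add a2).add a3).add ((a4.add a5).const_mul A)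
    refine this.congr_deriv ?_
    unfold ph2
    ring

theorem continuousOn_ph2 {L : ℝ} (k c A : ℝ) (hL : 0 < L) :
    ContinuousOn (ph2 L k c A) (Ioi 0) := by
  intro s hs
  have hs : 0 < s := hs
  have hq : 0 < √s := Real.sqrt_pos.2 hs
  have hsL : 0 < s + L := by linarith
  refine ContinuousAt.continuousWithinAt ?_
  unfold ph2
  have h1 : s ^ 2 ≠ 0 := by positivity
  have h2 : (s + L) ^ 2 ≠ 0 := by positivity
  have h3 : (s + L) ^ 3 ≠ 0 := by positivity
  have h4 : 2 * s ^ 2 * √s ≠ 0 := by positivity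
  fun_prop (disch := assumption)

theorem fb_pos (L k c A s : ℝ) : 0 < fb L k c A s := Real.exp_pos _

theorem inv_k_bound {k : ℝ} (hk : k ∈ Icc (4 / 5 : ℝ) (6 / 5)) :
    5 / 6 ≤ 1 / k ∧ 1 / k ≤ 5 / 4 := by
  obtain ⟨h1, h2⟩ := hk
  have hk0 : 0 < k := by linarith
  constructor
  · rw [le_div_iff₀ hk0]; linarith
  · rw [div_le_iff₀ hk0]; linarith

theorem c_k_bound {k c : ℝ} (hk : k ∈ Icc (4 / 5 : ℝ) (6 / 5))
    (hc : c ∈ Icc (9 / 10 : ℝ) 1) : 0 ≤ c / k ∧ c / k ≤ 5 / 4 := by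
  obtain ⟨h1, h2⟩ := hk
  obtain ⟨h3, h4⟩ := hc
  have hk0 : 0 < k := by linarith
  constructor
  · exact div_nonneg (by linarith) hk0.le
  · rw [div_le_iff₀ hk0]; linarith

theorem ph1_bound {L k c s : ℝ} (hL : 0 < L) (hk : k ∈ Icc (4 / 5 : ℝ) (6 / 5))
    (hc : c ∈ Icc (9 / 10 : ℝ) 1) (hs : 0 < s) :
    |ph1 L k c 0 s + k| ≤ 2 / s ∧ |ph2 L k c 0 s| ≤ 2 / s ^ 2 := by
  obtain ⟨h1, h2⟩ := inv_k_bound hk
  obtain ⟨h3, h4⟩ := c_k_bound hk hc
  have hsL : 0 < s + L := by linarith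
  have i1 : (s + L)⁻¹ ≤ s⁻¹ := inv_anti₀ hs (by linarith)
  have i2 : ((s + L) ^ 2)⁻¹ ≤ (s ^ 2)⁻¹ :=
    inv_anti₀ (by positivity) (pow_le_pow_left₀ hs.le (by linarith) 2)
  have p1 : 0 < (s + L)⁻¹ := by positivity
  have p2 : 0 < ((s + L) ^ 2)⁻¹ := by positivity
  have p3 : 0 < s⁻¹ := by positivity
  have p4 : 0 < (s ^ 2)⁻¹ := by positivity
  unfold ph1 ph2
  generalize 1 / k = u at *
  generalize c / k = v at *
  simp only [div_eq_mul_inv, zero_mul, add_zero, sub_zero]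
  generalize (s + L)⁻¹ = a at *
  generalize ((s + L) ^ 2)⁻¹ = b at *
  generalize s⁻¹ = a' at *
  generalize (s ^ 2)⁻¹ = b' at *
  constructor
  · rw [abs_le]
    constructor <;> nlinarith [mul_nonneg h3 p1.le, mul_le_mul h4 i1 p1.le (by norm_num : (0:ℝ) ≤ 5 / 4)]
  · rw [abs_le]
    constructor <;> nlinarith [mul_nonneg h3 p2.le, mul_le_mul h4 i2 p2.le (by norm_num : (0:ℝ) ≤ 5 / 4)]

/-- `fb` is decreasing, with two-sided exponential rates. -/
theorem fb_rate {L k c s t : ℝ} (hL : 0 < L) (hk : k ∈ Icc (4 / 5 : ℝ) (6 / 5))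
    (hc : c ∈ Icc (9 / 10 : ℝ) 1) (hs : 5 ≤ s) (hst : s ≤ t) :
    fb L k c 0 t ≤ Real.exp (-(2 / 5) * (t - s)) * fb L k c 0 s ∧
      fb L k c 0 s ≤ Real.exp (2 * (t - s)) * fb L k c 0 t := by
  have hd : ∀ x ∈ Ici (5 : ℝ), HasDerivAt (ph L k c 0) (ph1 L k c 0 x) x := fun x hx =>
    (hasDerivAt_ph k c 0 hL (by have : (5 : ℝ) ≤ x := hx; linarith)).1
  have hb : ∀ x ∈ Ici (5 : ℝ), -2 ≤ ph1 L k c 0 x ∧ ph1 L k c 0 x ≤ -(2 / 5) := by
    intro x hx
    have hx : (5 : ℝ) ≤ x := hx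
    have h := (ph1_bound hL hk hc (by linarith : 0 < x)).1
    have h2 : 2 / x ≤ 2 / 5 := div_le_div_of_nonneg_left (by norm_num) (by norm_num) hx
    rw [abs_le] at h
    constructor <;> linarith [hk.1, hk.2, h.1, h.2]
  have hcont : ContinuousOn (ph L k c 0) (Ici 5) := fun x hx =>
    (hd x hx).continuousAt.continuousWithinAt
  have hdiff : DifferentiableOn ℝ (ph L k c 0) (interior (Ici 5)) := fun x hx =>
    (hd x (interior_subset hx)).differentiableAt.differentiableWithinAt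
  have u1 := (convex_Ici (5 : ℝ)).image_sub_le_mul_sub_of_deriv_le hcont hdiff (C := -(2 / 5))
    (fun x hx => by
      rw [(hd x (interior_subset hx)).deriv]; exact (hb x (interior_subset hx)).2)
    s hs t (le_trans hs hst) hst
  have u2 := (convex_Ici (5 : ℝ)).mul_sub_le_image_sub_of_le_deriv hcont hdiff (C := -2)
    (fun x hx => by
      rw [(hd x (interior_subset hx)).deriv]; exact (hb x (interior_subset hx)).1)
    s hs t (le_trans hs hst) hst
  unfold fb
  rw [← Real.exp_add, ← Real.exp_add, Real.exp_le_exp, Real.exp_le_exp]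
  constructor <;> linarith

theorem log_facts {L s : ℝ} (hL : 1 ≤ L) (hs : 1 ≤ s) :
    0 ≤ Real.log s ∧ Real.log s ≤ Real.log (1 + s) ∧ 0 ≤ Real.log (1 + s / L) ∧
      Real.log (1 + s / L) ≤ Real.log (1 + s) := by
  have h0 : 0 ≤ s / L := by positivity
  have h1 : s / L ≤ s := div_le_self (by linarith) hL
  exact ⟨Real.log_nonneg hs, Real.log_le_log (by linarith) (by linarith),
    Real.log_nonneg (by linarith), Real.log_le_log (by linarith) (by linarith)⟩

/-- Dependence on the parameters. -/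
theorem fb_param {L k k' c c' s : ℝ} (hL : 1 ≤ L) (hk : k ∈ Icc (4 / 5 : ℝ) (6 / 5))
    (hk' : k' ∈ Icc (4 / 5 : ℝ) (6 / 5)) (hc : c ∈ Icc (9 / 10 : ℝ) 1)
    (hc' : c' ∈ Icc (9 / 10 : ℝ) 1) (hs : 1 ≤ s) :
    fb L k c 0 s ≤ Real.exp ((k' - k) * s + (4 * |k - k'| + 2 * |c - c'|) * Real.log (1 + s)) *
      fb L k' c' 0 s := by
  obtain ⟨l1, l2, l3, l4⟩ := log_facts hL hs
  obtain ⟨h1, h2⟩ := inv_k_bound hk
  obtain ⟨h1', h2'⟩ := inv_k_bound hk'
  have hk0 : 0 < k := by linarith [hk.1]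
  have hk0' : 0 < k' := by linarith [hk'.1]
  have e1 : 1 / k - 1 / k' = (k' - k) * ((1 / k) * (1 / k')) := by field_simp
  have b0 : (1 / k) * (1 / k') ≤ 2 := by nlinarith
  have b0' : 0 ≤ (1 / k) * (1 / k') := by positivity
  have b1 : 1 / k - 1 / k' ≤ 2 * |k - k'| := by
    rw [e1]
    have : k' - k ≤ |k - k'| := by rw [abs_sub_comm]; exact le_abs_self _
    nlinarith [abs_nonneg (k - k')]
  have e2 : c / k - c' / k' = (c - c') * (1 / k) + c' * (1 / k - 1 / k') := by ring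
  have b2 : c / k - c' / k' ≤ 2 * |k - k'| + 2 * |c - c'| := by
    rw [e2]
    have t1 : (c - c') * (1 / k) ≤ 2 * |c - c'| := by
      nlinarith [le_abs_self (c - c'), abs_nonneg (c - c')]
    have t2 : c' * (1 / k - 1 / k') ≤ 2 * |k - k'| := by
      nlinarith [hc'.1, hc'.2, abs_nonneg (k - k')]
    linarith
  have a1 := abs_nonneg (k - k')
  have a2 := abs_nonneg (c - c')
  have s1 : (1 / k - 1 / k') * Real.log s ≤ 2 * |k - k'| * Real.log (1 + s) :=
    (mul_le_mul_of_nonneg_right b1 l1).trans (mul_le_mul_of_nonneg_left l2 (by positivity))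
  have s2 : (c / k - c' / k') * Real.log (1 + s / L) ≤
      (2 * |k - k'| + 2 * |c - c'|) * Real.log (1 + s) :=
    (mul_le_mul_of_nonneg_right b2 l3).trans (mul_le_mul_of_nonneg_left l4 (by positivity))
  unfold fb ph
  rw [← Real.exp_add, Real.exp_le_exp]
  nlinarith

/-- Crude two-sided bounds. -/
theorem fb_crude {L k c s : ℝ} (hL : 1 ≤ L) (hk : k ∈ Icc (4 / 5 : ℝ) (6 / 5))
    (hc : c ∈ Icc (9 / 10 : ℝ) 1) (hs : 1 ≤ s) :
    Real.exp (-k * s) ≤ s * fb L k c 0 s ∧ fb L k c 0 s ≤ (1 + s) ^ 2 * Real.exp (-k * s) := by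
  obtain ⟨l1, l2, l3, l4⟩ := log_facts hL hs
  obtain ⟨h1, h2⟩ := inv_k_bound hk
  obtain ⟨h3, h4⟩ := c_k_bound hk hc
  unfold fb ph
  constructor
  · have e : s = Real.exp (Real.log s) := (Real.exp_log (by linarith)).symm
    conv_rhs => rw [e, ← Real.exp_add, ← e]
    rw [Real.exp_le_exp]
    nlinarith [mul_nonneg h3 l3]
  · have e : (1 + s) ^ 2 = Real.exp (2 * Real.log (1 + s)) := by
      rw [two_mul, Real.exp_add, Real.exp_log (by linarith), sq]
    rw [e, ← Real.exp_add, Real.exp_le_exp]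
    nlinarith [mul_le_mul h4 l4 l3 (by norm_num : (0:ℝ) ≤ 5 / 4)]

theorem C2_fb {L : ℝ} (k c A : ℝ) (hL : 0 < L) (p : E3) :
    C2 {p}ᶜ (fun x => fb L k c A ‖x - p‖)
      (fun x => (fb L k c A ‖x - p‖ * ph1 L k c A ‖x - p‖ / ‖x - p‖) • (x - p))
      (fun x => fb L k c A ‖x - p‖ * (ph2 L k c A ‖x - p‖ + ph1 L k c A ‖x - p‖ ^ 2 +
        2 * ph1 L k c A ‖x - p‖ / ‖x - p‖)) := by
  have h := (C2.radial (a := 0) le_rfl p (fun s hs => hasDerivAt_ph k c A hL hs)
    (continuousOn_ph2 k c A hL)).exp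
  have e : {x : E3 | 0 < ‖x - p‖} = {p}ᶜ := by
    ext x
    simp [sub_eq_zero]
  rw [e] at h
  refine h.congr (fun x _ => rfl) (fun x _ => ?_) (fun x hx => ?_)
  · rw [smul_smul, mul_div_assoc]
    rfl
  · have hx : 0 < ‖x - p‖ := by
      rw [← e] at hx; exact hx
    rw [norm_smul, mul_pow, Real.norm_eq_abs, sq_abs, div_pow, div_mul_cancel₀ _ (by positivity)]
    unfold fb
    ring

/-- Exponentially decaying radial functions are square integrable. -/
theorem memLp_exp_decay {f : E3 → ℝ} {A : Set E3} {a M : ℝ} (n : ℕ) (ha : 0 < a)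
    (hf : AEStronglyMeasurable f (volume.restrict A)) (hA : MeasurableSet A)
    (h : ∀ᵐ x : E3, x ∈ A → |f x| ≤ M * (1 + ‖x‖) ^ n * Real.exp (-a * ‖x‖)) :
    MemLp f 2 (volume.restrict A) := by
  set C : ℝ := |M| * Real.exp a * ((n + 2).factorial / a ^ (n + 2)) with hC
  have key : ∀ r : ℝ, 0 ≤ r → M * (1 + r) ^ n * Real.exp (-a * r) ≤ C * ((1 + r) ^ 2)⁻¹ := by
    intro r hr
    have h1 : (a * (1 + r)) ^ (n + 2) / (n + 2).factorial ≤ Real.exp (a * (1 + r)) :=
      Real.pow_div_factorial_le_exp _ (by positivity) _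
    have hf0 : (0 : ℝ) < (n + 2).factorial := by positivity
    have h2 : (1 + r) ^ (n + 2) ≤ (n + 2).factorial / a ^ (n + 2) * Real.exp (a * (1 + r)) := by
      rw [div_le_iff₀ hf0, mul_pow] at h1
      rw [div_mul_eq_mul_div, le_div_iff₀ (by positivity)]
      linarith
    have h3 : Real.exp (a * (1 + r)) * Real.exp (-a * r) = Real.exp a := by
      rw [← Real.exp_add]; congr 1; ring
    rw [← div_eq_mul_inv, le_div_iff₀ (by positivity)]
    calc M * (1 + r) ^ n * Real.exp (-a * r) * (1 + r) ^ 2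
        = M * ((1 + r) ^ (n + 2) * Real.exp (-a * r)) := by ring
      _ ≤ |M| * ((1 + r) ^ (n + 2) * Real.exp (-a * r)) :=
          mul_le_mul_of_nonneg_right (le_abs_self M) (by positivity)
      _ ≤ |M| * (((n + 2).factorial / a ^ (n + 2) * Real.exp (a * (1 + r))) *
            Real.exp (-a * r)) := by gcongr
      _ = C := by rw [hC, mul_assoc _ (Real.exp _) (Real.exp _), h3]; ring
  have hint : Integrable (fun x : E3 => (1 + ‖x‖) ^ (-(4 : ℝ))) volume :=
    integrable_one_add_norm (by simp; norm_num)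
  have hg : MemLp (fun x : E3 => C * ((1 + ‖x‖) ^ 2)⁻¹) 2 volume := by
    refine MemLp.const_mul ?_ C
    have hm : AEStronglyMeasurable (fun x : E3 => ((1 + ‖x‖) ^ 2)⁻¹) volume := by
      refine Continuous.aestronglyMeasurable ?_
      exact Continuous.inv₀ (by fun_prop) (fun x => by positivity)
    rw [memLp_two_iff_integrable_sq hm]
    refine hint.congr (Eventually.of_forall fun x => ?_)
    have : (0 : ℝ) ≤ 1 + ‖x‖ := by positivity
    simp only
    rw [Real.rpow_neg this, show (4 : ℝ) = ((4 : ℕ) : ℝ) by norm_num, Real.rpow_natCast, inv_pow,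
      ← pow_mul]
  refine (hg.restrict A).mono' hf ?_
  rw [ae_restrict_iff' hA]
  filter_upwards [h] with x hx hxA
  exact (hx hxA).trans (key _ (norm_nonneg x))

theorem Ye_pos (L k A : ℝ) (x : E3) : 0 < Ye L k A x :=
  add_pos (fb_pos _ _ _ _ _) (fb_pos _ _ _ _ _)

theorem Ye_sg (L k A : ℝ) (x : E3) : Ye L k A (sg x) = Ye L k A x := by
  unfold Ye
  rw [rA_sg, rB_sg, add_comm]

theorem Ye_param {L k k' ρ : ℝ} (hL : 1 ≤ L) (hk : k ∈ Icc (4 / 5 : ℝ) (6 / 5))
    (hk' : k' ∈ Icc (4 / 5 : ℝ) (6 / 5)) {x : E3} (h1 : x ∈ Ext2 L 1) (h2 : ‖x‖ ≤ ρ) :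
    Ye L k 0 x ≤ Real.exp (5 * |k - k'| * (ρ + L)) * Ye L k' 0 x := by
  have hc : (1 : ℝ) ∈ Icc (9 / 10 : ℝ) 1 := ⟨by norm_num, le_rfl⟩
  have key : ∀ s : ℝ, 1 ≤ s → s ≤ ρ + L →
      fb L k 1 0 s ≤ Real.exp (5 * |k - k'| * (ρ + L)) * fb L k' 1 0 s := by
    intro s hs hs'
    refine (fb_param hL hk hk' hc hc hs).trans
      (mul_le_mul_of_nonneg_right (Real.exp_le_exp.2 ?_) (fb_pos _ _ _ _ _).le)
    have l1 : Real.log (1 + s) ≤ s := by
      have := Real.log_le_sub_one_of_pos (by linarith : 0 < 1 + s)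
      linarith
    have a1 := abs_nonneg (k - k')
    have a2 : k' - k ≤ |k - k'| := by rw [abs_sub_comm]; exact le_abs_self _
    rw [sub_self, abs_zero, mul_zero, add_zero]
    have t1 : (k' - k) * s ≤ |k - k'| * s := mul_le_mul_of_nonneg_right a2 (by linarith)
    have t2 : 4 * |k - k'| * Real.log (1 + s) ≤ 4 * |k - k'| * s :=
      mul_le_mul_of_nonneg_left l1 (by positivity)
    have t3 : 5 * |k - k'| * s ≤ 5 * |k - k'| * (ρ + L) :=
      mul_le_mul_of_nonneg_left hs' (by positivity)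
    linarith
  obtain ⟨b1, b2⟩ := abs_rA_sub (by linarith : 0 ≤ L) x
  rw [abs_le] at b1 b2
  unfold Ye
  rw [mul_add]
  exact add_le_add (key _ h1.1.le (by linarith [b1.2])) (key _ h1.2.le (by linarith [b2.2]))

theorem Ye_crude {L k : ℝ} (hL : 1 ≤ L) (hk : k ∈ Icc (4 / 5 : ℝ) (6 / 5)) {x : E3}
    (h1 : x ∈ Ext2 L 1) :
    Ye L k 0 x ≤ 2 * (1 + L) ^ 2 * Real.exp (k * L) * (1 + ‖x‖) ^ 2 * Real.exp (-k * ‖x‖) ∧
    Real.exp (-k * ‖x‖) ≤ (‖x‖ + L) * Real.exp (k * L) * Ye L k 0 x := by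
  have hc : (1 : ℝ) ∈ Icc (9 / 10 : ℝ) 1 := ⟨by norm_num, le_rfl⟩
  have hk0 : 0 < k := by linarith [hk.1]
  have hx := norm_nonneg x
  have key : ∀ s : ℝ, 1 ≤ s → |s - ‖x‖| ≤ L →
      fb L k 1 0 s ≤ (1 + L) ^ 2 * Real.exp (k * L) * (1 + ‖x‖) ^ 2 * Real.exp (-k * ‖x‖) := by
    intro s hs hs'
    rw [abs_le] at hs'
    refine (fb_crude hL hk hc hs).2.trans ?_
    have t1 : (1 + s) ^ 2 ≤ ((1 + L) * (1 + ‖x‖)) ^ 2 :=
      pow_le_pow_left₀ (by linarith) (by nlinarith [hs'.2]) 2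
    have t2 : Real.exp (-k * s) ≤ Real.exp (k * L) * Real.exp (-k * ‖x‖) := by
      rw [← Real.exp_add, Real.exp_le_exp]
      nlinarith [hs'.1]
    calc (1 + s) ^ 2 * Real.exp (-k * s)
        ≤ ((1 + L) * (1 + ‖x‖)) ^ 2 * (Real.exp (k * L) * Real.exp (-k * ‖x‖)) := by gcongr
      _ = _ := by ring
  obtain ⟨b1, b2⟩ := abs_rA_sub (by linarith : 0 ≤ L) x
  constructor
  · unfold Ye
    linarith [key _ h1.1.le b1, key _ h1.2.le b2]
  · rw [abs_le] at b1
    have t1 := (fb_crude hL hk hc h1.1.le).1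
    have t2 : Real.exp (-k * ‖x‖) ≤ Real.exp (k * L) * Real.exp (-k * rA L x) := by
      rw [← Real.exp_add, Real.exp_le_exp]
      nlinarith [b1.2]
    have t3 : fb L k 1 0 (rA L x) ≤ Ye L k 0 x := by
      unfold Ye
      linarith [fb_pos L k 1 0 (rB L x)]
    have t4 : rA L x * fb L k 1 0 (rA L x) ≤ (‖x‖ + L) * Ye L k 0 x :=
      mul_le_mul (by linarith [b1.2]) t3 (fb_pos _ _ _ _ _).le (by linarith)
    calc Real.exp (-k * ‖x‖) ≤ Real.exp (k * L) * ((‖x‖ + L) * Ye L k 0 x) :=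
          t2.trans (mul_le_mul_of_nonneg_left (t1.trans t4) (Real.exp_pos _).le)
      _ = _ := by ring

end

end Vale.Agent.P363
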