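import Mathlib

/-! P363, block C: the double integral form of the Poincare inequality on a product of
intervals. -/

open MeasureTheory Set Filter Function
open scoped ENNReal

namespace Vale.Agent.P363.CPoinAux

noncomputable section

abbrev X3 := Fin 3 → ℝ

/-- Exchange the `k`-th coordinates of two points. -/
def sw (k : Fin 3) (p : X3 × X3) : X3 × X3 :=
  (update p.1 k (p.2 k), update p.2 k (p.1 k))

theorem sw_mp (μ : Fin 3 → Measure ℝ) [∀ i, SigmaFinite (μ i)] (k : Fin 3) :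
    MeasurePreserving (sw k) ((Measure.pi μ).prod (Measure.pi μ))
      ((Measure.pi μ).prod (Measure.pi μ)) := by
  have h1 := measurePreserving_arrowProdEquivProdArrow ℝ ℝ (Fin 3) μ μ
  have h2 : MeasurePreserving
      (fun (z : Fin 3 → ℝ × ℝ) i => (if i = k then Prod.swap else id : ℝ × ℝ → ℝ × ℝ) (z i))
      (Measure.pi fun i => (μ i).prod (μ i)) (Measure.pi fun i => (μ i).prod (μ i)) := by
    refine measurePreserving_pi _ _ fun i => ?_
    split_ifs
    · exact Measure.measurePreserving_swap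
    · exact MeasurePreserving.id _
  have h3 := (h1.comp h2).comp (h1.symm _)
  convert h3 using 1
  funext p
  ext i
  · by_cases hi : i = k
    · subst hi
      simp [sw, MeasurableEquiv.arrowProdEquivProdArrow, Equiv.arrowProdEquivProdArrow]
    · simp [sw, hi, MeasurableEquiv.arrowProdEquivProdArrow, Equiv.arrowProdEquivProdArrow]
  · by_cases hi : i = k
    · subst hi
      simp [sw, MeasurableEquiv.arrowProdEquivProdArrow, Equiv.arrowProdEquivProdArrow]
    · simp [sw, hi, MeasurableEquiv.arrowProdEquivProdArrow, Equiv.arrowProdEquivProdArrow]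

theorem meas_upd (k : Fin 3) : Measurable fun p : X3 × X3 => update p.1 k (p.2 k) := by
  fun_prop

theorem resample (μ : Fin 3 → Measure ℝ) [∀ i, SigmaFinite (μ i)] (k : Fin 3)
    {h : X3 → ℝ≥0∞} (hh : Measurable h) :
    ∫⁻ x, ∫⁻ y, h (update x k (y k)) ∂Measure.pi μ ∂Measure.pi μ =
      Measure.pi μ univ * ∫⁻ x, h x ∂Measure.pi μ := by
  have h1 := (sw_mp μ k).lintegral_comp (f := fun p => h p.1) (hh.comp measurable_fst)
  have m1 : Measurable fun p : X3 × X3 => h (sw k p).1 := hh.comp (meas_upd k)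
  have m2 : Measurable fun p : X3 × X3 => h p.1 := hh.comp measurable_fst
  rw [lintegral_prod _ m1.aemeasurable, lintegral_prod _ m2.aemeasurable] at h1
  simp only [lintegral_const, sw] at h1
  rw [lintegral_mul_const _ hh] at h1
  rw [mul_comm]
  exact h1

theorem cs1 {h : ℝ → ℝ} (hh : Measurable h) {a b s t : ℝ} (hs : s ∈ Ioo a b) (ht : t ∈ Ioo a b) :
    ENNReal.ofReal ((∫ u in s..t, h u) ^ 2) ≤
      volume.restrict (Ioo a b) univ * ∫⁻ u in Ioo a b, ENNReal.ofReal (h u ^ 2) := by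
  have e1 : ∀ x : ℝ, ENNReal.ofReal (x ^ 2) = ‖x‖ₑ ^ (2 : ℝ) := by
    intro x
    rw [Real.enorm_eq_ofReal_abs, ENNReal.ofReal_rpow_of_nonneg (abs_nonneg _) (by norm_num),
      Real.rpow_two, sq_abs]
  simp only [e1]
  have hsub : uIoc s t ⊆ Ioo a b := by
    intro u hu
    rcases le_total s t with hst | hst
    · rw [uIoc_of_le hst] at hu
      exact ⟨hs.1.trans hu.1, hu.2.trans_lt ht.2⟩
    · rw [uIoc_of_ge hst] at hu
      exact ⟨ht.1.trans hu.1, hu.2.trans_lt hs.2⟩
  have a1 : ‖∫ u in s..t, h u‖ₑ ≤ ∫⁻ u in Ioo a b, ‖h u‖ₑ := by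
    have b1 : ‖∫ u in s..t, h u‖ₑ = ‖∫ u in uIoc s t, h u‖ₑ := by
      rw [← ofReal_norm, ← ofReal_norm, intervalIntegral.norm_intervalIntegral_eq]
    rw [b1]
    exact (enorm_integral_le_lintegral_enorm _).trans (lintegral_mono_set hsub)
  have a2 := ENNReal.lintegral_mul_le_Lp_mul_Lq (volume.restrict (Ioo a b))
    Real.HolderConjugate.two_two (f := fun _ => 1) (g := fun u => ‖h u‖ₑ) aemeasurable_const
    hh.enorm.aemeasurable
  simp only [Pi.mul_apply, one_mul, ENNReal.one_rpow, lintegral_const] at a2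
  have a3 := ENNReal.rpow_le_rpow (a1.trans a2) (z := 2) (by norm_num)
  rw [ENNReal.mul_rpow_of_nonneg _ _ (by norm_num), ← ENNReal.rpow_mul, ← ENNReal.rpow_mul] at a3
  norm_num at a3 ⊢
  exact a3

/-- The product measure on a box. -/
def mu (a b : Fin 3 → ℝ) (i : Fin 3) : Measure ℝ := volume.restrict (Ioo (a i) (b i))

instance (a b : Fin 3 → ℝ) (i : Fin 3) : IsFiniteMeasure (mu a b i) := by
  unfold mu
  infer_instance

theorem mu_univ (a b : Fin 3 → ℝ) (i : Fin 3) : mu a b i univ = ENNReal.ofReal (b i - a i) := by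
  simp [mu]

theorem onedir {a b : Fin 3 → ℝ} (hab : ∀ i, a i < b i) (k : Fin 3) {F G : X3 → ℝ}
    (hF : Measurable F) (hG : Measurable G)
    (h : ∀ᵐ x ∂Measure.pi (mu a b), ∀ᵐ s ∂mu a b k, ∀ᵐ t ∂mu a b k,
      F (update x k s) - F (update x k t) = ∫ u in t..s, G (update x k u)) :
    ∫⁻ p, ENNReal.ofReal ((F p.1 - F (sw k p).1) ^ 2)
        ∂(Measure.pi (mu a b)).prod (Measure.pi (mu a b)) ≤
      Measure.pi (mu a b) univ * (mu a b k univ ^ 2 *
        ∫⁻ x, ENNReal.ofReal (G x ^ 2) ∂Measure.pi (mu a b)) := by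
  set ν := Measure.pi (mu a b) with hν
  set M := ν univ with hM
  set L := mu a b k univ with hL
  set c := ∏ j ∈ Finset.univ.erase k, mu a b j univ with hc
  have hMc : M = c * L := by
    rw [hM, hν, Measure.pi_univ, hc, hL, Finset.prod_erase_mul _ _ (Finset.mem_univ k)]
  have hM0 : M ≠ 0 := by
    rw [hM, hν, Measure.pi_univ]
    refine Finset.prod_ne_zero_iff.2 fun i _ => ?_
    rw [mu_univ]
    simpa using hab i
  have hMt : M ≠ ⊤ := measure_ne_top _ _
  have m1 : Measurable fun p : X3 × X3 => ENNReal.ofReal ((F p.1 - F (update p.1 k (p.2 k))) ^ 2) :=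
    (((hF.comp measurable_fst).sub (hF.comp (meas_upd k))).pow_const 2).ennreal_ofReal
  have m2 : Measurable fun x : X3 => ENNReal.ofReal (G x ^ 2) := (hG.pow_const 2).ennreal_ofReal
  set H : X3 → ℝ≥0∞ := fun x => ∫⁻ y, ENNReal.ofReal ((F x - F (update x k (y k))) ^ 2) ∂ν
    with hH
  have mH : Measurable H := m1.lintegral_prod_right'
  have e1 : ∫⁻ p, ENNReal.ofReal ((F p.1 - F (sw k p).1) ^ 2) ∂ν.prod ν = ∫⁻ x, H x ∂ν :=
    lintegral_prod _ m1.aemeasurable
  rw [e1]
  have e2 := resample (mu a b) k mH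
  have e3 := resample (mu a b) k m2
  rw [← hν, ← hM] at e2 e3
  have e4 : ∀ x : X3, ∫⁻ y, ENNReal.ofReal (G (update x k (y k)) ^ 2) ∂ν =
      c * ∫⁻ u, ENNReal.ofReal (G (update x k u) ^ 2) ∂mu a b k := by
    intro x
    have m3 : Measurable fun u : ℝ => ENNReal.ofReal (G (update x k u) ^ 2) :=
      m2.comp (measurable_update x)
    have := lintegral_map (μ := ν) m3 (measurable_pi_apply k)
    rw [← this]
    have e5 : ν.map (fun y => y k) = c • mu a b k := Measure.pi_map_eval _ k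
    rw [e5, lintegral_smul_measure, smul_eq_mul]
  have q := Measure.quasiMeasurePreserving_eval (mu a b) k
  have hmem : ∀ᵐ s ∂mu a b k, s ∈ Ioo (a k) (b k) := ae_restrict_mem measurableSet_Ioo
  have key : M * ∫⁻ x, H x ∂ν ≤ M * (M * (L ^ 2 * ∫⁻ x, ENNReal.ofReal (G x ^ 2) ∂ν)) := by
    rw [← e2]
    calc ∫⁻ x, ∫⁻ y, H (update x k (y k)) ∂ν ∂ν
        ≤ ∫⁻ x, (M * L ^ 2) * ∫⁻ y, ENNReal.ofReal (G (update x k (y k)) ^ 2) ∂ν ∂ν := by
          refine lintegral_mono_ae ?_
          filter_upwards [h] with x hx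
          rw [e4]
          set J := ∫⁻ u, ENNReal.ofReal (G (update x k u) ^ 2) ∂mu a b k with hJ
          have b1 : ∀ᵐ y ∂ν, H (update x k (y k)) ≤ L * J * M := by
            filter_upwards [q.ae (hx.and hmem)] with y hy
            have b2 : ∀ᵐ y' ∂ν, ENNReal.ofReal ((F (update x k (y k)) -
                F (update (update x k (y k)) k (y' k))) ^ 2) ≤ L * J := by
              filter_upwards [q.ae (hy.1.and hmem)] with y' hy'
              rw [update_idem]
              have b3 : F (update x k (y k)) - F (update x k (y' k)) =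
                ∫ u in (y' k)..(y k), G (update x k u) := hy'.1
              rw [b3]
              exact cs1 (hG.comp (measurable_update x)) hy'.2 hy.2
            refine (lintegral_mono_ae b2).trans ?_
            rw [lintegral_const]
          refine (lintegral_mono_ae b1).trans ?_
          rw [lintegral_const, ← hM]
          refine le_of_eq ?_
          nth_rewrite 2 [hMc]
          ring
      _ = (M * L ^ 2) * (M * ∫⁻ x, ENNReal.ofReal (G x ^ 2) ∂ν) := by
          have m4 : Measurable fun p : X3 × X3 =>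
            ENNReal.ofReal (G (update p.1 k (p.2 k)) ^ 2) := m2.comp (meas_upd k)
          have m5 : Measurable fun x : X3 =>
            ∫⁻ y, ENNReal.ofReal (G (update x k (y k)) ^ 2) ∂ν := m4.lintegral_prod_right'
          rw [lintegral_const_mul _ m5, e3]
      _ = _ := by ring
  exact (ENNReal.mul_le_mul_iff_right hM0 hMt).1 key

theorem tele {a b : Fin 3 → ℝ} {s : ℝ} (hab : ∀ i, a i < b i ∧ b i - a i ≤ s) {F : X3 → ℝ}
    {G : Fin 3 → X3 → ℝ} (hF : Measurable F) (hG : ∀ k, Measurable (G k))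
    (h : ∀ k, ∀ᵐ x ∂Measure.pi (mu a b), ∀ᵐ s ∂mu a b k, ∀ᵐ t ∂mu a b k,
      F (update x k s) - F (update x k t) = ∫ u in t..s, G k (update x k u)) :
    ∫⁻ p, ENNReal.ofReal ((F p.1 - F p.2) ^ 2)
        ∂(Measure.pi (mu a b)).prod (Measure.pi (mu a b)) ≤
      3 * (Measure.pi (mu a b) univ * (ENNReal.ofReal s ^ 2 *
        ∫⁻ x, ENNReal.ofReal (∑ k, G k x ^ 2) ∂Measure.pi (mu a b))) := by
  set ν := Measure.pi (mu a b) with hν
  set D : Fin 3 → X3 × X3 → ℝ≥0∞ := fun k p => ENNReal.ofReal ((F p.1 - F (sw k p).1) ^ 2)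
    with hD
  have mD : ∀ k, Measurable (D k) := fun k =>
    (((hF.comp measurable_fst).sub (hF.comp (meas_upd k))).pow_const 2).ennreal_ofReal
  have mG : ∀ k, Measurable fun x : X3 => ENNReal.ofReal (G k x ^ 2) := fun k =>
    ((hG k).pow_const 2).ennreal_ofReal
  have hb : ∀ k, ∫⁻ p, D k p ∂ν.prod ν ≤
      ν univ * (ENNReal.ofReal s ^ 2 * ∫⁻ x, ENNReal.ofReal (G k x ^ 2) ∂ν) := by
    intro k
    refine (onedir (fun i => (hab i).1) k hF (hG k) (h k)).trans ?_
    rw [mu_univ]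
    gcongr
    exact (hab k).2
  have p0 := sw_mp (mu a b) 0
  have p1 := (sw_mp (mu a b) 1).comp p0
  have pt : ∀ p : X3 × X3, ENNReal.ofReal ((F p.1 - F p.2) ^ 2) ≤
      3 * (D 0 p + D 1 (sw 0 p) + D 2 ((sw 1 ∘ sw 0) p)) := by
    intro p
    have e1 : (sw 2 (sw 1 (sw 0 p))).1 = p.2 := by
      funext i
      fin_cases i <;> simp [sw]
    simp only [hD, comp_apply, e1]
    rw [← ENNReal.ofReal_add (sq_nonneg _) (sq_nonneg _),
      ← ENNReal.ofReal_add (by positivity) (sq_nonneg _),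
      show (3 : ℝ≥0∞) = ENNReal.ofReal 3 by simp, ← ENNReal.ofReal_mul (by norm_num)]
    refine ENNReal.ofReal_le_ofReal ?_
    generalize F p.1 = u0
    generalize F p.2 = u3
    generalize F (sw 0 p).1 = u1
    generalize F (sw 1 (sw 0 p)).1 = u2
    nlinarith [sq_nonneg ((u0 - u1) - (u1 - u2)), sq_nonneg ((u0 - u1) - (u2 - u3)),
      sq_nonneg ((u1 - u2) - (u2 - u3))]
  refine (lintegral_mono pt).trans ?_
  have n0 := mD 0
  have n1 : Measurable fun p => D 1 (sw 0 p) := (mD 1).comp p0.measurable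
  have n2 : Measurable fun p => D 2 ((sw 1 ∘ sw 0) p) := (mD 2).comp p1.measurable
  have n3 : Measurable fun p => D 0 p + D 1 (sw 0 p) + D 2 ((sw 1 ∘ sw 0) p) :=
    (n0.add n1).add n2
  rw [lintegral_const_mul _ n3, lintegral_add_right _ n2,
    lintegral_add_right _ n1, p0.lintegral_comp (mD 1), p1.lintegral_comp (mD 2)]
  gcongr
  have e2 : ∫⁻ x, ENNReal.ofReal (∑ k, G k x ^ 2) ∂ν = ∫⁻ x, ENNReal.ofReal (G 0 x ^ 2) ∂ν +
      ∫⁻ x, ENNReal.ofReal (G 1 x ^ 2) ∂ν + ∫⁻ x, ENNReal.ofReal (G 2 x ^ 2) ∂ν := by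
    rw [← lintegral_add_right _ (mG 1), ← lintegral_add_right _ (mG 2)]
    refine lintegral_congr fun x => ?_
    rw [Fin.sum_univ_three, ENNReal.ofReal_add (by positivity) (sq_nonneg _),
      ENNReal.ofReal_add (sq_nonneg _) (sq_nonneg _)]
  rw [e2, mul_add, mul_add, mul_add, mul_add]
  exact add_le_add (add_le_add (hb 0) (hb 1)) (hb 2)

end

end Vale.Agent.P363.CPoinAux
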