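import Vale.Agent.P363.CLd1
import Vale.Agent.P363.CGidA
import Vale.Agent.P363.CPoinx1

/-! P363, block C: Poincare inequality on boxes. -/

open MeasureTheory Set Metric Filter Topology
open scoped RealInnerProductSpace

namespace Vale.Agent.P363

noncomputable section

theorem isOpen_Box (a b : Fin 3 → ℝ) : IsOpen (Box a b) := by
  have e1 : Box a b = ⋂ k, {x : E3 | a k < x k} ∩ {x : E3 | x k < b k} := by
    ext x
    simp [Box]
  rw [e1]
  refine isOpen_iInter_of_finite fun k => IsOpen.inter ?_ ?_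
  · exact isOpen_lt continuous_const (by fun_prop)
  · exact isOpen_lt (by fun_prop) continuous_const

namespace CPoinAux

theorem pre_Box (a b : Fin 3 → ℝ) :
    (WithLp.toLp 2 : X3 → E3) ⁻¹' Box a b = Set.pi univ fun i => Ioo (a i) (b i) := by
  ext x
  simp [Box]

theorem mp_Box (a b : Fin 3 → ℝ) : MeasurePreserving (WithLp.toLp 2 : X3 → E3)
    (Measure.pi (mu a b)) (volume.restrict (Box a b)) := by
  have h1 := (PiLp.volume_preserving_toLp (Fin 3)).restrict_preimage
    (isOpen_Box a b).measurableSet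
  rw [pre_Box, volume_pi, Measure.restrict_pi_pi] at h1
  exact h1

theorem line_eq (x : X3) (k : Fin 3) (s : ℝ) :
    (WithLp.toLp 2 x : E3) + (s - x k) • e k = WithLp.toLp 2 (Function.update x k s) := by
  ext i
  by_cases hi : i = k
  · subst hi
    simp [e]
  · simp [e, hi]

theorem pairs_box {a b : Fin 3 → ℝ} {f : E3 → ℝ} {g : E3 → E3} (hf : LD (Box a b) f g)
    (k : Fin 3) : ∀ᵐ x ∂Measure.pi (mu a b), ∀ᵐ s ∂mu a b k, ∀ᵐ t ∂mu a b k,
      f (WithLp.toLp 2 (Function.update x k s)) - f (WithLp.toLp 2 (Function.update x k t)) =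
        ∫ u in t..s, g (WithLp.toLp 2 (Function.update x k u)) k := by
  have h1 := (mp_Box a b).quasiMeasurePreserving.ae
    ((ae_restrict_of_ae (hf.pairs k)).and (ae_restrict_mem (isOpen_Box a b).measurableSet))
  filter_upwards [h1] with x hx
  obtain ⟨hx, hxB⟩ := hx
  have q := (measurePreserving_sub_right volume (x k)).quasiMeasurePreserving
  have hmem : ∀ᵐ s ∂mu a b k, s ∈ Ioo (a k) (b k) := ae_restrict_mem measurableSet_Ioo
  have h2 : ∀ᵐ s ∂mu a b k, _ := ae_restrict_of_ae (q.ae hx)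
  filter_upwards [h2, hmem] with s hs hsm
  have h3 : ∀ᵐ t ∂mu a b k, _ := ae_restrict_of_ae (q.ae hs)
  filter_upwards [h3, hmem] with t ht htm
  have h4 := (ht ?_).2
  · rw [line_eq, line_eq, ← intervalIntegral.integral_comp_sub_right
      (fun t => g ((WithLp.toLp 2 x : E3) + t • e k) k) (x k)] at h4
    simp only [line_eq] at h4
    rw [intervalIntegral.integral_symm, ← h4]
    ring
  · intro u hu
    have e1 : u = (u + x k) - x k := by ring
    rw [e1, line_eq]
    have hu' : u + x k ∈ Ioo (a k) (b k) := by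
      rcases mem_uIcc.1 hu with h | h
      · exact ⟨by linarith [hsm.1, h.1], by linarith [htm.2, h.2]⟩
      · exact ⟨by linarith [htm.1, h.1], by linarith [hsm.2, h.2]⟩
    intro i
    by_cases hi : i = k
    · subst hi
      simpa using hu'
    · simpa [hi] using hxB i

end CPoinAux

open CPoinAux

theorem volume_Box {a b : Fin 3 → ℝ} (h : ∀ k, a k < b k) :
    volume (Box a b) ≠ ⊤ ∧ volume.real (Box a b) = ∏ k, (b k - a k) := by
  have h1 := (PiLp.volume_preserving_toLp (Fin 3)).measure_preimage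
    (isOpen_Box a b).measurableSet.nullMeasurableSet
  rw [pre_Box] at h1
  rw [Measure.real, ← h1]
  refine ⟨?_, Real.volume_pi_Ioo_toReal fun k => (h k).le⟩
  rw [Real.volume_pi_Ioo]
  exact ENNReal.prod_ne_top fun _ _ => ENNReal.ofReal_ne_top

namespace CPoinAux

theorem box_meas {a b : Fin 3 → ℝ} {s : ℝ} (h : ∀ k, a k < b k ∧ b k - a k ≤ s)
    {f : E3 → ℝ} {g : E3 → E3} (hf : LD (Box a b) f g) (mf : Measurable f) (mg : Measurable g)
    (h1 : MemLp f 2 (volume.restrict (Box a b))) (h2 : MemLp g 2 (volume.restrict (Box a b))) :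
    ∫ x in Box a b, f x ^ 2 ≤ (∫ x in Box a b, f x) ^ 2 / ∏ k, (b k - a k) +
      2 * s ^ 2 * ∫ x in Box a b, ‖g x‖ ^ 2 := by
  have hv := volume_Box fun k => (h k).1
  have hs : 0 ≤ s := by linarith [(h 0).1, (h 0).2]
  set μ : Measure E3 := volume.restrict (Box a b) with hμ
  haveI : IsFiniteMeasure μ := isFiniteMeasure_restrict.2 hv.1
  have hV : μ.real univ = ∏ k, (b k - a k) := by
    rw [← hv.2, hμ, Measure.real, Measure.real, Measure.restrict_apply_univ]
  have hVpos : 0 < ∏ k, (b k - a k) := Finset.prod_pos fun k _ => sub_pos.2 (h k).1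
  have mp := mp_Box a b
  rw [← hμ] at mp
  have mt : Measurable (WithLp.toLp 2 : X3 → E3) := mp.measurable
  have t1 := tele (F := fun x => f (WithLp.toLp 2 x)) (G := fun k x => g (WithLp.toLp 2 x) k) h
    (mf.comp mt) (fun k => by fun_prop) (pairs_box hf)
  have m1 : Measurable fun p : E3 × E3 => ENNReal.ofReal ((f p.1 - f p.2) ^ 2) := by fun_prop
  have m2 : Measurable fun x : E3 => ENNReal.ofReal (‖g x‖ ^ 2) := by fun_prop
  have e1 := (mp.prod mp).lintegral_comp m1
  have e2 := mp.lintegral_comp m2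
  have e3 : Measure.pi (mu a b) univ = μ univ := by
    rw [← mp.measure_preimage MeasurableSet.univ.nullMeasurableSet, preimage_univ]
  simp only [Prod.map_fst, Prod.map_snd] at e1
  simp only [← EuclideanSpace.real_norm_sq_eq] at t1
  rw [e1, e2, e3] at t1
  have i1 : MemLp (fun p : E3 × E3 => f p.1) 2 (μ.prod μ) := h1.comp_fst μ
  have i2 : MemLp (fun p : E3 × E3 => f p.2) 2 (μ.prod μ) := h1.comp_snd μ
  have i3 : Integrable (fun p : E3 × E3 => (f p.1 - f p.2) ^ 2) (μ.prod μ) :=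
    (i1.sub i2).integrable_sq
  have i4 : Integrable (fun x => ‖g x‖ ^ 2) μ := h2.norm.integrable_sq
  have g0 : 0 ≤ ∫ x, ‖g x‖ ^ 2 ∂μ := integral_nonneg fun x => sq_nonneg _
  rw [← ofReal_integral_eq_lintegral_ofReal i3 (ae_of_all _ fun p => sq_nonneg _),
    ← ofReal_integral_eq_lintegral_ofReal i4 (ae_of_all _ fun p => sq_nonneg _),
    ← ofReal_measureReal (measure_ne_top μ univ), hV, ← ENNReal.ofReal_pow hs,
    ← ENNReal.ofReal_mul (sq_nonneg _), ← ENNReal.ofReal_mul hVpos.le,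
    show (3 : ENNReal) = ENNReal.ofReal 3 by simp, ← ENNReal.ofReal_mul (by norm_num),
    ENNReal.ofReal_le_ofReal_iff (by positivity)] at t1
  have e4 : ∫ p : E3 × E3, (f p.1 - f p.2) ^ 2 ∂μ.prod μ =
      2 * (∏ k, (b k - a k)) * (∫ x, f x ^ 2 ∂μ) - 2 * (∫ x, f x ∂μ) ^ 2 := by
    have j1 : Integrable (fun p : E3 × E3 => f p.1 ^ 2) (μ.prod μ) := i1.integrable_sq
    have j2 : Integrable (fun p : E3 × E3 => f p.2 ^ 2) (μ.prod μ) := i2.integrable_sq
    have j3 : Integrable (fun p : E3 × E3 => f p.1 * f p.2) (μ.prod μ) := i1.integrable_mul i2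
    have e5 : (fun p : E3 × E3 => (f p.1 - f p.2) ^ 2) =
        fun p => (f p.1 ^ 2 + f p.2 ^ 2) - 2 * (f p.1 * f p.2) := by
      funext p
      ring
    have j4 : Integrable (fun p : E3 × E3 => f p.1 ^ 2 + f p.2 ^ 2) (μ.prod μ) := j1.add j2
    rw [e5, integral_sub j4 (j3.const_mul 2), integral_add j1 j2, integral_const_mul,
      integral_prod_mul, integral_fun_fst (fun x => f x ^ 2), integral_fun_snd (fun x => f x ^ 2),
      hV]
    simp only [smul_eq_mul]
    ring
  rw [e4] at t1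
  generalize (∏ k, (b k - a k)) = W at *
  generalize ∫ x, f x ^ 2 ∂μ = A at *
  generalize ∫ x, f x ∂μ = B at *
  generalize ∫ x, ‖g x‖ ^ 2 ∂μ = C at *
  have e6 : A - 2 * s ^ 2 * C ≤ B ^ 2 / W := by
    rw [le_div_iff₀ hVpos]
    have : 0 ≤ W * (s ^ 2 * C) := by positivity
    nlinarith
  linarith

end CPoinAux

theorem box_poincare {a b : Fin 3 → ℝ} {s : ℝ} (h : ∀ k, a k < b k ∧ b k - a k ≤ s)
    {f : E3 → ℝ} {g : E3 → E3} (hf : LD (Box a b) f g)
    (h1 : MemLp f 2 (volume.restrict (Box a b))) (h2 : MemLp g 2 (volume.restrict (Box a b))) :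
    ∫ x in Box a b, f x ^ 2 ≤ (∫ x in Box a b, f x) ^ 2 / ∏ k, (b k - a k) +
      2 * s ^ 2 * ∫ x in Box a b, ‖g x‖ ^ 2 := by
  have hB := (isOpen_Box a b).measurableSet
  have q1 := h1.1.ae_eq_mk
  have q2 := h2.1.ae_eq_mk
  have hf' : LD (Box a b) (h1.1.mk f) (h2.1.mk g) :=
    hf.congr (isOpen_Box a b) ((ae_restrict_iff' hB).1 q1.symm) ((ae_restrict_iff' hB).1 q2.symm)
  have key := box_meas h hf' h1.1.stronglyMeasurable_mk.measurable
    h2.1.stronglyMeasurable_mk.measurable (h1.ae_eq q1) (h2.ae_eq q2)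
  have e1 : ∫ x in Box a b, f x ^ 2 = ∫ x in Box a b, h1.1.mk f x ^ 2 :=
    integral_congr_ae (q1.mono fun x hx => by simp only [hx])
  have e2 : ∫ x in Box a b, f x = ∫ x in Box a b, h1.1.mk f x := integral_congr_ae q1
  have e3 : ∫ x in Box a b, ‖g x‖ ^ 2 = ∫ x in Box a b, ‖h2.1.mk g x‖ ^ 2 :=
    integral_congr_ae (q2.mono fun x hx => by simp only [hx])
  rw [e1, e2, e3]
  exact key

namespace CPoinAux

theorem cheb {B S : Set E3} (hB : volume B ≠ ⊤) (hS : NullMeasurableSet S volume) (hSB : S ⊆ B)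
    {u : E3 → ℝ} (hu : IntegrableOn u B) (h0 : ∀ x, 0 ≤ u x) {τ : ℝ}
    (h : ∀ᵐ x : E3, x ∈ S → τ ≤ u x) : τ * volume.real S ≤ ∫ x in B, u x := by
  have hS' : volume S ≠ ⊤ := ne_top_of_le_ne_top hB (measure_mono hSB)
  have a1 : ∫ x in S, u x ≤ ∫ x in B, u x :=
    setIntegral_mono_set hu (ae_of_all _ h0) hSB.eventuallyLE
  have a2 : ∫ _ in S, τ ≤ ∫ x in S, u x :=
    integral_mono_ae (integrableOn_const hS') (hu.mono_set hSB) ((ae_restrict_iff'₀ hS).2 h)
  rw [setIntegral_const, smul_eq_mul, mul_comm] at a2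
  exact a2.trans a1

end CPoinAux

/-- Two subsets of a box on which `f` differs by at least `t`. -/
theorem box_two_sets {a b : Fin 3 → ℝ} {s : ℝ} (h : ∀ k, a k < b k ∧ b k - a k ≤ s)
    {f : E3 → ℝ} {g : E3 → E3} (hf : LD (Box a b) f g)
    (h1 : MemLp f 2 (volume.restrict (Box a b))) (h2 : MemLp g 2 (volume.restrict (Box a b)))
    {S T : Set E3} (hS : NullMeasurableSet S volume) (hT : NullMeasurableSet T volume)
    (hSb : S ⊆ Box a b) (hTb : T ⊆ Box a b) {c t : ℝ} (ht : 0 ≤ t)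
    (h3 : ∀ᵐ x : E3, x ∈ S → f x ≤ c) (h4 : ∀ᵐ x : E3, x ∈ T → c + t ≤ f x) :
    t ^ 2 * min (volume.real S) (volume.real T) ≤ 8 * s ^ 2 * ∫ x in Box a b, ‖g x‖ ^ 2 := by
  have hv := volume_Box fun k => (h k).1
  haveI : IsFiniteMeasure (volume.restrict (Box a b)) := isFiniteMeasure_restrict.2 hv.1
  have hVpos : 0 < ∏ k, (b k - a k) := Finset.prod_pos fun k _ => sub_pos.2 (h k).1
  set m : ℝ := (∫ x in Box a b, f x) / ∏ k, (b k - a k) with hm
  have l1 : LD (Box a b) (fun x => f x - m) g := by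
    simpa using hf.sub (LD.const (Box a b) m)
  have l2 : MemLp (fun x => f x - m) 2 (volume.restrict (Box a b)) := h1.sub (memLp_const m)
  have p := box_poincare h l1 l2 h2
  have e1 : ∫ x in Box a b, (f x - m) = 0 := by
    rw [integral_sub (h1.integrable one_le_two) (integrable_const m), setIntegral_const, hv.2,
      smul_eq_mul, hm, mul_div_cancel₀ _ hVpos.ne', sub_self]
  rw [e1] at p
  have i1 : IntegrableOn (fun x => (f x - m) ^ 2) (Box a b) := l2.integrable_sq
  have key : t ^ 2 / 4 * min (volume.real S) (volume.real T) ≤ ∫ x in Box a b, (f x - m) ^ 2 := by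
    have t0 : 0 ≤ t ^ 2 / 4 := by positivity
    rcases le_total m (c + t / 2) with hc | hc
    · refine (mul_le_mul_of_nonneg_left (min_le_right _ _) t0).trans ?_
      refine cheb hv.1 hT hTb i1 (fun x => sq_nonneg _) ?_
      filter_upwards [h4] with x hx hxT
      have := hx hxT
      nlinarith
    · refine (mul_le_mul_of_nonneg_left (min_le_left _ _) t0).trans ?_
      refine cheb hv.1 hS hSb i1 (fun x => sq_nonneg _) ?_
      filter_upwards [h3] with x hx hxS
      have := hx hxS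
      nlinarith
  simp only [ne_eq, OfNat.ofNat_ne_zero, not_false_eq_true, zero_pow, zero_div, zero_add] at p
  linarith

end

end Vale.Agent.P363
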