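import Vale.Agent.P363.Defs

/-! P363, block C: the reflection, distances to the nuclei, permutations. -/

open MeasureTheory Set Metric Filter Topology
open scoped RealInnerProductSpace

namespace Vale.Agent.P363

noncomputable section

theorem e_apply (k j : Fin 3) : e k j = if j = k then 1 else 0 := by
  simp [e, Pi.single_apply]

theorem norm_e (k : Fin 3) : ‖e k‖ = 1 := by
  simp [e]

theorem inner_e (v : E3) (k : Fin 3) : ⟪v, e k⟫ = v k := by
  simp [e, EuclideanSpace.inner_single_right]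

theorem inner_eq_sum (v w : E3) : ⟪v, w⟫ = ∑ k, v k * w k := by
  simp [PiLp.inner_apply, mul_comm]

theorem normsq_eq_sum (v : E3) : ‖v‖ ^ 2 = ∑ k, v k ^ 2 := by
  simp [EuclideanSpace.norm_sq_eq]

theorem abs_coord_le (v : E3) (k : Fin 3) : |v k| ≤ ‖v‖ := by
  exact PiLp.norm_apply_le v k

theorem sg_0 (x : E3) : sg x 0 = x 0 := by
  simp [sg, e_apply]

theorem sg_1 (x : E3) : sg x 1 = x 1 := by
  simp [sg, e_apply]

theorem sg_2 (x : E3) : sg x 2 = -x 2 := by
  simp [sg, e_apply]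
  ring

theorem e3_ext {x y : E3} (h0 : x 0 = y 0) (h1 : x 1 = y 1) (h2 : x 2 = y 2) : x = y := by
  ext k
  fin_cases k
  exacts [h0, h1, h2]

theorem sg_sg (x : E3) : sg (sg x) = x := by
  refine e3_ext ?_ ?_ ?_ <;> simp [sg_0, sg_1, sg_2]

theorem sg_add (x y : E3) : sg (x + y) = sg x + sg y := by
  refine e3_ext ?_ ?_ ?_ <;> simp [sg_0, sg_1, sg_2, add_comm]

theorem sg_sub (x y : E3) : sg (x - y) = sg x - sg y := by
  refine e3_ext ?_ ?_ ?_ <;> simp only [sg_0, sg_1, sg_2, PiLp.sub_apply]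
  ring

theorem sg_smul (c : ℝ) (x : E3) : sg (c • x) = c • sg x := by
  refine e3_ext ?_ ?_ ?_ <;> simp [sg_0, sg_1, sg_2]

theorem sg_neg (x : E3) : sg (-x) = -sg x := by
  refine e3_ext ?_ ?_ ?_ <;> simp [sg_0, sg_1, sg_2]

theorem norm_sg (x : E3) : ‖sg x‖ = ‖x‖ := by
  rw [← sq_eq_sq₀ (norm_nonneg _) (norm_nonneg _), normsq_eq_sum, normsq_eq_sum]
  simp [Fin.sum_univ_three, sg_0, sg_1, sg_2]

theorem inner_sg (x y : E3) : ⟪sg x, sg y⟫ = ⟪x, y⟫ := by
  rw [inner_eq_sum, inner_eq_sum]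
  simp [Fin.sum_univ_three, sg_0, sg_1, sg_2]

/-- The reflection as a linear isometry. -/
def sgL : E3 ≃ₗᵢ[ℝ] E3 where
  toFun := sg
  invFun := sg
  map_add' := sg_add
  map_smul' := sg_smul
  left_inv := sg_sg
  right_inv := sg_sg
  norm_map' := norm_sg

theorem continuous_sg : Continuous sg := by
  exact sgL.continuous

theorem mp_sg : MeasurePreserving sg (volume : Measure E3) volume := by
  exact sgL.measurePreserving

theorem integral_sg {α : Type} [NormedAddCommGroup α] [NormedSpace ℝ α] (f : E3 → α) :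
    ∫ x, f (sg x) = ∫ x, f x := by
  exact mp_sg.integral_comp sgL.toHomeomorph.measurableEmbedding f

theorem ae_sg {P : E3 → Prop} (h : ∀ᵐ x : E3, P x) : ∀ᵐ x : E3, P (sg x) := by
  exact mp_sg.quasiMeasurePreserving.ae h

theorem integral_odd {f : E3 → ℝ} (h : ∀ᵐ x : E3, f (sg x) = -f x) : ∫ x, f x = 0 := by
  have h1 := integral_sg f
  rw [integral_congr_ae h, integral_neg] at h1
  linarith

theorem ae_plane : ∀ᵐ x : E3, x 2 ≠ 0 := by
  have h := Measure.addHaar_submodule (volume : Measure E3)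
    (LinearMap.ker (EuclideanSpace.projₗ (𝕜 := ℝ) (2 : Fin 3))) (by
      intro h
      have h1 : e 2 ∈ LinearMap.ker (EuclideanSpace.projₗ (𝕜 := ℝ) (2 : Fin 3)) := by
        rw [h]
        trivial
      simp [e] at h1)
  rw [ae_iff]
  refine measure_mono_null (fun x hx => ?_) h
  simpa using hx

/-- The integral of an even function is twice the integral over the upper half space. -/
theorem integral_even {f : E3 → ℝ} (hf : Integrable f) (h : ∀ᵐ x : E3, f (sg x) = f x) :
    ∫ x, f x = 2 * ∫ x in Hp, f x := by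
  have hm : MeasurableSet Hp :=
    (isOpen_lt continuous_const (EuclideanSpace.proj (𝕜 := ℝ) (2 : Fin 3)).continuous).measurableSet
  have h1 : ∫ x in Hpᶜ, f x = ∫ x in Hp, f x := by
    have h2 := mp_sg.setIntegral_preimage_emb sgL.toHomeomorph.measurableEmbedding f Hp
    rw [← h2]
    have h3 : (Hpᶜ : Set E3) =ᵐ[volume] (sg ⁻¹' Hp : Set E3) := by
      filter_upwards [ae_plane] with x hx
      refine propext ?_
      change ¬ 0 < x 2 ↔ 0 < sg x 2
      rw [sg_2, not_lt, neg_pos]
      exact ⟨fun h4 => lt_of_le_of_ne h4 hx, le_of_lt⟩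
    rw [setIntegral_congr_set h3]
    exact integral_congr_ae (ae_restrict_of_ae (h.mono fun x hx => hx.symm))
  rw [← integral_add_compl hm hf, h1]
  ring

end

end Vale.Agent.P363
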