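import Vale.Agent.P363.CTst
import Vale.Agent.P363.CAbs

/-! P363, block C: Sobolev and Poincare inequalities. -/

open MeasureTheory Set Metric Filter Topology
open scoped RealInnerProductSpace

namespace Vale.Agent.P363

noncomputable section

theorem csoba_line {h : E3 → ℝ} {q q' : E3 → E3} (hl : LD univ h q) (h1 : Integrable h)
    (h2 : Integrable q) (hq : Measurable q') (hq' : ∀ᵐ x : E3, q x = q' x) (k : Fin 3) :
    ∀ᵐ x : E3, ‖h x‖ₑ ≤ ∫⁻ t : ℝ, ‖q' (x + t • e k)‖ₑ := by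
  have hm : Measurable fun x : E3 => ∫⁻ t : ℝ, ‖q' (x + t • e k)‖ₑ :=
    Measurable.lintegral_prod_right (f := fun (x : E3) (t : ℝ) => ‖q' (x + t • e k)‖ₑ)
      (hq.comp (by fun_prop : Measurable fun p : E3 × ℝ => p.1 + p.2 • e k)).enorm
  refine ae_of_line k (nullMeasurableSet_le h1.aemeasurable.enorm hm.aemeasurable) ?_
  filter_upwards [hl.line k, ae_line_integrable k h1, ae_line_integrable k h2, ae_line k hq']
    with x ⟨F, a1, a2, a3⟩ b1 b2 b3
  have a1' : ∀ᵐ t : ℝ, h (x + t • e k) = F t := a1.mono fun t ht => ht (mem_univ _)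
  have b4 : Integrable fun t : ℝ => q (x + t • e k) k :=
    (EuclideanSpace.proj (𝕜 := ℝ) k).integrable_comp b2
  have h3 := (ac_global (fun a b => a2 a b fun _ _ => mem_univ _)
    (a3.mono fun t ht => ht (mem_univ _)) (b1.congr a1') b4).2
  filter_upwards [a1'] with t ht
  have e1 : ∫⁻ s : ℝ, ‖q' (x + t • e k + s • e k)‖ₑ = ∫⁻ s : ℝ, ‖q' (x + s • e k)‖ₑ := by
    rw [← lintegral_add_left_eq_self (fun s : ℝ => ‖q' (x + s • e k)‖ₑ) t]
    simp only [add_smul, add_assoc]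
  rw [ht, e1, ← ofReal_norm]
  refine (ENNReal.ofReal_le_ofReal (h3 t)).trans ?_
  rw [show (fun s : ℝ => |q (x + s • e k) k|) = fun s : ℝ => ‖q (x + s • e k) k‖ from rfl,
    ofReal_integral_norm_eq_lintegral_enorm b4]
  refine lintegral_mono_ae (b3.mono fun s hs => ?_)
  beta_reduce
  rw [← hs, ← ofReal_norm, ← ofReal_norm]
  exact ENNReal.ofReal_le_ofReal (PiLp.norm_apply_le _ _)

theorem csoba_gns {h : E3 → ℝ} {q : E3 → E3} (hl : LD univ h q) (h1 : Integrable h)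
    (h2 : Integrable q) : ∫⁻ x, ‖h x‖ₑ ^ (3 / 2 : ℝ) ≤ (∫⁻ x, ‖q x‖ₑ) ^ (3 / 2 : ℝ) := by
  have hq := h2.aestronglyMeasurable.stronglyMeasurable_mk.measurable
  have hq' := h2.aestronglyMeasurable.ae_eq_mk
  set q' := h2.aestronglyMeasurable.mk q
  have hp : Real.HolderConjugate (Fintype.card (Fin 3)) (3 / 2) := by
    rw [Real.holderConjugate_iff]
    norm_num
  have hv := PiLp.volume_preserving_toLp (Fin 3)
  have h3 := lintegral_prod_lintegral_pow_le (fun _ : Fin 3 => (volume : Measure ℝ)) hp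
    (f := fun y => ‖q' (WithLp.toLp 2 y)‖ₑ) (hq.comp hv.measurable).enorm
  have hm : ∀ k, Measurable fun x : E3 => ∫⁻ t : ℝ, ‖q' (x + t • e k)‖ₑ := fun k =>
    Measurable.lintegral_prod_right (f := fun (x : E3) (t : ℝ) => ‖q' (x + t • e k)‖ₑ)
      (hq.comp (by fun_prop : Measurable fun p : E3 × ℝ => p.1 + p.2 • e k)).enorm
  have e1 : ∫⁻ x, ‖q x‖ₑ = ∫⁻ y, ‖q' (WithLp.toLp 2 y)‖ₑ ∂Measure.pi fun _ : Fin 3 => volume := by
    rw [lintegral_congr_ae (hq'.mono fun x hx => by rw [hx]), ← hv.lintegral_comp hq.enorm]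
    rfl
  have e2 : ∀ (y : Fin 3 → ℝ) (k : Fin 3), ∫⁻ t : ℝ, ‖q' (WithLp.toLp 2 y + t • e k)‖ₑ =
      ∫⁻ s : ℝ, ‖q' (WithLp.toLp 2 (Function.update y k s))‖ₑ := by
    intro y k
    rw [← lintegral_add_left_eq_self
      (fun s : ℝ => ‖q' (WithLp.toLp 2 (Function.update y k s))‖ₑ) (y k)]
    refine lintegral_congr fun t => ?_
    congr 2
    ext j
    by_cases hj : j = k
    · subst hj; simp [e]
    · simp [e, hj]
  rw [e1]
  refine le_trans ?_ h3
  have h4 : ∫⁻ x, ‖h x‖ₑ ^ (3 / 2 : ℝ) ≤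
      ∫⁻ x : E3, ∏ k, (∫⁻ t : ℝ, ‖q' (x + t • e k)‖ₑ) ^ (1 / 2 : ℝ) := by
    refine lintegral_mono_ae ?_
    filter_upwards [ae_all_iff.mpr (csoba_line hl h1 h2 hq hq')] with x hx
    have e3 : ‖h x‖ₑ ^ (3 / 2 : ℝ) = ∏ _k : Fin 3, ‖h x‖ₑ ^ (1 / 2 : ℝ) := by
      rw [Finset.prod_const, Finset.card_univ, Fintype.card_fin, ← ENNReal.rpow_natCast,
        ← ENNReal.rpow_mul]
      norm_num
    rw [e3]
    exact Finset.prod_le_prod' fun k _ => ENNReal.rpow_le_rpow (hx k) (by norm_num)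
  refine h4.trans (le_of_eq ?_)
  rw [← hv.lintegral_comp (Finset.measurable_prod _ fun k _ => (hm k).pow_const _)]
  simp only [e2]
  norm_num
  rfl

theorem csoba_bdd {c : E3 → ℝ} {g : E3 → E3} (h : H1 c g) {M : ℝ} (hM : ∀ x, |c x| ≤ M) :
    Integrable (fun x => c x ^ 6) ∧ ∫ x, c x ^ 6 ≤ 4096 * (∫ x, ‖g x‖ ^ 2) ^ 3 := by
  have hm := h.l2.aestronglyMeasurable
  have h3 : MemLp (fun x => |c x| ^ 3) 2 volume := by
    refine (h.l2.const_mul (M ^ 2)).of_le (hm.norm.pow 3) (ae_of_all _ fun x => ?_)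
    rw [Real.norm_of_nonneg (by positivity), Real.norm_eq_abs, abs_mul, abs_of_nonneg (sq_nonneg M),
      pow_succ]
    exact mul_le_mul_of_nonneg_right (pow_le_pow_left₀ (abs_nonneg _) (hM x) 2) (abs_nonneg _)
  have e6 : ∀ x, (|c x| ^ 3) ^ 2 = c x ^ 6 := fun x => by
    rw [← pow_mul]
    exact Even.pow_abs (by decide) _
  have h6 : Integrable fun x => c x ^ 6 := by simpa only [e6] using h3.integrable_sq
  have h4 : Integrable fun x => c x ^ 4 := by
    refine (cs_integral h3 h.l2.abs).1.congr (ae_of_all _ fun x => ?_)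
    simp only [Pi.abs_apply]
    rw [← pow_succ]
    exact Even.pow_abs (by decide) _
  have hl := h.ld.comp (Γ := fun s => s ^ 4) (Γ' := fun s => 4 * s ^ 3) isOpen_univ
    (fun s => by simpa using hasDerivAt_pow 4 s) (by fun_prop)
  obtain ⟨i1, i2⟩ := cs_integral h3 h.l2g.norm
  have en : ∀ x, ‖(4 * c x ^ 3) • g x‖ = 4 * (|c x| ^ 3 * ‖g x‖) := fun x => by
    rw [norm_smul, Real.norm_eq_abs, abs_mul, abs_pow, mul_assoc]
    norm_num
  have hq : Integrable fun x => (4 * c x ^ 3) • g x := by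
    have hq0 := hl.mg
    rw [Measure.restrict_univ] at hq0
    exact (i1.const_mul 4).mono' hq0 (ae_of_all _ fun x => (en x).le)
  have h5 := csoba_gns hl h4 hq
  have e1 : ∫⁻ x, ‖c x ^ 4‖ₑ ^ (3 / 2 : ℝ) = ENNReal.ofReal (∫ x, c x ^ 6) := by
    rw [ofReal_integral_eq_lintegral_ofReal h6 (ae_of_all _ fun x => by positivity)]
    refine lintegral_congr fun x => ?_
    rw [← ofReal_norm, ENNReal.ofReal_rpow_of_nonneg (norm_nonneg _) (by norm_num),
      norm_pow, ← Real.rpow_natCast, ← Real.rpow_mul (norm_nonneg _), ← e6, ← pow_mul,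
      ← Real.rpow_natCast]
    norm_num
  rw [e1, ← ofReal_integral_norm_eq_lintegral_enorm hq, ENNReal.ofReal_rpow_of_nonneg
    (integral_nonneg fun _ => norm_nonneg _) (by norm_num),
    ENNReal.ofReal_le_ofReal_iff (by positivity)] at h5
  simp only [en, integral_const_mul] at h5
  simp only [e6] at i2
  have hA : 0 ≤ ∫ x, c x ^ 6 := integral_nonneg fun x => by positivity
  have hB : 0 ≤ ∫ x, ‖g x‖ ^ 2 := integral_nonneg fun x => by positivity
  have hy : 0 ≤ ∫ x, |c x| ^ 3 * ‖g x‖ := integral_nonneg fun x => by positivity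
  refine ⟨h6, ?_⟩
  rw [abs_of_nonneg hy] at i2
  have h7 := pow_le_pow_left₀ hA h5 2
  rw [← Real.rpow_natCast (_ ^ (3 / 2 : ℝ)), ← Real.rpow_mul (by positivity),
    show (3 / 2 : ℝ) * (2 : ℕ) = (3 : ℕ) by norm_num, Real.rpow_natCast] at h7
  generalize (∫ x, |c x| ^ 3 * ‖g x‖) = y at h7 i2 hy
  rw [← Real.sq_sqrt hA] at h7 ⊢
  rw [← Real.sq_sqrt hB]
  have ha := Real.sqrt_nonneg (∫ x, c x ^ 6)
  have hb := Real.sqrt_nonneg (∫ x, ‖g x‖ ^ 2)
  generalize √(∫ x, c x ^ 6) = a at *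
  generalize √(∫ x, ‖g x‖ ^ 2) = b at *
  rcases ha.eq_or_lt with rfl | ha'
  · simp only [ne_eq, OfNat.ofNat_ne_zero, not_false_eq_true, zero_pow]
    positivity
  · have h8 : (4 * y) ^ 3 ≤ (4 * (a * b)) ^ 3 := by gcongr
    have h9 : a ≤ 64 * b ^ 3 := by
      refine le_of_mul_le_mul_left (a := a ^ 3) ?_ (by positivity)
      nlinarith
    calc a ^ 2 ≤ (64 * b ^ 3) ^ 2 := by gcongr
      _ = _ := by ring

theorem sobolev : ∃ C : ℝ, 0 < C ∧ ∀ f g, H1 f g → Integrable (fun x => f x ^ 6) ∧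
    ∫ x, f x ^ 6 ≤ C * (∫ x, ‖g x‖ ^ 2) ^ 3 := by
  refine ⟨4096, by norm_num, fun f g h => ?_⟩
  have hm := h.l2.aestronglyMeasurable
  have hc : ∀ n : ℕ, Integrable (fun x => (max (-(n : ℝ)) (min n (f x))) ^ 6) ∧
      ∫ x, (max (-(n : ℝ)) (min n (f x))) ^ 6 ≤ 4096 * (∫ x, ‖g x‖ ^ 2) ^ 3 := by
    intro n
    have hn := Nat.cast_nonneg (α := ℝ) n
    have hl := h.ld.clamp isOpen_univ (a := -(n : ℝ)) (b := n) (by linarith)
    have m1 := hl.mf
    have m2 := hl.mg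
    rw [Measure.restrict_univ] at m1 m2
    have hg : ∀ x, ‖if -(n : ℝ) < f x ∧ f x < n then g x else 0‖ ≤ ‖g x‖ := fun x => by
      split_ifs <;> simp
    have hg2 := h.l2g.of_le m2 (ae_of_all _ hg)
    have h1 := csoba_bdd (M := n) ⟨hl, h.l2.of_le m1 (ae_of_all _ fun x => ?_), hg2⟩ fun x => ?_
    · refine ⟨h1.1, h1.2.trans ?_⟩
      have h2 := integral_mono hg2.norm.integrable_sq h.l2g.norm.integrable_sq fun x =>
        pow_le_pow_left₀ (norm_nonneg _) (hg x) 2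
      have h3 : 0 ≤ ∫ x, ‖if -(n : ℝ) < f x ∧ f x < n then g x else 0‖ ^ 2 :=
        integral_nonneg fun x => by positivity
      gcongr
    · rw [Real.norm_eq_abs, Real.norm_eq_abs, abs_le]
      have := le_abs_self (f x)
      have := neg_abs_le (f x)
      constructor
      · exact le_max_of_le_right (le_min (by linarith [abs_nonneg (f x)]) (by linarith))
      · exact max_le (by linarith [abs_nonneg (f x)]) ((min_le_right _ _).trans (by linarith))
    · exact abs_le.mpr ⟨le_max_left _ _, max_le (by linarith) (min_le_left _ _)⟩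
  have h1 : ∫⁻ x, ENNReal.ofReal (f x ^ 6) ≤ ENNReal.ofReal (4096 * (∫ x, ‖g x‖ ^ 2) ^ 3) := by
    have h2 := lintegral_liminf_le' (μ := volume) (u := atTop)
      (f := fun (n : ℕ) x => ENNReal.ofReal ((max (-(n : ℝ)) (min n (f x))) ^ 6))
      fun n => (hc n).1.aemeasurable.ennreal_ofReal
    refine le_trans (le_of_eq (lintegral_congr fun x => ?_)) (h2.trans ?_)
    · refine (Tendsto.liminf_eq (tendsto_const_nhds.congr' ?_)).symm
      filter_upwards [(tendsto_natCast_atTop_atTop (R := ℝ)).eventually_ge_atTop |f x|] with n hn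
      rw [min_eq_right (le_of_abs_le hn), max_eq_right (neg_le_of_abs_le hn)]
    · refine liminf_le_of_frequently_le' (Frequently.of_forall fun n => ?_)
      rw [← ofReal_integral_eq_lintegral_ofReal (hc n).1 (ae_of_all _ fun x => by positivity)]
      exact ENNReal.ofReal_le_ofReal (hc n).2
  have h0 : 0 ≤ᵐ[volume] fun x => f x ^ 6 := ae_of_all _ fun x => by positivity
  have h3 : Integrable fun x => f x ^ 6 :=
    ⟨hm.pow 6, (hasFiniteIntegral_iff_ofReal h0).mpr (h1.trans_lt ENNReal.ofReal_lt_top)⟩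
  refine ⟨h3, ?_⟩
  rw [← ofReal_integral_eq_lintegral_ofReal h3 h0] at h1
  have hB : 0 ≤ ∫ x, ‖g x‖ ^ 2 := integral_nonneg fun x => by positivity
  exact (ENNReal.ofReal_le_ofReal_iff (by positivity)).mp h1

end

end Vale.Agent.P363
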