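import Vale.Agent.P363.CSubA

/-! P363, block C: weak subsolutions. -/

open MeasureTheory Set Metric Filter Topology
open scoped RealInnerProductSpace

namespace Vale.Agent.P363

noncomputable section

variable {U : Set E3} {w w' R R' : E3 → ℝ} {g g' : E3 → E3}

theorem csub_intQ {ψ : E3 → ℝ} {p : E3 → E3} (hg : Loc2 U g) (ht : Tst U ψ p)
    (hp : MemLp (fun x => w x • p x) 2 volume) : Integrable (fun x => w x * ⟪g x, p x⟫) := by
  obtain ⟨K, hK, hKU, hz⟩ := ht.cpt
  refine IntegrableOn.integrable_of_forall_notMem_eq_zero (s := K) ?_ fun x hx => ?_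
  · have := ctst_inner (hg K hK hKU) (hp.restrict K)
    simp only [real_inner_smul_right] at this
    exact this
  · rw [(hz x hx).2, inner_zero_right, mul_zero]

/-- A locally bounded function times the gradient of a test function. -/
theorem csub_smul_tst {ψ : E3 → ℝ} {p : E3 → E3} (ht : Tst U ψ p)
    (hm : AEStronglyMeasurable w (volume.restrict U)) (hb : LocB U w) :
    MemLp (fun x => w x • p x) 2 volume := by
  obtain ⟨K, hK, hKU, hz⟩ := ht.cpt
  obtain ⟨M, hM⟩ := hb K hK hKU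
  exact ctst_off hK (ctst_smul (hm.mono_set hKU) ((ae_restrict_iff' hK.measurableSet).2 hM)
    (ht.l2g.restrict K)) fun x hx => by rw [(hz x hx).2, smul_zero]

theorem SubQ.mono {U' : Set E3} (h : SubQ U w g R) (hU : U' ⊆ U) : SubQ U' w g R :=
  ⟨h.l1.mono hU, fun K hK hKU => h.li K hK (hKU.trans hU),
    fun ψ p ht h0 hp => h.ineq ψ p (ht.mono hU) h0 hp⟩

theorem SubQ.monoR (h : SubQ U w g R) (hR : Loc1 U R') (hle : ∀ᵐ x : E3, x ∈ U → R' x ≤ R x) :
    SubQ U w g R' := by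
  refine ⟨h.l1, hR, fun ψ p ht h0 hp => le_trans ?_ (h.ineq ψ p ht h0 hp)⟩
  obtain ⟨K, hK, hKU, hz⟩ := ht.cpt
  have i1 := (((ht.int h.l1.l2g.sq h.l1.l2g).1.add (csub_intQ h.l1.l2g ht hp)).const_mul (1 / 2))
  refine integral_mono_ae (i1.add (ht.int hR h.l1.l2g).1) (i1.add (ht.int h.li h.l1.l2g).1) ?_
  filter_upwards [hle, h0] with x a b
  by_cases hx : x ∈ K
  · have := mul_le_mul_of_nonneg_right (a (hKU hx)) b
    linarith
  · simp only [(hz x hx).1, mul_zero, le_refl]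

theorem SubQ.congr (hU : IsOpen U) (h : SubQ U w g R) (h1 : ∀ᵐ x : E3, x ∈ U → w' x = w x)
    (h2 : ∀ᵐ x : E3, x ∈ U → g' x = g x) : SubQ U w' g' R := by
  refine ⟨h.l1.congr hU h1 h2, h.li, fun ψ p ht h0 hp => ?_⟩
  obtain ⟨K, hK, hKU, hz⟩ := ht.cpt
  have hp' : MemLp (fun x => w x • p x) 2 volume := by
    refine hp.ae_eq ?_
    filter_upwards [h1] with x a
    by_cases hx : x ∈ K
    · rw [a (hKU hx)]
    · simp only [(hz x hx).2, smul_zero]
  refine le_trans (le_of_eq ?_) (h.ineq ψ p ht h0 hp')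
  refine integral_congr_ae ?_
  filter_upwards [h1, h2] with x a b
  by_cases hx : x ∈ K
  · rw [a (hKU hx), b (hKU hx)]
  · simp only [(hz x hx).1, (hz x hx).2, inner_zero_right, mul_zero]

/-- Integrability of the integrand in `SubQ`. -/
theorem SubQ.int (h : SubQ U w g R) {ψ : E3 → ℝ} {p : E3 → E3} (ht : Tst U ψ p)
    (hp : MemLp (fun x => w x • p x) 2 volume) : Integrable (fun x => ‖g x‖ ^ 2 * ψ x) ∧
      Integrable (fun x => w x * ⟪g x, p x⟫) ∧ Integrable (fun x => R x * ψ x) :=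
  ⟨(ht.int h.l1.l2g.sq h.l1.l2g).1, csub_intQ h.l1.l2g ht hp, (ht.int h.li h.l1.l2g).1⟩

theorem Sub.toSubQ (hU : IsOpen U) (h : Sub U w g R) (hb : LocB U w)
    (h0 : ∀ᵐ x : E3, x ∈ U → 0 ≤ w x) : SubQ U w g (fun x => R x * w x) := by
  refine ⟨h.l1, csub_loc1_mul h.li h.l1.ld.mf hb, fun ψ p ht hψ _ => ?_⟩
  obtain ⟨K, hK, hKU, hz⟩ := ht.cpt
  have a := h.ineq _ _ (ht.mul hU h.l1 hb) (by
    filter_upwards [hψ, h0] with x a b
    by_cases hx : x ∈ K
    · exact mul_nonneg (b (hKU hx)) a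
    · rw [(hz x hx).1, mul_zero])
  refine le_trans (le_of_eq ?_) a
  refine integral_congr_ae (Eventually.of_forall fun x => ?_)
  simp only [inner_add_right, real_inner_smul_right, real_inner_self_eq_norm_sq]
  ring

theorem csub_inv_b (hp : LocP U w) : LocB U (fun x => (w x)⁻¹) := fun K hK hKU => by
  obtain ⟨c, hc, h⟩ := hp K hK hKU
  refine ⟨c⁻¹, h.mono fun x a hx => ?_⟩
  rw [abs_of_pos (inv_pos.2 (hc.trans_le (a hx)))]
  exact inv_anti₀ hc (a hx)

theorem csub_inv_l1 (hU : IsOpen U) (h : L1 U w g) (hp : LocP U w) :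
    L1 U (fun x => (w x)⁻¹) (fun x => -((w x)⁻¹ ^ 2) • g x) := by
  refine L1.of_le (a := fun _ => 0) (b := fun x => ‖g x‖) hU (h.ld.inv hU hp) (ctst_loc2_zero U)
    (fun K hK hKU => (h.l2g K hK hKU).norm) fun K hK hKU => ?_
  obtain ⟨M, hM⟩ := csub_inv_b hp K hK hKU
  refine ⟨|M| + M ^ 2, hM.mono fun x a hx => ⟨?_, ?_⟩⟩
  · have := (a hx).trans (le_abs_self M)
    rw [abs_zero]
    nlinarith [sq_nonneg M]
  · rw [norm_smul, norm_neg, Real.norm_eq_abs, abs_of_nonneg (sq_nonneg _), abs_norm]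
    have h1 : (w x)⁻¹ ^ 2 ≤ M ^ 2 := sq_le_sq' (abs_le.1 (a hx)).1 (abs_le.1 (a hx)).2
    have h2 := mul_le_mul_of_nonneg_right h1 (norm_nonneg (g x))
    nlinarith [sq_nonneg M, abs_nonneg M, mul_nonneg (abs_nonneg M) (norm_nonneg (g x))]

theorem SubQ.toSub (hU : IsOpen U) (h : SubQ U w g R) (hp : LocP U w) :
    Sub U w g (fun x => R x / w x) := by
  have l1 := csub_inv_l1 hU h.l1 hp
  have lb := csub_inv_b hp
  refine ⟨h.l1, ?_, fun ψ p ht hψ => ?_⟩
  · simpa only [div_eq_mul_inv] using csub_loc1_mul h.li l1.ld.mf lb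
  obtain ⟨K, hK, hKU, hz⟩ := ht.cpt
  obtain ⟨c, hc, hw⟩ := hp K hK hKU
  obtain ⟨M, hM⟩ := lb K hK hKU
  obtain ⟨M', hM'⟩ := ht.bd
  have t1 := ht.mul hU l1 lb
  have m1 : MemLp (fun x => w x • ((w x)⁻¹ • p x + ψ x • (-((w x)⁻¹ ^ 2) • g x))) 2 volume := by
    refine ctst_off hK ?_ fun x hx => by
      simp only [(hz x hx).1, (hz x hx).2, smul_zero, zero_smul, add_zero]
    have m2 : MemLp (fun x => p x - ψ x • ((w x)⁻¹ • g x)) 2 (volume.restrict K) :=
      (ht.l2g.restrict K).sub (ctst_smul (ctst_mf ht.ld).restrict (ae_restrict_of_ae hM')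
        (ctst_smul (l1.ld.mf.mono_set hKU) ((ae_restrict_iff' hK.measurableSet).2 hM)
          (h.l1.l2g K hK hKU)))
    refine m2.ae_eq ?_
    filter_upwards [(ae_restrict_iff' hK.measurableSet).2 hw] with x a
    have hw0 : w x ≠ 0 := (hc.trans_le a).ne'
    simp only [smul_add, smul_smul, mul_inv_cancel₀ hw0, one_smul, sub_eq_add_neg, ← neg_smul]
    congr 2
    field_simp
  have a := h.ineq _ _ t1 (by
    filter_upwards [hψ, hw] with x a b
    by_cases hx : x ∈ K
    · exact mul_nonneg (inv_pos.2 (hc.trans_le (b hx))).le a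
    · rw [(hz x hx).1, mul_zero]) m1
  refine le_trans (le_of_eq ?_) a
  refine integral_congr_ae ?_
  filter_upwards [hw] with x b
  by_cases hx : x ∈ K
  · have hw0 : w x ≠ 0 := (hc.trans_le (b hx)).ne'
    simp only [inner_add_right, real_inner_smul_right, real_inner_self_eq_norm_sq]
    field_simp
    ring
  · simp only [(hz x hx).1, (hz x hx).2, smul_zero, zero_smul, add_zero, mul_zero,
      inner_zero_right]

/-- The square of a locally bounded `SubQ` function. -/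
theorem SubQ.sq (hU : IsOpen U) (h : SubQ U w g R) (hb : LocB U w) :
    Sub U (fun x => w x ^ 2) (fun x => (2 * w x) • g x) (fun x => ‖g x‖ ^ 2 + 2 * R x) := by
  refine ⟨(h.l1.mul hU h.l1 hb hb).congr hU (Eventually.of_forall fun x _ => pow_two _)
    (Eventually.of_forall fun x _ => by rw [two_mul, add_smul]),
    fun K hK hKU => (h.l1.l2g.sq K hK hKU).add ((h.li K hK hKU).const_mul 2),
    fun ψ p ht hψ => ?_⟩
  have a := h.ineq ψ p ht hψ (csub_smul_tst ht h.l1.ld.mf hb)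
  refine le_trans (le_of_eq ?_) (mul_nonpos_of_nonneg_of_nonpos zero_le_two a)
  rw [← integral_const_mul]
  refine integral_congr_ae (Eventually.of_forall fun x => ?_)
  simp only [real_inner_smul_left]
  ring

/-- A weak equation with right side `-R` gives the three weak inequalities. -/
theorem sub_of_eq (hU : IsOpen U) (h : L1 U w g) (hR : Loc1 U R) (hRw : Loc1 U (fun x => R x * w x))
    (he : ∀ f gf, H1 f gf → (∃ K, IsCompact K ∧ K ⊆ U ∧ ∀ x, x ∉ K → f x = 0 ∧ gf x = 0) →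
      ∫ x, ((1 / 2) * ⟪g x, gf x⟫ + R x * f x) = 0) :
    Sub U w g R ∧ Sub U (fun x => -w x) (fun x => -g x) (fun x => -R x) ∧
      SubQ U w g (fun x => R x * w x) := by
  refine ⟨⟨h, hR, fun ψ p ht _ => (he ψ p ht.h1.1 ht.cpt).le⟩,
    ⟨⟨h.ld.neg, fun K hK hKU => (h.l2 K hK hKU).neg, fun K hK hKU => (h.l2g K hK hKU).neg⟩,
      fun K hK hKU => (hR K hK hKU).neg, fun ψ p ht _ => ?_⟩, ⟨h, hRw, fun ψ p ht _ hp => ?_⟩⟩
  · have a := he ψ p ht.h1.1 ht.cpt
    refine le_of_eq (Eq.trans ?_ (neg_eq_zero.2 a))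
    rw [← integral_neg]
    refine integral_congr_ae (Eventually.of_forall fun x => ?_)
    simp only [inner_neg_left]
    ring
  · obtain ⟨K, hK, hKU, hz⟩ := ht.cpt
    have a := he _ _ (ht.h1_mul hU h hp) ⟨K, hK, hKU, fun x hx => by
      simp only [(hz x hx).1, (hz x hx).2, mul_zero, smul_zero, zero_smul, add_zero, and_self]⟩
    refine le_of_eq (Eq.trans ?_ a)
    refine integral_congr_ae (Eventually.of_forall fun x => ?_)
    simp only [inner_add_right, real_inner_smul_right, real_inner_self_eq_norm_sq]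
    ring

/-- Ground state substitution: `SubQ` tested with a square. -/
theorem SubQ.jacobi (hU : IsOpen U) (h : SubQ U w g R) (hb : LocB U w) {τ : E3 → ℝ} {p : E3 → E3}
    (ht : Tst U τ p) : H1 (fun x => w x * τ x) (fun x => w x • p x + τ x • g x) ∧
      (1 / 2) * (∫ x, ‖w x • p x + τ x • g x‖ ^ 2) + ∫ x, R x * τ x ^ 2 ≤
        (1 / 2) * ∫ x, w x ^ 2 * ‖p x‖ ^ 2 := by
  have m1 := csub_smul_tst ht h.l1.ld.mf hb
  have h1 := ht.h1_mul hU h.l1 m1
  refine ⟨h1, ?_⟩
  have t1 := ht.mul hU (ht.h1.1.l1 U) fun K _ _ => by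
    obtain ⟨M, hM⟩ := ht.bd
    exact ⟨M, hM.mono fun x a _ => a⟩
  have a := h.ineq _ _ t1 (Eventually.of_forall fun x => mul_self_nonneg _)
    (csub_smul_tst t1 h.l1.ld.mf hb)
  have i1 : Integrable (fun x => ‖w x • p x + τ x • g x‖ ^ 2) :=
    (memLp_two_iff_integrable_sq_norm h1.l2g.1).1 h1.l2g
  have i2 : Integrable (fun x => w x ^ 2 * ‖p x‖ ^ 2) := by
    have := (memLp_two_iff_integrable_sq_norm m1.1).1 m1
    simpa only [norm_smul, mul_pow, Real.norm_eq_abs, sq_abs] using this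
  have i3 : Integrable (fun x => R x * τ x ^ 2) := by
    simpa only [pow_two] using (t1.int h.li h.l1.l2g).1
  have e1 : ∫ x, ((1 / 2) * (‖g x‖ ^ 2 * (τ x * τ x) + w x * ⟪g x, τ x • p x + τ x • p x⟫) +
      R x * (τ x * τ x)) = ∫ x, (((1 / 2) * ‖w x • p x + τ x • g x‖ ^ 2 + R x * τ x ^ 2) -
        (1 / 2) * (w x ^ 2 * ‖p x‖ ^ 2)) := by
    refine integral_congr_ae (Eventually.of_forall fun x => ?_)
    simp only [norm_add_sq_real, inner_add_right, real_inner_smul_right, real_inner_smul_left,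
      norm_smul, mul_pow, Real.norm_eq_abs, sq_abs, real_inner_comm (g x) (p x)]
    ring
  have i4 : Integrable (fun x => (1 / 2) * ‖w x • p x + τ x • g x‖ ^ 2 + R x * τ x ^ 2) :=
    (i1.const_mul _).add i3
  rw [e1, integral_sub i4 (i2.const_mul _), integral_add (i1.const_mul _) i3,
    integral_const_mul, integral_const_mul] at a
  linarith

end

end Vale.Agent.P363
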