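import Vale.Agent.P363.CTst

/-! P363, block C: weak subsolutions. -/

open MeasureTheory Set Metric Filter Topology
open scoped RealInnerProductSpace

namespace Vale.Agent.P363

noncomputable section

variable {U : Set E3} {w w' R R' : E3 → ℝ} {g g' : E3 → E3}

theorem csub_loc1 (h : Loc2 U w) : Loc1 U w := fun K hK hKU => by
  have := ctst_fin hK
  exact (h K hK hKU).integrable one_le_two

theorem csub_int {ψ : E3 → ℝ} {p : E3 → E3} (ht : Tst U ψ p) (hR : Loc1 U R) (hg : Loc2 U g) :
    Integrable (fun x => (1 / 2) * ⟪g x, p x⟫ + R x * ψ x) :=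
  ((ht.int hR hg).2.const_mul _).add (ht.int hR hg).1

/-- `L²` times `L²` on a compact set. -/
theorem csub_smul_int {μ : Measure E3} {p : E3 → E3} (hw : MemLp w 2 μ) (hp : MemLp p 2 μ) :
    Integrable (fun x => w x • p x) μ :=
  (hw.norm.integrable_mul hp.norm).mono' (hw.1.smul hp.1)
    (Eventually.of_forall fun x => (norm_smul (w x) (p x)).le)

/-- A locally integrable function times a locally bounded one. -/
theorem csub_loc1_mul (hR : Loc1 U R) (hm : AEStronglyMeasurable w (volume.restrict U))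
    (hb : LocB U w) : Loc1 U (fun x => R x * w x) := fun K hK hKU => by
  obtain ⟨M, hM⟩ := hb K hK hKU
  exact Integrable.mul_bdd (hR K hK hKU) (hm.mono_set hKU)
    ((ae_restrict_iff' hK.measurableSet).2 hM)

theorem csub_restrict_sg {K : Set E3} (hK : IsCompact K) :
    MeasurePreserving sg (volume.restrict K) (volume.restrict (sg '' K)) := by
  have h := mp_sg.restrict_preimage (hK.image continuous_sg).measurableSet
  have e1 : sg ⁻¹' (sg '' K) = K :=
    preimage_image_eq K (Function.Involutive.injective sg_sg)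
  rwa [e1] at h

theorem csub_img {K : Set E3} (h : K ⊆ sg ⁻¹' U) : sg '' K ⊆ U := by
  rintro _ ⟨y, hy, rfl⟩
  exact h hy

theorem csub_l1_refl (h : L1 U w g) :
    L1 (sg ⁻¹' U) (fun x => w (sg x)) (fun x => sg (g (sg x))) := by
  refine ⟨h.ld.refl, fun K hK hKU => ?_, fun K hK hKU => ?_⟩
  · exact (h.l2 _ (hK.image continuous_sg) (csub_img hKU)).comp_measurePreserving
      (csub_restrict_sg hK)
  · have h1 : MemLp (fun x => g (sg x)) 2 (volume.restrict K) :=
      (h.l2g _ (hK.image continuous_sg) (csub_img hKU)).comp_measurePreserving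
        (csub_restrict_sg hK)
    exact h1.of_le (continuous_sg.comp_aestronglyMeasurable h1.1)
      (Eventually.of_forall fun _ => (norm_sg _).le)

theorem csub_loc1_refl (h : Loc1 U R) : Loc1 (sg ⁻¹' U) (fun x => R (sg x)) := fun K hK hKU =>
  (csub_restrict_sg hK).integrable_comp_of_integrable
    (h _ (hK.image continuous_sg) (csub_img hKU))

theorem Sub.mono {U' : Set E3} (h : Sub U w g R) (hU : U' ⊆ U) : Sub U' w g R :=
  ⟨h.l1.mono hU, fun K hK hKU => h.li K hK (hKU.trans hU),
    fun ψ p ht h0 => h.ineq ψ p (ht.mono hU) h0⟩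

theorem Sub.monoR (h : Sub U w g R) (hR : Loc1 U R') (hle : ∀ᵐ x : E3, x ∈ U → R' x ≤ R x) :
    Sub U w g R' := by
  refine ⟨h.l1, hR, fun ψ p ht h0 => le_trans ?_ (h.ineq ψ p ht h0)⟩
  obtain ⟨K, hK, hKU, hz⟩ := ht.cpt
  refine integral_mono_ae (csub_int ht hR h.l1.l2g) (csub_int ht h.li h.l1.l2g) ?_
  filter_upwards [hle, h0] with x a b
  by_cases hx : x ∈ K
  · have := mul_le_mul_of_nonneg_right (a (hKU hx)) b
    linarith
  · simp only [(hz x hx).1, mul_zero, le_refl]

theorem Sub.congr (hU : IsOpen U) (h : Sub U w g R) (h1 : ∀ᵐ x : E3, x ∈ U → w' x = w x)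
    (h2 : ∀ᵐ x : E3, x ∈ U → g' x = g x) : Sub U w' g' R := by
  refine ⟨h.l1.congr hU h1 h2, h.li, fun ψ p ht h0 => le_trans (le_of_eq ?_) (h.ineq ψ p ht h0)⟩
  obtain ⟨K, hK, hKU, hz⟩ := ht.cpt
  refine integral_congr_ae ?_
  filter_upwards [h2] with x a
  by_cases hx : x ∈ K
  · rw [a (hKU hx)]
  · simp only [(hz x hx).2, inner_zero_right]

theorem Sub.add (h : Sub U w g R) (h' : Sub U w' g' R') :
    Sub U (fun x => w x + w' x) (fun x => g x + g' x) (fun x => R x + R' x) := by
  refine ⟨h.l1.add h'.l1, fun K hK hKU => (h.li K hK hKU).add (h'.li K hK hKU),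
    fun ψ p ht h0 => ?_⟩
  have e1 := integral_add (csub_int ht h.li h.l1.l2g) (csub_int ht h'.li h'.l1.l2g)
  have a := h.ineq ψ p ht h0
  have b := h'.ineq ψ p ht h0
  refine le_trans (le_of_eq ?_) (e1.le.trans (add_nonpos a b))
  refine integral_congr_ae (Eventually.of_forall fun x => ?_)
  simp only [inner_add_left]
  ring

theorem Sub.cmul {c : ℝ} (hc : 0 ≤ c) (h : Sub U w g R) :
    Sub U (fun x => c * w x) (fun x => c • g x) (fun x => c * R x) := by
  refine ⟨h.l1.cmul c, fun K hK hKU => (h.li K hK hKU).const_mul c, fun ψ p ht h0 => ?_⟩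
  refine le_trans (le_of_eq ?_) (mul_nonpos_of_nonneg_of_nonpos hc (h.ineq ψ p ht h0))
  rw [← integral_const_mul]
  refine integral_congr_ae (Eventually.of_forall fun x => ?_)
  simp only [real_inner_smul_left]
  ring

theorem C2.toSub {l : E3 → ℝ} (h : C2 U w g l) : Sub U w g (fun x => l x / 2) := by
  refine ⟨h.l1.1, fun K hK hKU => ((h.cont.2.2.mono hKU).div_const 2).integrableOn_compact hK,
    fun ψ p ht _ => ?_⟩
  obtain ⟨K, hK, hKU, hz⟩ := ht.cpt
  have e1 := (h.weak ht.ld ht.h1.2.1 ht.h1.2.2 hK hKU hz).2.2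
  have e2 : ∫ x, ((1 / 2) * ⟪g x, p x⟫ + l x / 2 * ψ x) =
      (1 / 2) * ∫ x, (⟪g x, p x⟫ + l x * ψ x) := by
    rw [← integral_const_mul]
    refine integral_congr_ae (Eventually.of_forall fun x => ?_)
    simp only
    ring
  rw [e2, e1, mul_zero]

theorem Sub.mulC2 {m l : E3 → ℝ} {gm : E3 → E3} (h : Sub U w g R) (hm : C2 U m gm l)
    (h0 : ∀ x ∈ U, 0 ≤ m x) : Sub U (fun x => w x * m x) (fun x => w x • gm x + m x • g x)
      (fun x => R x * m x + ⟪g x, gm x⟫ + w x * l x / 2) := by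
  have hU := hm.op
  refine ⟨h.l1.mulC hm, fun K hK hKU => ?_, fun ψ p ht hψ => ?_⟩
  · refine ((csub_loc1_mul h.li hm.ld.mf hm.l1.2.1 K hK hKU).add
      (ctst_inner (h.l1.l2g K hK hKU) (hm.l1.1.l2g K hK hKU))).add (Integrable.div_const ?_ 2)
    exact csub_loc1_mul (csub_loc1 h.l1.l2)
      (hm.cont.2.2.aestronglyMeasurable hU.measurableSet) hm.l1.2.2.1 K hK hKU
  · obtain ⟨K, hK, hKU, hz⟩ := ht.cpt
    have t1 := ht.mul hU hm.l1.1 hm.l1.2.1
    have a := h.ineq _ _ t1 (by
      filter_upwards [hψ] with x hx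
      by_cases hx' : x ∈ K
      · exact mul_nonneg (h0 x (hKU hx')) hx
      · rw [(hz x hx').1, mul_zero])
    have hp : Integrable (fun x => w x • p x) :=
      IntegrableOn.integrable_of_forall_notMem_eq_zero (s := K)
        (csub_smul_int (h.l1.l2 K hK hKU) (ht.l2g.restrict K))
        fun x hx => by rw [(hz x hx).2, smul_zero]
    have t2 := ht.w11_mul hU h.l1.ld (csub_loc1 h.l1.l2)
      (csub_loc1 fun K hK hKU => (h.l1.l2g K hK hKU).norm) hp
    obtain ⟨i1, i2, b⟩ := hm.weak t2.1 t2.2.1 t2.2.2 hK hKU fun x hx => by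
      simp only [(hz x hx).1, (hz x hx).2, mul_zero, smul_zero, zero_smul, add_zero, and_self]
    have e1 := integral_add (csub_int t1 h.li h.l1.l2g) ((i1.add i2).const_mul (1 / 2))
    rw [integral_const_mul] at e1
    simp only [Pi.add_apply] at e1
    rw [b, mul_zero, add_zero] at e1
    refine le_trans (le_of_eq ?_) (e1.le.trans a)
    refine integral_congr_ae (Eventually.of_forall fun x => ?_)
    simp only [inner_add_left, inner_add_right, real_inner_smul_left, real_inner_smul_right,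
      real_inner_comm (g x) (gm x)]
    ring

theorem Sub.refl (h : Sub U w g R) :
    Sub (sg ⁻¹' U) (fun x => w (sg x)) (fun x => sg (g (sg x))) (fun x => R (sg x)) := by
  refine ⟨csub_l1_refl h.l1, csub_loc1_refl h.li, fun ψ p ht h0 => ?_⟩
  have t1 : Tst U (fun x => ψ (sg x)) (fun x => sg (p (sg x))) :=
    ht.refl.mono fun x hx => by
      have h1 : sg (sg x) ∈ U := hx
      rwa [sg_sg] at h1
  refine le_trans (le_of_eq ?_) (h.ineq _ _ t1 (ae_sg h0))
  rw [← integral_sg]
  refine integral_congr_ae (Eventually.of_forall fun x => ?_)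
  simp only [sg_sg]
  rw [← inner_sg (sg (g x)), sg_sg]

end

end Vale.Agent.P363
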