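import Vale.Agent.P363.CTstB

/-! P363, block C: `H1`, `L1`, test functions and cutoffs. -/

open MeasureTheory Set Metric Filter Topology
open scoped RealInnerProductSpace

namespace Vale.Agent.P363

noncomputable section

variable {U : Set E3} {f f' ψ : E3 → ℝ} {g g' p : E3 → E3}

theorem ctst_clamp (t : ℝ) : 0 ≤ max 0 (min 1 t) ∧ max 0 (min 1 t) ≤ 1 :=
  ⟨le_max_left _ _, max_le zero_le_one (min_le_left _ _)⟩

theorem ctst_clamp1 {t : ℝ} (h : 1 ≤ t) (v : E3) :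
    max 0 (min 1 t) = 1 ∧ (if 0 < t ∧ t < 1 then v else 0) = 0 :=
  ⟨by rw [min_eq_left h, max_eq_right zero_le_one], if_neg fun h' => absurd h'.2 (not_lt.2 h)⟩

theorem ctst_clamp0 {t : ℝ} (h : t ≤ 0) (v : E3) :
    max 0 (min 1 t) = 0 ∧ (if 0 < t ∧ t < 1 then v else 0) = 0 :=
  ⟨max_eq_left ((min_le_right _ _).trans h), if_neg fun h' => absurd h'.1 (not_lt.2 h)⟩

theorem ctst_meas_ite (hf : Continuous f) (hg : Measurable g) :
    Measurable (fun x => if 0 < f x ∧ f x < 1 then g x else 0) :=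
  Measurable.ite ((measurableSet_lt measurable_const hf.measurable).inter
    (measurableSet_lt hf.measurable measurable_const)) hg measurable_const

theorem ctst_unit (v : E3) : ‖‖v‖⁻¹ • v‖ ≤ 1 := by
  rw [norm_smul, norm_inv, norm_norm]
  exact inv_mul_le_one_of_le₀ le_rfl (norm_nonneg _)

/-- The truncation of a function which is nonpositive far away is a test function. -/
theorem ctst_trunc (c : E3) (b : ℝ) (h : LD univ f g) (hf : Continuous f) (hg : Measurable g)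
    {M : ℝ} (hM : ∀ x, ‖g x‖ ≤ M) (hb : ∀ x, b ≤ ‖x - c‖ → f x ≤ 0) :
    Tst univ (fun x => max 0 (min 1 (f x))) (fun x => if 0 < f x ∧ f x < 1 then g x else 0) := by
  have hK := isCompact_closedBall c b
  have z : ∀ x, x ∉ closedBall c b → max 0 (min 1 (f x)) = 0 ∧
      (if 0 < f x ∧ f x < 1 then g x else 0) = 0 := fun x hx => by
    rw [mem_closedBall, dist_eq_norm, not_le] at hx
    exact ctst_clamp0 (hb x hx.le) _
  refine ⟨h.clamp isOpen_univ zero_le_one, ctst_off hK ?_ fun x hx => (z x hx).2,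
    ⟨1, Eventually.of_forall fun x => ?_⟩, _, hK, subset_univ _, z⟩
  · have := ctst_fin hK
    refine MemLp.of_bound (ctst_meas_ite hf hg).aestronglyMeasurable M
      (Eventually.of_forall fun x => ?_)
    split_ifs
    · exact hM x
    · rw [norm_zero]
      exact (norm_nonneg _).trans (hM x)
  · rw [abs_of_nonneg (ctst_clamp _).1]
    exact (ctst_clamp _).2

/-- Linear radial cutoff: `1` on `‖x - c‖ ≤ a`, `0` on `‖x - c‖ ≥ b`. -/
theorem exists_cut (c : E3) {a b : ℝ} (ha : 0 ≤ a) (hab : a < b) :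
    ∃ ξ q, Tst univ ξ q ∧ Continuous ξ ∧ Measurable q ∧ ∀ x, 0 ≤ ξ x ∧ ξ x ≤ 1 ∧
      ‖q x‖ ≤ 1 / (b - a) ∧ (‖x - c‖ ≤ a → ξ x = 1 ∧ q x = 0) ∧ (b ≤ ‖x - c‖ → ξ x = 0 ∧ q x = 0) ∧
      ∀ y, ‖y - c‖ = ‖x - c‖ → ξ y = ξ x ∧ ‖q y‖ = ‖q x‖ := by
  have _ := ha
  have hd : 0 < b - a := sub_pos.2 hab
  have h := ((LD.const univ b).sub (LD.dist c)).cmul (b - a)⁻¹
  have hf : Continuous fun x : E3 => (b - a)⁻¹ * (b - ‖x - c‖) := by fun_prop
  have hg : Measurable fun x : E3 => (b - a)⁻¹ • ((0 : E3) - ‖x - c‖⁻¹ • (x - c)) := by fun_prop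
  have hn : ∀ x : E3, ‖(b - a)⁻¹ • ((0 : E3) - ‖x - c‖⁻¹ • (x - c))‖ =
      (b - a)⁻¹ * (‖x - c‖⁻¹ * ‖x - c‖) := fun x => by
    rw [zero_sub, norm_smul, norm_neg, norm_smul, norm_inv, norm_inv, norm_norm,
      Real.norm_eq_abs, abs_of_pos hd]
  have hM : ∀ x : E3, ‖(b - a)⁻¹ • ((0 : E3) - ‖x - c‖⁻¹ • (x - c))‖ ≤ 1 / (b - a) := fun x => by
    rw [hn, one_div]
    exact mul_le_of_le_one_right (by positivity) (inv_mul_le_one_of_le₀ le_rfl (norm_nonneg _))
  have hb : ∀ x : E3, b ≤ ‖x - c‖ → (b - a)⁻¹ * (b - ‖x - c‖) ≤ 0 := fun x hx =>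
    mul_nonpos_of_nonneg_of_nonpos (by positivity) (by linarith)
  refine ⟨_, _, ctst_trunc c b h hf hg hM hb, by fun_prop, ctst_meas_ite hf hg, fun x =>
    ⟨(ctst_clamp _).1, (ctst_clamp _).2, ?_, fun hx => ctst_clamp1 ?_ _,
      fun hx => ctst_clamp0 (hb x hx) _, fun y hy => ⟨by simp only [hy], ?_⟩⟩⟩
  · split_ifs
    · exact hM x
    · rw [norm_zero]; positivity
  · rw [← div_eq_inv_mul, le_div_iff₀ hd]
    linarith
  · simp only [hy]
    split_ifs
    · rw [← hy, hn y, hy, hn x]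
    · rfl

/-- Logarithmic radial cutoff. -/
theorem exists_logcut (c : E3) {a b : ℝ} (ha : 0 < a) (hab : a < b) :
    ∃ ξ q, Tst univ ξ q ∧ Continuous ξ ∧ Measurable q ∧ ∀ x, 0 ≤ ξ x ∧ ξ x ≤ 1 ∧
      ‖q x‖ ≤ 1 / (‖x - c‖ * Real.log (b / a)) ∧ (‖x - c‖ ≤ a → ξ x = 1 ∧ q x = 0) ∧
      (b ≤ ‖x - c‖ → ξ x = 0 ∧ q x = 0) ∧
      ∀ y, ‖y - c‖ = ‖x - c‖ → ξ y = ξ x ∧ ‖q y‖ = ‖q x‖ := by
  have hb0 : 0 < b := ha.trans hab
  have hd : 0 < Real.log (b / a) := Real.log_pos ((one_lt_div ha).2 hab)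
  have hm : ∀ x : E3, 0 < max ‖x - c‖ a := fun x => ha.trans_le (le_max_right _ _)
  have h1 := (LD.dist c).max isOpen_univ (LD.const univ a)
  have h2 := h1.log isOpen_univ fun K _ _ =>
    ⟨a, ha, Eventually.of_forall fun x _ => le_max_right _ _⟩
  have h := ((LD.const univ (Real.log b)).sub h2).cmul (Real.log (b / a))⁻¹
  have hf : Continuous fun x : E3 =>
      (Real.log (b / a))⁻¹ * (Real.log b - Real.log (max ‖x - c‖ a)) :=
    continuous_const.mul (continuous_const.sub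
      (Continuous.log (by fun_prop) fun x => (hm x).ne'))
  have hg : Measurable fun x : E3 => (Real.log (b / a))⁻¹ • ((0 : E3) - (max ‖x - c‖ a)⁻¹ •
      (if a < ‖x - c‖ then ‖x - c‖⁻¹ • (x - c) else 0)) := by
    have : Measurable fun x : E3 => (if a < ‖x - c‖ then ‖x - c‖⁻¹ • (x - c) else 0) :=
      Measurable.ite (measurableSet_lt measurable_const (by fun_prop)) (by fun_prop)
        measurable_const
    fun_prop
  have hn : ∀ x : E3, ‖(Real.log (b / a))⁻¹ • ((0 : E3) - (max ‖x - c‖ a)⁻¹ •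
      (if a < ‖x - c‖ then ‖x - c‖⁻¹ • (x - c) else 0))‖ =
      (Real.log (b / a))⁻¹ * ((max ‖x - c‖ a)⁻¹ * if a < ‖x - c‖ then 1 else 0) := fun x => by
    rw [zero_sub, norm_smul, norm_neg, norm_smul, norm_inv, norm_inv,
      Real.norm_eq_abs, Real.norm_eq_abs, abs_of_pos hd, abs_of_pos (hm x)]
    split_ifs with hx
    · rw [norm_smul, norm_inv, norm_norm, inv_mul_cancel₀ (ha.trans hx).ne']
    · rw [norm_zero]
  have hM : ∀ x : E3, ‖(Real.log (b / a))⁻¹ • ((0 : E3) - (max ‖x - c‖ a)⁻¹ •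
      (if a < ‖x - c‖ then ‖x - c‖⁻¹ • (x - c) else 0))‖ ≤ (Real.log (b / a))⁻¹ * a⁻¹ :=
    fun x => by
      rw [hn]
      refine mul_le_mul_of_nonneg_left ?_ (by positivity)
      split_ifs
      · rw [mul_one]
        exact inv_anti₀ ha (le_max_right _ _)
      · rw [mul_zero]; positivity
  have hb : ∀ x : E3, b ≤ ‖x - c‖ →
      (Real.log (b / a))⁻¹ * (Real.log b - Real.log (max ‖x - c‖ a)) ≤ 0 := fun x hx =>
    mul_nonpos_of_nonneg_of_nonpos (by positivity)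
      (sub_nonpos.2 (Real.log_le_log hb0 (hx.trans (le_max_left _ _))))
  refine ⟨_, _, ctst_trunc c b h hf hg hM hb,
    continuous_const.max (continuous_const.min hf), ctst_meas_ite hf hg, fun x =>
    ⟨(ctst_clamp _).1, (ctst_clamp _).2, ?_, fun hx => ctst_clamp1 ?_ _,
      fun hx => ctst_clamp0 (hb x hx) _, fun y hy => ⟨by simp only [hy], ?_⟩⟩⟩
  · by_cases h3 : 0 < (Real.log (b / a))⁻¹ * (Real.log b - Real.log (max ‖x - c‖ a)) ∧
        (Real.log (b / a))⁻¹ * (Real.log b - Real.log (max ‖x - c‖ a)) < 1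
    · rw [if_pos h3, hn]
      split_ifs with hx
      · rw [max_eq_left hx.le, mul_one, one_div, mul_inv, mul_comm]
      · rw [mul_zero, mul_zero]; positivity
    · rw [if_neg h3, norm_zero]; positivity
  · rw [max_eq_right hx, ← Real.log_div hb0.ne' ha.ne', inv_mul_cancel₀ hd.ne']
  · by_cases h3 : 0 < (Real.log (b / a))⁻¹ * (Real.log b - Real.log (max ‖x - c‖ a)) ∧
        (Real.log (b / a))⁻¹ * (Real.log b - Real.log (max ‖x - c‖ a)) < 1
    · rw [if_pos h3, if_pos (by rw [hy]; exact h3), hn, hn, hy]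
    · rw [if_neg h3, if_neg (by rw [hy]; exact h3)]

/-- Cutoff in `|z|`. -/
theorem exists_zcut {a b : ℝ} (ha : 0 ≤ a) (hab : a < b) :
    ∃ ξ q, LD univ ξ q ∧ Continuous ξ ∧ Measurable q ∧ ∀ x, 0 ≤ ξ x ∧ ξ x ≤ 1 ∧
      ‖q x‖ ≤ 1 / (b - a) ∧ (|x 2| ≤ a → ξ x = 1 ∧ q x = 0) ∧ (b ≤ |x 2| → ξ x = 0 ∧ q x = 0) ∧
      ξ (sg x) = ξ x ∧ |⟪q x, x⟫| ≤ b / (b - a) := by
  have hd : 0 < b - a := sub_pos.2 hab
  have hb0 : 0 < b := ha.trans_lt hab
  have h := ((LD.const univ b).sub ((LD.coord univ 2).abs isOpen_univ)).cmul (b - a)⁻¹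
  have hf : Continuous fun x : E3 => (b - a)⁻¹ * (b - |x 2|) := by fun_prop
  have hg : Measurable fun x : E3 =>
      (b - a)⁻¹ • ((0 : E3) - if 0 < x 2 then e 2 else -e 2) := by
    have : Measurable fun x : E3 => (if 0 < x 2 then e 2 else -e 2) :=
      Measurable.ite (measurableSet_lt measurable_const (by fun_prop)) measurable_const
        measurable_const
    fun_prop
  refine ⟨_, _, h.clamp isOpen_univ zero_le_one, by fun_prop, ctst_meas_ite hf hg, fun x =>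
    ⟨(ctst_clamp _).1, (ctst_clamp _).2, ?_, fun hx => ctst_clamp1 ?_ _,
      fun hx => ctst_clamp0 ?_ _, by simp only [sg_2, abs_neg], ?_⟩⟩
  · by_cases h3 : 0 < (b - a)⁻¹ * (b - |x 2|) ∧ (b - a)⁻¹ * (b - |x 2|) < 1
    · rw [if_pos h3, zero_sub, norm_smul, norm_neg, norm_inv, Real.norm_eq_abs, abs_of_pos hd,
        one_div]
      split_ifs
      · rw [norm_e, mul_one]
      · rw [norm_neg, norm_e, mul_one]
    · rw [if_neg h3, norm_zero]; positivity
  · rw [← div_eq_inv_mul, le_div_iff₀ hd]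
    linarith
  · exact mul_nonpos_of_nonneg_of_nonpos (by positivity) (by linarith)
  · by_cases h3 : 0 < (b - a)⁻¹ * (b - |x 2|) ∧ (b - a)⁻¹ * (b - |x 2|) < 1
    · have h4 : |x 2| ≤ b := by
        have := (mul_pos_iff_of_pos_left (inv_pos.2 hd)).1 h3.1
        linarith
      have h5 : ⟪e 2, x⟫ = x 2 := by rw [real_inner_comm, inner_e]
      rw [if_pos h3, zero_sub, real_inner_smul_left, inner_neg_left, abs_mul, abs_neg,
        abs_of_pos (inv_pos.2 hd), div_eq_inv_mul]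
      refine mul_le_mul_of_nonneg_left ?_ (by positivity)
      split_ifs
      · rwa [h5]
      · rwa [inner_neg_left, abs_neg, h5]
    · rw [if_neg h3, inner_zero_left, abs_zero]; positivity

/-- An IMS pair subordinate to a cutoff `ξ` with values in `[0, 1]`. -/
theorem exists_ims {ξ : E3 → ℝ} {q : E3 → E3} (h : LD univ ξ q) :
    LD univ (fun x => Real.sin (Real.pi / 2 * ξ x))
      (fun x => (Real.pi / 2 * Real.cos (Real.pi / 2 * ξ x)) • q x) ∧
    LD univ (fun x => Real.cos (Real.pi / 2 * ξ x))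
      (fun x => -(Real.pi / 2 * Real.sin (Real.pi / 2 * ξ x)) • q x) := by
  constructor
  · refine h.comp (Γ := fun s => Real.sin (Real.pi / 2 * s))
      (Γ' := fun s => Real.pi / 2 * Real.cos (Real.pi / 2 * s)) isOpen_univ (fun s => ?_)
      (by fun_prop)
    have := ((hasDerivAt_id s).const_mul (Real.pi / 2)).sin
    simp only [id, mul_one] at this
    rwa [mul_comm (Real.cos _)] at this
  · refine h.comp (Γ := fun s => Real.cos (Real.pi / 2 * s))
      (Γ' := fun s => -(Real.pi / 2 * Real.sin (Real.pi / 2 * s))) isOpen_univ (fun s => ?_)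
      (by fun_prop)
    have := ((hasDerivAt_id s).const_mul (Real.pi / 2)).cos
    simp only [id, mul_one] at this
    rwa [neg_mul, mul_comm (Real.sin _)] at this

/-- Pointwise IMS identity. -/
theorem ims_identity (a t c : ℝ) (v q : E3) :
    ‖Real.sin t • v + a • ((c * Real.cos t) • q)‖ ^ 2 +
      ‖Real.cos t • v + a • (-(c * Real.sin t) • q)‖ ^ 2 = ‖v‖ ^ 2 + a ^ 2 * c ^ 2 * ‖q‖ ^ 2 := by
  rw [norm_add_sq_real, norm_add_sq_real]
  simp only [real_inner_smul_left, real_inner_smul_right, norm_smul, mul_pow, Real.norm_eq_abs,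
    sq_abs, neg_sq]
  linear_combination (‖v‖ ^ 2 + a ^ 2 * c ^ 2 * ‖q‖ ^ 2) * Real.sin_sq_add_cos_sq t

end

end Vale.Agent.P363
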