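import Vale.Agent.P363.CTstA

/-! P363, block C: `H1`, `L1`, test functions and cutoffs. -/

open MeasureTheory Set Metric Filter Topology
open scoped RealInnerProductSpace

namespace Vale.Agent.P363

noncomputable section

variable {U : Set E3} {f f' ψ : E3 → ℝ} {g g' p : E3 → E3}

/-- A function vanishing off `K` is in `L²` if it is in `L²(K)`. -/
theorem ctst_off {α : Type} [NormedAddCommGroup α] {K : Set E3} (hK : IsCompact K) {F : E3 → α}
    (h : MemLp F 2 (volume.restrict K)) (h0 : ∀ x, x ∉ K → F x = 0) : MemLp F 2 volume := by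
  have e1 : K.indicator F = F := by
    funext x
    by_cases hx : x ∈ K
    · exact indicator_of_mem hx F
    · rw [indicator_of_notMem hx, h0 x hx]
  rw [← e1]
  exact (memLp_indicator_iff_restrict hK.measurableSet).2 h

theorem ctst_inner {μ : Measure E3} {a b : E3 → E3} (ha : MemLp a 2 μ) (hb : MemLp b 2 μ) :
    Integrable (fun x => ⟪a x, b x⟫) μ :=
  (ha.norm.integrable_mul hb.norm).mono' (ha.1.inner hb.1)
    (Eventually.of_forall fun x => norm_inner_le_norm (𝕜 := ℝ) (a x) (b x))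

/-- Bounded factor times an `L²` function. -/
theorem ctst_smul {α : Type} [NormedAddCommGroup α] [NormedSpace ℝ α] {μ : Measure E3}
    {m : E3 → ℝ} {a : E3 → α} {M : ℝ} (hm : AEStronglyMeasurable m μ) (hb : ∀ᵐ x ∂μ, |m x| ≤ M)
    (ha : MemLp a 2 μ) : MemLp (fun x => m x • a x) 2 μ := by
  refine ha.of_le_mul (c := M) (hm.smul ha.1) ?_
  filter_upwards [hb] with x hx
  rw [norm_smul]
  exact mul_le_mul_of_nonneg_right hx (norm_nonneg _)

/-- The product of an `LD` function on `U` with a function supported in a compact subset. -/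
theorem ctst_ld_mul {K : Set E3} (hU : IsOpen U) (hK : IsCompact K) (hKU : K ⊆ U)
    (h : LD univ ψ p) (h0 : ∀ x, x ∉ K → ψ x = 0 ∧ p x = 0) (hf : LD U f g) :
    LD univ (fun x => f x * ψ x) (fun x => f x • p x + ψ x • g x) := by
  have h1 := (hf.mul hU (h.mono (subset_univ U))).glue hU hK.isClosed hKU
    (Eventually.of_forall fun x _ hx => by simp only [(h0 x hx).1, mul_zero])
  refine h1.congr isOpen_univ (Eventually.of_forall fun x _ => ?_)
    (Eventually.of_forall fun x _ => ?_)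
  · by_cases hx : x ∈ K
    · rw [indicator_of_mem hx]
    · rw [indicator_of_notMem hx, (h0 x hx).1, mul_zero]
  · by_cases hx : x ∈ K
    · rw [indicator_of_mem hx]
    · rw [indicator_of_notMem hx, (h0 x hx).1, (h0 x hx).2, smul_zero, zero_smul, add_zero]

theorem Tst.mono {U' : Set E3} (h : Tst U ψ p) (hU : U ⊆ U') : Tst U' ψ p := by
  obtain ⟨K, hK, hKU, h0⟩ := h.cpt
  exact ⟨h.ld, h.l2g, h.bd, K, hK, hKU.trans hU, h0⟩

theorem Tst.h1 (h : Tst U ψ p) : H1 ψ p ∧ Integrable ψ ∧ Integrable p := by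
  obtain ⟨K, hK, -, h0⟩ := h.cpt
  obtain ⟨M, hM⟩ := h.bd
  have := ctst_fin hK
  have h1 : MemLp ψ 2 (volume.restrict K) :=
    MemLp.of_bound (ctst_mf h.ld).restrict M (ae_restrict_of_ae hM)
  refine ⟨⟨h.ld, ctst_off hK h1 fun x hx => (h0 x hx).1, h.l2g⟩, ?_, ?_⟩
  · exact IntegrableOn.integrable_of_forall_notMem_eq_zero (s := K)
      (h1.integrable one_le_two) fun x hx => (h0 x hx).1
  · exact IntegrableOn.integrable_of_forall_notMem_eq_zero (s := K)
      ((h.l2g.restrict K).integrable one_le_two) fun x hx => (h0 x hx).2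

theorem Tst.add {ψ' : E3 → ℝ} {p' : E3 → E3} (h : Tst U ψ p) (h' : Tst U ψ' p') :
    Tst U (fun x => ψ x + ψ' x) (fun x => p x + p' x) := by
  obtain ⟨K, hK, hKU, h0⟩ := h.cpt
  obtain ⟨K', hK', hKU', h0'⟩ := h'.cpt
  obtain ⟨M, hM⟩ := h.bd
  obtain ⟨M', hM'⟩ := h'.bd
  refine ⟨h.ld.add h'.ld, h.l2g.add h'.l2g, ⟨M + M', ?_⟩, K ∪ K', hK.union hK',
    union_subset hKU hKU', fun x hx => ?_⟩
  · filter_upwards [hM, hM'] with x a b using (abs_add_le _ _).trans (add_le_add a b)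
  · have a := h0 x fun h => hx (Or.inl h)
    have b := h0' x fun h => hx (Or.inr h)
    simp only [a.1, a.2, b.1, b.2, add_zero, and_self]

theorem Tst.cmul (c : ℝ) (h : Tst U ψ p) : Tst U (fun x => c * ψ x) (fun x => c • p x) := by
  obtain ⟨K, hK, hKU, h0⟩ := h.cpt
  obtain ⟨M, hM⟩ := h.bd
  refine ⟨h.ld.cmul c, h.l2g.const_smul c, ⟨|c| * M, ?_⟩, K, hK, hKU, fun x hx => ?_⟩
  · filter_upwards [hM] with x a
    rw [abs_mul]
    exact mul_le_mul_of_nonneg_left a (abs_nonneg c)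
  · simp only [(h0 x hx).1, (h0 x hx).2, mul_zero, smul_zero, and_self]

theorem Tst.refl (h : Tst U ψ p) :
    Tst (sg ⁻¹' U) (fun x => ψ (sg x)) (fun x => sg (p (sg x))) := by
  obtain ⟨K, hK, hKU, h0⟩ := h.cpt
  obtain ⟨M, hM⟩ := h.bd
  refine ⟨h.ld.refl, ctst_memLp_sg' (ctst_memLp_sg h.l2g), ⟨M, ae_sg hM⟩, sg '' K,
    hK.image continuous_sg, ?_, fun x hx => ?_⟩
  · rintro _ ⟨y, hy, rfl⟩
    show sg (sg y) ∈ U
    rw [sg_sg]
    exact hKU hy
  · have a := h0 (sg x) fun h => hx ⟨sg x, h, sg_sg x⟩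
    simp only [a.1, a.2, ctst_sg_zero, and_self]

theorem Tst.mul (hU : IsOpen U) (h : Tst U ψ p) (hf : L1 U f g) (hb : LocB U f) :
    Tst U (fun x => f x * ψ x) (fun x => f x • p x + ψ x • g x) := by
  obtain ⟨K, hK, hKU, h0⟩ := h.cpt
  obtain ⟨M, hM⟩ := h.bd
  obtain ⟨M', hM'⟩ := hb K hK hKU
  have z : ∀ x, x ∉ K → f x * ψ x = 0 ∧ f x • p x + ψ x • g x = 0 := fun x hx => by
    simp only [(h0 x hx).1, (h0 x hx).2, mul_zero, smul_zero, zero_smul, add_zero, and_self]
  refine ⟨ctst_ld_mul hU hK hKU h.ld h0 hf.ld, ctst_off hK ?_ fun x hx => (z x hx).2,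
    ⟨|M'| * |M|, ?_⟩, K, hK, hKU, z⟩
  · exact (ctst_smul (hf.l2 K hK hKU).1 ((ae_restrict_iff' hK.measurableSet).2 hM')
      (h.l2g.restrict K)).add
      (ctst_smul (ctst_mf h.ld).restrict (ae_restrict_of_ae hM) (hf.l2g K hK hKU))
  · filter_upwards [hM, hM'] with x a b
    by_cases hx : x ∈ K
    · rw [abs_mul]
      exact mul_le_mul ((b hx).trans (le_abs_self _)) (a.trans (le_abs_self _)) (abs_nonneg _)
        (abs_nonneg _)
    · rw [(z x hx).1, abs_zero]
      positivity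

theorem Tst.mk' {K : Set E3} (hU : IsOpen U) (hK : IsCompact K) (hKU : K ⊆ U) (hf : L1 U f g)
    (hb : LocB U f) (h0 : ∀ᵐ x : E3, x ∈ U → x ∉ K → f x = 0) :
    Tst U (K.indicator f) (K.indicator g) := by
  obtain ⟨M, hM⟩ := hb K hK hKU
  refine ⟨hf.ld.glue hU hK.isClosed hKU h0,
    (memLp_indicator_iff_restrict hK.measurableSet).2 (hf.l2g K hK hKU), ⟨|M|, ?_⟩, K, hK, hKU,
    fun x hx => ⟨indicator_of_notMem hx _, indicator_of_notMem hx _⟩⟩
  filter_upwards [hM] with x a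
  by_cases hx : x ∈ K
  · rw [indicator_of_mem hx]
    exact (a hx).trans (le_abs_self _)
  · rw [indicator_of_notMem hx, abs_zero]
    exact abs_nonneg _

theorem Tst.cut (h : Tst U ψ p) (hz : TZ univ ψ) : Tst U (Hp.indicator ψ) (Hp.indicator p) := by
  obtain ⟨K, hK, hKU, h0⟩ := h.cpt
  obtain ⟨M, hM⟩ := h.bd
  refine ⟨h.ld.cut isOpen_univ hz, h.l2g.indicator isOpen_Hp.measurableSet, ⟨M, ?_⟩, K, hK, hKU,
    fun x hx => ?_⟩
  · filter_upwards [hM] with x a
    by_cases hx : x ∈ Hp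
    · rwa [indicator_of_mem hx]
    · rw [indicator_of_notMem hx, abs_zero]
      exact (abs_nonneg _).trans a
  · exact ⟨indicator_apply_eq_zero.2 fun _ => (h0 x hx).1,
      indicator_apply_eq_zero.2 fun _ => (h0 x hx).2⟩

theorem Tst.h1_mul (hU : IsOpen U) (h : Tst U ψ p) (hf : L1 U f g)
    (hp : MemLp (fun x => f x • p x) 2 volume) :
    H1 (fun x => f x * ψ x) (fun x => f x • p x + ψ x • g x) := by
  obtain ⟨K, hK, hKU, h0⟩ := h.cpt
  obtain ⟨M, hM⟩ := h.bd
  refine ⟨ctst_ld_mul hU hK hKU h.ld h0 hf.ld, ctst_off hK ?_ fun x hx => ?_,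
    hp.add (ctst_off hK ?_ fun x hx => ?_)⟩
  · have := ctst_smul (ctst_mf h.ld).restrict (ae_restrict_of_ae hM) (hf.l2 K hK hKU)
    simpa only [smul_eq_mul, mul_comm] using this
  · rw [(h0 x hx).1, mul_zero]
  · exact ctst_smul (ctst_mf h.ld).restrict (ae_restrict_of_ae hM) (hf.l2g K hK hKU)
  · rw [(h0 x hx).1, zero_smul]

/-- Product of an `LD` function with locally integrable data and a Lipschitz test function. -/
theorem Tst.w11_mul (hU : IsOpen U) (h : Tst U ψ p) (hf : LD U f g) (h1 : Loc1 U f)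
    (h2 : Loc1 U (fun x => ‖g x‖)) (hp : Integrable (fun x => f x • p x)) :
    LD univ (fun x => f x * ψ x) (fun x => f x • p x + ψ x • g x) ∧
      Integrable (fun x => f x * ψ x) ∧ Integrable (fun x => f x • p x + ψ x • g x) := by
  obtain ⟨K, hK, hKU, h0⟩ := h.cpt
  obtain ⟨M, hM⟩ := h.bd
  have hg : Integrable g (volume.restrict K) :=
    (integrable_norm_iff (hf.mg.mono_set hKU)).1 (h2 K hK hKU)
  refine ⟨ctst_ld_mul hU hK hKU h.ld h0 hf, ?_, hp.add ?_⟩
  · refine IntegrableOn.integrable_of_forall_notMem_eq_zero (s := K) ?_ fun x hx => ?_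
    · exact Integrable.mul_bdd (h1 K hK hKU) (ctst_mf h.ld).restrict (ae_restrict_of_ae hM)
    · rw [(h0 x hx).1, mul_zero]
  · refine IntegrableOn.integrable_of_forall_notMem_eq_zero (s := K) ?_ fun x hx => ?_
    · exact hg.bdd_smul M (ctst_mf h.ld).restrict (ae_restrict_of_ae hM)
    · rw [(h0 x hx).1, zero_smul]

theorem Tst.int (h : Tst U ψ p) {R : E3 → ℝ} (hR : Loc1 U R) (hg : Loc2 U g) :
    Integrable (fun x => R x * ψ x) ∧ Integrable (fun x => ⟪g x, p x⟫) := by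
  obtain ⟨K, hK, hKU, h0⟩ := h.cpt
  obtain ⟨M, hM⟩ := h.bd
  constructor
  · refine IntegrableOn.integrable_of_forall_notMem_eq_zero (s := K) ?_ fun x hx => ?_
    · exact Integrable.mul_bdd (hR K hK hKU) (ctst_mf h.ld).restrict (ae_restrict_of_ae hM)
    · rw [(h0 x hx).1, mul_zero]
  · refine IntegrableOn.integrable_of_forall_notMem_eq_zero (s := K) ?_ fun x hx => ?_
    · exact ctst_inner (hg K hK hKU) (h.l2g.restrict K)
    · rw [(h0 x hx).2, inner_zero_right]

end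

end Vale.Agent.P363
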