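import Vale.Agent.P363.CTst
import Vale.Agent.P363.CGid
import Vale.Agent.P363.CAbs

/-! P363, block C: vector valued functions: algebra. -/

open MeasureTheory Set Metric Filter Topology
open scoped RealInnerProductSpace

namespace Vale.Agent.P363

noncomputable section

variable {Y : Type} [MeasurableSpace Y] {ν : Measure Y} [SFinite ν] {U : Set E3}
  {F F' : E3 × Y → ℝ} {G G' : E3 × Y → E3}

theorem cvec1a_ae {μ : Measure E3} [SFinite μ] {P : E3 × Y → Prop} (h : ∀ᵐ w ∂(μ.prod ν), P w) :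
    ∀ᵐ y ∂ν, ∀ᵐ x ∂μ, P (x, y) :=
  Measure.ae_ae_of_ae_prod (p := fun w : Y × E3 => P w.swap)
    (Measure.measurePreserving_swap.quasiMeasurePreserving.ae h)

theorem cvec1a_slice {α : Type} [NormedAddCommGroup α] {μ : Measure E3} [SFinite μ]
    {f : E3 × Y → α} (h : MemLp f 2 (μ.prod ν)) : ∀ᵐ y ∂ν, MemLp (fun x => f (x, y)) 2 μ := by
  have h1 := ((memLp_two_iff_integrable_sq_norm h.1).1 h).prod_left_ae
  filter_upwards [h1, h.1.prodMk_right] with y h2 h3
  exact (memLp_two_iff_integrable_sq_norm h3).2 h2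

theorem HV.lv (h : HV ν F G) (U : Set E3) : LV U ν F G := by
  refine ⟨fun K _ _ => ?_, fun K _ _ => ?_, h.ld.mono fun y hy => hy.mono (subset_univ U)⟩
  · rw [Measure.restrict_prod_eq_prod_univ]
    exact h.l2.restrict _
  · rw [Measure.restrict_prod_eq_prod_univ]
    exact h.l2g.restrict _

theorem LV.mono {U' : Set E3} (h : LV U ν F G) (hU : U' ⊆ U) : LV U' ν F G :=
  ⟨fun K h1 h2 => h.l2 K h1 (h2.trans hU), fun K h1 h2 => h.l2g K h1 (h2.trans hU),
    h.ld.mono fun _ hy => hy.mono hU⟩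

theorem HV.add (h : HV ν F G) (h' : HV ν F' G') :
    HV ν (fun w => F w + F' w) (fun w => G w + G' w) :=
  ⟨h.l2.add h'.l2, h.l2g.add h'.l2g, (h.ld.and h'.ld).mono fun _ hy => hy.1.add hy.2⟩

theorem HV.sub (h : HV ν F G) (h' : HV ν F' G') :
    HV ν (fun w => F w - F' w) (fun w => G w - G' w) :=
  ⟨h.l2.sub h'.l2, h.l2g.sub h'.l2g, (h.ld.and h'.ld).mono fun _ hy => hy.1.sub hy.2⟩

theorem HV.cmul (c : ℝ) (h : HV ν F G) : HV ν (fun w => c * F w) (fun w => c • G w) :=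
  ⟨h.l2.const_mul c, h.l2g.const_smul c, h.ld.mono fun _ hy => hy.cmul c⟩

theorem HV.congr (h : HV ν F G) (h1 : ∀ᵐ w ∂((volume : Measure E3).prod ν), F' w = F w)
    (h2 : ∀ᵐ w ∂((volume : Measure E3).prod ν), G' w = G w) : HV ν F' G' := by
  refine ⟨(memLp_congr_ae h1).2 h.l2, (memLp_congr_ae h2).2 h.l2g, ?_⟩
  filter_upwards [h.ld, cvec1a_ae h1, cvec1a_ae h2] with y h3 h4 h5
  exact h3.congr isOpen_univ (h4.mono fun _ hx _ => hx) (h5.mono fun _ hx _ => hx)

theorem HV.unique (h : HV ν F G) (h' : HV ν F G') :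
    ∀ᵐ w ∂((volume : Measure E3).prod ν), G w = G' w := by
  have e1 := h.l2g.1.ae_eq_mk
  have e2 := h'.l2g.1.ae_eq_mk
  have hm : MeasurableSet {w | h.l2g.1.mk G w = h'.l2g.1.mk G' w} :=
    h.l2g.1.stronglyMeasurable_mk.measurableSet_eq_fun h'.l2g.1.stronglyMeasurable_mk
  have e3 : ∀ᵐ w ∂((volume : Measure E3).prod ν), h.l2g.1.mk G w = h'.l2g.1.mk G' w := by
    rw [Measure.ae_prod_iff_ae_ae hm,
      Measure.ae_ae_comm (p := fun x y => h.l2g.1.mk G (x, y) = h'.l2g.1.mk G' (x, y)) hm]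
    filter_upwards [h.ld, h'.ld, cvec1a_ae e1, cvec1a_ae e2] with y h1 h2 h3 h4
    filter_upwards [h1.unique isOpen_univ h2, h3, h4] with x h5 h6 h7
    rw [← h6, ← h7]
    exact h5 (mem_univ x)
  filter_upwards [e1, e2, e3] with w h1 h2 h3
  rw [h1, h2, h3]

theorem HV.refl (h : HV ν F G) :
    HV ν (fun w => F (sg w.1, w.2)) (fun w => sg (G (sg w.1, w.2))) := by
  have hp := mp_sg.prod (MeasurePreserving.id ν)
  have h1 := h.l2g.comp_measurePreserving hp
  refine ⟨h.l2.comp_measurePreserving hp,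
    h1.of_le (continuous_sg.comp_aestronglyMeasurable h1.1)
      (Eventually.of_forall fun w => (norm_sg _).le), h.ld.mono fun y hy => ?_⟩
  exact hy.refl

theorem HV.dilate (h : HV ν F G) {c : ℝ} (hc : 0 < c) :
    HV ν (fun w => F (c • w.1, w.2)) (fun w => c • G (c • w.1, w.2)) := by
  have h0 : MeasurePreserving (fun x : E3 => c • x) volume
      (ENNReal.ofReal |(c ^ Module.finrank ℝ E3)⁻¹| • volume) :=
    ⟨measurable_const_smul c, Measure.map_addHaar_smul volume hc.ne'⟩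
  have hp := h0.prod (MeasurePreserving.id ν)
  rw [Measure.prod_smul_left] at hp
  refine ⟨(h.l2.smul_measure ENNReal.ofReal_ne_top).comp_measurePreserving hp,
    ((h.l2g.smul_measure ENNReal.ofReal_ne_top).comp_measurePreserving hp).const_smul c,
    h.ld.mono fun y hy => ?_⟩
  exact hy.dilate hc

/-- Change of variables in the parameter. -/
theorem HV.map {Y' : Type} [MeasurableSpace Y'] {ν' : Measure Y'} [SFinite ν'] {T : Y' → Y}
    (hT : MeasurePreserving T ν' ν) (h : HV ν F G) :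
    HV ν' (fun w => F (w.1, T w.2)) (fun w => G (w.1, T w.2)) := by
  have hp := (MeasurePreserving.id (volume : Measure E3)).prod hT
  exact ⟨h.l2.comp_measurePreserving hp, h.l2g.comp_measurePreserving hp,
    hT.quasiMeasurePreserving.ae h.ld⟩

theorem HV.slice (h : HV ν F G) : ∀ᵐ y ∂ν, H1 (fun x => F (x, y)) (fun x => G (x, y)) := by
  filter_upwards [h.ld, cvec1a_slice h.l2, cvec1a_slice h.l2g] with y h1 h2 h3
  exact ⟨h1, h2, h3⟩

theorem LV.slice (hU : IsOpen U) (h : LV U ν F G) :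
    ∀ᵐ y ∂ν, L1 U (fun x => F (x, y)) (fun x => G (x, y)) := by
  obtain ⟨K, k1, k2, -, k3⟩ := exists_exhaust hU
  have h1 := ae_all_iff.2 fun n => cvec1a_slice (h.l2 (K n) (k1 n) (k2 n))
  have h2 := ae_all_iff.2 fun n => cvec1a_slice (h.l2g (K n) (k1 n) (k2 n))
  filter_upwards [h.ld, h1, h2] with y h3 h4 h5
  refine ⟨h3, fun Q q1 q2 => ?_, fun Q q1 q2 => ?_⟩
  · obtain ⟨n, hn⟩ := k3 Q q1 q2
    exact (h4 n).mono_measure (Measure.restrict_mono (hn.trans interior_subset) le_rfl)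
  · obtain ⟨n, hn⟩ := k3 Q q1 q2
    exact (h5 n).mono_measure (Measure.restrict_mono (hn.trans interior_subset) le_rfl)

end

end Vale.Agent.P363
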