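import Vale.Agent.P363.CVec2A

/-! P363, block C: vector valued functions: inner products and norms. -/

open MeasureTheory Set Metric Filter Topology
open scoped RealInnerProductSpace

namespace Vale.Agent.P363

noncomputable section

variable {Y : Type} [MeasurableSpace Y] {ν : Measure Y} [SFinite ν] {U : Set E3}
  {F F' : E3 × Y → ℝ} {G G' : E3 × Y → E3}

theorem vec2_slice {α : Type} [NormedAddCommGroup α] {μ : Measure E3} [SFinite μ]
    {a : E3 × Y → α} (h : MemLp a 2 (μ.prod ν)) :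
    (∀ᵐ x ∂μ, MemLp (fun y => a (x, y)) 2 ν) ∧
      Integrable (fun x => ∫ y, ‖a (x, y)‖ ^ 2 ∂ν) μ := by
  have h1 := (memLp_two_iff_integrable_sq_norm h.1).1 h
  refine ⟨?_, h1.integral_prod_left⟩
  filter_upwards [h1.prod_right_ae, h.1.prodMk_left] with x hx hm
  exact (memLp_two_iff_integrable_sq_norm hm).2 hx

theorem vec2_meas {q : E3 → ℝ} {J : E3 → E3} (h : LD U q (fun x => (2 : ℝ) • J x)) :
    AEStronglyMeasurable (fun x => √(q x)) (volume.restrict U) ∧
    AEStronglyMeasurable (fun x => (√(q x))⁻¹ • J x) (volume.restrict U) := by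
  have h1 : AEStronglyMeasurable (fun x => √(q x)) (volume.restrict U) :=
    Real.continuous_sqrt.comp_aestronglyMeasurable h.mf
  have h2 : AEStronglyMeasurable J (volume.restrict U) := by
    have := h.mg.const_smul (1 / 2 : ℝ)
    refine this.congr (Eventually.of_forall fun x => ?_)
    simp [smul_smul]
  exact ⟨h1, h1.aemeasurable.inv.aestronglyMeasurable.smul h2⟩

theorem vec2_sqrt (hU : IsOpen U) {q : E3 → ℝ} {J : E3 → E3}
    (h : LD U q (fun x => (2 : ℝ) • J x)) (h0 : ∀ x, 0 ≤ q x)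
    (hl : Loc1 U (fun x => ‖(√(q x))⁻¹ • J x‖)) :
    LD U (fun x => √(q x)) (fun x => (√(q x))⁻¹ • J x) := by
  have hz : ∀ᵐ x : E3, x ∈ U → q x = 0 → J x = 0 := by
    filter_upwards [h.zero_set hU] with x hx h1 h2
    simpa using hx h1 h2
  set ε : ℕ → ℝ := fun n => 1 / ((n : ℝ) + 1) with hε
  have hp : ∀ n, 0 < ε n := fun n => by simp only [hε]; positivity
  have ht : Tendsto ε atTop (𝓝 0) := tendsto_one_div_add_atTop_nhds_zero_nat
  have hn : ∀ n, LD U (fun x => √(q x + ε n)) (fun x => (√(q x + ε n))⁻¹ • J x) := by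
    intro n
    have h1 := (h.add (LD.const U (ε n))).sqrt hU fun K _ _ =>
      ⟨ε n, hp n, Eventually.of_forall fun x _ => by linarith [h0 x]⟩
    refine h1.congr hU (Eventually.of_forall fun x _ => rfl)
      (Eventually.of_forall fun x _ => ?_)
    have h2 : 0 < √(q x + ε n) := Real.sqrt_pos.2 (by linarith [h0 x, hp n])
    rw [add_zero, smul_smul]
    congr 1
    field_simp
  have hs : ∀ x, Tendsto (fun n => √(q x + ε n)) atTop (𝓝 (√(q x))) := by
    intro x
    have := (Real.continuous_sqrt.tendsto _).comp (tendsto_const_nhds (x := q x).add ht)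
    simpa [Function.comp_def] using this
  refine LD.of_pairs hU (vec2_meas h).1 (vec2_meas h).2 hl fun k => ?_
  filter_upwards [ae_all_iff.2 fun n => (hn n).pairs k, ae_line_loc k hU hl, ae_line k hz]
    with x h1 h2 h3
  filter_upwards [ae_all_iff.2 h1] with a h4
  filter_upwards [ae_all_iff.2 h4] with b h5 hab
  have h6 : Tendsto (fun n => ∫ t in a..b, ((√(q (x + t • e k) + ε n))⁻¹ • J (x + t • e k)) k)
      atTop (𝓝 (∫ t in a..b, ((√(q (x + t • e k)))⁻¹ • J (x + t • e k)) k)) := by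
    refine intervalIntegral.tendsto_integral_filter_of_dominated_convergence
      (fun t => ‖(√(q (x + t • e k)))⁻¹ • J (x + t • e k)‖)
      (Eventually.of_forall fun n => (h5 n hab).1.def'.1) (Eventually.of_forall fun n => ?_)
      (h2 a b hab) ?_
    · filter_upwards [h3] with t h7 h8
      have h9 := h7 (hab t (uIoc_subset_uIcc h8))
      refine (abs_coord_le _ k).trans ?_
      rcases (h0 (x + t • e k)).eq_or_lt with h10 | h10
      · simp [h9 h10.symm]
      · rw [norm_smul, norm_smul, norm_inv, norm_inv, Real.norm_of_nonneg (Real.sqrt_nonneg _),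
          Real.norm_of_nonneg (Real.sqrt_nonneg _)]
        refine mul_le_mul_of_nonneg_right (inv_anti₀ (Real.sqrt_pos.2 h10)
          (Real.sqrt_le_sqrt (by linarith [hp n]))) (norm_nonneg _)
    · filter_upwards [h3] with t h7 h8
      have h9 := h7 (hab t (uIoc_subset_uIcc h8))
      rcases (h0 (x + t • e k)).eq_or_lt with h10 | h10
      · simp [h9 h10.symm]
      · simp only [PiLp.smul_apply, smul_eq_mul]
        exact ((hs _).inv₀ (Real.sqrt_pos.2 h10).ne').mul_const _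
  refine tendsto_nhds_unique ((hs _).sub (hs _)) (h6.congr fun n => (h5 n hab).2.symm)

theorem vec2_pt {q c : ℝ} {J : E3} (hq : 0 ≤ q) (hc : 0 ≤ c) (h : ‖J‖ ^ 2 ≤ q * c) :
    ‖(√q)⁻¹ • J‖ ^ 2 ≤ c ∧ √q • (√q)⁻¹ • J = J := by
  rcases hq.eq_or_lt with h0 | h0
  · subst h0
    have h1 : J = 0 := by simpa using h
    simp [h1, hc]
  · have h1 : 0 < √q := Real.sqrt_pos.2 h0
    refine ⟨?_, by rw [smul_smul, mul_inv_cancel₀ h1.ne', one_smul]⟩
    rw [norm_smul, norm_inv, Real.norm_of_nonneg h1.le, mul_pow, inv_pow, Real.sq_sqrt hq,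
      inv_mul_le_iff₀ h0]
    exact h

theorem LV.nrm (hU : IsOpen U) (h : LV U ν F G) : L1 U (nrm ν F) (gnr ν F G) ∧
    ∀ᵐ x : E3, x ∈ U → ‖gnr ν F G x‖ ^ 2 ≤ ∫ y, ‖G (x, y)‖ ^ 2 ∂ν ∧
      nrm ν F x • gnr ν F G x = ∫ y, F (x, y) • G (x, y) ∂ν := by
  have hq := h.sq hU
  have h0 : ∀ x, 0 ≤ ∫ y, F (x, y) ^ 2 ∂ν := fun x => integral_nonneg fun y => sq_nonneg _
  have hpt : ∀ᵐ x : E3, x ∈ U → ‖gnr ν F G x‖ ^ 2 ≤ ∫ y, ‖G (x, y)‖ ^ 2 ∂ν ∧
      Vale.Agent.P363.nrm ν F x • gnr ν F G x = ∫ y, F (x, y) • G (x, y) ∂ν := by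
    refine ae_of_compacts hU fun K hK hKU => ?_
    rw [← ae_restrict_iff' hK.measurableSet]
    filter_upwards [(vec2_slice (h.l2 K hK hKU)).1, (vec2_slice (h.l2g K hK hKU)).1] with x h1 h2
    exact vec2_pt (h0 x) (integral_nonneg fun y => sq_nonneg _) (norm_int_le h1 h2).2
  have l2 : Loc2 U (Vale.Agent.P363.nrm ν F) := by
    intro K hK hKU
    refine (memLp_two_iff_integrable_sq
      ((vec2_meas hq).1.mono_measure (Measure.restrict_mono hKU le_rfl))).2 ?_
    refine (vec2_slice (h.l2 K hK hKU)).2.congr (Eventually.of_forall fun x => ?_)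
    simp only [Real.norm_eq_abs, sq_abs]
    exact (Real.sq_sqrt (h0 x)).symm
  have l2g : Loc2 U (gnr ν F G) := by
    intro K hK hKU
    have hm : AEStronglyMeasurable (gnr ν F G) (volume.restrict K) :=
      (vec2_meas hq).2.mono_measure (Measure.restrict_mono hKU le_rfl)
    refine (memLp_two_iff_integrable_sq_norm hm).2 ?_
    refine (vec2_slice (h.l2g K hK hKU)).2.mono' (hm.norm.pow 2) ?_
    rw [ae_restrict_iff' hK.measurableSet]
    filter_upwards [hpt] with x hx hxK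
    rw [Real.norm_of_nonneg (sq_nonneg _)]
    exact (hx (hKU hxK)).1
  refine ⟨⟨vec2_sqrt hU hq h0 fun K hK hKU => ?_, l2, l2g⟩, hpt⟩
  have : IsFiniteMeasure (volume.restrict K) := isFiniteMeasure_restrict.2 hK.measure_lt_top.ne
  exact ((l2g K hK hKU).integrable one_le_two).norm

theorem HV.nrm (h : HV ν F G) : H1 (nrm ν F) (gnr ν F G) ∧
    (∫ x, nrm ν F x ^ 2) = ∫ w, F w ^ 2 ∂(volume.prod ν) ∧
    (∫ x, ‖gnr ν F G x‖ ^ 2) ≤ ∫ w, ‖G w‖ ^ 2 ∂(volume.prod ν) := by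
  obtain ⟨h1, h2⟩ := (h.lv univ).nrm isOpen_univ
  have hs : ∀ x, Vale.Agent.P363.nrm ν F x ^ 2 = ∫ y, ‖F (x, y)‖ ^ 2 ∂ν := fun x => by
    simp only [Real.norm_eq_abs, sq_abs]
    exact Real.sq_sqrt (integral_nonneg fun y => sq_nonneg _)
  have m1 : AEStronglyMeasurable (Vale.Agent.P363.nrm ν F) volume := by simpa using h1.ld.mf
  have m2 : AEStronglyMeasurable (gnr ν F G) volume := by simpa using h1.ld.mg
  obtain ⟨-, a1, a2⟩ := ae_slice2 h.l2
  obtain ⟨-, b1, b2⟩ := ae_slice2 h.l2g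
  have hle : ∀ᵐ x : E3, ‖gnr ν F G x‖ ^ 2 ≤ ∫ y, ‖G (x, y)‖ ^ 2 ∂ν := by
    filter_upwards [h2] with x hx using (hx trivial).1
  have i2 : Integrable fun x => ‖gnr ν F G x‖ ^ 2 := by
    refine b1.mono' (m2.norm.pow 2) ?_
    filter_upwards [hle] with x hx
    rwa [Real.norm_of_nonneg (sq_nonneg _)]
  refine ⟨⟨h1.ld, (memLp_two_iff_integrable_sq m1).2 (by simpa only [hs] using a1),
    (memLp_two_iff_integrable_sq_norm m2).2 i2⟩, ?_, ?_⟩
  · simp only [hs, a2]
    simp only [Real.norm_eq_abs, sq_abs]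
  · rw [← b2]
    exact integral_mono_ae i2 b1 hle

theorem HV.proj {T : Y → ℝ} (h : HV ν F G) (hT : MemLp T 2 ν) :
    H1 (fun x => ∫ y, T y * F (x, y) ∂ν) (fun x => ∫ y, T y • G (x, y) ∂ν) := by
  have h1 : LV univ ν (fun w : E3 × Y => T w.2) (fun _ => 0) := by
    refine ⟨fun K hK _ => ?_, fun K _ _ => MemLp.zero', Eventually.of_forall fun y =>
      LD.const univ (T y)⟩
    have : IsFiniteMeasure (volume.restrict K) := isFiniteMeasure_restrict.2 hK.measure_lt_top.ne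
    exact hT.comp_snd _
  have h2 : LD univ (fun x => ∫ y, T y * F (x, y) ∂ν) (fun x => ∫ y, T y • G (x, y) ∂ν) := by
    simpa using h1.inner isOpen_univ (h.lv univ)
  have m2 : AEStronglyMeasurable (fun x => ∫ y, T y • G (x, y) ∂ν) volume := by
    simpa using h2.mg
  refine ⟨h2, (memLp_proj h.l2 hT).1, (memLp_two_iff_integrable_sq_norm m2).2 ?_⟩
  obtain ⟨b0, b1, -⟩ := ae_slice2 h.l2g
  refine (b1.const_mul (∫ y, T y ^ 2 ∂ν)).mono' (m2.norm.pow 2) ?_
  filter_upwards [b0] with x hx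
  rw [Real.norm_of_nonneg (sq_nonneg _)]
  exact (norm_int_le hT hx).2

/-- The norm of a function that is odd in `x` has trace zero. -/
theorem HV.nrm_TZ (h : HV ν F G)
    (ho : ∀ᵐ w ∂((volume : Measure E3).prod ν), F (sg w.1, w.2) = -F w) :
    TZ univ (Vale.Agent.P363.nrm ν F) := by
  have hm : MeasurableSet (Prod.fst ⁻¹' Hp : Set (E3 × Y)) :=
    measurable_fst isOpen_Hp.measurableSet
  have ho' : ∀ᵐ y ∂ν, ∀ᵐ x : E3, F (sg x, y) = -F (x, y) :=
    Measure.ae_ae_of_ae_prod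
      ((Measure.measurePreserving_swap (μ := ν) (ν := (volume : Measure E3))
        ).quasiMeasurePreserving.ae ho)
  have h1 : HV ν ((Prod.fst ⁻¹' Hp).indicator F) ((Prod.fst ⁻¹' Hp).indicator G) := by
    refine ⟨h.l2.indicator hm, h.l2g.indicator hm, ?_⟩
    filter_upwards [h.ld, ho'] with y h2 h3
    exact h2.cut isOpen_univ (TZ.of_odd isOpen_univ (fun _ _ => trivial) h2
      (h3.mono fun x hx _ => hx))
  have h2 := h1.nrm.1.ld
  set N := Vale.Agent.P363.nrm ν ((Prod.fst ⁻¹' Hp).indicator F) with hN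
  have h3 : ∀ x : E3, 0 < x 2 → N x - N (sg x) = Vale.Agent.P363.nrm ν F x := by
    intro x hx
    have h4 : ∀ y, (Prod.fst ⁻¹' Hp).indicator F (x, y) = F (x, y) := fun y =>
      indicator_of_mem (s := Prod.fst ⁻¹' Hp) (a := (x, y)) hx _
    have h5 : ∀ y, (Prod.fst ⁻¹' Hp).indicator F (sg x, y) = 0 := fun y =>
      indicator_of_notMem (s := Prod.fst ⁻¹' Hp) (a := (sg x, y))
        (show ¬ 0 < sg x 2 by rw [sg_2]; linarith) _
    simp [hN, Vale.Agent.P363.nrm, h4, h5]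
  have h4 := TZ.of_odd isOpen_univ (fun _ _ => trivial) (h2.sub h2.refl)
    (Eventually.of_forall fun x _ => by simp [sg_sg])
  filter_upwards [h4] with x hx hU ε hε
  obtain ⟨s, hs, h5⟩ := hx hU ε hε
  refine ⟨s, hs, h5.mono fun t ht h6 h7 => ?_⟩
  rw [← h3 _ (by simpa [e_apply] using h6)]
  exact ht h6 h7

/-- Radial and angular parts of the gradient: for `t = F / R`. -/
theorem angular {a : Y → ℝ} {b : Y → E3} (ha : MemLp a 2 ν) (hb : MemLp b 2 ν) {R : ℝ}
    (hR : 0 < R) (v : E3) :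
    R ^ 2 * ∫ y, ‖R⁻¹ • b y - (a y / R ^ 2) • v‖ ^ 2 ∂ν =
      (∫ y, ‖b y‖ ^ 2 ∂ν) - 2 / R * ⟪∫ y, a y • b y ∂ν, v⟫ + (∫ y, a y ^ 2 ∂ν) / R ^ 2 * ‖v‖ ^ 2 := by
  have i1 := (memLp_two_iff_integrable_sq_norm hb.1).1 hb
  have i2 := (memLp_two_iff_integrable_sq ha.1).1 ha
  have i3 := (norm_int_le ha hb).1
  have h1 : ∀ y, R ^ 2 * ‖R⁻¹ • b y - (a y / R ^ 2) • v‖ ^ 2 =
      ‖b y‖ ^ 2 - 2 / R * ⟪v, a y • b y⟫ + ‖v‖ ^ 2 / R ^ 2 * a y ^ 2 := by
    intro y
    rw [norm_sub_sq_real, norm_smul, norm_smul, mul_pow, mul_pow, Real.norm_eq_abs,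
      Real.norm_eq_abs, sq_abs, sq_abs, real_inner_smul_left, real_inner_smul_right,
      real_inner_smul_right, real_inner_comm]
    field_simp
  rw [← integral_const_mul]
  simp only [h1]
  have i4 : Integrable (fun y => 2 / R * ⟪v, a y • b y⟫) ν := (i3.const_inner v).const_mul _
  have i5 : Integrable (fun y => ‖b y‖ ^ 2 - 2 / R * ⟪v, a y • b y⟫) ν := i1.sub i4
  rw [integral_add i5 (i2.const_mul _), integral_sub i1 i4, integral_const_mul, integral_const_mul,
    integral_inner i3, real_inner_comm]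
  ring

end

end Vale.Agent.P363
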