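import Vale.Agent.P363.CVec1

/-! P363, block C: vector valued functions: inner products and norms. -/

open MeasureTheory Set Metric Filter Topology
open scoped RealInnerProductSpace

namespace Vale.Agent.P363

noncomputable section

variable {Y : Type} [MeasurableSpace Y] {ν : Measure Y} [SFinite ν] {U : Set E3}
  {F F' : E3 × Y → ℝ} {G G' : E3 × Y → E3}

theorem meas_seg {Z : Type} [MeasurableSpace Z] {a b : Z → ℝ} (ha : Measurable a)
    (hb : Measurable b) {f : Z × ℝ → ℝ} (hf : Measurable f) :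
    Measurable fun z => ∫ t in a z..b z, f (z, t) := by
  have key : ∀ {a b : Z → ℝ}, Measurable a → Measurable b →
      Measurable fun z => ∫ t in Ioc (a z) (b z), f (z, t) := by
    intro a b ha hb
    have hs : MeasurableSet {p : Z × ℝ | a p.1 < p.2 ∧ p.2 ≤ b p.1} :=
      (measurableSet_lt (ha.comp measurable_fst) measurable_snd).inter
        (measurableSet_le measurable_snd (hb.comp measurable_fst))
    have := ((hf.indicator hs).stronglyMeasurable.integral_prod_right' (ν := volume)).measurable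
    simp only [← integral_indicator measurableSet_Ioc]
    exact this
  exact (key ha hb).sub (key hb ha)

theorem LD.int0 {c : E3} {r : ℝ} {H : E3 × Y → ℝ} {K : E3 × Y → E3} (mH : Measurable H)
    (mK : Measurable K) (iH : Integrable H ((volume.restrict (ball c r)).prod ν))
    (iK : Integrable K ((volume.restrict (ball c r)).prod ν))
    (h : ∀ᵐ y ∂ν, LD (ball c r) (fun x => H (x, y)) (fun x => K (x, y))) :
    LD (ball c r) (fun x => ∫ y, H (x, y) ∂ν) (fun x => ∫ y, K (x, y) ∂ν) := by
  have hB : MeasurableSet (ball c r) := measurableSet_ball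
  refine LD.of_pairs isOpen_ball iH.integral_prod_left.1 iK.integral_prod_left.1
    (fun Q _ hQ => IntegrableOn.mono_set iK.integral_prod_left.norm hQ) fun k => ?_
  let P : (E3 × ℝ × ℝ) × Y → Prop := fun w =>
    w.1.1 + w.1.2.1 • e k ∈ ball c r → w.1.1 + w.1.2.2 • e k ∈ ball c r →
      H (w.1.1 + w.1.2.2 • e k, w.2) - H (w.1.1 + w.1.2.1 • e k, w.2) =
        ∫ t in w.1.2.1..w.1.2.2, K (w.1.1 + t • e k, w.2) k
  have mP : MeasurableSet {w | P w} := by
    refine measurableSet_setOf.2 (Measurable.imp (measurableSet_setOf.1 (hB.preimage (by fun_prop)))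
      (Measurable.imp (measurableSet_setOf.1 (hB.preimage (by fun_prop))) ?_))
    refine measurableSet_setOf.1 (measurableSet_eq_fun (by fun_prop) ?_)
    exact meas_seg (by fun_prop) (by fun_prop)
      (f := fun p : ((E3 × ℝ × ℝ) × Y) × ℝ => K (p.1.1.1 + p.2 • e k, p.1.2) k) (by fun_prop)
  have h1 : ∀ᵐ y ∂ν, ∀ᵐ p ∂((volume : Measure E3).prod ((volume : Measure ℝ).prod volume)),
      P (p, y) := by
    filter_upwards [h] with y hy
    have m1 : MeasurableSet {p | P (p, y)} := mP.preimage (f := fun p => (p, y)) (by fun_prop)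
    refine (Measure.ae_prod_iff_ae_ae m1).2 ?_
    filter_upwards [hy.pairs k] with x hx
    refine (Measure.ae_prod_iff_ae_ae (m1.preimage (f := fun q => (x, q)) (by fun_prop))).2 ?_
    filter_upwards [hx] with a ha
    filter_upwards [ha] with b hb h1 h2
    refine (hb fun t ht => ?_).2
    rw [← segment_eq_uIcc] at ht
    obtain ⟨u, v, hu, hv, huv, rfl⟩ := ht
    have := convex_ball c r h1 h2 hu hv huv
    have e1 : x + (u • a + v • b) • e k = u • (x + a • e k) + v • (x + b • e k) := by
      rw [smul_add u, smul_add v, add_add_add_comm, ← add_smul, huv, one_smul, add_smul,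
        smul_assoc, smul_assoc]
    rwa [e1]
  have h2 := Measure.ae_ae_of_ae_prod ((Measure.ae_ae_comm (p := fun p y => P (p, y)) mP).2 h1)
  have h3 := ae_line k ((ae_restrict_iff' hB).1 (iH.prod_right_ae.and iK.prod_right_ae))
  have h4 := ae_line_loc k isOpen_ball (f := fun x => ∫ y, ‖K (x, y)‖ ∂ν)
    fun Q _ hQ => IntegrableOn.mono_set iK.integral_norm_prod_left hQ
  filter_upwards [h2, h3, h4] with x h2 h3 h4
  filter_upwards [Measure.ae_ae_of_ae_prod h2, h3] with a h2 ha
  filter_upwards [h2, h3] with b h2 hb hs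
  have a1 := hs a left_mem_uIcc
  have b1 := hs b right_mem_uIcc
  have h5 : ∀ᵐ t ∂volume.restrict (uIoc a b), Integrable (fun y => K (x + t • e k, y)) ν :=
    (ae_restrict_iff' measurableSet_uIoc).2 (h3.mono fun t ht h =>
      (ht (hs t (uIoc_subset_uIcc h))).2)
  have h6 : Integrable (fun p : ℝ × Y => K (x + p.1 • e k, p.2))
      ((volume.restrict (uIoc a b)).prod ν) :=
    (integrable_prod_iff (Measurable.aestronglyMeasurable (by fun_prop))).2
      ⟨h5, intervalIntegrable_iff.1 (h4 a b hs)⟩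
  rw [← integral_sub (hb b1).1 (ha a1).1, integral_congr_ae (h2.mono fun y hy => hy a1 b1),
    ← intervalIntegral_integral_swap (f := fun t y => K (x + t • e k, y) k)
      ((EuclideanSpace.proj k : E3 →L[ℝ] ℝ).integrable_comp h6)]
  refine intervalIntegral.integral_congr_ae
    ((ae_restrict_iff' measurableSet_uIoc).1 (h5.mono fun t ht => ?_))
  exact (EuclideanSpace.proj k : E3 →L[ℝ] ℝ).integral_comp_comm ht

theorem LD.int {H : E3 × Y → ℝ} {K : E3 × Y → E3} (hU : IsOpen U)
    (iH : ∀ Q, IsCompact Q → Q ⊆ U → Integrable H ((volume.restrict Q).prod ν))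
    (iK : ∀ Q, IsCompact Q → Q ⊆ U → Integrable K ((volume.restrict Q).prod ν))
    (h : ∀ᵐ y ∂ν, LD U (fun x => H (x, y)) (fun x => K (x, y))) :
    LD U (fun x => ∫ y, H (x, y) ∂ν) (fun x => ∫ y, K (x, y) ∂ν) := by
  refine LD.of_local hU fun c hc => ?_
  obtain ⟨r, hr, hs⟩ := nhds_basis_closedBall.mem_iff.1 (hU.mem_nhds hc)
  refine ⟨r, hr, ?_⟩
  have hB : MeasurableSet (ball c r) := measurableSet_ball
  have hm : (volume.restrict (ball c r)).prod ν ≤ (volume.restrict (closedBall c r)).prod ν := by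
    rw [Measure.restrict_prod_eq_prod_univ, Measure.restrict_prod_eq_prod_univ]
    exact Measure.restrict_mono (Set.prod_mono ball_subset_closedBall le_rfl) le_rfl
  have jH := (iH _ (isCompact_closedBall c r) hs).mono_measure hm
  have jK := (iK _ (isCompact_closedBall c r) hs).mono_measure hm
  have eH := jH.1.ae_eq_mk
  have eK := jK.1.ae_eq_mk
  have e := eH.and eK
  have e' := Measure.ae_ae_of_ae_prod (Measure.measurePreserving_swap.quasiMeasurePreserving.ae e)
  refine (LD.int0 jH.1.measurable_mk jK.1.measurable_mk (jH.congr eH) (jK.congr eK) ?_).congr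
    isOpen_ball ?_ ?_
  · filter_upwards [h, e'] with y h1 h2
    have h3 := (ae_restrict_iff' hB).1 h2
    exact (h1.mono (ball_subset_closedBall.trans hs)).congr isOpen_ball
      (h3.mono fun x hx hb => (hx hb).1.symm) (h3.mono fun x hx hb => (hx hb).2.symm)
  · exact (ae_restrict_iff' hB).1 ((Measure.ae_ae_of_ae_prod eH).mono fun x hx =>
      integral_congr_ae hx)
  · exact (ae_restrict_iff' hB).1 ((Measure.ae_ae_of_ae_prod eK).mono fun x hx =>
      integral_congr_ae hx)

theorem LV.inner (hU : IsOpen U) (h : LV U ν F G) (h' : LV U ν F' G') :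
    LD U (fun x => ∫ y, F (x, y) * F' (x, y) ∂ν)
      (fun x => ∫ y, (F (x, y) • G' (x, y) + F' (x, y) • G (x, y)) ∂ν) := by
  refine LD.int (H := fun w => F w * F' w) (K := fun w => F w • G' w + F' w • G w) hU
    (fun Q h1 h2 => (h.l2 Q h1 h2).integrable_mul (h'.l2 Q h1 h2)) (fun Q h1 h2 => ?_) ?_
  · exact (memLp_one_iff_integrable.1 ((h'.l2g Q h1 h2).smul (h.l2 Q h1 h2))).add
      (memLp_one_iff_integrable.1 ((h.l2g Q h1 h2).smul (h'.l2 Q h1 h2)))
  · filter_upwards [h.ld, h'.ld] with y h1 h2 using h1.mul hU h2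

theorem LV.sq (hU : IsOpen U) (h : LV U ν F G) :
    LD U (fun x => ∫ y, F (x, y) ^ 2 ∂ν) (fun x => (2 : ℝ) • ∫ y, F (x, y) • G (x, y) ∂ν) := by
  simpa only [pow_two, ← two_smul ℝ, integral_smul] using h.inner hU h

theorem norm_int_le {a : Y → ℝ} {b : Y → E3} (ha : MemLp a 2 ν) (hb : MemLp b 2 ν) :
    Integrable (fun y => a y • b y) ν ∧
      ‖∫ y, a y • b y ∂ν‖ ^ 2 ≤ (∫ y, a y ^ 2 ∂ν) * ∫ y, ‖b y‖ ^ 2 ∂ν := by
  have hi : Integrable (fun y => a y • b y) ν := memLp_one_iff_integrable.1 (hb.smul ha)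
  refine ⟨hi, ?_⟩
  have h1 := (cs_integral ha.norm hb.norm).2
  have h2 : ‖∫ y, a y • b y ∂ν‖ ≤ ∫ y, ‖a y‖ * ‖b y‖ ∂ν := by
    simpa only [norm_smul] using norm_integral_le_integral_norm (fun y => a y • b y)
  have h3 := pow_le_pow_left₀ (norm_nonneg _) (h2.trans ((le_abs_self _).trans h1)) 2
  rw [mul_pow, Real.sq_sqrt (integral_nonneg fun _ => sq_nonneg _),
    Real.sq_sqrt (integral_nonneg fun _ => sq_nonneg _)] at h3
  simpa only [Real.norm_eq_abs, sq_abs] using h3

end

end Vale.Agent.P363
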