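import Vale.Agent.P363.CVec2

/-! P363, block C: the pair built from the even and odd parts. -/

open MeasureTheory Set Metric Filter Topology
open scoped RealInnerProductSpace

namespace Vale.Agent.P363

noncomputable section

variable {Y : Type} [MeasurableSpace Y] {ν : Measure Y} [SFinite ν] {U : Set E3}
  {F F' : E3 × Y → ℝ} {G G' : E3 × Y → E3}

/-- Even part in `x`. -/
def evp (F : E3 × Y → ℝ) (w : E3 × Y) : ℝ := (F w + F (sg w.1, w.2)) / 2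

def evg (G : E3 × Y → E3) (w : E3 × Y) : E3 := (1 / 2 : ℝ) • (G w + sg (G (sg w.1, w.2)))

/-- Odd part in `x`. -/
def odp (F : E3 × Y → ℝ) (w : E3 × Y) : ℝ := (F w - F (sg w.1, w.2)) / 2

def odg (G : E3 × Y → E3) (w : E3 × Y) : E3 := (1 / 2 : ℝ) • (G w - sg (G (sg w.1, w.2)))

namespace CVec3Aux

theorem mp (ν : Measure Y) [SFinite ν] : MeasurePreserving (fun w : E3 × Y => (sg w.1, w.2))
    (volume.prod ν) (volume.prod ν) := mp_sg.prod (MeasurePreserving.id ν)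

theorem para (a b : E3) : ‖(1 / 2 : ℝ) • (a + b)‖ ^ 2 + ‖(1 / 2 : ℝ) • (a - b)‖ ^ 2
    = (‖a‖ ^ 2 + ‖b‖ ^ 2) / 2 := by
  rw [norm_smul, norm_smul, mul_pow, mul_pow, norm_add_sq_real, norm_sub_sq_real,
    Real.norm_eq_abs, sq_abs]
  ring

omit [SFinite ν] in
theorem nrm_sq (F : E3 × Y → ℝ) (x : E3) : nrm ν F x ^ 2 = ∫ y, F (x, y) ^ 2 ∂ν :=
  Real.sq_sqrt (integral_nonneg fun _ => sq_nonneg _)

omit [SFinite ν] in
theorem nrm_evp (F : E3 × Y → ℝ) (x : E3) : nrm ν (evp F) (sg x) = nrm ν (evp F) x := by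
  simp only [nrm, evp, sg_sg, add_comm]

omit [SFinite ν] in
theorem nrm_odp (F : E3 × Y → ℝ) (x : E3) : nrm ν (odp F) (sg x) = nrm ν (odp F) x := by
  simp only [nrm, odp, sg_sg, div_pow, sub_sq_comm (F (sg x, _))]

end CVec3Aux

open CVec3Aux

theorem HV.evp (h : HV ν F G) : HV ν (evp F) (evg G) := by
  exact ((h.add h.refl).cmul (1 / 2)).congr
    (ae_of_all _ fun w => by rw [Vale.Agent.P363.evp]; ring) (ae_of_all _ fun _ => rfl)

theorem HV.odp (h : HV ν F G) : HV ν (odp F) (odg G) := by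
  exact ((h.sub h.refl).cmul (1 / 2)).congr
    (ae_of_all _ fun w => by rw [Vale.Agent.P363.odp]; ring) (ae_of_all _ fun _ => rfl)

theorem ev_od_energy (h : HV ν F G) :
    (∫ w, ‖evg G w‖ ^ 2 ∂(volume.prod ν)) + ∫ w, ‖odg G w‖ ^ 2 ∂(volume.prod ν) =
      ∫ w, ‖G w‖ ^ 2 ∂(volume.prod ν) := by
  have i0 := (memLp_two_iff_integrable_sq_norm h.l2g.1).1 h.l2g
  have i1 := (memLp_two_iff_integrable_sq_norm h.evp.l2g.1).1 h.evp.l2g
  have i2 := (memLp_two_iff_integrable_sq_norm h.odp.l2g.1).1 h.odp.l2g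
  have i3 : Integrable (fun w : E3 × Y => ‖G (sg w.1, w.2)‖ ^ 2) (volume.prod ν) :=
    (mp ν).integrable_comp_of_integrable i0
  have e : ∫ w, ‖G (sg w.1, w.2)‖ ^ 2 ∂(volume.prod ν) = ∫ w, ‖G w‖ ^ 2 ∂(volume.prod ν) := by
    rw [← integral_map (mp ν).measurable.aemeasurable (f := fun w => ‖G w‖ ^ 2)
      (by rw [(mp ν).map_eq]; exact i0.1), (mp ν).map_eq]
  rw [← integral_add i1 i2]
  simp only [evg, odg, para, norm_sg]
  rw [integral_div, integral_add i0 i3, e]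
  ring

theorem pair_of_HV (h : HV ν F G) {N : E3 → ℝ} (hN : ∀ᵐ x : E3, ∫ y, F (x, y) ^ 2 ∂ν = N x ^ 2)
    (he : ∀ x, N (sg x) = N x) : ∃ Ω gΩ, Pair N (nrm ν (evp F)) Ω (gnr ν (evp F) (evg G)) gΩ ∧
      (∀ᵐ x : E3, Ω x ^ 2 = nrm ν (odp F) x ^ 2) ∧ (∀ x, 0 < x 2 → 0 ≤ Ω x) ∧
      ∫ x, ‖gΩ x‖ ^ 2 ≤ ∫ w, ‖odg G w‖ ^ 2 ∂(volume.prod ν) := by
  obtain ⟨a1, -, -⟩ := h.evp.nrm
  obtain ⟨b1, -, b3⟩ := h.odp.nrm
  have hz := h.odp.nrm_TZ (ae_of_all _ fun w => by simp only [odp, sg_sg]; ring)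
  obtain ⟨Ω, gΩ, c1, c2, c3, c4⟩ := b1.oddext hz
  have hΩ : ∀ᵐ x : E3, Ω x ^ 2 = nrm ν (odp F) x ^ 2 := by
    filter_upwards [ae_coord_ne 2 0] with x hx
    rcases lt_or_gt_of_ne hx with h1 | h1
    · rw [← neg_sq, ← c2, (c4 (sg x) (by rw [sg_2]; linarith)).1, nrm_odp]
    · rw [(c4 x h1).1]
  refine ⟨Ω, gΩ, ⟨a1, c1, ae_of_all _ (nrm_evp F), ae_of_all _ c2, ?_⟩, hΩ, fun x hx => ?_,
    le_trans (le_of_eq (integral_congr_ae ?_)) b3⟩
  · filter_upwards [hΩ, hN, ae_sg hN, (ae_slice2 h.l2).1, ae_sg (ae_slice2 h.l2).1,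
      (ae_slice2 h.evp.l2).1, (ae_slice2 h.odp.l2).1] with x h1 h2 h3 h4 h5 h6 h7
    rw [h1, nrm_sq, nrm_sq, ← integral_add h6.integrable_sq h7.integrable_sq]
    have e : ∀ y, evp F (x, y) ^ 2 + odp F (x, y) ^ 2
        = (F (x, y) ^ 2 + F (sg x, y) ^ 2) / 2 := fun y => by
      simp only [evp, odp]
      ring
    simp only [e]
    rw [integral_div, integral_add h4.integrable_sq h5.integrable_sq, h2, h3, he]
    ring
  · rw [(c4 x hx).1]
    exact Real.sqrt_nonneg _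
  · have h1 := b1.ld.sym_grad isOpen_univ (fun _ _ => mem_univ _) (s := 1)
      (ae_of_all _ fun x _ => by rw [nrm_odp, one_mul])
    filter_upwards [ae_coord_ne 2 0, h1] with x hx h2
    rcases lt_or_gt_of_ne hx with h3 | h3
    · rw [← c3, (c4 (sg x) (by rw [sg_2]; linarith)).2, ← norm_sg, h2 (mem_univ x), one_smul]
    · rw [(c4 x h3).2]

end

end Vale.Agent.P363
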