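import Vale.Agent.P363.CSub

/-! P363, block C: weak maximum principles. -/

open MeasureTheory Set Metric Filter Topology
open scoped RealInnerProductSpace

namespace Vale.Agent.P363

noncomputable section

variable {U A : Set E3} {w B R l : E3 → ℝ} {gw gB : E3 → E3} {lam : ℝ}

theorem wmp_locB_mul {f g : E3 → ℝ} (h : LocB U f) (h' : LocB U g) :
    LocB U (fun x => f x * g x) := by
  intro K hK hKU
  obtain ⟨M, hM⟩ := h K hK hKU
  obtain ⟨N, hN⟩ := h' K hK hKU
  refine ⟨M * N, ?_⟩
  filter_upwards [hM, hN] with x h1 h2 hx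
  rw [abs_mul]
  exact mul_le_mul (h1 hx) (h2 hx) (abs_nonneg _) ((abs_nonneg _).trans (h1 hx))

/-- The positive part of `w - B`. -/
theorem wmp_pos (hs : L1 U w gw) (hB : C2 U B gB l) (hb : LocB U w) :
    L1 U (fun x => max (w x - B x) 0) (fun x => if 0 < w x - B x then gw x - gB x else 0) ∧
      LocB U (fun x => max (w x - B x) 0) := by
  have h1 := hs.sub hB.l1.1
  have h2 := h1.ld.pos hB.op
  refine ⟨⟨h2, fun K hK hKU => ?_, fun K hK hKU => ?_⟩, fun K hK hKU => ?_⟩
  · refine (h1.l2 K hK hKU).of_le (h2.mf.mono_measure (Measure.restrict_mono hKU le_rfl))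
      (Eventually.of_forall fun x => ?_)
    simp only [Real.norm_eq_abs]
    rw [abs_of_nonneg (le_max_right _ _)]
    exact max_le (le_abs_self _) (abs_nonneg _)
  · refine (h1.l2g K hK hKU).of_le (h2.mg.mono_measure (Measure.restrict_mono hKU le_rfl))
      (Eventually.of_forall fun x => ?_)
    split_ifs
    · exact le_rfl
    · simp
  · obtain ⟨M, hM⟩ := hb K hK hKU
    obtain ⟨N, hN⟩ := hB.l1.2.1 K hK hKU
    refine ⟨M + N, ?_⟩
    filter_upwards [hM, hN] with x h1 h2 hx
    rw [abs_of_nonneg (le_max_right _ _)]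
    have h3 := abs_le.1 (h1 hx)
    have h4 := abs_le.1 (h2 hx)
    exact max_le (by linarith) (by linarith)

/-- The energy inequality. -/
theorem wmp_core {v ζ : E3 → ℝ} {gv q : E3 → E3} {K : Set E3} (hs : Sub U w gw R)
    (hB : C2 U B gB l) (hv : L1 U v gv) (hb : LocB U v) (h0 : ∀ x, 0 ≤ v x)
    (hg : ∀ x, (v x = 0 ∧ gv x = 0) ∨ gv x = gw x - gB x) (hζ : L1 U ζ q) (hζb : LocB U ζ)
    (hK : IsCompact K) (hKU : K ⊆ U) (hz : ∀ᵐ x : E3, x ∈ U → x ∉ K → ζ x * v x = 0) :
    ∃ g, H1 (K.indicator fun x => ζ x * v x) g ∧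
      Integrable (fun x => (R x - l x / 2) * (ζ x * K.indicator (fun x => ζ x * v x) x)) ∧
      Integrable (K.indicator fun x => v x ^ 2 * ‖q x‖ ^ 2) ∧
      (1 / 2) * (∫ x, ‖g x‖ ^ 2) +
        ∫ x, (R x - l x / 2) * (ζ x * K.indicator (fun x => ζ x * v x) x) ≤
        (1 / 2) * ∫ x, K.indicator (fun x => v x ^ 2 * ‖q x‖ ^ 2) x := by
  have hU := hB.op
  have hτ := Tst.mk' hU hK hKU (hζ.mul hU hv hζb hb) (wmp_locB_mul hζb hb) hz
  have hψ := hτ.mul hU hζ hζb
  have id1 : ∀ x, K.indicator (fun x => v x ^ 2 * ‖q x‖ ^ 2) x =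
      ‖K.indicator (fun x => ζ x • gv x + v x • q x) x‖ ^ 2 -
      (⟪gw x, ζ x • K.indicator (fun x => ζ x • gv x + v x • q x) x +
        K.indicator (fun x => ζ x * v x) x • q x⟫ -
      ⟪gB x, ζ x • K.indicator (fun x => ζ x • gv x + v x • q x) x +
        K.indicator (fun x => ζ x * v x) x • q x⟫) := by
    intro x
    rw [← inner_sub_left]
    by_cases hx : x ∈ K
    · simp only [indicator_of_mem hx]
      rcases hg x with ⟨a, b⟩ | a
      · simp [a, b]
      · rw [← a, norm_add_sq_real]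
        simp only [inner_add_right, inner_smul_right, real_inner_smul_left, norm_smul, mul_pow,
          Real.norm_eq_abs, sq_abs, real_inner_self_eq_norm_sq]
        ring
    · simp [indicator_of_notMem hx]
  have nn : ∀ x, 0 ≤ ζ x * K.indicator (fun x => ζ x * v x) x := by
    intro x
    by_cases hx : x ∈ K
    · simp only [indicator_of_mem hx]
      rw [← mul_assoc]
      exact mul_nonneg (mul_self_nonneg _) (h0 x)
    · simp [indicator_of_notMem hx]
  have i1 := hs.ineq _ _ hψ (Eventually.of_forall nn)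
  obtain ⟨j1, j2⟩ := hψ.int hs.li hs.l1.l2g
  obtain ⟨K', hK', hK'U, hK0⟩ := hψ.cpt
  obtain ⟨j3, j4, i2⟩ := hB.weak hψ.ld hψ.h1.2.1 hψ.h1.2.2 hK' hK'U hK0
  have j5 := (memLp_two_iff_integrable_sq_norm hτ.l2g.1).1 hτ.l2g
  generalize K.indicator (fun x => ζ x • gv x + v x • q x) = g at *
  have hh := hτ.h1.1
  generalize K.indicator (fun x => ζ x * v x) = τ at *
  have e1 : (K.indicator fun x => v x ^ 2 * ‖q x‖ ^ 2) = fun x => ‖g x‖ ^ 2 -
      (⟪gw x, ζ x • g x + τ x • q x⟫ - ⟪gB x, ζ x • g x + τ x • q x⟫) := funext id1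
  have e2 : (fun x => (R x - l x / 2) * (ζ x * τ x)) =
      fun x => R x * (ζ x * τ x) - (1 / 2) * (l x * (ζ x * τ x)) := by
    funext x; ring
  have j6 : Integrable (fun x => ⟪gw x, ζ x • g x + τ x • q x⟫ -
      ⟪gB x, ζ x • g x + τ x • q x⟫) := j2.sub j3
  refine ⟨g, hh, ?_, ?_, ?_⟩
  · rw [e2]; exact j1.sub (j4.const_mul _)
  · rw [e1]; exact j5.sub j6
  · rw [e1, e2, integral_sub j5 j6, integral_sub j2 j3, integral_sub j1 (j4.const_mul _),
      integral_const_mul]
    rw [integral_add (j2.const_mul _) j1, integral_const_mul] at i1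
    rw [integral_add j3 j4] at i2
    linarith

theorem wmp_gen {v : E3 → ℝ} {gv : E3 → E3} (hs : Sub U w gw R) (hB : C2 U B gB l)
    (hA : IsClosed A) (hAU : A ⊆ U) (hl : 0 < lam) (hv : L1 U v gv) (hb : LocB U v)
    (h0 : ∀ x, 0 ≤ v x) (hg : ∀ x, (v x = 0 ∧ gv x = 0) ∨ gv x = gw x - gB x)
    (col : ∀ᵐ x : E3, x ∈ U → x ∉ A → v x = 0) (l2 : MemLp v 2 (volume.restrict A))
    (pt : ∀ᵐ x : E3, x ∈ A → 0 < v x → lam * v x ≤ R x - l x / 2) :
    ∀ᵐ x : E3, x ∈ U → v x = 0 := by
  have hAm := hA.measurableSet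
  have i0 : Integrable (A.indicator fun x => v x ^ 2) :=
    (integrable_indicator_iff hAm).2 l2.integrable_sq
  have key : ∀ m n : ℝ, 0 < n → m ≤ n →
      lam * ∫ x, (A ∩ closedBall 0 m).indicator (fun x => v x ^ 2) x ≤
        (1 / 2) * ((1 / n) ^ 2 * ∫ x, A.indicator (fun x => v x ^ 2) x) := by
    intro m n hn hmn
    obtain ⟨ξ, q, ht, hc, -, hp⟩ := exists_cut (0 : E3) hn.le (show n < 2 * n by linarith)
    have hK : IsCompact (A ∩ closedBall 0 (2 * n)) := (isCompact_closedBall _ _).inter_left hA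
    obtain ⟨g, hh, j1, j2, j3⟩ := wmp_core hs hB hv hb h0 hg (ht.h1.1.l1 U)
      (LocB.of_cont hc.continuousOn) hK (inter_subset_left.trans hAU) (by
        filter_upwards [col] with x h1 hx hxK
        by_cases hxA : x ∈ A
        · have : 2 * n ≤ ‖x - 0‖ := by
            by_contra hcon
            exact hxK ⟨hxA, mem_closedBall_iff_norm.2 (not_le.1 hcon).le⟩
          rw [((hp x).2.2.2.2.1 this).1, zero_mul]
        · rw [h1 hx hxA, mul_zero])
    have hm : MeasurableSet (A ∩ closedBall (0 : E3) m) := hAm.inter measurableSet_closedBall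
    have i1 : Integrable ((A ∩ closedBall (0 : E3) m).indicator fun x => v x ^ 2) :=
      (integrable_indicator_iff hm).2 (IntegrableOn.mono_set l2.integrable_sq inter_subset_left)
    have s1 : lam * ∫ x, (A ∩ closedBall 0 m).indicator (fun x => v x ^ 2) x ≤
        ∫ x, (R x - l x / 2) * (ξ x * (A ∩ closedBall 0 (2 * n)).indicator
          (fun x => ξ x * v x) x) := by
      rw [← integral_const_mul]
      refine integral_mono_ae (i1.const_mul _) j1 ?_
      filter_upwards [pt] with x h1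
      by_cases hx : x ∈ A ∩ closedBall (0 : E3) (2 * n)
      · rw [indicator_of_mem hx]
        rcases (h0 x).eq_or_lt with h2 | h2
        · by_cases hy : x ∈ A ∩ closedBall (0 : E3) m
          · simp [indicator_of_mem hy, ← h2]
          · simp [indicator_of_notMem hy, ← h2]
        · have h3 := h1 hx.1 h2
          have h4 : lam * v x * (ξ x * (ξ x * v x)) ≤ (R x - l x / 2) * (ξ x * (ξ x * v x)) :=
            mul_le_mul_of_nonneg_right h3
              (mul_nonneg (hp x).1 (mul_nonneg (hp x).1 h2.le))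
          refine le_trans ?_ h4
          by_cases hy : x ∈ A ∩ closedBall (0 : E3) m
          · rw [indicator_of_mem hy,
              ((hp x).2.2.2.1 ((mem_closedBall_iff_norm.1 hy.2).trans hmn)).1]
            exact le_of_eq (by ring)
          · rw [indicator_of_notMem hy, mul_zero]
            exact mul_nonneg (mul_nonneg hl.le h2.le)
              (mul_nonneg (hp x).1 (mul_nonneg (hp x).1 h2.le))
      · have hy : x ∉ A ∩ closedBall (0 : E3) m := fun hy =>
          hx ⟨hy.1, closedBall_subset_closedBall (by linarith) hy.2⟩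
        simp [indicator_of_notMem hx, indicator_of_notMem hy]
    have s2 : ∫ x, (A ∩ closedBall 0 (2 * n)).indicator (fun x => v x ^ 2 * ‖q x‖ ^ 2) x ≤
        (1 / n) ^ 2 * ∫ x, A.indicator (fun x => v x ^ 2) x := by
      rw [← integral_const_mul]
      refine integral_mono j2 (i0.const_mul _) fun x => ?_
      by_cases hx : x ∈ A ∩ closedBall (0 : E3) (2 * n)
      · simp only [indicator_of_mem hx, indicator_of_mem hx.1]
        have h1 : ‖q x‖ ≤ 1 / n := by
          have := (hp x).2.2.1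
          rwa [show 2 * n - n = n by ring] at this
        rw [mul_comm]
        exact mul_le_mul_of_nonneg_right (pow_le_pow_left₀ (norm_nonneg _) h1 2) (sq_nonneg _)
      · simp only [indicator_of_notMem hx]
        exact mul_nonneg (sq_nonneg _) (indicator_nonneg (fun _ _ => sq_nonneg _) x)
    have s3 : 0 ≤ ∫ x, ‖g x‖ ^ 2 := integral_nonneg fun x => sq_nonneg _
    linarith
  have z : ∀ m : ℕ, ∀ᵐ x : E3, x ∈ A ∩ closedBall (0 : E3) m → v x = 0 := by
    intro m
    have hm : MeasurableSet (A ∩ closedBall (0 : E3) m) := hAm.inter measurableSet_closedBall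
    have i1 : Integrable ((A ∩ closedBall (0 : E3) m).indicator fun x => v x ^ 2) :=
      (integrable_indicator_iff hm).2 (IntegrableOn.mono_set l2.integrable_sq inter_subset_left)
    have nn : 0 ≤ (A ∩ closedBall (0 : E3) m).indicator fun x => v x ^ 2 :=
      fun x => indicator_nonneg (fun _ _ => sq_nonneg _) x
    have t1 : Tendsto (fun n : ℝ => (1 / 2) * ((1 / n) ^ 2 * ∫ x, A.indicator
        (fun x => v x ^ 2) x)) atTop (𝓝 ((1 / 2) * (0 ^ 2 * ∫ x, A.indicator
        (fun x => v x ^ 2) x))) :=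
      (((tendsto_const_nhds.div_atTop tendsto_id).pow 2).mul_const _).const_mul _
    have t2 := ge_of_tendsto t1 (by
      filter_upwards [eventually_gt_atTop (0 : ℝ), eventually_ge_atTop (m : ℝ)] with n h1 h2
      exact key m n h1 h2)
    have t3 : ∫ x, (A ∩ closedBall (0 : E3) m).indicator (fun x => v x ^ 2) x = 0 := by
      refine le_antisymm ?_ (integral_nonneg nn)
      by_contra hcon
      have := mul_pos hl (not_le.1 hcon)
      simp only [ne_eq, OfNat.ofNat_ne_zero, not_false_eq_true, zero_pow, zero_mul,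
        mul_zero] at t2
      linarith
    filter_upwards [(integral_eq_zero_iff_of_nonneg nn i1).1 t3] with x h1 hx
    rw [indicator_of_mem hx] at h1
    exact pow_eq_zero_iff two_ne_zero |>.1 h1
  filter_upwards [ae_all_iff.2 z, col] with x h1 h2 hx
  by_cases hxA : x ∈ A
  · obtain ⟨m, hm⟩ := exists_nat_ge ‖x‖
    exact h1 m ⟨hxA, mem_closedBall_zero_iff.2 hm⟩
  · exact h2 hx hxA

theorem wmp_alt (x : E3) : (max (w x - B x) 0 = 0 ∧
    (if 0 < w x - B x then gw x - gB x else 0) = 0) ∨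
    (if 0 < w x - B x then gw x - gB x else 0) = gw x - gB x := by
  by_cases h : 0 < w x - B x
  · exact Or.inr (if_pos h)
  · exact Or.inl ⟨max_eq_right (not_lt.1 h), if_neg h⟩

theorem wmp (hs : Sub U w gw R) (hB : C2 U B gB l) (hA : IsClosed A) (hAU : A ⊆ U)
    (hb : LocB U w) (hl : 0 < lam) (col : ∀ᵐ x : E3, x ∈ U → x ∉ A → w x ≤ B x)
    (l2 : MemLp (fun x => max (w x - B x) 0) 2 (volume.restrict A))
    (pt : ∀ᵐ x : E3, x ∈ A → B x < w x → lam * (w x - B x) ≤ R x - l x / 2) :
    ∀ᵐ x : E3, x ∈ U → w x ≤ B x := by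
  obtain ⟨h1, h2⟩ := wmp_pos hs.l1 hB hb
  have h3 := wmp_gen hs hB hA hAU hl h1 h2 (fun x => le_max_right _ _) wmp_alt (by
    filter_upwards [col] with x h hx hy
    exact max_eq_right (sub_nonpos.2 (h hx hy))) l2 (by
    filter_upwards [pt] with x h hx hy
    have h4 : 0 < w x - B x := (lt_max_iff.1 hy).resolve_right (lt_irrefl _)
    rw [max_eq_left h4.le]
    exact h hx (sub_pos.1 h4))
  filter_upwards [h3] with x h hx
  exact sub_nonpos.1 (max_eq_right_iff.1 (h hx))

theorem wmpH (hs : Sub U w gw R) (hB : C2 U B gB l) (hA : IsClosed A) (hAU : A ⊆ U)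
    (hb : LocB U w) (hl : 0 < lam) (col : ∀ᵐ x : E3, x ∈ U → 0 < x 2 → x ∉ A → w x ≤ B x)
    (tz : TZ U (fun x => max (w x - B x) 0))
    (l2 : MemLp (fun x => max (w x - B x) 0) 2 (volume.restrict (A ∩ Hp)))
    (pt : ∀ᵐ x : E3, x ∈ A → 0 < x 2 → B x < w x → lam * (w x - B x) ≤ R x - l x / 2) :
    ∀ᵐ x : E3, x ∈ U → 0 < x 2 → w x ≤ B x := by
  obtain ⟨h1, h2⟩ := wmp_pos hs.l1 hB hb
  have hH : MeasurableSet Hp := (isOpen_lt continuous_const (by fun_prop)).measurableSet
  have h1' : L1 U (Hp.indicator fun x => max (w x - B x) 0)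
      (Hp.indicator fun x => if 0 < w x - B x then gw x - gB x else 0) :=
    ⟨h1.ld.cut hB.op tz, fun K hK hKU => (h1.l2 K hK hKU).indicator hH,
      fun K hK hKU => (h1.l2g K hK hKU).indicator hH⟩
  have h2' : LocB U (Hp.indicator fun x => max (w x - B x) 0) := by
    intro K hK hKU
    obtain ⟨M, hM⟩ := h2 K hK hKU
    refine ⟨M, ?_⟩
    filter_upwards [hM] with x h hx
    exact (norm_indicator_le_norm_self (fun x => max (w x - B x) 0) x).trans (h hx)
  have h3 := wmp_gen hs hB hA hAU hl h1' h2'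
    (fun x => indicator_nonneg (fun _ _ => le_max_right _ _) x) (fun x => by
    by_cases hx : x ∈ Hp
    · simp only [indicator_of_mem hx]
      exact wmp_alt x
    · exact Or.inl ⟨indicator_of_notMem hx _, indicator_of_notMem hx _⟩) (by
    filter_upwards [col] with x h hx hy
    by_cases hz : x ∈ Hp
    · rw [indicator_of_mem hz]
      exact max_eq_right (sub_nonpos.2 (h hx hz hy))
    · exact indicator_of_notMem hz _) (by
    rw [memLp_indicator_iff_restrict hH, Measure.restrict_restrict hH, inter_comm]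
    exact l2) (by
    filter_upwards [pt] with x h hx hy
    by_cases hz : x ∈ Hp
    · rw [indicator_of_mem hz] at hy ⊢
      have h4 : 0 < w x - B x := (lt_max_iff.1 hy).resolve_right (lt_irrefl _)
      rw [max_eq_left h4.le]
      exact h hx hz (sub_pos.1 h4)
    · rw [indicator_of_notMem hz] at hy
      exact absurd hy (lt_irrefl _))
  filter_upwards [h3] with x h hx hz
  have h4 := h hx
  rw [indicator_of_mem (show x ∈ Hp from hz)] at h4
  exact sub_nonpos.1 (max_eq_right_iff.1 h4)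

theorem wmp_ball_gen {c : E3} {ρ ρ' : ℝ} {v : E3 → ℝ} {gv : E3 → E3} (h1 : ρ' < ρ)
    (hs : Sub (ball c ρ \ {c}) w gw R) (hB : C2 (ball c ρ \ {c}) B gB l)
    (hv : L1 (ball c ρ \ {c}) v gv) (hb : LocB (ball c ρ \ {c}) v) (h0 : ∀ x, 0 ≤ v x)
    (hg : ∀ x, (v x = 0 ∧ gv x = 0) ∨ gv x = gw x - gB x)
    (col : ∀ᵐ x : E3, x ∈ ball c ρ → ρ' < ‖x - c‖ → v x = 0)
    (l2 : IntegrableOn (fun x => v x ^ 2 / ‖x - c‖ ^ 2) (ball c ρ))
    (pt : ∀ᵐ x : E3, x ∈ ball c ρ → 0 < v x →
      -(v x / (16 * ‖x - c‖ ^ 2)) ≤ R x - l x / 2) :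
    ∀ᵐ x : E3, x ∈ ball c ρ → v x = 0 := by
  have hU := hB.op
  have hsub : ∀ a : ℝ, closedBall c ρ' \ ball c a ⊆ ball c ρ := fun a x hx =>
    closedBall_subset_ball h1 hx.1
  have hm : ∀ a : ℝ, MeasurableSet (closedBall c ρ' \ ball c a) := fun a =>
    measurableSet_closedBall.diff measurableSet_ball
  have i1 : ∀ a : ℝ, Integrable ((closedBall c ρ' \ ball c a).indicator
      fun x => v x ^ 2 / ‖x - c‖ ^ 2) := fun a =>
    (integrable_indicator_iff (hm a)).2 (l2.mono_set (hsub a))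
  have nn : ∀ (S : Set E3) x, 0 ≤ S.indicator (fun x => v x ^ 2 / ‖x - c‖ ^ 2) x :=
    fun S x => indicator_nonneg (fun _ _ => by positivity) x
  have key : ∀ a ε : ℝ, 0 < ε → 2 * ε ≤ a →
      ∫ x, (closedBall c ρ' \ ball c a).indicator (fun x => v x ^ 2 / ‖x - c‖ ^ 2) x ≤
        32 * ∫ x in closedBall c (2 * ε), v x ^ 2 / ‖x - c‖ ^ 2 ∂(volume.restrict (ball c ρ)) := by
    intro a ε hε ha
    obtain ⟨ξ, q, ht, hc, -, hp⟩ := exists_cut c hε.le (show ε < 2 * ε by linarith)
    have hK : IsCompact (closedBall c ρ' \ ball c ε) := (isCompact_closedBall _ _).diff isOpen_ball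
    have hKU : closedBall c ρ' \ ball c ε ⊆ ball c ρ \ {c} := fun x hx =>
      ⟨hsub _ hx, fun h => hx.2 (by rw [mem_singleton_iff.1 h]; exact mem_ball_self hε)⟩
    obtain ⟨g, hh, j1, j2, j3⟩ := wmp_core hs hB hv hb h0 hg
      ((C2.const hU 1).l1.1.sub (ht.h1.1.l1 _))
      (LocB.of_cont (continuous_const.sub hc).continuousOn) hK hKU (by
        filter_upwards [col] with x h2 hx hxK
        by_cases hr : ‖x - c‖ ≤ ρ'
        · have : ‖x - c‖ ≤ ε := by
            by_contra hcon
            exact hxK ⟨mem_closedBall_iff_norm.2 hr, fun h =>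
              hcon (mem_ball_iff_norm.1 h).le⟩
          rw [((hp x).2.2.2.1 this).1, sub_self, zero_mul]
        · rw [h2 hx.1 (not_le.1 hr), mul_zero])
    obtain ⟨k1, k2⟩ := hardy hh c
    have s0 : ∫ x, (closedBall c ρ' \ ball c a).indicator (fun x => v x ^ 2 / ‖x - c‖ ^ 2) x ≤
        ∫ x, (closedBall c ρ' \ ball c ε).indicator (fun x => (1 - ξ x) * v x) x ^ 2 /
          ‖x - c‖ ^ 2 := by
      refine integral_mono (i1 a) k1 fun x => ?_
      by_cases hx : x ∈ closedBall c ρ' \ ball c a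
      · have h3 : a ≤ ‖x - c‖ := not_lt.1 fun h => hx.2 (mem_ball_iff_norm.2 h)
        have hy : x ∈ closedBall c ρ' \ ball c ε :=
          ⟨hx.1, fun h => by have := mem_ball_iff_norm.1 h; linarith⟩
        simp only [indicator_of_mem hx, indicator_of_mem hy,
          ((hp x).2.2.2.2.1 (ha.trans h3)).1, sub_zero, one_mul, le_refl]
      · simp only [indicator_of_notMem hx]
        positivity
    have s1 : -(1 / 16) * ∫ x, (closedBall c ρ' \ ball c ε).indicator
          (fun x => (1 - ξ x) * v x) x ^ 2 / ‖x - c‖ ^ 2 ≤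
        ∫ x, (R x - l x / 2) * ((1 - ξ x) * (closedBall c ρ' \ ball c ε).indicator
          (fun x => (1 - ξ x) * v x) x) := by
      rw [← integral_const_mul]
      refine integral_mono_ae (k1.const_mul _) j1 ?_
      filter_upwards [pt] with x h3
      by_cases hx : x ∈ closedBall c ρ' \ ball c ε
      · rw [indicator_of_mem hx]
        rcases (h0 x).eq_or_lt with h2 | h2
        · simp [← h2]
        · have h4 := sub_nonneg.2 (hp x).2.1
          refine le_trans (le_of_eq ?_) (mul_le_mul_of_nonneg_right (h3 (hsub _ hx) h2)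
            (mul_nonneg h4 (mul_nonneg h4 h2.le)))
          ring
      · simp [indicator_of_notMem hx]
    have hm2 : MeasurableSet (closedBall c (2 * ε) ∩ ball c ρ) :=
      measurableSet_closedBall.inter measurableSet_ball
    have s2 : ∫ x, (closedBall c ρ' \ ball c ε).indicator (fun x => v x ^ 2 * ‖0 - q x‖ ^ 2) x ≤
        4 * ∫ x in closedBall c (2 * ε), v x ^ 2 / ‖x - c‖ ^ 2
          ∂(volume.restrict (ball c ρ)) := by
      rw [Measure.restrict_restrict measurableSet_closedBall, ← integral_indicator hm2,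
        ← integral_const_mul]
      refine integral_mono j2 (((integrable_indicator_iff hm2).2
        (l2.mono_set inter_subset_right)).const_mul _) fun x => ?_
      have h5 := nn (closedBall c (2 * ε) ∩ ball c ρ) x
      by_cases hx : x ∈ closedBall c ρ' \ ball c ε
      · by_cases hr : ‖x - c‖ ≤ 2 * ε
        · have hy : x ∈ closedBall c (2 * ε) ∩ ball c ρ :=
            ⟨mem_closedBall_iff_norm.2 hr, hsub _ hx⟩
          have h3 : ε ≤ ‖x - c‖ := not_lt.1 fun h => hx.2 (mem_ball_iff_norm.2 h)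
          have h4 : ‖q x‖ ≤ 2 / ‖x - c‖ := by
            refine (hp x).2.2.1.trans ?_
            rw [div_le_div_iff₀ (by linarith) (by linarith)]
            linarith
          simp only [indicator_of_mem hx, indicator_of_mem hy, zero_sub, norm_neg]
          refine (mul_le_mul_of_nonneg_left (pow_le_pow_left₀ (norm_nonneg _) h4 2)
            (sq_nonneg _)).trans (le_of_eq ?_)
          ring
        · simp only [indicator_of_mem hx, ((hp x).2.2.2.2.1 (not_le.1 hr).le).2, sub_zero,
            norm_zero]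
          linarith
      · simp only [indicator_of_notMem hx]
        linarith
    linarith
  have t0 : Tendsto (fun ε : ℝ => (volume.restrict (ball c ρ)) (closedBall c (2 * ε))) (𝓝[>] 0)
      (𝓝 0) := by
    have t1 := tendsto_measure_cthickening_of_isCompact (μ := volume.restrict (ball c ρ))
      (isCompact_singleton (x := c))
    rw [measure_singleton] at t1
    have t2 : Tendsto (fun ε : ℝ => 2 * ε) (𝓝[>] 0) (𝓝 0) := by
      have : Tendsto (fun ε : ℝ => 2 * ε) (𝓝 0) (𝓝 (2 * 0)) := tendsto_id.const_mul 2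
      rw [mul_zero] at this
      exact this.mono_left nhdsWithin_le_nhds
    refine (t1.comp t2).congr' ?_
    filter_upwards [self_mem_nhdsWithin] with ε (hε : 0 < ε)
    simp only [Function.comp, cthickening_singleton c (show 0 ≤ 2 * ε by linarith)]
  have t1 := (Integrable.tendsto_setIntegral_nhds_zero l2 t0).const_mul 32
  rw [mul_zero] at t1
  have z : ∀ m : ℕ, ∀ᵐ x : E3, x ∈ closedBall c ρ' \ ball c (1 / ((m : ℝ) + 1)) → v x = 0 := by
    intro m
    have ha : 0 < 1 / ((m : ℝ) + 1) := Nat.one_div_pos_of_nat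
    generalize 1 / ((m : ℝ) + 1) = a at ha
    have t2 := ge_of_tendsto t1 (by
      filter_upwards [Ioo_mem_nhdsGT (half_pos ha)] with ε hε
      exact key a ε hε.1 (by linarith [hε.2]))
    filter_upwards [(integral_eq_zero_iff_of_nonneg (nn _) (i1 a)).1
      (le_antisymm t2 (integral_nonneg (nn _)))] with x h2 hx
    rw [indicator_of_mem hx] at h2
    have h3 : a ≤ ‖x - c‖ := not_lt.1 fun h => hx.2 (mem_ball_iff_norm.2 h)
    have h4 : ‖x - c‖ ^ 2 ≠ 0 := (pow_pos (ha.trans_le h3) 2).ne'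
    exact pow_eq_zero_iff two_ne_zero |>.1 ((div_eq_zero_iff.1 h2).resolve_right h4)
  filter_upwards [ae_all_iff.2 z, col, ae_norm_ne c 0] with x h2 h3 h4 hx
  by_cases hr : ‖x - c‖ ≤ ρ'
  · obtain ⟨m, hm⟩ := exists_nat_one_div_lt (lt_of_le_of_ne (norm_nonneg _) h4.symm)
    exact h2 m ⟨mem_closedBall_iff_norm.2 hr, fun h => lt_asymm hm (mem_ball_iff_norm.1 h)⟩
  · exact h3 hx (not_le.1 hr)

/-- Small punctured balls: Hardy replaces coercivity. -/
theorem wmp_ball {c : E3} {ρ ρ' : ℝ} (h1 : ρ' < ρ) (hs : Sub (ball c ρ \ {c}) w gw R)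
    (hB : C2 (ball c ρ \ {c}) B gB l) (hb : LocB (ball c ρ \ {c}) w)
    (col : ∀ᵐ x : E3, x ∈ ball c ρ → ρ' < ‖x - c‖ → w x ≤ B x)
    (l2 : IntegrableOn (fun x => max (w x - B x) 0 ^ 2 / ‖x - c‖ ^ 2) (ball c ρ))
    (pt : ∀ᵐ x : E3, x ∈ ball c ρ → B x < w x →
      -((w x - B x) / (16 * ‖x - c‖ ^ 2)) ≤ R x - l x / 2) :
    ∀ᵐ x : E3, x ∈ ball c ρ → w x ≤ B x := by
  obtain ⟨h2, h3⟩ := wmp_pos hs.l1 hB hb
  have h4 := wmp_ball_gen h1 hs hB h2 h3 (fun x => le_max_right _ _) wmp_alt (by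
    filter_upwards [col] with x h hx hy
    exact max_eq_right (sub_nonpos.2 (h hx hy))) l2 (by
    filter_upwards [pt] with x h hx hy
    have h4 : 0 < w x - B x := (lt_max_iff.1 hy).resolve_right (lt_irrefl _)
    rw [max_eq_left h4.le]
    exact h hx (sub_pos.1 h4))
  filter_upwards [h4] with x h hx
  exact sub_nonpos.1 (max_eq_right_iff.1 (h hx))

end

end Vale.Agent.P363
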