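import Vale.Agent.P363.CSub

/-! P363, block C: weak maximum principles, quadratic form. -/

open MeasureTheory Set Metric Filter Topology
open scoped RealInnerProductSpace

namespace Vale.Agent.P363

noncomputable section

variable {U A : Set E3} {w B R l : E3 → ℝ} {gw gB : E3 → E3} {lam : ℝ}

namespace WmpQ

open Classical in
/-- The excess of `w` over `B` on the set `T`. -/
def ex (T : Set E3) (w B : E3 → ℝ) (x : E3) : ℝ := if x ∈ T then w x - B x else 0

open Classical in
/-- Its gradient. -/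
def gex (T : Set E3) (gw gB : E3 → E3) (x : E3) : E3 := if x ∈ T then gw x - gB x else 0

theorem loc2_norm {g : E3 → E3} (h : Loc2 U g) : Loc2 U fun x => ‖g x‖ :=
  fun K hK hKU => (h K hK hKU).norm

theorem int_of_l2 {α : Type} [NormedAddCommGroup α] {f : E3 → α} {K : Set E3} (hK : IsCompact K)
    (h : MemLp f 2 (volume.restrict K)) : Integrable (K.indicator f) := by
  rw [integrable_indicator_iff hK.measurableSet]
  have : IsFiniteMeasure (volume.restrict K) := isFiniteMeasure_restrict.2 hK.measure_lt_top.ne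
  exact h.integrable (by norm_num)

theorem core {T K : Set E3} {ζ : E3 → ℝ} {q : E3 → E3} {M : ℝ} (hs : SubQ U w gw R)
    (hB : C2 U B gB l) (hp : ∀ x ∈ U, 0 < B x) (hT : ∀ x ∈ T, B x < w x)
    (hv : LD U (ex T w B) (gex T gw gB)) (hζ : LD U ζ q) (bζ : ∀ x, |ζ x| ≤ 1)
    (bq : ∀ x, ‖q x‖ ≤ M) (hK : IsCompact K) (hKU : K ⊆ U)
    (h0 : ∀ᵐ x : E3, x ∈ U → x ∉ K → ζ x * ex T w B x = 0) :
    H1 (K.indicator fun x => ζ x * ex T w B x)
      (K.indicator fun x => ζ x • gex T gw gB x + ex T w B x • q x) ∧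
    Integrable (K.indicator fun x => (R x - l x / 2 * w x) * (ζ x ^ 2 * (ex T w B x / w x))) ∧
    Integrable (K.indicator fun x => ex T w B x ^ 2 * ‖q x‖ ^ 2) ∧
    (1 / 2) * (∫ x, ‖K.indicator (fun x => ζ x • gex T gw gB x + ex T w B x • q x) x‖ ^ 2)
      + ∫ x, K.indicator (fun x => (R x - l x / 2 * w x) * (ζ x ^ 2 * (ex T w B x / w x))) x
      ≤ (1 / 2) * ∫ x, K.indicator (fun x => ex T w B x ^ 2 * ‖q x‖ ^ 2) x := by
  classical
  have hU := hB.op
  have hM : 0 ≤ M := (norm_nonneg _).trans (bq 0)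
  obtain ⟨lB, bB, -, bgB⟩ := hB.l1
  have pB : LocP U B := LocP.of_cont hB.cont.1 hp
  have bv : ∀ x, |ex T w B x| ≤ |w x| + |B x| := fun x => by
    unfold ex; split_ifs
    · exact abs_sub _ _
    · simp; positivity
  have bg : ∀ x, ‖gex T gw gB x‖ ≤ ‖gw x‖ + ‖gB x‖ := fun x => by
    unfold gex; split_ifs
    · exact norm_sub_le _ _
    · simp; positivity
  have lv : L1 U (ex T w B) (gex T gw gB) :=
    ⟨hv, fun Q hQ hQU => ((hs.l1.l2 Q hQ hQU).norm.add (lB.l2 Q hQ hQU).norm).mono'
      (hv.mf.mono_measure (Measure.restrict_mono hQU le_rfl)) (ae_of_all _ bv),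
      fun Q hQ hQU => ((hs.l1.l2g Q hQ hQU).norm.add (lB.l2g Q hQ hQU).norm).mono'
      (hv.mg.mono_measure (Measure.restrict_mono hQU le_rfl)) (ae_of_all _ bg)⟩
  -- products with the cutoff
  have mulζ : ∀ {f : E3 → ℝ} {g : E3 → E3}, L1 U f g →
      L1 U (fun x => ζ x * f x) fun x => ζ x • g x + f x • q x := fun {f g} h =>
    ⟨hζ.mul hU h.ld, fun Q hQ hQU => (h.l2 Q hQ hQU).norm.mono'
      ((hζ.mul hU h.ld).mf.mono_measure (Measure.restrict_mono hQU le_rfl)) (ae_of_all _ fun x => by
        rw [norm_mul]; exact mul_le_of_le_one_left (norm_nonneg _) (bζ x)),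
      fun Q hQ hQU => ((h.l2g Q hQ hQU).norm.add ((h.l2 Q hQ hQU).norm.mul_const M)).mono'
      ((hζ.mul hU h.ld).mg.mono_measure (Measure.restrict_mono hQU le_rfl)) (ae_of_all _ fun x => by
        refine (norm_add_le _ _).trans (add_le_add ?_ ?_)
        · rw [norm_smul]; exact mul_le_of_le_one_left (norm_nonneg _) (bζ x)
        · rw [norm_smul]; exact mul_le_mul_of_nonneg_left (bq x) (norm_nonneg _))⟩
  have lu := mulζ lv
  have lf := mulζ lu
  have hu : H1 (K.indicator fun x => ζ x * ex T w B x)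
      (K.indicator fun x => ζ x • gex T gw gB x + ex T w B x • q x) :=
    ⟨LD.glue hU hK.isClosed hKU lu.ld h0,
      (memLp_indicator_iff_restrict hK.measurableSet).2 (lu.l2 K hK hKU),
      (memLp_indicator_iff_restrict hK.measurableSet).2 (lu.l2g K hK hKU)⟩
  have wk := hB.weak (LD.glue hU hK.isClosed hKU lf.ld (h0.mono fun x h h1 h2 => by
    rw [h h1 h2, mul_zero])) (int_of_l2 hK (lf.l2 K hK hKU)) (int_of_l2 hK (lf.l2g K hK hKU)) hK hKU
    fun x hx => ⟨indicator_of_notMem hx _, indicator_of_notMem hx _⟩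
  -- the factor
  have pm : LocP U fun x => max (w x) (B x) := fun Q hQ hQU =>
    (pB Q hQ hQU).imp fun c hc => ⟨hc.1, hc.2.mono fun x h hx => (h hx).trans (le_max_right _ _)⟩
  have d0 : LD U (fun x => ex T w B x / w x) fun x =>
      if x ∈ T then (B x / w x ^ 2) • gw x - (w x)⁻¹ • gB x else 0 := by
    refine LD.congr hU (hv.div hU (hs.l1.ld.max hU hB.ld) pm) (ae_of_all _ fun x _ => ?_)
      (ae_of_all _ fun x hx => ?_)
    · unfold ex; split_ifs with h
      · rw [max_eq_left (hT x h).le]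
      · simp
    · unfold ex gex; by_cases h : x ∈ T
      · have h1 := (hp x hx).trans (hT x h)
        simp only [if_pos h, if_pos (hT x h), max_eq_left (hT x h).le, smul_sub]
        rw [show B x / w x ^ 2 = (w x)⁻¹ - (w x - B x) / w x ^ 2 by field_simp; ring, sub_smul]
        abel
      · simp [h]
  have b0 : ∀ x ∈ U, 0 ≤ ex T w B x / w x ∧ ex T w B x / w x ≤ 1 := fun x hx => by
    unfold ex; split_ifs with h
    · have h1 := (hp x hx).trans (hT x h)
      exact ⟨div_nonneg (sub_nonneg.2 (hT x h).le) h1.le,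
        (div_le_one h1).2 (by linarith [hp x hx])⟩
    · simp
  have l0 : L1 U (fun x => ex T w B x / w x) fun x =>
      if x ∈ T then (B x / w x ^ 2) • gw x - (w x)⁻¹ • gB x else 0 := by
    refine L1.of_le hU d0 hs.l1.l2 (loc2_norm hs.l1.l2g) fun Q hQ hQU => ?_
    obtain ⟨c, hc, h1⟩ := pB Q hQ hQU
    obtain ⟨N, h2⟩ := bgB Q hQ hQU
    refine ⟨1 + (1 + |N|) / c, ?_⟩
    filter_upwards [h1, h2] with x h1 h2 hx
    have h3 : 0 ≤ (1 + |N|) / c := by positivity
    refine ⟨?_, ?_⟩
    · rw [abs_of_nonneg (b0 x (hQU hx)).1]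
      nlinarith [(b0 x (hQU hx)).2, abs_nonneg (w x)]
    · split_ifs with h
      · have h4 := h1 hx
        have h5 := hT x h
        have h6 : 0 < w x := by linarith
        have h7 : (w x)⁻¹ ≤ c⁻¹ := inv_anti₀ hc (by linarith)
        have h8 : B x / w x ^ 2 ≤ c⁻¹ := le_trans (by
          rw [div_le_iff₀ (by positivity)]; field_simp; linarith) h7
        have h9 : ‖gB x‖ ≤ |N| := (le_abs_self _).trans ((h2 hx).trans (le_abs_self _))
        refine (norm_sub_le _ _).trans ?_
        rw [norm_smul, norm_smul, Real.norm_of_nonneg (div_nonneg (by linarith) (by positivity)),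
          Real.norm_of_nonneg (by positivity), abs_norm]
        refine (add_le_add (mul_le_mul_of_nonneg_right h8 (norm_nonneg _))
          (mul_le_mul h7 h9 (norm_nonneg _) (by positivity))).trans ?_
        rw [div_eq_mul_inv]
        have := inv_pos.2 hc
        nlinarith [norm_nonneg (gw x), abs_nonneg N, mul_nonneg this.le (norm_nonneg (gw x)),
          mul_nonneg (mul_nonneg this.le (abs_nonneg N)) (norm_nonneg (gw x))]
      · rw [norm_zero]; positivity
  have lψ := mulζ (mulζ l0)
  have bψ : ∀ x ∈ U, 0 ≤ ζ x * (ζ x * (ex T w B x / w x)) ∧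
      ζ x * (ζ x * (ex T w B x / w x)) ≤ 1 := fun x hx => by
    rw [← mul_assoc]
    have h1 : ζ x * ζ x ≤ 1 := by rw [← abs_mul_abs_self]; nlinarith [bζ x, abs_nonneg (ζ x)]
    exact ⟨mul_nonneg (mul_self_nonneg _) (b0 x hx).1,
      mul_le_one₀ h1 (b0 x hx).1 (b0 x hx).2⟩
  have tψ := Tst.mk' hU hK hKU lψ (fun Q _ hQU => ⟨1, ae_of_all _ fun x hx => by
      rw [abs_of_nonneg (bψ x (hQU hx)).1]; exact (bψ x (hQU hx)).2⟩)
    (h0.mono fun x h h1 h2 => by rw [← mul_div_assoc, h h1 h2, zero_div, mul_zero])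
  have wp : MemLp (fun x => w x • K.indicator (fun x => ζ x • (ζ x • (if x ∈ T then
      (B x / w x ^ 2) • gw x - (w x)⁻¹ • gB x else 0) + (ex T w B x / w x) • q x)
      + (ζ x * (ex T w B x / w x)) • q x) x) 2 volume := by
    simp only [← indicator_smul_apply]
    rw [memLp_indicator_iff_restrict hK.measurableSet]
    refine ((((hs.l1.l2g K hK hKU).norm.add (lB.l2g K hK hKU).norm)).add
      ((lv.l2 K hK hKU).norm.mul_const (2 * M))).mono'
      (((hs.l1.l2 K hK hKU).1).smul (lψ.l2g K hK hKU).1)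
      ((ae_restrict_iff' hK.measurableSet).2 (ae_of_all _ fun x hx => ?_))
    simp only [Pi.add_apply]
    by_cases h : x ∈ T
    · have h5 := hT x h
      have h4 := hp x (hKU hx)
      have h6 : 0 < w x := by linarith
      have e : w x • (ζ x • (ζ x • ((B x / w x ^ 2) • gw x - (w x)⁻¹ • gB x)
          + (ex T w B x / w x) • q x) + (ζ x * (ex T w B x / w x)) • q x)
          = ζ x • ζ x • ((B x / w x) • gw x - gB x) + ζ x • ex T w B x • (2 : ℝ) • q x := by
        have := h6.ne'
        match_scalars <;> field_simp <;> ring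
      have n1 : ∀ y : E3, ‖ζ x • y‖ ≤ ‖y‖ := fun y => by
        rw [norm_smul]; exact mul_le_of_le_one_left (norm_nonneg _) (bζ x)
      rw [if_pos h, e]
      refine (norm_add_le _ _).trans (add_le_add ((n1 _).trans ((n1 _).trans
        ((norm_sub_le _ _).trans (add_le_add ?_ le_rfl)))) ((n1 _).trans ?_))
      · rw [norm_smul, Real.norm_of_nonneg (by positivity)]
        exact mul_le_of_le_one_left (norm_nonneg _) ((div_le_one h6).2 h5.le)
      · rw [norm_smul, norm_smul, Real.norm_two]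
        exact mul_le_mul_of_nonneg_left (by linarith [bq x]) (norm_nonneg _)
    · simp only [ex, if_neg h, zero_div, mul_zero, smul_zero, zero_smul, add_zero, norm_zero]
      positivity
  have iq := hs.ineq _ _ tψ (ae_of_all _ fun x => indicator_apply_nonneg fun hx => (bψ x (hKU hx)).1)
    wp
  obtain ⟨i1, i2, i3⟩ := hs.int tψ wp
  have i4 : Integrable (K.indicator fun x => ex T w B x ^ 2 * ‖q x‖ ^ 2) := by
    rw [integrable_indicator_iff hK.measurableSet]
    refine (((lv.l2 K hK hKU).integrable_sq).mul_const (M ^ 2)).mono'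
      ((((lv.l2 K hK hKU).1).pow 2).mul
        ((hζ.mg.mono_measure (Measure.restrict_mono hKU le_rfl)).norm.pow 2))
      (ae_of_all _ fun x => ?_)
    rw [Real.norm_of_nonneg (by positivity)]
    exact mul_le_mul_of_nonneg_left (pow_le_pow_left₀ (norm_nonneg _) (bq x) 2) (sq_nonneg _)
  have i5 : Integrable
      (K.indicator fun x => (R x - l x / 2 * w x) * (ζ x ^ 2 * (ex T w B x / w x))) := by
    refine (i3.sub (wk.2.1.div_const 2)).congr (ae_of_all _ fun x => ?_)
    simp only [Pi.sub_apply]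
    by_cases hx : x ∈ K
    · simp only [indicator_of_mem hx, ex]
      split_ifs with h
      · have h6 : w x ≠ 0 := ((hp x (hKU hx)).trans (hT x h)).ne'
        field_simp
      · simp
    · simp [indicator_of_notMem hx]
  have i6 := hu.l2g.norm.integrable_sq
  refine ⟨hu, i5, i4, ?_⟩
  have i7 := ((i1.add i2).const_mul (1 / 2)).add i3
  have i8 := (wk.1.add wk.2.1).const_mul (1 / 2)
  have e1 := integral_sub i7 i8
  simp only [Pi.add_apply] at e1
  rw [integral_const_mul, wk.2.2, mul_zero, sub_zero] at e1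
  rw [← e1] at iq
  rw [← sub_nonpos, ← integral_const_mul, ← integral_const_mul,
    ← integral_add (i6.const_mul _) i5, ← integral_sub (by exact (i6.const_mul _).add i5)
      (i4.const_mul _)]
  refine le_of_eq_of_le (integral_congr_ae (ae_of_all _ fun x => ?_)) iq
  by_cases hx : x ∈ K
  · simp only [indicator_of_mem hx, ex, gex]
    split_ifs with h
    · have h6 : w x ≠ 0 := ((hp x (hKU hx)).trans (hT x h)).ne'
      simp only [← real_inner_self_eq_norm_sq, inner_add_left, inner_add_right, inner_sub_left,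
        inner_sub_right, real_inner_smul_left, real_inner_smul_right, real_inner_comm (gw x),
        real_inner_comm (gB x) (q x)]
      field_simp
      ring
    · simp
  · simp [indicator_of_notMem hx]

theorem ae_zero {g : E3 → ℝ} (hg : Integrable g) (h0 : ∀ x, 0 ≤ g x) {a : ℕ → ℝ}
    (ha : Tendsto a atTop (𝓝 0)) (h : ∀ᶠ n in atTop, ∫ x, g x ≤ a n) : ∀ᵐ x : E3, g x = 0 :=
  (integral_eq_zero_iff_of_nonneg h0 hg).1
    (le_antisymm (ge_of_tendsto ha h) (integral_nonneg h0))

theorem coer {T : Set E3} (hs : SubQ U w gw R) (hB : C2 U B gB l) (hp : ∀ x ∈ U, 0 < B x)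
    (hT : ∀ x ∈ T, B x < w x) (hv : LD U (ex T w B) (gex T gw gB)) (hA : IsClosed A)
    (hAU : A ⊆ U) (hl : 0 < lam) (col : ∀ᵐ x : E3, x ∈ U → x ∉ A → x ∉ T)
    (l2 : Integrable (A.indicator fun x => ex T w B x ^ 2))
    (pt : ∀ᵐ x : E3, x ∈ A → x ∈ T → lam * (w x - B x) * w x ≤ R x - l x / 2 * w x) :
    ∀ᵐ x : E3, x ∈ U → x ∉ T := by
  have key : ∀ r : ℕ, ∀ᵐ x : E3,
      (closedBall (0 : E3) r).indicator (A.indicator fun x => ex T w B x ^ 2) x = 0 := fun r => by
    have n0 : ∀ x, 0 ≤ A.indicator (fun x => ex T w B x ^ 2) x := fun x =>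
      indicator_nonneg (fun _ _ => sq_nonneg _) x
    have ir := l2.indicator (measurableSet_closedBall (x := (0 : E3)) (ε := r))
    refine ae_zero ir (fun x => indicator_nonneg (fun y _ => n0 y) x)
      (a := fun n => (∫ x, A.indicator (fun x => ex T w B x ^ 2) x) / (2 * lam) / n)
      (tendsto_const_div_atTop_nhds_zero_nat _) ?_
    filter_upwards [eventually_ge_atTop (r + 1)] with n hn
    have hn' : (r : ℝ) + 1 ≤ n := by exact_mod_cast hn
    have hn1 : (1 : ℝ) ≤ n := by linarith [Nat.cast_nonneg (α := ℝ) r]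
    obtain ⟨ξ, q, ht, -, -, hξ⟩ := exists_cut 0 (a := n) (b := 2 * n) (by linarith) (by linarith)
    obtain ⟨-, i1, i2, h⟩ := core (K := A ∩ closedBall 0 (2 * n)) hs hB hp hT hv
      (ht.ld.mono (subset_univ U)) (fun x => by rw [abs_of_nonneg (hξ x).1]; exact (hξ x).2.1)
      (fun x => (hξ x).2.2.1) ((isCompact_closedBall _ _).inter_left hA)
      (inter_subset_left.trans hAU) (col.mono fun x h hx hK => by
        by_cases hxA : x ∈ A
        · have : 2 * (n : ℝ) ≤ ‖x - 0‖ := by
            by_contra hc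
            exact hK ⟨hxA, mem_closedBall_iff_norm.2 (not_le.1 hc).le⟩
          rw [((hξ x).2.2.2.2.1 this).1, zero_mul]
        · simp [ex, h hx hxA])
    have h1 := integral_mono_ae (ir.const_mul lam) i1 (pt.mono fun x hx => by
      simp only [indicator]
      split_ifs with c1 c2 c3 c4 c5
      · rw [((hξ x).2.2.2.1 (by linarith [mem_closedBall_iff_norm.1 c1])).1]
        unfold ex
        split_ifs with c
        · have h6 := (hp x (hAU c2)).trans (hT x c)
          refine le_trans (le_of_eq ?_) (mul_le_mul_of_nonneg_right (hx c2 c)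
            (mul_nonneg (sq_nonneg _) (div_nonneg (sub_nonneg.2 (hT x c).le) h6.le)))
          field_simp
        · simp
      · exact absurd ⟨c2, closedBall_subset_closedBall (by linarith) c1⟩ c3
      · exact absurd c4.1 c2
      · simp
      · unfold ex
        split_ifs with c
        · have h6 := (hp x (hAU c5.1)).trans (hT x c)
          have h7 := sub_nonneg.2 (hT x c).le
          rw [mul_zero]
          exact mul_nonneg (le_trans (by positivity) (hx c5.1 c)) (by positivity)
        · simp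
      · simp)
    have h2 := integral_mono i2 (l2.div_const n) fun x => by
      simp only [indicator]
      split_ifs with c1 c2 c3
      · rw [div_eq_mul_one_div]
        refine mul_le_mul_of_nonneg_left ((pow_le_pow_left₀ (norm_nonneg _) (hξ x).2.2.1 2).trans ?_)
          (sq_nonneg _)
        rw [show 2 * (n : ℝ) - n = n by ring]
        exact pow_le_of_le_one (by positivity) ((div_le_one (by linarith)).2 hn1) two_ne_zero
      · exact absurd c1.1 c2
      · positivity
      · simp
    have h3 : 0 ≤ ∫ x, ‖(A ∩ closedBall 0 (2 * (n : ℝ))).indicator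
        (fun x => ξ x • gex T gw gB x + ex T w B x • q x) x‖ ^ 2 :=
      integral_nonneg fun _ => sq_nonneg _
    rw [integral_const_mul] at h1
    rw [integral_div] at h2
    rw [div_right_comm, le_div_iff₀ (by positivity)]
    linarith
  filter_upwards [col, ae_all_iff.2 key] with x h1 h2 hx hxT
  by_cases hxA : x ∈ A
  · obtain ⟨r, hr⟩ := exists_nat_ge ‖x‖
    have := h2 r
    rw [indicator_of_mem (mem_closedBall_zero_iff.2 hr), indicator_of_mem hxA, ex, if_pos hxT,
      sq_eq_zero_iff] at this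
    linarith [hT x hxT]
  · exact h1 hx hxA hxT

theorem ex_eq (w B : E3 → ℝ) (x : E3) : ex {x | B x < w x} w B x = max (w x - B x) 0 := by
  unfold ex
  split_ifs with h
  · exact (max_eq_left (sub_nonneg.2 (le_of_lt h))).symm
  · exact (max_eq_right (sub_nonpos.2 (not_lt.1 h))).symm

theorem ld_ex (hs : SubQ U w gw R) (hB : C2 U B gB l) :
    LD U (ex {x | B x < w x} w B) (gex {x | B x < w x} gw gB) :=
  LD.congr hB.op ((hs.l1.ld.sub hB.ld).pos hB.op) (ae_of_all _ fun x _ => ex_eq w B x)
    (ae_of_all _ fun x _ => by simp [gex])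

end WmpQ

open WmpQ

theorem wmpQ (hs : SubQ U w gw R) (hB : C2 U B gB l) (hp : ∀ x ∈ U, 0 < B x) (hA : IsClosed A)
    (hAU : A ⊆ U) (hl : 0 < lam) (col : ∀ᵐ x : E3, x ∈ U → x ∉ A → w x ≤ B x)
    (l2 : MemLp (fun x => max (w x - B x) 0) 2 (volume.restrict A))
    (pt : ∀ᵐ x : E3, x ∈ A → B x < w x → lam * (w x - B x) * w x ≤ R x - l x / 2 * w x) :
    ∀ᵐ x : E3, x ∈ U → w x ≤ B x := by
  have := coer (T := {x | B x < w x}) hs hB hp (fun _ h => h) (ld_ex hs hB) hA hAU hl
    (col.mono fun x h h1 h2 => not_lt.2 (h h1 h2)) (by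
      simp only [ex_eq]
      exact (integrable_indicator_iff hA.measurableSet).2 l2.integrable_sq) pt
  exact this.mono fun x h hx => not_lt.1 (h hx)

theorem wmpQH (hs : SubQ U w gw R) (hB : C2 U B gB l) (hp : ∀ x ∈ U, 0 < B x) (hA : IsClosed A)
    (hAU : A ⊆ U) (hl : 0 < lam) (col : ∀ᵐ x : E3, x ∈ U → 0 < x 2 → x ∉ A → w x ≤ B x)
    (tz : TZ U (fun x => max (w x - B x) 0))
    (l2 : MemLp (fun x => max (w x - B x) 0) 2 (volume.restrict (A ∩ Hp)))
    (pt : ∀ᵐ x : E3, x ∈ A → 0 < x 2 → B x < w x →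
      lam * (w x - B x) * w x ≤ R x - l x / 2 * w x) :
    ∀ᵐ x : E3, x ∈ U → 0 < x 2 → w x ≤ B x := by
  have e1 : ex ({x | B x < w x} ∩ Hp) w B = Hp.indicator fun x => max (w x - B x) 0 := by
    funext x
    by_cases h : x ∈ Hp <;> simp [← ex_eq, ex, h]
  have e2 : gex ({x | B x < w x} ∩ Hp) gw gB = Hp.indicator (gex {x | B x < w x} gw gB) := by
    funext x
    by_cases h : x ∈ Hp <;> simp [gex, h]
  have := coer (T := {x | B x < w x} ∩ Hp) hs hB hp (fun _ h => h.1) (by
      rw [e1, e2, ← funext (ex_eq w B)]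
      exact (ld_ex hs hB).cut hB.op (by rwa [funext (ex_eq w B)])) hA hAU hl
    (col.mono fun x h h1 h2 h3 => not_lt.2 (h h1 h3.2 h2) h3.1) (by
      have := (integrable_indicator_iff (hA.measurableSet.inter isOpen_Hp.measurableSet)).2
        l2.integrable_sq
      refine this.congr (ae_of_all _ fun x => ?_)
      by_cases h : x ∈ Hp <;> by_cases h' : x ∈ A <;> simp [e1, h, h'])
    (pt.mono fun x h h1 h2 => h h1 h2.2 h2.1)
  exact this.mono fun x h hx h2 => not_lt.1 fun h3 => h hx ⟨h3, h2⟩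

theorem wmpQ_ball {c : E3} {ρ ρ' : ℝ} (h1 : ρ' < ρ) (hs : SubQ (ball c ρ \ {c}) w gw R)
    (hB : C2 (ball c ρ \ {c}) B gB l) (hp : ∀ x ∈ ball c ρ \ {c}, 0 < B x)
    (col : ∀ᵐ x : E3, x ∈ ball c ρ → ρ' < ‖x - c‖ → w x ≤ B x)
    (l2 : IntegrableOn (fun x => max (w x - B x) 0 ^ 2 / ‖x - c‖ ^ 2) (ball c ρ))
    (pt : ∀ᵐ x : E3, x ∈ ball c ρ → B x < w x →
      -((w x - B x) * w x / (16 * ‖x - c‖ ^ 2)) ≤ R x - l x / 2 * w x) :
    ∀ᵐ x : E3, x ∈ ball c ρ → w x ≤ B x := by
  simp only [← ex_eq] at l2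
  obtain ⟨g, hg⟩ : ∃ g : E3 → ℝ, g = (ball c ρ).indicator
    fun x => ex {x | B x < w x} w B x ^ 2 / ‖x - c‖ ^ 2 := ⟨_, rfl⟩
  have ig : Integrable g := by rw [hg]; exact (integrable_indicator_iff measurableSet_ball).2 l2
  have g0 : ∀ x, 0 ≤ g x := by rw [hg]; exact indicator_nonneg fun _ _ => by positivity
  have t0 : Tendsto (fun n : ℕ => 2 * (1 / ((n : ℝ) + 1))) atTop (𝓝 0) := by
    simpa using tendsto_one_div_add_atTop_nhds_zero_nat.const_mul (2 : ℝ)
  have t1 : Tendsto (fun n : ℕ => ∫ x in closedBall c (2 * (1 / ((n : ℝ) + 1))), g x) atTop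
      (𝓝 0) := by
    have := tendsto_setIntegral_of_antitone (μ := volume) (f := g)
      (s := fun n : ℕ => closedBall c (2 * (1 / ((n : ℝ) + 1)))) (fun _ => measurableSet_closedBall)
      (fun m n h => closedBall_subset_closedBall (by gcongr)) ⟨0, ig.integrableOn⟩
    rwa [setIntegral_measure_zero _ (measure_mono_null (t := {c}) (fun x hx => ?_)
      (measure_singleton c))] at this
    exact dist_le_zero.1 (ge_of_tendsto' t0 fun n => mem_iInter.1 hx n)
  have key : ∀ r : ℕ, ∀ᵐ x : E3,
      (ball c (1 / ((r : ℝ) + 1)))ᶜ.indicator g x = 0 := fun r => by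
    have ir := ig.indicator (measurableSet_ball (x := c) (ε := 1 / ((r : ℝ) + 1))).compl
    refine ae_zero ir (fun x => indicator_nonneg (fun y _ => g0 y) x)
      (by simpa only [mul_zero] using t1.const_mul 32) ?_
    filter_upwards [t0.eventually (ge_mem_nhds (show (0 : ℝ) < 1 / ((r : ℝ) + 1) by positivity))]
      with n hn
    generalize 1 / ((r : ℝ) + 1) = s at hn ir ⊢
    have hε : 0 < 1 / ((n : ℝ) + 1) := by positivity
    generalize 1 / ((n : ℝ) + 1) = ε at hn hε ⊢
    obtain ⟨ξ, q, ht, -, -, hξ⟩ := exists_cut c (a := ε) (b := 2 * ε) hε.le (by linarith)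
    have hKU : closedBall c ρ' \ ball c ε ⊆ ball c ρ \ {c} := fun x hx =>
      ⟨closedBall_subset_ball h1 hx.1, fun h => hx.2 (by rw [h]; exact mem_ball_self hε)⟩
    obtain ⟨hu, i1, i2, h⟩ := core (K := closedBall c ρ' \ ball c ε) (ζ := fun x => 1 - ξ x)
      (T := {x | B x < w x}) (q := fun x => 0 - q x) hs hB hp (fun _ h => h) (ld_ex hs hB)
      ((LD.const _ 1).sub (ht.ld.mono (subset_univ _)))
      (fun x => abs_le.2 ⟨by linarith [(hξ x).2.1], by linarith [(hξ x).1]⟩)
      (fun x => by rw [zero_sub, norm_neg]; exact (hξ x).2.2.1)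
      ((isCompact_closedBall _ _).diff isOpen_ball) hKU (col.mono fun x h hx hK => by
        by_cases h2 : x ∈ ball c ε
        · rw [((hξ x).2.2.2.1 (mem_ball_iff_norm.1 h2).le).1, sub_self, zero_mul]
        · have h3 : ρ' < ‖x - c‖ := not_le.1 fun h3 => hK ⟨mem_closedBall_iff_norm.2 h3, h2⟩
          simp [ex, h hx.1 h3])
    obtain ⟨i3, h2⟩ := hardy hu c
    have h3 := integral_mono_ae (i3.const_mul (-(1 / 16))) i1 (pt.mono fun x hx => by
      simp only [indicator]
      split_ifs with c1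
      · unfold ex
        split_ifs with c2
        · have h6 := (hp x (hKU c1)).trans c2
          refine le_trans (le_of_eq ?_) (mul_le_mul_of_nonneg_right (hx (hKU c1).1 c2)
            (mul_nonneg (sq_nonneg _) (div_nonneg (sub_nonneg.2 (le_of_lt c2)) h6.le)))
          have : ‖x - c‖ ≠ 0 := norm_ne_zero_iff.2 (sub_ne_zero.2 (hKU c1).2)
          field_simp
        · simp
      · simp)
    have h4 := integral_mono i2 ((ig.indicator (measurableSet_closedBall (x := c)
        (ε := 2 * ε))).const_mul 4) fun x => by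
      simp only [indicator]
      split_ifs with c1 c2 c3
      · have r0 : 0 < ‖x - c‖ := norm_pos_iff.2 (sub_ne_zero.2 (hKU c1).2)
        rw [hg, indicator_of_mem (hKU c1).1, zero_sub, norm_neg, mul_div_assoc', mul_comm 4,
          mul_div_assoc]
        refine mul_le_mul_of_nonneg_left ((pow_le_pow_left₀ (norm_nonneg _) (hξ x).2.2.1 2).trans ?_)
          (sq_nonneg _)
        rw [show 2 * ε - ε = ε by ring, div_pow, div_le_div_iff₀ (by positivity) (by positivity)]
        nlinarith [mem_closedBall_iff_norm.1 c2]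
      · rw [((hξ x).2.2.2.2.1 (not_le.1 fun h => c2 (mem_closedBall_iff_norm.2 h)).le).2]
        simp
      · linarith [g0 x]
      · simp
    have h5 := integral_mono_ae ir i3 (col.mono fun x hx => by
      simp only [indicator]
      split_ifs with c1 c2 c3
      · have r1 : s ≤ ‖x - c‖ := not_lt.1 fun h => c1 (mem_ball_iff_norm.2 h)
        rw [hg, indicator_of_mem (hKU c2).1, ((hξ x).2.2.2.2.1 (by linarith)).1, sub_zero, one_mul]
      · have r1 : s ≤ ‖x - c‖ := not_lt.1 fun h => c1 (mem_ball_iff_norm.2 h)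
        have h3 : ρ' < ‖x - c‖ := not_le.1 fun h3 => c2 ⟨mem_closedBall_iff_norm.2 h3,
          fun h => by linarith [mem_ball_iff_norm.1 h]⟩
        rw [hg]
        by_cases h4 : x ∈ ball c ρ
        · simp [indicator_of_mem h4, ex, not_lt.2 (hx h4 h3)]
        · simp [indicator_of_notMem h4]
      · positivity
      · simp)
    rw [integral_const_mul] at h3
    rw [integral_const_mul, integral_indicator measurableSet_closedBall] at h4
    linarith
  filter_upwards [ae_all_iff.2 key, (measure_eq_zero_iff_ae_notMem).1 (measure_singleton c)]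
    with x h2 h3 hx
  have r0 : 0 < ‖x - c‖ := norm_pos_iff.2 (sub_ne_zero.2 h3)
  obtain ⟨r, hr⟩ := exists_nat_one_div_lt r0
  have := h2 r
  rw [indicator_of_mem (show x ∈ (ball c _)ᶜ from fun h => by linarith [mem_ball_iff_norm.1 h]), hg,
    indicator_of_mem hx, div_eq_zero_iff, ex_eq] at this
  rcases this with h | h
  · have := le_max_left (w x - B x) 0
    rw [sq_eq_zero_iff.1 h] at this
    linarith
  · exact absurd h (by positivity)

end

end Vale.Agent.P363
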