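import Vale.Agent.P363.Defs

/-! P363: the scalar interface between the many-body equation and the barrier arguments. -/

open MeasureTheory Set Metric Filter Topology
open scoped RealInnerProductSpace

namespace Vale.Agent.P363

noncomputable section

/-- Scalar quantities extracted from the ground state: with `𝒜 x = √2 F (x, ·)`,
`B x = F (p13 (x, ·))`, `d = ⟨P, 𝒜⟩`, `a = ‖even part of 𝒜 in x‖`, `c = ‖odd part - d P‖`,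
`b = ‖B‖`, `X = √(a² + b² + c²)`, `m = ‖1_{rho6 > |x|/2} (odd part - d P)‖`, `dT = ⟨T, B⟩`,
`dS = ⟨S, 𝒜⟩`. -/
structure VB {c0 L : ℝ} (ob : OB c0 L) (lam r1 ε C2 C3 Cq I : ℝ) (N : E3 → ℝ) (gN : E3 → E3) where
  d : E3 → ℝ
  a : E3 → ℝ
  b : E3 → ℝ
  c : E3 → ℝ
  X : E3 → ℝ
  m : E3 → ℝ
  dT : E3 → ℝ
  dS : E3 → ℝ
  gd : E3 → E3
  ga : E3 → E3
  gb : E3 → E3
  gc : E3 → E3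
  gX : E3 → E3
  gT : E3 → E3
  gS : E3 → E3
  RN : E3 → ℝ
  Rd : E3 → ℝ
  Ra : E3 → ℝ
  Rb : E3 → ℝ
  Rc : E3 → ℝ
  RX : E3 → ℝ
  RT : E3 → ℝ
  RS : E3 → ℝ
  ee : E3 → ℝ
  gq : E3 → E3
  δT : ℝ
  δS : ℝ
  Dp : ℝ
  hI : |I + ob.eu| ≤ C3 * lam
  nb : LocP (D L) N → NB ob r1 ε (eta lam) I N gN
  h : H1 N gN
  nn : ∀ x, 0 ≤ N x
  ev : ∀ x, N (sg x) = N x
  lb : LocB (D L) N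
  sub : SubQ (D L) N gN (fun x => (V L x + I) * N x ^ 2)
  bd : ∀ᵐ x : E3, x ∈ Ext2 L 1 → N x ≤ C3
  hd : H1 d gd
  sym : ∀ᵐ x : E3, d (sg x) = -d x ∧ c (sg x) = c x
  alg : ∀ᵐ x : E3, 0 ≤ a x ∧ 0 ≤ b x ∧ 0 ≤ c x ∧ 0 ≤ X x ∧ 0 ≤ m x ∧
    X x ^ 2 = a x ^ 2 + b x ^ 2 + c x ^ 2 ∧ N x ^ 2 = d x ^ 2 + X x ^ 2 ∧
    |dT x| ≤ b x ∧ |dS x| ≤ a x
  par : |δT - ob.del| ≤ C3 * lam ∧ |δS - ob.del| ≤ C3 * lam ∧ L ≤ C2 * Dp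
  sN : SubQ (D L) N gN RN
  eN : ∀ᵐ x : E3, (V L x + I + 2 * lam / (1 + ‖x‖) - lam * C3 / (1 + ‖x‖) ^ 2) * N x ^ 2 ≤ RN x
  sd : Sub (D L) d gd Rd ∧ Sub (D L) (fun x => -d x) (fun x => -gd x) (fun x => -Rd x)
  ed : ∀ᵐ x : E3, |Rd x - (V L x + I + 2 * lam / (1 + ‖x‖)) * d x| ≤
    lam * C3 / (1 + ‖x‖) ^ 2 * (|d x| + X x)
  sX : SubQ (D L) X gX RX
  eX : ∀ᵐ x : E3, (V L x + I + ob.del - C3 * lam) * X x ^ 2 -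
    lam * C3 / (1 + ‖x‖) ^ 2 * |d x| * X x ≤ RX x
  sb : SubQ (D L) b gb Rb
  eb : ∀ᵐ x : E3, (V L x + I + ob.del - C3 * lam) * b x ^ 2 ≤ Rb x
  wt : ∀ R : ℕ, ∃ (w : E3 → ℝ) (gw : E3 → E3) (Rw : E3 → ℝ), SubQ (D L) w gw Rw ∧
    MemLp w 2 volume ∧ ∫ x, w x ^ 2 ≤ C3 ∧ ∀ᵐ x : E3, 0 ≤ w x ∧
      (V L x + I + 1 / 5) * w x ^ 2 - C3 * N x ^ 2 ≤ Rw x ∧
      (‖x‖ ≤ R → m x ≤ Real.exp (-‖x‖ / 20) * (w x + C3 * N x))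
  sa : SubQ (D L) a ga Ra
  ea : ∀ᵐ x : E3, C3 ≤ ‖x‖ → (V L x + I + ob.del - C3 * lam) * a x ^ 2 -
    lam * ((C2 * L * |x 2| / ‖x‖ ^ 3 + C3 * Real.exp (-‖x‖ / 20)) * |d x| +
      4 * |x 2| / ‖x‖ ^ 2 * c x) * a x - 2 * lam * m x ^ 2 ≤ Ra x
  sc : SubQ (D L) c gc Rc
  ec : ∀ᵐ x : E3, (V L x + I + ob.del - C3 * lam) * c x ^ 2 -
    lam * C3 / (1 + ‖x‖) ^ 2 * |d x| * c x - 2 * lam * a x ^ 2 ≤ Rc x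
  tc : TZ univ c
  sT : Sub (D L) (fun x => -dT x) (fun x => -gT x) (fun x => -RT x)
  eT : ∀ᵐ x : E3, |RT x - (V L x + I + δT) * dT x| ≤ lam * C3 * b x
  sS : Sub (D L) dS gS RS
  eS : ∀ᵐ x : E3, C3 ≤ ‖x‖ → |RS x - (V L x + I + δS) * dS x - lam * Dp * x 2 / ‖x‖ ^ 3 * d x| ≤
    lam * C3 * ((|x 2| / ‖x‖ ^ 4 + Real.exp (-‖x‖ / 20)) * |d x| + a x +
      (|x 2| / ‖x‖ ^ 3 + Real.exp (-‖x‖ / 20)) * c x)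
  close : ∀ᵐ x : E3, x ∈ Blk L (3 * r1) ε → |d x - ob.u x| ≤ ε ∧ |dT x - ob.g x| ≤ ε ∧
    a x ≤ ob.g x + ε ∧ b x ≤ ob.g x + ε ∧ c x ≤ ε
  nq : ∀ᵐ x : E3, 0 ≤ ee x ∧ ‖gq x‖ ^ 2 ≤ 4 * X x ^ 2 * ee x
  lee : Loc1 (Ext r1) ee
  sL : LocP (Ext r1) N → Sub (Ext r1) (fun x => -Real.log (N x)) (fun x => -(N x)⁻¹ • gN x)
    (fun x => ‖gN x‖ ^ 2 / (2 * N x ^ 2) -
      (Cq + ‖gd x‖ ^ 2 * X x ^ 2 / N x ^ 4 + 2 * ee x / N x ^ 2))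
  sq : Sub (Ext r1) (fun x => X x ^ 2) gq (fun x => ee x - Cq * N x ^ 2)
  sd2 : Sub (Ext r1) (fun x => d x ^ 2) (fun x => (2 * d x) • gd x)
    (fun x => ‖gd x‖ ^ 2 - Cq * N x ^ 2)

def T_VB : Prop := ∀ c0 : ℝ, 0 < c0 → c0 ≤ 1 / 8 → ∀ r0 C C2 : ℝ, 1 ≤ C → 1 ≤ C2 →
  ∃ Cq : ℝ, 1 ≤ Cq ∧ ∀ᶠ ω in 𝓝[>] (0 : ℝ), ∀ᶠ L : ℝ in atTop, ∀ ob : OB c0 L, OBb ob C r0 ω →
    ∀ C1 : ℝ, 1 ≤ C1 → ∃ C3 : ℝ, 1 ≤ C3 ∧ ∀ᶠ r1 : ℝ in atTop, ∀ ε : ℝ, 0 < ε →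
      ∀ᶠ lam in 𝓝[>] (0 : ℝ), ∀ mb : MB ob lam C2 C1, ∃ gN,
        Nonempty (VB ob lam r1 ε C2 C3 Cq (mb.E0 - mb.E) (N3 mb.F.f) gN)

/-- The barrier chain. -/
def T_VF : Prop := ∀ c0 : ℝ, 0 < c0 → c0 ≤ 1 / 8 → ∀ᶠ r0 : ℝ in atTop, ∀ C C2 Cq : ℝ, 1 ≤ C →
  1 ≤ C2 → 1 ≤ Cq → ∃ C' : ℝ, 1 ≤ C' ∧ ∀ᶠ ω in 𝓝[>] (0 : ℝ), ∀ᶠ L : ℝ in atTop,
    ∀ ob : OB c0 L, OBb ob C r0 ω → ∀ C3 : ℝ, 1 ≤ C3 → ∀ᶠ r1 : ℝ in atTop,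
      ∀ᶠ ε in 𝓝[>] (0 : ℝ), ∀ᶠ lam in 𝓝[>] (0 : ℝ), ∀ I N gN,
        Nonempty (VB ob lam r1 ε C2 C3 Cq I N gN) →
          LocP (D L) N ∧ Nonempty (FB L ob.del lam r1 C' I N gN)

end

end Vale.Agent.P363
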