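import Vale.Agent.P363.M1b0

/-! P363, block M1, decay part: exponential decay. -/

open MeasureTheory Set Metric Filter Topology
open scoped RealInnerProductSpace

namespace Vale.Agent.P363

namespace M1b2Aux

noncomputable def mg (t : ℝ) (v : E3) (w : E6) : E3 :=
  (mw t w / 10) • (if rho6 w < t then ‖v‖⁻¹ • v else 0)

theorem ld (c t : ℝ) : LD univ (fun x : E3 => Real.exp (min (‖x‖ + c) t / 10))
    (fun x => (Real.exp (min (‖x‖ + c) t / 10) / 10) •
      (if ‖x‖ + c < t then ‖x‖⁻¹ • x else 0)) := by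
  have h := (((LD.norm'.add (LD.const univ c)).min isOpen_univ (LD.const univ t)).cmul
    (1 / 10)).exp isOpen_univ
  convert h using 2 with x x
  · congr 1
    ring
  · rw [smul_smul, add_zero]
    congr 1
    rw [show 1 / 10 * min (‖x‖ + c) t = min (‖x‖ + c) t / 10 by ring]
    ring

theorem cont_rho : Continuous rho6 := by
  unfold rho6
  fun_prop

theorem cont_mw (t : ℝ) : Continuous (mw t) := by
  have := cont_rho
  unfold mw
  fun_prop

theorem mw_pos (t : ℝ) (w : E6) : 0 < mw t w := Real.exp_pos _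

theorem mw_le (t : ℝ) (w : E6) : mw t w ≤ Real.exp (t / 10) :=
  Real.exp_le_exp.2 (by linarith [min_le_right (rho6 w) t])

theorem mw_sq (t : ℝ) (w : E6) : mw t w ^ 2 = Real.exp (min (rho6 w) t / 5) := by
  rw [mw, sq, ← Real.exp_add]
  congr 1
  ring

theorem mg_le (t : ℝ) (v : E3) (w : E6) : ‖mg t v w‖ ≤ mw t w / 10 := by
  have h := mw_pos t w
  rw [mg, norm_smul, Real.norm_of_nonneg (by positivity)]
  refine mul_le_of_le_one_right (by positivity) ?_
  split_ifs
  · rw [norm_smul, norm_inv, norm_norm]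
    exact inv_mul_le_one_of_le₀ le_rfl (norm_nonneg _)
  · simp

theorem meas_mg (t : ℝ) {v : E6 → E3} (hv : Measurable v) : Measurable fun w => mg t (v w) w := by
  refine ((cont_mw t).measurable.div_const 10).smul (Measurable.ite ?_ ?_ measurable_const)
  · exact measurableSet_lt cont_rho.measurable measurable_const
  · exact hv.norm.inv.smul hv

theorem mul (t : ℝ) {f : E6 → ℝ} {g1 g2 : E6 → E3} (h : H2 f g1 g2) :
    H2 (fun w => mw t w * f w) (fun w => mw t w • g1 w + f w • mg t w.1 w)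
      (fun w => mw t w • g2 w + f w • mg t w.2 w) := by
  refine h.mul (cont_mw t).measurable (meas_mg t measurable_fst) (meas_mg t measurable_snd)
    (fun y => ld ‖y‖ t) (fun x => ?_) (M := Real.exp (t / 10)) fun w => ?_
  · simpa only [mw, mg, rho6, add_comm ‖x‖] using ld ‖x‖ t
  · have h1 := mw_pos t w
    have h2 := mw_le t w
    exact ⟨by rwa [abs_of_pos h1], (mg_le ..).trans (by linarith), (mg_le ..).trans (by linarith)⟩

theorem pt (m a : ℝ) (g p : E3) (h : ‖p‖ ≤ m / 10) : ⟪m • g + a • p, m • g + a • p⟫ ≤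
    ⟪g, m • (m • g + a • p) + (m * a) • p⟫ + (m * a) * (m * a) / 100 := by
  have h1 : ⟪p, p⟫ ≤ m ^ 2 / 100 := by
    rw [real_inner_self_eq_norm_sq]
    nlinarith [norm_nonneg p]
  simp only [inner_add_left, inner_add_right, real_inner_smul_left, real_inner_smul_right,
    real_inner_comm p g]
  nlinarith [mul_le_mul_of_nonneg_left h1 (sq_nonneg a)]

theorem fatou {u : ℕ → E6 → ℝ} {v : E6 → ℝ} {C : ℝ} (hu : ∀ n, Integrable (u n))
    (h0 : ∀ n x, 0 ≤ u n x) (hv : ∀ x, 0 ≤ v x) (mv : AEStronglyMeasurable v volume)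
    (hl : ∀ x, Tendsto (fun n => u n x) atTop (𝓝 (v x))) (hC : ∀ n, ∫ x, u n x ≤ C) :
    Integrable v ∧ ∫ x, v x ≤ C := by
  have hC0 : 0 ≤ C := (integral_nonneg (h0 0)).trans (hC 0)
  have h1 : ∫⁻ x, ENNReal.ofReal (v x) ≤ ENNReal.ofReal C := by
    calc ∫⁻ x, ENNReal.ofReal (v x)
        = ∫⁻ x, liminf (fun n => ENNReal.ofReal (u n x)) atTop :=
          lintegral_congr fun x =>
            ((ENNReal.continuous_ofReal.tendsto _).comp (hl x)).liminf_eq.symm
      _ ≤ liminf (fun n => ∫⁻ x, ENNReal.ofReal (u n x)) atTop :=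
          lintegral_liminf_le' fun n => (hu n).aemeasurable.ennreal_ofReal
      _ ≤ ENNReal.ofReal C := by
          refine liminf_le_of_frequently_le' (Frequently.of_forall fun n => ?_)
          rw [← ofReal_integral_eq_lintegral_ofReal (hu n) (ae_of_all _ (h0 n))]
          exact ENNReal.ofReal_le_ofReal (hC n)
  have h2 : Integrable v := ⟨mv, by
    rw [hasFiniteIntegral_iff_ofReal (ae_of_all _ hv)]
    exact h1.trans_lt ENNReal.ofReal_lt_top⟩
  refine ⟨h2, ?_⟩
  rw [← ofReal_integral_eq_lintegral_ofReal h2 (ae_of_all _ hv)] at h1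
  exact (ENNReal.ofReal_le_ofReal_iff hC0).1 h1

theorem key {L lam e R Ea : ℝ} (hl : 0 ≤ lam) (hc : Lc L lam e R) {a : O2} (h1 : ip2 a a = 1)
    (he : ∀ b : O2, q2 L lam a b = Ea * ip2 a b) (h2 : Ea + 1 / 4 ≤ e) (h3 : Ea ≤ 0) (t : ℝ) :
    ∃ b : O2, (∀ w, b.f w = mw t w * a.f w) ∧ k2 b ≤ 1000 * Real.exp (R / 5) ∧
      ip2 b b ≤ 1000 * Real.exp (R / 5) := by
  let b1 : O2 := ⟨_, _, _, mul t a.h⟩
  let b2 : O2 := ⟨_, _, _, mul t b1.h⟩
  have e1 : ip2 a b2 = ip2 b1 b1 := integral_congr_ae (ae_of_all _ fun w => by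
    simp only [b1, b2]
    ring)
  have i1 := (O2.int b1 b1 L lam).1
  have e2 : q2 L lam b1 b1 ≤ q2 L lam a b2 + ip2 b1 b1 / 100 := by
    rw [q2, q2, ip2, ← integral_div, ← integral_add (CO2Aux.intq a b2 L lam) (i1.div_const _)]
    refine integral_mono (CO2Aux.intq b1 b1 L lam)
      ((CO2Aux.intq a b2 L lam).add (i1.div_const _)) fun w => ?_
    have p1 := pt (mw t w) (a.f w) (a.g1 w) _ (mg_le t w.1 w)
    have p2 := pt (mw t w) (a.f w) (a.g2 w) _ (mg_le t w.2 w)
    simp only [b1, b2]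
    linarith
  have e3 : ∫ w in {w | rho6 w ≤ R}, b1.f w ^ 2 ≤ Real.exp (R / 5) := by
    have i2 := (O2.int a a L lam).1
    have hm : MeasurableSet {w | rho6 w ≤ R} :=
      measurableSet_le cont_rho.measurable measurable_const
    calc ∫ w in {w | rho6 w ≤ R}, b1.f w ^ 2
        ≤ ∫ w in {w | rho6 w ≤ R}, Real.exp (R / 5) * (a.f w * a.f w) := by
          refine setIntegral_mono_on (by simpa only [sq] using i1.integrableOn)
            (i2.const_mul _).integrableOn hm fun w hw => ?_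
          have h4 : mw t w ^ 2 ≤ Real.exp (R / 5) := by
            rw [mw_sq]
            exact Real.exp_le_exp.2 (by linarith [min_le_left (rho6 w) t, show rho6 w ≤ R from hw])
          simp only [b1]
          nlinarith [mul_le_mul_of_nonneg_right h4 (mul_self_nonneg (a.f w))]
      _ ≤ ∫ w, Real.exp (R / 5) * (a.f w * a.f w) :=
          setIntegral_le_integral (i2.const_mul _)
            (ae_of_all _ fun w => mul_nonneg (Real.exp_pos _).le (mul_self_nonneg _))
      _ = Real.exp (R / 5) := by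
          rw [integral_const_mul]
          exact (congrArg _ h1).trans (mul_one _)
  have e4 := hc b1
  have e5 := q2_kin hl L b1
  have e6 : 0 ≤ ip2 b1 b1 := integral_nonneg fun w => mul_self_nonneg _
  rw [he, e1] at e2
  have e7 := mul_le_mul_of_nonneg_right h2 e6
  have e8 := mul_le_mul_of_nonneg_right h3 e6
  have e9 := Real.exp_pos (R / 5)
  exact ⟨b1, fun w => rfl, by linarith, by linarith⟩

end M1b2Aux

open M1b2Aux in
theorem agmon {L lam e R Ea : ℝ} (hl : 0 ≤ lam) (hc : Lc L lam e R) {a : O2} (h1 : ip2 a a = 1)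
    (he : ∀ b : O2, q2 L lam a b = Ea * ip2 a b) (h2 : Ea + 1 / 4 ≤ e) (h3 : Ea ≤ 0) :
    Ag a (1000 * Real.exp (R / 5)) := by
  choose b hb1 hb2 hb3 using key hl hc h1 he h2 h3
  refine ⟨fun t => ⟨b t, hb1 t, hb2 t⟩, ?_⟩
  have hm := a.l2.1.aestronglyMeasurable
  refine fatou (u := fun n w => (b n).f w * (b n).f w) (fun n => (O2.int _ _ L lam).1)
    (fun n w => mul_self_nonneg _) (fun w => by positivity) ?_ (fun w => ?_) fun n => hb3 n
  · exact (Real.continuous_exp.comp (cont_rho.div_const 5)).aestronglyMeasurable.mul (hm.pow 2)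
  · refine tendsto_const_nhds.congr' ?_
    filter_upwards [tendsto_natCast_atTop_atTop.eventually_ge_atTop (rho6 w)] with n hn
    rw [hb1, ← sq, mul_pow, mw_sq, min_eq_left hn]

end Vale.Agent.P363
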