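import Vale.Agent.P363.M1b3

/-! P363, block M1, decay part: multipole bounds in the quadratic mean. -/

open MeasureTheory Set Metric Filter Topology
open scoped RealInnerProductSpace

namespace Vale.Agent.P363

namespace M1b

theorem sqrt_cmul {F : E6 → ℝ} {s : ℝ} (hs : 0 ≤ s) :
    √(∫ w, (s * F w) ^ 2) = s * √(∫ w, F w ^ 2) := by
  simp only [mul_pow]
  rw [integral_const_mul, Real.sqrt_mul (sq_nonneg s), Real.sqrt_sq hs]

theorem dom2 {φ F G : E6 → ℝ} (hF : MemLp F 2 volume) (hG : MemLp G 2 volume) {s t A B : ℝ}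
    (hs : 0 ≤ s) (ht : 0 ≤ t) (h : ∀ w, |φ w| ≤ s * F w + t * G w)
    (hA : √(∫ w, F w ^ 2) ≤ A) (hB : √(∫ w, G w ^ 2) ≤ B) :
    √(∫ w, φ w ^ 2) ≤ s * A + t * B := by
  have h1 : ∫ w, φ w ^ 2 ≤ ∫ w, (s * F w + t * G w) ^ 2 :=
    integral_mono_of_nonneg (ae_of_all _ fun w => sq_nonneg _)
      ((hF.const_mul s).add (hG.const_mul t)).integrable_sq
      (ae_of_all _ fun w => by
        show φ w ^ 2 ≤ _
        rw [← sq_abs]
        exact pow_le_pow_left₀ (abs_nonneg _) (h w) 2)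
  have h2 := cabs_tri (hF.const_mul s) (hG.const_mul t)
  rw [sqrt_cmul hs, sqrt_cmul ht] at h2
  exact (Real.sqrt_le_sqrt h1).trans (h2.trans (add_le_add (mul_le_mul_of_nonneg_left hA hs)
    (mul_le_mul_of_nonneg_left hB ht)))

theorem cont_rho : Continuous rho6 := by
  unfold rho6
  fun_prop

theorem rho_ge (w : E6) : ‖w.1‖ ≤ rho6 w ∧ ‖w.2‖ ≤ rho6 w :=
  ⟨le_add_of_nonneg_right (norm_nonneg _), le_add_of_nonneg_left (norm_nonneg _)⟩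

theorem Mx_nonneg (x : E3) (w : E6) : 0 ≤ Mx x w := by
  unfold Mx
  positivity

theorem le_exp {s : ℝ} (hs : 0 ≤ s) :
    s ≤ 10 * Real.exp (s / 10) ∧ s ^ 2 ≤ 200 * Real.exp (s / 10) := by
  have h := Real.quadratic_le_exp_of_nonneg (show 0 ≤ s / 10 by linarith)
  constructor <;> nlinarith [sq_nonneg s]

theorem sqrt_le {u c Cw : ℝ} (hC : 1 ≤ Cw) (hc : 0 ≤ c) (h : u ≤ c ^ 2 * Cw) : √u ≤ c * Cw :=
  Real.sqrt_le_iff.2 ⟨by positivity, h.trans (by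
    rw [mul_pow]
    exact mul_le_mul_of_nonneg_left (le_self_pow₀ hC (by norm_num)) (sq_nonneg c))⟩

variable {a : O2} {Cw : ℝ} (h : Ag a Cw) (hC : 1 ≤ Cw)
include h

theorem memH : MemLp (fun w => Real.exp (rho6 w / 10) * |a.f w|) 2 volume ∧
    ∫ w, (Real.exp (rho6 w / 10) * |a.f w|) ^ 2 ≤ Cw := by
  have e : (fun w => (Real.exp (rho6 w / 10) * |a.f w|) ^ 2) =
      fun w => Real.exp (rho6 w / 5) * a.f w ^ 2 := funext fun w => by
    rw [mul_pow, sq_abs, sq, ← Real.exp_add]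
    congr 2
    ring
  have m : AEStronglyMeasurable (fun w => Real.exp (rho6 w / 10) * |a.f w|) volume :=
    (Real.continuous_exp.comp (cont_rho.div_const 10)).aestronglyMeasurable.mul
      (continuous_abs.comp_aestronglyMeasurable a.l2.1.1)
  exact ⟨(memLp_two_iff_integrable_sq m).2 (e ▸ h.wt.1), e ▸ h.wt.2⟩

/-- Multiplication by a continuous function of at most linear growth. -/
theorem memφ {φ : E6 → ℝ} (hφ : Continuous φ) (hb : ∀ w, |φ w| ≤ rho6 w) :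
    MemLp (fun w => φ w * a.f w) 2 volume := by
  refine ((memH h).1.const_mul 10).mono' (hφ.aestronglyMeasurable.mul a.l2.1.1)
    (ae_of_all _ fun w => ?_)
  rw [Real.norm_eq_abs, abs_mul, ← mul_assoc]
  exact mul_le_mul_of_nonneg_right ((hb w).trans (le_exp ((abs_nonneg _).trans (hb w))).1)
    (abs_nonneg _)

include hC

theorem nrmH : √(∫ w, (Real.exp (rho6 w / 10) * |a.f w|) ^ 2) ≤ Cw := by
  simpa using sqrt_le (c := 1) hC zero_le_one (by linarith [(memH h).2])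

theorem memJ (x : E3) :
    MemLp (fun w => mw ‖x‖ w * (Mx x w + Mx (sg x) w) * |a.f w|) 2 volume ∧
      √(∫ w, (mw ‖x‖ w * (Mx x w + Mx (sg x) w) * |a.f w|) ^ 2) ≤ 6 * Cw := by
  obtain ⟨b, hb, hk⟩ := h.cut ‖x‖
  have e : (fun w => mw ‖x‖ w * (Mx x w + Mx (sg x) w) * |a.f w|) =
      fun w => |Mx x w * b.f w| + |Mx (sg x) w * b.f w| := funext fun w => by
    rw [abs_mul, abs_mul, hb, abs_mul, abs_of_nonneg (Mx_nonneg x w),
      abs_of_nonneg (Mx_nonneg _ w), abs_of_pos (show 0 < mw ‖x‖ w from Real.exp_pos _)]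
    ring
  have k : ∀ y : E3, MemLp (fun w => |Mx y w * b.f w|) 2 volume ∧
      √(∫ w, |Mx y w * b.f w| ^ 2) ≤ 3 * Cw := fun y =>
    ⟨(b.hardy y).2.2.2.1.abs, sqrt_le hC (by norm_num) (by
      simp only [sq_abs]
      linarith [(b.hardy y).2.2.2.2])⟩
  refine ⟨e ▸ (k x).1.add (k (sg x)).1, ?_⟩
  have h1 := cabs_tri (k x).1 (k (sg x)).1
  simp only [congrFun e]
  linarith [(k x).2, (k (sg x)).2]

theorem m1 (x : E3) :
    √(∫ w, ((Mx x w - 2 / (1 + ‖x‖)) * a.f w) ^ 2) ≤ 12800 * Cw / (1 + ‖x‖) ^ 2 := by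
  have p : 0 < (1 + ‖x‖) ^ 2 := by positivity
  refine (dom2 (memH h).1 (memJ h hC x).1 (s := 3200 / (1 + ‖x‖) ^ 2) (t := 1600 / (1 + ‖x‖) ^ 2)
    (by positivity) (by positivity) (fun w => ?_) (nrmH h hC) (memJ h hC x).2).trans_eq (by ring)
  have g1 := geo1 x w.1 (rho_ge w).1
  have g2 := geo1 x w.2 (rho_ge w).2
  have e : Mx x w - 2 / (1 + ‖x‖) =
      (‖x - w.1‖⁻¹ - 1 / (1 + ‖x‖)) + (‖x - w.2‖⁻¹ - 1 / (1 + ‖x‖)) := by
    rw [Mx]
    ring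
  have g3 := mul_le_mul_of_nonneg_left
    (abs_add_le (‖x - w.1‖⁻¹ - 1 / (1 + ‖x‖)) (‖x - w.2‖⁻¹ - 1 / (1 + ‖x‖))) p.le
  have g4 : 0 ≤ mw ‖x‖ w * Mx (sg x) w := mul_nonneg (Real.exp_pos _).le (Mx_nonneg _ w)
  have g5 : |Mx x w - 2 / (1 + ‖x‖)| ≤ (3200 * Real.exp (rho6 w / 10) +
      1600 * (mw ‖x‖ w * (Mx x w + Mx (sg x) w))) / (1 + ‖x‖) ^ 2 := by
    rw [le_div_iff₀ p, e]
    unfold mw at g4 ⊢
    rw [Mx.eq_1 x]
    linarith
  rw [abs_mul]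
  exact (mul_le_mul_of_nonneg_right g5 (abs_nonneg _)).trans_eq (by ring)

omit h hC in
theorem Mo_eq (x : E3) (w : E6) :
    Mo x w = (‖x - w.1‖⁻¹ - ‖sg x - w.1‖⁻¹) / 2 + (‖x - w.2‖⁻¹ - ‖sg x - w.2‖⁻¹) / 2 := by
  rw [Mo, Mx, Mx]
  ring

omit h hC in
theorem φ_le (w : E6) : |(|w.1 2| + |w.2 2|)| ≤ rho6 w ∧ |w.1 2 + w.2 2| ≤ rho6 w := by
  have := add_le_add (abs_coord_le w.1 2) (abs_coord_le w.2 2)
  exact ⟨by rwa [abs_of_nonneg (by positivity)], (abs_add_le _ _).trans this⟩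

theorem m2 {x : E3} (hx : 0 < ‖x‖) {A : ℝ}
    (hA : √(∫ w : E6, ((|w.1 2| + |w.2 2|) * a.f w) ^ 2) ≤ A) :
    √(∫ w, (Mo x w * a.f w) ^ 2) ≤ 8 * |x 2| / ‖x‖ ^ 3 * A + Real.exp (-‖x‖ / 20) * (6 * Cw) := by
  refine dom2 (memφ h (φ := fun w => |w.1 2| + |w.2 2|) (by fun_prop) fun w => (φ_le w).1).abs
    (memJ h hC x).1 (by positivity) (Real.exp_pos _).le (fun w => ?_)
    (by simpa only [Pi.abs_apply, sq_abs] using hA) (memJ h hC x).2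
  have g1 := geo2 hx w.1 (rho_ge w).1
  have g2 := geo2 hx w.2 (rho_ge w).2
  have g5 : |Mo x w| ≤ 8 * |x 2| / ‖x‖ ^ 3 * (|w.1 2| + |w.2 2|) +
      Real.exp (-‖x‖ / 20) * (mw ‖x‖ w * (Mx x w + Mx (sg x) w)) := by
    rw [Mo_eq]
    refine (abs_add_le _ _).trans ?_
    unfold mw Mx
    linarith
  simp only [Pi.abs_apply, abs_mul, abs_of_nonneg (show 0 ≤ |w.1 2| + |w.2 2| by positivity)]
  exact (mul_le_mul_of_nonneg_right g5 (abs_nonneg _)).trans_eq (by ring)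

theorem nrmφ : √(∫ w : E6, ((|w.1 2| + |w.2 2|) * a.f w) ^ 2) ≤ 10 * Cw := by
  refine (dom2 (memH h).1 (memH h).1 (s := 10) (t := 0) (by norm_num) le_rfl (fun w => ?_)
    (nrmH h hC) (nrmH h hC)).trans_eq (by ring)
  rw [abs_mul, zero_mul, add_zero, ← mul_assoc]
  exact mul_le_mul_of_nonneg_right ((φ_le w).1.trans (le_exp ((abs_nonneg _).trans (φ_le w).1)).1)
    (abs_nonneg _)

theorem m3 {S : O2} (nS : ip2 S S = 1) (sa : ∀ w, a.f (sg6 w) = a.f w)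
    (sS : ∀ w, S.f (sg6 w) = -S.f w) {x : E3} (hx : 0 < ‖x‖) :
    |(∫ w, S.f w * Mx x w * a.f w) - (∫ w : E6, S.f w * (w.1 2 + w.2 2) * a.f w) * x 2 / ‖x‖ ^ 3| ≤
      2800 * |x 2| / ‖x‖ ^ 4 * Cw + Real.exp (-‖x‖ / 20) * (6 * Cw) := by
  have l1 := (a.hardy x).2.2.2.1
  have l2 := (a.hardy (sg x)).2.2.2.1
  have l3 := memφ h (φ := fun w => w.1 2 + w.2 2) (by fun_prop) fun w => (φ_le w).2
  have l4 : MemLp (fun w : E6 => (Mo x w - x 2 / ‖x‖ ^ 3 * (w.1 2 + w.2 2)) * a.f w) 2 volume := by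
    convert ((l1.sub l2).const_mul (1 / 2)).sub (l3.const_mul (x 2 / ‖x‖ ^ 3)) using 2 with w
    simp only [Pi.sub_apply, Mo]
    ring
  have i1 := cabs_mul S.l2.1 l1
  have i2 := cabs_mul S.l2.1 l2
  have i3 := cabs_mul S.l2.1 l3
  have e1 : ∫ w, S.f w * (Mx (sg x) w * a.f w) = -∫ w, S.f w * (Mx x w * a.f w) := by
    rw [← integral_sg6, ← integral_neg]
    congr 1
    funext w
    rw [sa, sS, Mx_sg, neg_mul]
  have e2 : (∫ w, S.f w * Mx x w * a.f w) -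
      (∫ w : E6, S.f w * (w.1 2 + w.2 2) * a.f w) * x 2 / ‖x‖ ^ 3 =
      ∫ w : E6, S.f w * ((Mo x w - x 2 / ‖x‖ ^ 3 * (w.1 2 + w.2 2)) * a.f w) := by
    have e3 : (fun w : E6 => S.f w * ((Mo x w - x 2 / ‖x‖ ^ 3 * (w.1 2 + w.2 2)) * a.f w)) =
        fun w => 1 / 2 * (S.f w * (Mx x w * a.f w) - S.f w * (Mx (sg x) w * a.f w)) -
          x 2 / ‖x‖ ^ 3 * (S.f w * ((w.1 2 + w.2 2) * a.f w)) := funext fun w => by
      rw [Mo]
      ring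
    have i4 : Integrable fun w => S.f w * (Mx x w * a.f w) - S.f w * (Mx (sg x) w * a.f w) :=
      i1.sub i2
    rw [e3, integral_sub (i4.const_mul _) (i3.const_mul _), integral_const_mul,
      integral_const_mul, integral_sub i1 i2, e1]
    simp only [mul_assoc]
    ring
  have nS' : √(∫ w, S.f w ^ 2) = 1 := by
    simp only [sq]
    rw [show ∫ w, S.f w * S.f w = 1 from nS, Real.sqrt_one]
  rw [e2]
  refine (cs_integral S.l2.1 l4).2.trans ?_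
  rw [nS', one_mul]
  refine dom2 (memH h).1 (memJ h hC x).1 (by positivity) (Real.exp_pos _).le (fun w => ?_)
    (nrmH h hC) (memJ h hC x).2
  have g1 := geo3 hx w.1 (rho_ge w).1
  have g2 := geo3 hx w.2 (rho_ge w).2
  have g3 : ‖w.1‖ ^ 2 + ‖w.2‖ ^ 2 ≤ 200 * Real.exp (rho6 w / 10) :=
    le_trans (by rw [rho6]; nlinarith [mul_nonneg (norm_nonneg w.1) (norm_nonneg w.2)])
      (le_exp ((norm_nonneg _).trans (rho_ge w).1)).2
  have g4 := mul_le_mul_of_nonneg_left g3 (show 0 ≤ 14 * |x 2| / ‖x‖ ^ 4 by positivity)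
  have g5 : |Mo x w - x 2 / ‖x‖ ^ 3 * (w.1 2 + w.2 2)| ≤
      2800 * |x 2| / ‖x‖ ^ 4 * Real.exp (rho6 w / 10) +
      Real.exp (-‖x‖ / 20) * (mw ‖x‖ w * (Mx x w + Mx (sg x) w)) := by
    have e : Mo x w - x 2 / ‖x‖ ^ 3 * (w.1 2 + w.2 2) =
        ((‖x - w.1‖⁻¹ - ‖sg x - w.1‖⁻¹) / 2 - x 2 / ‖x‖ ^ 3 * w.1 2) +
        ((‖x - w.2‖⁻¹ - ‖sg x - w.2‖⁻¹) / 2 - x 2 / ‖x‖ ^ 3 * w.2 2) := by
      rw [Mo_eq]
      ring
    have e' : 2800 * |x 2| / ‖x‖ ^ 4 * Real.exp (rho6 w / 10) =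
        14 * |x 2| / ‖x‖ ^ 4 * (200 * Real.exp (rho6 w / 10)) := by ring
    rw [e, e']
    refine (abs_add_le _ _).trans ?_
    unfold mw Mx
    linarith
  rw [abs_mul]
  exact (mul_le_mul_of_nonneg_right g5 (abs_nonneg _)).trans_eq (by ring)

/-- All bounds for one eigenstate of the ion. -/
theorem ion {L lam C1 Ea : ℝ} (h1 : ip2 a a = 1) (he : ∀ b : O2, q2 L lam a b = Ea * ip2 a b)
    (hC1 : 12800 * Cw ≤ C1) : Ion L lam C1 a Ea := by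
  refine ⟨h1, he, ⟨h.wt.1, by linarith [h.wt.2]⟩, fun x => ⟨(a.hardy x).2.2.2.1,
    (m1 h hC x).trans (by gcongr)⟩, fun x hx => ?_⟩
  have r0 : 0 < ‖x‖ := by linarith
  have a1 := mul_le_mul_of_nonneg_right (show 80 * Cw ≤ C1 by linarith)
    (show 0 ≤ |x 2| / ‖x‖ ^ 3 by positivity)
  have a2 := mul_le_mul_of_nonneg_right (show 6 * Cw ≤ C1 by linarith)
    (Real.exp_pos (-‖x‖ / 20)).le
  have e : 8 * |x 2| / ‖x‖ ^ 3 * (10 * Cw) = 80 * Cw * (|x 2| / ‖x‖ ^ 3) := by ring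
  linarith [m2 h hC r0 (nrmφ h hC)]

end M1b

end Vale.Agent.P363
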