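import Vale.Agent.P363.M1b0

/-! P363, block M1, decay part: moments. -/

open MeasureTheory Set Metric Filter Topology
open scoped RealInnerProductSpace

namespace Vale.Agent.P363

variable {c0 L C r0 ω : ℝ} {ob : OB c0 L}

theorem M1b5x_pt {a b s ρ p g g' : ℝ} (hs : |a| + |b| ≤ s) :
    ((|a| + |b|) * p) ^ 2 ≤ 4 * (a ^ 2 * g ^ 2 * g' ^ 2) + 4 * (g ^ 2 * (b ^ 2 * g' ^ 2)) +
      2 * ρ ^ 2 * (p - g * g') ^ 2 + 200 * Real.exp (-ρ / 10) * (Real.exp (s / 5) * p ^ 2) := by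
  have f0 : 0 ≤ |a| + |b| := by positivity
  have f1 : (|a| + |b|) ^ 2 ≤ 2 * a ^ 2 + 2 * b ^ 2 := by
    nlinarith [sq_abs a, sq_abs b, sq_nonneg (|a| - |b|)]
  rw [mul_pow]
  rcases le_total s ρ with h | h
  · have f2 : (|a| + |b|) ^ 2 ≤ ρ ^ 2 := pow_le_pow_left₀ f0 (hs.trans h) 2
    have f3 : p ^ 2 ≤ 2 * (g * g') ^ 2 + 2 * (p - g * g') ^ 2 := by
      nlinarith [sq_nonneg (p - 2 * g * g')]
    have f4 := mul_le_mul_of_nonneg_left f3 (sq_nonneg (|a| + |b|))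
    have f5 := mul_le_mul_of_nonneg_right f1 (sq_nonneg (g * g'))
    have f6 := mul_le_mul_of_nonneg_right f2 (sq_nonneg (p - g * g'))
    have f7 : 0 ≤ 200 * Real.exp (-ρ / 10) * (Real.exp (s / 5) * p ^ 2) := by positivity
    nlinarith
  · have s0 : 0 ≤ s := f0.trans hs
    have f2 : (|a| + |b|) ^ 2 ≤ s ^ 2 := pow_le_pow_left₀ f0 hs 2
    have f3 := Real.quadratic_le_exp_of_nonneg (show 0 ≤ s / 10 by positivity)
    have f4 : Real.exp (s / 10) ≤ Real.exp (-ρ / 10) * Real.exp (s / 5) := by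
      rw [← Real.exp_add]
      exact Real.exp_le_exp.2 (by linarith)
    have f5 : (|a| + |b|) ^ 2 ≤ 200 * (Real.exp (-ρ / 10) * Real.exp (s / 5)) := by nlinarith
    have f6 := mul_le_mul_of_nonneg_right f5 (sq_nonneg p)
    have f7 : 0 ≤ 4 * (a ^ 2 * g ^ 2 * g' ^ 2) + 4 * (g ^ 2 * (b ^ 2 * g' ^ 2)) +
      2 * ρ ^ 2 * (p - g * g') ^ 2 := by positivity
    nlinarith

theorem momP (hb : OBb ob C r0 ω) (hC : 1 ≤ C) (hL : 1 ≤ L) (Cw : ℝ) :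
    ∀ᶠ τ in 𝓝[>] (0 : ℝ), ∀ P : O2, Ag P Cw → ∫ w, (P.f w - Pinf ob w) ^ 2 ≤ τ →
      √(∫ w : E6, ((|w.1 2| + |w.2 2|) * P.f w) ^ 2) ≤ 4 * C * L := by
  have t : Tendsto (fun ρ : ℝ => 200 * Real.exp (-ρ / 10) * Cw) atTop (𝓝 (200 * 0 * Cw)) :=
    ((Real.tendsto_exp_atBot.comp
      (tendsto_neg_atTop_atBot.atBot_div_const (by norm_num))).const_mul _).mul_const _
  obtain ⟨ρ, hρ⟩ := (t.eventually (gt_mem_nhds (show 200 * 0 * Cw < 1 by norm_num))).exists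
  filter_upwards [Ioo_mem_nhdsGT (show 0 < 1 / (2 * ρ ^ 2 + 1) by positivity)] with τ hτ P hP hc
  have τ1 : τ * (2 * ρ ^ 2 + 1) < 1 := (lt_div_iff₀ (by positivity)).1 hτ.2
  have g2 := ob.hg.l2.integrable_sq
  have i1 : Integrable fun w : E6 => w.1 2 ^ 2 * ob.g w.1 ^ 2 * ob.g w.2 ^ 2 :=
    hb.mom.1.mul_prod g2
  have i2 : Integrable fun w : E6 => ob.g w.1 ^ 2 * (w.2 2 ^ 2 * ob.g w.2 ^ 2) :=
    g2.mul_prod hb.mom.1
  have i3 : Integrable fun w : E6 => (P.f w - ob.g w.1 * ob.g w.2) ^ 2 :=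
    (P.l2.1.sub (memLp_tensor ob.hg.l2 ob.hg.l2)).integrable_sq
  have e1 : ∫ w : E6, w.1 2 ^ 2 * ob.g w.1 ^ 2 * ob.g w.2 ^ 2 =
      (∫ x : E3, x 2 ^ 2 * ob.g x ^ 2) * ∫ x, ob.g x ^ 2 :=
    integral_prod_mul (fun x : E3 => x 2 ^ 2 * ob.g x ^ 2) fun x => ob.g x ^ 2
  have e2 : ∫ w : E6, ob.g w.1 ^ 2 * (w.2 2 ^ 2 * ob.g w.2 ^ 2) =
      (∫ x, ob.g x ^ 2) * ∫ x : E3, x 2 ^ 2 * ob.g x ^ 2 :=
    integral_prod_mul (fun x => ob.g x ^ 2) fun x : E3 => x 2 ^ 2 * ob.g x ^ 2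
  have j1 := (i1.const_mul 4).add (i2.const_mul 4)
  have j2 := j1.add (i3.const_mul (2 * ρ ^ 2))
  have j3 := hP.wt.1.const_mul (200 * Real.exp (-ρ / 10))
  have le := integral_mono_of_nonneg
    (f := fun w : E6 => ((|w.1 2| + |w.2 2|) * P.f w) ^ 2) (ae_of_all _ fun _ => sq_nonneg _)
    (j2.add j3) (ae_of_all _ fun w => M1b5x_pt
      (add_le_add (by simpa using PiLp.norm_apply_le w.1 2)
        (by simpa using PiLp.norm_apply_le w.2 2)))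
  rw [integral_add' j2 j3, integral_add' j1 (i3.const_mul _), integral_add' (i1.const_mul 4)
    (i2.const_mul 4), integral_const_mul, integral_const_mul, integral_const_mul,
    integral_const_mul, e1, e2, ob.ng] at le
  have a1 := mul_le_mul_of_nonneg_left hP.wt.2
    (show 0 ≤ 200 * Real.exp (-ρ / 10) by positivity)
  have a2 := mul_le_mul_of_nonneg_left hc (show 0 ≤ 2 * ρ ^ 2 by positivity)
  have a3 : 1 ≤ C * L := one_le_mul_of_one_le_of_one_le hC hL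
  refine Real.sqrt_le_iff.2 ⟨by positivity, le.trans ?_⟩
  simp only [Pinf] at a2
  nlinarith [hb.mom.2, hτ.1]

end Vale.Agent.P363
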