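import Vale.Agent.P363.M1b0

/-! P363, block M1, decay part: the dipole moment. -/

open MeasureTheory Set Metric Filter Topology
open scoped RealInnerProductSpace

namespace Vale.Agent.P363

variable {c0 L C r0 ω : ℝ} {ob : OB c0 L}

theorem m1b6_sq {s : ℝ} (hs : 0 ≤ s) : s ^ 2 ≤ 50 * Real.exp (s / 5) := by
  have := Real.quadratic_le_exp_of_nonneg (show 0 ≤ s / 5 by positivity)
  nlinarith

theorem m1b6_S {S : O2} {Cw : ℝ} (h : Ag S Cw) :
    MemLp (fun w : E6 => (w.1 2 + w.2 2) * S.f w) 2 volume ∧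
      ∫ w : E6, ((w.1 2 + w.2 2) * S.f w) ^ 2 ≤ 50 * Cw := by
  have hm : AEStronglyMeasurable (fun w : E6 => (w.1 2 + w.2 2) * S.f w) volume :=
    (by fun_prop : Continuous fun w : E6 => w.1 2 + w.2 2).aestronglyMeasurable.mul S.l2.1.1
  have hle : ∀ w : E6, ((w.1 2 + w.2 2) * S.f w) ^ 2 ≤
      50 * (Real.exp (rho6 w / 5) * S.f w ^ 2) := by
    intro w
    have a1 := abs_le.1 (abs_coord_le w.1 2)
    have a2 := abs_le.1 (abs_coord_le w.2 2)
    have a3 : (w.1 2 + w.2 2) ^ 2 ≤ rho6 w ^ 2 :=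
      sq_le_sq' (by unfold rho6; linarith) (by unfold rho6; linarith)
    have a4 := a3.trans (m1b6_sq (show 0 ≤ rho6 w by unfold rho6; positivity))
    rw [mul_pow, ← mul_assoc]
    exact mul_le_mul_of_nonneg_right a4 (sq_nonneg _)
  have hi : Integrable (fun w : E6 => ((w.1 2 + w.2 2) * S.f w) ^ 2) :=
    (h.wt.1.const_mul 50).mono' (hm.pow 2) (Eventually.of_forall fun w => by
      rw [Real.norm_eq_abs, abs_of_nonneg (sq_nonneg _)]; exact hle w)
  refine ⟨(memLp_two_iff_integrable_sq hm).2 hi, ?_⟩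
  refine (integral_mono hi (h.wt.1.const_mul 50) hle).trans ?_
  rw [integral_const_mul]
  linarith [h.wt.2]

theorem dipP (hb : OBb ob C r0 ω) (hC : 1 ≤ C) (hL : 1 ≤ L) (Cw : ℝ) :
    ∀ᶠ τ in 𝓝[>] (0 : ℝ), ∀ P S : O2, Ag S Cw → ∫ w, (P.f w - Pinf ob w) ^ 2 ≤ τ →
      ∫ w, (S.f w - Sinf ob w) ^ 2 ≤ τ →
      L ≤ C * ∫ w : E6, S.f w * (w.1 2 + w.2 2) * P.f w := by
  have g2 := ob.hg.l2
  have u2 := ob.hu.l2
  have z2 : MemLp (fun x : E3 => x 2 * ob.g x) 2 volume := by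
    refine (memLp_two_iff_integrable_sq ((by fun_prop : Continuous fun x : E3 =>
      x 2).aestronglyMeasurable.mul g2.1)).2 ?_
    simpa only [Pi.mul_apply, mul_pow] using hb.mom.1
  have mP : MemLp (Pinf ob) 2 volume := memLp_tensor g2 g2
  have mS : MemLp (Sinf ob) 2 volume := by
    have := ((memLp_tensor g2 u2).add (memLp_tensor u2 g2)).mul_const (√2)⁻¹
    exact this
  have mA : MemLp (fun w : E6 => (w.1 2 + w.2 2) * Pinf ob w) 2 volume := by
    have := (memLp_tensor z2 g2).add (memLp_tensor g2 z2)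
    refine (memLp_congr_ae (Eventually.of_forall fun w => ?_)).1 this
    simp only [Pinf, Pi.add_apply]
    ring
  set D := ∫ x, x 2 * ob.g x * ob.u x with hD
  have gg : ∫ x, ob.g x * ob.g x = 1 := by simpa only [sq] using ob.ng
  have gu : ∫ x, ob.u x * ob.g x = 0 :=
    integral_odd (ae_of_all _ fun x => by rw [ob.evg, ob.odu, neg_mul])
  have uz : ∫ x, ob.u x * (x 2 * ob.g x) = D := by
    rw [hD]
    congr 1
    funext x
    ring
  have i1 := (cs_integral g2 g2).1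
  have i2 := (cs_integral u2 g2).1
  have i3 := (cs_integral u2 z2).1
  have i4 := (cs_integral g2 z2).1
  have inf : ∫ w : E6, Sinf ob w * ((w.1 2 + w.2 2) * Pinf ob w) = √2 * D := by
    have e : (fun w : E6 => Sinf ob w * ((w.1 2 + w.2 2) * Pinf ob w)) = fun w =>
        (√2)⁻¹ * ((ob.g w.1 * (w.1 2 * ob.g w.1)) * (ob.u w.2 * ob.g w.2) +
          (ob.g w.1 * ob.g w.1) * (ob.u w.2 * (w.2 2 * ob.g w.2)) +
          (ob.u w.1 * (w.1 2 * ob.g w.1)) * (ob.g w.2 * ob.g w.2) +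
          (ob.u w.1 * ob.g w.1) * (ob.g w.2 * (w.2 2 * ob.g w.2))) := by
      funext w
      simp only [Sinf, Pinf]
      ring
    rw [e, integral_const_mul, Measure.volume_eq_prod,
      integral_add (by exact ((i4.mul_prod i2).add (i1.mul_prod i3)).add (i3.mul_prod i1))
        (i2.mul_prod i4),
      integral_add (by exact (i4.mul_prod i2).add (i1.mul_prod i3)) (i3.mul_prod i1),
      integral_add (i4.mul_prod i2) (i1.mul_prod i3),
      integral_prod_mul (fun x : E3 => ob.g x * (x 2 * ob.g x)) (fun x => ob.u x * ob.g x),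
      integral_prod_mul (fun x : E3 => ob.g x * ob.g x) (fun x => ob.u x * (x 2 * ob.g x)),
      integral_prod_mul (fun x : E3 => ob.u x * (x 2 * ob.g x)) (fun x => ob.g x * ob.g x),
      integral_prod_mul (fun x : E3 => ob.u x * ob.g x) (fun x => ob.g x * (x 2 * ob.g x)),
      gg, gu, uz]
    have h2 : √2 ^ 2 = 2 := Real.sq_sqrt (by norm_num)
    have h3 : √2 ≠ 0 := by positivity
    field_simp
    rw [h2]
    ring
  set a := √(∫ w : E6, ((w.1 2 + w.2 2) * Pinf ob w) ^ 2) + √(50 * Cw) with ha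
  have lim : Tendsto (fun τ : ℝ => C * (√τ * a)) (𝓝[>] 0) (𝓝 0) := by
    have : Tendsto (fun τ : ℝ => C * (√τ * a)) (𝓝 0) (𝓝 (C * (√0 * a))) :=
      (by fun_prop : Continuous fun τ : ℝ => C * (√τ * a)).tendsto 0
    simpa using this.mono_left nhdsWithin_le_nhds
  filter_upwards [lim.eventually (ge_mem_nhds (show (0 : ℝ) < 2 / 5 by norm_num))]
    with τ hτ P S hS h1 h2
  obtain ⟨mB, bB⟩ := m1b6_S hS
  obtain ⟨j1, k1⟩ := cs_integral (S.l2.1.sub mS) mA
  obtain ⟨j2, k2⟩ := cs_integral mB (P.l2.1.sub mP)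
  have j0 := (cs_integral mS mA).1
  simp only [Pi.sub_apply] at j1 k1 j2 k2
  have e : ∫ w : E6, S.f w * (w.1 2 + w.2 2) * P.f w = √2 * D +
      (∫ w : E6, (S.f w - Sinf ob w) * ((w.1 2 + w.2 2) * Pinf ob w)) +
      ∫ w : E6, (w.1 2 + w.2 2) * S.f w * (P.f w - Pinf ob w) := by
    rw [← inf, ← integral_add j0 j1, ← integral_add (by exact j0.add j1) j2]
    congr 1
    funext w
    ring
  have b1 := k1.trans (mul_le_mul_of_nonneg_right (Real.sqrt_le_sqrt h2) (Real.sqrt_nonneg _))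
  have b2 := k2.trans (mul_le_mul (Real.sqrt_le_sqrt bB) (Real.sqrt_le_sqrt h1)
    (Real.sqrt_nonneg _) (Real.sqrt_nonneg _))
  have s2 : 7 / 5 ≤ √2 := Real.le_sqrt_of_sq_le (by norm_num)
  have d1 : L ≤ C * D := hb.dip
  have d2 : 7 / 5 * L ≤ √2 * (C * D) := mul_le_mul s2 d1 (by linarith) (by linarith)
  have b3 := (abs_le.1 b1).1
  have b4 := (abs_le.1 b2).1
  have b5 : √2 * D - √τ * a ≤ ∫ w : E6, S.f w * (w.1 2 + w.2 2) * P.f w := by
    rw [e, ha]
    linarith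
  have b6 := mul_le_mul_of_nonneg_left b5 (show 0 ≤ C by linarith)
  linarith

end Vale.Agent.P363
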