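import Vale.Agent.P363.M1b1
import Vale.Agent.P363.M1b2
import Vale.Agent.P363.M1b4
import Vale.Agent.P363.M1b5
import Vale.Agent.P363.M1b6

/-! P363, block M1: the decay part. -/

open MeasureTheory Set Metric Filter Topology
open scoped RealInnerProductSpace

namespace Vale.Agent.P363

theorem Lc.mono {L lam e e' R C : ℝ} (h : Lc L lam e R) (he : e' ≤ e) (h1 : 1 ≤ C) (hR : R ≤ C)
    (b : O2) : e' * ip2 b b - C * ∫ w in {w | rho6 w ≤ C}, b.f w ^ 2 ≤ q2 L lam b b := by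
  have a1 : 0 ≤ ip2 b b := integral_nonneg fun w => mul_self_nonneg _
  have a2 : ∫ w in {w | rho6 w ≤ R}, b.f w ^ 2 ≤ ∫ w in {w | rho6 w ≤ C}, b.f w ^ 2 :=
    setIntegral_mono_set b.l2.1.integrable_sq.integrableOn (ae_of_all _ fun w => sq_nonneg _)
      (LE.le.eventuallyLE fun w hw => le_trans hw hR)
  have a3 : 0 ≤ ∫ w in {w | rho6 w ≤ C}, b.f w ^ 2 := integral_nonneg fun w => sq_nonneg _
  linarith [h b, mul_le_mul_of_nonneg_right he a1, mul_le_mul_of_nonneg_right h1 a3]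

open M1b in
theorem mab_main : T_MAb := by
  intro c0 h0 _ r0 C hC
  refine ⟨32 * C, by linarith, ?_⟩
  filter_upwards [Ioo_mem_nhdsGT h0, Ioo_mem_nhdsGT (show (0 : ℝ) < 1 / 40 by norm_num)]
    with ω w1 w2
  filter_upwards [eventually_ge_atTop 1] with L hL ob hb C0 hC0
  obtain ⟨Cw, hw⟩ : ∃ Cw, Cw = 1000 * Real.exp ((4 * L + 200) / 5) := ⟨_, rfl⟩
  have w0 : 1 ≤ Cw := by
    have := Real.one_le_exp (show 0 ≤ (4 * L + 200) / 5 by linarith)
    linarith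
  obtain ⟨C1, hC1⟩ : ∃ C1, C1 = 12800 * Cw + C0 + (4 * L + 200) := ⟨_, rfl⟩
  have c1 : 12800 * Cw ≤ C1 := by linarith
  have c2 : C0 ≤ C1 := by linarith
  refine ⟨C1, by linarith, ?_⟩
  have t : Tendsto (fun lam : ℝ => C0 * lam) (𝓝[>] 0) (𝓝[>] 0) := by
    refine tendsto_nhdsWithin_iff.2 ⟨?_, ?_⟩
    · simpa using ((tendsto_id.const_mul C0).mono_left nhdsWithin_le_nhds :
        Tendsto (fun lam : ℝ => C0 * lam) (𝓝[>] 0) (𝓝 (C0 * 0)))
    · filter_upwards [self_mem_nhdsWithin] with lam hl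
      exact mul_pos (zero_lt_one.trans_le hC0) hl
  filter_upwards [self_mem_nhdsWithin, t.eventually (momP hb hC hL Cw),
    t.eventually (dipP hb hC hL Cw),
    t.eventually (Ioo_mem_nhdsGT (show (0 : ℝ) < 1 / 20 by norm_num))] with lam hl mom dip sm ⟨m⟩
  have l0 : 0 ≤ lam := le_of_lt hl
  have g1 := abs_le.1 hb.sg
  have g2 := abs_le.1 hb.su
  have lc := loc0 ob (by linarith) (by linarith [w1.2]) (by linarith [w2.2]) l0
  obtain ⟨e1, e2, e3, e4⟩ := m.en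
  have s := sm.2
  have aP : Ag m.P Cw := hw ▸ agmon l0 lc m.nP m.eP (by linarith [(abs_le.1 e2).2])
    (by linarith [(abs_le.1 e2).2, w2.2])
  have aS : Ag m.S Cw := hw ▸ agmon l0 lc m.nS m.eS (by linarith [(abs_le.1 e3).2, w2.2])
    (by linarith [(abs_le.1 e3).2, w2.2])
  have aT : Ag m.T Cw := hw ▸ agmon l0 lc m.nT m.eT (by linarith [(abs_le.1 e4).2, w2.2])
    (by linarith [(abs_le.1 e4).2, w2.2])
  have c3 : C0 * lam ≤ C1 * lam := mul_le_mul_of_nonneg_right c2 l0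
  have d1 := dip m.P m.S aS m.cP m.cS
  refine ⟨⟨m.F, m.P, m.S, m.T, m.E, m.E0, m.ES, m.ET,
    ∫ w : E6, m.S.f w * (w.1 2 + w.2 2) * m.P.f w, m.nF, m.aF, m.oF, m.eqF, m.minF,
    ion aP w0 m.nP m.eP c1, ion aS w0 m.nS m.eS c1, ion aT w0 m.nT m.eT c1, m.sP, m.sS, m.sT,
    ⟨e1.trans c3, e2.trans c3, e3.trans c3, e4.trans c3⟩, m.cF.trans c3, m.cP.trans c3,
    m.cS.trans c3, m.cT.trans c3, m.lowP, m.gapP, m.lowT, fun b => ?_,
    lc.mono (by linarith [(abs_le.1 e2).2]) (by linarith) (by linarith), by linarith,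
    fun x hx => ?_, fun x hx => ?_⟩⟩
  · have a1 : 0 ≤ ip2 b b := integral_nonneg fun w => mul_self_nonneg _
    linarith [q2_kin l0 L b, mul_le_mul_of_nonneg_right hC a1]
  · have a2 := mul_le_mul_of_nonneg_right (show 6 * Cw ≤ C1 by linarith)
      (Real.exp_pos (-‖x‖ / 20)).le
    have e : 8 * |x 2| / ‖x‖ ^ 3 * (4 * C * L) = 32 * C * L * |x 2| / ‖x‖ ^ 3 := by ring
    linarith [m2 aP w0 (by linarith : 0 < ‖x‖) (mom m.P aP m.cP)]
  · have a1 := mul_le_mul_of_nonneg_right (show 2800 * Cw ≤ C1 by linarith)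
      (show 0 ≤ |x 2| / ‖x‖ ^ 4 by positivity)
    have a2 := mul_le_mul_of_nonneg_right (show 6 * Cw ≤ C1 by linarith)
      (Real.exp_pos (-‖x‖ / 20)).le
    have e : 2800 * |x 2| / ‖x‖ ^ 4 * Cw = 2800 * Cw * (|x 2| / ‖x‖ ^ 4) := by ring
    linarith [m3 aP w0 m.nS (fun w => (m.sP w).2) (fun w => (m.sS w).2) (by linarith : 0 < ‖x‖)]

end Vale.Agent.P363
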