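import Vale.Agent.P363.M1v
import Vale.Agent.P363.M1b
import Vale.Agent.P363.DefsV

/-! P363, block M1. -/

open MeasureTheory Set Metric Filter Topology
open scoped RealInnerProductSpace

namespace Vale.Agent.P363

theorem mb_main : T_MB := mb_of ma_main mab_main

end Vale.Agent.P363
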