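import Vale.Agent.P363.MFD

/-! P363, block MF: maximum principles with sources. -/

open MeasureTheory Set Metric Filter Topology
open scoped RealInnerProductSpace

namespace Vale.Agent.P363

noncomputable section

variable {L : ℝ}

variable {ρ : ℝ} {w R B l Bm : E3 → ℝ} {gw gB : E3 → E3}

theorem mfg_q {w B R l c s1 s2 : ℝ} (hB : 0 < B) (h : B < w) (hc : 1 / 5 ≤ c) (h2 : 0 ≤ s2)
    (h3 : c * w ^ 2 - s1 * w - s2 ≤ R) (h4 : s1 * B + s2 ≤ (-(1 / 2) * l + c * B) * B) :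
    1 / 5 * (w - B) * w ≤ R - l / 2 * w := by
  have a1 : 0 ≤ -(1 / 2) * l + c * B - s1 := by
    refine le_of_mul_le_mul_right ?_ hB
    linarith
  have a2 := mul_le_mul_of_nonneg_left h.le a1
  have a3 : 1 / 5 * ((w - B) * w) ≤ c * ((w - B) * w) :=
    mul_le_mul_of_nonneg_right hc (mul_nonneg (by linarith) (by linarith))
  linarith

theorem mfg_l2 {U A : Set E3} {w B Bm : E3 → ℝ} (hA : MeasurableSet A) (hAU : A ⊆ U)
    (hB : ContinuousOn B A) (l2 : MemLp w 2 (volume.restrict U))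
    (lm : MemLp Bm 2 (volume.restrict U)) (low : ∀ x ∈ A, -Bm x ≤ B x) :
    MemLp (fun x => max (w x - B x) 0) 2 (volume.restrict A) := by
  have a1 := l2.mono_measure (Measure.restrict_mono hAU le_rfl)
  have a2 := lm.mono_measure (Measure.restrict_mono hAU le_rfl)
  refine (a1.norm.add a2.norm).of_le
    ((a1.1.sub (hB.aestronglyMeasurable hA)).sup aestronglyMeasurable_const) ?_
  refine (ae_restrict_iff' hA).2 (.of_forall fun x hx => ?_)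
  have := low x hx
  have b1 := le_abs_self (w x)
  have b2 := le_abs_self (Bm x)
  rw [Real.norm_of_nonneg (le_max_right _ _), Pi.add_apply, Real.norm_of_nonneg (by positivity),
    Real.norm_eq_abs, Real.norm_eq_abs]
  exact max_le (by linarith) (by positivity)

theorem mfg_closed (ρ : ℝ) : IsClosed {x : E3 | ρ + 1 ≤ ‖x‖} :=
  isClosed_le continuous_const continuous_norm

theorem mfg_sub (ρ : ℝ) : {x : E3 | ρ + 1 ≤ ‖x‖} ⊆ Ext ρ := fun x hx => by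
  have : ρ + 1 ≤ ‖x‖ := hx
  show ρ < ‖x‖
  linarith

theorem gqE (hs : SubQ (Ext ρ) w gw R) (hB : C2 (Ext ρ) B gB l) (hp : ∀ x ∈ Ext ρ, 0 < B x)
    (l2 : MemLp w 2 (volume.restrict (Ext ρ)))
    (col : ∀ᵐ x : E3, ρ < ‖x‖ → ‖x‖ < ρ + 1 → w x ≤ B x)
    (pt : ∀ᵐ x : E3, x ∈ Ext ρ → ∃ c s1 s2 : ℝ, 1 / 5 ≤ c ∧ 0 ≤ s2 ∧
      c * w x ^ 2 - s1 * w x - s2 ≤ R x ∧ s1 * B x + s2 ≤ (-(1 / 2) * l x + c * B x) * B x) :
    ∀ᵐ x : E3, x ∈ Ext ρ → w x ≤ B x := by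
  refine wmpQ hs hB hp (mfg_closed ρ) (mfg_sub ρ) (lam := 1 / 5) (by norm_num) ?_
    (mfg_l2 (Bm := fun _ => 0) (mfg_closed ρ).measurableSet (mfg_sub ρ) (hB.cont.1.mono (mfg_sub ρ))
      l2 MemLp.zero' fun x hx => by simpa only [neg_zero] using (hp x (mfg_sub ρ hx)).le) ?_
  · filter_upwards [col] with x hx h1 h2
    exact hx h1 (not_le.1 h2)
  · filter_upwards [pt] with x hx h1 h2
    obtain ⟨c, s1, s2, a1, a2, a3, a4⟩ := hx (mfg_sub ρ h1)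
    exact mfg_q (hp x (mfg_sub ρ h1)) h2 a1 a2 a3 a4

theorem gqH (hs : SubQ (Ext ρ) w gw R) (hB : C2 (Ext ρ) B gB l)
    (hp : ∀ x ∈ Ext ρ, 0 ≤ x 2 → 0 < B x) (tz : TZ univ w)
    (l2 : MemLp w 2 (volume.restrict (Ext ρ)))
    (col : ∀ᵐ x : E3, ρ < ‖x‖ → ‖x‖ < ρ + 1 → 0 < x 2 → w x ≤ B x)
    (pt : ∀ᵐ x : E3, x ∈ Ext ρ → 0 < x 2 → ∃ c s1 s2 : ℝ, 1 / 5 ≤ c ∧ 0 ≤ s2 ∧
      c * w x ^ 2 - s1 * w x - s2 ≤ R x ∧ s1 * B x + s2 ≤ (-(1 / 2) * l x + c * B x) * B x) :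
    ∀ᵐ x : E3, x ∈ Ext ρ → 0 < x 2 → w x ≤ B x := by
  have c2 : Continuous fun x : E3 => x 2 := by fun_prop
  have hU : IsOpen (Ext ρ ∩ B ⁻¹' Ioi 0) := hB.cont.1.isOpen_inter_preimage hB.op isOpen_Ioi
  have hA : IsClosed ({x : E3 | ρ + 1 ≤ ‖x‖} ∩ {x | 0 ≤ x 2}) :=
    (mfg_closed ρ).inter (isClosed_le continuous_const c2)
  have hAU : {x : E3 | ρ + 1 ≤ ‖x‖} ∩ {x | 0 ≤ x 2} ⊆ Ext ρ ∩ B ⁻¹' Ioi 0 :=
    fun x hx => ⟨mfg_sub ρ hx.1, hp x (mfg_sub ρ hx.1) hx.2⟩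
  have key := wmpQH (hs.mono inter_subset_left) (hB.mono hU inter_subset_left) (fun x hx => hx.2)
    hA hAU (lam := 1 / 5) (by norm_num) ?_
    ((tz.mono (subset_univ _)).pos_of_cont hU (hB.cont.1.mono inter_subset_left).neg
      (fun x hx _ => neg_nonpos.2 (le_of_lt hx.2)) (.of_forall fun x _ _ => (sub_eq_add_neg _ _).le))
    (mfg_l2 (Bm := fun _ => 0) (hA.measurableSet.inter isOpen_Hp.measurableSet)
      (fun x hx => (hAU hx.1).1) (hB.cont.1.mono fun x hx => (hAU hx.1).1) l2 MemLp.zero'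
      fun x hx => by simpa only [neg_zero] using le_of_lt (hAU hx.1).2) ?_
  · filter_upwards [key] with x hx h1 h2
    exact hx ⟨h1, hp x h1 h2.le⟩ h2
  · filter_upwards [col] with x hx h1 h2 h3
    exact hx h1.1 (not_le.1 fun c => h3 ⟨c, h2.le⟩) h2
  · filter_upwards [pt] with x hx h1 h2 h3
    obtain ⟨c, s1, s2, a1, a2, a3, a4⟩ := hx (hAU h1).1 h2
    exact mfg_q (hAU h1).2 h3 a1 a2 a3 a4

theorem glE (hs : Sub (Ext ρ) w gw R) (hB : C2 (Ext ρ) B gB l) (hb : LocB (Ext ρ) w)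
    (l2 : MemLp w 2 (volume.restrict (Ext ρ))) (lm : MemLp Bm 2 (volume.restrict (Ext ρ)))
    (low : ∀ x ∈ Ext ρ, -Bm x ≤ B x) (col : ∀ᵐ x : E3, ρ < ‖x‖ → ‖x‖ < ρ + 1 → w x ≤ B x)
    (pt : ∀ᵐ x : E3, x ∈ Ext ρ → B x < w x → ∃ c s : ℝ, 1 / 5 ≤ c ∧ c * w x - s ≤ R x ∧
      s ≤ -(1 / 2) * l x + c * B x) : ∀ᵐ x : E3, x ∈ Ext ρ → w x ≤ B x := by
  refine wmp hs hB (mfg_closed ρ) (mfg_sub ρ) hb (lam := 1 / 5) (by norm_num) ?_
    (mfg_l2 (mfg_closed ρ).measurableSet (mfg_sub ρ) (hB.cont.1.mono (mfg_sub ρ))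
      l2 lm fun x hx => low x (mfg_sub ρ hx)) ?_
  · filter_upwards [col] with x hx h1 h2
    exact hx h1 (not_le.1 h2)
  · filter_upwards [pt] with x hx h1 h2
    obtain ⟨c, s, a1, a2, a3⟩ := hx (mfg_sub ρ h1) h2
    have := mul_le_mul_of_nonneg_right a1 (sub_nonneg.2 h2.le)
    linarith

theorem glH (hL : 0 ≤ L) (hρ : 0 ≤ ρ) (hs : Sub (D L) w gw R) (hB : C2 (D L) B gB l)
    (hb : LocB (D L) w) (odd : ∀ᵐ x : E3, w (sg x) = -w x) (l2 : MemLp w 2 volume)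
    (lm : MemLp Bm 2 (volume.restrict (Ext2 L ρ)))
    (low : ∀ x ∈ Ext2 L ρ, 0 < x 2 → -Bm x ≤ B x) (pl : ∀ x ∈ Ext2 L ρ, x 2 = 0 → 0 ≤ B x)
    (col : ∀ᵐ x : E3, x ∈ Ext2 L ρ → 0 < x 2 → rA L x < ρ + 1 → w x ≤ B x)
    (pt : ∀ᵐ x : E3, x ∈ Ext2 L ρ → 0 < x 2 → B x < w x → ∃ c s : ℝ, 1 / 5 ≤ c ∧
      c * w x - s ≤ R x ∧ s ≤ -(1 / 2) * l x + c * B x) :
    ∀ᵐ x : E3, x ∈ Ext2 L ρ → 0 < x 2 → w x ≤ B x := by
  have hU := isOpen_Ext2 L ρ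
  have hD : Ext2 L ρ ⊆ D L := Ext2_subset_D hρ
  have hA : IsClosed ({x : E3 | ρ + 1 ≤ rA L x} ∩ {x | ρ + 1 ≤ rB L x}) :=
    (isClosed_le continuous_const (continuous_rA L).1).inter
      (isClosed_le continuous_const (continuous_rA L).2)
  have hAU : {x : E3 | ρ + 1 ≤ rA L x} ∩ {x | ρ + 1 ≤ rB L x} ⊆ Ext2 L ρ := fun x hx =>
    ⟨lt_of_lt_of_le (lt_add_one ρ) hx.1, lt_of_lt_of_le (lt_add_one ρ) hx.2⟩
  have tz : TZ (Ext2 L ρ) w := TZ.of_odd hU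
    (fun x hx => ⟨by rw [rA_sg]; exact hx.2, by rw [rB_sg]; exact hx.1⟩) (hs.l1.ld.mono hD)
    (odd.mono fun x hx _ => hx)
  refine wmpH (hs.mono hD) (hB.mono hU hD) hA hAU (fun K h1 h2 => hb K h1 (h2.trans hD))
    (lam := 1 / 5) (by norm_num) ?_
    (tz.pos_of_cont hU (hB.cont.1.mono hD).neg (fun x hx h => neg_nonpos.2 (pl x hx h))
      (.of_forall fun x _ _ => (sub_eq_add_neg _ _).le))
    (mfg_l2 (hA.measurableSet.inter isOpen_Hp.measurableSet) (fun x hx => hAU hx.1)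
      (hB.cont.1.mono fun x hx => hD (hAU hx.1)) (l2.restrict _) lm
      fun x hx => low x (hAU hx.1) hx.2) ?_
  · filter_upwards [col] with x hx h1 h2 h3
    refine hx h1 h2 (not_le.1 fun c => h3 ⟨c, c.trans (rA_le_rB hL h2.le).1⟩)
  · filter_upwards [pt] with x hx h1 h2 h3
    obtain ⟨c, s, a1, a2, a3⟩ := hx (hAU h1) h2 h3
    have := mul_le_mul_of_nonneg_right a1 (sub_nonneg.2 h3.le)
    linarith

end

end Vale.Agent.P363
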