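import Vale.Agent.P363.MFA
import Vale.Agent.P363.MFG

/-! P363, block MF: bound for the far part `m`. -/

open MeasureTheory Set Metric Filter Topology
open scoped RealInnerProductSpace

namespace Vale.Agent.P363

noncomputable section

variable {c0 L : ℝ} {ob : OB c0 L} {lam r1 ε C2 C3 Cq I : ℝ} {N : E3 → ℝ} {gN : E3 → E3}

theorem mf2_num {C K K1 n f0 f1 l c : ℝ} (hC : 1 ≤ C) (hK : 1 ≤ K) (hK1 : 100 * C * K ≤ K1)
    (hn : 0 ≤ n) (h1 : n ≤ K * f0) (h2 : f0 ≤ 30 * f1) (hf : 0 < f1)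
    (h3 : f1 / 10 ≤ -(1 / 2) * l + c * f1) :
    0 * (K1 * f1) + C * n ^ 2 ≤ (-(1 / 2) * (K1 * l) + c * (K1 * f1)) * (K1 * f1) := by
  have hCK : 0 < C * K := by positivity
  have hK1' : 0 < K1 := by linarith
  have e1 : n ≤ 30 * (K * f1) := by nlinarith
  have e2 : n ^ 2 ≤ (30 * (K * f1)) ^ 2 := pow_le_pow_left₀ hn e1 2
  have e3 : (K1 * f1) ^ 2 / 10 ≤ (-(1 / 2) * (K1 * l) + c * (K1 * f1)) * (K1 * f1) := by
    have := mul_le_mul_of_nonneg_left h3 (show 0 ≤ K1 * (K1 * f1) by positivity)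
    nlinarith
  have e4 : (100 * C * K * f1) ^ 2 ≤ (K1 * f1) ^ 2 :=
    pow_le_pow_left₀ (by positivity) (mul_le_mul_of_nonneg_right hK1 hf.le) 2
  have e5 : C * n ^ 2 ≤ C * (30 * (K * f1)) ^ 2 := mul_le_mul_of_nonneg_left e2 (by linarith)
  have e6 : C * (K * f1) ^ 2 ≤ C * C * (K * f1) ^ 2 :=
    mul_le_mul_of_nonneg_right (by nlinarith) (sq_nonneg _)
  have e7 : 0 ≤ C * (K * f1) ^ 2 := by positivity
  nlinarith

theorem mf2 (h : T_Brad) (ob : OB c0 L) (hL : 1 ≤ L) (hC : 1 ≤ C3) : ∀ᶠ ρ : ℝ in atTop,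
    ∀ K, 1 ≤ K → ∃ K', K ≤ K' ∧ ∀ {lam r1 ε C2 Cq I N gN} (v : VB ob lam r1 ε C2 C3 Cq I N gN),
      Par L lam C3 I ob.del → v.Bn ρ K → v.Bm ρ K' := by
  obtain ⟨K0, hK0, hmv⟩ := mvb (s := 1) (C := 2) one_pos (by norm_num)
  filter_upwards [h L hL, eventually_ge_atTop (100 * L)] with ρ hrad hρ K hK
  set W0 : ℝ := √(K0 * (C3 + C3 ^ 3)) with hW0
  have hW : 0 ≤ W0 := Real.sqrt_nonneg _
  have hρ1 : 100 ≤ ρ := by linarith
  set K1 : ℝ := 30 * (W0 * ((ρ + 1) * Real.exp (6 / 5 * (ρ + 1)))) + 100 * C3 * K with hK1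
  have hA : 0 ≤ W0 * ((ρ + 1) * Real.exp (6 / 5 * (ρ + 1))) := by positivity
  have hCK : K ≤ C3 * K := by nlinarith
  have hK1a : 100 * C3 * K ≤ K1 := by linarith
  have hK1p : 0 < K1 := by nlinarith
  refine ⟨K1 + C3 * K, by linarith, fun {lam r1 ε C2 Cq I N gN} v hp hn => ?_⟩
  obtain ⟨g, l, hB, hl⟩ := hrad _ hp.hk _ hp.hc
  have hD : Ext ρ ⊆ D L := Ext_subset_D (by linarith) (by linarith)
  have hI := hp.hI
  have hk2 : √(2 * I) ^ 2 / 2 = I := by
    rw [Real.sq_sqrt (by linarith [hI.1])]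
    ring
  have hB' : Vale.Agent.P363.C2 (Ext ρ) (fun x => K1 * fb L √(2 * I) (1 - 2 * lam) 1 ‖x‖)
      (fun x => K1 • g x) (fun x => K1 * l x) := by
    refine (hB.mono (isOpen_Ext ρ) fun x hx hx0 => ?_).cmul K1
    have h1 : ρ < ‖x‖ := hx
    rw [mem_singleton_iff.1 hx0, norm_zero] at h1
    linarith
  have key : ∀ R : ℕ, ∀ᵐ x : E3, x ∈ Ext ρ → ‖x‖ ≤ R →
      v.m x ≤ (K1 + C3 * K) * (Real.exp (-‖x‖ / 20) * fbar L lam I x) := by
    intro R
    obtain ⟨w, gw, Rw, hs, hl2, hint, hw⟩ := v.wt R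
    have hsq : Integrable (fun x => w x ^ 2) := hl2.integrable_sq
    have h1 := hmv (Ext2 L 1) w gw Rw (C3 ^ 3) (isOpen_Ext2 L 1) (by positivity)
      (hs.mono (Ext2_subset_D zero_le_one)) (by
        filter_upwards [hw, v.bd] with x hx hb hx2
        have e1 := (V_far one_pos hx2).1
        have e2 : N x ^ 2 ≤ C3 ^ 2 := pow_le_pow_left₀ (v.nn x) (hb hx2) 2
        have e3 := mul_le_mul_of_nonneg_left e2 (show 0 ≤ C3 by linarith)
        have e4 : -2 * w x ^ 2 ≤ (V L x + I + 1 / 5) * w x ^ 2 :=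
          mul_le_mul_of_nonneg_right (by linarith [hI.1]) (sq_nonneg _)
        nlinarith [hx.2.1])
    have h2 : ∀ᵐ x : E3, x ∈ Ext ρ → w x ≤ W0 := by
      filter_upwards [h1] with x hx hx2
      have hx3 : ρ < ‖x‖ := hx2
      have e1 : closedBall x 1 ⊆ Ext2 L 1 := by
        refine Subset.trans (fun y hy => ?_) (Ext_subset_Ext2 (ρ := L + 1) (by linarith) le_rfl)
        have e2 := norm_sub_norm_le x y
        rw [mem_closedBall, dist_comm, dist_eq_norm] at hy
        show L + 1 < ‖y‖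
        linarith
      have e2 : ∫ y in closedBall x 1, w y ^ 2 ≤ C3 :=
        (setIntegral_le_integral hsq (Eventually.of_forall fun y => sq_nonneg _)).trans hint
      refine Real.le_sqrt_of_sq_le ((hx e1).trans ?_)
      exact mul_le_mul_of_nonneg_left (by linarith) hK0
    have h3 := gqE (hs.mono hD) hB' (fun x _ => mul_pos hK1p (fb_pos _ _ _ _ _))
      (hl2.restrict _) (by
        filter_upwards [h2] with x hx hx1 hx2
        have e1 := (hl x hx1.le).2.2
        have e2 := (fb_crude hL hp.hk hp.hc (s := ‖x‖) (by linarith)).1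
        have e3 := fb_pos L √(2 * I) (1 - 2 * lam) 1 ‖x‖
        have e4 : 1 ≤ Real.exp (6 / 5 * (ρ + 1)) * Real.exp (-√(2 * I) * ‖x‖) := by
          rw [← Real.exp_add]
          refine Real.one_le_exp ?_
          have := mul_le_mul_of_nonneg_right hp.hk.2 (norm_nonneg x)
          linarith
        have e5 := Real.exp_pos (6 / 5 * (ρ + 1))
        have e6 : ‖x‖ * fb L √(2 * I) (1 - 2 * lam) 0 ‖x‖ ≤
            (ρ + 1) * (30 * fb L √(2 * I) (1 - 2 * lam) 1 ‖x‖) :=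
          mul_le_mul hx2.le e1 (fb_pos _ _ _ _ _).le (by linarith)
        have e7 := e4.trans (mul_le_mul_of_nonneg_left (e2.trans e6) e5.le)
        have e8 := mul_le_mul_of_nonneg_left e7 hW
        have e9 : 0 ≤ 100 * C3 * K * fb L √(2 * I) (1 - 2 * lam) 1 ‖x‖ := by positivity
        refine (hx hx1).trans ?_
        rw [hK1]
        nlinarith)
      (by
        filter_upwards [hw, hn] with x hx hnx hx2
        have hx3 : ρ < ‖x‖ := hx2
        obtain ⟨e1, -, e2⟩ := hl x hx3.le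
        have e3 := fb_pos L √(2 * I) (1 - 2 * lam) 1 ‖x‖
        have e4 := (V_ext hL hρ hx2).1
        refine ⟨V L x + I + 1 / 5, 0, C3 * N x ^ 2, by linarith [hI.1], by positivity,
          by linarith [hx.2.1], mf2_num hC hK hK1a (v.nn x) (hnx hx2) e2 e3 ?_⟩
        have e5 := csg_mem_D.1 (hD hx2)
        have e6 : 0 < min (rA L x) (rB L x) := lt_min e5.1 e5.2
        have e7 : (1 - (1 - 2 * lam)) / (min (rA L x) (rB L x) + L) ≤ 1 / 10 := by
          rw [div_le_iff₀ (by linarith)]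
          have := hp.l1
          have := hp.d1
          have := hp.l0
          nlinarith
        have e8 : 0 ≤ 1 / min (rA L x) (rB L x) ^ 2 := by positivity
        rw [hk2] at e1
        have e9 := mul_le_mul_of_nonneg_right (show V L x + I +
          (1 - (1 - 2 * lam)) / (min (rA L x) (rB L x) + L) - 1 / min (rA L x) (rB L x) ^ 2 ≤
            V L x + I + 1 / 10 by linarith) e3.le
        linarith)
    filter_upwards [h3, hw, hn] with x hx hwx hnx hx2 hxR
    have hx3 : ρ < ‖x‖ := hx2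
    have e1 := mul_le_mul_of_nonneg_left (hl x hx3.le).2.1 hK1p.le
    have e2 := mul_le_mul_of_nonneg_left (hnx hx2) (show 0 ≤ C3 by linarith)
    have e3 : w x + C3 * N x ≤ (K1 + C3 * K) * fbar L lam I x := by
      have := hx hx2
      unfold fbar at *
      linarith
    have e4 := mul_le_mul_of_nonneg_left e3 (Real.exp_pos (-‖x‖ / 20)).le
    have e5 := hwx.2.2 hxR
    linarith
  filter_upwards [ae_all_iff.2 key] with x hx hx2
  exact hx ⌈‖x‖⌉₊ hx2 (Nat.le_ceil _)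

end

end Vale.Agent.P363
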