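import Vale.Agent.P363.MFZ
import Vale.Agent.P363.MFG

/-! P363, block MF: bound for `X`. -/

open MeasureTheory Set Metric Filter Topology
open scoped RealInnerProductSpace

namespace Vale.Agent.P363

noncomputable section

variable {c0 L : ℝ} {ob : OB c0 L} {lam r1 ε C2 C3 Cq I : ℝ} {N : E3 → ℝ} {gN : E3 → E3}

theorem mf3 (ob : OB c0 L) (hL : 1 ≤ L) (hC : 1 ≤ C3) (hd : ob.del ≤ 1 / 50) :
    ∀ᶠ ρ : ℝ in atTop, ∀ K, 1 ≤ K → ∃ K', K ≤ K' ∧
      ∀ {lam r1 ε C2 Cq I N gN} (v : VB ob lam r1 ε C2 C3 Cq I N gN),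
        Par L lam C3 I ob.del → v.Bn ρ K → v.BX ρ K' := by
  have d0 : 0 < ob.del := sub_pos.2 ob.lt
  filter_upwards [zall hL d0 (by linarith), eventually_ge_atTop (100 * L)] with ρ hz hρ K hK
  have ρ0 : 0 < ρ := by linarith
  have a1 : 1 ≤ (ρ + 1) ^ 3 := one_le_pow₀ (by linarith)
  have a2 : 0 ≤ 2 * C3 * K / ob.del := by positivity
  have a3 : K ≤ K * (ρ + 1) ^ 3 := le_mul_of_one_le_right (by linarith) a1
  obtain ⟨K', k1, k2⟩ : ∃ K', K * (ρ + 1) ^ 3 ≤ K' ∧ 2 * C3 * K / ob.del ≤ K' :=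
    ⟨K * (ρ + 1) ^ 3 + 2 * C3 * K / ob.del, by linarith, by linarith⟩
  rw [div_le_iff₀ d0] at k2
  refine ⟨K', a3.trans k1, fun {lam r1 ε C2 Cq I N gN} v hp hn => ?_⟩
  have K0 : 0 < K' := by linarith
  have hD : Ext ρ ⊆ D L := Ext_subset_D (by linarith) (by linarith)
  obtain ⟨g3, l3, c3, e3⟩ := (hz _ hp.hk _ hp.hc 3 (by norm_num)).1
  obtain ⟨g2, l2, c2, e2⟩ := (hz _ hp.hk _ hp.hc 2 (by norm_num)).1
  have hI : √(2 * I) ^ 2 / 2 = I := by
    rw [Real.sq_sqrt (by linarith [hp.hI.1])]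
    ring
  have l0 := hp.l0
  have key := gqE (v.sX.mono hD) ((c3.add (c2.cmul lam)).cmul K')
    (fun x hx => mul_pos K0 (add_pos (Gn_pos _ _ _ _ (ρ0.trans hx))
      (mul_pos l0 (Gn_pos _ _ _ _ (ρ0.trans hx))))) (v.l2 hD).1 ?_ ?_
  · filter_upwards [key] with x h hx
    refine (h hx).trans (le_of_eq ?_)
    have := (ρ0.trans hx).ne'
    unfold Gn fbar
    field_simp
  · filter_upwards [hn, v.dom] with x h1 h2 hx hx'
    have r0 := ρ0.trans hx
    have b1 := mul_pos l0 (Gn_pos L √(2 * I) (1 - 2 * lam) 2 r0)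
    have b2 := Gn_pos L √(2 * I) (1 - 2 * lam) 3 r0
    have b3 : fbar L lam I x = ‖x‖ ^ 3 * Gn L √(2 * I) (1 - 2 * lam) 3 x := by
      unfold Gn fbar
      rw [mul_div_cancel₀ _ (pow_pos r0 3).ne']
    have b4 : K * ‖x‖ ^ 3 ≤ K' :=
      (mul_le_mul_of_nonneg_left (pow_le_pow_left₀ r0.le hx'.le 3) (by linarith)).trans k1
    refine (h2.2.1.trans (h1 hx)).trans ?_
    rw [b3, ← mul_assoc]
    exact mul_le_mul b4 (by linarith) b2.le K0.le
  · filter_upwards [hn, v.dom, v.eX] with x h1 h2 h3 hx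
    have r0 := ρ0.trans hx
    have b1 := Gn_pos L √(2 * I) (1 - 2 * lam) 2 r0
    have b2 := Gn_pos L √(2 * I) (1 - 2 * lam) 3 r0
    have hv := (V_ext hL hρ hx).1
    have f3 := e3 x hx (ob.del - C3 * lam) (by linarith [hp.l1])
    have f2 := e2 x hx (ob.del - C3 * lam) (by linarith [hp.l1])
    rw [hI, ← add_sub_assoc] at f2 f3
    refine ⟨V L x + I + ob.del - C3 * lam, lam * C3 / (1 + ‖x‖) ^ 2 * |v.d x|, 0,
      by linarith [hp.l1, hp.hI.1], le_rfl, by rw [sub_zero]; exact h3, ?_⟩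
    rw [add_zero]
    refine mul_le_mul_of_nonneg_right ?_ (mul_pos K0 (add_pos b2 (mul_pos l0 b1))).le
    have b3 : lam * C3 / (1 + ‖x‖) ^ 2 * |v.d x| ≤
        lam * (C3 * K) * Gn L √(2 * I) (1 - 2 * lam) 2 x := by
      have b4 : lam * C3 / (1 + ‖x‖) ^ 2 ≤ lam * C3 / ‖x‖ ^ 2 :=
        div_le_div_of_nonneg_left (by positivity) (pow_pos r0 2)
          (pow_le_pow_left₀ r0.le (by linarith) 2)
      refine (mul_le_mul b4 (h2.1.trans (h1 hx)) (abs_nonneg _) (by positivity)).trans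
        (le_of_eq ?_)
      unfold Gn fbar
      ring
    have b5 := mul_le_mul_of_nonneg_left f3 K0.le
    have b6 := mul_le_mul_of_nonneg_left f2 (mul_pos K0 l0).le
    have b7 := mul_le_mul_of_nonneg_left k2 (mul_pos l0 b1).le
    have b8 := mul_pos K0 (mul_pos d0 b2)
    linarith

end

end Vale.Agent.P363
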