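import Vale.Agent.P363.MF4u

/-! P363, block MF: lower bound for `d`. -/

open MeasureTheory Set Metric Filter Topology
open scoped RealInnerProductSpace

namespace Vale.Agent.P363

noncomputable section

variable {c0 L : ℝ} {ob : OB c0 L} {lam r1 ε C2 C3 Cq I : ℝ} {N : E3 → ℝ} {gN : E3 → E3}

theorem mf4_l2 {k c ρ : ℝ} (hL : 1 ≤ L) (hk : k ∈ Icc (4 / 5 : ℝ) (6 / 5))
    (hc : c ∈ Icc (9 / 10 : ℝ) 1) (hρ : 1 ≤ ρ) :
    MemLp (fun x => fb L k c 0 (rA L x)) 2 (volume.restrict (Ext2 L ρ)) := by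
  have hk0 : 0 < k := by linarith [hk.1]
  have hm := (isOpen_Ext2 L ρ).measurableSet
  refine memLp_exp_decay (M := (1 + L) ^ 2 * Real.exp (k * L)) 2 hk0
    (((C2_fb k c 0 (by linarith) (nA L)).cont.1.mono fun x hx =>
      (Ext2_subset_D (by linarith) hx).1).aestronglyMeasurable hm) hm (.of_forall fun x hx => ?_)
  have hs : 1 ≤ rA L x := hρ.trans hx.1.le
  obtain ⟨b1, b2⟩ := abs_le.1 (abs_rA_sub (by linarith : 0 ≤ L) x).1
  have hn := norm_nonneg x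
  rw [abs_of_pos (fb_pos _ _ _ _ _)]
  refine (fb_crude hL hk hc hs).2.trans ?_
  have t1 : (1 + rA L x) ^ 2 ≤ ((1 + L) * (1 + ‖x‖)) ^ 2 :=
    pow_le_pow_left₀ (by linarith) (by nlinarith) 2
  have t2 : Real.exp (-k * rA L x) ≤ Real.exp (k * L) * Real.exp (-k * ‖x‖) := by
    rw [← Real.exp_add, Real.exp_le_exp]
    nlinarith
  calc (1 + rA L x) ^ 2 * Real.exp (-k * rA L x)
      ≤ ((1 + L) * (1 + ‖x‖)) ^ 2 * (Real.exp (k * L) * Real.exp (-k * ‖x‖)) := by gcongr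
    _ = _ := by ring

theorem mf4l (v : VB ob lam r1 ε C2 C3 Cq I N gN) (hp : Par L lam C3 I ob.del) {r0 Co M τ : ℝ}
    {U : E3 → ℝ} (hr : 20 ≤ r0) (hCo : 1 ≤ Co) (hM : 1 ≤ M) (hτ : 0 < τ)
    (hU : OddB L r0 Co τ √(2 * I) (1 - 2 * lam) (-1) U) (hl : lam * (10 * L ^ 2 * C3) ≤ 1)
    (cap : v.Cap r0 (M * Co ^ 2) τ)
    (col : ∀ᵐ x : E3, x ∈ Ext2 L r0 → rA L x < r0 + 1 → 1 ≤ M * v.d x) :
    ∀ᵐ x : E3, x ∈ Ext2 L r0 → 0 < x 2 →
      Uo L √(2 * I) (1 - 2 * lam) x ≤ M * Co ^ 3 * v.d x := by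
  obtain ⟨g, l, h2, hU⟩ := hU
  have hL := hp.hL
  have hK : 1 ≤ M * Co ^ 2 := one_le_mul_of_one_le_of_one_le hM (one_le_pow₀ hCo)
  have hK0 : 0 < M * Co ^ 2 := by linarith
  have hi : 0 < (M * Co ^ 2)⁻¹ := inv_pos.2 hK0
  have hdiv : ∀ a b : ℝ, a ≤ M * Co ^ 2 * b → -b ≤ -(M * Co ^ 2)⁻¹ * a := fun a b h => by
    have := (inv_mul_le_iff₀ hK0).2 h
    linarith
  have key := glH (Bm := fun x => fb L √(2 * I) (1 - 2 * lam) 0 (rA L x)) (by linarith)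
    (by linarith : 0 ≤ r0) v.sd.2 (h2.cmul (-(M * Co ^ 2)⁻¹)) (v.locB subset_rfl).2.1
    (v.sym.mono fun x hx => congrArg _ hx.1) v.hd.l2.neg
    (mf4_l2 hL hp.hk hp.hc (by linarith)) (fun x hx h => hdiv _ _ ?_) (fun x hx h => ?_) ?_ ?_
  · filter_upwards [key] with x hx h1 h3
    obtain ⟨-, -, -, a1, -⟩ := hU x h1 h3.le
    have b1 := hx h1 h3
    have b2 : U x ≤ M * Co ^ 2 * v.d x := (inv_mul_le_iff₀ hK0).1 (by linarith)
    have := mul_le_mul_of_nonneg_left b2 (by linarith : 0 ≤ Co)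
    linarith
  · obtain ⟨-, -, a1, -⟩ := hU x hx h.le
    have b1 := fb_pos L √(2 * I) (1 - 2 * lam) 0 (rA L x)
    have b2 := fb_pos L √(2 * I) (1 - 2 * lam) 0 (rB L x)
    have b3 : Uo L √(2 * I) (1 - 2 * lam) x ≤ fb L √(2 * I) (1 - 2 * lam) 0 (rA L x) := by
      unfold Uo
      linarith
    have b4 : Co ≤ M * Co ^ 2 := by nlinarith
    exact a1.trans (mul_le_mul b4 b3 (hU x hx h.le).2.1 hK0.le)
  · obtain ⟨-, -, a1, -⟩ := hU x hx h.ge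
    have b1 : rA L x = rB L x := by
      have e : rA L x ^ 2 = rB L x ^ 2 := by
        rw [rA_sq, rB_sq, h]
        ring
      exact (sq_eq_sq₀ (norm_nonneg _) (norm_nonneg _)).1 e
    have b2 : Uo L √(2 * I) (1 - 2 * lam) x = 0 := by rw [Uo, b1, sub_self]
    have := hdiv (U x) 0 (by rw [b2] at a1; linarith)
    linarith
  · filter_upwards [col] with x hx h1 h3 h4
    obtain ⟨-, -, a1, -, a2⟩ := hU x h1 h3.le
    have b1 := a1.trans (mul_le_mul_of_nonneg_left (a2 h4.le).2 (by linarith))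
    have := mul_le_mul_of_nonneg_left (hx h1 h4) (by positivity : 0 ≤ Co ^ 2)
    exact hdiv _ _ (by linarith)
  · filter_upwards [cap, v.ed] with x hx he h1 h3 _
    obtain ⟨σ, s1, s2⟩ : ∃ σ : ℝ, |σ| ≤ 1 ∧ |v.d x| = σ * v.d x := by
      rcases le_total 0 (v.d x) with h | h
      · exact ⟨1, by simp, by rw [abs_of_nonneg h, one_mul]⟩
      · exact ⟨-1, by simp, by rw [abs_of_nonpos h, neg_one_mul]⟩
    obtain ⟨p1, p2⟩ := odd_P hp hl hr h1 s1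
    have b1 := (hU x h1 h3.le).1 _ p1
    rw [s2] at he
    rw [mf4_k hp] at b1
    refine ⟨_, lam * C3 / (1 + ‖x‖) ^ 2 * v.X x, p2, by linarith [(abs_le.1 he).2], ?_⟩
    have := (le_inv_mul_iff₀ hK0).2 ((hx h1).trans b1)
    linarith

end

end Vale.Agent.P363
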