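import Vale.Agent.P363.MF4c
import Vale.Agent.P363.MF4l

/-! P363, block MF: two-sided bound for `d`. -/

open MeasureTheory Set Metric Filter Topology
open scoped RealInnerProductSpace

namespace Vale.Agent.P363

noncomputable section

variable {c0 L : ℝ} {ob : OB c0 L} {lam r1 ε C2 C3 Cq I : ℝ} {N : E3 → ℝ} {gN : E3 → E3}

theorem mf4 (h : T_Bodd) : ∀ᶠ r0 : ℝ in atTop, ∀ C : ℝ, 1 ≤ C → ∃ C4 : ℝ, 1 ≤ C4 ∧
    ∀ᶠ L : ℝ in atTop, ∀ {c0 ω : ℝ} (ob : OB c0 L), OBb ob C r0 ω → ∀ C3 ρ K : ℝ, 1 ≤ C3 → 1 ≤ K →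
      ∀ᶠ r1 : ℝ in atTop, ∀ᶠ ε in 𝓝[>] (0 : ℝ), ∀ᶠ lam in 𝓝[>] (0 : ℝ),
        ∀ {C2 Cq I N gN} (v : VB ob lam r1 ε C2 C3 Cq I N gN),
          Par L lam C3 I ob.del → v.BX ρ K → v.D4 r0 C4 := by
  filter_upwards [h, eventually_ge_atTop 20] with r0 ⟨Co, hCo, hL⟩ hr C hC
  have hM : 1 ≤ 2 * C := by linarith
  refine ⟨2 * C * Co ^ 3, one_le_mul_of_one_le_of_one_le hM (one_le_pow₀ hCo), ?_⟩
  filter_upwards [hL, eventually_ge_atTop 1] with L ⟨τ, hτ, hB⟩ hL1 c0 ω ob hob C3 ρ K hC3 hK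
  filter_upwards [eventually_ge_atTop (L + r0 + 1)] with r1 hr1
  filter_upwards [Ioc_mem_nhdsGT (show (0 : ℝ) < 1 / (2 * C) by positivity)] with ε hε
  have e1 : 2 * C * ε ≤ 1 := by
    have := (le_div_iff₀ (by linarith)).1 hε.2
    linarith
  have e2 : ε ≤ 1 := by nlinarith [hε.1]
  filter_upwards [mf4c ob hL1 hC3 hK le_rfl hτ,
    mf4c ob hL1 hC3 hK (one_le_mul_of_one_le_of_one_le hM (one_le_pow₀ (n := 2) hCo)) hτ,
    lam_ev (10 * L ^ 2 * C3) one_pos] with lam c1 c2 hl C2 Cq I N gN v hp hX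
  have hl' : lam * (10 * L ^ 2 * C3) ≤ 1 := by linarith [hl.2.1]
  have col : ∀ᵐ x : E3, x ∈ Ext2 L r0 → rA L x < r0 + 1 → v.d x ≤ 2 * C ∧ 1 ≤ 2 * C * v.d x := by
    filter_upwards [v.close] with x hx h1 h2
    have a1 : r0 < rA L x := h1.1
    have a2 : r0 < rB L x := h1.2
    have a3 := (abs_le.1 (abs_rA_sub (by linarith : 0 ≤ L) x).1).1
    obtain ⟨b1, b2⟩ := abs_le.1 (hx ⟨by linarith, by linarith, by linarith⟩).1
    obtain ⟨-, -, b3, b4⟩ := hob.shell x a1.le h2.le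
    have := mul_le_mul_of_nonneg_left b1 (by linarith : 0 ≤ 2 * C)
    exact ⟨by linarith, by linarith⟩
  obtain ⟨U, hU⟩ := hB _ hp.hk _ hp.hc 1 (.inl rfl)
  obtain ⟨U', hU'⟩ := hB _ hp.hk _ hp.hc (-1) (.inr rfl)
  filter_upwards [mf4u v hp hr hCo hM hτ hU hl' (c1 v r0 (by linarith) hp hX)
      (col.mono fun x hx h1 h2 => (hx h1 h2).1),
    mf4l v hp hr hCo hM hτ hU' hl' (c2 v r0 (by linarith) hp hX)
      (col.mono fun x hx h1 h2 => (hx h1 h2).2)] with x a b h1 h2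
  exact ⟨b h1 h2, a h1 h2⟩

end

end Vale.Agent.P363
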