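import Vale.Agent.P363.MFZ
import Vale.Agent.P363.MFG

/-! P363, block MF: bounds for `b` and `a`. -/

open MeasureTheory Set Metric Filter Topology
open scoped RealInnerProductSpace

namespace Vale.Agent.P363

noncomputable section

variable {c0 L : ℝ} {ob : OB c0 L} {lam r1 ε C2 C3 Cq I : ℝ} {N : E3 → ℝ} {gN : E3 → E3}

theorem mf5_cd {δ : ℝ} (hp : Par L lam C3 I δ) (hr : 100 * L + C3 ≤ r1) {x : E3}
    (hx : x ∈ Ext r1) : 1 / 5 ≤ V L x + I + δ - C3 * lam := by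
  have h1 := (V_ext hp.hL (by linarith [hp.hC]) hx).1
  linarith [hp.hI.1, hp.l1, hp.d0]

theorem mf5_D {δ : ℝ} (hp : Par L lam C3 I δ) (hr : 100 * L + C3 ≤ r1) : Ext r1 ⊆ D L :=
  Ext_subset_D (by linarith [hp.hL]) (by linarith [hp.hL, hp.hC])

theorem mf5_t1 {δ z r b d C : ℝ} (hδ : 0 < δ) (hr : 0 < r) (hl : 0 ≤ lam) (hL : 0 ≤ L)
    (h2 : 0 ≤ C2) (hC : 0 ≤ C) (hb : 0 ≤ b)
    (hd : |d| ≤ C * (|z| * b * Real.exp (√δ * |z| / 2))) :
    lam * (C2 * L * |z| / r ^ 3 * |d|) ≤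
      16 * C2 * C * δ * (Real.cosh (√δ * z) * (lam * L * b / (δ ^ 2 * r ^ 3))) := by
  have h1 := (hyp_ineq (√δ * z)).1
  rw [abs_mul, abs_of_nonneg (Real.sqrt_nonneg δ), mul_pow, Real.sq_sqrt hδ.le, ← sq_abs z] at h1
  calc _ ≤ lam * (C2 * L * |z| / r ^ 3 * (C * (|z| * b * Real.exp (√δ * |z| / 2)))) := by gcongr
    _ = C2 * C * δ * (lam * L * b / (δ ^ 2 * r ^ 3)) *
        (δ * |z| ^ 2 * Real.exp (√δ * |z| / 2)) := by field_simp
    _ ≤ C2 * C * δ * (lam * L * b / (δ ^ 2 * r ^ 3)) * (16 * Real.cosh (√δ * z)) := by gcongr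
    _ = _ := by ring

theorem mf5_t3 {δ z r f c : ℝ} (hδ : 0 < δ) (hδ1 : δ ≤ 1) (hr : 0 < r) (hl : 0 ≤ lam)
    (hL : 1 ≤ L) (hf : 0 ≤ f) (hc : c ≤ 1 / 64 * (f / r ^ 2)) :
    lam * (4 * |z| / r ^ 2 * c) ≤
      δ / 16 * (Real.cosh (√δ * z) * (lam * L ^ 2 / δ ^ 2 * (f / r ^ 4))) := by
  have h1 := (hyp_ineq (√δ * z)).2.1
  rw [abs_mul, abs_of_nonneg (Real.sqrt_nonneg δ)] at h1
  have h2 : δ ≤ √δ := Real.le_sqrt_of_sq_le (by nlinarith)
  have h3 : δ * |z| ≤ Real.cosh (√δ * z) * L ^ 2 :=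
    ((mul_le_mul_of_nonneg_right h2 (abs_nonneg z)).trans h1).trans
      (le_mul_of_one_le_right (Real.cosh_pos _).le (one_le_pow₀ hL))
  calc _ ≤ lam * (4 * |z| / r ^ 2 * (1 / 64 * (f / r ^ 2))) := by gcongr
    _ = lam * (f / r ^ 4) / (16 * δ) * (δ * |z|) := by
      field_simp
      ring
    _ ≤ lam * (f / r ^ 4) / (16 * δ) * (Real.cosh (√δ * z) * L ^ 2) := by gcongr
    _ = _ := by field_simp

theorem mf5_fin {K A η δ Y H s1 s2 lY lH c : ℝ} (hA : 1 ≤ A) (hK : K = 200 * A) (hη : 0 ≤ η)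
    (hδ : 0 ≤ δ) (hY : 0 < Y) (hH : 0 ≤ H) (h1 : s1 ≤ 16 * A * δ * H + η / 8 * Y + δ / 16 * H)
    (h2 : s2 ≤ η / 2 * Y ^ 2) (h3 : η * Y ≤ -(1 / 2) * lY + c * Y)
    (h4 : δ / 4 * H ≤ -(1 / 2) * lH + c * H) :
    s1 * (K * (Y + H)) + s2 ≤ (-(1 / 2) * (K * (lY + lH)) + c * (K * (Y + H))) * (K * (Y + H)) := by
  have a0 : 1 ≤ K := by linarith
  have a1 : Y ≤ K * (Y + H) := by nlinarith
  have a2 : 0 ≤ η * Y := by positivity
  have a3 : 0 ≤ δ * H := by positivity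
  have a4 : s2 ≤ η / 2 * Y * (K * (Y + H)) := by
    have := mul_le_mul_of_nonneg_left a1 a2
    linarith
  have a5 := mul_le_mul_of_nonneg_left (add_le_add h3 h4) (show 0 ≤ K by linarith)
  have a6 := mul_le_mul_of_nonneg_right a0 a2
  have a7 := mul_le_mul_of_nonneg_right hA a3
  have a8 : s1 + η / 2 * Y ≤ -(1 / 2) * (K * (lY + lH)) + c * (K * (Y + H)) := by
    have : K * (δ / 4 * H) = 50 * (A * (δ * H)) := by rw [hK]; ring
    linarith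
  have a9 := mul_le_mul_of_nonneg_right a8 (hY.le.trans a1)
  linarith

theorem mfb (v : VB ob lam r1 ε C2 C3 Cq I N gN) {C : ℝ} {Y Z : E3 → ℝ} (h : v.Cx C Y Z) :
    v.Bb C Y := by
  obtain ⟨g, l, hY, hl⟩ := h.cy.y2
  have hC := h.hC
  refine gqE (v.sb.mono (mf5_D h.par h.hr)) (hY.cmul C)
    (fun x _ => mul_pos (by linarith) (h.cy.pos x).1) (v.l2 (mf5_D h.par h.hr)).2.2.1
    (h.col.mono fun x hx h1 h2 => (hx h1 h2).2.1) ?_
  filter_upwards [v.eb] with x hx h1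
  refine ⟨_, 0, 0, mf5_cd h.par h.hr h1, le_rfl, by linarith, ?_⟩
  have h2 := (h.cy.pos x).1
  have h3 := (mul_pos h.par.e0 h2).le.trans (hl x h1)
  have h4 := mul_nonneg (mul_nonneg (show 0 ≤ C by linarith) h3)
    (mul_nonneg (show 0 ≤ C by linarith) h2.le)
  linarith

theorem mf5 (ob : OB c0 L) (hL : 1 ≤ L) (hd : ob.del ≤ 1 / 50) : ∀ᶠ r1 : ℝ in atTop,
    ∀ {lam ε C2 C3 Cq I N gN} (v : VB ob lam r1 ε C2 C3 Cq I N gN) (C : ℝ) (Y Z : E3 → ℝ),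
      v.Cx C Y Z → v.Ba (200 * C2 * C) Y := by
  have d0 : 0 < ob.del := sub_pos.2 ob.lt
  filter_upwards [zall hL d0 (by linarith)] with r1 hz lam ε C2 C3 Cq I N gN v C Y Z h
  obtain ⟨g, l, hY, hl⟩ := h.cy.y2
  have hp := h.par
  obtain ⟨g', l', hH, hl'⟩ := (hz _ hp.hk _ hp.hc 4 le_rfl).2.1
  have hC := h.hC
  have hC2 := h.hC2
  have hA : 1 ≤ C2 * C := one_le_mul_of_one_le_of_one_le hC2 hC
  have hl0 := hp.l0
  have hr1 : 0 < r1 := by linarith [h.hr, hp.hC]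
  have hch : ∀ x, chR L lam I ob.del x = lam * L ^ 2 / ob.del ^ 2 *
      (Real.cosh (√ob.del * x 2) * Gn L √(2 * I) (1 - 2 * lam) 4 x) := fun x => by
    rw [chR, (RS_eq L lam I ob.del x).1]
    ring
  have hch0 : ∀ x ∈ Ext r1, 0 ≤ chR L lam I ob.del x := fun x hx => by
    have := Gn_pos L √(2 * I) (1 - 2 * lam) 4 (hr1.trans hx)
    have := Real.cosh_pos (√ob.del * x 2)
    rw [hch]
    positivity
  have hB := ((hY.add (hH.cmul (lam * L ^ 2 / ob.del ^ 2))).cmul (200 * C2 * C)).congr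
    (B' := fun x => 200 * C2 * C * (Y x + chR L lam I ob.del x)) (fun x _ => by rw [hch])
    (fun _ _ => rfl) (fun _ _ => rfl)
  refine gqE (v.sa.mono (mf5_D hp h.hr)) hB
    (fun x hx => mul_pos (by linarith) (by linarith [(h.cy.pos x).1, hch0 x hx]))
    (v.l2 (mf5_D hp h.hr)).2.1 (h.col.mono fun x hx h1 h2 => (hx h1 h2).1.trans ?_) ?_
  · exact mul_le_mul (by nlinarith) (le_add_of_nonneg_right (hch0 x h1)) (h.cy.pos x).1.le
      (by linarith)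
  filter_upwards [v.ea, v.dom, h.dd, h.sm] with x hx h2 h3 h4 h1
  have hr : r1 < ‖x‖ := h1
  have hx0 : 0 < ‖x‖ := hr1.trans hr
  refine ⟨_, _, _, mf5_cd hp h.hr h1, by positivity, hx (by linarith [h.hr]), ?_⟩
  have hf : 0 < fbar L lam I x := Real.exp_pos _
  refine mf5_fin hA (by ring) hp.e0.le d0.le (h.cy.pos x).1 (hch0 x h1) ?_ (h4 h1).2.1 (hl x h1) ?_
  · have t1 := mf5_t1 (lam := lam) (L := L) (C2 := C2) d0 hx0 hl0.le (by linarith) (by linarith)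
      (by linarith) (by rw [(RS_eq L lam I ob.del x).2.2]; positivity) (h3 h1).2
    have t2 := (mul_le_mul_of_nonneg_left h2.1 (show 0 ≤ lam * C3 * Real.exp (-‖x‖ / 20) by
      have := hp.hC
      positivity)).trans (h4 h1).1
    have t3 := mf5_t3 (z := x 2) d0 (by linarith) hx0 hl0.le hL hf.le
      (h2.2.2.2.2.1.trans (h4 h1).2.2)
    have e1 : Real.cosh (√ob.del * x 2) * (lam * L * bb L lam I ‖x‖ / (ob.del ^ 2 * ‖x‖ ^ 3)) =
        chR L lam I ob.del x := rfl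
    have e2 : Real.cosh (√ob.del * x 2) * (lam * L ^ 2 / ob.del ^ 2 * (fbar L lam I x / ‖x‖ ^ 4)) =
        chR L lam I ob.del x := by
      rw [chR, (RS_eq L lam I ob.del x).1]
      rfl
    rw [e1] at t1
    rw [e2] at t3
    linarith
  · have t1 := mul_le_mul_of_nonneg_left (hl' x h1 (ob.del - C3 * lam) (by linarith [hp.l1]))
      (show 0 ≤ lam * L ^ 2 / ob.del ^ 2 by positivity)
    rw [Real.sq_sqrt (by linarith [hp.hI.1])] at t1
    rw [hch]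
    linarith

end

end Vale.Agent.P363
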