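import Vale.Agent.P363.MFZ
import Vale.Agent.P363.MFG

/-! P363, block MF: bound for `c`. -/

open MeasureTheory Set Metric Filter Topology
open scoped RealInnerProductSpace

namespace Vale.Agent.P363

noncomputable section

variable {c0 L : ℝ} {ob : OB c0 L} {lam r1 ε C2 C3 Cq I : ℝ} {N : E3 → ℝ} {gN : E3 → E3}

theorem mf6_s1 {lam δ C C3 r z b d : ℝ} (l0 : 0 < lam) (d0 : 0 < δ) (hC : 1 ≤ C) (h3 : 1 ≤ C3)
    (hr : 0 < r) (hz : 0 < z) (hb : 0 ≤ b) (hM : 8 * C3 * C * √lam ≤ δ)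
    (hd : |d| ≤ C * (|z| * b * Real.exp (√δ * |z| / 2))) :
    lam * C3 / (1 + r) ^ 2 * |d| ≤ δ / 4 * (√lam * (Real.sinh (√δ * z) / √δ * (b / r))) := by
  rw [abs_of_pos hz] at hd
  have s0 : 0 < √δ := Real.sqrt_pos.2 d0
  have t0 : 0 < √lam := Real.sqrt_pos.2 l0
  have a1 := (hyp_ineq (√δ * z)).2.2.2.2.1 (by positivity)
  have a2 : z * Real.exp (√δ * z / 2) ≤ 2 * (Real.sinh (√δ * z) / √δ) := by
    rw [← mul_div_assoc, le_div_iff₀ s0]
    linarith
  generalize Real.sinh (√δ * z) / √δ = S at a2 ⊢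
  have S0 : 0 ≤ S := by
    have : 0 < z * Real.exp (√δ * z / 2) := by positivity
    linarith
  have a3 : |d| ≤ C * (b * (2 * S)) := by
    refine hd.trans (mul_le_mul_of_nonneg_left ?_ (by linarith))
    have := mul_le_mul_of_nonneg_left a2 hb
    linarith
  have a4 : lam * C3 / (1 + r) ^ 2 ≤ lam * C3 / r :=
    div_le_div_of_nonneg_left (by positivity) hr (by nlinarith)
  have a5 := mul_le_mul a4 a3 (abs_nonneg d) (by positivity)
  have a6 := mul_le_mul_of_nonneg_right hM (show 0 ≤ √lam * (S * (b / r)) by positivity)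
  have a7 : lam * C3 / r * (C * (b * (2 * S))) =
      8 * C3 * C * √lam * (√lam * (S * (b / r))) / 4 := by
    have : lam = √lam * √lam := (Real.mul_self_sqrt l0.le).symm
    generalize √lam = t at this ⊢
    subst this
    ring
  linarith

theorem mf6_s2 {lam δ η K a y H S s1 cap : ℝ} (l0 : 0 < lam) (d0 : 0 < δ) (e0 : 0 < η)
    (y0 : 0 < y) (H0 : 0 ≤ H) (S0 : 0 ≤ S) (a0 : 0 ≤ a) (ha : a ≤ K * (y + H))
    (h1 : 8 * K ^ 2 * lam ≤ δ) (h2 : 2 * K ^ 2 * lam ≤ 1 * η) (hs : s1 ≤ δ / 4 * S)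
    (hc : δ / 4 * S + (η * y + δ / 4 * H) ≤ cap) :
    s1 * (S + (y + H)) + 2 * lam * a ^ 2 ≤ cap * (S + (y + H)) := by
  have b1 : a ^ 2 ≤ (K * (y + H)) ^ 2 := pow_le_pow_left₀ a0 ha 2
  have b2 := mul_le_mul_of_nonneg_left b1 (show 0 ≤ 2 * lam by positivity)
  have b3 := mul_le_mul_of_nonneg_right h1 H0
  have b4 := mul_le_mul_of_nonneg_right h2 y0.le
  have b5 : 2 * lam * K ^ 2 * (y + H) ≤ η * y + δ / 4 * H := by linarith
  have b6 := mul_le_mul b5 (show y + H ≤ S + (y + H) by linarith) (by positivity) (by positivity)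
  have b7 := mul_le_mul_of_nonneg_right hs (show 0 ≤ S + (y + H) by positivity)
  have b8 := mul_le_mul_of_nonneg_right hc (show 0 ≤ S + (y + H) by positivity)
  nlinarith

theorem mf6 (ob : OB c0 L) (hL : 1 ≤ L) (hd : ob.del ≤ 1 / 50) (C3 C K : ℝ) :
    ∀ᶠ r1 : ℝ in atTop, ∀ᶠ lam in 𝓝[>] (0 : ℝ),
      ∀ {ε C2 Cq I N gN} (v : VB ob lam r1 ε C2 C3 Cq I N gN) (Y Z : E3 → ℝ),
        v.Cx C Y Z → v.Ba K Y → v.Bc Y := by
  have d0 : 0 < ob.del := sub_pos.2 ob.lt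
  filter_upwards [zall hL d0 (by linarith)] with r1 hz
  filter_upwards [lam_ev (8 * C3 * C) d0, lam_ev (8 * K ^ 2) d0, lam_ev (2 * K ^ 2) one_pos]
    with lam m1 m2 m3 ε C2 Cq I N gN v Y Z cx ba
  have p := cx.par
  have hC3 := p.hC
  have hr := cx.hr
  have l0 := p.l0
  have l1 := p.l1
  have hI := p.hI
  have hD : Ext r1 ⊆ D L := Ext_subset_D (by linarith) (by linarith)
  have n0 : ∀ x ∈ Ext r1, 0 < ‖x‖ := fun x hx => lt_trans (by linarith) (show r1 < ‖x‖ from hx)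
  obtain ⟨gS, lS, cS, iS⟩ := (hz _ p.hk _ p.hc 2 (by norm_num)).2.2.1
  obtain ⟨gH, lH, cH, iH⟩ := (hz _ p.hk _ p.hc 4 le_rfl).2.1
  obtain ⟨gY, lY, cY, iY⟩ := cx.cy.y2
  have kk : √(2 * I) ^ 2 / 2 = I := by
    rw [Real.sq_sqrt (by linarith [hI.1])]
    ring
  rw [kk] at iS iH
  have eS : ∀ x, √lam * shB L lam I ob.del x = √lam * L * (Real.sinh (√ob.del * x 2) / √ob.del *
      Gn L √(2 * I) (1 - 2 * lam) 2 x) := fun x => by
    rw [shB, (RS_eq L lam I ob.del x).2.1]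
    ring
  have eH : ∀ x, chR L lam I ob.del x = lam * L ^ 2 / ob.del ^ 2 * (Real.cosh (√ob.del * x 2) *
      Gn L √(2 * I) (1 - 2 * lam) 4 x) := fun x => by
    rw [chR, (RS_eq L lam I ob.del x).1]
    ring
  have L0 : 0 < L := by linarith
  have S0 : ∀ x ∈ Ext r1, 0 ≤ x 2 → 0 ≤ √lam * shB L lam I ob.del x := fun x hx h => by
    have := Gn_pos L √(2 * I) (1 - 2 * lam) 2 (n0 x hx)
    have : 0 ≤ Real.sinh (√ob.del * x 2) := Real.sinh_nonneg_iff.2 (by positivity)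
    rw [eS]
    positivity
  have H0 : ∀ x ∈ Ext r1, 0 ≤ chR L lam I ob.del x := fun x hx => by
    have := Gn_pos L √(2 * I) (1 - 2 * lam) 4 (n0 x hx)
    have := Real.cosh_pos (√ob.del * x 2)
    rw [eH]
    positivity
  have cB := ((cS.cmul (√lam * L)).add (cY.add (cH.cmul (lam * L ^ 2 / ob.del ^ 2)))).congr
    (B' := fun x => √lam * shB L lam I ob.del x + (Y x + chR L lam I ob.del x))
    (fun x _ => by rw [eS, eH]) (fun _ _ => rfl) (fun _ _ => rfl)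
  refine gqH (v.sc.mono hD) cB (fun x hx h => ?_) v.tc (v.l2 hD).2.2.2.1 ?_ ?_
  · have := S0 x hx h
    have := H0 x hx
    have := (cx.cy.pos x).1
    positivity
  · filter_upwards [cx.col] with x hx h1 h2 h3
    have := S0 x h1 h3.le
    have := H0 x h1
    linarith [(hx h1 h2).2.2.1]
  · filter_upwards [v.ec, v.alg, cx.dd, ba] with x e1 e2 e3 e4 h1 h2
    have v1 := (V_ext hL (by linarith) h1).1
    refine ⟨V L x + I + ob.del - C3 * lam, lam * C3 / (1 + ‖x‖) ^ 2 * |v.d x|,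
      2 * lam * v.a x ^ 2, by linarith [hI.1], by positivity, e1, ?_⟩
    have b0 : 0 ≤ bb L lam I ‖x‖ := by
      have := fb_pos L √(2 * I) (1 - 2 * lam) 0 ‖x‖
      rw [bb]
      positivity
    refine mf6_s2 l0 d0 p.e0 (cx.cy.pos x).1 (H0 x h1) (S0 x h1 h2.le) e2.1 (e4 h1) m2.2.1
      m3.2.2.2.2.1 (mf6_s1 l0 d0 cx.hC hC3 (n0 x h1) h2 b0 m1.2.2.1 (e3 h1).2) ?_
    have j1 := mul_le_mul_of_nonneg_left (iS x h1 h2.le (ob.del - C3 * lam) (by linarith))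
      (show 0 ≤ √lam * L by positivity)
    have j2 := mul_le_mul_of_nonneg_left (iH x h1 (ob.del - C3 * lam) (by linarith))
      (show 0 ≤ lam * L ^ 2 / ob.del ^ 2 by positivity)
    have j3 := iY x h1
    rw [eS, eH]
    linarith

end

end Vale.Agent.P363
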