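import Vale.Agent.P363.MFA
import Vale.Agent.P363.MFG

/-! P363, block MF: lower bound for the triplet channel. -/

open MeasureTheory Set Metric Filter Topology
open scoped RealInnerProductSpace

namespace Vale.Agent.P363

noncomputable section

variable {c0 L : ℝ} {ob : OB c0 L} {lam r1 ε C2 C3 Cq I : ℝ} {N : E3 → ℝ} {gN : E3 → E3}

theorem mf7_pt {C q η s c c1 c2 y z ly lz b : ℝ} (hC : 1 ≤ C) (hq : 0 ≤ q) (hs : 0 ≤ s)
    (hy : 0 < y) (hz : 0 < z) (h1 : c1 ≤ c) (h2 : c ≤ c2) (hY : η * y ≤ -(1 / 2) * ly + c1 * y)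
    (hZ : -(1 / 2) * lz + c2 * z ≤ 0) (hb : b ≤ C * y) (hsm : s * C ≤ q * η) :
    s * b ≤ -(1 / 2) * (-(1 / C) * lz + q * ly) + c * (-(1 / C) * z + q * y) := by
  have hC0 : 0 < 1 / C := by positivity
  have a1 : -(1 / 2) * lz + c * z ≤ 0 := by nlinarith
  have a2 : η * y ≤ -(1 / 2) * ly + c * y := by nlinarith
  have a3 : s * b ≤ q * η * y := by
    calc s * b ≤ s * (C * y) := mul_le_mul_of_nonneg_left hb hs
      _ = s * C * y := by ring
      _ ≤ q * η * y := mul_le_mul_of_nonneg_right hsm hy.le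
  have a4 : q * (η * y) ≤ q * (-(1 / 2) * ly + c * y) := mul_le_mul_of_nonneg_left a2 hq
  have a5 : 1 / C * (-(1 / 2) * lz + c * z) ≤ 0 := mul_nonpos_of_nonneg_of_nonpos hC0.le a1
  nlinarith

theorem mf7 (ob : OB c0 L) (C3 C : ℝ) : ∀ᶠ lam in 𝓝[>] (0 : ℝ),
    ∀ {r1 ε C2 Cq I N gN} (v : VB ob lam r1 ε C2 C3 Cq I N gN) (Y Z : E3 → ℝ),
      v.Cx C Y Z → v.Bb C Y → v.BT C Y Z := by
  filter_upwards [lam_ev (C3 * C) one_pos] with lam hl
  intro r1 ε C2 Cq I N gN v Y Z h hb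
  obtain ⟨l0, -, -, -, -, l5⟩ := hl
  have hp := h.par
  have hC := h.hC
  have hC0 : 0 < C := by linarith
  have hL := hp.hL
  have hC3 := hp.hC
  have hr : 100 * L ≤ r1 := by linarith [h.hr]
  have hD : Ext r1 ⊆ D L := Ext_subset_D (by linarith) (by linarith)
  obtain ⟨gY, lY, cY, eY⟩ := h.cy.y2
  obtain ⟨gZ, lZ, cZ, eZ⟩ := h.cy.z2
  have hq : 0 ≤ √lam := Real.sqrt_nonneg _
  have hB := (cZ.cmul (-(1 / C))).add (cY.cmul √lam)
  have hsm : lam * C3 * C ≤ √lam * eta lam := by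
    have e1 : lam = √lam * √lam := (Real.mul_self_sqrt l0.le).symm
    have e2 : √lam * (C3 * C * √lam) ≤ √lam * (1 * eta lam) := mul_le_mul_of_nonneg_left l5 hq
    calc lam * C3 * C = √lam * √lam * C3 * C := by rw [← e1]
      _ = √lam * (C3 * C * √lam) := by ring
      _ ≤ √lam * (1 * eta lam) := e2
      _ = √lam * eta lam := by ring
  have key := glE (Bm := Z) (v.sT.mono hD) hB (v.locB hD).2.2.1 (v.l2 hD).2.2.2.2.1.neg h.cy.l2
    (fun x _ => by
      obtain ⟨hy, hz⟩ := h.cy.pos x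
      have a1 : 1 / C ≤ 1 := by rw [div_le_one hC0]; exact hC
      have a2 : 1 / C * Z x ≤ 1 * Z x := mul_le_mul_of_nonneg_right a1 hz.le
      have a3 : 0 ≤ √lam * Y x := mul_nonneg hq hy.le
      linarith)
    (by
      filter_upwards [h.col] with x hx h1 h2
      obtain ⟨-, -, -, a, -⟩ := hx h1 h2
      obtain ⟨hy, -⟩ := h.cy.pos x
      have a1 : 1 / C * Z x ≤ v.dT x := by
        rw [one_div, ← div_eq_inv_mul, div_le_iff₀ hC0]; linarith
      have a3 : 0 ≤ √lam * Y x := mul_nonneg hq hy.le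
      linarith)
    (by
      filter_upwards [v.eT, hb] with x hx hb' hE _
      obtain ⟨hy, hz⟩ := h.cy.pos x
      obtain ⟨p1, p2⟩ := abs_le.1 v.par.1
      obtain ⟨v1, -, -⟩ := V_ext hL hr hE
      refine ⟨V L x + I + v.δT, lam * C3 * v.b x, ?_, ?_, ?_⟩
      · linarith [hp.hI.1, hp.l1, hp.d0]
      · linarith [(abs_le.1 hx).2]
      · exact mf7_pt hC hq (mul_nonneg l0.le (by linarith)) hy hz (by linarith) (by linarith)
          (eY x hE) (eZ x hE) (hb' hE) hsm)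
  filter_upwards [key] with x hx hE
  have a := hx hE
  have e : Z x / C = 1 / C * Z x := by ring
  rw [e]
  linarith

end

end Vale.Agent.P363
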