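import Vale.Agent.P363.MFZ
import Vale.Agent.P363.MFG

/-! P363, block MF: the singlet channel. -/

open MeasureTheory Set Metric Filter Topology
open scoped RealInnerProductSpace

namespace Vale.Agent.P363

noncomputable section

variable {c0 L : ℝ} {ob : OB c0 L} {lam r1 ε C2 C3 Cq I : ℝ} {N : E3 → ℝ} {gN : E3 → E3}

theorem mf8_l2 (hp : Par L lam C3 I ob.del) (hr : 100 * L + C3 ≤ r1) :
    MemLp (fun x : E3 => (1 + ob.del * x 2 ^ 2) * RS L lam I ob.del ‖x‖) 2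
      (volume.restrict (Ext r1)) := by
  have hL := hp.hL
  have d0 := hp.d0
  have l0 := hp.l0
  have r0 : ∀ x ∈ Ext r1, 1 ≤ ‖x‖ := fun x hx => by
    have : r1 < ‖x‖ := hx
    linarith [hp.hC]
  have k0 : 0 < √(2 * I) := by linarith [hp.hk.1]
  refine memLp_exp_decay (M := lam * L ^ 2 / ob.del ^ 2) 4 k0 ?_ (isOpen_Ext r1).measurableSet
    (.of_forall fun x hx => ?_)
  · refine ContinuousOn.aestronglyMeasurable ?_ (isOpen_Ext r1).measurableSet
    simp only [(RS_eq L lam I ob.del _).1, Gn]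
    have c1 := (C2_fb √(2 * I) (1 - 2 * lam) 0 (by linarith : 0 < L) 0).cont.1
    simp only [sub_zero] at c1
    refine ContinuousOn.mul (by fun_prop) (continuousOn_const.mul ((c1.mono fun x hx => ?_).div
      (by fun_prop) fun x hx => pow_ne_zero _ (by linarith [r0 x hx])))
    rintro rfl
    have := r0 _ hx
    rw [norm_zero] at this
    linarith
  · have h1 := r0 x hx
    have h2 := Gn_pos L √(2 * I) (1 - 2 * lam) 4 (x := x) (by linarith)
    have h3 := (fb_crude hL hp.hk hp.hc h1).2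
    have h4 : x 2 ^ 2 ≤ ‖x‖ ^ 2 := sq_le_sq' (by linarith [abs_le.1 (abs_coord_le x 2)])
      (abs_le.1 (abs_coord_le x 2)).2
    have h5 : 1 + ob.del * x 2 ^ 2 ≤ (1 + ‖x‖) ^ 2 := by nlinarith [hp.d1, sq_nonneg (x 2)]
    have h6 : Gn L √(2 * I) (1 - 2 * lam) 4 x ≤ (1 + ‖x‖) ^ 2 * Real.exp (-√(2 * I) * ‖x‖) :=
      (div_le_self (fb_pos _ _ _ _ _).le (one_le_pow₀ h1)).trans h3
    rw [(RS_eq L lam I ob.del x).1, abs_of_nonneg (by positivity)]
    calc _ ≤ (1 + ‖x‖) ^ 2 * (lam * L ^ 2 / ob.del ^ 2 *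
          ((1 + ‖x‖) ^ 2 * Real.exp (-√(2 * I) * ‖x‖))) := by gcongr
      _ = _ := by ring

theorem mf8_err {lam C3 C C2 K L δ η r z d a c f Y ex N q S : ℝ} (l0 : 0 < lam) (hC3 : 1 ≤ C3)
    (hC : 1 ≤ C) (hC2 : 1 ≤ C2) (hL : 1 ≤ L) (d0 : 0 < δ) (d1 : δ ≤ 1) (η0 : 0 < η) (r0 : 0 < r)
    (f0 : 0 < f) (Y0 : 0 < Y) (ex0 : 0 < ex) (hq : q = √δ * z)
    (hS : S = lam * L * (L / r * f) / (δ ^ 2 * r ^ 3))
    (hd : |d| ≤ C * (|z| * (L / r * f) * Real.exp (√δ * |z| / 2))) (hdN : |d| ≤ N) (hcN : c ≤ N)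
    (hN : lam * C3 * ex * N ≤ η / 8 * Y) (ha : a ≤ K * (Y + Real.cosh q * S))
    (hc : c ≤ 1 / 64 * (f / r ^ 2)) (hr : 1000 * C3 * C2 * C ^ 2 ≤ r)
    (h1 : C3 * K * lam ≤ 1 / 2 * η) (h2 : 32 * C2 * C * (C3 * K) * lam ≤ δ) :
    lam * C3 * ((|z| / r ^ 4 + ex) * |d| + a + (|z| / r ^ 3 + ex) * c) ≤
      δ / 16 * (Real.cosh q * S) / (C2 * C) + (C + 4) * (η * Y) := by
  obtain ⟨i1, i2, -⟩ := hyp_ineq q
  have sq : √δ ^ 2 = δ := Real.sq_sqrt d0.le
  have s0 : 0 < √δ := Real.sqrt_pos.2 d0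
  have s1 : √δ ≤ 1 := Real.sqrt_le_one.2 d1
  have aq : |q| = √δ * |z| := by rw [hq, abs_mul, abs_of_pos s0]
  have q2 : q ^ 2 = δ * |z| ^ 2 := by rw [hq, mul_pow, sq, sq_abs]
  have S0 : 0 < S := by rw [hS]; positivity
  have ch := Real.cosh_pos q
  rw [aq] at i1 i2
  rw [q2] at i1
  have e1 : lam * C3 * (|z| / r ^ 4 * |d|) ≤ 16 * C3 * C * δ / r * (Real.cosh q * S) := by
    calc _ ≤ lam * C3 * (|z| / r ^ 4 * (C * (|z| * (L / r * f) * Real.exp (√δ * |z| / 2)))) := by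
          gcongr
      _ = C3 * C * δ / r * (δ * |z| ^ 2 * Real.exp (√δ * |z| / 2)) * S / L := by
          rw [hS]; field_simp
      _ ≤ C3 * C * δ / r * (16 * Real.cosh q) * S / 1 := by gcongr
      _ = _ := by ring
  have e4 : lam * C3 * (|z| / r ^ 3 * c) ≤ C3 * δ / r * (Real.cosh q * S) := by
    have : δ * |z| ≤ Real.cosh q := le_trans (by
      gcongr
      nlinarith) i2
    calc _ ≤ lam * C3 * (|z| / r ^ 3 * (1 / 64 * (f / r ^ 2))) := by gcongr
      _ = C3 * δ / r * (δ * |z| * S) / (64 * L ^ 2) := by rw [hS]; field_simp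
      _ ≤ C3 * δ / r * (Real.cosh q * S) / 1 := by
          gcongr
          nlinarith
      _ = _ := by ring
  have e2 : lam * C3 * (ex * |d|) ≤ η / 8 * Y :=
    le_trans (by rw [← mul_assoc]; gcongr) hN
  have e3 : lam * C3 * (ex * c) ≤ η / 8 * Y :=
    le_trans (by rw [← mul_assoc]; gcongr) hN
  have e5 : lam * C3 * a ≤ C3 * K * lam * Y + C3 * K * lam * (Real.cosh q * S) := by
    calc _ ≤ lam * C3 * (K * (Y + Real.cosh q * S)) := by gcongr
      _ = _ := by ring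
  have e6 : C3 * K * lam * Y ≤ 1 / 2 * η * Y := by gcongr
  have e7 : 16 * C3 * C * δ / r + C3 * δ / r + C3 * K * lam ≤ δ / 16 / (C2 * C) := by
    have b1 : C3 * K * lam ≤ δ / 32 / (C2 * C) := by
      rw [le_div_iff₀ (by positivity)]
      linarith
    have b2 : C3 * δ / r ≤ C3 * C * δ / r := by
      gcongr
      exact le_mul_of_one_le_right (by linarith) hC
    have b3 : 17 * (C3 * C * δ / r) ≤ δ / 32 / (C2 * C) := by
      rw [le_div_iff₀ (by positivity), ← mul_div_assoc, div_mul_eq_mul_div, div_le_iff₀ r0]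
      have b6 : 0 < C3 * C2 * C * δ := by positivity
      have b7 := mul_le_mul_of_nonneg_left hr d0.le
      have b8 := mul_le_mul_of_nonneg_left hC (mul_pos b6 (by linarith : 0 < C)).le
      nlinarith only [b6, b7, mul_pos b6 (by linarith : 0 < C)]
    have b4 : 16 * C3 * C * δ / r = 16 * (C3 * C * δ / r) := by ring
    have b5 : δ / 16 / (C2 * C) = 2 * (δ / 32 / (C2 * C)) := by ring
    linarith
  have e8 := mul_le_mul_of_nonneg_right e7 (mul_pos ch S0).le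
  have e9 : 0 ≤ C * (η * Y) := by positivity
  have e10 : 0 ≤ η * Y := by positivity
  have e11 : δ / 16 * (Real.cosh q * S) / (C2 * C) = δ / 16 / (C2 * C) * (Real.cosh q * S) := by
    ring
  linarith

theorem mf8 (ob : OB c0 L) (hL : 1 ≤ L) (hd : ob.del ≤ 1 / 50) {C2 C : ℝ} (hC2 : 1 ≤ C2)
    (hC : 1 ≤ C) (C3 K : ℝ) : ∀ᶠ r1 : ℝ in atTop, ∀ᶠ lam in 𝓝[>] (0 : ℝ),
      ∀ {ε Cq I N gN} (v : VB ob lam r1 ε C2 C3 Cq I N gN) (Y Z : E3 → ℝ),
        v.Cx C Y Z → v.Ba K Y → v.BS C Y := by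
  have dp : 0 < ob.del := sub_pos.2 ob.lt
  filter_upwards [zall hL dp (hd.trans (by norm_num)),
    eventually_ge_atTop (1000 * C3 * C2 * C ^ 2)] with r1 hz hr
  filter_upwards [lam_ev (C3 * K) (a := 1 / 2) (by norm_num),
    lam_ev (32 * C2 * C * (C3 * K)) dp] with lam m1 m2 ε Cq I N gN v Y Z h ha
  have hp := h.par
  have d0 := hp.d0
  have l0 := hp.l0
  have hD : Ext r1 ⊆ D L := Ext_subset_D (by linarith) (by linarith [h.hr, hp.hC])
  obtain ⟨-, -, -, g1, l1, k1, b1⟩ := hz _ hp.hk _ hp.hc 4 le_rfl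
  obtain ⟨g2, l2, k2, b2⟩ := h.cy.y2
  have CC : 1 ≤ C2 * C := one_le_mul_of_one_le_of_one_le hC2 hC
  have r0 : ∀ x ∈ Ext r1, 100 * L + C3 < ‖x‖ := fun x hx => lt_of_le_of_lt h.hr hx
  have S0 : ∀ x ∈ Ext r1, 0 < RS L lam I ob.del ‖x‖ := fun x hx => by
    have := Gn_pos L √(2 * I) (1 - 2 * lam) 4 (x := x) (by linarith [r0 x hx, hp.hC])
    rw [(RS_eq L lam I ob.del x).1]
    positivity
  have sq : √ob.del ^ 2 = ob.del := Real.sq_sqrt d0.le
  have k3 := ((k1.cmul (-(lam * L ^ 2 / ob.del ^ 2 / (C2 * C)))).add (k2.cmul (C + 4))).congr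
    (B' := fun x => -(jj ob.del (x 2) * RS L lam I ob.del ‖x‖) / (C2 * C) + (C + 4) * Y x)
    (fun x _ => by rw [(RS_eq L lam I ob.del x).1]; ring) (fun _ _ => rfl) fun _ _ => rfl
  refine glE (v.sS.mono hD) k3 (v.locB hD).2.2.2 (v.l2 hD).2.2.2.2.2 (mf8_l2 hp h.hr)
    (fun x hx => ?_) ?_ ?_
  · have a1 := S0 x hx
    have a2 := (h.cy.pos x).1
    have a3 : jj ob.del (x 2) * RS L lam I ob.del ‖x‖ / (C2 * C) ≤
        (1 + ob.del * x 2 ^ 2) * RS L lam I ob.del ‖x‖ := by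
      refine le_trans ?_ (div_le_self (by positivity) CC)
      gcongr
      exact sub_le_self _ (by positivity)
    have a4 : 0 ≤ (C + 4) * Y x := by positivity
    rw [neg_div]
    linarith
  · filter_upwards [h.col, v.alg] with x h1 h2 c1 c2
    obtain ⟨a1, -, -, -, a2⟩ := h1 c1 c2
    have a3 := S0 x c1
    have a4 := (hyp_ineq (√ob.del * x 2)).2.2.1
    have a5 := Real.cosh_pos (√ob.del * x 2)
    rw [mul_pow, sq] at a4
    have a6 : jj ob.del (x 2) * RS L lam I ob.del ‖x‖ / (C2 * C) ≤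
        2 * Real.cosh (√ob.del * x 2) * RS L lam I ob.del ‖x‖ := by
      refine le_trans ?_ (div_le_self (by positivity) CC)
      gcongr
      exact (sub_le_self _ (by positivity)).trans a4
    have a7 := (le_abs_self _).trans h2.2.2.2.2.2.2.2.2
    have a8 := (h.cy.pos x).1
    rw [chR] at a2
    rw [neg_div]
    linarith
  · filter_upwards [v.eS, v.dom, h.dd, h.sm, ha] with x h1 h2 h3 h4 h5 hx _
    have x1 := r0 x hx
    have x0 : 0 < ‖x‖ := by linarith [hp.hC]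
    have f0 : 0 < fbar L lam I x := fb_pos _ _ _ _ _
    have e1 := abs_le.1 v.par.2.1
    have e2 := (abs_le.1 (h1 (by linarith))).1
    obtain ⟨u1, u2⟩ := h3 hx
    obtain ⟨u3, -, u4⟩ := h4 hx
    have u5 := b1 x hx v.δS (v.par.2.1.trans hp.l1)
    have u6 := b2 x hx
    have Y0 := (h.cy.pos x).1
    obtain ⟨w1, -, w3⟩ := RS_eq L lam I ob.del x
    rw [w3] at u2
    have u7 := mf8_err (S := RS L lam I ob.del ‖x‖) l0 hp.hC hC hC2 hL d0 (by linarith) hp.e0 x0 f0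
      Y0 (Real.exp_pos (-‖x‖ / 20)) rfl (by rw [RS, w3]) u2 h2.1
      (h2.2.2.2.2.1.trans h2.2.1) u3 (h5 hx) (h2.2.2.2.2.1.trans u4) (hr.trans (le_of_lt hx))
      m1.2.2.2.2.1 m2.2.1
    have u8 : ob.del ^ 2 * x 2 ^ 2 * RS L lam I ob.del ‖x‖ / (C2 * C) ≤
        lam * v.Dp * x 2 / ‖x‖ ^ 3 * v.d x := by
      have b0 : 0 ≤ x 2 ^ 2 * bb L lam I ‖x‖ := by rw [w3]; positivity
      have b3 : 0 ≤ x 2 * v.d x := le_of_mul_le_mul_left (by linarith) (by linarith : 0 < C)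
      calc _ = lam * L * (x 2 ^ 2 * bb L lam I ‖x‖) / ‖x‖ ^ 3 / (C2 * C) := by
            rw [RS]; field_simp
        _ ≤ lam * (C2 * v.Dp) * (C * (x 2 * v.d x)) / ‖x‖ ^ 3 / (C2 * C) := by
            gcongr
            · exact mul_nonneg l0.le (by linarith [v.par.2.2])
            · exact v.par.2.2
        _ = _ := by field_simp
    refine ⟨V L x + I + v.δS, _, ?_, (sub_sub_cancel _ (v.RS x)).le, ?_⟩
    · linarith [(V_ext hL (by linarith [h.hr, hp.hC]) hx).1, hp.hI.1, hp.l1]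
    · rw [Real.sq_sqrt (by linarith [hp.hI.1]), mul_div_cancel_left₀ _ two_ne_zero] at u5
      have u9 := mul_le_mul_of_nonneg_left u5
        (show 0 ≤ lam * L ^ 2 / ob.del ^ 2 / (C2 * C) by positivity)
      have u10 : (V L x + I + ob.del - C3 * lam) * Y x ≤ (V L x + I + v.δS) * Y x := by
        gcongr
        linarith
      have u11 := mul_le_mul_of_nonneg_left (u6.trans (add_le_add le_rfl u10))
        (show 0 ≤ C + 4 by positivity)
      rw [w1] at u7 u8 ⊢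
      generalize Gn L √(2 * I) (1 - 2 * lam) 4 x = G at *
      generalize lam * L ^ 2 / ob.del ^ 2 = A at *
      linear_combination u7 + u8 + u9 + u11 + e2

end

end Vale.Agent.P363
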