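import Vale.Agent.P363.MFA

/-! P363, block MF: assembling `FB`. -/

open MeasureTheory Set Metric Filter Topology
open scoped RealInnerProductSpace

namespace Vale.Agent.P363

noncomputable section

variable {c0 L : ℝ} {ob : OB c0 L} {lam r1 ε C2 C3 Cq I : ℝ} {N : E3 → ℝ} {gN : E3 → E3}

theorem mffb (v : VB ob lam r1 ε C2 C3 Cq I N gN) (hp : Par L lam C3 I ob.del) {r0 C4 C' : ℝ}
    (h1 : 2 * L ≤ r1) (h2 : L + r0 ≤ r1) (h3 : Cq ≤ C') (h4 : 1 ≤ C4) (h5 : C4 ≤ C')
    (hP : LocP (D L) N) (hs : v.Sl C') (hd : v.D4 r0 C4) :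
    Nonempty (FB L ob.del lam r1 C' I N gN) := by
  have hD : Ext r1 ⊆ D L := Ext_subset_D (by linarith [hp.hL]) (by linarith [hp.hL])
  have c1 : ∀ c : ℝ, Loc1 (Ext r1) fun _ => c := fun c K hK _ =>
    integrableOn_const hK.measure_lt_top.ne
  have c2 : ∀ c : ℝ, Loc1 (Ext r1) fun x => c * N x ^ 2 := fun c K _ _ =>
    (v.h.l2.integrable_sq.const_mul c).integrableOn
  have mo : ∀ {w R R' a : E3 → ℝ} {g : E3 → E3}, Sub (Ext r1) w g R → Loc1 (Ext r1) a →
      (∀ x, 0 ≤ a x) → (∀ x, R' x = R x - a x) → Sub (Ext r1) w g R' :=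
    fun {w R R' a g} h ha h0 e => h.monoR (fun K hK hKU =>
      ((h.li K hK hKU).sub (ha K hK hKU)).congr (ae_of_all _ fun x => (e x).symm))
      (ae_of_all _ fun x _ => by rw [e]; linarith [h0 x])
  have h0 : 0 ≤ C' - Cq := sub_nonneg.2 h3
  refine ⟨{
    d := v.d
    gd := v.gd
    q := fun x => v.X x ^ 2
    gq := v.gq
    ee := v.ee
    scr := v.scr hp h1
    ld := v.hd.l1 _
    sum := v.alg.mono fun x h => h.2.2.2.2.2.2.1
    nn := v.nq.mono fun x h => ⟨sq_nonneg _, h⟩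
    lee := v.lee
    sN := mo (v.sL fun K hK hKU => hP K hK (hKU.trans hD)) (c1 (C' - Cq)) (fun _ => h0)
      fun x => by ring
    sq := mo v.sq (c2 (C' - Cq)) (fun _ => by positivity) fun x => by ring
    sd := mo v.sd2 (c2 (C' - Cq)) (fun _ => by positivity) fun x => by ring
    slab := hs
    low := ?_ }⟩
  filter_upwards [hd, v.dom] with x a b hx hz
  exact (a (Ext_subset_Ext2 (by linarith [hp.hL]) h2 hx) hz).1.trans
    ((mul_le_mul_of_nonneg_left ((le_abs_self _).trans b.1) (by linarith)).trans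
      (mul_le_mul_of_nonneg_right h5 (v.nn x)))

end

end Vale.Agent.P363
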