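import Vale.Agent.P363.MFA

/-! P363, block MF: far bounds for `d`. -/

open MeasureTheory Set Metric Filter Topology
open scoped RealInnerProductSpace

namespace Vale.Agent.P363

noncomputable section

variable {c0 L : ℝ} {ob : OB c0 L} {lam r1 ε C2 C3 Cq I : ℝ} {N : E3 → ℝ} {gN : E3 → E3}

theorem mfcd (h : T_Bfar) : ∃ Cf : ℝ, 1 ≤ Cf ∧ ∀ {c0 L : ℝ} (ob : OB c0 L), 1 ≤ L → ∀ r0 : ℝ,
    ∀ᶠ r1 : ℝ in atTop, ∀ {lam ε C2 C3 Cq I N gN} (v : VB ob lam r1 ε C2 C3 Cq I N gN)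
      (C4 C5 : ℝ), Par L lam C3 I ob.del → 1 ≤ C4 → Cf * C4 ≤ C5 → v.D4 r0 C4 → v.Dd C5 := by
  obtain ⟨Cf, hCf, h⟩ := h
  refine ⟨Cf, hCf, fun {c0 L} ob hL r0 => ?_⟩
  have hδ : 0 < ob.del := sub_pos.2 ob.lt
  have hs : 0 < √ob.del := Real.sqrt_pos.2 hδ
  filter_upwards [h L hL, eventually_ge_atTop (L + r0), eventually_ge_atTop (8 * L / √ob.del),
    eventually_gt_atTop 0] with r1 hfar hr0 hr8 hrp
  intro lam ε C2 C3 Cq I N gN v C4 C5 hp hC4 hC5 hD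
  have hbb : ∀ x : E3, x ∈ Ext r1 → 0 < bb L lam I ‖x‖ := fun x hx => by
    have hx' : r1 < ‖x‖ := hx
    have : 0 < ‖x‖ := hrp.trans hx'
    unfold bb fb
    positivity
  have key : ∀ᵐ x : E3, x ∈ Ext r1 → 0 < x 2 → x 2 * bb L lam I ‖x‖ ≤ C5 * v.d x ∧
      v.d x ≤ C5 * (x 2 * bb L lam I ‖x‖ * Real.exp (√ob.del * x 2 / 2)) ∧ 0 ≤ v.d x := by
    filter_upwards [hD] with x hx hx1 hz
    have hx' : r1 < ‖x‖ := hx1
    have hn : 0 < ‖x‖ := hrp.trans hx'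
    obtain ⟨h1, h2⟩ := hx (Ext_subset_Ext2 (by linarith) hr0 hx1) hz
    obtain ⟨h3, h4, -⟩ := (hfar _ hp.hk _ hp.hc x hx'.le).1 hz.le
    have e : L * x 2 / ‖x‖ * fb L √(2 * I) (1 - 2 * lam) 0 ‖x‖ = x 2 * bb L lam I ‖x‖ := by
      unfold bb
      ring
    rw [e] at h3 h4
    have hb := mul_pos hz (hbb x hx1)
    have h5 : x 2 * bb L lam I ‖x‖ ≤ Cf * C4 * v.d x := by
      rw [mul_assoc]
      exact h3.trans (mul_le_mul_of_nonneg_left h1 (by linarith))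
    have hCC : 0 < Cf * C4 := by positivity
    have hd : 0 ≤ v.d x := ((mul_pos_iff_of_pos_left hCC).1 (hb.trans_le h5)).le
    refine ⟨h5.trans (mul_le_mul_of_nonneg_right hC5 hd), ?_, hd⟩
    have h6 : Real.exp (4 * L * x 2 / ‖x‖) ≤ Real.exp (√ob.del * x 2 / 2) := by
      refine Real.exp_le_exp.2 ?_
      rw [div_le_iff₀ hs] at hr8
      rw [div_le_div_iff₀ hn two_pos]
      have : 8 * L ≤ ‖x‖ * √ob.del := hr8.trans (mul_le_mul_of_nonneg_right hx'.le hs.le)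
      nlinarith
    calc v.d x ≤ C4 * (Cf * (x 2 * bb L lam I ‖x‖ * Real.exp (4 * L * x 2 / ‖x‖))) :=
          h2.trans (mul_le_mul_of_nonneg_left h4 (by linarith))
      _ = Cf * C4 * (x 2 * bb L lam I ‖x‖ * Real.exp (4 * L * x 2 / ‖x‖)) := by ring
      _ ≤ C5 * (x 2 * bb L lam I ‖x‖ * Real.exp (√ob.del * x 2 / 2)) :=
          mul_le_mul hC5 (mul_le_mul_of_nonneg_left h6 hb.le) (by positivity) (by linarith)
  filter_upwards [key, ae_sg key, v.sym, ae_coord_ne 2 0] with x k1 k2 hsym hne hx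
  rcases lt_or_gt_of_ne hne with hz | hz
  · have hx2 : sg x ∈ Ext r1 := by
      show r1 < ‖sg x‖
      rw [norm_sg]
      exact hx
    obtain ⟨a, b, c⟩ := k2 hx2 (by rw [sg_2]; linarith)
    rw [norm_sg, sg_2, hsym.1] at a b
    rw [hsym.1] at c
    refine ⟨?_, ?_⟩
    · nlinarith [mul_le_mul_of_nonneg_left a (neg_pos.2 hz).le]
    · rw [abs_of_nonpos (by linarith), abs_of_neg hz]
      exact b
  · obtain ⟨a, b, c⟩ := k1 hx hz
    refine ⟨?_, ?_⟩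
    · nlinarith [mul_le_mul_of_nonneg_left a hz.le]
    · rw [abs_of_nonneg c, abs_of_pos hz]
      exact b

end

end Vale.Agent.P363
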