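import Vale.Agent.P363.MFA

/-! P363, block MF: the collar. -/

open MeasureTheory Set Metric Filter Topology
open scoped RealInnerProductSpace

namespace Vale.Agent.P363

noncomputable section

variable {c0 L : ℝ} {ob : OB c0 L} {lam r1 ε C2 C3 Cq I : ℝ} {N : E3 → ℝ} {gN : E3 → E3}

theorem mfcol_sqrt {a b : ℝ} (ha : 1 / 4 ≤ a) (hb : 1 / 4 ≤ b) : |√a - √b| ≤ |a - b| := by
  have h1 : 1 / 2 ≤ √a := Real.le_sqrt_of_sq_le (by linarith)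
  have h2 : 1 / 2 ≤ √b := Real.le_sqrt_of_sq_le (by linarith)
  have e1 : √a ^ 2 = a := Real.sq_sqrt (by linarith)
  have e2 : √b ^ 2 = b := Real.sq_sqrt (by linarith)
  have e3 : a - b = (√a - √b) * (√a + √b) := by nlinarith
  rw [e3, abs_mul, abs_of_nonneg (by linarith : 0 ≤ √a + √b)]
  nlinarith [abs_nonneg (√a - √b)]

theorem mfcol_low {k ρ : ℝ} (hL : 1 ≤ L) (hk : k ∈ Icc (4 / 5 : ℝ) (6 / 5)) {x : E3}
    (h1 : x ∈ Ext2 L 1) (h2 : ‖x‖ ≤ ρ) :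
    Real.exp (-(6 / 5) * (ρ + L)) / (ρ + L) ≤ Ye L k 0 x := by
  have a1 := (Ye_crude hL hk h1).2
  have a2 := norm_nonneg x
  have a3 := Ye_pos L k 0 x
  have hρ : 0 < ρ + L := by linarith
  rw [div_le_iff₀ hρ]
  have a4 : Real.exp (-(6 / 5) * (ρ + L)) * Real.exp (k * L) ≤ Real.exp (-k * ‖x‖) := by
    rw [← Real.exp_add]
    apply Real.exp_le_exp.2
    nlinarith [hk.1, hk.2]
  have a5 := Real.exp_pos (k * L)
  have a6 : (‖x‖ + L) * Real.exp (k * L) * Ye L k 0 x ≤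
      (Ye L k 0 x * (ρ + L)) * Real.exp (k * L) := by
    have : (‖x‖ + L) * (Real.exp (k * L) * Ye L k 0 x) ≤
        (ρ + L) * (Real.exp (k * L) * Ye L k 0 x) :=
      mul_le_mul_of_nonneg_right (by linarith) (by positivity)
    linarith
  exact le_of_mul_le_mul_right (a4.trans (a1.trans a6)) a5

theorem mfcol_two {k k' ρ t : ℝ} (hL : 1 ≤ L) (hk : k ∈ Icc (4 / 5 : ℝ) (6 / 5))
    (hk' : k' ∈ Icc (4 / 5 : ℝ) (6 / 5)) {x : E3} (h1 : x ∈ Ext2 L 1) (h2 : ‖x‖ ≤ ρ)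
    (ht : |k - k'| ≤ 3 * t) (hs : 15 * (ρ + L) * t ≤ 1 / 2) : Ye L k 0 x ≤ 2 * Ye L k' 0 x := by
  refine (Ye_param hL hk hk' h1 h2).trans (mul_le_mul_of_nonneg_right ?_ (Ye_pos _ _ _ _).le)
  have hρ : 0 ≤ ρ + L := by linarith [norm_nonneg x]
  have a1 : 5 * |k - k'| * (ρ + L) ≤ 1 / 2 := by nlinarith
  exact (Real.exp_le_exp.2 a1).trans ((hyp_ineq 1).2.2.2.2.2 zero_le_one le_rfl).2.2

theorem mfcol_ch {δ ρ : ℝ} (hp : Par L lam C3 I δ) {x : E3} (h1 : 1 ≤ ‖x‖) (h2 : ‖x‖ ≤ ρ) :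
    chR L lam I δ x ≤ (Real.cosh ρ * L ^ 2 * (1 + ρ) ^ 2 / δ ^ 2) * lam := by
  have hz : |x 2| ≤ ‖x‖ := by
    have := PiLp.norm_apply_le x 2
    rwa [Real.norm_eq_abs] at this
  have s1 : √δ ≤ 1 := Real.sqrt_le_iff.2 ⟨zero_le_one, by linarith [hp.d1]⟩
  have c1 : Real.cosh (√δ * x 2) ≤ Real.cosh ρ := by
    rw [Real.cosh_le_cosh, abs_mul, abs_of_nonneg (Real.sqrt_nonneg δ),
      abs_of_nonneg (by linarith : 0 ≤ ρ)]
    nlinarith [abs_nonneg (x 2), Real.sqrt_nonneg δ]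
  have f1 := (fb_crude hp.hL hp.hk hp.hc h1).2
  have f2 : Real.exp (-√(2 * I) * ‖x‖) ≤ 1 :=
    Real.exp_le_one_iff.2 (by nlinarith [hp.hk.1])
  have f3 : (1 + ‖x‖) ^ 2 ≤ (1 + ρ) ^ 2 := pow_le_pow_left₀ (by linarith) (by linarith) 2
  have f4 : fb L √(2 * I) (1 - 2 * lam) 0 ‖x‖ ≤ (1 + ρ) ^ 2 := by
    refine f1.trans ?_
    have := mul_le_mul_of_nonneg_left f2 (sq_nonneg (1 + ‖x‖))
    linarith
  have g1 : Gn L √(2 * I) (1 - 2 * lam) 4 x ≤ (1 + ρ) ^ 2 :=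
    (div_le_self (fb_pos _ _ _ _ _).le (one_le_pow₀ h1)).trans f4
  have g0 := Gn_pos L √(2 * I) (1 - 2 * lam) 4 (x := x) (by linarith)
  have d0 := hp.d0
  have l0 := hp.l0
  unfold chR
  rw [(RS_eq L lam I δ x).1]
  calc _ ≤ Real.cosh ρ * (lam * L ^ 2 / δ ^ 2 * (1 + ρ) ^ 2) :=
        mul_le_mul c1 (mul_le_mul_of_nonneg_left g1 (by positivity)) (by positivity)
          (Real.cosh_pos _).le
    _ = _ := by ring

theorem mfcol_alg {C Ce C5 γ β ε g Y Z y0 yp ym a b c dT ch : ℝ} (hC : 1 ≤ C) (hCe : 1 ≤ Ce)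
    (hC5 : 4 * C * Ce ≤ C5) (γ1 : γ * (C * Ce) = β) (ε1 : 1 * ε ≤ γ / 2) (G0 : 0 < g) (Y0 : 0 < Y)
    (q1 : β ≤ y0) (q2 : β ≤ yp) (p1 : y0 ≤ 2 * yp) (p2 : ym ≤ 2 * y0) (g1 : y0 ≤ C * g)
    (g2 : g ≤ C * y0) (y1 : yp ≤ Ce * Y) (y2 : Z ≤ Ce * ym) (b1 : -ε ≤ dT - g) (b2 : a ≤ g + ε)
    (b3 : b ≤ g + ε) (b4 : c ≤ ε) (hch : ch ≤ γ) :
    a ≤ C5 * Y ∧ b ≤ C5 * Y ∧ c ≤ Y ∧ Z ≤ C5 * dT ∧ ch ≤ Y := by
  have hCC : 1 ≤ C * Ce := one_le_mul_of_one_le_of_one_le hC hCe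
  have w1 : γ ≤ g := by
    have t1 : C * g * 1 ≤ C * g * Ce := mul_le_mul_of_nonneg_left hCe (by positivity)
    exact le_of_mul_le_mul_right (a := C * Ce) (by linarith) (by linarith)
  have w2 : γ ≤ Y := by
    have t1 : Ce * Y * 1 ≤ Ce * Y * C := mul_le_mul_of_nonneg_left hC (by positivity)
    exact le_of_mul_le_mul_right (a := C * Ce) (by linarith) (by linarith)
  have w3 : g ≤ 2 * (C * Ce * Y) := by
    have := mul_le_mul_of_nonneg_left (p1.trans (mul_le_mul_of_nonneg_left y1 zero_le_two))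
      (by linarith : 0 ≤ C)
    linarith
  have w4 : Z ≤ 2 * (C * Ce * g) := by
    have := mul_le_mul_of_nonneg_left (p2.trans (mul_le_mul_of_nonneg_left g1 zero_le_two))
      (by linarith : 0 ≤ Ce)
    linarith
  have w5 : 1 * Y ≤ C * Ce * Y := mul_le_mul_of_nonneg_right hCC Y0.le
  have w6 : 4 * C * Ce * Y ≤ C5 * Y := mul_le_mul_of_nonneg_right hC5 Y0.le
  have w7 : g ≤ 2 * dT := by linarith
  have w8 : 4 * C * Ce * dT ≤ C5 * dT := mul_le_mul_of_nonneg_right hC5 (by linarith)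
  have w9 : C * Ce * g ≤ C * Ce * (2 * dT) := mul_le_mul_of_nonneg_left w7 (by linarith)
  exact ⟨by linarith, by linarith, by linarith, by linarith, by linarith⟩

theorem mfcol (ob : OB c0 L) {C r0 ω Ce : ℝ} (hb : OBb ob C r0 ω) (hω : ω ≤ 1 / 100) (hL : 1 ≤ L)
    (hC : 1 ≤ C) (hCe : 1 ≤ Ce) (hC3 : 1 ≤ C3) : ∀ᶠ r1 : ℝ in atTop, ∀ᶠ ε in 𝓝[>] (0 : ℝ),
      ∀ᶠ lam in 𝓝[>] (0 : ℝ), ∀ {C2 Cq I N gN} (v : VB ob lam r1 ε C2 C3 Cq I N gN)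
        (Y Z : E3 → ℝ) (C5 : ℝ), Par L lam C3 I ob.del → CY L lam C3 I ob.del r1 Ce Y Z →
          4 * C * Ce ≤ C5 → v.Col C5 Y Z := by
  have _ := hC3
  filter_upwards [eventually_ge_atTop (L + r0), eventually_ge_atTop (L + 1)] with r1 hr0 hr1
  set β := Real.exp (-(6 / 5) * (r1 + 1 + L)) / (r1 + 1 + L) with hβ
  have β0 : 0 < β := div_pos (Real.exp_pos _) (by linarith)
  have hCC : 1 ≤ C * Ce := one_le_mul_of_one_le_of_one_le hC hCe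
  set γ := β / (C * Ce) with hγ
  have γ0 : 0 < γ := div_pos β0 (by linarith)
  have γ1 : γ * (C * Ce) = β := div_mul_cancel₀ _ (by linarith)
  filter_upwards [lam_ev 1 (a := γ / 2) (by positivity), lam_ev 1 (a := 1) one_pos] with ε
    ⟨ε0, ε1, _⟩ ⟨_, ε2, _⟩
  filter_upwards [lam_ev (15 * (r1 + 1 + L)) (a := 1 / 2) (by norm_num),
    lam_ev (Real.cosh (r1 + 1) * L ^ 2 * (1 + (r1 + 1)) ^ 2 / ob.del ^ 2) γ0] with lam
    ⟨_, _, _, l1, _⟩ ⟨_, l2, _⟩ C2 Cq I N gN v Y Z C5 hp cy hC5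
  obtain ⟨a1, a2⟩ := abs_le.1 (hb.sg.trans hω)
  have hk0 : √(-2 * ob.eg) ∈ Icc (4 / 5 : ℝ) (6 / 5) :=
    mfa_sqrt_mem (by norm_num) (by linarith) (by linarith)
  have hs : |√(-2 * ob.eg) - √(2 * (I + ob.del))| ≤ eta lam / 2 := by
    refine (mfcol_sqrt (by linarith) (by linarith [hp.hI.1, hp.d0])).trans ?_
    have e1 : -2 * ob.eg - 2 * (I + ob.del) = -2 * (I + ob.eu) := by unfold OB.del; ring
    rw [e1, abs_mul]
    have := v.hI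
    have := hp.e2
    norm_num
    linarith
  obtain ⟨s1, s2⟩ := abs_le.1 hs
  have e0 := hp.e0
  have tp : |√(-2 * ob.eg) - kp lam I ob.del| ≤ 3 * eta lam := by
    unfold kp
    exact abs_le.2 ⟨by linarith, by linarith⟩
  have tm : |km lam I ob.del - √(-2 * ob.eg)| ≤ 3 * eta lam := by
    unfold km
    exact abs_le.2 ⟨by linarith, by linarith⟩
  filter_upwards [v.close] with x hx h1 h2
  have xE : x ∈ Ext r1 := h1
  have x1 : x ∈ Ext2 L 1 := Ext_subset_Ext2 (by linarith) hr1 xE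
  have x0 : x ∈ Ext2 L r0 := Ext_subset_Ext2 (by linarith) hr0 xE
  obtain ⟨_, b1, b2, b3, b4⟩ := hx ⟨by linarith, by linarith [x1.1], by linarith [x1.2]⟩
  obtain ⟨g1, g2⟩ := hb.two x x0
  obtain ⟨y1, y2⟩ := cy.cmp x xE
  obtain ⟨Y0, Z0⟩ := cy.pos x
  have p1 := mfcol_two hL hk0 hp.hp x1 h2.le tp l1
  have p2 := mfcol_two hL hp.hm hk0 x1 h2.le tm l1
  have q1 : β ≤ _ := mfcol_low hL hk0 x1 h2.le
  have q2 : β ≤ _ := mfcol_low hL hp.hp x1 h2.le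
  have G0 : 0 < ob.g x := ob.pg x (Ext2_subset_D zero_le_one x1)
  exact mfcol_alg hC hCe hC5 γ1 ε1 G0 Y0 q1 q2 p1 p2 g1 g2 y1 y2 (abs_le.1 b1).1 b2 b3 b4
    ((mfcol_ch hp (x := x) (by linarith) h2.le).trans l2)

end

end Vale.Agent.P363
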