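import Vale.Agent.P363.MFA

/-! P363, block MF: small terms. -/

open MeasureTheory Set Metric Filter Topology
open scoped RealInnerProductSpace

namespace Vale.Agent.P363

noncomputable section

variable {c0 L : ℝ} {ob : OB c0 L} {lam r1 ε C2 C3 Cq I : ℝ} {N : E3 → ℝ} {gN : E3 → E3}

theorem mfcs_key {δ Ce : ℝ} {Y Z : E3 → ℝ} (hp : Par L lam C3 I δ) (hr : L + 1 ≤ r1)
    (cy : CY L lam C3 I δ r1 Ce Y Z) {x : E3} (hx : x ∈ Ext r1) :
    Real.exp (-‖x‖ / 20) * fbar L lam I x ≤ 3072000 * Real.exp (6 / 5 * L) * Ce * Y x := by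
  have hL := hp.hL
  have hx' : r1 < ‖x‖ := hx
  have h1 := (fb_crude hL hp.hk hp.hc (show 1 ≤ ‖x‖ by linarith)).2
  have h2 := (Ye_crude hL hp.hp (Ext_subset_Ext2 (by linarith) hr hx)).2
  have h3 := (cy.cmp x hx).1
  have hk : kp lam I δ ≤ √(2 * I) + 1 / 40 := by
    have a1 : √(2 * (I + δ)) ≤ √(2 * I) + 1 / 40 := by
      rw [Real.sqrt_le_left (by positivity), add_sq, Real.sq_sqrt (by linarith [hp.hI.1])]
      linarith [hp.hk.1, hp.d1]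
    unfold kp
    linarith [hp.e0]
  have h4 : Real.exp (-‖x‖ / 20) * Real.exp (-√(2 * I) * ‖x‖) * Real.exp (‖x‖ / 40) ≤
      Real.exp (-kp lam I δ * ‖x‖) := by
    rw [← Real.exp_add, ← Real.exp_add]
    refine Real.exp_le_exp.2 ?_
    have := mul_le_mul_of_nonneg_right hk (norm_nonneg x)
    linarith
  have h5 : (1 + ‖x‖) ^ 2 * (‖x‖ + L) ≤ 3072000 * Real.exp (‖x‖ / 40) := by
    have a1 := Real.pow_div_factorial_le_exp (‖x‖ / 40) (by positivity) 3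
    have a2 : (1 + ‖x‖) ^ 2 * (‖x‖ + L) ≤ (2 * ‖x‖) ^ 2 * (2 * ‖x‖) := by
      gcongr <;> linarith
    norm_num [Nat.factorial] at a1
    linarith
  have h6 : Real.exp (kp lam I δ * L) ≤ Real.exp (6 / 5 * L) :=
    Real.exp_le_exp.2 (mul_le_mul_of_nonneg_right hp.hp.2 (by linarith))
  have hY := Ye_pos L (kp lam I δ) 0 x
  refine le_of_mul_le_mul_right ?_ (Real.exp_pos (‖x‖ / 40))
  calc Real.exp (-‖x‖ / 20) * fbar L lam I x * Real.exp (‖x‖ / 40)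
      ≤ Real.exp (-‖x‖ / 20) * ((1 + ‖x‖) ^ 2 * Real.exp (-√(2 * I) * ‖x‖)) *
        Real.exp (‖x‖ / 40) := by
        unfold fbar
        gcongr
    _ = (1 + ‖x‖) ^ 2 *
        (Real.exp (-‖x‖ / 20) * Real.exp (-√(2 * I) * ‖x‖) * Real.exp (‖x‖ / 40)) := by ring
    _ ≤ (1 + ‖x‖) ^ 2 * ((‖x‖ + L) * Real.exp (kp lam I δ * L) * Ye L (kp lam I δ) 0 x) :=
        mul_le_mul_of_nonneg_left (h4.trans h2) (by positivity)
    _ = (1 + ‖x‖) ^ 2 * (‖x‖ + L) * (Real.exp (kp lam I δ * L) * Ye L (kp lam I δ) 0 x) := by ring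
    _ ≤ 3072000 * Real.exp (‖x‖ / 40) * (Real.exp (6 / 5 * L) * (Ce * Y x)) := by gcongr
    _ = _ := by ring

theorem mfcs (ob : OB c0 L) (hL : 1 ≤ L) (hC : 1 ≤ C3) {ρ K1 K2 K3 Ce : ℝ} (h1 : 1 ≤ K1)
    (h2 : 1 ≤ K2) (h3 : 1 ≤ K3) (hCe : 1 ≤ Ce) : ∀ᶠ r1 : ℝ in atTop, ∀ᶠ lam in 𝓝[>] (0 : ℝ),
      ∀ {ε C2 Cq I N gN} (v : VB ob lam r1 ε C2 C3 Cq I N gN) (Y Z : E3 → ℝ),
        Par L lam C3 I ob.del → v.Bn ρ K1 → v.Bm ρ K2 → v.BX ρ K3 →
          CY L lam C3 I ob.del r1 Ce Y Z → v.Sm Y := by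
  obtain ⟨KL, hKL⟩ : ∃ KL, KL = 3072000 * Real.exp (6 / 5 * L) * Ce := ⟨_, rfl⟩
  have hK0 : 0 ≤ KL := by
    rw [hKL]
    positivity
  filter_upwards [eventually_ge_atTop ρ, eventually_ge_atTop (L + 1),
    eventually_ge_atTop (128 * K3)] with r1 a1 a2 a3
  filter_upwards [lam_ev (C3 * K1 * KL + (K2 * KL) ^ 2 + K3) (show (0 : ℝ) < 1 / 128 by norm_num)]
    with lam ⟨b1, b2, _, _, b3, _⟩ ε C2 Cq I N gN v Y Z hp hn hm hX cy
  have p1 : 0 ≤ C3 * K1 * KL * lam := by positivity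
  have p2 : 0 ≤ (K2 * KL) ^ 2 * lam := by positivity
  have p3 : 0 ≤ K3 * lam := by positivity
  have he := hp.e0
  filter_upwards [hn, hm, hX, v.alg] with x c1 c2 c3 c4 hx
  have hx' : r1 < ‖x‖ := hx
  have hxρ : x ∈ Ext ρ := lt_of_le_of_lt a1 hx'
  have key := mfcs_key hp a2 cy hx
  rw [← hKL] at key
  have hY := (cy.pos x).1
  refine ⟨?_, ?_, (c3 hxρ).trans ?_⟩
  · calc _ ≤ lam * C3 * Real.exp (-‖x‖ / 20) * (K1 * fbar L lam I x) :=
          mul_le_mul_of_nonneg_left (c1 hxρ) (by positivity)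
      _ = lam * C3 * K1 * (Real.exp (-‖x‖ / 20) * fbar L lam I x) := by ring
      _ ≤ lam * C3 * K1 * (KL * Y x) := mul_le_mul_of_nonneg_left key (by positivity)
      _ = C3 * K1 * KL * lam * Y x := by ring
      _ ≤ _ := mul_le_mul_of_nonneg_right (by linarith) hY.le
  · have d1 : v.m x ≤ K2 * (KL * Y x) :=
      (c2 hxρ).trans (mul_le_mul_of_nonneg_left key (by positivity))
    calc _ ≤ 2 * lam * (K2 * (KL * Y x)) ^ 2 :=
          mul_le_mul_of_nonneg_left (pow_le_pow_left₀ c4.2.2.2.2.1 d1 2) (by positivity)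
      _ = 2 * ((K2 * KL) ^ 2 * lam) * Y x ^ 2 := by ring
      _ ≤ _ := mul_le_mul_of_nonneg_right (by linarith) (sq_nonneg _)
  · have d0 : 0 < ‖x‖ := by linarith
    have d1 : K3 * (1 / ‖x‖) ≤ 1 / 128 := by
      rw [mul_one_div, div_le_iff₀ d0]
      linarith
    have d2 : 0 ≤ fbar L lam I x / ‖x‖ ^ 2 := div_nonneg (fb_pos _ _ _ _ _).le (sq_nonneg _)
    rw [mul_div_assoc, ← mul_assoc]
    exact mul_le_mul_of_nonneg_right (by linarith) d2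

end

end Vale.Agent.P363
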