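import Vale.Agent.P363.MFH

/-! P363, block MF: local positivity. -/

open MeasureTheory Set Metric Filter Topology
open scoped RealInnerProductSpace

namespace Vale.Agent.P363

noncomputable section

variable {c0 L : ℝ} {ob : OB c0 L} {lam r1 ε C2 C3 Cq I : ℝ} {N : E3 → ℝ} {gN : E3 → E3}

theorem mfp_near (hL : 1 ≤ L) {x : E3} (hx : rA L x ≤ 1 / 32) :
    0 < x 2 ∧ 1 ≤ rB L x ∧ ‖x‖ ≤ L + 1 := by
  have h1 := abs_coord_le (x - nA L) 2
  have h2 : (x - nA L) 2 = x 2 - L := by simp [nA, e_apply]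
  rw [h2] at h1
  have h3 : |x 2 - L| ≤ 1 / 32 := h1.trans hx
  have h4 : 0 < x 2 := by linarith [(abs_le.1 h3).1]
  have h5 := (rA_le_rB (by linarith : 0 ≤ L) h4.le).2
  have h6 := (abs_le.1 (abs_rA_sub (by linarith : 0 ≤ L) x).1).1
  exact ⟨h4, by linarith, by linarith⟩

theorem mfp_small (a : ℝ) (ha : 0 < a) : ∀ᶠ ε in 𝓝[>] (0 : ℝ), 0 < ε ∧ ε ≤ a :=
  Ioc_mem_nhdsGT ha

theorem mfhole (ob : OB c0 L) (hL : 1 ≤ L) (C3 : ℝ) : ∀ᶠ r1 : ℝ in atTop, ∀ᶠ ε in 𝓝[>] (0 : ℝ),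
    ∀ᶠ lam in 𝓝[>] (0 : ℝ), ∀ {C2 Cq I N gN} (_ : VB ob lam r1 ε C2 C3 Cq I N gN),
      Par L lam C3 I ob.del → ∃ c > 0, ∀ᵐ x : E3, x ∈ ball (nA L) (1 / 32) → c ≤ N x := by
  have hQ : IsCompact (closedBall (nA L) (1 / 32) ∩ {x | 1 / 64 ≤ rA L x}) :=
    (isCompact_closedBall _ _).inter_right (isClosed_le continuous_const (continuous_rA L).1)
  have mQ : ∀ x : E3, x ∈ closedBall (nA L) (1 / 32) ∩ {x | 1 / 64 ≤ rA L x} ↔
      rA L x ≤ 1 / 32 ∧ 1 / 64 ≤ rA L x := fun x => by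
    rw [mem_inter_iff, mem_closedBall, dist_eq_norm]; rfl
  generalize closedBall (nA L) (1 / 32) ∩ {x | 1 / 64 ≤ rA L x} = Q at hQ mQ
  have hQD : Q ⊆ D L := fun x hx => by
    obtain ⟨a, b⟩ := (mQ x).1 hx
    exact csg_mem_D.2 ⟨by linarith, by linarith [(mfp_near hL a).2.1]⟩
  obtain ⟨c, hc, hcu⟩ := hQ.exists_forall_le' (ob.cu.mono hQD) (a := 0)
    fun x hx => ob.pu x (hQD hx) (mfp_near hL ((mQ x).1 hx).1).1
  obtain ⟨M, hM0, hM⟩ : ∃ M, 0 ≤ M ∧ ∀ x ∈ Q, |ob.u x| ≤ M ∧ |ob.g x| ≤ M := by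
    obtain ⟨M1, h1⟩ := hQ.exists_bound_of_continuousOn (ob.cu.mono hQD)
    obtain ⟨M2, h2⟩ := hQ.exists_bound_of_continuousOn (ob.cg.mono hQD)
    exact ⟨max (max M1 M2) 0, le_max_right _ _, fun x hx =>
      ⟨(h1 x hx).trans ((le_max_left _ _).trans (le_max_left _ _)),
        (h2 x hx).trans ((le_max_right _ _).trans (le_max_left _ _))⟩⟩
  filter_upwards [eventually_ge_atTop (L + 1)] with r1 hr1
  filter_upwards [mfp_small (c / 2) (by positivity), mfp_small (1 / 64) (by norm_num)] with ε e1 e2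
  filter_upwards [lam_ev (4 * C3 * (2 * (M + 1))) (a := c / 2) (by positivity)] with lam hlam
  intro C2 Cq I N gN v hp
  have hB : ∀ x, 1 / 64 < rA L x → rA L x < 1 / 32 → x ∈ Q ∧ x ∈ Blk L (3 * r1) ε := by
    intro x a b
    obtain ⟨-, p2, p3⟩ := mfp_near hL b.le
    exact ⟨(mQ x).2 ⟨b.le, a.le⟩, by linarith, by linarith [e2.2], by linarith [e2.2]⟩
  have hK : (0 : ℝ) < 2 * (M + 1) := by positivity
  have h1 := mfh1 v hp hK (by
    filter_upwards [v.close, v.alg] with x hx ha a b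
    obtain ⟨q1, q2⟩ := hB x a b
    obtain ⟨k1, -, k3, k4, k5⟩ := hx q2
    obtain ⟨a1, a2, a3, -, -, a6, a7, -⟩ := ha
    obtain ⟨m1, m2⟩ := hM x q1
    have m3 := le_abs_self (ob.g x)
    have e3 := e2.2
    have b1 : |v.d x| ≤ M + 1 := by linarith [abs_sub_abs_le_abs_sub (v.d x) (ob.u x)]
    have c1 : v.d x ^ 2 ≤ (M + 1) ^ 2 := by
      rw [← sq_abs]; exact pow_le_pow_left₀ (abs_nonneg _) b1 2
    have c2 : v.a x ^ 2 ≤ (M + 1) ^ 2 := pow_le_pow_left₀ a1 (by linarith) 2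
    have c3 : v.b x ^ 2 ≤ (M + 1) ^ 2 := pow_le_pow_left₀ a2 (by linarith) 2
    have c4 : v.c x ^ 2 ≤ (M + 1) ^ 2 := pow_le_pow_left₀ a3 (by linarith) 2
    exact (abs_le_of_sq_le_sq' (by rw [mul_pow]; linarith) hK.le).2)
  have h2 := mfh2 v hp hK (c := c / 2) (by linarith [hlam.2.1]) h1 (by
    filter_upwards [v.close] with x hx a b
    obtain ⟨q1, q2⟩ := hB x a b
    linarith [(abs_le.1 (hx q2).1).1, hcu x q1, e1.2])
  refine ⟨c / 2, by positivity, ?_⟩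
  filter_upwards [h2, v.dom] with x a b hx
  linarith [a hx, b.1, le_abs_self (v.d x)]

theorem mfblk (ob : OB c0 L) (r1 : ℝ) : ∀ᶠ ε in 𝓝[>] (0 : ℝ),
    ∀ {lam C2 C3 Cq I N gN} (_ : VB ob lam r1 ε C2 C3 Cq I N gN),
      ∃ c > 0, ∀ᵐ x : E3, x ∈ Blk L (3 * r1) (1 / 32) → c ≤ N x := by
  have hD : Blk L (3 * r1) (1 / 32) ⊆ D L := Blk_subset_D (by norm_num)
  obtain ⟨c, hc, hcg⟩ := (isCompact_Blk L (3 * r1) (1 / 32)).exists_forall_le' (ob.cg.mono hD)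
    (a := 0) fun x hx => ob.pg x (hD hx)
  filter_upwards [mfp_small (c / 2) (by positivity), mfp_small (1 / 32) (by norm_num)] with ε e1 e2
  intro lam C2 C3 Cq I N gN v
  refine ⟨c / 2, by positivity, ?_⟩
  filter_upwards [v.close, v.dom] with x a b hx
  have h1 := (a ⟨hx.1, e2.2.trans hx.2.1, e2.2.trans hx.2.2⟩).2.1
  linarith [(abs_le.1 h1).1, hcg x hx, b.2.2.2.2.2.1, le_abs_self (v.dT x), e1.2]

theorem mfp_fb {k c r R : ℝ} (hL : 1 ≤ L) (hk : k ∈ Icc (4 / 5 : ℝ) (6 / 5))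
    (hc : c ∈ Icc (9 / 10 : ℝ) 1) (hr : 1 ≤ r) (hR : r ≤ R) :
    Real.exp (-(6 / 5) * R) / R ^ 2 ≤ fb L k c 0 r / r := by
  have h1 := (fb_crude hL hk hc hr).1
  have h2 : Real.exp (-(6 / 5) * R) ≤ Real.exp (-k * r) := by
    refine Real.exp_le_exp.2 ?_
    have := mul_le_mul hk.2 hR (by linarith) (by norm_num)
    linarith
  have h3 := fb_pos L k c 0 r
  rw [div_le_div_iff₀ (by nlinarith) (by linarith)]
  have h4 : r * r ≤ R ^ 2 := by nlinarith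
  have h5 := mul_le_mul_of_nonneg_right (h2.trans h1) (by linarith : 0 ≤ r)
  have h6 := mul_le_mul_of_nonneg_left h4 h3.le
  linarith

theorem mfp_low {δ r R : ℝ} (hp : Par L lam C3 I δ) (hr : 1 ≤ r) (hR : r ≤ R) :
    Real.exp (-(6 / 5) * R) / R ^ 2 ≤ bb L lam I r ∧
      Real.exp (-(6 / 5) * R) / R ^ 2 ≤ aa L lam I δ r := by
  have hL := hp.hL
  have h1 := mfp_fb hL hp.hk hp.hc hr hR
  have h2 := mfp_fb (c := 1) hL hp.hm ⟨by norm_num, le_rfl⟩ hr hR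
  have p1 := fb_pos L √(2 * I) (1 - 2 * lam) 0 r
  have p2 := fb_pos L (km lam I δ) 1 0 r
  have h3 : fb L √(2 * I) (1 - 2 * lam) 0 r / r ≤ bb L lam I r := by
    unfold bb
    rw [div_mul_eq_mul_div]
    exact div_le_div_of_nonneg_right (le_mul_of_one_le_left p1.le hL) (by linarith)
  have h4 : 0 ≤ RS L lam I δ r := by
    have := hp.l0
    have := hp.d0
    have : 0 < r := by linarith
    have : 0 < L := by linarith
    unfold RS bb
    positivity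
  have h5 : fb L (km lam I δ) 1 0 r / r ≤ RT L lam I δ r := div_le_self p2.le hr
  refine ⟨h1.trans h3, ?_⟩
  unfold aa
  linarith

theorem mflocp (v : VB ob lam r1 ε C2 C3 Cq I N gN) {C C' : ℝ} {Y Z : E3 → ℝ} (h : v.Cx C Y Z)
    (hC' : 1 ≤ C') (hs : v.Sl C')
    (h1 : ∃ c > 0, ∀ᵐ x : E3, x ∈ ball (nA L) (1 / 32) → c ≤ N x)
    (h2 : ∃ c > 0, ∀ᵐ x : E3, x ∈ Blk L (3 * r1) (1 / 32) → c ≤ N x) : LocP (D L) N := by
  intro K hK _
  obtain ⟨c1, hc1, h1⟩ := h1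
  obtain ⟨c2, hc2, h2⟩ := h2
  obtain ⟨R, hR0, hR⟩ := hK.isBounded.subset_closedBall_lt 0 (0 : E3)
  have hC := h.hC
  have hr1 : 1 ≤ r1 := by linarith [h.hr, h.par.hL, h.par.hC]
  have hβ : 0 < Real.exp (-(6 / 5) * R) / R ^ 2 := by positivity
  have low := fun r => mfp_low (r := r) (R := R) h.par
  generalize Real.exp (-(6 / 5) * R) / R ^ 2 = β at hβ low
  refine ⟨min (min c1 c2) (β / (C + C')), by positivity, ?_⟩
  have hb : ∀ x : E3, rA L x < 1 / 32 → x ∈ ball (nA L) (1 / 32) := fun x hx => by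
    rwa [mem_ball, dist_eq_norm]
  filter_upwards [h1, ae_sg h1, h2, h.dd, hs, ae_sg hs, v.dom, ae_coord_ne 2 0] with
    x a1 a2 a3 a4 a5 a6 a7 a8 hx
  have n0 := v.nn x
  by_cases cA : rA L x < 1 / 32
  · exact ((min_le_left _ _).trans (min_le_left _ _)).trans (a1 (hb x cA))
  by_cases cB : rB L x < 1 / 32
  · rw [← v.ev x]
    exact ((min_le_left _ _).trans (min_le_left _ _)).trans (a2 (hb _ (by rwa [rA_sg])))
  by_cases cr : ‖x‖ ≤ 3 * r1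
  · exact ((min_le_left _ _).trans (min_le_right _ _)).trans
      (a3 ⟨cr, not_lt.1 cA, not_lt.1 cB⟩)
  have hxe : r1 < ‖x‖ := by linarith [not_le.1 cr]
  obtain ⟨l1, l2⟩ := low ‖x‖ (by linarith) (mem_closedBall_zero_iff.1 (hR hx))
  refine (min_le_right _ _).trans ?_
  rw [div_le_iff₀ (by linarith)]
  have n1 := mul_nonneg (by linarith : 0 ≤ C) n0
  have n2 := mul_nonneg (by linarith : 0 ≤ C') n0
  by_cases cz : 1 ≤ |x 2|
  · have b1 := (a4 hxe).1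
    have b2 : x 2 * v.d x ≤ |x 2| * N x :=
      (le_abs_self _).trans (by rw [abs_mul]; exact mul_le_mul_of_nonneg_left a7.1 (abs_nonneg _))
    have b3 := mul_le_mul_of_nonneg_left b2 (by linarith : 0 ≤ C)
    rw [← sq_abs] at b1
    have b4 : |x 2| * (|x 2| * bb L lam I ‖x‖) ≤ |x 2| * (C * N x) := by linarith
    have b5 := le_of_mul_le_mul_left b4 (by linarith)
    have b6 := le_mul_of_one_le_left (by linarith : 0 ≤ bb L lam I ‖x‖) cz
    linarith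
  · have cz' := abs_lt.1 (not_le.1 cz)
    rcases lt_or_gt_of_ne a8 with hz | hz
    · have b1 := (a6 ⟨by rwa [norm_sg], by rw [sg_2]; linarith, by rw [sg_2]; linarith⟩).2.2.2
      rw [norm_sg, v.ev] at b1
      linarith
    · have b1 := (a5 ⟨hxe, hz, cz'.2⟩).2.2.2
      linarith

end

end Vale.Agent.P363
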