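import Vale.Agent.P363.MFA

/-! P363, block MF: the slab estimates. -/

open MeasureTheory Set Metric Filter Topology
open scoped RealInnerProductSpace

namespace Vale.Agent.P363

noncomputable section

variable {c0 L : ℝ} {ob : OB c0 L} {lam r1 ε C2 C3 Cq I : ℝ} {N : E3 → ℝ} {gN : E3 → E3}

theorem mfs_X {K C M W Y a b c X A s t : ℝ} (hK : 1 ≤ K) (hC : 1 ≤ C) (ha0 : 0 ≤ a)
    (hb0 : 0 ≤ b) (hc0 : 0 ≤ c) (hY : 0 ≤ Y) (hYW : Y ≤ W) (hW : W ≤ M * A) (ha : a ≤ K * W)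
    (hb : b ≤ C * Y) (hc : c ≤ s + W) (hs : s ^ 2 ≤ 4 * t) (hX : X ^ 2 = a ^ 2 + b ^ 2 + c ^ 2) :
    X ^ 2 ≤ (K ^ 2 + C ^ 2 + 2) * M ^ 2 * A ^ 2 + 8 * t := by
  have hW0 : 0 ≤ W := hY.trans hYW
  have h1 : a ^ 2 ≤ (K * W) ^ 2 := pow_le_pow_left₀ ha0 ha 2
  have h2 : b ^ 2 ≤ (C * W) ^ 2 :=
    pow_le_pow_left₀ hb0 (hb.trans (mul_le_mul_of_nonneg_left hYW (by linarith))) 2
  have h3 : c ^ 2 ≤ (s + W) ^ 2 := pow_le_pow_left₀ hc0 hc 2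
  have h4 : (s + W) ^ 2 ≤ 2 * s ^ 2 + 2 * W ^ 2 := by nlinarith [sq_nonneg (s - W)]
  have h5 : W ^ 2 ≤ (M * A) ^ 2 := pow_le_pow_left₀ hW0 hW 2
  have h6 : (K ^ 2 + C ^ 2 + 2) * W ^ 2 ≤ (K ^ 2 + C ^ 2 + 2) * (M * A) ^ 2 :=
    mul_le_mul_of_nonneg_left h5 (by positivity)
  nlinarith

theorem mfs_near {C C2 Y Z T S j sl dT dS N : ℝ} (hC : 1 ≤ C) (hC2 : 1 ≤ C2) (hT0 : 0 ≤ T)
    (hS0 : 0 ≤ S) (hsl0 : 0 ≤ sl) (hsl : 200 * C ^ 3 * sl ≤ 1) (hY : Y ≤ 100 * C * T)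
    (hZ : T ≤ C * Z) (hj : 1 / 2 ≤ j) (h1 : Z / C - sl * Y ≤ dT)
    (h2 : dS ≤ -(j * S) / (C2 * C) + (C + 4) * Y) (h3 : |dT| ≤ N) (h4 : |dS| ≤ N) :
    T + S ≤ (2 * C ^ 2 + 2 * C2 * C * (1 + 200 * C ^ 3 * (C + 4))) * N := by
  have hC0 : 0 < C := by linarith
  have hCC : 0 < C2 * C := by positivity
  have hN : 0 ≤ N := (abs_nonneg _).trans h3
  have a1 : dT ≤ N := (le_abs_self _).trans h3
  have a2 : -N ≤ dS := (abs_le.1 h4).1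
  have b1 : C ^ 2 * (Z / C) = C * Z := by field_simp
  have b2 : C ^ 2 * (sl * Y) ≤ C ^ 2 * (sl * (100 * C * T)) :=
    mul_le_mul_of_nonneg_left (mul_le_mul_of_nonneg_left hY hsl0) (by positivity)
  have b3 : 200 * C ^ 3 * sl * T ≤ 1 * T := mul_le_mul_of_nonneg_right hsl hT0
  have b4 : C ^ 2 * (Z / C - sl * Y) ≤ C ^ 2 * N :=
    mul_le_mul_of_nonneg_left (h1.trans a1) (by positivity)
  have hT : T ≤ 2 * C ^ 2 * N := by nlinarith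
  have c1 : j * S / (C2 * C) ≤ N + (C + 4) * Y := by
    rw [neg_div] at h2; linarith
  have c2 : (C + 4) * Y ≤ (C + 4) * (100 * C * (2 * C ^ 2 * N)) :=
    mul_le_mul_of_nonneg_left (hY.trans (mul_le_mul_of_nonneg_left hT (by positivity)))
      (by positivity)
  rw [div_le_iff₀ hCC] at c1
  have c3 : (N + (C + 4) * Y) * (C2 * C) ≤
      (N + (C + 4) * (100 * C * (2 * C ^ 2 * N))) * (C2 * C) :=
    mul_le_mul_of_nonneg_right (by linarith) hCC.le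
  have c4 : 1 / 2 * S ≤ j * S := mul_le_mul_of_nonneg_right hj hS0
  nlinarith

theorem mfs_far {C C2 Y T S j et dS N : ℝ} (hC : 1 ≤ C) (hC2 : 1 ≤ C2)
    (hS0 : 0 ≤ S) (het : 4 * C2 * C ^ 2 * (C + 4) * et ≤ 1) (hY : Y ≤ C * (et * S))
    (hT : T ≤ S) (hj : 1 / 2 ≤ j)
    (h2 : dS ≤ -(j * S) / (C2 * C) + (C + 4) * Y) (h4 : |dS| ≤ N) :
    T + S ≤ 8 * C2 * C * N := by
  have hC0 : 0 < C := by linarith
  have hCC : 0 < C2 * C := by positivity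
  have a2 : -N ≤ dS := (abs_le.1 h4).1
  have c1 : j * S / (C2 * C) ≤ N + (C + 4) * Y := by
    rw [neg_div] at h2; linarith
  have c2 : (C + 4) * Y ≤ (C + 4) * (C * (et * S)) := mul_le_mul_of_nonneg_left hY (by positivity)
  rw [div_le_iff₀ hCC] at c1
  have c3 : (N + (C + 4) * Y) * (C2 * C) ≤ (N + (C + 4) * (C * (et * S))) * (C2 * C) :=
    mul_le_mul_of_nonneg_right (by linarith) hCC.le
  have c4 : 1 / 2 * S ≤ j * S := mul_le_mul_of_nonneg_right hj hS0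
  have c5 : 4 * C2 * C ^ 2 * (C + 4) * et * S ≤ 1 * S := mul_le_mul_of_nonneg_right het hS0
  nlinarith

theorem mfs_pos {δ r : ℝ} (hL : 1 ≤ L) (hl0 : 0 < lam) (hδ0 : 0 < δ) (hr0 : 0 < r) :
    0 < bb L lam I r ∧ 0 < RS L lam I δ r ∧ 0 < RT L lam I δ r := by
  have hL0 : 0 < L := by linarith
  have hbb : 0 < bb L lam I r := mul_pos (div_pos hL0 hr0) (fb_pos _ _ _ _ _)
  refine ⟨hbb, ?_, fb_pos _ _ _ _ _⟩
  unfold RS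
  positivity

theorem mfs_geo {δ : ℝ} {x : E3} (hL : 1 ≤ L) (hl0 : 0 < lam) (hδ0 : 0 < δ) (hδ : δ ≤ 1 / 50)
    (hr0 : 0 < ‖x‖) (hz0 : 0 < x 2) (hz1 : x 2 < 1) :
    1 / 2 ≤ jj δ (x 2) ∧ 0 ≤ chR L lam I δ x ∧ chR L lam I δ x ≤ 2 * RS L lam I δ ‖x‖ ∧
      (√lam * shB L lam I δ x) ^ 2 ≤ 4 * (lam / ‖x‖ ^ 2 * (x 2 * bb L lam I ‖x‖) ^ 2) ∧
      Real.exp (√δ * x 2 / 2) ≤ 2 := by
  obtain ⟨hbb, hRS, -⟩ := mfs_pos (I := I) hL hl0 hδ0 hr0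
  have hsq0 : 0 < √δ := Real.sqrt_pos.2 hδ0
  have hsq1 : √δ ≤ 1 := Real.sqrt_le_one.2 (by linarith)
  have ht0 : 0 ≤ √δ * x 2 := by positivity
  have ht1 : √δ * x 2 ≤ 1 := mul_le_one₀ hsq1 hz0.le hz1.le
  obtain ⟨hsh, hch, hex⟩ := (hyp_ineq (√δ * x 2)).2.2.2.2.2 ht0 ht1
  refine ⟨?_, mul_nonneg (Real.cosh_pos _).le hRS.le, mul_le_mul_of_nonneg_right hch hRS.le, ?_,
    hex⟩
  · unfold jj
    have : 0 ≤ δ * x 2 ^ 2 := by positivity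
    linarith
  · have hsB0 : 0 ≤ shB L lam I δ x :=
      mul_nonneg (div_nonneg (Real.sinh_nonneg_iff.2 ht0) hsq0.le) (div_nonneg hbb.le hr0.le)
    have hsB : shB L lam I δ x ≤ 2 * (x 2 * bb L lam I ‖x‖) / ‖x‖ := by
      have q1 : Real.sinh (√δ * x 2) / √δ ≤ 2 * x 2 := by
        rw [div_le_iff₀ hsq0]; linarith
      refine (mul_le_mul_of_nonneg_right q1 (div_nonneg hbb.le hr0.le)).trans (le_of_eq ?_)
      ring
    rw [mul_pow, Real.sq_sqrt hl0.le]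
    refine (mul_le_mul_of_nonneg_left (pow_le_pow_left₀ hsB0 hsB 2) hl0.le).trans (le_of_eq ?_)
    ring

theorem mfs_d {C C' z b d ex : ℝ} (hC : 1 ≤ C) (hC' : 2 * C ≤ C') (hz : 0 < z) (hb : 0 < b)
    (hex : ex ≤ 2) (h1 : z ^ 2 * b ≤ C * (z * d)) (h2 : |d| ≤ C * (z * b * ex)) :
    z * b ≤ C' * d ∧ d ≤ C' * (z * b) := by
  have hC0 : 0 < C := by linarith
  have hzb : 0 < z * b := mul_pos hz hb
  have hd3 : z * b ≤ C * d := by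
    refine le_of_mul_le_mul_left ?_ hz
    linarith
  have hd0 : 0 < d := (mul_pos_iff_of_pos_left hC0).1 (hzb.trans_le hd3)
  refine ⟨hd3.trans (mul_le_mul_of_nonneg_right (by linarith) hd0.le), ?_⟩
  have h3 := mul_le_mul_of_nonneg_left (mul_le_mul_of_nonneg_left hex hzb.le) hC0.le
  have h4 : 2 * C * (z * b) ≤ C' * (z * b) := mul_le_mul_of_nonneg_right hC' hzb.le
  linarith [le_abs_self d]

theorem mfs_W {C Y F T S ch et : ℝ} (hC : 1 ≤ C) (hT : 0 ≤ T) (hS : 0 ≤ S) (het : et ≤ 1)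
    (hY : Y ≤ C * F) (hch : ch ≤ 2 * S) (hF : F ≤ 100 * T ∨ F ≤ et * S) :
    Y + ch ≤ (100 * C + 2) * (T + S) := by
  have hC0 : 0 < C := by linarith
  have q1 : 0 ≤ C * T := by positivity
  have q2 : 0 ≤ C * S := by positivity
  rcases hF with h1 | h1
  · have := mul_le_mul_of_nonneg_left h1 hC0.le
    linarith
  · have := mul_le_mul_of_nonneg_left (h1.trans (mul_le_of_le_one_left hS het)) hC0.le
    linarith

theorem mfs_C0 {C2 C K C' : ℝ} (hC2 : 1 ≤ C2) (hC : 1 ≤ C)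
    (h : (K ^ 2 + C ^ 2 + 2) * (100 * C + 2) ^ 2 + 8 + 2 * C +
      (2 * C ^ 2 + 2 * C2 * C * (1 + 200 * C ^ 3 * (C + 4))) + 8 * C2 * C ≤ C') :
    (K ^ 2 + C ^ 2 + 2) * (100 * C + 2) ^ 2 ≤ C' ∧ 8 ≤ C' ∧ 2 * C ≤ C' ∧
      2 * C ^ 2 + 2 * C2 * C * (1 + 200 * C ^ 3 * (C + 4)) ≤ C' ∧ 8 * C2 * C ≤ C' := by
  have hC0 : 0 < C := by linarith
  have p1 : 0 ≤ (K ^ 2 + C ^ 2 + 2) * (100 * C + 2) ^ 2 := by positivity
  have p2 : 0 ≤ 2 * C ^ 2 + 2 * C2 * C * (1 + 200 * C ^ 3 * (C + 4)) := by positivity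
  have p3 : 0 ≤ 8 * C2 * C := by positivity
  generalize (K ^ 2 + C ^ 2 + 2) * (100 * C + 2) ^ 2 = A at *
  generalize 2 * C ^ 2 + 2 * C2 * C * (1 + 200 * C ^ 3 * (C + 4)) = B at *
  generalize 8 * C2 * C = D at *
  refine ⟨?_, ?_, ?_, ?_, ?_⟩ <;> linarith

theorem mfs (h : T_Bcmp) {C2 C K : ℝ} (hC2 : 1 ≤ C2) (hC : 1 ≤ C) (hK : 1 ≤ K) :
    ∃ C0 : ℝ, 1 ≤ C0 ∧ ∀ {c0 L : ℝ} (ob : OB c0 L), 1 ≤ L → ob.del ≤ 1 / 50 →
      ∀ᶠ lam in 𝓝[>] (0 : ℝ), ∀ {r1 ε C3 Cq I N gN} (v : VB ob lam r1 ε C2 C3 Cq I N gN)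
        (Y Z : E3 → ℝ) (C' : ℝ), C0 ≤ C' → v.Cx C Y Z → v.Bb C Y → v.Ba K Y → v.Bc Y →
          v.BT C Y Z → v.BS C Y → v.Sl C' := by
  have hC0 : 0 < C := by linarith
  refine ⟨(K ^ 2 + C ^ 2 + 2) * (100 * C + 2) ^ 2 + 8 + 2 * C +
    (2 * C ^ 2 + 2 * C2 * C * (1 + 200 * C ^ 3 * (C + 4))) + 8 * C2 * C,
    le_trans (by norm_num) (mfs_C0 hC2 hC le_rfl).2.1, fun {c0 L} ob hL hδ => ?_⟩
  have hδ0 : 0 < ob.del := sub_pos.2 ob.lt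
  filter_upwards [h L hL ob.del hδ0 (by linarith), lam_ev (200 * C ^ 3) one_pos,
    lam_ev (4 * C2 * C ^ 2 * (C + 4)) one_pos] with lam hB hl1 hl2 r1 ε C3 Cq I N gN v Y Z C' hC'
    hx hb ha hc hT hS
  obtain ⟨c1, c2, c3, c4, c5⟩ := mfs_C0 hC2 hC hC'
  have hl0 := hl1.1
  have hpar := hx.par
  have hrr : 1 ≤ r1 := by
    have := hx.hr
    have := hpar.hC
    clear hC' c1 c2 c3 c4 c5
    linarith
  have he1 : eta lam ≤ 1 := hpar.e1.trans (by norm_num)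
  filter_upwards [hx.dd, hb, ha, hc, hT, hS, v.dom, v.alg] with x hd hb ha hc hT hS hdom halg hxs
  obtain ⟨hx1, hz0, hz1⟩ := id hxs
  have hxe : x ∈ Ext r1 := hx1
  have hr1 : 1 ≤ ‖x‖ := hrr.trans hx1.le
  have hr0 : 0 < ‖x‖ := one_pos.trans_le hr1
  obtain ⟨hbb, hRS, hRT⟩ := mfs_pos (I := I) hL hl0 hδ0 hr0
  obtain ⟨hj, hch0, hch2, hs, hex⟩ := mfs_geo (I := I) hL hl0 hδ0 hδ hr0 hz0 hz1
  have hN : 0 ≤ N x := v.nn x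
  obtain ⟨hd1, hd2⟩ := hd hxe
  rw [abs_of_pos hz0] at hd2
  obtain ⟨g1, g2⟩ := mfs_d hC c3 hz0 hbb hex hd1 hd2
  obtain ⟨hY, hZ⟩ := hx.cy.sl x hxs
  have hY0 := (hx.cy.pos x).1
  obtain ⟨hB1, hB2⟩ := hB I hpar.hI ‖x‖ hr1
  refine ⟨g1, g2, ?_, ?_⟩
  · have hW := mfs_W hC hRT.le hRS.le he1 hY hch2
      ((le_total ‖x‖ (1 / eta lam)).imp hB1 fun h1 => (hB2 h1).1)
    have hX := mfs_X hK hC halg.1 halg.2.1 halg.2.2.1 hY0.le (le_add_of_nonneg_right hch0) hW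
      (ha hxe) (hb hxe) (hc hxe hz0) hs halg.2.2.2.2.2.1
    rw [mul_add]
    exact hX.trans (add_le_add (mul_le_mul_of_nonneg_right c1 (sq_nonneg _))
      (mul_le_mul_of_nonneg_right c2 (mul_nonneg (div_nonneg hl0.le (sq_nonneg _)) (sq_nonneg _))))
  · rcases le_total ‖x‖ (1 / eta lam) with h1 | h1
    · have hn := hY.trans (mul_le_mul_of_nonneg_left (hB1 h1) hC0.le)
      rw [← mul_assoc, mul_comm C 100] at hn
      exact (mfs_near hC hC2 hRT.le hRS.le (Real.sqrt_nonneg _) hl1.2.2.1 hn hZ hj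
        (hT hxe) (hS hxe) hdom.2.2.2.2.2.1 hdom.2.2.2.2.2.2).trans
        (mul_le_mul_of_nonneg_right c4 hN)
    · exact (mfs_far hC hC2 hRS.le hl2.2.2.2.1
        (hY.trans (mul_le_mul_of_nonneg_left (hB2 h1).1 hC0.le))
        ((hB2 h1).2.trans (mul_le_of_le_one_left hRS.le he1)) hj
        (hS hxe) hdom.2.2.2.2.2.2).trans (mul_le_mul_of_nonneg_right c5 hN)

end

end Vale.Agent.P363
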