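import Vale.Agent.P363.MFA

/-! P363, block MF: the even barriers. -/

open MeasureTheory Set Metric Filter Topology
open scoped RealInnerProductSpace

namespace Vale.Agent.P363

noncomputable section

variable {c0 L : ℝ} {ob : OB c0 L} {lam r1 ε C2 C3 Cq I : ℝ} {N : E3 → ℝ} {gN : E3 → E3}

theorem mfy_pos (L k A : ℝ) (x : E3) : 0 < Ye L k A x :=
  add_pos (Real.exp_pos _) (Real.exp_pos _)

theorem mfy_k {δ : ℝ} (hp : Par L lam C3 I δ) :
    eta lam + kp lam I δ ^ 2 / 2 ≤ I + δ - C3 * lam ∧ I + δ + C3 * lam ≤ km lam I δ ^ 2 / 2 := by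
  have h0 : 0 ≤ 2 * (I + δ) := by linarith [hp.hI.1, hp.d0]
  have h1 := Real.sq_sqrt h0
  have h2 : 4 / 5 ≤ √(2 * (I + δ)) := Real.le_sqrt_of_sq_le (by linarith [hp.hI.1, hp.d0])
  have e0 := hp.e0
  have e1 := hp.e1
  have e2 := hp.e2
  unfold kp km
  generalize √(2 * (I + δ)) = q at h1 h2
  generalize eta lam = t at e0 e1 e2
  have h3 : 4 / 5 * t ≤ q * t := mul_le_mul_of_nonneg_right h2 e0.le
  have h4 : t * t ≤ 1 / 100 * t := mul_le_mul_of_nonneg_right e1 e0.le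
  have h5 : 0 ≤ t * t := mul_self_nonneg t
  constructor <;> nlinarith

theorem mfy (h1 : T_Beven) (h2 : T_Bfar) : ∃ Ce : ℝ, 1 ≤ Ce ∧ ∀ᶠ L : ℝ in atTop,
    ∀ᶠ r1 : ℝ in atTop, ∀ lam C3 I δ : ℝ, Par L lam C3 I δ →
      ∃ Y Z, CY L lam C3 I δ r1 Ce Y Z := by
  obtain ⟨A, -, h1⟩ := h1
  obtain ⟨r0, hr0, Ce, hCe, h1⟩ := ((eventually_ge_atTop (1 : ℝ)).and h1).exists
  obtain ⟨Cf, hCf, h2⟩ := h2
  have hC : Ce * Cf ≤ 3 * Ce * Cf := by nlinarith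
  have hC1 : Ce ≤ 3 * Ce * Cf := by nlinarith
  refine ⟨3 * Ce * Cf, hCe.trans hC1, ?_⟩
  filter_upwards [h1, eventually_ge_atTop (1 : ℝ)] with L h1 hL
  filter_upwards [h2 L hL, eventually_ge_atTop (L + r0), eventually_ge_atTop (4 * L)] with
    r1 h2 ha hb lam C3 I δ hp
  obtain ⟨g, l, c1, c2⟩ := h1 _ hp.hp 1 (Or.inl rfl)
  obtain ⟨g', l', d1, d2⟩ := h1 _ hp.hm (-1) (Or.inr rfl)
  have s1 : Ext r1 ⊆ Ext2 L r0 := Ext_subset_Ext2 (by linarith) ha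
  have s2 : Ext r1 ⊆ D L := Ext_subset_D (by linarith) (by linarith)
  have s3 : Ext r1 ⊆ Ext2 L 1 := Ext_subset_Ext2 (by linarith) (by linarith)
  obtain ⟨k1, k2⟩ := mfy_k hp
  have hc : (1 : ℝ) ∈ Icc (9 / 10 : ℝ) 1 := ⟨by norm_num, le_rfl⟩
  refine ⟨Ye L (kp lam I δ) (1 * A), Ye L (km lam I δ) (-1 * A),
    ⟨g, l, c1.mono (isOpen_Ext _) s2, fun x hx => ?_⟩,
    ⟨g', l', d1.mono (isOpen_Ext _) s2, fun x hx => ?_⟩,
    fun x => ⟨mfy_pos _ _ _ _, mfy_pos _ _ _ _⟩, ?_, fun x hx => ⟨?_, ?_⟩, fun x hx => ⟨?_, ?_⟩⟩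
  · have a1 := (c2 x (s1 hx)).1
    have a2 := mfy_pos L (kp lam I δ) (1 * A) x
    have a3 : 0 ≤ 3 / min (rA L x) (rB L x) ^ 2 * Ye L (kp lam I δ) (1 * A) x := by positivity
    have a4 := mul_le_mul_of_nonneg_right k1 a2.le
    linarith
  · have a1 := (d2 x (s1 hx)).1
    have a2 := mfy_pos L (km lam I δ) (-1 * A) x
    have a3 : 0 ≤ 3 / min (rA L x) (rB L x) ^ 2 * Ye L (km lam I δ) (-1 * A) x := by positivity
    have a4 := mul_le_mul_of_nonneg_right k2 a2.le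
    linarith
  · refine memLp_exp_decay (a := km lam I δ)
      (M := Ce * (2 * (1 + L) ^ 2 * Real.exp (km lam I δ * L))) 2 (by linarith [hp.hm.1])
      ((d1.cont.1.mono s2).aestronglyMeasurable (isOpen_Ext _).measurableSet)
      (isOpen_Ext _).measurableSet (ae_of_all _ fun x hx => ?_)
    rw [abs_of_pos (mfy_pos _ _ _ _)]
    refine (d2 x (s1 hx)).2.1.trans ((mul_le_mul_of_nonneg_left (Ye_crude hL hp.hm (s3 hx)).1
      (by linarith)).trans (le_of_eq ?_))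
    ring
  · exact (c2 x (s1 hx)).2.2.1.trans (mul_le_mul_of_nonneg_right hC1 (mfy_pos _ _ _ _).le)
  · exact (d2 x (s1 hx)).2.1.trans (mul_le_mul_of_nonneg_right hC1 (mfy_pos _ _ _ _).le)
  · have a0 : r1 < ‖x‖ := hx.1
    have a1 := (c2 x (s1 a0)).2.1
    have a2 := (h2 _ hp.hp 1 hc x a0.le).2.2
    have a3 : 4 * L * |x 2| / ‖x‖ ≤ 1 := by
      rw [div_le_one (by linarith), abs_of_pos hx.2.1]
      nlinarith [hx.2.2, hx.2.1]
    have a4 : Real.exp (4 * L * |x 2| / ‖x‖) ≤ 3 :=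
      (Real.exp_le_exp.2 a3).trans (by linarith [Real.exp_one_lt_d9])
    have a5 : 0 < fb L (kp lam I δ) 1 0 ‖x‖ := Real.exp_pos _
    refine a1.trans ((mul_le_mul_of_nonneg_left (a2.trans (mul_le_mul_of_nonneg_left
      (mul_le_mul_of_nonneg_left a4 a5.le) (by linarith))) (by linarith)).trans (le_of_eq ?_))
    ring
  · have a0 : r1 < ‖x‖ := hx.1
    have a1 := (d2 x (s1 a0)).2.2.1
    have a2 := (h2 _ hp.hm 1 hc x a0.le).2.1
    refine le_trans a2 ((mul_le_mul_of_nonneg_left a1 (by linarith)).trans ?_)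
    rw [← mul_assoc, mul_comm Cf]
    exact mul_le_mul_of_nonneg_right hC (mfy_pos _ _ _ _).le

end

end Vale.Agent.P363
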