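import Vale.Agent.P363.MF1
import Vale.Agent.P363.MF2
import Vale.Agent.P363.MF3
import Vale.Agent.P363.MF4
import Vale.Agent.P363.MF5
import Vale.Agent.P363.MF6
import Vale.Agent.P363.MF7
import Vale.Agent.P363.MF8
import Vale.Agent.P363.MFY
import Vale.Agent.P363.MFCol
import Vale.Agent.P363.MFCd
import Vale.Agent.P363.MFCs
import Vale.Agent.P363.MFS
import Vale.Agent.P363.MFP
import Vale.Agent.P363.MFB

/-! P363, block MF. -/

open MeasureTheory Set Metric Filter Topology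
open scoped RealInnerProductSpace

namespace Vale.Agent.P363

theorem vf_main (h : T_B) : T_VF := by
  obtain ⟨hE, hO, hF, hR, hP⟩ := h
  intro c0 _ _
  obtain ⟨Ce, hCe, HY⟩ := mfy hE hF
  obtain ⟨Cf, hCf, HD⟩ := mfcd hF
  filter_upwards [mf4 hO] with r0 H4 C C2 Cq hC hC2 hCq
  obtain ⟨C4, hC4, H4⟩ := H4 C hC
  have p1 : 0 ≤ 4 * C * Ce := by positivity
  have p2 : 0 ≤ Cf * C4 := by positivity
  obtain ⟨C5, e5⟩ : ∃ C5, C5 = 4 * C * Ce + Cf * C4 + Ce := ⟨_, rfl⟩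
  have hC5 : 1 ≤ C5 := by linarith
  have hK : 1 ≤ 200 * C2 * C5 := by nlinarith
  obtain ⟨C0, hC0, HS⟩ := mfs hP hC2 hC5 hK
  refine ⟨C0 + Cq + C4, by linarith, ?_⟩
  filter_upwards [nhdsWithin_le_nhds (Iic_mem_nhds (show (0 : ℝ) < 1 / 100 by norm_num))] with ω hω
  filter_upwards [HY, H4, eventually_ge_atTop 1] with L HY H4 hL ob hb C3 hC3
  have hω : ω ≤ 1 / 100 := hω
  have g1 := hb.sg.trans hω
  have g2 := hb.su.trans hω
  have hd : ob.del ≤ 1 / 50 := by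
    have := abs_le.1 g1
    have := abs_le.1 g2
    unfold OB.del
    linarith
  obtain ⟨ρ, ⟨K1, hK1, F1⟩, F2, F3⟩ :=
    ((mf1 hR ob hL hC3).and ((mf2 hR ob hL hC3).and (mf3 ob hL hC3 hd))).exists
  obtain ⟨K2, hK2, F2⟩ := F2 K1 hK1
  obtain ⟨K3, hK3, F3⟩ := F3 K1 hK1
  filter_upwards [HY, H4 ob hb C3 ρ K3 hC3 (hK1.trans hK3), HD ob hL r0,
    mfcol ob hb hω hL hC hCe hC3, mfcs ob hL hC3 (ρ := ρ) hK1 (hK1.trans hK2) (hK1.trans hK3) hCe,
    mf5 ob hL hd, mf6 ob hL hd C3 C5 (200 * C2 * C5), mf8 ob hL hd hC2 hC5 C3 (200 * C2 * C5),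
    mfhole ob hL C3, eventually_ge_atTop (100 * L + C3), eventually_ge_atTop (L + r0)]
    with r1 HY H4 HD Hc Hs F5 F6 F8 Hh r1a r1b
  filter_upwards [H4, Hc, Hh, mfblk ob r1] with ε H4 Hc Hh Hb
  filter_upwards [H4, Hc, Hh, Hs, F6, F8, mf7 ob C3 C5, HS ob hL hd, par_ev ob hL hC3 g1 g2]
    with lam H4 Hc Hh Hs F6 F8 F7 HS Hp I N gN hv
  obtain ⟨v⟩ := hv
  have par := Hp I v.hI
  obtain ⟨Y, Z, cy⟩ := HY lam C3 I _ par
  have b1 := F1 v par
  have b3 := F3 v par b1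
  have d4 := H4 v par b3
  have cx : v.Cx C5 Y Z := ⟨par, hC5, hC2, r1a, cy.mono (by linarith),
    Hc v Y Z C5 par cy (by linarith), HD v C4 C5 par hC4 (by linarith) d4,
    Hs v Y Z par b1 (F2 v par b1) b3 cy⟩
  have bb := mfb v cx
  have ba := F5 v C5 Y Z cx
  have sl := HS v Y Z (C0 + Cq + C4) (by linarith) cx bb ba (F6 v Y Z cx ba) (F7 v Y Z cx bb)
    (F8 v Y Z cx ba)
  have lp := mflocp v cx (by linarith) sl (Hh v par) (Hb v)
  exact ⟨lp, mffb v par (by linarith) r1b (by linarith) hC4 (by linarith) lp sl d4⟩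

end Vale.Agent.P363
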