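import Vale.Agent.P363.MVc2

/-! P363, block MV: closeness of the scalar quantities. -/

open MeasureTheory Set Metric Filter Topology
open scoped RealInnerProductSpace

namespace Vale.Agent.P363

noncomputable section

/-- The `L²` norm. -/
def mvc3_n (f : E6 → ℝ) : ℝ := √(∫ y, f y ^ 2)

theorem mvc3_smul (a : ℝ) (f : E6 → ℝ) : mvc3_n (fun y => a * f y) = |a| * mvc3_n f := by
  unfold mvc3_n
  simp only [mul_pow]
  rw [integral_const_mul, Real.sqrt_mul (sq_nonneg a), Real.sqrt_sq_eq_abs]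

theorem mvc3_n2 {f g h : E6 → ℝ} (hf : MemLp f 2 volume) (hg : MemLp g 2 volume) (a b : ℝ)
    (e : ∀ y, h y = a * f y + b * g y) :
    MemLp h 2 volume ∧ mvc3_n h ≤ |a| * mvc3_n f + |b| * mvc3_n g := by
  obtain rfl : h = fun y => a * f y + b * g y := funext e
  refine ⟨(hf.const_mul a).add (hg.const_mul b), ?_⟩
  rw [← mvc3_smul, ← mvc3_smul]
  exact (tri_integral (hf.const_mul a) (hg.const_mul b)).1

theorem mvc3_prj {P f : E6 → ℝ} (hP : MemLp P 2 volume) (hf : MemLp f 2 volume)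
    (nP : ∫ y, P y * P y = 1) (s : ℝ) :
    |(∫ y, P y * f y) - s| ≤ mvc3_n fun y => f y - s * P y := by
  have h1 := cs_integral hP (hf.sub (hP.const_mul s))
  have e1 : ∫ y, P y * (f y - s * P y) = (∫ y, P y * f y) - s := by
    have e : ∀ y, P y * (f y - s * P y) = P y * f y - s * (P y * P y) := fun y => by ring
    simp only [e]
    rw [integral_sub (cabs_mul hP hf) ((cabs_mul hP hP).const_mul s), integral_const_mul, nP,
      mul_one]
  have e2 : ∫ y, P y ^ 2 = 1 := by simpa only [sq] using nP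
  have h2 : |∫ y, P y * (f y - s * P y)| ≤ √(∫ y, P y ^ 2) * mvc3_n fun y => f y - s * P y := h1.2
  rw [e1, e2, Real.sqrt_one, one_mul] at h2
  exact h2

theorem mvc3_sqrt (a b a' b' : ℝ) :
    |√(a ^ 2 + b ^ 2) - √(a' ^ 2 + b' ^ 2)| ≤ |a - a'| + |b - b'| := by
  have h := abs_norm_sub_norm_le (⟨a, b⟩ : ℂ) ⟨a', b'⟩
  have h2 := Complex.norm_le_abs_re_add_abs_im ((⟨a, b⟩ : ℂ) - ⟨a', b'⟩)
  rw [Complex.norm_eq_sqrt_sq_add_sq, Complex.norm_eq_sqrt_sq_add_sq] at h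
  exact h.trans h2

theorem mvc3_le {f : E6 → ℝ} {τ : ℝ} (hτ : 0 ≤ τ) (h : ∫ y, f y ^ 2 ≤ τ ^ 2) : mvc3_n f ≤ τ :=
  Real.sqrt_le_iff.2 ⟨hτ, h⟩

theorem mvc3_core {F1 F2 G1 G2 B Bi P T Pi Ti Q Ap Am A chi : E6 → ℝ} {g u τ κ d : ℝ}
    (mF1 : MemLp F1 2 volume) (mF2 : MemLp F2 2 volume) (mG1 : MemLp G1 2 volume)
    (mG2 : MemLp G2 2 volume) (mB : MemLp B 2 volume) (mP : MemLp P 2 volume)
    (mT : MemLp T 2 volume) (mPi : MemLp Pi 2 volume) (mTi : MemLp Ti 2 volume)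
    (mQ : MemLp Q 2 volume)
    (nP : ∫ y, P y * P y = 1) (nT : ∫ y, T y * T y = 1) (nPi : ∫ y, Pi y ^ 2 = 1)
    (nTi : ∫ y, Ti y ^ 2 = 1) (nQ : ∫ y, Q y ^ 2 = 1) (oPQ : ∫ y, Pi y * Q y = 0)
    (e1 : ∀ y, √2 * G1 y = u * Pi y - g * Q y) (e2 : ∀ y, √2 * G2 y = -u * Pi y - g * Q y)
    (e3 : ∀ y, Bi y = g * Ti y) (eA : ∀ y, A y = √2 * F1 y)
    (eAp : ∀ y, Ap y = (√2 * F1 y + √2 * F2 y) / 2)
    (eAm : ∀ y, Am y = (√2 * F1 y - √2 * F2 y) / 2) (ed : d = ∫ y, P y * Am y)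
    (ec : ∀ y, chi y = Am y - d * P y)
    (hg : 0 < g) (d1 : mvc3_n (fun y => F1 y - G1 y) ≤ τ) (d2 : mvc3_n (fun y => F2 y - G2 y) ≤ τ)
    (dB : mvc3_n (fun y => B y - Bi y) ≤ τ) (dP : |u| * mvc3_n (fun y => P y - Pi y) ≤ κ)
    (dT : g * mvc3_n (fun y => T y - Ti y) ≤ κ) :
    (|d - u| ≤ 2 * τ + κ ∧ |(∫ y, T y * B y) - g| ≤ τ + κ ∧ mvc3_n Ap ≤ g + 2 * τ ∧
      mvc3_n B ≤ g + τ ∧ mvc3_n chi ≤ 4 * τ + 2 * κ) ∧
      |√(mvc3_n A ^ 2 + mvc3_n B ^ 2) - √(2 * g ^ 2 + u ^ 2)| ≤ 3 * τ := by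
  have s0 : (0 : ℝ) ≤ √2 := Real.sqrt_nonneg 2
  have s2 : √2 ≤ (2 : ℝ) := Real.sqrt_le_iff.2 ⟨by norm_num, by norm_num⟩
  have sa : |√2 / 2| ≤ (1 : ℝ) := by rw [abs_of_nonneg (by positivity)]; linarith
  have sb : |-(√2 / 2)| ≤ (1 : ℝ) := by rwa [abs_neg]
  have n0 : ∀ f, 0 ≤ mvc3_n f := fun f => Real.sqrt_nonneg _
  have m1 : MemLp (fun y => F1 y - G1 y) 2 volume := mF1.sub mG1
  have m2 : MemLp (fun y => F2 y - G2 y) 2 volume := mF2.sub mG2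
  have mBi : MemLp Bi 2 volume := by
    obtain rfl : Bi = fun y => g * Ti y := funext e3
    exact mTi.const_mul g
  have m3 : MemLp (fun y => B y - Bi y) 2 volume := mB.sub mBi
  have m4 : MemLp (fun y => P y - Pi y) 2 volume := mP.sub mPi
  have m5 : MemLp (fun y => T y - Ti y) 2 volume := mT.sub mTi
  have nP' : mvc3_n P = 1 := by
    unfold mvc3_n
    simp only [sq]
    rw [nP, Real.sqrt_one]
  have nTi' : mvc3_n Ti = 1 := by unfold mvc3_n; rw [nTi, Real.sqrt_one]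
  have nQ' : mvc3_n Q = 1 := by unfold mvc3_n; rw [nQ, Real.sqrt_one]
  obtain ⟨mm, bm⟩ := mvc3_n2 (h := fun y => Am y - u * Pi y) m1 m2 (√2 / 2) (-(√2 / 2)) fun y => by
    have := e1 y
    have := e2 y
    rw [eAm]
    linarith
  obtain ⟨mp, bp⟩ := mvc3_n2 (h := fun y => Ap y + g * Q y) m1 m2 (√2 / 2) (√2 / 2) fun y => by
    have := e1 y
    have := e2 y
    rw [eAp]
    linarith
  have t1 := mul_le_mul sa d1 (n0 _) zero_le_one
  have t2 := mul_le_mul sa d2 (n0 _) zero_le_one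
  have t3 := mul_le_mul sb d2 (n0 _) zero_le_one
  obtain ⟨mm', bm'⟩ := mvc3_n2 (h := fun y => Am y - u * P y) mm m4 1 (-u) fun y => by ring
  rw [abs_one, abs_neg] at bm'
  have mAm : MemLp Am 2 volume :=
    (mvc3_n2 (h := Am) mm mPi 1 u fun y => by ring).1
  have hd : |d - u| ≤ 2 * τ + κ := by
    have := mvc3_prj mP mAm nP u
    rw [← ed] at this
    linarith
  refine ⟨⟨hd, ?_, ?_, ?_, ?_⟩, ?_⟩
  · have h1 := mvc3_prj mT mB nT g
    have h2 := (mvc3_n2 (h := fun y => B y - g * T y) m3 m5 1 (-g) fun y => by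
      rw [e3]; ring).2
    rw [abs_one, abs_neg, abs_of_pos hg] at h2
    linarith
  · have h2 := (mvc3_n2 (h := Ap) mp mQ 1 (-g) fun y => by ring).2
    rw [abs_one, abs_neg, abs_of_pos hg, nQ'] at h2
    linarith
  · have h2 := (mvc3_n2 (h := B) m3 mTi 1 g fun y => by rw [e3]; ring).2
    rw [abs_one, abs_of_pos hg, nTi'] at h2
    linarith
  · have h2 := (mvc3_n2 (h := chi) mm' mP 1 (-(d - u)) fun y => by rw [ec]; ring).2
    rw [abs_one, abs_neg, nP'] at h2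
    linarith
  · have mA : MemLp A 2 volume := by
      obtain rfl : A = fun y => √2 * F1 y := funext eA
      exact mF1.const_mul _
    have h1 : |mvc3_n A - mvc3_n fun y => √2 * G1 y| ≤ mvc3_n fun y => A y - √2 * G1 y :=
      (tri_integral mA (mG1.const_mul √2)).2
    have h2 : (mvc3_n fun y => A y - √2 * G1 y) = |√2| * mvc3_n fun y => F1 y - G1 y := by
      rw [← mvc3_smul]
      congr 1
      funext y
      rw [eA]
      ring
    have h3 : |mvc3_n B - mvc3_n Bi| ≤ mvc3_n fun y => B y - Bi y := (tri_integral mB mBi).2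
    have h4 : mvc3_n Bi = g := by
      obtain rfl : Bi = fun y => g * Ti y := funext e3
      rw [mvc3_smul, nTi', abs_of_pos hg, mul_one]
    have h5 : mvc3_n (fun y => √2 * G1 y) ^ 2 = u ^ 2 + g ^ 2 := by
      unfold mvc3_n
      rw [Real.sq_sqrt (integral_nonneg fun y => sq_nonneg _)]
      have h6 := cabs_exp (mPi.const_mul u) mQ (-g)
      have e : ∀ y, √2 * G1 y = u * Pi y + -g * Q y := fun y => by rw [e1]; ring
      simp only [e]
      rw [h6]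
      simp only [mul_pow, mul_assoc]
      rw [integral_const_mul, integral_const_mul, nPi, nQ, oPQ]
      ring
    have h7 := mvc3_sqrt (mvc3_n A) (mvc3_n B) (mvc3_n fun y => √2 * G1 y) g
    rw [h5, show u ^ 2 + g ^ 2 + g ^ 2 = 2 * g ^ 2 + u ^ 2 by ring] at h7
    rw [h2, abs_of_nonneg s0] at h1
    rw [h4] at h3
    have h8 := mul_le_mul s2 d1 (n0 _) zero_le_two
    linarith

theorem close_all {c0 L C C1 C3 : ℝ} (ob : OB c0 L) (ρ : ℝ) {ε : ℝ} (hε : 0 < ε) :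
    ∀ᶠ lam in 𝓝[>] (0 : ℝ), ∀ mb : MB ob lam C C1, Sl ob lam C C1 C3 → ∀ᵐ x : E3,
      x ∈ Blk L ρ ε → (|mb.d x - ob.u x| ≤ ε ∧ |mb.dT x - ob.g x| ≤ ε ∧
        mb.a x ≤ ob.g x + ε ∧ mb.b x ≤ ob.g x + ε ∧ mb.c x ≤ ε) ∧
        |mb.N x - √(2 * ob.g x ^ 2 + ob.u x ^ 2)| ≤ ε := by
  obtain ⟨M1, hM1⟩ := (isCompact_Blk L ρ ε).exists_bound_of_continuousOn
    (ob.cg.mono (Blk_subset_D hε))
  obtain ⟨M2, hM2⟩ := (isCompact_Blk L ρ ε).exists_bound_of_continuousOn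
    (ob.cu.mono (Blk_subset_D hε))
  have hs : ∀ M : ℝ, ∀ᶠ lam in 𝓝[>] (0 : ℝ), M * √(C1 * lam) ≤ ε / 10 := by
    intro M
    have hc : Continuous fun lam : ℝ => M * √(C1 * lam) := by fun_prop
    have ht : Tendsto (fun lam : ℝ => M * √(C1 * lam)) (𝓝[>] 0) (𝓝 0) := by
      have := (hc.tendsto 0).mono_left (nhdsWithin_le_nhds (s := Ioi 0))
      simpa using this
    exact ht.eventually (eventually_le_nhds (by positivity))
  filter_upwards [close_core (C := C) (C1 := C1) (C3 := C3) ob ρ hε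
    (show 0 < ε / 10 by positivity), hs M1, hs M2] with lam hcore k1 k2
  intro mb hsl
  obtain ⟨nPi, nTi, nQ, oPQ, mPi, mTi, mQ⟩ := ob.norms
  obtain ⟨K, -, hK⟩ := ob.slice_bd
  filter_upwards [hcore mb hsl, ae_sg (hcore mb hsl), mb.F.sl_mem, ae_sg mb.F.sl_mem,
    mb.B.sl_mem] with x c1 c2 mF1 mF2 mB hx
  have hx' : sg x ∈ Blk L ρ ε := by
    refine ⟨?_, ?_, ?_⟩
    · rw [norm_sg]; exact hx.1
    · rw [rA_sg]; exact hx.2.2
    · rw [rB_sg]; exact hx.2.1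
  have hτ : 0 ≤ ε / 10 := by positivity
  have hg := ob.pg x (Blk_subset_D hε hx)
  have dP : mvc3_n (fun y => mb.P.f y - Pinf ob y) ≤ √(C1 * lam) := Real.sqrt_le_sqrt mb.cP
  have dT : mvc3_n (fun y => mb.T.f y - Tinf ob y) ≤ √(C1 * lam) := Real.sqrt_le_sqrt mb.cT
  have b1 : ob.g x ≤ M1 := (le_abs_self _).trans (hM1 x hx)
  have b2 : |ob.u x| ≤ M2 := hM2 x hx
  have key := mvc3_core (F1 := fun y => mb.F.f (x, y)) (F2 := fun y => mb.F.f (sg x, y))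
    (G1 := fun y => ob.Fi.f (x, y)) (G2 := fun y => ob.Fi.f (sg x, y))
    (B := fun y => mb.B.f (x, y)) (Bi := fun y => ob.Bi.f (x, y)) (P := mb.P.f) (T := mb.T.f)
    (Pi := Pinf ob) (Ti := Tinf ob) (Q := fun y => ob.u y.1 * ob.g y.2)
    (Ap := fun y => mb.Ap.f (x, y)) (Am := fun y => mb.Am.f (x, y)) (A := fun y => mb.A.f (x, y))
    (chi := fun y => mb.chi.f (x, y)) (g := ob.g x) (u := ob.u x) (τ := ε / 10) (κ := ε / 10)
    (d := mb.d x) mF1.1 mF2.1 (hK _ (Or.inl rfl) x).1 (hK _ (Or.inl rfl) (sg x)).1 mB.1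
    mb.P.l2.1 mb.T.l2.1 mPi mTi mQ mb.iP.one mb.iT.one nPi nTi nQ oPQ
    (fun y => (ob.Fi_eq (x, y)).2.2.2)
    (fun y => by
      have := (ob.Fi_eq (sg x, y)).2.2.2
      simp only [ob.evg, ob.odu] at this
      exact this)
    (fun y => (ob.Fi_eq (x, y)).2.2.1) (fun y => rfl)
    (fun y => by
      change 1 / 2 * (√2 * mb.F.f (x, y) + √2 * mb.F.f (sg x, y)) = _
      ring)
    (fun y => by
      change 1 / 2 * (√2 * mb.F.f (x, y) + -1 * (√2 * mb.F.f (sg x, y))) = _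
      ring)
    rfl (fun y => (mb.par x y).2.2.2.2.2.1) hg (mvc3_le hτ (c1 hx).1) (mvc3_le hτ (c2 hx').1)
    (mvc3_le hτ (c1 hx).2)
    ((mul_le_mul b2 dP (Real.sqrt_nonneg _) ((abs_nonneg _).trans b2)).trans k2)
    ((mul_le_mul b1 dT (Real.sqrt_nonneg _) (hg.le.trans b1)).trans k1)
  obtain ⟨⟨r1, r2, r3, r4, r5⟩, r6⟩ := key
  obtain ⟨-, -, -, qN, qa, qb, qc⟩ := mb.sq_eq x
  have eN : mb.N x = √(mvc3_n (fun y => mb.A.f (x, y)) ^ 2 +
      mvc3_n (fun y => mb.B.f (x, y)) ^ 2) := by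
    have h0 : 0 ≤ mb.N x := Real.sqrt_nonneg _
    unfold mvc3_n
    rw [Real.sq_sqrt (integral_nonneg fun y => sq_nonneg _),
      Real.sq_sqrt (integral_nonneg fun y => sq_nonneg _), ← Real.sqrt_sq h0, qN]
    simp only [sip, sq]
  refine ⟨⟨by linarith, ?_, ?_, ?_, ?_⟩, ?_⟩
  · exact r2.trans (by linarith)
  · rw [qa]
    exact r3.trans (by linarith)
  · rw [qb]
    exact r4.trans (by linarith)
  · rw [qc]
    exact r5.trans (by linarith)
  · rw [eN]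
    exact r6.trans (by linarith)

end

end Vale.Agent.P363
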