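import Vale.Agent.P363.MVS1

/-! P363, block MV: the channels T and S. -/

open MeasureTheory Set Metric Filter Topology
open scoped RealInnerProductSpace

namespace Vale.Agent.P363

noncomputable section

variable {c0 L lam C C1 C3 : ℝ} {ob : OB c0 L} (mb : MB ob lam C C1)

theorem mvet_sub {E0 Ea : ℝ} {Z : O3} {S : E9 → ℝ} (h : VE L lam E0 Z S) {T : O2}
    (hT : ∀ b : O2, q2 L lam T b = Ea * ip2 T b) {U : Set E3} (hU : IsOpen U) :
    Sub U (prj T Z.f) (gprj T Z) (fun x => prj T S x + (Ea - E0) * prj T Z.f x) ∧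
    Sub U (fun x => -prj T Z.f x) (fun x => -gprj T Z x)
      (fun x => -(prj T S x + (Ea - E0) * prj T Z.f x)) := by
  have hw := h1_prj T Z
  have hR : MemLp (fun x => prj T S x + (Ea - E0) * prj T Z.f x) 2 volume :=
    (memLp_prj T h.l2).add (hw.l2.const_mul _)
  have h1 : Loc1 U (fun x => prj T S x + (Ea - E0) * prj T Z.f x) := by
    intro K hK _
    haveI : IsFiniteMeasure (volume.restrict K) := ⟨by simpa using hK.measure_lt_top⟩
    exact (hR.restrict K).integrable (by norm_num)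
  have h2 : Loc1 U (fun x => (prj T S x + (Ea - E0) * prj T Z.f x) * prj T Z.f x) :=
    fun K _ _ => (cabs_mul hR hw.l2).integrableOn
  have := sub_of_eq hU (hw.l1 U) h1 h2 (fun f gf hf _ => h.prj hT f gf hf)
  exact ⟨this.1, this.2.1⟩

/-- The even part of the interaction does not couple `S` and `P`. -/
theorem mvet_SP (x : E3) :
    ∫ y, Mo x y * mb.S.f y * mb.P.f y = ∫ y, mb.S.f y * Mx x y * mb.P.f y := by
  have i1 := cabs_mul (mb.S.memMe x).1 mb.P.l2.1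
  have i2 := cabs_mul (mb.S.memMe x).2.1 mb.P.l2.1
  have z : ∫ y, Me x y * mb.S.f y * mb.P.f y = 0 := by
    have a := integral_sg6 (fun y => Me x y * mb.S.f y * mb.P.f y)
    have b : ∫ y, Me x (sg6 y) * mb.S.f (sg6 y) * mb.P.f (sg6 y) =
        -∫ y, Me x y * mb.S.f y * mb.P.f y := by
      rw [← integral_neg]
      refine integral_congr_ae (Eventually.of_forall fun y => ?_)
      simp only [(abs_Mo_le x y).2.2.2.2.1, (mb.sS y).2, (mb.sP y).2]
      ring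
    linarith
  have e : ∫ y, mb.S.f y * Mx x y * mb.P.f y =
      (∫ y, Me x y * mb.S.f y * mb.P.f y) + ∫ y, Mo x y * mb.S.f y * mb.P.f y := by
    rw [← integral_add i1 i2]
    refine integral_congr_ae (Eventually.of_forall fun y => ?_)
    simp only [(abs_Mo_le x y).2.2.1]
    ring
  rw [e, z, zero_add]

theorem MB.subT (U : Set E3) (hU : IsOpen U) :
    Sub U (fun x => -mb.dT x) (fun x => -gprj mb.T mb.B x) (fun x => -mb.RT x) := by
  exact (mvet_sub mb.veB mb.iT.eq hU).2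

theorem MB.subS (U : Set E3) (hU : IsOpen U) : Sub U mb.dS (gprj mb.S mb.Ap) mb.RS := by
  exact (mvet_sub mb.veAp mb.iS.eq hU).1

theorem MB.eT (h : Sl ob lam C C1 C3) : ∀ᵐ x : E3,
    |mb.RT x - (V L x + mb.I + (mb.ET - mb.E0)) * mb.dT x| ≤ lam * C3 * mb.b x := by
  filter_upwards [mb.B.sl_mem] with x hx
  have hC1 : 0 ≤ C1 := by linarith [h.hC1]
  have i1 := cabs_mul mb.T.l2.1 hx.1
  obtain ⟨i2, cs⟩ := cs_integral (mb.iT.m1 x).1 hx.1
  have e : mb.RT x - (V L x + mb.I + (mb.ET - mb.E0)) * mb.dT x =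
      lam * ∫ y, Mx x y * mb.T.f y * mb.B.f (x, y) := by
    have : prj mb.T (mb.src mb.B) x = (V L x + mb.I) * mb.dT x +
        lam * ∫ y, Mx x y * mb.T.f y * mb.B.f (x, y) := by
      simp only [MB.dT, prj, MB.src]
      rw [← integral_const_mul, ← integral_const_mul,
        ← integral_add (i1.const_mul _) (i2.const_mul _)]
      refine integral_congr_ae (Eventually.of_forall fun y => ?_)
      simp only
      ring
    simp only [MB.RT]
    rw [this]
    ring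
  have hb := (mb.sq_eq x).2.2.2.2.2.1
  have hb0 : 0 ≤ mb.b x := by rw [hb]; exact Real.sqrt_nonneg _
  rw [e, abs_mul, abs_of_pos h.l0, mul_assoc]
  refine mul_le_mul_of_nonneg_left (cs.trans ?_) h.l0.le
  rw [← hb]
  refine mul_le_mul_of_nonneg_right ((mb.iT.mult hC1 x).2.2.2.trans ?_) hb0
  linarith [h.c3, h.hC]

theorem MB.eS (h : Sl ob lam C C1 C3) : ∀ᵐ x : E3, C3 ≤ ‖x‖ →
    |mb.RS x - (V L x + mb.I + (mb.ES - mb.E0)) * mb.dS x -
      lam * mb.Dp * x 2 / ‖x‖ ^ 3 * mb.d x| ≤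
    lam * C3 * ((|x 2| / ‖x‖ ^ 4 + Real.exp (-‖x‖ / 20)) * |mb.d x| + mb.a x +
      (|x 2| / ‖x‖ ^ 3 + Real.exp (-‖x‖ / 20)) * mb.c x) := by
  filter_upwards [mb.Ap.sl_mem, mb.chi.sl_mem] with x hA hc hx
  have hC1 : 0 ≤ C1 := by linarith [h.hC1]
  have h3 : C1 + 2 ≤ C3 := by linarith [h.c3, h.hC]
  have hx1 : C1 ≤ ‖x‖ := by linarith
  have i1 := cabs_mul mb.S.l2.1 hA.1
  obtain ⟨i2, cs2⟩ := cs_integral (mb.S.memMe x).1 hA.1
  have i3 := cabs_mul (mb.S.memMe x).2.1 mb.P.l2.1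
  obtain ⟨i4, cs4⟩ := cs_integral (mb.S.memMe x).2.1 hc.1
  have e : prj mb.S mb.Sp x = (V L x + mb.I) * mb.dS x +
      lam * ((∫ y, Me x y * mb.S.f y * mb.Ap.f (x, y)) +
        mb.d x * (∫ y, Mo x y * mb.S.f y * mb.P.f y) +
        ∫ y, Mo x y * mb.S.f y * mb.chi.f (x, y)) := by
    have j1 : Integrable fun y => Me x y * mb.S.f y * mb.Ap.f (x, y) +
        mb.d x * (Mo x y * mb.S.f y * mb.P.f y) := i2.add (i3.const_mul _)
    have j2 : Integrable fun y => Me x y * mb.S.f y * mb.Ap.f (x, y) +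
        mb.d x * (Mo x y * mb.S.f y * mb.P.f y) + Mo x y * mb.S.f y * mb.chi.f (x, y) :=
      j1.add i4
    rw [← integral_const_mul (mb.d x), ← integral_add i2 (i3.const_mul _), ← integral_add j1 i4,
      MB.dS, prj, prj, ← integral_const_mul, ← integral_const_mul,
      ← integral_add (i1.const_mul _) (j2.const_mul _)]
    refine integral_congr_ae (Eventually.of_forall fun y => ?_)
    have hAm : mb.Am.f (x, y) = mb.chi.f (x, y) + mb.d x * mb.P.f y := by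
      rw [(mb.par x y).2.2.2.2.2.1]
      ring
    simp only [mb.Sp_eq x y, hAm]
    ring
  rw [mvet_SP] at e
  have m3 := mb.m3 x hx1
  have m2 := mb.iS.m2 x hx1
  have m1 := (mb.iS.mult hC1 x).2.2.1
  obtain ⟨-, -, -, -, ha, -, hcc⟩ := mb.sq_eq x
  have ha0 : 0 ≤ mb.a x := by rw [ha]; exact Real.sqrt_nonneg _
  have hc0 : 0 ≤ mb.c x := by rw [hcc]; exact Real.sqrt_nonneg _
  rw [← ha] at cs2
  rw [← hcc] at cs4
  set α := ∫ y, Me x y * mb.S.f y * mb.Ap.f (x, y)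
  set β := ∫ y, mb.S.f y * Mx x y * mb.P.f y
  set γ := ∫ y, Mo x y * mb.S.f y * mb.chi.f (x, y)
  have e2 : mb.RS x - (V L x + mb.I + (mb.ES - mb.E0)) * mb.dS x -
      lam * mb.Dp * x 2 / ‖x‖ ^ 3 * mb.d x =
      lam * ((β - mb.Dp * x 2 / ‖x‖ ^ 3) * mb.d x + α + γ) := by
    simp only [MB.RS]
    rw [e]
    ring
  have p4 : 0 ≤ |x 2| / ‖x‖ ^ 4 + Real.exp (-‖x‖ / 20) := by positivity
  have p3 : 0 ≤ |x 2| / ‖x‖ ^ 3 + Real.exp (-‖x‖ / 20) := by positivity
  have b1 : |(β - mb.Dp * x 2 / ‖x‖ ^ 3) * mb.d x| ≤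
      C3 * ((|x 2| / ‖x‖ ^ 4 + Real.exp (-‖x‖ / 20)) * |mb.d x|) := by
    rw [abs_mul, ← mul_assoc]
    refine mul_le_mul_of_nonneg_right (m3.trans ?_) (abs_nonneg _)
    exact mul_le_mul_of_nonneg_right (by linarith) p4
  have b2 : |α| ≤ C3 * mb.a x :=
    cs2.trans (mul_le_mul_of_nonneg_right (m1.trans h3) ha0)
  have b3 : |γ| ≤ C3 * ((|x 2| / ‖x‖ ^ 3 + Real.exp (-‖x‖ / 20)) * mb.c x) := by
    rw [← mul_assoc]
    refine cs4.trans (mul_le_mul_of_nonneg_right (m2.trans ?_) hc0)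
    exact mul_le_mul_of_nonneg_right (by linarith) p3
  rw [e2, abs_mul, abs_of_pos h.l0, mul_assoc]
  refine mul_le_mul_of_nonneg_left ((abs_add_three _ _ _).trans ?_) h.l0.le
  linarith

theorem MB.parb (h : Sl ob lam C C1 C3) : |mb.ET - mb.E0 - ob.del| ≤ C3 * lam ∧
    |mb.ES - mb.E0 - ob.del| ≤ C3 * lam ∧ L ≤ C * mb.Dp := by
  obtain ⟨-, e0, eS, eT⟩ := mb.en
  have h3 : 2 * C1 * lam ≤ C3 * lam :=
    mul_le_mul_of_nonneg_right (by linarith [h.c3, h.hC]) h.l0.le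
  rw [abs_le] at e0 eS eT
  refine ⟨?_, ?_, mb.dip⟩ <;> rw [abs_le, OB.del] <;> constructor <;>
    linarith [e0.1, e0.2, eS.1, eS.2, eT.1, eT.2]

end

end Vale.Agent.P363
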