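import Vale.Agent.P363.MVS1

/-! P363, block MV: the inequalities for d and X. -/

open MeasureTheory Set Metric Filter Topology
open scoped RealInnerProductSpace

namespace Vale.Agent.P363

noncomputable section

variable {c0 L lam C C1 C3 : ℝ} {ob : OB c0 L} (mb : MB ob lam C C1)

theorem mvex_cs {f g : E6 → ℝ} (hf : MemLp f 2 volume) (hg : MemLp g 2 volume) {q s : ℝ}
    (h1 : √(∫ y, f y ^ 2) ≤ q) (h2 : √(∫ y, g y ^ 2) ≤ s) : |∫ y, f y * g y| ≤ q * s :=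
  (cs_integral hf hg).2.trans
    (mul_le_mul h1 h2 (Real.sqrt_nonneg _) ((Real.sqrt_nonneg _).trans h1))

theorem mvex_mem (a : O2) (x : E3) (r : ℝ) : MemLp (fun y => (Me x y - r) * a.f y) 2 volume := by
  refine ((a.memMe x).1.sub (a.l2.1.const_mul r)).ae_eq (Eventually.of_forall fun y => ?_)
  simp only [Pi.sub_apply]
  ring

theorem mvex_add3 {f g k : E6 → ℝ} (hf : Integrable f) (hg : Integrable g) (hk : Integrable k) :
    ∫ y, (f y + g y + k y) = (∫ y, f y) + (∫ y, g y) + ∫ y, k y := by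
  have h : Integrable fun y => f y + g y := hf.add hg
  rw [integral_add h hk, integral_add hf hg]

theorem mvex_q (h : Sl ob lam C C1 C3) (x : E3) : 0 ≤ C1 / (1 + ‖x‖) ^ 2 ∧
    2 * (lam * (C1 / (1 + ‖x‖) ^ 2)) ≤ lam * C3 / (1 + ‖x‖) ^ 2 := by
  have h1 := h.hC
  have h2 := h.hC1
  have h3 := h.c3
  have h4 := h.l0
  refine ⟨by positivity, ?_⟩
  rw [← mul_div_assoc, ← mul_div_assoc]
  exact div_le_div_of_nonneg_right (by nlinarith) (sq_nonneg _)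

theorem mvex_le : ∀ᵐ x : E3, mb.a x ≤ mb.X x ∧ mb.c x ≤ mb.X x := by
  filter_upwards [mb.alg] with x ⟨h1, h2, h3, h4, _, h5, _⟩
  exact ⟨(sq_le_sq₀ h1 h4).1 (by nlinarith [sq_nonneg (mb.b x), sq_nonneg (mb.c x)]),
    (sq_le_sq₀ h3 h4).1 (by nlinarith [sq_nonneg (mb.b x), sq_nonneg (mb.a x)])⟩

theorem MB.ed (h : Sl ob lam C C1 C3) : ∀ᵐ x : E3,
    |mb.Rd x - (V L x + mb.I + 2 * lam / (1 + ‖x‖)) * mb.d x| ≤
      lam * C3 / (1 + ‖x‖) ^ 2 * (|mb.d x| + mb.X x) := by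
  filter_upwards [mb.Am.sl_mem, mb.Ap.sl_mem, mb.orth, mb.alg, mvex_le mb] with x hm hp ho ha hx
  obtain ⟨m1, m2, -⟩ := mb.iP.mult (zero_le_one.trans h.hC1) x
  obtain ⟨q0, q1⟩ := mvex_q h x
  have f1 := mvex_mem mb.P x (2 / (1 + ‖x‖))
  have f2 := (mb.P.memMe x).2.1
  have b1 := mvex_cs f1 hm.1 m1 (s := mb.c x + |mb.d x|) (by
    refine Real.sqrt_le_iff.2 ⟨add_nonneg ha.2.2.1 (abs_nonneg _), ?_⟩
    have e : ∫ y, mb.Am.f (x, y) ^ 2 = sip mb.Am.f mb.Am.f x := by simp only [sip, sq]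
    rw [e, ho.2.2.2.2.2.2, ← sq_abs (mb.d x)]
    nlinarith [mul_nonneg ha.2.2.1 (abs_nonneg (mb.d x))])
  have b2 := mvex_cs f2 hp.1 m2 (mb.sq_eq x).2.2.2.2.1.ge
  have i0 := (cabs_mul mb.P.l2.1 hm.1).const_mul (V L x + mb.I + 2 * lam / (1 + ‖x‖))
  have i1 := (cabs_mul f1 hm.1).const_mul lam
  have i2 := (cabs_mul f2 hp.1).const_mul lam
  have e : mb.Rd x = (V L x + mb.I + 2 * lam / (1 + ‖x‖)) * mb.d x +
      (lam * (∫ y, (Me x y - 2 / (1 + ‖x‖)) * mb.P.f y * mb.Am.f (x, y)) +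
        lam * ∫ y, Mo x y * mb.P.f y * mb.Ap.f (x, y)) := by
    rw [MB.Rd, MB.d, prj, prj, ← integral_const_mul, ← integral_const_mul, ← integral_const_mul,
      ← add_assoc, ← mvex_add3 i0 i1 i2]
    refine integral_congr_ae (Eventually.of_forall fun y => ?_)
    simp only [mb.Sm_eq]
    ring
  rw [e, add_sub_cancel_left, ← mul_add, abs_mul, abs_of_pos h.l0]
  have c1 := mul_le_mul_of_nonneg_left ((abs_add_le _ _).trans (add_le_add b1 b2)) h.l0.le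
  have c2 := mul_le_mul_of_nonneg_right q1 (add_nonneg (abs_nonneg (mb.d x)) ha.2.2.2.1)
  have c3 : 0 ≤ lam * (C1 / (1 + ‖x‖) ^ 2) := mul_nonneg h.l0.le q0
  have c4 := mul_le_mul_of_nonneg_left (show mb.c x + |mb.d x| + mb.a x ≤
    2 * (|mb.d x| + mb.X x) by linarith [hx.1, hx.2, abs_nonneg (mb.d x)]) c3
  linarith

theorem MB.eX (h : Sl ob lam C C1 C3) : ∀ᵐ x : E3,
    (V L x + mb.I + ob.del - C3 * lam) * mb.X x ^ 2 -
      lam * C3 / (1 + ‖x‖) ^ 2 * |mb.d x| * mb.X x ≤ mb.RX x := by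
  filter_upwards [mb.chi.sl_mem, mb.Ap.sl_mem, mb.orth, mb.alg, mvex_le mb, mb.h2_gap h mb.Ap,
    mb.h2_gap h mb.B, mb.h2_gap h mb.chi, mb.sip_Sp, mb.sip_src mb.B, mb.sip_Sc] with
    x hc hp ho ha hx g1 g2 g3 s1 s2 s3
  obtain ⟨m1, m2, -⟩ := mb.iP.mult (zero_le_one.trans h.hC1) x
  obtain ⟨q0, q1⟩ := mvex_q h x
  obtain ⟨e1, e2, e3, -, e4, -, e5⟩ := mb.sq_eq x
  obtain ⟨g1, k1⟩ := g1 ho.1
  obtain ⟨g2, k2⟩ := g2 ho.2.2.1
  obtain ⟨g3, k3⟩ := g3 ho.2.1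
  have l0 := h.l0.le
  have b1 := mvex_cs (mvex_mem mb.P x (2 / (1 + ‖x‖))) hc.1 m1 (e5.ge.trans hx.2)
  have b2 := mvex_cs (mb.P.memMe x).2.1 hp.1 m2 (e4.ge.trans hx.1)
  have p1 : 0 ≤ ∫ y, Mx x y * mb.B.f (x, y) ^ 2 :=
    integral_nonneg fun y => mul_nonneg (abs_Mo_le x y).2.1 (sq_nonneg _)
  have i1 : Integrable fun y => Me x y * mb.Ap.f (x, y) ^ 2 := by
    simpa only [sq, ← mul_assoc] using cabs_mul hp.2.2.1 hp.1
  have i2 : Integrable fun y => Me x y * mb.chi.f (x, y) ^ 2 := by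
    simpa only [sq, ← mul_assoc] using cabs_mul hc.2.2.1 hc.1
  have i3 := (cabs_mul hc.2.2.2.1 hp.1).const_mul 2
  have p2 : 0 ≤ (∫ y, Me x y * mb.Ap.f (x, y) ^ 2) + (∫ y, Me x y * mb.chi.f (x, y) ^ 2) +
      2 * ∫ y, Mo x y * mb.chi.f (x, y) * mb.Ap.f (x, y) := by
    rw [← integral_const_mul, ← mvex_add3 i1 i2 i3]
    refine integral_nonneg fun y => ?_
    obtain ⟨t1, t2⟩ := abs_le.1 (abs_Mo_le x y).1
    have t3 := mul_nonneg (show 0 ≤ Me x y + Mo x y by linarith)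
      (sq_nonneg (mb.Ap.f (x, y) + mb.chi.f (x, y)))
    have t4 := mul_nonneg (show 0 ≤ Me x y - Mo x y by linarith)
      (sq_nonneg (mb.Ap.f (x, y) - mb.chi.f (x, y)))
    simp only [Pi.zero_apply]
    linarith
  have p3 : ∀ t : ℝ, |t| ≤ C1 / (1 + ‖x‖) ^ 2 * mb.X x →
      -(lam * (C1 / (1 + ‖x‖) ^ 2) * (|mb.d x| * mb.X x)) ≤ lam * (mb.d x * t) := by
    intro t ht
    have t1 := neg_abs_le (mb.d x * t)
    rw [abs_mul] at t1
    have t2 := mul_le_mul_of_nonneg_left ht (abs_nonneg (mb.d x))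
    have t3 := mul_le_mul_of_nonneg_left (show -(|mb.d x| * (C1 / (1 + ‖x‖) ^ 2 * mb.X x)) ≤
      mb.d x * t by linarith) l0
    linarith
  have c1 := p3 _ b1
  have c2 := p3 _ b2
  have c3 := mul_le_mul_of_nonneg_right q1 (mul_nonneg (abs_nonneg (mb.d x)) ha.2.2.2.1)
  have c4 := mul_nonneg l0 p1
  have c5 := mul_nonneg l0 p2
  have c6 : 0 ≤ (C3 - (C1 + 4 * C)) * lam * mb.X x ^ 2 :=
    mul_nonneg (mul_nonneg (by linarith [h.c3, h.hC1]) l0) (sq_nonneg _)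
  have c7 := mul_nonneg l0 k1
  have c8 := mul_nonneg l0 k2
  have c9 := mul_nonneg l0 k3
  rw [← e1] at g1
  rw [← e2] at g2 s2
  rw [← e3] at g3
  have eR : mb.RX x = h2 L lam mb.E0 mb.Ap mb.Ap x + sip mb.Sp mb.Ap.f x +
      (h2 L lam mb.E0 mb.B mb.B x + sip (mb.src mb.B) mb.B.f x) +
      (h2 L lam mb.E0 mb.chi mb.chi x + sip mb.Sc mb.chi.f x) := by
    rw [MB.RX, fR, Fin.sum_univ_three]
    rfl
  rw [eR, s1, s2, s3]
  rw [ha.2.2.2.2.2.1] at c6 ⊢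
  linarith

theorem MB.sd (U : Set E3) (hU : IsOpen U) : Sub U mb.d mb.gd mb.Rd ∧
    Sub U (fun x => -mb.d x) (fun x => -mb.gd x) (fun x => -mb.Rd x) := by
  obtain ⟨h1, h2, h3⟩ := mb.eqd
  have := sub_of_eq hU (h1.l1 U) (csub_loc1 fun K _ _ => h2.restrict K)
    (fun K _ _ => (cabs_mul h2 h1.l2).integrableOn) fun f gf hf _ => h3 f gf hf
  exact ⟨this.1, this.2.1⟩

end

end Vale.Agent.P363
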