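import Vale.Agent.P363.MVS1

/-! P363, block MV: the inequalities for a and c. -/

open MeasureTheory Set Metric Filter Topology
open scoped RealInnerProductSpace

namespace Vale.Agent.P363

noncomputable section

theorem mvea_am {m J k : ℝ} (h0 : 0 ≤ J) (h : J ≤ 8 * k) : m * √J ≤ 2 * m ^ 2 + k := by
  have h1 := Real.sq_sqrt h0
  nlinarith [sq_nonneg (4 * m - √J)]

theorem mvea_sq {f : E6 → ℝ} (hf : MemLp f 2 volume) : Integrable fun y => f y ^ 2 :=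
  (memLp_two_iff_integrable_sq hf.1).1 hf

theorem mvea_le {f : E6 → ℝ} (hf : MemLp f 2 volume) (s : Set E6) :
    ∫ y in s, f y ^ 2 ≤ ∫ y, f y ^ 2 :=
  setIntegral_le_integral (mvea_sq hf) (Eventually.of_forall fun _ => sq_nonneg _)

theorem mvea_split {w f g : E6 → ℝ} {s : Set E6} {β k : ℝ} (hs : MeasurableSet s) (hβ : 0 ≤ β)
    (hw : ∀ y, y ∉ s → |w y| ≤ β) (hf : MemLp f 2 volume) (hg : MemLp g 2 volume)
    (hwf : MemLp (fun y => w y * f y) 2 volume) (hwg : MemLp (fun y => w y * g y) 2 volume)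
    (hk : ∫ y, (w y * g y) ^ 2 ≤ 8 * k) :
    |∫ y, w y * f y * g y| ≤ β * √(∫ y, f y ^ 2) * √(∫ y, g y ^ 2) +
      (2 * √(∫ y in s, f y ^ 2) ^ 2 + k) := by
  rw [← integral_add_compl hs (cs_integral hwf hg).1, add_comm]
  refine (abs_add_le _ _).trans (add_le_add ?_ ?_)
  · refine (cs_integral (hwf.restrict sᶜ) (hg.restrict sᶜ)).2.trans
      (mul_le_mul ?_ (Real.sqrt_le_sqrt (mvea_le hg _)) (Real.sqrt_nonneg _) (by positivity))
    rw [← Real.sqrt_sq hβ, ← Real.sqrt_mul (sq_nonneg _)]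
    refine Real.sqrt_le_sqrt (le_trans ?_ (mul_le_mul_of_nonneg_left (mvea_le hf sᶜ) (sq_nonneg β)))
    rw [← integral_const_mul]
    refine setIntegral_mono_on (mvea_sq hwf).integrableOn
      ((mvea_sq hf).const_mul _).integrableOn hs.compl fun y hy => ?_
    rw [mul_pow]
    exact mul_le_mul_of_nonneg_right (sq_le_sq' (by linarith [abs_le.1 (hw y hy)])
      (abs_le.1 (hw y hy)).2) (sq_nonneg _)
  · have e : ∀ y, w y * f y * g y = f y * (w y * g y) := fun y => by ring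
    simp only [e]
    exact (cs_integral (hf.restrict s) (hwg.restrict s)).2.trans
      (mvea_am (integral_nonneg fun _ => sq_nonneg _) ((mvea_le hwg s).trans hk))

theorem mvea_Me (x : E3) (f : E6 → ℝ) : 0 ≤ ∫ y, Me x y * f y ^ 2 :=
  integral_nonneg fun y => mul_nonneg ((abs_nonneg _).trans (abs_Mo_le x y).1) (sq_nonneg _)

theorem mvea_meas (r : ℝ) : MeasurableSet {y : E6 | r < rho6 y} :=
  (isOpen_lt continuous_const (by unfold rho6; fun_prop)).measurableSet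

theorem mvea_R {L lam E0 : ℝ} (Z : O3) (S : E9 → ℝ) (x : E3) :
    fR L lam E0 ![Z] ![S] x = h2 L lam E0 Z Z x + sip S Z.f x := by
  simp [fR]

variable {c0 L lam C C1 C3 : ℝ} {ob : OB c0 L} (mb : MB ob lam C C1)

theorem MB.ea (h : Sl ob lam C C1 C3) : ∀ᵐ x : E3, C3 ≤ ‖x‖ →
    (V L x + mb.I + ob.del - C3 * lam) * mb.a x ^ 2 -
      lam * ((C * L * |x 2| / ‖x‖ ^ 3 + C3 * Real.exp (-‖x‖ / 20)) * |mb.d x| +
        4 * |x 2| / ‖x‖ ^ 2 * mb.c x) * mb.a x - 2 * lam * mb.m x ^ 2 ≤ mb.Ra x := by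
  filter_upwards [mb.h2_gap h mb.Ap, mb.orth, mb.sip_Sp, mb.Ap.sl_mem, mb.chi.sl_mem]
    with x g1 o1 s1 m1 m2 hx
  obtain ⟨q1, -, -, -, q5, -, q7⟩ := mb.sq_eq x
  have hC := h.hC
  have hC1 := h.hC1
  have c3 := h.c3
  have l0 := h.l0
  have g2 := (g1 o1.1).1
  rw [← q1] at g2
  have a0 : 0 ≤ mb.a x := by rw [q5]; exact Real.sqrt_nonneg _
  have t1 := mvea_Me x fun y => mb.Ap.f (x, y)
  have t2 : |∫ y, Mo x y * mb.P.f y * mb.Ap.f (x, y)| ≤
      (C * L * |x 2| / ‖x‖ ^ 3 + C3 * Real.exp (-‖x‖ / 20)) * mb.a x := by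
    refine (cs_integral (mb.P.memMe x).2.1 m1.1).2.trans ?_
    rw [← q5]
    refine mul_le_mul_of_nonneg_right ((mb.m2P x (by linarith)).trans (add_le_add le_rfl ?_)) a0
    exact mul_le_mul_of_nonneg_right (by linarith) (Real.exp_pos _).le
  have t3 := mvea_split (w := Mo x) (mvea_meas (‖x‖ / 2)) (β := 4 * |x 2| / ‖x‖ ^ 2)
    (by positivity) (fun y hy => Mo_near x y (not_lt.1 hy)) m2.1 m1.1 m2.2.2.2.1 m1.2.2.2.1
    m1.2.2.2.2
  rw [← q5, ← q7] at t3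
  have t4 : |mb.d x * ∫ y, Mo x y * mb.P.f y * mb.Ap.f (x, y)| ≤
      |mb.d x| * ((C * L * |x 2| / ‖x‖ ^ 3 + C3 * Real.exp (-‖x‖ / 20)) * mb.a x) := by
    rw [abs_mul]
    exact mul_le_mul_of_nonneg_left t2 (abs_nonneg _)
  have t5 := mul_le_mul_of_nonneg_left
    (add_le_add (add_le_add t1 (abs_le.1 t4).1) (abs_le.1 t3).1) l0.le
  have t6 : (C1 + 4 * C) * lam * mb.a x ^ 2 ≤ C3 * lam * mb.a x ^ 2 :=
    mul_le_mul_of_nonneg_right (mul_le_mul_of_nonneg_right (by linarith) l0.le) (sq_nonneg _)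
  rw [MB.Ra, mvea_R, s1, MB.m]
  linarith

theorem MB.ec (h : Sl ob lam C C1 C3) : ∀ᵐ x : E3,
    (V L x + mb.I + ob.del - C3 * lam) * mb.c x ^ 2 -
      lam * C3 / (1 + ‖x‖) ^ 2 * |mb.d x| * mb.c x - 2 * lam * mb.a x ^ 2 ≤ mb.Rc x := by
  filter_upwards [mb.h2_gap h mb.chi, mb.orth, mb.sip_Sc, mb.Ap.sl_mem, mb.chi.sl_mem]
    with x g1 o1 s1 m1 m2
  obtain ⟨-, -, q3, -, q5, -, q7⟩ := mb.sq_eq x
  have hC := h.hC
  have hC1 := h.hC1
  have c3 := h.c3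
  have l0 := h.l0
  have g2 := (g1 o1.2.1).1
  rw [← q3] at g2
  have a0 : 0 ≤ mb.c x := by rw [q7]; exact Real.sqrt_nonneg _
  have t1 := mvea_Me x fun y => mb.chi.f (x, y)
  have t2 : |∫ y, (Me x y - 2 / (1 + ‖x‖)) * mb.P.f y * mb.chi.f (x, y)| ≤
      C3 / (1 + ‖x‖) ^ 2 * mb.c x := by
    have hm : MemLp (fun y => (Me x y - 2 / (1 + ‖x‖)) * mb.P.f y) 2 volume := by
      simp only [sub_mul]
      exact (mb.P.memMe x).1.sub (mb.P.l2.1.const_mul _)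
    refine (cs_integral hm m2.1).2.trans ?_
    rw [← q7]
    refine mul_le_mul_of_nonneg_right ((mb.iP.mult (by linarith) x).1.trans ?_) a0
    exact div_le_div_of_nonneg_right (by linarith) (sq_nonneg _)
  have t3 : |∫ y, Mo x y * mb.chi.f (x, y) * mb.Ap.f (x, y)| ≤
      2 * mb.a x ^ 2 + k2 (mb.chi.sl x) := by
    refine (cs_integral m2.2.2.2.1 m1.1).2.trans ?_
    rw [← q5, mul_comm]
    exact mvea_am (integral_nonneg fun _ => sq_nonneg _) m2.2.2.2.2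
  have t4 : |mb.d x * ∫ y, (Me x y - 2 / (1 + ‖x‖)) * mb.P.f y * mb.chi.f (x, y)| ≤
      |mb.d x| * (C3 / (1 + ‖x‖) ^ 2 * mb.c x) := by
    rw [abs_mul]
    exact mul_le_mul_of_nonneg_left t2 (abs_nonneg _)
  have t5 := mul_le_mul_of_nonneg_left
    (add_le_add (add_le_add t1 (abs_le.1 t4).1) (abs_le.1 t3).1) l0.le
  have t6 : (C1 + 4 * C) * lam * mb.c x ^ 2 ≤ C3 * lam * mb.c x ^ 2 :=
    mul_le_mul_of_nonneg_right (mul_le_mul_of_nonneg_right (by linarith) l0.le) (sq_nonneg _)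
  rw [MB.Rc, mvea_R, s1, mul_div_assoc]
  linarith

theorem MB.tc : TZ univ mb.c := by
  have e : mb.c = nrm volume mb.chi.f := funext fun x => (mb.sq_eq x).2.2.2.2.2.2
  rw [e]
  exact mb.chi.h.h1.nrm_TZ (Eventually.of_forall fun w => (mb.par w.1 w.2).2.2.2.2.2.2.1)

theorem MB.sabc (U : Set E3) : SubQ U mb.a (fG ![mb.Ap]) mb.Ra ∧ SubQ U mb.b (fG ![mb.B]) mb.Rb ∧
    SubQ U mb.c (fG ![mb.chi]) mb.Rc := by
  refine ⟨(fam_eq fun j => ?_).subQ U, (fam_eq fun j => ?_).subQ U, (fam_eq fun j => ?_).subQ U⟩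
  · fin_cases j
    exact mb.veAp
  · fin_cases j
    exact mb.veB
  · fin_cases j
    exact mb.vechi

end

end Vale.Agent.P363
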