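import Vale.Agent.P363.MVG2

/-! P363, block MV: scalar consequences for log N, X ^ 2 and d ^ 2. -/

open MeasureTheory Set Metric Filter Topology
open scoped RealInnerProductSpace

namespace Vale.Agent.P363

noncomputable section

theorem mvs_int {U : Set E3} {f : E3 → ℝ} (h : Integrable f) : Loc1 U f :=
  fun _ _ _ => h.integrableOn

theorem mvs_add {U : Set E3} {f f' : E3 → ℝ} (h : Loc1 U f) (h' : Loc1 U f') :
    Loc1 U (fun x => f x + f' x) := fun K hK hKU => (h K hK hKU).add (h' K hK hKU)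

theorem mvs_sub {U : Set E3} {f f' : E3 → ℝ} (h : Loc1 U f) (h' : Loc1 U f') :
    Loc1 U (fun x => f x - f' x) := fun K hK hKU => (h K hK hKU).sub (h' K hK hKU)

theorem mvs_cmul {U : Set E3} {f : E3 → ℝ} (c : ℝ) (h : Loc1 U f) :
    Loc1 U (fun x => c * f x) := fun K hK hKU => (h K hK hKU).const_mul c

theorem mvs_const (U : Set E3) (c : ℝ) : Loc1 U (fun _ => c) := fun K hK _ => by
  have := ctst_fin hK
  exact integrable_const c

/-- The weak equation of the square. -/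
theorem mvs_eq {U : Set E3} {w K R ψ : E3 → ℝ} {g p : E3 → E3} (h : EqQ w g K R)
    (hb : LocB U w) (ht : Tst U ψ p) :
    ∫ x, ((1 / 2) * ⟪(2 * w x) • g x, p x⟫ + (K x + 2 * R x) * ψ x) = 0 := by
  have a := h.eq ψ p ht.ld ht.bd (csub_smul_tst ht (h.h.l1 U).ld.mf hb)
  refine Eq.trans ?_ ((congrArg (fun t => 2 * t) a).trans (mul_zero 2))
  rw [← integral_const_mul]
  refine integral_congr_ae (Eventually.of_forall fun x => ?_)
  simp only [real_inner_smul_left]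
  ring

theorem mvs_l1 {U : Set E3} (hU : IsOpen U) {w : E3 → ℝ} {g : E3 → E3} (h : L1 U w g)
    (hb : LocB U w) : L1 U (fun x => w x ^ 2) (fun x => (2 * w x) • g x) :=
  (h.mul hU h hb hb).congr hU (Eventually.of_forall fun x _ => pow_two _)
    (Eventually.of_forall fun x _ => by rw [two_mul, add_smul])

theorem mvs_sq {U : Set E3} (hU : IsOpen U) {w K R : E3 → ℝ} {g : E3 → E3} (h : EqQ w g K R)
    (hb : LocB U w) :
    Sub U (fun x => w x ^ 2) (fun x => (2 * w x) • g x) (fun x => K x + 2 * R x) :=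
  ⟨mvs_l1 hU (h.h.l1 U) hb, mvs_int (h.iK.add (h.iR.const_mul 2)),
    fun _ _ ht _ => (mvs_eq h hb ht).le⟩

/-- The logarithm of a positive solution of a weak equation for its square. -/
theorem mvs_log {U : Set E3} (hU : IsOpen U) {N S : E3 → ℝ} {g : E3 → E3} (h : L1 U N g)
    (lb : LocB U N) (hp : LocP U N) (hS : Loc1 U S)
    (he : ∀ ψ p, Tst U ψ p → ∫ x, ((1 / 2) * ⟪(2 * N x) • g x, p x⟫ + S x * ψ x) = 0) :
    Sub U (fun x => -Real.log (N x)) (fun x => -(N x)⁻¹ • g x)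
      (fun x => ‖g x‖ ^ 2 * (N x)⁻¹ * (N x)⁻¹ - (1 / 2) * (S x * (N x)⁻¹ * (N x)⁻¹)) := by
  have l1 := csub_inv_l1 hU h hp
  have li := csub_inv_b hp
  refine ⟨?_, mvs_sub (csub_loc1_mul (csub_loc1_mul h.l2g.sq l1.ld.mf li) l1.ld.mf li)
    (mvs_cmul _ (csub_loc1_mul (csub_loc1_mul hS l1.ld.mf li) l1.ld.mf li)), fun ψ p ht _ => ?_⟩
  · refine L1.of_le (a := fun _ => 0) (b := fun x => ‖g x‖) hU
      ((h.ld.log hU hp).neg.congr hU (Eventually.of_forall fun _ _ => rfl)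
        (Eventually.of_forall fun x _ => neg_smul _ _)) (ctst_loc2_zero U)
      (fun K hK hKU => (h.l2g K hK hKU).norm) fun K hK hKU => ?_
    obtain ⟨M, hM⟩ := li K hK hKU
    obtain ⟨M', hM'⟩ := lb K hK hKU
    obtain ⟨c, hc, hw⟩ := hp K hK hKU
    refine ⟨|M| + |M'|, ?_⟩
    filter_upwards [hM, hM', hw] with x a b d hx
    have h0 : 0 < N x := hc.trans_le (d hx)
    have a1 := (a hx).trans (le_abs_self M)
    have b1 := (b hx).trans (le_abs_self M')
    refine ⟨?_, ?_⟩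
    · rw [abs_zero, add_zero, mul_one, abs_neg, abs_le]
      have c1 := Real.log_le_sub_one_of_pos h0
      have c2 := Real.log_le_sub_one_of_pos (inv_pos.2 h0)
      rw [Real.log_inv] at c2
      have c3 := le_abs_self (N x)
      have c4 := le_abs_self (N x)⁻¹
      have c5 := abs_nonneg M
      have c6 := abs_nonneg M'
      constructor <;> linarith
    · rw [norm_smul, norm_neg, Real.norm_eq_abs, abs_norm]
      have c1 := mul_le_mul_of_nonneg_right a1 (norm_nonneg (g x))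
      nlinarith [abs_nonneg M, abs_nonneg M', mul_nonneg (abs_nonneg M') (norm_nonneg (g x))]
  · obtain ⟨K, hK, hKU, hz⟩ := ht.cpt
    obtain ⟨c, hc, hw⟩ := hp K hK hKU
    have a := he _ _ ((ht.mul hU l1 li).mul hU l1 li)
    refine le_of_eq (Eq.trans ?_ ((congrArg (fun t => -(1 / 2) * t) a).trans (mul_zero _)))
    rw [← integral_const_mul]
    refine integral_congr_ae ?_
    filter_upwards [hw] with x b
    by_cases hx : x ∈ K
    · have hw0 : N x ≠ 0 := (hc.trans_le (b hx)).ne'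
      simp only [inner_add_right, real_inner_smul_right, real_inner_smul_left,
        real_inner_self_eq_norm_sq]
      field_simp
      ring
    · simp only [(hz x hx).1, (hz x hx).2, smul_zero, zero_smul, add_zero, mul_zero,
        inner_zero_right]

theorem mvs_pt {n d X : ℝ} {a b c : E3} (h0 : 0 < n) (h1 : n ^ 2 = d ^ 2 + X ^ 2)
    (h2 : (2 * n) • c = (2 * d) • a + (2 * X) • b) :
    ‖a‖ ^ 2 - ‖c‖ ^ 2 ≤ 2 * (‖a‖ ^ 2 * X ^ 2 / n ^ 2) + ‖b‖ ^ 2 := by
  have e1 : (2 * n) ^ 2 * ‖c‖ ^ 2 =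
      (2 * d) ^ 2 * ‖a‖ ^ 2 + 2 * (2 * d * (2 * X * ⟪a, b⟫)) + (2 * X) ^ 2 * ‖b‖ ^ 2 := by
    have := congrArg (fun v : E3 => ‖v‖ ^ 2) h2
    simp only [norm_add_sq_real, norm_smul, mul_pow, Real.norm_eq_abs, sq_abs,
      real_inner_smul_left, real_inner_smul_right] at this
    simp only [mul_pow]
    linarith
  have e2 : 0 ≤ X ^ 2 * ‖a‖ ^ 2 + 2 * (X * (d * ⟪a, b⟫)) + d ^ 2 * ‖b‖ ^ 2 := by
    have := sq_nonneg ‖X • a + d • b‖
    simp only [norm_add_sq_real, norm_smul, mul_pow, Real.norm_eq_abs, sq_abs,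
      real_inner_smul_left, real_inner_smul_right] at this
    linarith
  have hn : 0 < n ^ 2 := pow_pos h0 2
  have e3 : n ^ 2 * (‖a‖ ^ 2 * X ^ 2 / n ^ 2) = ‖a‖ ^ 2 * X ^ 2 := by field_simp
  refine le_of_mul_le_mul_left ?_ hn
  have e4 := mul_nonneg (sq_nonneg X) (sq_nonneg ‖b‖)
  have e5 : n ^ 2 * ‖a‖ ^ 2 = d ^ 2 * ‖a‖ ^ 2 + X ^ 2 * ‖a‖ ^ 2 := by rw [h1]; ring
  have e6 : n ^ 2 * ‖b‖ ^ 2 = d ^ 2 * ‖b‖ ^ 2 + X ^ 2 * ‖b‖ ^ 2 := by rw [h1]; ring
  nlinarith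

theorem mv_scalar {U : Set E3} (hU : IsOpen U) {N d X Rd RX KX : E3 → ℝ} {gN gd gX : E3 → E3}
    (hN : H1 N gN) (hd : EqQ d gd (fun x => ‖gd x‖ ^ 2) (fun x => Rd x * d x))
    (hX : EqQ X gX KX RX) (lb : LocB U N)
    (h1 : ∀ᵐ x : E3, 0 ≤ N x ∧ 0 ≤ X x ∧ N x ^ 2 = d x ^ 2 + X x ^ 2)
    (h2 : ∀ᵐ x : E3, x ∈ U → |Rd x * d x| ≤ 2 * N x ^ 2 ∧ -(2 * N x ^ 2) ≤ RX x) :
    ∃ (ee : E3 → ℝ) (gq : E3 → E3), (∀ᵐ x : E3, 0 ≤ ee x ∧ ‖gq x‖ ^ 2 ≤ 4 * X x ^ 2 * ee x) ∧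
      Loc1 U ee ∧
      (LocP U N → Sub U (fun x => -Real.log (N x)) (fun x => -(N x)⁻¹ • gN x)
        (fun x => ‖gN x‖ ^ 2 / (2 * N x ^ 2) -
          (10 + ‖gd x‖ ^ 2 * X x ^ 2 / N x ^ 4 + 2 * ee x / N x ^ 2))) ∧
      Sub U (fun x => X x ^ 2) gq (fun x => ee x - 10 * N x ^ 2) ∧
      Sub U (fun x => d x ^ 2) (fun x => (2 * d x) • gd x)
        (fun x => ‖gd x‖ ^ 2 - 10 * N x ^ 2) := by
  have bd : LocB U d := fun K hK hKU => by
    obtain ⟨M, hM⟩ := lb K hK hKU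
    refine ⟨M, ?_⟩
    filter_upwards [hM, h1] with x a b hx
    exact (sq_le_sq.1 (by nlinarith [b.2.2, sq_nonneg (X x)])).trans (a hx)
  have bX : LocB U X := fun K hK hKU => by
    obtain ⟨M, hM⟩ := lb K hK hKU
    refine ⟨M, ?_⟩
    filter_upwards [hM, h1] with x a b hx
    exact (sq_le_sq.1 (by nlinarith [b.2.2, sq_nonneg (d x)])).trans (a hx)
  have iN : Integrable (fun x => N x ^ 2) := hN.l2.integrable_sq
  have ie : Integrable (fun x => KX x + max (2 * RX x + 10 * N x ^ 2) 0) :=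
    hX.iK.add ((hX.iR.const_mul 2).add (iN.const_mul 10)).pos_part
  have sX := mvs_sq hU hX bX
  have sd := mvs_sq hU hd bd
  refine ⟨fun x => KX x + max (2 * RX x + 10 * N x ^ 2) 0, fun x => (2 * X x) • gX x, ?_,
    mvs_int ie, fun hp => ?_, sX.monoR (mvs_int (ie.sub (iN.const_mul 10))) ?_,
    sd.monoR (mvs_int (hd.iK.sub (iN.const_mul 10))) ?_⟩
  · filter_upwards [hX.le] with x a
    have c1 := le_max_right (2 * RX x + 10 * N x ^ 2) 0
    have c2 := sq_nonneg ‖gX x‖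
    refine ⟨by linarith, ?_⟩
    rw [norm_smul, mul_pow, Real.norm_eq_abs, sq_abs]
    have c3 : ‖gX x‖ ^ 2 ≤ KX x + max (2 * RX x + 10 * N x ^ 2) 0 := by linarith
    have c4 := mul_le_mul_of_nonneg_left c3 (sq_nonneg (2 * X x))
    linarith
  · have hg : ∀ᵐ x : E3, (2 * N x) • gN x = (2 * d x) • gd x + (2 * X x) • gX x := by
      have a := (hN.ld.sq isOpen_univ).unique isOpen_univ
        (((hd.h.ld.sq isOpen_univ).add (hX.h.ld.sq isOpen_univ)).congr isOpen_univ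
          (h1.mono fun x a _ => a.2.2) (Eventually.of_forall fun _ _ => rfl))
      exact a.mono fun x a => a (mem_univ x)
    have l1 := csub_inv_l1 hU (hN.l1 U) hp
    have li := csub_inv_b hp
    have mX := (hX.h.l1 U).ld.mf
    have s := mvs_log (S := fun x => (‖gd x‖ ^ 2 + 2 * (Rd x * d x)) + (KX x + 2 * RX x)) hU
      (hN.l1 U) lb hp (mvs_add sd.li sX.li) fun ψ p ht => by
        have a := mvs_eq hd bd ht
        have b := mvs_eq hX bX ht
        have c := integral_add (csub_int ht sd.li sd.l1.l2g) (csub_int ht sX.li sX.l1.l2g)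
        rw [a, b, add_zero] at c
        refine Eq.trans ?_ c
        refine integral_congr_ae ?_
        filter_upwards [hg] with x e
        rw [e, inner_add_left]
        ring
    have m2 : ∀ {f : E3 → ℝ}, Loc1 U f → Loc1 U (fun x => f x * (N x)⁻¹ * (N x)⁻¹) :=
      fun h => csub_loc1_mul (csub_loc1_mul h l1.ld.mf li) l1.ld.mf li
    refine s.monoR ?_ ?_
    · have a := mvs_sub (mvs_cmul (1 / 2) (m2 (hN.l1 U).l2g.sq))
        (mvs_add (mvs_add (mvs_const U 10)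
          (m2 (m2 (csub_loc1_mul (csub_loc1_mul (hd.h.l1 U).l2g.sq mX bX) mX bX))))
          (mvs_cmul 2 (m2 (mvs_int ie))))
      refine (congrArg (Loc1 U) (funext fun x => ?_)).mp a
      simp only [div_eq_mul_inv, mul_inv, ← inv_pow]
      ring
    · filter_upwards [hg, h1, h2, hX.le] with x a b c e hx
      rcases b.1.eq_or_lt with h0 | h0
      · rw [← h0]
        norm_num
      have c1 := mvs_pt h0 b.2.2 a
      obtain ⟨c2, c3⟩ := c hx
      have c4 := (abs_le.1 c2).2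
      have hn : 0 < N x ^ 2 := pow_pos h0 2
      rw [max_eq_left (by linarith)]
      refine le_of_mul_le_mul_left ?_ hn
      have e1 : N x ^ 2 * (‖gN x‖ ^ 2 / (2 * N x ^ 2) - (10 + ‖gd x‖ ^ 2 * X x ^ 2 / N x ^ 4 +
          2 * (KX x + (2 * RX x + 10 * N x ^ 2)) / N x ^ 2)) = ‖gN x‖ ^ 2 / 2 - (10 * N x ^ 2 +
          ‖gd x‖ ^ 2 * X x ^ 2 / N x ^ 2 + 2 * (KX x + (2 * RX x + 10 * N x ^ 2))) := by
        field_simp
      have e2 : N x ^ 2 * (‖gN x‖ ^ 2 * (N x)⁻¹ * (N x)⁻¹ - (1 / 2) *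
          ((‖gd x‖ ^ 2 + 2 * (Rd x * d x) + (KX x + 2 * RX x)) * (N x)⁻¹ * (N x)⁻¹)) =
          ‖gN x‖ ^ 2 - (1 / 2) * (‖gd x‖ ^ 2 + 2 * (Rd x * d x) + (KX x + 2 * RX x)) := by
        field_simp
      rw [e1, e2]
      have c5 := sq_nonneg ‖gX x‖
      linarith
  · filter_upwards [h2] with x c hx
    have c1 := (c hx).2
    rw [max_eq_left (by nlinarith [sq_nonneg (N x)])]
    linarith
  · filter_upwards [h2] with x c hx
    have c1 := (abs_le.1 (c hx).1).1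
    nlinarith [sq_nonneg (N x)]

end

end Vale.Agent.P363
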