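import Vale.Agent.P363.MVw1

/-! P363, block MV: weighted bounds. -/

open MeasureTheory Set Metric Filter Topology
open scoped RealInnerProductSpace

namespace Vale.Agent.P363

noncomputable section

theorem mvw_rho_cont : Continuous rho6 := by
  unfold rho6
  fun_prop

theorem mvw_cont (R : ℝ) : Continuous fun y => Real.exp (wf R y) := by
  unfold wf
  exact Real.continuous_exp.comp ((mvw_rho_cont.min continuous_const).div_const 10)

theorem mvw_sq (R : ℝ) (y : E6) : Real.exp (wf R y) ^ 2 ≤ Real.exp (rho6 y / 5) := by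
  rw [← Real.exp_nat_mul, Real.exp_le_exp, wf]
  have := min_le_left (rho6 y) R
  push_cast
  linarith

theorem mvw_mem (R : ℝ) {f : E6 → ℝ} (hf : MemLp f 2 volume) :
    MemLp (fun y => Real.exp (wf R y) * f y) 2 volume := by
  refine MemLp.of_le_mul (c := Real.exp (R / 10)) hf
    ((mvw_cont R).aestronglyMeasurable.mul hf.1) (ae_of_all _ fun y => ?_)
  rw [norm_mul, Real.norm_eq_abs, abs_of_pos (Real.exp_pos _)]
  refine mul_le_mul_of_nonneg_right (Real.exp_le_exp.2 ?_) (norm_nonneg _)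
  exact div_le_div_of_nonneg_right (min_le_right _ _) (by norm_num)

theorem mvw_sg (R : ℝ) (y : E6) : wf R (sg6 y) = wf R y := by
  simp only [wf, rho6, sg6, norm_sg]

theorem mvw_loc (R C1 : ℝ) {f : E6 → ℝ} (hf : MemLp f 2 volume) :
    ∫ y in {y | rho6 y ≤ C1}, (Real.exp (wf R y) * f y) ^ 2 ≤
      Real.exp (C1 / 5) * ∫ y, f y * f y := by
  have hm : MeasurableSet {y | rho6 y ≤ C1} :=
    measurableSet_le mvw_rho_cont.measurable measurable_const
  have i1 : Integrable fun y => Real.exp (C1 / 5) * (f y * f y) := (cabs_mul hf hf).const_mul _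
  rw [← integral_const_mul]
  refine le_trans (setIntegral_mono_on (mvw_mem R hf).integrable_sq.integrableOn i1.integrableOn hm
    fun y hy => ?_) (setIntegral_le_integral i1 (ae_of_all _ fun y =>
      mul_nonneg (Real.exp_pos _).le (mul_self_nonneg _)))
  rw [mul_pow, sq (f y)]
  refine mul_le_mul_of_nonneg_right ((mvw_sq R y).trans (Real.exp_le_exp.2 ?_))
    (mul_self_nonneg _)
  exact div_le_div_of_nonneg_right hy (by norm_num)

theorem mvw_far {R r : ℝ} (hr0 : 0 ≤ r) (hr : r ≤ R) {f : E6 → ℝ} (hf : MemLp f 2 volume) :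
    √(∫ y in {y : E6 | r / 2 < rho6 y}, f y ^ 2) ≤
      Real.exp (-r / 20) * √(∫ y, (Real.exp (wf R y) * f y) ^ 2) := by
  have hm : MeasurableSet {y : E6 | r / 2 < rho6 y} :=
    measurableSet_lt measurable_const mvw_rho_cont.measurable
  have i1 : Integrable fun y => Real.exp (-r / 20) ^ 2 * (Real.exp (wf R y) * f y) ^ 2 :=
    (mvw_mem R hf).integrable_sq.const_mul _
  rw [← Real.sqrt_sq (Real.exp_pos (-r / 20)).le, ← Real.sqrt_mul (sq_nonneg _),
    ← integral_const_mul]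
  refine Real.sqrt_le_sqrt (le_trans (setIntegral_mono_on hf.integrable_sq.integrableOn
    i1.integrableOn hm fun y hy => ?_) (setIntegral_le_integral i1 (ae_of_all _ fun y =>
      mul_nonneg (sq_nonneg _) (sq_nonneg _))))
  have hy : r / 2 < rho6 y := hy
  have h1 : 1 ≤ Real.exp (-r / 20) * Real.exp (wf R y) := by
    rw [← Real.exp_add]
    refine Real.one_le_exp ?_
    have : r / 2 ≤ min (rho6 y) R := le_min hy.le (by linarith)
    rw [wf]
    linarith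
  rw [← mul_pow, ← mul_assoc, mul_pow]
  exact le_mul_of_one_le_left (sq_nonneg _) (one_le_pow₀ h1)

theorem mvw_half {f g : E6 → ℝ} (hf : MemLp f 2 volume) (hg : MemLp g 2 volume)
    (h : ∀ y, g y = (f y + f (sg6 y)) / 2) : ∫ y, g y ^ 2 ≤ ∫ y, f y * f y := by
  have i1 := cabs_mul hf hf
  have hf' : MemLp (fun y => f (sg6 y)) 2 volume := hf.comp_measurePreserving mp_sg6
  have i2 := cabs_mul hf' hf'
  have i3 : Integrable fun y => 1 / 2 * (f y * f y) + 1 / 2 * (f (sg6 y) * f (sg6 y)) :=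
    (i1.const_mul _).add (i2.const_mul _)
  have h1 := integral_mono hg.integrable_sq i3 fun y => by
    simp only [h y]
    nlinarith [sq_nonneg (f y - f (sg6 y))]
  rw [integral_add (i1.const_mul _) (i2.const_mul _), integral_const_mul, integral_const_mul,
    integral_sg6 fun y => f y * f y] at h1
  linarith

variable {c0 L lam C C1 C3 : ℝ} {ob : OB c0 L} (mb : MB ob lam C C1)

theorem mvw_P (hC : 1 ≤ C1) (R : ℝ) : √(∫ y, (Real.exp (wf R y) * mb.P.f y) ^ 2) ≤ C1 := by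
  have h1 : ∫ y, (Real.exp (wf R y) * mb.P.f y) ^ 2 ≤ C1 := by
    refine le_trans (integral_mono (mvw_mem R mb.P.l2.1).integrable_sq mb.iP.wt.1 fun y => ?_)
      mb.iP.wt.2
    simp only [mul_pow]
    exact mul_le_mul_of_nonneg_right (mvw_sq R y) (sq_nonneg _)
  rw [Real.sqrt_le_iff]
  exact ⟨by linarith, by nlinarith⟩

theorem mvw_low (h : Sl ob lam C C1 C3) {R : ℝ} {Y : O3} {Rw : E3 → ℝ}
    (hY : ∀ w, Y.f w = Real.exp (wf R w.2) * mb.A.f w)
    (hR : ∀ᵐ x : E3, h2 L lam mb.E0 Y Y x - (1 / 100) * sip Y.f Y.f x +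
      ∫ y, Real.exp (wf R y) * mb.src mb.A (x, y) * Y.f (x, y) ≤ Rw x) :
    ∀ᵐ x : E3, (V L x + mb.I + 6 / 25) * sip Y.f Y.f x -
      C1 * Real.exp (C1 / 5) * mb.N x ^ 2 ≤ Rw x := by
  filter_upwards [hR, h2_eq L lam mb.E0 Y Y, Y.sl_ae, mb.sip_src Y, mb.A.sl_mem]
    with x hx h1 h2 h3 h4
  have a1 := mb.loc (Y.sl x)
  have a2 : ∫ y in {y | rho6 y ≤ C1}, (Y.sl x).f y ^ 2 ≤
      Real.exp (C1 / 5) * sip mb.A.f mb.A.f x := by
    simp only [h2.1, hY]
    exact mvw_loc R C1 h4.1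
  have a3 : ∫ y, Real.exp (wf R y) * mb.src mb.A (x, y) * Y.f (x, y) =
      sip (mb.src Y) Y.f x := by
    refine integral_congr_ae (ae_of_all _ fun y => ?_)
    simp only [MB.src, hY]
    ring
  have a4 : 0 ≤ lam * ∫ y, Mx x y * Y.f (x, y) ^ 2 :=
    mul_nonneg h.l0.le (integral_nonneg fun y => mul_nonneg (abs_Mo_le x y).2.1 (sq_nonneg _))
  have a5 : sip mb.A.f mb.A.f x ≤ mb.N x ^ 2 := by
    rw [(mb.sq_eq x).2.2.2.1]
    linarith [sip_nonneg mb.B.f x]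
  have a6 := mul_le_mul_of_nonneg_left
    (a2.trans (mul_le_mul_of_nonneg_left a5 (Real.exp_pos _).le)) (by linarith [h.hC1] : 0 ≤ C1)
  rw [a3, h3, h1.1] at hx
  rw [← h1.2] at a1 hx
  linarith

theorem mvw_glob (h : Sl ob lam C C1 C3) {w K Rw : E3 → ℝ} {gw : E3 → E3} (hE : EqQ w gw K Rw)
    {c : ℝ} (hc : 0 ≤ c)
    (hR : ∀ᵐ x : E3, (V L x + mb.I + 6 / 25) * w x ^ 2 - c * mb.N x ^ 2 ≤ Rw x) :
    ∫ x, w x ^ 2 ≤ 30 * c := by
  have i1 : Integrable fun x => V L x * w x ^ 2 := by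
    simpa only [sq, mul_assoc] using (q1_int hE.h hE.h L).2.1
  have i2 := hE.h.l2.integrable_sq
  have i3 := mb.eqN.h.l2.integrable_sq
  have i4 : Integrable fun x => V L x * w x ^ 2 + (mb.I + 6 / 25) * w x ^ 2 :=
    i1.add (i2.const_mul _)
  have a1 : ∫ x, (V L x * w x ^ 2 + (mb.I + 6 / 25) * w x ^ 2 - c * mb.N x ^ 2) ≤ ∫ x, Rw x :=
    integral_mono_ae (i4.sub (i3.const_mul _)) hE.iR (hR.mono fun x hx => by
      simp only
      linarith)
  rw [integral_sub i4 (i3.const_mul _), integral_add i1 (i2.const_mul _), integral_const_mul,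
    integral_const_mul, mb.mass] at a1
  have a2 : ∫ x, ‖gw x‖ ^ 2 ≤ ∫ x, K x :=
    integral_mono_ae hE.h.l2g.norm.integrable_sq hE.iK hE.le
  have a3 := hE.total
  have a4 := ob.lower h.om hE.h
  have a5 : 0 ≤ ∫ x, w x ^ 2 := integral_nonneg fun x => sq_nonneg _
  have a6 := (abs_le.1 h.sm.eg).1
  have a7 := (mb.I_mem h).1
  have a8 : 21 / 100 * ∫ x, w x ^ 2 ≤ (ob.eg + (mb.I + 6 / 25)) * ∫ x, w x ^ 2 :=
    mul_le_mul_of_nonneg_right (by linarith) a5
  linarith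

theorem mvw_m (hC : 1 ≤ C1) {R : ℝ} {Y : O3}
    (hY : ∀ w, Y.f w = Real.exp (wf R w.2) * mb.A.f w) :
    ∀ᵐ x : E3, ‖x‖ ≤ R →
      mb.m x ≤ Real.exp (-‖x‖ / 20) * (√(sip Y.f Y.f x) + C1 * mb.N x) := by
  filter_upwards [mb.chi.sl_mem, mb.Am.sl_mem, Y.sl_mem, mb.alg] with x h1 h2 h3 h4 hx
  refine (mvw_far (norm_nonneg x) hx h1.1).trans
    (mul_le_mul_of_nonneg_left ?_ (Real.exp_pos _).le)
  have m1 := mvw_mem R h2.1
  have m2 := mvw_mem R mb.P.l2.1
  have e : ∀ y, Real.exp (wf R y) * mb.chi.f (x, y) =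
      Real.exp (wf R y) * mb.Am.f (x, y) + -mb.d x * (Real.exp (wf R y) * mb.P.f y) := fun y => by
    rw [(mb.par x y).2.2.2.2.2.1]; ring
  simp only [e]
  refine (cabs_tri m1 (m2.const_mul (-mb.d x))).trans (add_le_add ?_ ?_)
  · refine Real.sqrt_le_sqrt (mvw_half h3.1 m1 fun y => ?_)
    rw [hY, hY, mvw_sg, (mb.par x y).2.2.2.2.1, (mb.par x (sg6 y)).2.2.2.2.1, (mb.par x y).2.2.1,
      (mb.par x y).2.2.2.1]
    ring
  · simp only [mul_pow (-mb.d x)]
    rw [integral_const_mul, Real.sqrt_mul (sq_nonneg _), Real.sqrt_sq_eq_abs, abs_neg, mul_comm]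
    have hN : 0 ≤ mb.N x := Real.sqrt_nonneg _
    refine mul_le_mul (mvw_P mb hC R) ?_ (abs_nonneg _) (by linarith)
    refine abs_le_of_sq_le_sq ?_ hN
    rw [h4.2.2.2.2.2.2.1]
    linarith [sq_nonneg (mb.X x)]

theorem MB.wt (h : Sl ob lam C C1 C3) (h3 : 30 * C1 * Real.exp (C1 / 5) ≤ C3) (R : ℕ) :
    ∃ (w : E3 → ℝ) (gw : E3 → E3) (Rw : E3 → ℝ), SubQ (D L) w gw Rw ∧
      MemLp w 2 volume ∧ ∫ x, w x ^ 2 ≤ C3 ∧ ∀ᵐ x : E3, 0 ≤ w x ∧
        (V L x + mb.I + 1 / 5) * w x ^ 2 - C3 * mb.N x ^ 2 ≤ Rw x ∧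
        (‖x‖ ≤ R → mb.m x ≤ Real.exp (-‖x‖ / 20) * (w x + C3 * mb.N x)) := by
  obtain ⟨Y, Rw, hY, hE, hR⟩ := mb.veA.weight (R := R) (Nat.cast_nonneg R)
  have e1 : ∀ x, fW ![Y] x = √(sip Y.f Y.f x) := fun x => by simp [fW]
  have e2 : ∀ x, sip Y.f Y.f x = fW ![Y] x ^ 2 := fun x => by
    rw [e1, Real.sq_sqrt (sip_nonneg _ _)]
  have hlow := mvw_low mb h hY hR
  simp only [e2] at hlow
  have hc : 0 ≤ C1 * Real.exp (C1 / 5) := mul_nonneg (by linarith [h.hC1]) (Real.exp_pos _).le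
  have hg := mvw_glob mb h hE hc hlow
  have hC : C1 ≤ C3 := by linarith [h.c3, h.hC, h.hC1]
  refine ⟨_, _, Rw, hE.subQ _, hE.h.l2, by linarith, ?_⟩
  filter_upwards [hlow, mvw_m mb h.hC1 hY] with x h1 h2
  have hN : 0 ≤ mb.N x := Real.sqrt_nonneg _
  refine ⟨Real.sqrt_nonneg _, ?_, fun hx => (h2 hx).trans ?_⟩
  · have a1 : C1 * Real.exp (C1 / 5) * mb.N x ^ 2 ≤ C3 * mb.N x ^ 2 :=
      mul_le_mul_of_nonneg_right (by linarith) (sq_nonneg _)
    nlinarith [sq_nonneg (fW ![Y] x)]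
  · rw [e1]
    exact mul_le_mul_of_nonneg_left (add_le_add_right (mul_le_mul_of_nonneg_right hC hN) _)
      (Real.exp_pos _).le

end

end Vale.Agent.P363
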