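import Vale.Agent.P363.MVeN
import Vale.Agent.P363.MVeX
import Vale.Agent.P363.MVea
import Vale.Agent.P363.MVeT
import Vale.Agent.P363.MVw
import Vale.Agent.P363.MVc3
import Vale.Agent.P363.MVk
import Vale.Agent.P363.MVs

/-! P363, block MV. -/

open MeasureTheory Set Metric Filter Topology
open scoped RealInnerProductSpace

namespace Vale.Agent.P363

theorem mv_ev {a b : ℝ} (hb : 0 < b) : ∀ᶠ lam in 𝓝[>] (0 : ℝ), a * lam ≤ b := by
  have h1 : Tendsto (fun lam : ℝ => a * lam) (𝓝 0) (𝓝 (a * 0)) := tendsto_id.const_mul a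
  rw [mul_zero] at h1
  exact nhdsWithin_le_nhds (h1.eventually (ge_mem_nhds hb))

theorem mv_V {L r1 : ℝ} (hL : 0 ≤ L) (h : L + 20 ≤ r1) {x : E3} (hx : x ∈ Ext r1) :
    |V L x| ≤ 1 / 10 := by
  have h1 := abs_le.1 (abs_rA_sub hL x).1
  have h2 := abs_le.1 (abs_rA_sub hL x).2
  have h3 : r1 < ‖x‖ := hx
  have a1 : (rA L x)⁻¹ ≤ 20⁻¹ := inv_anti₀ (by norm_num) (by linarith)
  have a2 : (rB L x)⁻¹ ≤ 20⁻¹ := inv_anti₀ (by norm_num) (by linarith)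
  have b1 : 0 ≤ (rA L x)⁻¹ := inv_nonneg.2 (norm_nonneg _)
  have b2 : 0 ≤ (rB L x)⁻¹ := inv_nonneg.2 (norm_nonneg _)
  rw [V, abs_neg, abs_of_nonneg (by linarith)]
  linarith

theorem mv_far {c0 L lam C C1 C3 r1 : ℝ} {ob : OB c0 L} (mb : MB ob lam C C1)
    (h : Sl ob lam C C1 C3) (hr : L + 20 ≤ r1) : ∀ᵐ x : E3, x ∈ Ext r1 →
      |mb.Rd x * mb.d x| ≤ 2 * mb.N x ^ 2 ∧ -(2 * mb.N x ^ 2) ≤ mb.RX x := by
  have hI := mb.I_mem h
  have l0 := h.l0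
  have l2 := h.l2
  have hC3 : 8 ≤ C3 := by linarith [h.c3, h.hC, h.hC1]
  have l3 : lam ≤ 1 / 800 := by nlinarith
  filter_upwards [mb.ed h, mb.eX h, mb.alg] with x h1 h2 h3 hx
  obtain ⟨-, -, -, X0, -, -, hN, -⟩ := h3
  have hV := abs_le.1 (mv_V (by linarith [h.sm.L]) hr hx)
  have p : 1 ≤ 1 + ‖x‖ := by simp
  have t0 : 0 ≤ lam * C3 / (1 + ‖x‖) ^ 2 := by positivity
  have t1 : lam * C3 / (1 + ‖x‖) ^ 2 ≤ 1 / 100 :=
    (div_le_self (by positivity) (one_le_pow₀ p)).trans (by linarith)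
  have t2 : 0 ≤ 2 * lam / (1 + ‖x‖) := by positivity
  have t3 : 2 * lam / (1 + ‖x‖) ≤ 1 / 100 := (div_le_self (by positivity) p).trans (by linarith)
  generalize lam * C3 / (1 + ‖x‖) ^ 2 = t at *
  generalize 2 * lam / (1 + ‖x‖) = s at *
  have d0 := abs_nonneg (mb.d x)
  have d2 := sq_abs (mb.d x)
  have dX : 2 * (|mb.d x| * mb.X x) ≤ mb.N x ^ 2 := by nlinarith [sq_nonneg (|mb.d x| - mb.X x)]
  have dX0 := mul_nonneg d0 X0
  constructor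
  · have a1 : |(V L x + mb.I + s) * mb.d x| ≤ |mb.d x| := by
      rw [abs_mul]
      exact mul_le_of_le_one_left d0 (abs_le.2 ⟨by linarith, by linarith⟩)
    have a2 : |mb.Rd x| ≤ |mb.d x| + t * (|mb.d x| + mb.X x) := by
      linarith [abs_sub_abs_le_abs_sub (mb.Rd x) ((V L x + mb.I + s) * mb.d x)]
    have a3 : t * (|mb.d x| + mb.X x) ≤ (1 / 100) * (|mb.d x| + mb.X x) := by gcongr
    rw [abs_mul]
    nlinarith [sq_nonneg (mb.X x), mul_le_mul_of_nonneg_right (a2.trans (add_le_add le_rfl a3)) d0]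
  · have a1 : 0 ≤ (V L x + mb.I + ob.del - C3 * lam) * mb.X x ^ 2 :=
      mul_nonneg (by linarith) (sq_nonneg _)
    nlinarith [mul_le_mul_of_nonneg_right t1 dX0]

theorem vb_main : T_VB := by
  intro c0 hc0 hc8 r0 C C2 hC hC2
  obtain ⟨K, hK⟩ := MB.bd
  refine ⟨10, by norm_num, ?_⟩
  filter_upwards [mv_ev (a := 1) hc0, mv_ev (a := 1) (by norm_num : (0 : ℝ) < 1 / 100)]
    with ω w1 w2
  filter_upwards [eventually_ge_atTop (1 : ℝ)] with L hL ob hob C1 hC1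
  rw [one_mul] at w1 w2
  have hs : Sm ob := ⟨⟨hc0, hc8⟩, hL, hob.sg.trans w2, hob.su.trans w2⟩
  have hom : ob.eu ≤ -1 / 2 + c0 := by linarith [(abs_le.1 hob.su).2]
  obtain ⟨C3, c1, c2, c3⟩ : ∃ C3 : ℝ, 2 * C1 + 4 * C2 + 2 ≤ C3 ∧ K ≤ C3 ∧
      30 * C1 * Real.exp (C1 / 5) ≤ C3 :=
    ⟨max (2 * C1 + 4 * C2 + 2) (max K (30 * C1 * Real.exp (C1 / 5))), le_max_left _ _,
      (le_max_left _ _).trans (le_max_right _ _), (le_max_right _ _).trans (le_max_right _ _)⟩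
  refine ⟨C3, by linarith, ?_⟩
  filter_upwards [eventually_ge_atTop (L + 20)] with r1 hr ε hε
  have hδ : 0 < ob.del := sub_pos.2 ob.lt
  filter_upwards [self_mem_nhdsWithin, mv_ev (a := C1 + 2) hδ,
    mv_ev (a := C3) (by norm_num : (0 : ℝ) < 1 / 100), mv_ev (a := 2 * C1) hε,
    close_all (C := C2) (C1 := C1) (C3 := C3) ob (3 * r1) hε,
    comp_pair (C := C2) (C1 := C1) (C3 := C3) ob] with lam l0 l1 l2 l3 hcl hcp mb
  have h : Sl ob lam C2 C1 C3 := ⟨hs, hom, hC2, hC1, l0, l1, l2, c1⟩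
  have oD := isOpen_D L
  have hED : Ext r1 ⊆ D L := Ext_subset_D (by linarith) (by linarith)
  have nn : ∀ x, 0 ≤ mb.N x := fun x => Real.sqrt_nonneg _
  obtain ⟨ee, gq, s1, s2, s3, s4, s5⟩ := mv_scalar (isOpen_Ext r1) mb.eqN.h
    (EqQ.of_eq mb.eqd.1 mb.eqd.2.1 mb.eqd.2.2) mb.eqX
    (fun Q hQ hQU => mb.lb h Q hQ (hQU.trans hED))
    (mb.alg.mono fun x hx => ⟨nn x, hx.2.2.2.1, hx.2.2.2.2.2.2.1⟩) (mv_far mb h hr)
  rw [mb.N_eq]
  refine ⟨mb.gN, ⟨{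
    d := mb.d, a := mb.a, b := mb.b, c := mb.c, X := mb.X, m := mb.m, dT := mb.dT, dS := mb.dS
    gd := mb.gd, ga := fG ![mb.Ap], gb := fG ![mb.B], gc := fG ![mb.chi], gX := fG mb.ZX
    gT := gprj mb.T mb.B, gS := gprj mb.S mb.Ap, RN := mb.RN, Rd := mb.Rd, Ra := mb.Ra
    Rb := mb.Rb, Rc := mb.Rc, RX := mb.RX, RT := mb.RT, RS := mb.RS, ee := ee, gq := gq
    δT := mb.ET - mb.E0, δS := mb.ES - mb.E0, Dp := mb.Dp
    hI := mb.I_bd.trans (mul_le_mul_of_nonneg_right (by linarith) (le_of_lt l0))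
    nb := fun hp => ⟨mb.I_bd.trans l3, mb.eqN.h, nn, fun x => (mb.N_ev x).1, mb.mass, mb.lb h, hp,
      mb.subN h _, hcp mb h, (hcl mb h).mono fun x hx hB => (hx hB).2⟩
    h := mb.eqN.h
    nn := nn
    ev := fun x => (mb.N_ev x).1
    lb := mb.lb h
    sub := mb.subN h _
    bd := (hK mb h).mono fun x hx hB => (hx hB).trans c2
    hd := mb.eqd.1
    sym := ae_of_all _ fun x => ⟨(mb.par x 0).2.2.2.2.2.2.2.2.2, (mb.N_ev x).2⟩
    alg := mb.alg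
    par := mb.parb h
    sN := mb.eqN.subQ _
    eN := mb.eN h
    sd := mb.sd _ oD
    ed := mb.ed h
    sX := mb.eqX.subQ _
    eX := mb.eX h
    sb := (mb.sabc _).2.1
    eb := mb.eb h
    wt := mb.wt h c3
    sa := (mb.sabc _).1
    ea := mb.ea h
    sc := (mb.sabc _).2.2
    ec := mb.ec h
    tc := mb.tc
    sT := mb.subT _ oD
    eT := mb.eT h
    sS := mb.subS _ oD
    eS := mb.eS h
    close := (hcl mb h).mono fun x hx hB => (hx hB).1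
    nq := s1
    lee := s2
    sL := s3
    sq := s4
    sd2 := s5 }⟩⟩

end Vale.Agent.P363
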