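import Vale.Agent.P363.NDa

/-! P363, block ND: first barrier. -/

open MeasureTheory Set Metric Filter Topology
open scoped RealInnerProductSpace

namespace Vale.Agent.P363

noncomputable section

variable {L δ lam r1 I C G τ A : ℝ} {g N : E3 → ℝ}

theorem nd1_w {r : ℝ} (hr : 0 ≤ r) : 1 ≤ (1 + r) ^ 3 * (1 + r) ^ (-(5 / 2) : ℝ) := by
  rw [← Real.rpow_natCast, ← Real.rpow_add (by linarith)]
  exact Real.one_le_rpow (by linarith) (by norm_num)

theorem nd1_dec (h : NX L δ lam r1 I G) {x : E3} (hx : x ∈ Ext r1) :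
    G * (1 + ‖x‖) ^ 8 * Ye L (kT lam I δ) 0 x ≤ Real.exp (-√(2 * I) * ‖x‖) := by
  refine (h.decY h.ks.2.1 hx).trans (Real.exp_le_exp.2 ?_)
  obtain ⟨a1, a2, a3, -, -, -, -, -, a4, -⟩ := h.ord
  have := h.d0
  exact mul_le_mul_of_nonneg_right (by linarith) (norm_nonneg x)

theorem nd1_cap {C G τ r w Y Y0 R b f fA : ℝ} (hC : 1 ≤ C) (hτ : 0 < τ) (hG : 1 ≤ G)
    (hGτ : 1000 * C ^ 7 ≤ G * τ) (hr : 1 ≤ r) (hw : 1 ≤ (1 + r) ^ 3 * w) (hY : 0 < Y)
    (hY0 : 0 < Y0) (hR : 0 < R) (h1 : Y ≤ C * Y0) (h2 : G * (1 + r) ^ 8 * Y0 ≤ r * f)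
    (h3 : G * r ^ 3 * R ≤ b) (h4 : 1000 * b ≤ f) (hf : 0 < f) (h5 : f ≤ C * fA) :
    10 * C ^ 3 * (Y + R) ≤ 1 / (20 * C ^ 2) * (τ * w * fA) := by
  have r0 : 0 < r := by linarith
  have C0 : 0 < C := by linarith
  have w0 : 0 < w := by
    by_contra hc
    have := mul_le_mul_of_nonneg_left (not_lt.1 hc) (by positivity : 0 ≤ (1 + r) ^ 3)
    linarith
  have a1 : G * (1 + r) ^ 3 * Y0 ≤ f := by
    have b1 : r ≤ (1 + r) ^ 5 := by
      have : (1 + r) ^ 1 ≤ (1 + r) ^ 5 := pow_le_pow_right₀ (by linarith) (by norm_num)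
      linarith
    have b2 := mul_le_mul_of_nonneg_right b1 (by positivity : 0 ≤ G * (1 + r) ^ 3 * Y0)
    refine le_of_mul_le_mul_left ?_ r0
    calc r * (G * (1 + r) ^ 3 * Y0) ≤ _ := b2
      _ = G * (1 + r) ^ 8 * Y0 := by ring
      _ ≤ _ := h2
  have a2 : G * (1 + r) ^ 3 * R ≤ f := by
    have b1 : (1 + r) ^ 3 ≤ (2 * r) ^ 3 := pow_le_pow_left₀ (by linarith) (by linarith) 3
    have b2 := mul_le_mul_of_nonneg_right b1 (by positivity : 0 ≤ G * R)
    have b3 : 0 < G * r ^ 3 * R := by positivity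
    linarith
  have a3 : G * (1 + r) ^ 3 * (Y + R) ≤ 2 * C * f := by
    have b1 := mul_le_mul_of_nonneg_left h1 (by positivity : 0 ≤ G * (1 + r) ^ 3)
    have b2 := mul_le_mul_of_nonneg_left a1 C0.le
    have b3 := mul_le_mul_of_nonneg_right hC hf.le
    linarith
  have a4 : G * (Y + R) ≤ 2 * C * (w * f) := by
    have b1 := mul_le_mul_of_nonneg_right hw (by positivity : 0 ≤ G * (Y + R))
    have b2 := mul_le_mul_of_nonneg_left a3 w0.le
    linarith
  have a5 : 1000 * C ^ 7 * (Y + R) ≤ 2 * C ^ 2 * (τ * w * fA) := by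
    have b1 := mul_le_mul_of_nonneg_right hGτ (by positivity : 0 ≤ Y + R)
    have b2 := mul_le_mul_of_nonneg_left a4 hτ.le
    have b3 := mul_le_mul_of_nonneg_left h5 (by positivity : 0 ≤ 2 * C * τ * w)
    linarith
  rw [one_div, inv_mul_eq_div, le_div_iff₀ (by positivity)]
  refine le_of_mul_le_mul_left ?_ (by positivity : 0 < 2 * C ^ 2)
  have b1 : 0 < C ^ 7 * (Y + R) := by positivity
  linarith

theorem nd1_last {C G r Y Y0 R b U Uo n : ℝ} (hC : 1 ≤ C) (hG : 1000 * C ^ 7 ≤ G) (hr : 1 ≤ r)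
    (hY : 0 < Y) (hY0 : 0 < Y0) (hR : 0 < R) (hb : 0 < b) (h1 : Y ≤ C * Y0)
    (h2 : G * (1 + r) ^ 8 * Y0 ≤ r ^ 2 * b) (h3 : G * r ^ 3 * R ≤ b) (h4 : b ≤ C * Uo)
    (h5 : Uo ≤ C * n) (h6 : U ≤ C * Uo) :
    10 * (10 * C ^ 3 * (Y + R) + 1 / (20 * C ^ 2) * U) ≤ n := by
  have r0 : 0 < r := by linarith
  have C0 : 0 < C := by linarith
  have G0 : 0 < G := lt_of_lt_of_le (by positivity) hG
  have a0 := mul_le_mul_of_nonneg_left h5 C0.le
  have n0 : 0 < n := by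
    by_contra hc
    have := mul_le_mul_of_nonneg_left (not_lt.1 hc) (by positivity : 0 ≤ C * C)
    linarith
  have a1 : G * Y0 ≤ b := by
    have b1 : r ^ 2 ≤ (1 + r) ^ 8 :=
      (pow_le_pow_left₀ r0.le (by linarith) 2).trans
        (pow_le_pow_right₀ (by linarith) (by norm_num))
    have b2 := mul_le_mul_of_nonneg_right b1 (by positivity : 0 ≤ G * Y0)
    refine le_of_mul_le_mul_left ?_ (pow_pos r0 2)
    linarith
  have a2 : G * R ≤ b := by
    have b1 := mul_le_mul_of_nonneg_right (one_le_pow₀ hr : 1 ≤ r ^ 3) (by positivity : 0 ≤ G * R)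
    linarith
  have a3 : G * (Y + R) ≤ 2 * C * b := by
    have b1 := mul_le_mul_of_nonneg_left h1 G0.le
    have b2 := mul_le_mul_of_nonneg_left a1 C0.le
    have b3 := mul_le_mul_of_nonneg_right hC hb.le
    linarith
  have a4 : 100 * C ^ 3 * (Y + R) ≤ n / 2 := by
    have b1 := mul_le_mul_of_nonneg_right hG (by positivity : 0 ≤ Y + R)
    have b2 := mul_le_mul_of_nonneg_left (h4.trans a0) (by positivity : 0 ≤ 2 * C)
    have b3 := mul_le_mul_of_nonneg_right hC (by positivity : 0 ≤ C ^ 6 * (Y + R))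
    refine le_of_mul_le_mul_left ?_ (pow_pos C0 3)
    have b4 : 0 < C ^ 3 * n := by positivity
    linarith
  have a5 : 1 / (20 * C ^ 2) * U ≤ n / 20 := by
    rw [one_div, inv_mul_eq_div, div_le_iff₀ (by positivity)]
    linarith
  linarith

theorem NH.b1 (h : NH L δ lam r1 I C G τ A g N) : ∃ B, XB r1 g N (Vf L lam I) B ∧
    ∀ᵐ x : E3, x ∈ Ext r1 → 1 ≤ x 2 → 10 * B x ≤ N x := by
  have nx := h.nx
  have hC := h.hC
  have C0 : 0 < C := by linarith
  obtain ⟨gY, lY, cY, hY⟩ := h.ev _ nx.ks.2.1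
  obtain ⟨U, gU, lU, cU, hU⟩ := h.od
  obtain ⟨gR, lR, cR, hR⟩ := nx.rs_super le_rfl (by norm_num)
  have hz : ∀ z, Hz 0 z = 1 := fun z => by simp [Hz]
  simp only [hz, one_mul, mul_zero, zero_mul, zero_sub] at cR hR
  have hO := isOpen_Ext r1
  have cB := (((cY.mono hO nx.sub.1).add cR).cmul (10 * C ^ 3)).add
    ((cU.mono hO nx.sub.1).cmul (1 / (20 * C ^ 2)))
  have rr : ∀ x ∈ Ext r1, r1 ≤ ‖x‖ := fun x hx => le_of_lt hx
  have C3 : C ^ 2 ≤ C ^ 3 := pow_le_pow_right₀ hC (by norm_num)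
  have C3' : C ^ 1 ≤ C ^ 3 := pow_le_pow_right₀ hC (by norm_num)
  refine ⟨fun x => 10 * C ^ 3 * (Ye L (kT lam I δ) A x + RS L lam I δ ‖x‖) +
    1 / (20 * C ^ 2) * U x, ⟨⟨_, _, _, cB, subset_rfl, fun x hx _ => hx, fun x hx hz => ?_⟩,
      fun x hx hz => ?_, fun x hx h1 hz => ?_, fun K _ hK => ⟨2 * C, ?_⟩⟩, ?_⟩
  · obtain ⟨y1, y2, -, -⟩ := hY x hx
    obtain ⟨u1, -, -⟩ := hU x hx hz.le
    have q1 := hR x hx hz.le
    obtain ⟨-, -, r3, -⟩ := nx.rad (rr x hx)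
    obtain ⟨-, l2, -, l4, -, l6, l7, -⟩ := nx.low (rr x hx)
    have Yp := Ye_pos L (kT lam I δ) A x
    have key := nd1_cap hC h.hτ nx.hG h.hG.2 (by linarith) (nd1_w (norm_nonneg x)) Yp
      (Ye_pos _ _ _ _) l2 y2 ((nd1_dec nx hx).trans l4) l7 l6 (fb_pos _ _ _ _ _)
      (h.far1 x hx hz.le).2
    have p1 : -Ye L (kT lam I δ) A x ≤
        -(1 / 2) * lY x + Vf L lam I x * Ye L (kT lam I δ) A x := by
      have k1 := nx.ord.2.2.2.2.2.2.2.1
      have k2 := (nx.geo hx).2.2.2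
      have k3 : 0 ≤ 1 / min (rA L x) (rB L x) ^ 2 := by positivity
      have k4 : 3 / min (rA L x) (rB L x) ^ 2 = 3 * (1 / min (rA L x) (rB L x) ^ 2) := by ring
      have k5 : 0 ≤ 3 / min (rA L x) (rB L x) ^ 2 + I + P0 L lam x - kT lam I δ ^ 2 / 2 + 1 := by
        linarith
      have k6 := mul_nonneg k5 Yp.le
      unfold Vf
      linarith
    have p2 : -RS L lam I δ ‖x‖ ≤ -(1 / 2) * lR x + Vf L lam I x * RS L lam I δ ‖x‖ := by
      have k1 : 15 / ‖x‖ ≤ 1 := by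
        rw [div_le_one (by linarith)]
        linarith
      have k2 := mul_le_mul_of_nonneg_left k1 l2.le
      linarith
    have p3 := mul_le_mul_of_nonneg_left (add_le_add p1 p2) (by positivity : 0 ≤ 10 * C ^ 3)
    have p4 := mul_le_mul_of_nonneg_left u1 (by positivity : 0 ≤ 1 / (20 * C ^ 2))
    linarith
  · have Yp := Ye_pos L (kT lam I δ) A x
    have l2 := (nx.low (rr x hx)).2.1
    have u2 := (hU x hx hz).2.1
    positivity
  · have Yp := Ye_pos L (kT lam I δ) A x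
    have l2 := (nx.low (rr x hx)).2.1
    have u2 := (hU x hx hz.le).2.1
    have a1 := (h.col x hx h1).1
    have a2 := mul_le_mul_of_nonneg_left (hY x hx).2.2.1 C0.le
    have a3 := mul_le_mul_of_nonneg_right C3 Yp.le
    have a4 : 0 ≤ C ^ 3 * RS L lam I δ ‖x‖ := by positivity
    have a5 : 0 ≤ 1 / (20 * C ^ 2) * U x := by positivity
    have a6 : 0 ≤ C ^ 3 * Ye L (kT lam I δ) A x := by positivity
    linarith
  · filter_upwards [h.slab] with x hs hxK z0 z1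
    have hx := hK hxK
    have a0 := hs ⟨hx, z0, z1⟩
    have Yp := Ye_pos L (kT lam I δ) A x
    have l2 := (nx.low (rr x hx)).2.1
    have u2 := (hU x hx z0.le).2.1
    have a1 : RT L lam I δ ‖x‖ ≤ C * Ye L (kT lam I δ) 0 x := (h.far2 _ nx.ks.2.1 x hx).1
    have a2 := mul_le_mul_of_nonneg_left (hY x hx).2.2.1 (by positivity : 0 ≤ C * C)
    have a3 := mul_le_mul_of_nonneg_left a1 C0.le
    have a4 := mul_le_mul_of_nonneg_right C3' l2.le
    have a5 : 0 ≤ 1 / (20 * C ^ 2) * U x := by positivity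
    have a6 : 0 ≤ C ^ 3 * Ye L (kT lam I δ) A x := by positivity
    have a7 : 0 ≤ C ^ 3 * RS L lam I δ ‖x‖ := by positivity
    unfold aa at a0
    linarith
  · filter_upwards [h.low] with x hl hx z1
    obtain ⟨-, -, r3, -⟩ := nx.rad (rr x hx)
    obtain ⟨l1, l2, -, -, l5, -, l7, -⟩ := nx.low (rr x hx)
    refine nd1_last hC h.hG.1 (by linarith) (Ye_pos _ _ _ _) (Ye_pos _ _ _ _) l2 l1
      (hY x hx).2.1 ((nd1_dec nx hx).trans l5) l7 ?_ (hl hx (by linarith))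
      (hU x hx (by linarith)).2.2
    have a1 := (h.far1 x hx (by linarith)).1
    have a2 := mul_le_mul_of_nonneg_right z1 l1.le
    linarith

end

end Vale.Agent.P363
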