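import Vale.Agent.P363.NDa

/-! P363, block ND: second barrier. -/

open MeasureTheory Set Metric Filter Topology
open scoped RealInnerProductSpace

namespace Vale.Agent.P363

noncomputable section

variable {L δ lam r1 I C G τ A : ℝ} {g N : E3 → ℝ}

theorem nd2_inv {δ r : ℝ} (hr : 0 < r) (h : 1000 ≤ δ * r) : 1 / r ≤ δ / 1000 := by
  rw [div_le_div_iff₀ hr (by norm_num)]
  linarith

theorem nd2_num {δ u H z a : ℝ} (h0 : 0 < δ) (hu : u ≤ δ / 1000) (hu0 : 0 ≤ u) (hH : 1 ≤ H)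
    (hH' : H ≤ 5 / 4) (ha : a ≤ δ / 4) :
    0 ≤ 2 * δ * Real.exp (1 - z) + H * ((if 1 ≤ z then δ / 2 else 0) - a - 15 * u) := by
  have he := Real.exp_pos (1 - z)
  split_ifs with hz
  · have h1 : 0 ≤ δ / 2 - a - 15 * u := by linarith
    have h2 : 0 ≤ H * (δ / 2 - a - 15 * u) := mul_nonneg (by linarith) h1
    have h3 : 0 ≤ 2 * δ * Real.exp (1 - z) := by positivity
    linarith
  · have h1 : 1 ≤ Real.exp (1 - z) := Real.one_le_exp (by linarith)
    have h2 : 2 * δ ≤ 2 * δ * Real.exp (1 - z) := le_mul_of_one_le_right (by linarith) h1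
    have h3 : H * (a + 15 * u) ≤ H * (δ / 4 + 15 * (δ / 1000)) :=
      mul_le_mul_of_nonneg_left (by linarith) (by linarith)
    have h4 : H * (δ / 4 + 15 * (δ / 1000)) ≤ 5 / 4 * (δ / 4 + 15 * (δ / 1000)) :=
      mul_le_mul_of_nonneg_right hH' (by positivity)
    have h5 : H * (0 - a - 15 * u) = -(H * (a + 15 * u)) := by ring
    linarith

theorem nd2_exp (h : NX L δ lam r1 I G) {r t : ℝ} (hr : r1 ≤ r) (ht : 0 ≤ t)
    (h1 : G * (1 + r) ^ 8 * t ≤ Real.exp (-(kT lam I δ - δ / 5) * r)) :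
    t ≤ Real.exp (-kH I δ * r) := by
  obtain ⟨-, -, hr0, -⟩ := h.rad hr
  obtain ⟨-, o2, o3, -, -, -, -, -, o9, -⟩ := h.ord
  have h2 : 1 ≤ G * (1 + r) ^ 8 :=
    one_le_mul_of_one_le_of_one_le h.hG (one_le_pow₀ (by linarith))
  have h3 : t ≤ G * (1 + r) ^ 8 * t := le_mul_of_one_le_left ht h2
  refine h3.trans (h1.trans (Real.exp_le_exp.2 ?_))
  exact mul_le_mul_of_nonneg_right (by linarith) (by linarith)

theorem nd2_small (h : NX L δ lam r1 I G) {r : ℝ} (hr : r1 ≤ r) :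
    G * r * Real.exp (-kH I δ * r) ≤ bb L lam I r ∧ G * r * RS L lam I δ r ≤ bb L lam I r := by
  obtain ⟨-, -, hr0, hbig⟩ := h.rad hr
  obtain ⟨o1, -⟩ := h.ord
  obtain ⟨b0, s0, -, -, l2, -, l4, -⟩ := h.low hr
  have hG := h.hG
  have hd := h.d0
  constructor
  · have h1 : Real.exp (-kH I δ * r) ≤ Real.exp (-(δ * r / 10)) * Real.exp (-√(2 * I) * r) := by
      rw [← Real.exp_add]
      refine Real.exp_le_exp.2 ?_
      have : (√(2 * I) + δ / 10) * r ≤ kH I δ * r :=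
        mul_le_mul_of_nonneg_right (by linarith) (by linarith)
      linarith
    have h2 : G * r ^ 3 * Real.exp (-(δ * r / 10)) ≤ 1 := by
      have h3 : r ^ 3 ≤ (1 + r) ^ 10 :=
        (pow_le_pow_left₀ (by linarith) (by linarith : r ≤ 1 + r) 3).trans
          (pow_le_pow_right₀ (by linarith) (by norm_num))
      have h4 : G * r ^ 3 ≤ Real.exp (δ * r / 10) :=
        (mul_le_mul_of_nonneg_left h3 (by linarith)).trans hbig
      calc G * r ^ 3 * Real.exp (-(δ * r / 10))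
          ≤ Real.exp (δ * r / 10) * Real.exp (-(δ * r / 10)) :=
            mul_le_mul_of_nonneg_right h4 (Real.exp_pos _).le
        _ = 1 := by rw [← Real.exp_add]; simp
    have hGr : 0 ≤ G * r := mul_nonneg (by linarith) (by linarith)
    calc G * r * Real.exp (-kH I δ * r)
        ≤ G * r * (Real.exp (-(δ * r / 10)) * (r ^ 2 * bb L lam I r)) :=
          mul_le_mul_of_nonneg_left
            (h1.trans (mul_le_mul_of_nonneg_left l2 (Real.exp_pos _).le)) hGr
      _ = G * r ^ 3 * Real.exp (-(δ * r / 10)) * bb L lam I r := by ring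
      _ ≤ 1 * bb L lam I r := mul_le_mul_of_nonneg_right h2 b0.le
      _ = bb L lam I r := one_mul _
  · have h1 : r ≤ r ^ 3 := le_self_pow₀ (by linarith) (by norm_num)
    exact (mul_le_mul_of_nonneg_right (mul_le_mul_of_nonneg_left h1 (by linarith)) s0.le).trans l4

theorem NH.b2 (h : NH L δ lam r1 I C G τ A g N) :
    ∃ B, XB r1 g N (fun x => Vf L lam I x + if 1 ≤ x 2 then δ / 2 else 0) B ∧
      ∀ᵐ x : E3, x ∈ Ext r1 → 1 ≤ x 2 → B x ≤ ‖x‖⁻¹ * N x := by
  have hn := h.nx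
  have hC := h.hC
  have hd := hn.d0
  obtain ⟨-, kt, -, kh, -⟩ := hn.ks
  obtain ⟨-, -, -, -, -, o6, -⟩ := hn.ord
  have hr1 : 1000 ≤ r1 := (hn.rad le_rfl).2.2.1
  obtain ⟨g1, l1, c1, s1⟩ := zr_super (δ := δ) (κ := kH I δ) (r1 := r1)
    (ψ := fun r => -kH I δ * r) (ψ1 := fun _ => -kH I δ) (ψ2 := fun _ => 0) hd.le hn.d1 kh
    (by linarith) continuousOn_const (fun r hr => ⟨by
      simpa using (hasDerivAt_id r).const_mul (-kH I δ), hasDerivAt_const _ _,
      by simp; positivity, by simp; positivity⟩)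
  obtain ⟨g2, l2, c2, s2⟩ := hn.rs_super hd.le hn.d1
  have key : ∀ x ∈ Ext r1, 0 ≤ x 2 →
      3 * C * (Real.exp (-kH I δ * ‖x‖) + RS L lam I δ ‖x‖) ≤
        3 * C * (Hz δ (x 2) * Real.exp (-kH I δ * ‖x‖) + Hz δ (x 2) * RS L lam I δ ‖x‖) := by
    intro x hx hz
    have hH := (Hz_bd hd.le hn.d1 hz).1
    have s0 := (hn.low (le_of_lt hx)).2.1
    exact mul_le_mul_of_nonneg_left (add_le_add
      (le_mul_of_one_le_left (Real.exp_pos _).le hH) (le_mul_of_one_le_left s0.le hH))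
      (by linarith)
  refine ⟨fun x => 3 * C *
    (Hz δ (x 2) * Real.exp (-kH I δ * ‖x‖) + Hz δ (x 2) * RS L lam I δ ‖x‖), ⟨?_, ?_, ?_, ?_⟩, ?_⟩
  · refine ⟨Ext r1, _, _, (c1.add c2).cmul (3 * C), subset_rfl, fun x hx _ => hx, ?_⟩
    intro x hx hz
    have hxr : r1 ≤ ‖x‖ := le_of_lt hx
    obtain ⟨hH, hH'⟩ := Hz_bd hd.le hn.d1 hz.le
    obtain ⟨q1, -, q3, -⟩ := hn.rad hxr
    have hr0 : 0 < ‖x‖ := by linarith
    have hL := hn.hL
    have hu := nd2_inv hr0 (by linarith : 1000 ≤ δ * ‖x‖)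
    have hu0 : 0 ≤ 1 / ‖x‖ := by positivity
    have n1 := nd2_num (z := x 2) hd hu hu0 hH hH' le_rfl
    have n2 := nd2_num (z := x 2) (a := 0) hd hu hu0 hH hH' (by linarith)
    have t1 := s1 x hx hz.le
    have t2 := s2 x hx hz.le
    have hV := (abs_le.1 (hn.geo hx).2.2.1).1
    have s0 := (hn.low hxr).2.1
    have e0 := Real.exp_pos (-kH I δ * ‖x‖)
    rw [o6] at t1
    have e10 : 10 / ‖x‖ = 10 * (1 / ‖x‖) := by ring
    have e15 : 15 / ‖x‖ = 15 * (1 / ‖x‖) := by ring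
    have e5 : 5 / ‖x‖ = 5 * (1 / ‖x‖) := by ring
    rw [e10] at t1
    rw [e15] at t2
    rw [e5] at hV
    generalize 1 / ‖x‖ = u at *
    generalize Real.exp (-kH I δ * ‖x‖) = E at *
    generalize RS L lam I δ ‖x‖ = R at *
    generalize Hz δ (x 2) = H at *
    generalize (if 1 ≤ x 2 then δ / 2 else 0) = ι at *
    generalize Vf L lam I x = W at *
    generalize 2 * δ * Real.exp (1 - x 2) = p at *
    have m1 := mul_nonneg e0.le n1
    have m2 := mul_nonneg s0.le n2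
    have m3 : 0 ≤ (W - I + 5 * u) * (H * E) :=
      mul_nonneg (by linarith) (mul_nonneg (by linarith) e0.le)
    have m4 : 0 ≤ -(1 / 2) * (l1 x + l2 x) + (W + ι) * (H * E + H * R) := by nlinarith
    have m5 := mul_nonneg (by linarith : 0 ≤ 3 * C) m4
    nlinarith
  · intro x hx hz
    refine le_trans ?_ (key x hx hz)
    have s0 := (hn.low (le_of_lt hx)).2.1
    exact mul_nonneg (by linarith) (add_nonneg (Real.exp_pos _).le s0.le)
  · intro x hx hx1 hz
    refine le_trans ?_ (key x hx hz.le)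
    have s0 := (hn.low (le_of_lt hx)).2.1
    have a1 := (h.col x hx hx1).1
    have a2 := nd2_exp hn (le_of_lt hx) (Ye_pos _ _ _ _).le (hn.decY kt hx)
    have a3 := mul_le_mul_of_nonneg_left a2 (by linarith : 0 ≤ C)
    have a4 := mul_nonneg (by linarith : 0 ≤ C) s0.le
    linarith
  · intro K _ hK
    refine ⟨2 * C, ?_⟩
    filter_upwards [h.slab] with x hx hxK hz hz1
    have hxE := hK hxK
    have hxr : r1 ≤ ‖x‖ := le_of_lt hxE
    have a0 := key x hxE hz.le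
    have s0 := (hn.low hxr).2.1
    have a1 := hx ⟨hxE, hz, hz1⟩
    have a2 : RT L lam I δ ‖x‖ ≤ Real.exp (-kH I δ * ‖x‖) :=
      nd2_exp hn hxr (fb_pos _ _ _ _ _).le
        (hn.decF kt (c := 1) ⟨by norm_num, le_rfl⟩ hxr)
    have a3 := mul_le_mul_of_nonneg_left a2 (by linarith : 0 ≤ C)
    have a4 := mul_nonneg (by linarith : 0 ≤ C) s0.le
    have a5 := mul_nonneg (by linarith : 0 ≤ C) (Real.exp_pos (-kH I δ * ‖x‖)).le
    unfold aa at a1
    linarith
  · filter_upwards [h.low] with x hx hxE hz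
    have hxr : r1 ≤ ‖x‖ := le_of_lt hxE
    have hr0 : 0 < ‖x‖ := by linarith
    obtain ⟨hH, hH'⟩ := Hz_bd hd.le hn.d1 (by linarith : 0 ≤ x 2)
    obtain ⟨b0, s0, -⟩ := hn.low hxr
    obtain ⟨a1, a2⟩ := nd2_small hn hxr
    have a3 := (h.far1 x hxE (by linarith)).1
    have a4 := hx hxE (by linarith)
    have a5 : bb L lam I ‖x‖ ≤ C ^ 2 * N x := by
      have b1 : bb L lam I ‖x‖ ≤ x 2 * bb L lam I ‖x‖ := le_mul_of_one_le_left b0.le hz
      have b2 := mul_le_mul_of_nonneg_left a4 (by linarith : 0 ≤ C)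
      nlinarith
    have hN : 0 ≤ N x := by
      by_contra hc
      have : C ^ 2 * N x ≤ 0 := mul_nonpos_of_nonneg_of_nonpos (by positivity) (by linarith)
      linarith
    have hG := hn.hG
    have hG7 := h.hG.1
    have e0 := Real.exp_pos (-kH I δ * ‖x‖)
    have hC3 : C ^ 3 ≤ C ^ 7 := pow_le_pow_right₀ hC (by norm_num)
    have hC0 : 0 ≤ C ^ 3 := by positivity
    rw [← div_eq_inv_mul, le_div_iff₀ hr0]
    refine le_of_mul_le_mul_left ?_ (by linarith : 0 < G)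
    generalize Real.exp (-kH I δ * ‖x‖) = E at *
    generalize RS L lam I δ ‖x‖ = R at *
    generalize Hz δ (x 2) = H at *
    generalize bb L lam I ‖x‖ = b at *
    have m1 : H * (G * ‖x‖ * E + G * ‖x‖ * R) ≤ 5 / 4 * (2 * (C ^ 2 * N x)) :=
      mul_le_mul hH' (by linarith) (by positivity) (by norm_num)
    have m2 := mul_le_mul_of_nonneg_left m1 (by linarith : 0 ≤ 3 * C)
    have m3 : 8 * C ^ 3 * N x ≤ G * N x := mul_le_mul_of_nonneg_right (by linarith) hN
    have m4 := mul_nonneg hC0 hN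
    calc G * (3 * C * (H * E + H * R) * ‖x‖)
        = 3 * C * (H * (G * ‖x‖ * E + G * ‖x‖ * R)) := by ring
      _ ≤ 3 * C * (5 / 4 * (2 * (C ^ 2 * N x))) := m2
      _ = 15 / 2 * (C ^ 3 * N x) := by ring
      _ ≤ G * N x := by linarith

end

end Vale.Agent.P363
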