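import Vale.Agent.P363.NDa

/-! P363, block ND: third barrier. -/

open MeasureTheory Set Metric Filter Topology
open scoped RealInnerProductSpace

namespace Vale.Agent.P363

noncomputable section

variable {L δ lam r1 I C G τ A : ℝ} {g N : E3 → ℝ}

theorem nd3_exp {δ r z : ℝ} (d1 : δ ≤ 1 / 500) (hr : 1000 ≤ r) (hz : r / 10 ≤ z) :
    32 * δ * r ^ 2 * Real.exp (1 - z) ≤ 1 := by
  have h1 : (z - 1) ^ 4 / (4 : ℕ).factorial ≤ Real.exp (z - 1) :=
    Real.pow_div_factorial_le_exp _ (by linarith) 4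
  have h2 : ((4 : ℕ).factorial : ℝ) = 24 := by norm_num [Nat.factorial]
  rw [h2] at h1
  have h3 : (r / 11) ^ 4 ≤ (z - 1) ^ 4 := pow_le_pow_left₀ (by linarith) (by linarith) 4
  have h4 : 1000000 ≤ r ^ 2 := by nlinarith
  have h5 : 32 * δ * r ^ 2 ≤ Real.exp (z - 1) := by
    have a1 : 32 * δ * r ^ 2 ≤ 32 * (1 / 500) * r ^ 2 := by gcongr
    have a2 : (r / 11) ^ 4 = r ^ 2 * r ^ 2 / 14641 := by ring
    have a3 : 1000000 * r ^ 2 ≤ r ^ 2 * r ^ 2 := by gcongr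
    linarith
  have h6 : Real.exp (z - 1) * Real.exp (1 - z) = 1 := by
    rw [← Real.exp_add]; simp
  calc 32 * δ * r ^ 2 * Real.exp (1 - z) ≤ Real.exp (z - 1) * Real.exp (1 - z) :=
        mul_le_mul_of_nonneg_right h5 (Real.exp_pos _).le
    _ = 1 := h6

theorem nd3_Y {δ η L r z m H : ℝ} (d0 : 0 < δ) (d1 : δ ≤ 1 / 500) (e0 : 0 < η) (e1 : η ≤ δ / 10)
    (hL : 1 ≤ L) (hr : 1000 * L ≤ r) (z0 : 0 < z) (z1 : z ≤ r) (m0 : r / 2 ≤ m) (m1 : m ≤ 2 * r)
    (H0 : 1 ≤ H) (H1 : H ≤ 5 / 4) :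
    0 ≤ H * (2 / m ^ 2 - (δ - η) + if 1 ≤ z then (δ - η) * max (1 - r⁻¹ ^ 2) 0 else 0) -
      8 * δ * Real.exp (1 - z) * ((z + L) / m) + 2 * δ * Real.exp (1 - z) := by
  have r0 : 0 < r := by linarith
  have mp : 0 < m := by linarith
  have hE := Real.exp_pos (1 - z)
  have hdE : 0 < δ * Real.exp (1 - z) := mul_pos d0 hE
  have hm2 : 0 < 2 / m ^ 2 := by positivity
  split_ifs with hz
  · have a1 : r⁻¹ ^ 2 ≤ 4 / m ^ 2 := by
      rw [inv_pow, inv_eq_one_div, div_le_div_iff₀ (by positivity) (by positivity)]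
      nlinarith
    have a2 : (δ - η) * (1 - r⁻¹ ^ 2) ≤ (δ - η) * max (1 - r⁻¹ ^ 2) 0 :=
      mul_le_mul_of_nonneg_left (le_max_left _ _) (by linarith)
    have a3 : (δ - η) * r⁻¹ ^ 2 ≤ (1 / 4) * (4 / m ^ 2) :=
      mul_le_mul (by linarith) a1 (by positivity) (by norm_num)
    have a4 : 1 / m ^ 2 ≤ 2 / m ^ 2 - (δ - η) + (δ - η) * max (1 - r⁻¹ ^ 2) 0 := by
      have : (1 / 4) * (4 / m ^ 2) = 1 / m ^ 2 := by ring
      have : 2 / m ^ 2 = 2 * (1 / m ^ 2) := by ring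
      linarith
    have a5 : 0 < 1 / m ^ 2 := by positivity
    have a6 : 1 / m ^ 2 ≤ H * (2 / m ^ 2 - (δ - η) + (δ - η) * max (1 - r⁻¹ ^ 2) 0) :=
      a4.trans (le_mul_of_one_le_left (by linarith) H0)
    by_cases hq : (z + L) / m ≤ 1 / 4
    · have := mul_le_mul_of_nonneg_left hq hdE.le
      nlinarith
    · have b1 : m < 4 * (z + L) := by
        have := not_le.1 hq
        rw [lt_div_iff₀ mp] at this
        linarith
      have b2 := nd3_exp d1 (r := r) (z := z) (by linarith) (by linarith)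
      have b3 : (z + L) * m ≤ (2 * r) * (2 * r) :=
        mul_le_mul (by linarith) m1 mp.le (by linarith)
      have b4 : 8 * δ * Real.exp (1 - z) * ((z + L) / m) ≤ 1 / m ^ 2 := by
        rw [le_div_iff₀ (by positivity)]
        have c1 : 8 * δ * Real.exp (1 - z) * ((z + L) / m) * m ^ 2 =
            8 * (δ * Real.exp (1 - z)) * ((z + L) * m) := by
          field_simp
        have c2 : 8 * (δ * Real.exp (1 - z)) * ((z + L) * m) ≤
            8 * (δ * Real.exp (1 - z)) * ((2 * r) * (2 * r)) :=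
          mul_le_mul_of_nonneg_left b3 (by positivity)
        rw [c1]
        nlinarith
      linarith
  · have hz' : z < 1 := not_le.1 hz
    have a1 : 1 ≤ Real.exp (1 - z) := Real.one_le_exp (by linarith)
    have a2 : (z + L) / m ≤ 1 / 16 := by
      rw [div_le_iff₀ mp]
      linarith
    have a3 := mul_le_mul_of_nonneg_left a2 hdE.le
    have a4 : δ ≤ δ * Real.exp (1 - z) := le_mul_of_one_le_right d0.le a1
    have a5 : H * (δ - η) ≤ 5 / 4 * δ := mul_le_mul H1 (by linarith) (by linarith) (by norm_num)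
    have a6 : 0 ≤ H * (2 / m ^ 2) := by positivity
    nlinarith

theorem nd3_R {δ η r z H : ℝ} (d0 : 0 < δ) (e1 : η ≤ δ / 10) (hr : 1000 ≤ r)
    (hd : 1000 ≤ δ * r) (H0 : 1 ≤ H) (H1 : H ≤ 5 / 4) :
    0 ≤ 2 * δ * Real.exp (1 - z) - H * (15 / r) +
      H * if 1 ≤ z then (δ - η) * max (1 - r⁻¹ ^ 2) 0 else 0 := by
  have r0 : 0 < r := by linarith
  have hE := Real.exp_pos (1 - z)
  have a0 : 15 / r ≤ δ / 50 := by
    rw [div_le_iff₀ r0]
    linarith
  split_ifs with hz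
  · have a1 : r⁻¹ ^ 2 ≤ 1 / 2 := by
      rw [inv_pow, inv_eq_one_div, div_le_div_iff₀ (by positivity) (by positivity)]
      nlinarith
    have a2 : 1 / 2 ≤ max (1 - r⁻¹ ^ 2) 0 := le_trans (by linarith) (le_max_left _ _)
    have a3 : δ / 2 * (1 / 2) ≤ (δ - η) * max (1 - r⁻¹ ^ 2) 0 :=
      mul_le_mul (by linarith) a2 (by norm_num) (by linarith)
    have a4 : H * (15 / r) ≤ H * ((δ - η) * max (1 - r⁻¹ ^ 2) 0) :=
      mul_le_mul_of_nonneg_left (by linarith) (by linarith)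
    have a5 : 0 < δ * Real.exp (1 - z) := mul_pos d0 hE
    linarith
  · have a1 : 1 ≤ Real.exp (1 - z) := Real.one_le_exp (by linarith [not_le.1 hz])
    have a4 : δ ≤ δ * Real.exp (1 - z) := le_mul_of_one_le_right d0.le a1
    have a5 : H * (15 / r) ≤ 5 / 4 * (δ / 50) := mul_le_mul H1 a0 (by positivity) (by norm_num)
    linarith

theorem nd3_log {r : ℝ} (hr : 1000 ≤ r) : 4 * Real.log (1 + r) ≤ r := by
  have h1 := Real.quadratic_le_exp_of_nonneg (x := r / 4) (by linarith)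
  have h2 : Real.log (1 + r) ≤ r / 4 := by
    rw [Real.log_le_iff_le_exp (by linarith)]
    nlinarith
  linarith

theorem nd3_RT {G : ℝ} (h : NX L δ lam r1 I G) {r : ℝ} (hr : r1 ≤ r) :
    RT L lam I δ r ≤ fb L (kP lam I δ) 1 0 r := by
  obtain ⟨-, k2, k3, -, -⟩ := h.ks
  obtain ⟨-, -, o3, -, -, -, -, -, o9, -⟩ := h.ord
  obtain ⟨-, -, r3, -⟩ := h.rad hr
  have hc : (1 : ℝ) ∈ Icc (9 / 10 : ℝ) 1 := ⟨by norm_num, le_rfl⟩
  have h1 := fb_param h.hL k2 k3 hc hc (s := r) (by linarith)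
  have h2 : |kT lam I δ - kP lam I δ| = 3 * eta lam := by
    rw [← o3, add_sub_cancel_left, abs_of_pos (by linarith)]
  rw [h2, sub_self, abs_zero] at h1
  have h3 : Real.exp ((kP lam I δ - kT lam I δ) * r +
      (4 * (3 * eta lam) + 2 * 0) * Real.log (1 + r)) ≤ 1 := by
    rw [Real.exp_le_one_iff, ← o3]
    have := mul_le_mul_of_nonneg_left (nd3_log r3) o9.le
    nlinarith
  exact h1.trans (mul_le_of_le_one_left (fb_pos _ _ _ _ _).le h3)

theorem NH.b3 (h : NH L δ lam r1 I C G τ A g N) :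
    ∃ B, XB r1 g N (fun x => Vf L lam I x +
        if 1 ≤ x 2 then (δ - eta lam) * max (1 - ‖x‖⁻¹ ^ 2) 0 else 0) B ∧
      (∀ x ∈ Ext r1, 0 < x 2 → 4 * L * x 2 ≤ ‖x‖ → B x ≤ 10 ^ 4 * C ^ 5 * aa L lam I δ ‖x‖) := by
  have nx := h.nx
  have hC := h.hC
  have C0 : 0 < C := by linarith
  obtain ⟨-, -, k3, -, -⟩ := nx.ks
  obtain ⟨-, -, -, -, -, -, o7, -, o9, -⟩ := nx.ord
  obtain ⟨gY, lY, hY, pY⟩ := h.ev _ k3
  obtain ⟨gR, lR, hR, pR⟩ := nx.rs_super nx.d0.le nx.d1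
  have hY' := hY.mono (isOpen_Ext r1) nx.sub.1
  have hB := (((Hz_C2 δ (isOpen_Ext r1)).mul hY').add hR).cmul (10 * C ^ 3)
  have hK : 0 < 10 * C ^ 3 := by positivity
  have hle : ∀ x ∈ Ext r1, r1 ≤ ‖x‖ := fun x hx => le_of_lt hx
  have C2' : C ≤ C ^ 2 := by nlinarith
  have C3 : C ^ 2 ≤ C ^ 3 := pow_le_pow_right₀ hC (by norm_num)
  have lowB : ∀ x ∈ Ext r1, 0 ≤ x 2 →
      10 * C ^ 3 * (Ye L (kP lam I δ) A x + RS L lam I δ ‖x‖) ≤
        10 * C ^ 3 * (Hz δ (x 2) * Ye L (kP lam I δ) A x + Hz δ (x 2) * RS L lam I δ ‖x‖) := by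
    intro x hx hz
    have H0 := (Hz_bd nx.d0.le nx.d1 hz).1
    have hRS := (nx.low (hle x hx)).2.1
    exact mul_le_mul_of_nonneg_left (add_le_add
      (le_mul_of_one_le_left (Ye_pos _ _ _ _).le H0) (le_mul_of_one_le_left hRS.le H0)) hK.le
  refine ⟨fun x => 10 * C ^ 3 * (Hz δ (x 2) * Ye L (kP lam I δ) A x +
    Hz δ (x 2) * RS L lam I δ ‖x‖), ⟨⟨Ext r1, _, _, hB, Subset.rfl, fun x hx _ => hx, ?_⟩,
    ?_, ?_, ?_⟩, ?_⟩
  · intro x hx hz
    obtain ⟨H0, H1⟩ := Hz_bd nx.d0.le nx.d1 hz.le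
    obtain ⟨r1', r2, r3, -⟩ := nx.rad (hle x hx)
    obtain ⟨g1, g2, -, g4⟩ := nx.geo hx
    obtain ⟨p1, -, -, p4⟩ := pY x hx
    have p5 := pR x hx hz.le
    have hRS := (nx.low (hle x hx)).2.1
    have hYp := Ye_pos L (kP lam I δ) A x
    have z1 : x 2 ≤ ‖x‖ := (le_abs_self _).trans (abs_coord_le x 2)
    have q1 := nd3_Y nx.d0 nx.d1 o9 nx.he nx.hL r2 hz z1 g1 g2 H0 H1
    have q2 := nd3_R (z := x 2) nx.d0 nx.he r3 (by linarith [nx.hL]) H0 H1
    rw [abs_of_pos hz] at p4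
    have i1 : ⟪(4 * δ * Real.exp (1 - x 2)) • e 2, gY x⟫ =
        4 * δ * Real.exp (1 - x 2) * gY x 2 := by
      rw [real_inner_smul_left, real_inner_comm, inner_e]
    simp only [i1]
    set m := min (rA L x) (rB L x) with hm
    set Y := Ye L (kP lam I δ) A x with hYdef
    set R := RS L lam I δ ‖x‖ with hRdef
    set H := Hz δ (x 2) with hH
    set E := Real.exp (1 - x 2) with hE
    set w := (if 1 ≤ x 2 then (δ - eta lam) * max (1 - ‖x‖⁻¹ ^ 2) 0 else 0) with hw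
    have hV : Vf L lam I x = V L x + I + P0 L lam x := rfl
    have E0 : 0 < δ * E := mul_pos nx.d0 (Real.exp_pos _)
    have s1 : (2 / m ^ 2 - (δ - eta lam) + w) * Y ≤ -(1 / 2) * lY x + (Vf L lam I x + w) * Y := by
      have t1 : 2 / m ^ 2 - (δ - eta lam) + w + (V L x + kP lam I δ ^ 2 / 2) ≤
          3 / m ^ 2 + (Vf L lam I x + w) := by
        have : 3 / m ^ 2 = 2 / m ^ 2 + 1 / m ^ 2 := by ring
        rw [hV]
        linarith
      have t2 := mul_le_mul_of_nonneg_right t1 hYp.le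
      linarith
    have s2 := mul_le_mul_of_nonneg_left s1 (by linarith : (0 : ℝ) ≤ H)
    have s3 : gY x 2 ≤ 2 * ((x 2 + L) / m) * Y := by
      have := (le_abs_self _).trans p4
      rwa [mul_div_assoc] at this
    have s4 := mul_le_mul_of_nonneg_left s3 E0.le
    have s5 := mul_nonneg q1 hYp.le
    have s6 := mul_nonneg q2 hRS.le
    have s7 : 0 ≤ -(1 / 2) * (H * lY x + 2 * (4 * δ * E * gY x 2) + Y * -(4 * δ * E) + lR x) +
        (Vf L lam I x + w) * (H * Y + H * R) := by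
      nlinarith
    have s8 := mul_nonneg hK.le s7
    linarith
  · intro x hx hz
    have hRS := (nx.low (hle x hx)).2.1
    have hYp := Ye_pos L (kP lam I δ) A x
    exact le_trans (by positivity) (lowB x hx hz)
  · intro x hx hr hz
    have hRS := (nx.low (hle x hx)).2.1
    have hYp := Ye_pos L (kP lam I δ) A x
    refine le_trans ?_ (lowB x hx hz.le)
    have a1 := (h.col x hx hr).2
    have a2 := mul_le_mul_of_nonneg_left (pY x hx).2.2.1 C0.le
    have a3 := mul_le_mul_of_nonneg_right C3 hYp.le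
    have a4 : 0 ≤ C ^ 3 * RS L lam I δ ‖x‖ := by positivity
    have a5 : 0 ≤ C ^ 3 * Ye L (kP lam I δ) A x := by positivity
    nlinarith
  · intro K _ hK'
    refine ⟨2 * C, ?_⟩
    filter_upwards [h.slab] with x hx hxK z0 z1
    have hx' := hK' hxK
    have hRS := (nx.low (hle x hx')).2.1
    have hYp := Ye_pos L (kP lam I δ) A x
    have a0 := hx ⟨hx', z0, z1⟩
    have a1 := lowB x hx' z0.le
    have a2 : RT L lam I δ ‖x‖ ≤ C * (C * Ye L (kP lam I δ) A x) :=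
      (nd3_RT nx (hle x hx')).trans ((h.far2 _ k3 x hx').1.trans
        (mul_le_mul_of_nonneg_left (pY x hx').2.2.1 C0.le))
    have a3 := mul_le_mul_of_nonneg_left a2 C0.le
    have a4 := mul_le_mul_of_nonneg_right (C2'.trans C3) hRS.le
    have a5 : aa L lam I δ ‖x‖ = RT L lam I δ ‖x‖ + RS L lam I δ ‖x‖ := rfl
    have a6 : 0 ≤ C ^ 3 * RS L lam I δ ‖x‖ := by positivity
    have a7 : 0 ≤ C ^ 3 * Ye L (kP lam I δ) A x := by positivity
    rw [a5] at a0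
    nlinarith
  · intro x hx hz hq
    obtain ⟨H0, H1⟩ := Hz_bd nx.d0.le nx.d1 hz.le
    obtain ⟨-, -, r3, -⟩ := nx.rad (hle x hx)
    obtain ⟨-, hRS, hRT, -⟩ := nx.low (hle x hx)
    have hYp := Ye_pos L (kP lam I δ) A x
    have a5 : aa L lam I δ ‖x‖ = RT L lam I δ ‖x‖ + RS L lam I δ ‖x‖ := rfl
    have a0 : 0 < aa L lam I δ ‖x‖ := by rw [a5]; positivity
    have a1 : Real.exp (4 * L * |x 2| / ‖x‖) ≤ 3 := by
      have b1 : 4 * L * |x 2| / ‖x‖ ≤ 1 := by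
        rw [abs_of_pos hz, div_le_one (by linarith)]
        exact hq
      exact (Real.exp_le_exp.2 b1).trans (Real.exp_one_lt_d9.le.trans (by norm_num))
    have a2 : fb L (kP lam I δ) 1 0 ‖x‖ * Real.exp (4 * L * |x 2| / ‖x‖) ≤
        100 * aa L lam I δ ‖x‖ * 3 :=
      mul_le_mul (h.cmp _ (by linarith)).1 a1 (Real.exp_pos _).le (by positivity)
    have a3 : Ye L (kP lam I δ) A x ≤ C * (C * (100 * aa L lam I δ ‖x‖ * 3)) :=
      (pY x hx).2.1.trans (mul_le_mul_of_nonneg_left ((h.far2 _ k3 x hx).2.trans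
        (mul_le_mul_of_nonneg_left a2 C0.le)) C0.le)
    have a4 : RS L lam I δ ‖x‖ ≤ C ^ 2 * aa L lam I δ ‖x‖ :=
      le_trans (by linarith) (le_mul_of_one_le_left a0.le (hC.trans C2'))
    have a6 : Hz δ (x 2) * Ye L (kP lam I δ) A x + Hz δ (x 2) * RS L lam I δ ‖x‖ ≤
        1000 * (C ^ 2 * aa L lam I δ ‖x‖) := by
      have b1 := mul_le_mul_of_nonneg_right H1 hYp.le
      have b2 := mul_le_mul_of_nonneg_right H1 hRS.le
      have b3 : 0 ≤ C ^ 2 * aa L lam I δ ‖x‖ := by positivity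
      nlinarith
    calc 10 * C ^ 3 * (Hz δ (x 2) * Ye L (kP lam I δ) A x + Hz δ (x 2) * RS L lam I δ ‖x‖) ≤
          10 * C ^ 3 * (1000 * (C ^ 2 * aa L lam I δ ‖x‖)) := mul_le_mul_of_nonneg_left a6 hK.le
      _ = 10 ^ 4 * C ^ 5 * aa L lam I δ ‖x‖ := by ring

theorem NH.g3 (h : NH L δ lam r1 I C G τ A g N) {s t : ℝ} (hs : 0 < s) (ht : 0 < t) :
    ∀ᶠ ρ : ℝ in atTop, ∀ᵐ x : E3, ρ ≤ ‖x‖ → s ≤ x 2 → aa L lam I δ ‖x‖ ≤ t * N x := by
  have nx := h.nx
  have hC := h.hC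
  have C0 : 0 < C := by linarith
  filter_upwards [eventually_ge_atTop (r1 + 1), eventually_ge_atTop (1 / eta lam),
    eventually_ge_atTop (2 * C ^ 2 / (s * t))] with ρ h1 h2 h3
  filter_upwards [h.low] with x hx hρ hz
  have hx' : x ∈ Ext r1 := show r1 < ‖x‖ by linarith
  have hr : r1 ≤ ‖x‖ := by linarith
  obtain ⟨-, -, r3, -⟩ := nx.rad hr
  obtain ⟨hb, hRS, -, -, -, -, l7, -⟩ := nx.low hr
  have z0 : 0 < x 2 := by linarith
  have a1 := (h.cmp ‖x‖ (by linarith)).2 (h2.trans hρ)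
  have a2 : s * bb L lam I ‖x‖ ≤ C * (C * N x) :=
    (mul_le_mul_of_nonneg_right hz hb.le).trans ((h.far1 x hx' z0.le).1.trans
      (mul_le_mul_of_nonneg_left (hx hx' z0) C0.le))
  have a3 : ‖x‖ ≤ G * ‖x‖ ^ 3 :=
    (le_self_pow₀ (by linarith) (by norm_num)).trans
      (le_mul_of_one_le_left (by positivity) nx.hG)
  have a4 : ‖x‖ * RS L lam I δ ‖x‖ ≤ bb L lam I ‖x‖ :=
    (mul_le_mul_of_nonneg_right a3 hRS.le).trans l7
  have a5 : 2 * C ^ 2 ≤ ‖x‖ * (s * t) := by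
    have := h3.trans hρ
    rwa [div_le_iff₀ (by positivity)] at this
  have a6 : C ^ 2 * (2 * RS L lam I δ ‖x‖) ≤ C ^ 2 * (t * N x) := by
    have b1 := mul_le_mul_of_nonneg_right a5 hRS.le
    have b2 := mul_le_mul_of_nonneg_left a4 (mul_pos hs ht).le
    have b3 := mul_le_mul_of_nonneg_left a2 ht.le
    nlinarith
  exact a1.trans (le_of_mul_le_mul_left a6 (by positivity))

end

end Vale.Agent.P363
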