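import Vale.Agent.P363.NDc

/-! P363, block ND: the corrector `Λ`. -/

open MeasureTheory Set Metric Filter Topology
open scoped RealInnerProductSpace

namespace Vale.Agent.P363

noncomputable section

theorem ndl_mul {f ef m l s c : ℝ} {gf gm : E3} (hf : 0 ≤ f) (he : 0 ≤ ef) (hm : 0 ≤ m)
    (hs : 0 < s) (hs2 : s ≤ 2) (h1 : ‖gf‖ ^ 2 ≤ 4 * f * ef)
    (h2 : ‖gm‖ ^ 2 ≤ 1000 * m ^ 2 / s ^ 2) (h3 : -1000 * m ≤ l) :
    ef * m / 2 - c * m - 4000 * (f * m) * (s ^ 2)⁻¹ ≤ (ef - c) * m + ⟪gf, gm⟫ + f * l / 2 := by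
  have ht : 0 < (s ^ 2)⁻¹ := by positivity
  have ht1 : 1 ≤ 4 * (s ^ 2)⁻¹ := by
    rw [← div_eq_mul_inv, le_div_iff₀ (by positivity)]
    nlinarith
  rw [div_eq_mul_inv] at h2
  generalize (s ^ 2)⁻¹ = t at *
  have h4 : ‖gf‖ * ‖gm‖ ≤ ef * m / 2 + 2000 * (f * m) * t := by
    refine (abs_le_of_sq_le_sq' ?_ (by positivity)).2
    have h5 := mul_le_mul h1 h2 (sq_nonneg _) (by positivity)
    have h6 := sq_nonneg (ef * m / 2 - 2000 * (f * m) * t)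
    linarith
  have h5 := (abs_le.1 (abs_real_inner_le_norm gf gm)).1
  have h6 := mul_le_mul_of_nonneg_left h3 hf
  have h7 := mul_le_mul_of_nonneg_left ht1 (mul_nonneg hf hm)
  linarith

theorem ndl_geo {z W b e2 d q N C : ℝ} (hz : 0 < z) (hW : 0 < W) (hb : 0 < b) (he : 0 ≤ e2)
    (hC : 1 ≤ C) (hq : 0 ≤ q) (hs : N ^ 2 = d ^ 2 + q) (h1 : z * b ≤ C * d)
    (h2 : d ≤ C * (z * b)) (h3 : q ≤ C * ((W * b) ^ 2 + e2 * (z * b) ^ 2)) (h4 : W * b ≤ C * N) :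
    d ^ 2 * ((b * (z + W)) ^ 2)⁻¹ ≤ C ^ 2 ∧
      q * ((b * (z + W)) ^ 2)⁻¹ ≤ C * (W / (z + W) + e2) ∧
      (N ^ 2)⁻¹ ≤ 4 * C ^ 2 * ((b * (z + W)) ^ 2)⁻¹ := by
  have hC0 : 0 < C := by linarith
  have hd : 0 < d := (pos_iff_pos_of_mul_pos ((mul_pos hz hb).trans_le h1)).1 hC0
  have hN : 0 < N := (pos_iff_pos_of_mul_pos ((mul_pos hW hb).trans_le h4)).1 hC0
  have hP : 0 < (b * (z + W)) ^ 2 := by positivity
  have hzb : (z * b) ^ 2 ≤ (b * (z + W)) ^ 2 := by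
    refine pow_le_pow_left₀ (by positivity) ?_ 2
    have := mul_pos hW hb
    linarith
  refine ⟨?_, ?_, ?_⟩
  · rw [← div_eq_mul_inv, div_le_iff₀ hP]
    have h5 := pow_le_pow_left₀ hd.le h2 2
    have h6 := mul_le_mul_of_nonneg_left hzb (sq_nonneg C)
    linarith
  · rw [← div_eq_mul_inv, div_le_iff₀ hP]
    have e1 : W / (z + W) * (b * (z + W)) ^ 2 = W * b ^ 2 * (z + W) := by field_simp
    have h5 : 0 ≤ W * b ^ 2 * z := by positivity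
    have h6 := mul_le_mul_of_nonneg_left hzb he
    have h7 : (W * b) ^ 2 + e2 * (z * b) ^ 2 ≤ (W / (z + W) + e2) * (b * (z + W)) ^ 2 := by
      rw [add_mul, e1]
      linarith
    have h8 := mul_le_mul_of_nonneg_left h7 hC0.le
    linarith
  · have h5 : d ≤ N := (abs_le_of_sq_le_sq' (by linarith) hN.le).2
    have h6 := mul_le_mul_of_nonneg_left h5 hC0.le
    have h7 : (b * (z + W)) ^ 2 ≤ (2 * C * N) ^ 2 := pow_le_pow_left₀ (by positivity) (by linarith) 2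
    rw [← div_eq_mul_inv, le_div_iff₀ hP, inv_mul_le_iff₀ (by positivity)]
    linarith

theorem ndl_fin {C m t ω e2 D q n ee G Ra Rb Rc Rd Re : ℝ} (hC : 1 ≤ C) (hm : 0 ≤ m) (ht : 0 ≤ t)
    (hω : 0 ≤ ω) (hω1 : ω ≤ 1) (he : 0 ≤ e2) (he1 : e2 ≤ 1) (hq : 0 ≤ q)
    (hee : 0 ≤ ee) (hG : 0 ≤ G) (hn : 0 ≤ n) (h1 : D * m ≤ C ^ 2) (h2 : q * m ≤ C * (ω + e2))
    (h3 : n ≤ 4 * C ^ 2 * m)
    (ha : ee * m / 2 - C * (D + q) * m - 4000 * (q * m) * t ≤ Ra)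
    (hb : G * (ω * m) / 2 - C * (D + q) * (ω * m) - 4000 * (D * (ω * m)) * t ≤ Rb)
    (hc : G * (e2 * m) / 2 - C * (D + q) * (e2 * m) - 4000 * (D * (e2 * m)) * t ≤ Rc)
    (hd : ω * t - 100 ≤ Rd) (hf : e2 * t / 2 - 100 ≤ Re) :
    C + G * q * n ^ 2 + 2 * ee * n ≤
      10 ^ 9 * C ^ 8 + (32 * C ^ 5 * (Ra + Rb + Rc) + 512000 * C ^ 7 * (Rd + Re)) := by
  have hC0 : 0 ≤ C := by linarith
  have c12 : C ≤ C ^ 2 := le_self_pow₀ hC two_ne_zero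
  have c18 : C ≤ C ^ 8 := le_self_pow₀ hC (by norm_num)
  have c78 : C ^ 7 ≤ C ^ 8 := pow_le_pow_right₀ hC (by norm_num)
  have c25 : C ^ 2 ≤ C ^ 5 := pow_le_pow_right₀ hC (by norm_num)
  have k1 : q * n ^ 2 ≤ 16 * C ^ 5 * ((ω + e2) * m) := by
    have a1 := mul_le_mul_of_nonneg_left (pow_le_pow_left₀ hn h3 2) hq
    have a2 := mul_le_mul_of_nonneg_left h2 (show 0 ≤ 16 * C ^ 4 * m by positivity)
    linarith
  have k2 : n ≤ 4 * C ^ 5 * m := by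
    have a1 := mul_le_mul_of_nonneg_right c25 hm
    linarith
  have k3 : (D + q) * m ≤ 3 * C ^ 2 := by
    have a1 := mul_le_mul_of_nonneg_left (show ω + e2 ≤ 2 by linarith) hC0
    linarith
  have k4 : C * ((D + q) * m) * (1 + ω + e2) ≤ C * (3 * C ^ 2) * 3 :=
    mul_le_mul (mul_le_mul_of_nonneg_left k3 hC0) (by linarith) (by positivity) (by positivity)
  have k5 : (q * m + D * m * (ω + e2)) * t ≤ 2 * C ^ 2 * (ω + e2) * t := by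
    refine mul_le_mul_of_nonneg_right ?_ ht
    have a1 := mul_le_mul_of_nonneg_right h1 (add_nonneg hω he)
    have a2 := mul_le_mul_of_nonneg_right c12 (add_nonneg hω he)
    linarith
  have k6 : ee * m / 2 + G * ((ω + e2) * m) / 2 - 9 * C ^ 3 - 8000 * C ^ 2 * ((ω + e2) * t) ≤
      Ra + Rb + Rc := by linarith
  have k7 : (ω + e2) * t / 2 - 200 ≤ Rd + Re := by
    have a1 := mul_nonneg hω ht
    linarith
  have k8 := mul_le_mul_of_nonneg_left k6 (show 0 ≤ 32 * C ^ 5 by positivity)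
  have k9 := mul_le_mul_of_nonneg_left k7 (show 0 ≤ 512000 * C ^ 7 by positivity)
  have k10 := mul_le_mul_of_nonneg_left k1 hG
  have k11 := mul_le_mul_of_nonneg_left k2 hee
  have k12 : 0 ≤ C ^ 5 * (ee * m) := by positivity
  have k13 : 0 ≤ C ^ 8 := by positivity
  linarith

theorem ndl_bd {C m ω e2 D q y : ℝ} (hC : 1 ≤ C) (hm : 0 ≤ m) (hω : 0 ≤ ω) (hω1 : ω ≤ 1)
    (he : 0 ≤ e2) (he1 : e2 ≤ 1) (hD : 0 ≤ D) (hq : 0 ≤ q) (h1 : D * m ≤ C ^ 2)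
    (h2 : q * m ≤ C * (ω + e2)) (hy : |y| ≤ 5) :
    |32 * C ^ 5 * (q * m + D * (ω * m) + D * (e2 * m)) + 512000 * C ^ 7 * (ω + -y)| ≤
      10 ^ 9 * C ^ 8 := by
  have hC0 : 0 ≤ C := by linarith
  have c12 : C ≤ C ^ 2 := le_self_pow₀ hC two_ne_zero
  have c78 : C ^ 7 ≤ C ^ 8 := pow_le_pow_right₀ hC (by norm_num)
  have c7 : 0 ≤ C ^ 7 := by positivity
  have k1 : q * m + D * (ω * m) + D * (e2 * m) ≤ 4 * C ^ 2 := by
    have a1 := mul_le_mul_of_nonneg_left (show ω + e2 ≤ 2 by linarith) hC0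
    have a2 := mul_le_mul h1 (show ω + e2 ≤ 2 by linarith) (add_nonneg hω he) (sq_nonneg C)
    linarith
  have k2 := mul_le_mul_of_nonneg_left k1 (show 0 ≤ 32 * C ^ 5 by positivity)
  have k3 : 0 ≤ 32 * C ^ 5 * (q * m + D * (ω * m) + D * (e2 * m)) := by positivity
  obtain ⟨y1, y2⟩ := abs_le.1 hy
  have k4 := mul_le_mul_of_nonneg_left (show ω + -y ≤ 6 by linarith) c7
  have k5 := mul_le_mul_of_nonneg_left (show -5 ≤ ω + -y by linarith) c7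
  exact abs_le.2 ⟨by linarith, by linarith⟩

theorem ndl_exp {s : ℝ} (hs : 0 < s) :
    Real.exp (2 * Real.log s) = s ^ 2 ∧ Real.exp (3 * Real.log s) = s ^ 3 := by
  have h := fun n : ℕ => Real.exp_nat_mul (Real.log s) n
  rw [Real.exp_log hs] at h
  exact ⟨by exact_mod_cast h 2, by exact_mod_cast h 3⟩

theorem ndl_wts {s r lam : ℝ} (u v : ℝ) (hs : 0 < s) (hr : 0 < r) (hl : 0 < lam) :
    Real.exp (-(2 * v) - 2 * Real.log s) = ((Real.exp v * s) ^ 2)⁻¹ ∧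
    Real.exp (u - 2 * v - 3 * Real.log s) = Real.exp u / s * ((Real.exp v * s) ^ 2)⁻¹ ∧
    Real.exp (Real.log lam - 2 * Real.log r - 2 * v - 2 * Real.log s) =
      lam / r ^ 2 * ((Real.exp v * s) ^ 2)⁻¹ := by
  have e1 : Real.exp (2 * v) = Real.exp v ^ 2 := by exact_mod_cast Real.exp_nat_mul v 2
  have hv := Real.exp_pos v
  simp only [Real.exp_sub, Real.exp_neg, e1, (ndl_exp hs).1, (ndl_exp hs).2, (ndl_exp hr).1,
    Real.exp_log hl]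
  refine ⟨?_, ?_, ?_⟩ <;> field_simp

theorem ndl_rad {r1 lam : ℝ} {w w1 w2 β β1 β2 : ℝ → ℝ} (hr : 10 ≤ r1) (hw : Rad r1 1 w w1 w2)
    (hβ : Rad r1 2 β β1 β2) :
    Rad r1 10 (fun r => -(2 * β r)) (fun r => -(2 * β1 r)) (fun r => -(2 * β2 r)) ∧
    Rad r1 10 (fun r => w r - 2 * β r) (fun r => w1 r - 2 * β1 r) (fun r => w2 r - 2 * β2 r) ∧
    Rad r1 10 (fun r => Real.log lam - 2 * Real.log r - 2 * β r)
      (fun r => -(2 * r⁻¹) - 2 * β1 r) (fun r => 2 * (r ^ 2)⁻¹ - 2 * β2 r) := by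
  refine ⟨⟨fun r h => ⟨((hβ.d r h).1.const_mul 2).neg, ((hβ.d r h).2.const_mul 2).neg⟩,
      (continuousOn_const.mul hβ.c).neg, fun r h => ?_⟩,
    ⟨fun r h => ⟨(hw.d r h).1.sub ((hβ.d r h).1.const_mul 2),
      (hw.d r h).2.sub ((hβ.d r h).2.const_mul 2)⟩, hw.c.sub (continuousOn_const.mul hβ.c),
      fun r h => ?_⟩, ⟨fun r h => ⟨?_, ?_⟩, ?_, fun r h => ?_⟩⟩
  · obtain ⟨a1, a2⟩ := hβ.b r h
    rw [abs_le] at a1 a2 ⊢
    rw [abs_le]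
    exact ⟨⟨by linarith [a1.2], by linarith [a1.1]⟩, by linarith [a2.2], by linarith [a2.1]⟩
  · obtain ⟨a1, a2⟩ := hβ.b r h
    obtain ⟨a3, a4⟩ := hw.b r h
    rw [abs_le] at a1 a2 a3 a4 ⊢
    rw [abs_le]
    exact ⟨⟨by linarith [a1.2, a3.1], by linarith [a1.1, a3.2]⟩, by linarith [a2.2, a4.1],
      by linarith [a2.1, a4.2]⟩
  · exact (((Real.hasDerivAt_log (by linarith : r ≠ 0)).const_mul 2).const_sub _).sub
      ((hβ.d r h).1.const_mul 2)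
  · have h1 := (((hasDerivAt_inv (by linarith : r ≠ 0)).const_mul 2).neg).sub
      ((hβ.d r h).2.const_mul 2)
    rwa [mul_neg, neg_neg] at h1
  · refine (continuousOn_const.mul ((continuousOn_id.pow 2).inv₀ fun r h => ?_)).sub
      (continuousOn_const.mul hβ.c)
    have : r1 < r := h
    exact pow_ne_zero 2 (by simp only [id]; linarith)
  · obtain ⟨a1, a2⟩ := hβ.b r h
    have hr1 : 1 ≤ r := by linarith
    have b1 : 0 ≤ r⁻¹ := by positivity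
    have b2 : r⁻¹ ≤ 1 := inv_le_one_of_one_le₀ hr1
    have b3 : 0 ≤ (r ^ 2)⁻¹ := by positivity
    have b4 : (r ^ 2)⁻¹ ≤ 1 := inv_le_one_of_one_le₀ (one_le_pow₀ hr1)
    rw [abs_le] at a1 a2 ⊢
    rw [abs_le]
    exact ⟨⟨by linarith [a1.2], by linarith [a1.1]⟩, by linarith [a2.2], by linarith [a2.1]⟩

theorem ndl_int {U : Set E3} {w R R' ψ : E3 → ℝ} {g p : E3 → E3} (h : Sub U w g R)
    (hR : Loc1 U R') (ht : Tst U ψ p) (h0 : ∀ᵐ x : E3, 0 ≤ ψ x)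
    (hle : ∀ᵐ x : E3, ψ x ≠ 0 → R' x ≤ R x) :
    ∫ x, ((1 / 2) * ⟪g x, p x⟫ + R' x * ψ x) ≤ 0 := by
  obtain ⟨i1, i2⟩ := ht.int hR h.l1.l2g
  refine le_trans (integral_mono_ae ((i2.const_mul _).add i1)
    ((i2.const_mul _).add (ht.int h.li h.l1.l2g).1) ?_) (h.ineq ψ p ht h0)
  filter_upwards [h0, hle] with x h1 h2
  by_cases h3 : ψ x = 0
  · simp only [Pi.add_apply, h3, mul_zero, le_refl]
  · exact add_le_add le_rfl (mul_le_mul_of_nonneg_right (h2 h3) h1)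

theorem ndl_loc {U : Set E3} {N : E3 → ℝ} {gN : E3 → E3} (hU : IsOpen U) (hN : L1 U N gN)
    (hp : LocP U N) {c : ℝ} (hc : 0 ≤ c) :
    Loc1 U (fun x => ‖gN x‖ ^ 2 / (2 * N x ^ 2) - c) := by
  refine Loc1.of_le hU ?_ hN.l2g.sq fun K hK hKU => ?_
  · exact (((hN.ld.mg.norm.aemeasurable.pow_const 2).div
      ((hN.ld.mf.aemeasurable.pow_const 2).const_mul 2)).sub_const c).aestronglyMeasurable
  · obtain ⟨a, ha, h⟩ := hp K hK hKU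
    refine ⟨(2 * a ^ 2)⁻¹ + c, ?_⟩
    filter_upwards [h] with x hx hxK
    have h1 := hx hxK
    have h2 : ‖gN x‖ ^ 2 / (2 * N x ^ 2) ≤ ‖gN x‖ ^ 2 * (2 * a ^ 2)⁻¹ := by
      rw [← div_eq_mul_inv]
      gcongr
    have h3 : 0 ≤ ‖gN x‖ ^ 2 / (2 * N x ^ 2) := by positivity
    have h4 : 0 ≤ (2 * a ^ 2)⁻¹ := by positivity
    have h5 : 0 ≤ c * ‖gN x‖ ^ 2 := by positivity
    have h6 : 0 ≤ ‖gN x‖ ^ 2 * (2 * a ^ 2)⁻¹ := by positivity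
    rw [abs_of_nonneg (sq_nonneg ‖gN x‖)]
    exact abs_le.2 ⟨by linarith, by linarith⟩

theorem lam_abs {r1 lam C : ℝ} {w w1 w2 β β1 β2 : ℝ → ℝ} (hr : 10 ≤ r1) (h0 : 0 < lam)
    (h1 : lam ≤ 1) (hC : 1 ≤ C) (hw : Rad r1 1 w w1 w2) (hβ : Rad r1 2 β β1 β2)
    (hw0 : ∀ r, r1 < r → w r ≤ 0 ∧ lam / r ^ 3 ≤ Real.exp (w r))
    {N d q ee : E3 → ℝ} {gN gd gq : E3 → E3} (hN : L1 (Ext r1) N gN) (hp : LocP (Ext r1) N)
    (sum : ∀ᵐ x : E3, N x ^ 2 = d x ^ 2 + q x)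
    (nn : ∀ᵐ x : E3, 0 ≤ q x ∧ 0 ≤ ee x ∧ ‖gq x‖ ^ 2 ≤ 4 * q x * ee x)
    (sN : Sub (Ext r1) (fun x => -Real.log (N x)) (fun x => -(N x)⁻¹ • gN x)
      (fun x => ‖gN x‖ ^ 2 / (2 * N x ^ 2) -
        (C + ‖gd x‖ ^ 2 * q x / N x ^ 4 + 2 * ee x / N x ^ 2)))
    (sq : Sub (Ext r1) q gq (fun x => ee x - C * N x ^ 2))
    (sd : Sub (Ext r1) (fun x => d x ^ 2) (fun x => (2 * d x) • gd x)
      (fun x => ‖gd x‖ ^ 2 - C * N x ^ 2))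
    (slab : ∀ᵐ x : E3, x ∈ Slab r1 → x 2 * Real.exp (β ‖x‖) ≤ C * d x ∧
      d x ≤ C * (x 2 * Real.exp (β ‖x‖)) ∧
      q x ≤ C * ((Real.exp (w ‖x‖) * Real.exp (β ‖x‖)) ^ 2 +
        lam / ‖x‖ ^ 2 * (x 2 * Real.exp (β ‖x‖)) ^ 2) ∧
      Real.exp (w ‖x‖) * Real.exp (β ‖x‖) ≤ C * N x) :
    ∃ Λ gΛ, L1 (Us r1 w) Λ gΛ ∧ (∀ᵐ x : E3, x ∈ Slab r1 → |Λ x| ≤ 10 ^ 9 * C ^ 8) ∧
      ∀ ψ p, Tst (Us r1 w) ψ p → (∀ᵐ x : E3, 0 ≤ ψ x) → (∀ x, x 2 < 0 → ψ x = 0 ∧ p x = 0) →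
        ∫ x, ((1 / 2) * ⟪gΛ x - (N x)⁻¹ • gN x, p x⟫ +
          (‖gN x‖ ^ 2 / (2 * N x ^ 2) - 10 ^ 9 * C ^ 8) * ψ x) ≤ 0 := by
  obtain ⟨-, hUE, -⟩ := Us_open hw (by linarith)
  obtain ⟨r1', r2', r3'⟩ := ndl_rad (lam := lam) hr hw hβ
  have hw1 : ∀ r, r1 < r → w r ≤ 0 := fun r h => (hw0 r h).1
  obtain ⟨g1, l1, c1, b1⟩ := weight_C2 hr hw hw1 r1' (n := 2) (by norm_num) (by norm_num)
  obtain ⟨g2, l2, c2, b2⟩ := weight_C2 hr hw hw1 r2' (n := 3) (by norm_num) (by norm_num)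
  obtain ⟨g3, l3, c3, b3⟩ := weight_C2 hr hw hw1 r3' (n := 2) (by norm_num) (by norm_num)
  obtain ⟨g4, l4, c4, b4⟩ := comp1_C2 hr hw
  obtain ⟨g5, l5, c5, b5⟩ := comp2_C2 hr hw hw1 h0 h1
  have hC0 : 0 ≤ C := by linarith
  have S := (Sub.cmul (show 0 ≤ 32 * C ^ 5 by positivity)
    ((((sq.mono hUE).mulC2 c1 fun x _ => (Real.exp_pos _).le).add
      ((sd.mono hUE).mulC2 c2 fun x _ => (Real.exp_pos _).le)).add
      ((sd.mono hUE).mulC2 c3 fun x _ => (Real.exp_pos _).le))).add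
    (Sub.cmul (show 0 ≤ 512000 * C ^ 7 by positivity) (c4.toSub.add c5.toSub))
  have geo : ∀ x ∈ Slab r1, 0 < sf w x ∧ sf w x ≤ 2 ∧ 0 ≤ Real.exp (w ‖x‖) / sf w x ∧
      Real.exp (w ‖x‖) / sf w x ≤ 1 ∧ 0 ≤ lam / ‖x‖ ^ 2 ∧ lam / ‖x‖ ^ 2 ≤ 1 ∧ 0 < ‖x‖ := by
    intro x ⟨x1, x2, x3⟩
    have a1 := Real.exp_pos (w ‖x‖)
    have a2 : Real.exp (w ‖x‖) ≤ 1 := Real.exp_le_one_iff.2 (hw1 _ x1)
    have a3 : 0 < sf w x := add_pos x2 a1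
    have a4 : 1 ≤ ‖x‖ := by linarith
    refine ⟨a3, ?_, by positivity, ?_, by positivity, ?_, by linarith⟩
    · unfold sf
      linarith
    · rw [div_le_one a3]
      unfold sf
      linarith
    · exact div_le_one_of_le₀ (h1.trans (one_le_pow₀ a4)) (by positivity)
  refine ⟨_, _, S.l1, ?_, fun ψ p ht hψ hz => ?_⟩
  · filter_upwards [sum, nn, slab] with x e1 e2 e3 hx
    obtain ⟨a1, -, a3, a4, a5, a6, a7⟩ := geo x hx
    obtain ⟨s1, s2, s3, s4⟩ := e3 hx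
    obtain ⟨k1, k2, -⟩ := ndl_geo hx.2.1 (Real.exp_pos _) (Real.exp_pos _) a5 hC e2.1 e1 s1 s2 s3 s4
    obtain ⟨w1', w2', w3'⟩ := ndl_wts (w ‖x‖) (β ‖x‖) a1 a7 h0
    rw [w1', w2', w3']
    exact ndl_bd hC (by positivity) a3 a4 a5 a6 (sq_nonneg _) e2.1 k1 k2
      (comp2_bd hr h0 h1 hw0 hx)
  · have hl := ndl_loc (isOpen_Ext r1) hN hp (show 0 ≤ 10 ^ 9 * C ^ 8 by positivity)
    have key := ndl_int (S.add (sN.mono hUE)) (fun K hK hKU => hl K hK (hKU.trans hUE)) ht hψ (by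
      obtain ⟨K, -, hKU, hK⟩ := ht.cpt
      filter_upwards [sum, nn, slab, ae_coord_ne 2 0] with x e1 e2 e3 e4 hx0
      have hxU : x ∈ Us r1 w := hKU (by_contra fun h => hx0 (hK x h).1)
      have hx : x ∈ Slab r1 := ⟨hxU.1, lt_of_le_of_ne (not_lt.1 fun h => hx0 (hz x h).1) e4.symm,
        hxU.2.2⟩
      obtain ⟨a1, a2, a3, a4, a5, a6, a7⟩ := geo x hx
      obtain ⟨s1, s2, s3, s4⟩ := e3 hx
      obtain ⟨k1, k2, k3⟩ :=
        ndl_geo hx.2.1 (Real.exp_pos _) (Real.exp_pos _) a5 hC e2.1 e1 s1 s2 s3 s4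
      obtain ⟨w1', w2', w3'⟩ := ndl_wts (w ‖x‖) (β ‖x‖) a1 a7 h0
      have hgd : ‖(2 * d x) • gd x‖ ^ 2 ≤ 4 * d x ^ 2 * ‖gd x‖ ^ 2 := by
        rw [norm_smul, mul_pow, Real.norm_eq_abs, sq_abs]
        linarith
      have ha := ndl_mul (c := C * N x ^ 2) e2.1 e2.2.1 (Real.exp_pos _).le a1 a2 e2.2.2
        (b1 x hx).1 (b1 x hx).2
      have hb := ndl_mul (c := C * N x ^ 2) (sq_nonneg _) (sq_nonneg _) (Real.exp_pos _).le a1 a2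
        hgd (b2 x hx).1 (b2 x hx).2
      have hc := ndl_mul (c := C * N x ^ 2) (sq_nonneg _) (sq_nonneg _) (Real.exp_pos _).le a1 a2
        hgd (b3 x hx).1 (b3 x hx).2
      have hd : Real.exp (w ‖x‖) / sf w x * (sf w x ^ 2)⁻¹ - 100 ≤ l4 x / 2 := by
        refine le_trans (le_of_eq ?_) (b4 x hx)
        field_simp
      have hf := b5 x hx
      rw [div_eq_mul_inv _ (sf w x ^ 2)] at hf
      have hfin := ndl_fin (n := (N x ^ 2)⁻¹) hC (by positivity) (by positivity) a3 a4 a5 a6 e2.1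
        e2.2.1 (sq_nonneg ‖gd x‖) (by positivity) k1 k2 k3
        (le_trans (le_of_eq (by rw [w1', e1]; rfl)) ha)
        (le_trans (le_of_eq (by rw [w2', e1]; rfl)) hb)
        (le_trans (le_of_eq (by rw [w3', e1]; rfl)) hc) hd hf
      have e5 : ‖gd x‖ ^ 2 * q x / N x ^ 4 = ‖gd x‖ ^ 2 * q x * (N x ^ 2)⁻¹ ^ 2 := by
        rw [inv_pow, ← pow_mul, div_eq_mul_inv]
      rw [e5, div_eq_mul_inv (2 * ee x)]
      linarith)
    simpa only [neg_smul, ← sub_eq_add_neg] using key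

end

end Vale.Agent.P363
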