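import Vale.Agent.P363.NDa

/-! P363, block ND: the radial profile `log aa`. -/

open MeasureTheory Set Metric Filter Topology
open scoped RealInnerProductSpace

namespace Vale.Agent.P363

noncomputable section

namespace NDpAux

/-- The weight of the first exponential. -/
def th (a ψ : ℝ → ℝ) (r : ℝ) : ℝ := Real.exp (a r) / (Real.exp (a r) + Real.exp (ψ r))

theorem th_mem (a ψ : ℝ → ℝ) (r : ℝ) : 0 ≤ th a ψ r ∧ th a ψ r ≤ 1 ∧
    th a ψ r * Real.exp (ψ r) ≤ Real.exp (a r) := by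
  have h1 := Real.exp_pos (a r)
  have h2 := Real.exp_pos (ψ r)
  unfold th
  refine ⟨by positivity, ?_, ?_⟩
  · rw [div_le_one (by positivity)]; linarith
  · rw [div_mul_eq_mul_div, div_le_iff₀ (by positivity)]; nlinarith

theorem th_deriv {a ψ : ℝ → ℝ} {a1 ψ1 r : ℝ} (ha : HasDerivAt a a1 r) (hψ : HasDerivAt ψ ψ1 r) :
    HasDerivAt (th a ψ) (th a ψ r * (1 - th a ψ r) * (a1 - ψ1)) r := by
  have h1 := Real.exp_pos (a r)
  have h2 := Real.exp_pos (ψ r)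
  have := ha.exp.div (ha.exp.add hψ.exp) (add_pos h1 h2).ne'
  refine this.congr_deriv ?_
  simp only [Pi.add_apply]
  unfold th
  field_simp
  ring

theorem log_deriv {a ψ : ℝ → ℝ} {a1 ψ1 r : ℝ} (ha : HasDerivAt a a1 r) (hψ : HasDerivAt ψ ψ1 r) :
    HasDerivAt (fun r => Real.log (Real.exp (a r) + Real.exp (ψ r)))
      (th a ψ r * a1 + (1 - th a ψ r) * ψ1) r := by
  have h1 := Real.exp_pos (a r)
  have h2 := Real.exp_pos (ψ r)
  have := (ha.exp.add hψ.exp).log (add_pos h1 h2).ne'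
  refine this.congr_deriv ?_
  simp only [Pi.add_apply]
  unfold th
  field_simp
  ring

theorem mix_deriv {a ψ a1 ψ1 : ℝ → ℝ} {a2 ψ2 r : ℝ} (ha : HasDerivAt a (a1 r) r)
    (hψ : HasDerivAt ψ (ψ1 r) r) (ha1 : HasDerivAt a1 a2 r) (hψ1 : HasDerivAt ψ1 ψ2 r) :
    HasDerivAt (fun r => th a ψ r * a1 r + (1 - th a ψ r) * ψ1 r)
      (th a ψ r * a2 + (1 - th a ψ r) * ψ2 + th a ψ r * (1 - th a ψ r) * (a1 r - ψ1 r) ^ 2) r := by
  have ht := th_deriv ha hψ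
  have := (ht.mul ha1).add ((ht.const_sub 1).mul hψ1)
  refine this.congr_deriv ?_
  ring

theorem abs_mix {t u v M N : ℝ} (h0 : 0 ≤ t) (h1 : t ≤ 1) (hu : |u| ≤ M) (hv : |v| ≤ N) :
    |t * u + (1 - t) * v| ≤ t * M + (1 - t) * N := by
  have h2 : 0 ≤ 1 - t := by linarith
  calc |t * u + (1 - t) * v| ≤ |t * u| + |(1 - t) * v| := abs_add_le _ _
    _ = t * |u| + (1 - t) * |v| := by rw [abs_mul, abs_mul, abs_of_nonneg h0, abs_of_nonneg h2]
    _ ≤ t * M + (1 - t) * N := by gcongr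

end NDpAux

open NDpAux

theorem NX.phi {L δ lam r1 I G : ℝ} (h : NX L δ lam r1 I G) : ∃ φ1 φ2 : ℝ → ℝ,
    (∀ r, 0 < r → HasDerivAt (fun r => Real.log (aa L lam I δ r)) (φ1 r) r ∧
      HasDerivAt φ1 (φ2 r) r) ∧ ContinuousOn φ2 (Ioi 0) ∧
    (∀ r, r1 ≤ r → |φ1 r + √(2 * I)| ≤ 1 / 100 ∧ |φ2 r| ≤ 1 / 100) ∧
    Tendsto φ1 atTop (𝓝 (-√(2 * I))) := by
  obtain ⟨ψ, ψ1, ψ2, hc, hψ⟩ := h.rs_data
  obtain ⟨-, hkT, -, -, -⟩ := h.ks
  obtain ⟨o1, o2, o3, o4, -, -, -, -, o5, -⟩ := h.ord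
  have hL : 0 < L := by linarith [h.hL]
  have hd0 := h.d0
  have hd1 := h.d1
  have hl := h.l0
  have h1 : (1 : ℝ) ∈ Icc (9 / 10 : ℝ) 1 := by constructor <;> norm_num
  obtain ⟨a, ha⟩ : ∃ a, a = ph L (kT lam I δ) 1 0 := ⟨_, rfl⟩
  obtain ⟨a1, ha1⟩ : ∃ a1, a1 = ph1 L (kT lam I δ) 1 0 := ⟨_, rfl⟩
  obtain ⟨a2, ha2⟩ : ∃ a2, a2 = ph2 L (kT lam I δ) 1 0 := ⟨_, rfl⟩
  have hRT : ∀ r, RT L lam I δ r = Real.exp (a r) := fun r => by rw [ha]; rfl
  have hda : ∀ r, 0 < r → HasDerivAt a (a1 r) r ∧ HasDerivAt a1 (a2 r) r := fun r hr => by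
    rw [ha, ha1, ha2]; exact hasDerivAt_ph _ _ _ hL hr
  have hca : ContinuousOn a2 (Ioi 0) := by rw [ha2]; exact continuousOn_ph2 _ _ _ hL
  have hba : ∀ r, 0 < r → |a1 r + kT lam I δ| ≤ 2 / r ∧ |a2 r| ≤ 2 / r ^ 2 := fun r hr => by
    rw [ha1, ha2]; exact ph1_bound hL hkT h1 hr
  have hu : ∀ r, r1 ≤ r → |a1 r + √(2 * I)| ≤ 6 / 1000 := fun r hr => by
    obtain ⟨-, -, hr3, -⟩ := h.rad hr
    have e1 := (hba r (by linarith)).1
    have e2 : 2 / r ≤ 2 / 1000 := div_le_div_of_nonneg_left (by norm_num) (by norm_num) hr3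
    rw [abs_le] at e1 ⊢
    constructor <;> linarith [e1.1, e1.2]
  have hsplit : ∀ r, th a ψ r * a1 r + (1 - th a ψ r) * ψ1 r + √(2 * I) =
      th a ψ r * (a1 r + √(2 * I)) + (1 - th a ψ r) * (ψ1 r + √(2 * I)) := fun r => by ring
  refine ⟨fun r => th a ψ r * a1 r + (1 - th a ψ r) * ψ1 r, fun r => th a ψ r * a2 r +
    (1 - th a ψ r) * ψ2 r + th a ψ r * (1 - th a ψ r) * (a1 r - ψ1 r) ^ 2, fun r hr => ⟨?_, ?_⟩,
    ?_, fun r hr => ?_, ?_⟩
  · refine (log_deriv (hda r hr).1 (hψ r hr).2.1).congr_of_eventuallyEq ?_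
    filter_upwards [Ioi_mem_nhds hr] with s hs
    unfold aa
    rw [hRT, (hψ s hs).1]
  · exact mix_deriv (hda r hr).1 (hψ r hr).2.1 (hda r hr).2 (hψ r hr).2.2.1
  · have c1 : ContinuousOn (th a ψ) (Ioi 0) := fun r hr =>
      (th_deriv (hda r hr).1 (hψ r hr).2.1).continuousAt.continuousWithinAt
    have c2 : ContinuousOn a1 (Ioi 0) := fun r hr => (hda r hr).2.continuousAt.continuousWithinAt
    have c3 : ContinuousOn ψ1 (Ioi 0) := fun r hr =>
      (hψ r hr).2.2.1.continuousAt.continuousWithinAt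
    exact ((c1.mul hca).add ((continuousOn_const.sub c1).mul hc)).add
      ((c1.mul (continuousOn_const.sub c1)).mul ((c2.sub c3).pow 2))
  · obtain ⟨-, -, hr3, -⟩ := h.rad hr
    have hr0 : 0 < r := by linarith
    obtain ⟨t0, t1, -⟩ := th_mem a ψ r
    obtain ⟨-, -, -, b1, b2⟩ := hψ r hr0
    have e1 := hu r hr
    have e2 : 6 / r ≤ 6 / 1000 := div_le_div_of_nonneg_left (by norm_num) (by norm_num) hr3
    have e3 : |ψ1 r + √(2 * I)| ≤ 6 / 1000 := b1.trans e2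
    have hr2 : (1000 : ℝ) ≤ r ^ 2 := by nlinarith
    have e4 : |a2 r| ≤ 6 / 1000 := (hba r hr0).2.trans
      ((div_le_div_of_nonneg_left (by norm_num) (by norm_num) hr2).trans (by norm_num))
    have e5 : |ψ2 r| ≤ 6 / 1000 := b2.trans
      (div_le_div_of_nonneg_left (by norm_num) (by norm_num) hr2)
    constructor
    · rw [hsplit]
      have := abs_mix t0 t1 e1 e3
      linarith
    · have e6 := abs_mix t0 t1 e4 e5
      have e7 : (a1 r - ψ1 r) ^ 2 ≤ (12 / 1000) ^ 2 := by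
        rw [abs_le] at e1 e3
        exact sq_le_sq' (by linarith [e1.1, e3.2]) (by linarith [e1.2, e3.1])
      have e8 : 0 ≤ th a ψ r * (1 - th a ψ r) := mul_nonneg t0 (by linarith)
      have e9 : th a ψ r * (1 - th a ψ r) ≤ 1 := by nlinarith
      have e10 : th a ψ r * (1 - th a ψ r) * (a1 r - ψ1 r) ^ 2 ≤ 1 * (12 / 1000) ^ 2 :=
        mul_le_mul e9 e7 (sq_nonneg _) (by norm_num)
      have e11 := mul_nonneg e8 (sq_nonneg (a1 r - ψ1 r))
      rw [abs_le] at e6 ⊢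
      constructor <;> linarith [e6.1, e6.2]
  · rw [tendsto_iff_norm_sub_tendsto_zero]
    refine squeeze_zero' (g := fun r => (1 / lam + 6) / r) (Eventually.of_forall fun _ => norm_nonneg _)
      ?_ (tendsto_id.const_div_atTop _)
    filter_upwards [eventually_ge_atTop r1] with r hr
    obtain ⟨-, -, hr3, -⟩ := h.rad hr
    have hr0 : 0 < r := by linarith
    obtain ⟨t0, t1, t2⟩ := th_mem a ψ r
    obtain ⟨b0, -, -, b1, -⟩ := hψ r hr0
    obtain ⟨l1, l2, l3, -, l5, -, -, l8, -, -⟩ := h.low hr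
    have f1 : G * (1 + r) ^ 8 * RT L lam I δ r ≤ Real.exp (-(kT lam I δ - δ / 5) * r) :=
      h.decF hkT h1 hr
    have f2 : Real.exp (-(kT lam I δ - δ / 5) * r) ≤ Real.exp (-√(2 * I) * r) :=
      Real.exp_le_exp.2 (mul_le_mul_of_nonneg_right (by linarith) hr0.le)
    have f3 : r ^ 6 ≤ G * (1 + r) ^ 8 :=
      calc r ^ 6 ≤ (1 + r) ^ 6 := pow_le_pow_left₀ hr0.le (by linarith) 6
        _ ≤ (1 + r) ^ 8 := pow_le_pow_right₀ (by linarith) (by norm_num)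
        _ ≤ G * (1 + r) ^ 8 := le_mul_of_one_le_left (by positivity) h.hG
    have f4 : r ^ 6 * RT L lam I δ r ≤ r ^ 2 * bb L lam I r :=
      ((mul_le_mul_of_nonneg_right f3 l3.le).trans f1).trans (f2.trans l5)
    rw [← b0, ← hRT] at t2
    have f5 : th a ψ r * (lam / r ^ 3 * bb L lam I r) ≤ RT L lam I δ r :=
      (mul_le_mul_of_nonneg_left l8 t0).trans t2
    have f6 : r ^ 6 * (th a ψ r * (lam / r ^ 3 * bb L lam I r)) ≤ r ^ 2 * bb L lam I r :=
      (mul_le_mul_of_nonneg_left f5 (by positivity)).trans f4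
    have f7 : r ^ 6 * (th a ψ r * (lam / r ^ 3 * bb L lam I r)) =
        (th a ψ r * (lam * r)) * (r ^ 2 * bb L lam I r) := by field_simp
    have f8 : th a ψ r * (lam * r) ≤ 1 := by
      rw [f7] at f6
      exact (mul_le_iff_le_one_left (by positivity)).1 f6
    have f9 : th a ψ r ≤ 1 / lam / r := by
      rw [div_div, le_div_iff₀ (by positivity)]; exact f8
    have f10 := abs_mix t0 t1 ((hu r hr).trans (by norm_num : (6 / 1000 : ℝ) ≤ 1)) b1
    have f11 : 0 ≤ th a ψ r * (6 / r) := by positivity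
    rw [Real.norm_eq_abs, sub_neg_eq_add, hsplit, add_div]
    linarith

end

end Vale.Agent.P363
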