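import Vale.Agent.P363.C
import Vale.Agent.P363.DefsV
import Vale.Agent.P363.NDp
import Vale.Agent.P363.NDl
import Vale.Agent.P363.ND1
import Vale.Agent.P363.ND2
import Vale.Agent.P363.ND3

/-! P363, block ND. -/

open MeasureTheory Set Metric Filter Topology
open scoped RealInnerProductSpace

namespace Vale.Agent.P363

theorem nd_core {L δ lam r1 I C C2 G τ A : ℝ} {g N : E3 → ℝ} {gN : E3 → E3}
    (h : NH L δ lam r1 I C G τ A g N) (hC2 : 1 ≤ C2) (hle : C2 ≤ C)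
    (F : FB L δ lam r1 C2 I N gN) (hN : H1 N gN) (n0 : ∀ x, 0 ≤ N x) (hp : LocP (D L) N)
    (anc : ∀ x ∈ Slab r1, ‖x‖ < r1 + 1 → aa L lam I δ ‖x‖ ≤ 10 ^ 9 * C ^ 8 * g x) :
    Nonempty (ND L δ (eta lam) r1 (10 ^ 9 * C ^ 8) I g N gN) := by
  have nx := h.nx
  have hC := h.hC
  obtain ⟨-, rL, r0, -⟩ := nx.rad le_rfl
  have hL := nx.hL
  obtain ⟨φ1, φ2, dφ, cφ, tφ, lφ⟩ := nx.phi
  obtain ⟨β, β1, β2, cβ, dβ⟩ := nx.bb_data
  have a0 : ∀ r, r1 ≤ r → 0 < aa L lam I δ r := fun r hr =>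
    add_pos (nx.low hr).2.2.1 (nx.low hr).2.1
  have ea : ∀ r, r1 ≤ r → Real.exp (Real.log (aa L lam I δ r)) = aa L lam I δ r := fun r hr =>
    Real.exp_log (a0 r hr)
  have sm : ∀ r, r1 < r → 3 / r ≤ 1 / 100 ∧ 3 / r ^ 2 ≤ 1 / 100 := fun r hr =>
    ⟨by rw [div_le_iff₀ (by linarith)]; linarith,
      by rw [div_le_iff₀ (pow_pos (by linarith) 2)]; nlinarith⟩
  have k0 := nx.ks.1
  have hβ : Rad r1 2 β β1 β2 := by
    refine ⟨fun r hr => ⟨(dβ r (by linarith)).2.1, (dβ r (by linarith)).2.2.1⟩,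
      cβ.mono (Ioi_subset_Ioi (by linarith)), fun r hr => ?_⟩
    obtain ⟨-, -, -, b1, b2⟩ := dβ r (by linarith)
    obtain ⟨s1, s2⟩ := sm r hr
    rw [abs_le] at b1
    exact ⟨abs_le.2 ⟨by linarith [k0.2], by linarith [k0.1]⟩, by linarith⟩
  have hw : Rad r1 1 (fun r => Real.log (aa L lam I δ r) - β r) (fun r => φ1 r - β1 r)
      (fun r => φ2 r - β2 r) := by
    refine ⟨fun r hr => ⟨(dφ r (by linarith)).1.sub (hβ.d r hr).1,
      (dφ r (by linarith)).2.sub (hβ.d r hr).2⟩,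
      (cφ.mono (Ioi_subset_Ioi (by linarith))).sub hβ.c, fun r hr => ?_⟩
    obtain ⟨-, -, -, b1, b2⟩ := dβ r (by linarith)
    obtain ⟨s1, s2⟩ := sm r hr
    obtain ⟨t1, t2⟩ := tφ r hr.le
    rw [abs_le] at b1 b2 t1 t2
    exact ⟨abs_le.2 ⟨by linarith, by linarith⟩, abs_le.2 ⟨by linarith, by linarith⟩⟩
  have eb : ∀ r, r1 < r → Real.exp (β r) = bb L lam I r := fun r hr =>
    (dβ r (by linarith)).1.symm
  have ew : ∀ r, r1 < r → Real.exp (Real.log (aa L lam I δ r) - β r) * Real.exp (β r) =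
      aa L lam I δ r := fun r hr => by rw [← Real.exp_add, sub_add_cancel, ea r hr.le]
  have G2 : 1000 ≤ G := le_trans (by nlinarith [one_le_pow₀ hC (n := 7)]) h.hG.1
  have hw0 : ∀ r, r1 < r → Real.log (aa L lam I δ r) - β r ≤ 0 ∧
      lam / r ^ 3 ≤ Real.exp (Real.log (aa L lam I δ r) - β r) := by
    intro r hr
    obtain ⟨b0, s0, t0, -, -, -, b1, b2, b3, -⟩ := nx.low hr.le
    have e := ew r hr
    rw [eb r hr] at e
    have r3 : 1 ≤ r ^ 3 := one_le_pow₀ (by linarith)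
    have : 2 * RS L lam I δ r ≤ G * r ^ 3 * RS L lam I δ r :=
      mul_le_mul_of_nonneg_right (by nlinarith) s0.le
    refine ⟨Real.exp_le_one_iff.1 (le_of_mul_le_mul_right ?_ b0), le_of_mul_le_mul_right ?_ b0⟩
    · rw [e, aa]; nlinarith
    · rw [e, aa]; linarith
  obtain ⟨Λ, gΛ, l1, l2, l3⟩ := lam_abs (by linarith) nx.l0
    (by linarith [nx.etap.2, nx.he, nx.d1]) hC2 hw hβ hw0 (hN.l1 _)
    (fun K h1 h2 => hp K h1 (h2.trans nx.sub.1)) F.sum F.nn F.sN F.sq F.sd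
    (F.slab.mono fun x hx hs => by rw [ew _ hs.1, eb _ hs.1]; exact hx hs)
  obtain ⟨B1, x1, s1⟩ := h.b1
  obtain ⟨B2, x2, s2⟩ := h.b2
  obtain ⟨B3, x3, s3⟩ := h.b3
  have c8 : C2 ^ 8 ≤ C ^ 8 := pow_le_pow_left₀ (by linarith) hle 8
  have c5 : 10 ^ 4 * C ^ 5 ≤ 10 ^ 9 * C ^ 8 := by
    have := pow_le_pow_right₀ hC (show 5 ≤ 8 by norm_num)
    nlinarith [one_le_pow₀ hC (n := 5)]
  have c1 : C2 ≤ 10 ^ 9 * C ^ 8 := by
    have := le_self_pow₀ hC (show 8 ≠ 0 by norm_num)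
    nlinarith
  have u3 : ∀ x : E3, r1 < ‖x‖ → 0 < x 2 → 4 * L * x 2 ≤ ‖x‖ →
      B3 x ≤ 10 ^ 9 * C ^ 8 * Real.exp (Real.log (aa L lam I δ ‖x‖)) := fun x h1 h2 h3 => by
    rw [ea _ h1.le]
    exact (s3 x h1 h2 h3).trans (mul_le_mul_of_nonneg_right c5 (a0 _ h1.le).le)
  refine ⟨{
    Vf := Vf L lam I, φ := fun r => Real.log (aa L lam I δ r), φ1 := φ1, φ2 := φ2
    Us := Us r1 _, Λ := Λ, gΛ := gΛ, B1 := B1, B2 := B2, B3 := B3, χ := fun x => ‖x‖⁻¹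
    scr := F.scr
    mVf := ?_
    bVf := fun x hx => ?_
    dφ := fun r hr => dφ r (by linarith)
    cφ := cφ.mono (Ioi_subset_Ioi (by linarith))
    tame := tφ
    lim := lφ
    low := F.slab.mono fun x hx hs => ?_
    anc := fun x hx hr => by rw [ea _ hx.1.le]; exact anc x hx hr
    oUs := Us_open hw (by linarith)
    lΛ := l1
    bΛ := l2.mono fun x hx hs => (hx hs).trans (by linarith)
    iΛ := fun ψ p ht h0 h1 => ?_
    x1 := x1
    s1 := s1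
    x2 := x2
    s2 := s2.mono fun x hx h1 h2 => ⟨hx h1 h2, by positivity⟩
    x3 := x3
    s3 := fun x hx => u3 x hx.1 hx.2.1 (by nlinarith [hx.1, hx.2.1, hx.2.2])
    f3 := fun S => ?_
    g3 := fun s S t hs ht => ?_ }⟩
  · have m := (continuous_rA L).1.min (continuous_rA L).2 |>.measurable
    exact ((measurable_V L).add_const I).add
      ((measurable_const.div (m.add_const L)).sub (measurable_const.div (m.pow_const 2)))
  · have b := abs_le.1 (nx.geo hx).2.2.1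
    have : 5 / ‖x‖ ≤ 1 / 100 := by
      rw [div_le_iff₀ (by linarith [show r1 < ‖x‖ from hx])]; linarith [show r1 < ‖x‖ from hx]
    exact ⟨by linarith [nx.hI.1], by linarith [nx.hI.2]⟩
  · rw [ea _ hs.1.le]
    exact (hx hs).2.2.2.trans (mul_le_mul_of_nonneg_right c1 (n0 x))
  · have i := l3 ψ p ht h0 h1
    have iψ := ht.h1.2.1.const_mul (10 ^ 9 * C ^ 8 - 10 ^ 9 * C2 ^ 8)
    have e : ∀ x, (1 / 2) * ⟪gΛ x - (N x)⁻¹ • gN x, p x⟫ +
        (‖gN x‖ ^ 2 / (2 * N x ^ 2) - 10 ^ 9 * C ^ 8) * ψ x =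
        ((1 / 2) * ⟪gΛ x - (N x)⁻¹ • gN x, p x⟫ +
          (‖gN x‖ ^ 2 / (2 * N x ^ 2) - 10 ^ 9 * C2 ^ 8) * ψ x) -
          (10 ^ 9 * C ^ 8 - 10 ^ 9 * C2 ^ 8) * ψ x := fun x => by ring
    simp only [e]
    by_cases hi : Integrable fun x => (1 / 2) * ⟪gΛ x - (N x)⁻¹ • gN x, p x⟫ +
        (‖gN x‖ ^ 2 / (2 * N x ^ 2) - 10 ^ 9 * C2 ^ 8) * ψ x
    · rw [integral_sub hi iψ]
      exact sub_nonpos.2 (i.trans (integral_nonneg_of_ae (h0.mono fun x hx =>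
        mul_nonneg (by linarith) hx)))
    · refine (integral_undef fun hj => hi ?_).le
      simpa only [Pi.add_def, sub_add_cancel] using hj.add iψ
  · filter_upwards [eventually_gt_atTop r1, eventually_ge_atTop (4 * L * S)] with ρ h1 h2 x h3 h4 h5
    exact u3 x (by linarith) h4 (by nlinarith)
  · filter_upwards [eventually_gt_atTop r1, eventually_ge_atTop (4 * L * S),
      h.g3 hs (t := t / (10 ^ 4 * C ^ 5)) (by positivity)] with ρ h1 h2 h3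
    filter_upwards [h3] with x hx h4 h5 h6
    refine (s3 x (show r1 < ‖x‖ by linarith) (by linarith) (by nlinarith)).trans ?_
    refine (mul_le_mul_of_nonneg_left (hx h4 h5) (by positivity)).trans_eq ?_
    field_simp

theorem nd_big {M d : ℝ} (hd : 0 < d) :
    ∀ᶠ r1 : ℝ in atTop, ∀ r, r1 ≤ r → M * (1 + r) ^ 10 ≤ Real.exp (d * r) := by
  refine eventually_forall_ge_atTop.2 ?_
  have t := (Real.tendsto_exp_div_pow_atTop 10).comp (tendsto_id.const_mul_atTop hd)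
  filter_upwards [t.eventually_ge_atTop (|M| * (2 / d) ^ 10), eventually_ge_atTop 1] with r h1 h2
  simp only [Function.comp, id] at h1
  rw [le_div_iff₀ (by positivity), mul_assoc, ← mul_pow] at h1
  refine le_trans (mul_le_mul (le_abs_self M) (pow_le_pow_left₀ (by linarith) ?_ 10)
    (by positivity) (abs_nonneg _)) h1
  rw [show 2 / d * (d * r) = 2 * r by field_simp]
  linarith

theorem nd_small {f : ℝ → ℝ} (hf : Tendsto f (𝓝[>] 0) (𝓝 0)) (M : ℝ) {a : ℝ} (ha : 0 < a) :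
    ∀ᶠ t in 𝓝[>] (0 : ℝ), M * f t ≤ a :=
  (show Tendsto (fun t => M * f t) (𝓝[>] 0) (𝓝 0) by
    simpa using hf.const_mul M).eventually_le_const ha

theorem nd_eta : Tendsto eta (𝓝[>] 0) (𝓝 0) := by
  have := (Real.continuousAt_rpow_const 0 (1 / 16) (Or.inr (by norm_num))).tendsto
  rw [Real.zero_rpow (by norm_num)] at this
  exact this.mono_left nhdsWithin_le_nhds

theorem nd_alg {C u a e d q N : ℝ} (hC : 1 ≤ C) (u0 : 0 < u) (a0 : 0 < a) (e0 : 0 ≤ e)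
    (e1 : e ≤ 1) (n0 : 0 ≤ N) (h1 : u ≤ C * d) (h2 : d ≤ C * u) (h3 : q ≤ C * (a ^ 2 + e * u ^ 2))
    (h4 : N ^ 2 = d ^ 2 + q) : N ≤ C * a + 2 * C * u := by
  have d0 : 0 ≤ d := nonneg_of_mul_nonneg_right (u0.le.trans h1) (by linarith)
  have d2 := pow_le_pow_left₀ d0 h2 2
  have c2 : q ≤ C ^ 2 * (a ^ 2 + u ^ 2) := h3.trans (mul_le_mul (by nlinarith)
    (by nlinarith [sq_nonneg u]) (by positivity) (by positivity))
  refine (sq_le_sq₀ n0 (by positivity)).1 ?_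
  have : 0 ≤ C ^ 2 * (a * u) := by positivity
  have : 0 ≤ C ^ 2 * u ^ 2 := by positivity
  nlinarith

section

variable {L δ lam r1 I G : ℝ} (nx : NX L δ lam r1 I G)
include nx

theorem NX.slab {C K : ℝ} {N : E3 → ℝ} {gN : E3 → E3} (hC : 1 ≤ C) (hK : 2 * C ≤ K)
    (F : FB L δ lam r1 C I N gN) (n0 : ∀ x, 0 ≤ N x) :
    ∀ᵐ x : E3, x ∈ Slab r1 → N x ≤ K * aa L lam I δ ‖x‖ + K * x 2 := by
  filter_upwards [F.slab, F.sum] with x h1 h2 hx
  obtain ⟨a, b, c, -⟩ := h1 hx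
  obtain ⟨b0, s0, t0, -, -, -, -, -, -, b1⟩ := nx.low hx.1.le
  have z0 := hx.2.1
  have u0 : 0 < x 2 * bb L lam I ‖x‖ := by positivity
  have a0 : 0 < aa L lam I δ ‖x‖ := add_pos t0 s0
  have e2 : lam / ‖x‖ ^ 2 ≤ 1 := div_le_one_of_le₀ (le_trans
    (by linarith [nx.etap.2, nx.he, nx.d1]) (one_le_pow₀ (a := ‖x‖)
      (by linarith [(nx.rad hx.1.le).2.2.1]))) (by positivity)
  refine (nd_alg hC u0 a0 (by have := nx.l0; positivity) e2 (n0 x) a b c h2).trans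
    (add_le_add (mul_le_mul_of_nonneg_right (by linarith) a0.le)
      (mul_le_mul hK (mul_le_of_le_one_right z0.le b1) u0.le (by linarith)))

theorem NX.collar (l4 : L ^ 2 * (r1 + 1) * Real.exp (2 * (r1 + 1)) * lam ≤ δ ^ 2) {r : ℝ}
    (h1 : r1 ≤ r) (h2 : r ≤ r1 + 1) : RS L lam I δ r ≤ RT L lam I δ r := by
  obtain ⟨b0, -, t0, -, -, -, -, -, -, b1⟩ := nx.low h1
  have r0 := (nx.rad h1).2.2.1
  have hL := nx.hL
  have k1 := nx.ks.2.1
  have f1 : Real.exp (-kT lam I δ * r) ≤ r * RT L lam I δ r :=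
    (fb_crude hL k1 (c := 1) ⟨by norm_num, le_rfl⟩ (by linarith)).1
  have f2 : 1 ≤ Real.exp (2 * (r1 + 1)) * Real.exp (-kT lam I δ * r) := by
    rw [← Real.exp_add]
    exact Real.one_le_exp (by nlinarith [k1.2])
  have f3 : 1 ≤ (r1 + 1) * Real.exp (2 * (r1 + 1)) * RT L lam I δ r := by
    refine f2.trans ?_
    rw [mul_comm (r1 + 1), mul_assoc]
    exact mul_le_mul_of_nonneg_left (f1.trans (mul_le_mul_of_nonneg_right h2 t0.le))
      (Real.exp_pos _).le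
  have r3 : 1 ≤ r ^ 3 := one_le_pow₀ (by linarith)
  have := nx.l0
  have := nx.d0
  rw [RS, div_le_iff₀ (by positivity)]
  calc lam * L * bb L lam I r ≤ lam * L ^ 2 * 1 := by gcongr; nlinarith
    _ ≤ lam * L ^ 2 * ((r1 + 1) * Real.exp (2 * (r1 + 1)) * RT L lam I δ r) := by gcongr
    _ = RT L lam I δ r * (L ^ 2 * (r1 + 1) * Real.exp (2 * (r1 + 1)) * lam * 1) := by ring
    _ ≤ _ := by gcongr

theorem NX.cmp {r : ℝ} (hr : 1 ≤ r)
    (a : r ≤ 1 / eta lam → fb L (kP lam I δ) 1 0 r ≤ 100 * RT L lam I δ r)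
    (b : 1 / eta lam ≤ r → fb L (kP lam I δ) 1 0 r ≤ eta lam * RS L lam I δ r ∧
      RT L lam I δ r ≤ eta lam * RS L lam I δ r) :
    fb L (kP lam I δ) 1 0 r ≤ 100 * aa L lam I δ r ∧
      (1 / eta lam ≤ r → aa L lam I δ r ≤ 2 * RS L lam I δ r) := by
  have t0 : 0 < RT L lam I δ r := fb_pos _ _ _ _ _
  have s0 : 0 ≤ RS L lam I δ r := by
    have := fb_pos L √(2 * I) (1 - 2 * lam) 0 r
    have := nx.l0
    have := nx.hL
    unfold RS bb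
    positivity
  have s1 : eta lam * RS L lam I δ r ≤ RS L lam I δ r :=
    mul_le_of_le_one_left s0 (by linarith [nx.he, nx.d1])
  unfold aa
  refine ⟨?_, fun h => by linarith [(b h).2]⟩
  rcases le_total r (1 / eta lam) with h | h
  · linarith [a h]
  · linarith [(b h).1]

theorem NX.par {ε E : ℝ} (e2 : 20 * (r1 + 1 + L) * ε ≤ 1) (l2 : 20 * (r1 + 1 + L) * eta lam ≤ 1)
    (h1 : 9 / 10 ≤ E) (h2 : E ≤ 11 / 10) (h3 : |E - 2 * (I + δ)| ≤ 2 * ε) {x : E3}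
    (hx : x ∈ Ext r1) (hr : ‖x‖ < r1 + 1) :
    Ye L √E 0 x ≤ 3 * Ye L (kT lam I δ) 0 x ∧ Ye L √E 0 x ≤ 3 * Ye L (kP lam I δ) 0 x ∧
      Ye L (kT lam I δ) 0 x ≤ 3 * Ye L √E 0 x := by
  obtain ⟨-, k1, k2, -⟩ := nx.ks
  obtain ⟨i1, i2⟩ := nx.hI
  have := nx.d0
  have := nx.d1
  have e0 := nx.etap.1
  rw [abs_le] at h3
  have kg : √E ∈ Icc (4 / 5 : ℝ) (6 / 5) := by
    have := nd_sqrt h1 le_rfl (by linarith)
    exact ⟨by linarith [this.1], by linarith [this.2.1]⟩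
  have kd : |√E - √(2 * (I + δ))| ≤ 2 * ε := by
    rcases le_total E (2 * (I + δ)) with h | h
    · have := nd_sqrt h1 h (by linarith)
      exact abs_le.2 ⟨by linarith [this.2.2.2], by linarith [this.2.2.1]⟩
    · have := nd_sqrt (by linarith) h (by linarith)
      exact abs_le.2 ⟨by linarith [this.2.2.1], by linarith [this.2.2.2]⟩
  have par : ∀ k k', k ∈ Icc (4 / 5 : ℝ) (6 / 5) → k' ∈ Icc (4 / 5 : ℝ) (6 / 5) →
      |k - k'| ≤ 2 * ε + 2 * eta lam → Ye L k 0 x ≤ 3 * Ye L k' 0 x := fun k k' a b c => by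
    refine (Ye_param nx.hL a b (nx.sub.2 hx) hr.le).trans
      (mul_le_mul_of_nonneg_right ?_ (Ye_pos _ _ _ _).le)
    refine le_trans (Real.exp_le_exp.2 ?_) (show Real.exp 1 ≤ 3 by linarith [Real.exp_one_lt_d9])
    have := mul_le_mul_of_nonneg_right c (show 0 ≤ r1 + 1 + L by
      linarith [(nx.rad le_rfl).2.2.1, nx.hL])
    linarith
  rw [abs_le] at kd
  exact ⟨par _ _ kg k1 (abs_le.2 ⟨by unfold kT; linarith, by unfold kT; linarith⟩),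
    par _ _ kg k2 (abs_le.2 ⟨by unfold kP; linarith, by unfold kP; linarith⟩),
    par _ _ k1 kg (abs_le.2 ⟨by unfold kT; linarith, by unfold kT; linarith⟩)⟩

end

theorem nd_const {Ce Co Cf C C2 K : ℝ} (h1 : 1 ≤ Ce) (h2 : 1 ≤ Co) (h3 : 1 ≤ Cf) (h4 : 1 ≤ C)
    (h5 : 1 ≤ C2) (hK : K = Ce + Co + Cf + 3 * C + 2 * C2) : 1 ≤ K ∧ Ce ≤ K ∧ Co ≤ K ∧ Cf ≤ K ∧
      C * 3 ≤ K ∧ 2 * C2 ≤ K ∧ C2 ≤ K ∧ 1 ≤ 10 ^ 9 * K ^ 8 ∧ 2 * (Cf * (3 * C)) ≤ 10 ^ 9 * K ^ 8 ∧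
      ∀ τ, 0 < τ → ∃ G, 1 ≤ G ∧ 1000 * K ^ 7 ≤ G ∧ 1000 * K ^ 7 ≤ G * τ := by
  have K1 : 1 ≤ K := by linarith
  have K8 := one_le_pow₀ K1 (n := 8)
  have K7 := one_le_pow₀ K1 (n := 7)
  have := pow_le_pow_right₀ K1 (show 2 ≤ 8 by norm_num)
  have := mul_le_mul (show Cf ≤ K by linarith) (show C ≤ K by linarith) (by linarith)
    (by linarith)
  refine ⟨K1, by linarith, by linarith, by linarith, by linarith, by linarith, by linarith,
    by linarith, by linarith, fun τ hτ => ?_⟩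
  have G1 : 1000 * K ^ 7 ≤ 1000 * K ^ 7 * (1 + τ⁻¹) :=
    le_mul_of_one_le_right (by linarith) (by simp [hτ.le])
  refine ⟨_, by linarith, G1, ?_⟩
  rw [mul_assoc _ _ τ, add_mul, inv_mul_cancel₀ hτ.ne']
  exact le_mul_of_one_le_right (by linarith) (by linarith)

theorem nd_num {eg eu ω ε I : ℝ} (sg : |eg + 1 / 2| ≤ ω) (su : |eu + 1 / 2| ≤ ω)
    (hω : 1000 * ω ≤ 1) : eu - eg ≤ 1 / 500 ∧ eu - eg ≤ 1 / 10 ∧ 9 / 10 ≤ -2 * eg ∧
      -2 * eg ≤ 11 / 10 ∧ (|I + eu| ≤ ε → 100 * ε ≤ 1 → I ∈ Icc (9 / 20 : ℝ) (11 / 20) ∧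
        I ∈ Icc (2 / 5 : ℝ) (3 / 5) ∧ |-2 * eg - 2 * (I + (eu - eg))| ≤ 2 * ε) := by
  rw [abs_le] at sg su
  refine ⟨by linarith, by linarith, by linarith, by linarith, fun h1 h2 => ?_⟩
  rw [abs_le] at h1
  exact ⟨⟨by linarith, by linarith⟩, ⟨by linarith, by linarith⟩,
    abs_le.2 ⟨by linarith, by linarith⟩⟩

theorem nd_main (h : T_B) : T_ND := by
  obtain ⟨⟨A, -, he⟩, ho, ⟨Cf, hCf, hf⟩, -, hc⟩ := h
  obtain ⟨re, Ce, hCe, he⟩ := he.exists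
  obtain ⟨ro, Co, hCo, ho⟩ := ho.exists
  intro c0 _ _
  refine Eventually.of_forall fun r0 C C2 hC hC2 => ?_
  obtain ⟨K, hK⟩ : ∃ K, K = Ce + Co + Cf + 3 * C + 2 * C2 := ⟨_, rfl⟩
  obtain ⟨K1, c1, c2, c3, c4, c5, c6, c7, c8, c9⟩ := nd_const hCe hCo hCf hC hC2 hK
  refine ⟨10 ^ 9 * K ^ 8, c7, ?_⟩
  have tid : Tendsto (fun t : ℝ => t) (𝓝[>] 0) (𝓝 0) := tendsto_id.mono_left nhdsWithin_le_nhds
  filter_upwards [nd_small tid 1000 one_pos] with ω hω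
  filter_upwards [he, ho, eventually_ge_atTop 1] with L he ⟨τ, hτ, ho⟩ hL ob hb
  have d0 : 0 < ob.del := sub_pos.2 ob.lt
  have num := fun ε I => nd_num (ε := ε) (I := I) hb.sg hb.su hω
  obtain ⟨G, G0, G1⟩ := c9 τ hτ
  filter_upwards [hf L hL, eventually_ge_atTop (1000 * L / ob.del),
    nd_big (M := G * ((1 + L) ^ 2 * Real.exp (2 * L))) (div_pos d0 (show (0 : ℝ) < 10 by norm_num)),
    eventually_ge_atTop (L + r0), eventually_ge_atTop (L + re), eventually_ge_atTop (L + ro)]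
    with r1 hf q1 q2 q3 q4 q5
  filter_upwards [nd_small tid 100 one_pos, nd_small tid (20 * (r1 + 1 + L)) one_pos] with ε e1 e2
  filter_upwards [self_mem_nhdsWithin, hc L hL ob.del d0 (num 0 0).2.1, nd_small nd_eta 10 d0,
    nd_small nd_eta (20 * (r1 + 1 + L)) one_pos, nd_small tid (G * L) (pow_pos d0 2),
    nd_small tid (L ^ 2 * (r1 + 1) * Real.exp (2 * (r1 + 1))) (pow_pos d0 2)]
    with lam l0 hc l1 l2 l3 l4 I N gN nb ⟨F⟩
  obtain ⟨d1, -, g1, g2, hI⟩ := num ε I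
  obtain ⟨i1, i2, i3⟩ := hI nb.hI e1
  have nx : NX L ob.del lam r1 I G := ⟨hL, G0, d0, d1, l0, i1,
    (le_div_iff₀' (by norm_num)).2 l1, (div_le_iff₀' d0).1 q1, fun r hr =>
      (mul_right_comm _ _ _).trans_le ((q2 r hr).trans_eq (by rw [div_mul_eq_mul_div])),
    (mul_right_comm _ _ _).trans_le l3⟩
  obtain ⟨k0, k1, k2, -, kc⟩ := nx.ks
  have L0 : 0 ≤ L := zero_le_one.trans hL
  have Y0 := fun k A x => (Ye_pos L k A x).le
  have up : ∀ {c a b : ℝ}, c ≤ K → 0 ≤ b → a ≤ c * b → a ≤ K * b := fun h1 h2 h3 =>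
    h3.trans (mul_le_mul_of_nonneg_right h1 h2)
  have two := fun x hx => hb.two x (Ext_subset_Ext2 L0 q3 hx)
  have C0 := zero_le_one.trans hC
  refine nd_core (C := K) (G := G) (τ := τ) (A := 1 * A) ⟨nx, K1, hτ, G1, fun k hk => ?_,
    ?_, fun x hx hz => ?_, fun k hk x hx => ?_,
    fun r hr => nx.cmp hr (hc I i2 r hr).1 (hc I i2 r hr).2, fun x hx hr => ?_,
    nx.slab hC2 c5 F nb.nn, F.low.mono fun x h hx hz => up c6 (nb.nn x) (h hx hz)⟩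
    hC2 c6 F nb.h nb.nn nb.lp fun x hx hr => ?_
  · obtain ⟨g, l, h1, h2⟩ := he k hk 1 (Or.inl rfl)
    refine ⟨g, l, h1, fun x hx => ?_⟩
    obtain ⟨a, b, c, d, -⟩ := h2 x (Ext_subset_Ext2 L0 q4 hx)
    exact ⟨a.trans_eq (one_mul _), up c1 (Y0 _ _ _) b, up c1 (Y0 _ _ _) c, d⟩
  · obtain ⟨U, g, l, h1, h2⟩ := ho _ k0 _ kc 1 (Or.inl rfl)
    refine ⟨U, g, l, h1, fun x hx hz => ?_⟩
    obtain ⟨a, b, c, d, -⟩ := h2 x (Ext_subset_Ext2 L0 q5 hx) hz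
    refine ⟨(a (P0 L lam x) ?_).trans_eq ?_,
      nonneg_of_mul_nonneg_right (b.trans d) (one_pos.trans_le hCo), up c2 b c⟩
    · rw [P0, min_eq_left (rA_le_rB L0 hz).1, sub_sub_cancel, sub_sub_cancel_left, abs_neg,
        abs_of_nonneg (one_div_nonneg.2 (sq_nonneg _))]
    · rw [nx.ord.2.2.2.2.1, one_mul, Vf]
  · obtain ⟨a, -, c⟩ := (hf _ k0 _ kc x (le_of_lt hx)).1 hz
    have b : x 2 * bb L lam I ‖x‖ ≤ Cf * Uo L √(2 * I) (1 - 2 * lam) x :=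
      le_of_eq_of_le (by unfold bb; ring) a
    have b0 := mul_nonneg hz (nx.low (le_of_lt hx)).1.le
    exact ⟨up c3 (nonneg_of_mul_nonneg_right (b0.trans b) (one_pos.trans_le hCf)) b,
      up c3 (fb_pos _ _ _ _ _).le c⟩
  · obtain ⟨-, a, b⟩ := hf k hk _ kc x (le_of_lt hx)
    exact ⟨up c3 (Y0 _ _ _) a, up c3 (mul_pos (fb_pos _ _ _ _ _) (Real.exp_pos _)).le b⟩
  · obtain ⟨a, b, -⟩ := nx.par e2 l2 g1 g2 i3 hx hr
    exact ⟨up c4 (Y0 _ _ _) ((two x hx).2.trans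
        ((mul_le_mul_of_nonneg_left a C0).trans_eq (mul_assoc _ _ _).symm)),
      up c4 (Y0 _ _ _) ((two x hx).2.trans
        ((mul_le_mul_of_nonneg_left b C0).trans_eq (mul_assoc _ _ _).symm))⟩
  · have hx2 : r1 < ‖x‖ := hx.1
    have t : RT L lam I ob.del ‖x‖ ≤ Cf * (3 * (C * ob.g x)) :=
      (hf _ k1 _ kc x hx2.le).2.1.trans (mul_le_mul_of_nonneg_left
        ((nx.par e2 l2 g1 g2 i3 hx2 hr).2.2.trans (mul_le_mul_of_nonneg_left (two x hx2).1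
          (by norm_num))) (zero_le_one.trans hCf))
    refine le_trans ?_ (mul_le_mul_of_nonneg_right c8 (ob.pg x (nx.sub.1 hx2)).le)
    exact (add_le_add t ((nx.collar l4 hx2.le hr.le).trans t)).trans_eq (by ring)

end Vale.Agent.P363
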