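import Vale.Agent.P363.OReg

/-! P363, block O: two-centre bounds. -/

open MeasureTheory Set Metric Filter Topology
open scoped RealInnerProductSpace

namespace Vale.Agent.P363

noncomputable section

theorem obar_wmp {L r0 E : ℝ} {w R B l v : E3 → ℝ} {gw gB : E3 → E3} (hr : 10 ≤ r0)
    (hE : 2 / 5 ≤ -E) (hs : Sub (D L) w gw R) (hR : ∀ x, R x = (V L x - E) * w x)
    (hB : C2 (D L) B gB l) (hw : ContinuousOn w (D L))
    (col : ∀ x ∈ Ext2 L r0, min (rA L x) (rB L x) ≤ r0 + 1 → w x ≤ B x)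
    (l2 : MemLp v 2 (volume.restrict (Ext2 L r0))) (hv : ∀ x ∈ Ext2 L r0, w x - B x ≤ |v x|)
    (sup : ∀ x ∈ Ext2 L r0, 0 ≤ -(1 / 2) * l x + (V L x - E) * B x) :
    ∀ x ∈ Ext2 L r0, w x ≤ B x := by
  have hU := isOpen_Ext2 L r0
  have hD : Ext2 L r0 ⊆ D L := Ext2_subset_D (by linarith)
  have hc : ContinuousOn (fun x => max (w x - B x) 0) (Ext2 L r0) :=
    ((hw.sub hB.cont.1).mono hD).sup continuousOn_const
  have hA : IsClosed {x | r0 + 1 ≤ min (rA L x) (rB L x)} :=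
    isClosed_le continuous_const ((continuous_rA L).1.min (continuous_rA L).2)
  have hAU : {x | r0 + 1 ≤ min (rA L x) (rB L x)} ⊆ Ext2 L r0 := fun x hx =>
    ⟨(lt_add_one r0).trans_le (le_min_iff.1 hx.out).1,
      (lt_add_one r0).trans_le (le_min_iff.1 hx.out).2⟩
  have h := wmp (lam := 1 / 5) (hs.mono hD) (hB.mono hU hD) hA hAU (LocB.of_cont (hw.mono hD))
    (by norm_num) (Eventually.of_forall fun x hx hy => col x hx (not_le.1 hy).le)
    ((l2.of_le (hc.aestronglyMeasurable hU.measurableSet) ((ae_restrict_iff' hU.measurableSet).2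
      (Eventually.of_forall fun x hx => ?_))).mono_measure (Measure.restrict_mono hAU le_rfl))
    (Eventually.of_forall fun x hx hy => ?_)
  · intro x hx
    have h1 := Measure.eqOn_open_of_ae_eq (μ := volume) (g := fun _ => (0 : ℝ))
      ((ae_restrict_iff' hU.measurableSet).2 (h.mono fun x a b =>
        max_eq_right (sub_nonpos.2 (a b)))) hU hc continuousOn_const hx
    exact sub_nonpos.1 (max_eq_right_iff.1 h1)
  · rw [Real.norm_eq_abs, Real.norm_eq_abs, abs_of_nonneg (le_max_right _ _)]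
    exact max_le (hv x hx) (abs_nonneg _)
  · have h1 := sup x (hAU hx)
    have a : (rA L x)⁻¹ ≤ 10⁻¹ := inv_anti₀ (by norm_num) (by linarith [(hAU hx).1])
    have b : (rB L x)⁻¹ ≤ 10⁻¹ := inv_anti₀ (by norm_num) (by linarith [(hAU hx).2])
    have h2 : 1 / 5 ≤ V L x - E := by
      unfold V
      linarith
    rw [hR]
    nlinarith [mul_le_mul_of_nonneg_right h2 (sub_pos.2 hy).le]

theorem o_bar (hB : T_Beven) : ∀ᶠ r0 : ℝ in atTop, ∀ C : ℝ, 1 ≤ C → ∃ C' : ℝ, 1 ≤ C' ∧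
    ∀ᶠ L : ℝ in atTop, ∀ (E : ℝ) (f : E3 → ℝ) (g : E3 → E3), Eig L 1 E f g →
      |E + 1 / 2| ≤ 1 / 10 → (∀ x, r0 ≤ rA L x → rA L x ≤ r0 + 1 → 1 ≤ C * f x ∧ f x ≤ C) →
      ∀ x ∈ Ext2 L r0, Ye L √(-2 * E) 0 x ≤ C' * f x ∧ f x ≤ C' * Ye L √(-2 * E) 0 x := by
  obtain ⟨A, -, hB⟩ := hB
  filter_upwards [hB, eventually_ge_atTop 10] with r0 ⟨C1, hC1, hL⟩ hr C hC
  have hK : 1 ≤ C * (C1 * C1) := one_le_mul_of_one_le_of_one_le hC
    (one_le_mul_of_one_le_of_one_le hC1 hC1)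
  have hC0 : 0 ≤ C := by linarith
  have hC10 : 0 ≤ C1 := by linarith
  have hK0 : 0 ≤ C * (C1 * C1) := by linarith
  refine ⟨C * (C1 * C1) * C1, one_le_mul_of_one_le_of_one_le hK hC1, ?_⟩
  filter_upwards [hL, eventually_ge_atTop 1] with L hL hL1 E f g h hE sh
  obtain ⟨e1, e2⟩ := abs_le.1 hE
  have hk : √(-2 * E) ∈ Icc (4 / 5 : ℝ) (6 / 5) :=
    ⟨Real.le_sqrt_of_sq_le (by linarith), Real.sqrt_le_iff.2 ⟨by norm_num, by linarith⟩⟩
  have hk2 : ∀ x, V L x + √(-2 * E) ^ 2 / 2 = V L x - E := fun x => by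
    rw [Real.sq_sqrt (by linarith)]
    ring
  generalize √(-2 * E) = k at hk hk2 hL ⊢
  obtain ⟨g1, l1, c1, b1⟩ := hL k hk 1 (Or.inl rfl)
  obtain ⟨g2, l2, c2, b2⟩ := hL k hk (-1) (Or.inr rfl)
  have hU := isOpen_Ext2 L r0
  have hD : Ext2 L r0 ⊆ D L := Ext2_subset_D (by linarith)
  have sh' : ∀ x ∈ Ext2 L r0, min (rA L x) (rB L x) ≤ r0 + 1 → 1 ≤ C * f x ∧ f x ≤ C := by
    intro x hx hm
    rcases min_le_iff.1 hm with a | a
    · exact sh x hx.1.le a
    · have := sh (sg x) (by rw [rA_sg]; exact hx.2.le) (by rwa [rA_sg])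
      rwa [h.sy, one_mul] at this
  have pos : ∀ (a : ℝ) (x : E3), 0 ≤ 3 / min (rA L x) (rB L x) ^ 2 * Ye L k a x := fun a x =>
    mul_nonneg (by positivity) (Ye_pos _ _ _ _).le
  have u1 := obar_wmp hr (by linarith) h.subs.1 (fun _ => rfl) (c1.cmul (C * (C1 * C1))) h.ct
    (fun x hx hm => ?_) (h.h.l2.restrict _) (fun x _ => ?_) fun x hx => ?_
  have hY : MemLp (Ye L k (-1 * A)) 2 (volume.restrict (Ext2 L r0)) :=
    memLp_exp_decay (a := k) (M := C1 * (2 * (1 + L) ^ 2 * Real.exp (k * L))) 2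
      (by linarith [hk.1]) ((c2.cont.1.mono hD).aestronglyMeasurable hU.measurableSet)
      hU.measurableSet (Eventually.of_forall fun x hx => by
        rw [abs_of_pos (Ye_pos _ _ _ _)]
        have := mul_le_mul_of_nonneg_left (Ye_crude hL1 hk (x := x)
          ⟨by linarith [hx.1], by linarith [hx.2]⟩).1 hC10
        linarith [(b2 x hx).2.1])
  have u2 := obar_wmp (E := E) hr (by linarith) (h.subs.2.1.cmul hK0) (fun _ => by ring)
    (c2.cmul (-1)) (continuousOn_const.mul h.ct.neg) (fun x hx hm => ?_)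
    (hY.sub ((h.h.l2.restrict _).const_mul (C * (C1 * C1)))) (fun x _ => ?_) fun x hx => ?_
  · intro x hx
    have a1 := mul_le_mul_of_nonneg_left (u2 x hx) hC10
    have a2 := mul_le_mul_of_nonneg_left (b1 x hx).2.1 hK0
    exact ⟨by linarith [(b2 x hx).2.2.1], by linarith [u1 x hx]⟩
  · have a1 := mul_le_mul_of_nonneg_left ((b2 x hx).2.2.2.2 hm).2 hC10
    have a2 := mul_le_mul_of_nonneg_left (sh' x hx hm).1 (mul_nonneg hC10 hC10)
    linarith [(b2 x hx).2.1]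
  · refine le_trans (le_of_eq ?_) (le_abs_self _)
    simp only [Pi.sub_apply]
    ring
  · have := (pos _ x).trans (b2 x hx).1
    rw [hk2] at this
    linarith
  · have a1 := mul_le_mul_of_nonneg_left (b1 x hx).2.2.1 hC10
    have a2 := mul_le_mul_of_nonneg_left (((b1 x hx).2.2.2.2 hm).1.trans a1) hC0
    linarith [(sh' x hx hm).2]
  · linarith [le_abs_self (f x), mul_nonneg hK0 (Ye_pos L k (1 * A) x).le]
  · have := mul_nonneg hK0 ((pos _ x).trans (b1 x hx).1)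
    rw [hk2] at this
    linarith

end

end Vale.Agent.P363
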