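import Vale.Agent.P363.OReg

/-! P363, block O: moments. -/

open MeasureTheory Set Metric Filter Topology
open scoped RealInnerProductSpace

namespace Vale.Agent.P363

noncomputable section

def omomH (y : E3) : ℝ := (1 + ‖y‖) ^ 3 * Real.exp (-(4 / 5) * ‖y‖)

theorem omom_int : Integrable fun y => omomH y ^ 2 := by
  have c : Continuous omomH := by
    unfold omomH
    fun_prop
  have h := memLp_exp_decay (f := omomH) (A := univ) (a := 4 / 5) (M := 1) 3 (by norm_num)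
    c.aestronglyMeasurable MeasurableSet.univ (.of_forall fun x _ => by
      rw [one_mul, abs_of_nonneg (by unfold omomH; positivity)]
      exact le_rfl)
  rw [Measure.restrict_univ] at h
  exact h.integrable_sq

theorem omom_fb {L k : ℝ} (hL : 1 ≤ L) (hk : k ∈ Icc (4 / 5 : ℝ) (6 / 5)) {y : E3}
    (hy : 1 ≤ ‖y‖) : ‖y‖ * fb L k 1 0 ‖y‖ ≤ omomH y := by
  have h1 := (fb_crude (c := 1) hL hk ⟨by norm_num, le_rfl⟩ hy).2
  have h2 : Real.exp (-k * ‖y‖) ≤ Real.exp (-(4 / 5) * ‖y‖) :=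
    Real.exp_le_exp.2 (by nlinarith [hk.1])
  have h3 : fb L k 1 0 ‖y‖ ≤ (1 + ‖y‖) ^ 2 * Real.exp (-(4 / 5) * ‖y‖) :=
    h1.trans (mul_le_mul_of_nonneg_left h2 (by positivity))
  have h4 := mul_le_mul (show ‖y‖ ≤ 1 + ‖y‖ by linarith) h3 (fb_pos _ _ _ _ _).le (by positivity)
  unfold omomH
  linarith

theorem omom_z (L : ℝ) (x : E3) : |x 2 - L| ≤ rA L x ∧ |x 2 + L| ≤ rB L x := by
  have h1 := abs_coord_le (x - nA L) 2
  have h2 := abs_coord_le (x + nA L) 2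
  have e1 : nA L 2 = L := by simp [nA, e_apply]
  rw [PiLp.sub_apply, e1] at h1
  rw [PiLp.add_apply, e1] at h2
  exact ⟨h1, h2⟩

theorem omom_sq {z L m : ℝ} (h : |z - L| ≤ m ∨ |z + L| ≤ m) : z ^ 2 ≤ 2 * L ^ 2 + 2 * m ^ 2 := by
  rcases h with h | h
  · have := sq_le_sq' (abs_le.1 h).1 (abs_le.1 h).2
    nlinarith [sq_nonneg (z - 2 * L)]
  · have := sq_le_sq' (abs_le.1 h).1 (abs_le.1 h).2
    nlinarith [sq_nonneg (z + 2 * L)]

theorem omom_pt {r0 C L k G : ℝ} (hr : 1 ≤ r0) (hC : 1 ≤ C) (hL : 1 ≤ L)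
    (hk : k ∈ Icc (4 / 5 : ℝ) (6 / 5)) {x : E3} (h0 : 0 ≤ G)
    (h : x ∈ Ext2 L r0 → G ≤ C * Ye L k 0 x) :
    x 2 ^ 2 * G ^ 2 ≤ (2 * L ^ 2 + 2 * r0 ^ 2) * G ^ 2 +
      4 * C ^ 2 * (omomH (x - nA L) ^ 2 + omomH (x + nA L) ^ 2) := by
  obtain ⟨z1, z2⟩ := omom_z L x
  by_cases c : x ∈ Ext2 L r0
  · have a1 := omom_fb hL hk (y := x - nA L) (hr.trans c.1.le)
    have a2 := omom_fb hL hk (y := x + nA L) (hr.trans c.2.le)
    have b := h c
    have m0 : 0 ≤ min (rA L x) (rB L x) := le_min (norm_nonneg _) (norm_nonneg _)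
    have a3 := mul_le_mul_of_nonneg_right (min_le_left (rA L x) (rB L x))
      (fb_pos L k 1 0 (rA L x)).le
    have a4 := mul_le_mul_of_nonneg_right (min_le_right (rA L x) (rB L x))
      (fb_pos L k 1 0 (rB L x)).le
    have a5 : x 2 ^ 2 ≤ 2 * L ^ 2 + 2 * min (rA L x) (rB L x) ^ 2 := by
      rcases min_choice (rA L x) (rB L x) with e | e <;> rw [e]
      · exact omom_sq (Or.inl z1)
      · exact omom_sq (Or.inr z2)
    have a6 : min (rA L x) (rB L x) * Ye L k 0 x ≤ omomH (x - nA L) + omomH (x + nA L) := by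
      unfold Ye
      unfold rA rB at a3 a4 ⊢
      linarith
    have a7 : min (rA L x) (rB L x) * G ≤ C * (omomH (x - nA L) + omomH (x + nA L)) := by
      have := mul_le_mul_of_nonneg_left b m0
      have := mul_le_mul_of_nonneg_left a6 (show 0 ≤ C by linarith)
      linarith
    have a8 := pow_le_pow_left₀ (mul_nonneg m0 h0) a7 2
    have a9 := mul_le_mul_of_nonneg_right a5 (sq_nonneg G)
    have a10 := mul_nonneg (sq_nonneg C) (sq_nonneg (omomH (x - nA L) - omomH (x + nA L)))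
    have a11 := mul_nonneg (sq_nonneg r0) (sq_nonneg G)
    nlinarith
  · have a5 : x 2 ^ 2 ≤ 2 * L ^ 2 + 2 * r0 ^ 2 := by
      rcases not_and_or.1 c with d | d
      · exact omom_sq (Or.inl (z1.trans (not_lt.1 d)))
      · exact omom_sq (Or.inr (z2.trans (not_lt.1 d)))
    have a9 := mul_le_mul_of_nonneg_right a5 (sq_nonneg G)
    have : 0 ≤ 4 * C ^ 2 * (omomH (x - nA L) ^ 2 + omomH (x + nA L) ^ 2) := by positivity
    linarith

theorem omom_sign {L s E : ℝ} {f : E3 → ℝ} {g : E3 → E3} (h : Eig L s E f g) :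
    ∀ᵐ x : E3, x 2 ≠ 0 ∧ (0 < x 2 → 0 ≤ f x) ∧ (x 2 < 0 → 0 ≤ s * f x) := by
  filter_upwards [ae_plane, h.nn, mp_sg.quasiMeasurePreserving.ae h.nn] with x h1 h2 h3
  refine ⟨h1, h2, fun c => ?_⟩
  rw [← h.sy]
  exact h3 (by rw [sg_2]; linarith)

theorem o_mom {r0 C : ℝ} (hr : 1 ≤ r0) (hC : 1 ≤ C) : ∃ C' : ℝ, 1 ≤ C' ∧ ∀ᶠ L : ℝ in atTop,
    ∀ (k eg eu : ℝ) (g u : E3 → ℝ) (gg gu : E3 → E3), k ∈ Icc (4 / 5 : ℝ) (6 / 5) →
      Eig L 1 eg g gg → Eig L (-1) eu u gu → (∀ x ∈ Ext2 L r0, g x ≤ C * Ye L k 0 x) →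
      (∀ x, r0 ≤ rA L x → rA L x ≤ r0 + 1 → 1 ≤ C * g x ∧ 1 ≤ C * u x) →
      Integrable (fun x => x 2 ^ 2 * g x ^ 2) ∧ ∫ x, x 2 ^ 2 * g x ^ 2 ≤ (C' * L) ^ 2 ∧
        L ≤ C' * ∫ x, x 2 * g x * u x := by
  obtain ⟨J, hJ⟩ : ∃ J, J = ∫ y, omomH y ^ 2 := ⟨_, rfl⟩
  have J0 : 0 ≤ J := hJ ▸ integral_nonneg fun y => sq_nonneg _
  obtain ⟨b, hb⟩ : ∃ b, b = volume.real (ball (0 : E3) (1 / 2)) := ⟨_, rfl⟩
  have b0 : 0 < b := hb ▸ ENNReal.toReal_pos (measure_ball_pos _ _ (by norm_num)).ne'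
    measure_ball_lt_top.ne
  have q1 : 0 ≤ 2 * r0 ^ 2 + 8 * C ^ 2 * J := by positivity
  have q2 : 0 ≤ 2 * C ^ 2 / b := by positivity
  refine ⟨2 + (2 * r0 ^ 2 + 8 * C ^ 2 * J) + 2 * C ^ 2 / b, by linarith, ?_⟩
  filter_upwards [eventually_ge_atTop 1] with L hL k eg eu g u gg gu hk hg hu h1 h2
  have g0 : ∀ᵐ x : E3, 0 ≤ g x := by
    filter_upwards [omom_sign hg] with x hx
    rcases lt_or_gt_of_ne hx.1 with c | c
    · simpa only [one_mul] using hx.2.2 c
    · exact hx.2.1 c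
  have i1 := hg.h.l2.integrable_sq
  have i2 := omom_int.comp_sub_right (nA L)
  have i3 := omom_int.comp_add_right (nA L)
  have i4 := (i1.const_mul (2 * L ^ 2 + 2 * r0 ^ 2)).add ((i2.add i3).const_mul (4 * C ^ 2))
  have pt : ∀ᵐ x : E3, x 2 ^ 2 * g x ^ 2 ≤ (2 * L ^ 2 + 2 * r0 ^ 2) * g x ^ 2 +
      4 * C ^ 2 * (omomH (x - nA L) ^ 2 + omomH (x + nA L) ^ 2) :=
    g0.mono fun x hx => omom_pt hr hC hL hk hx (h1 x)
  have c2 : Continuous fun x : E3 => x 2 := csg_cont_coord 2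
  have i5 : Integrable fun x : E3 => x 2 ^ 2 * g x ^ 2 :=
    i4.mono' ((c2.pow 2).aestronglyMeasurable.mul i1.1) (pt.mono fun x hx => by
      rw [Real.norm_of_nonneg (by positivity)]
      exact hx)
  refine ⟨i5, ?_, ?_⟩
  · have e1 := integral_mono_ae i5 i4 pt
    have e2 := integral_add (i1.const_mul (2 * L ^ 2 + 2 * r0 ^ 2))
      ((i2.add i3).const_mul (4 * C ^ 2))
    have e3 := integral_add i2 i3
    rw [integral_sub_right_eq_self (fun y => omomH y ^ 2),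
      integral_add_right_eq_self (fun y => omomH y ^ 2), ← hJ] at e3
    simp only [Pi.add_apply] at e1 e2
    rw [e2, integral_const_mul, integral_const_mul, e3, hg.one] at e1
    refine e1.trans ?_
    generalize 2 * C ^ 2 / b = w at q2
    have L2 : 1 ≤ L ^ 2 := one_le_pow₀ hL
    have t1 := mul_le_mul_of_nonneg_left L2 q1
    have t2 : 2 + (2 * r0 ^ 2 + 8 * C ^ 2 * J) ≤ (2 + (2 * r0 ^ 2 + 8 * C ^ 2 * J) + w) ^ 2 := by
      nlinarith
    have t3 := mul_le_mul_of_nonneg_right t2 (sq_nonneg L)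
    rw [mul_pow]
    linarith
  · have m1 : MemLp (fun x : E3 => x 2 * g x) 2 volume := by
      refine (memLp_two_iff_integrable_sq (c2.aestronglyMeasurable.mul hg.h.l2.1)).2 ?_
      simpa only [Pi.mul_apply, mul_pow] using i5
    have i6 : Integrable fun x : E3 => x 2 * g x * u x := m1.integrable_mul hu.h.l2
    have p0 : 0 ≤ᵐ[volume] fun x : E3 => x 2 * g x * u x := by
      filter_upwards [g0, omom_sign hu] with x a1 a2
      show 0 ≤ x 2 * g x * u x
      rcases lt_or_gt_of_ne a2.1 with c | c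
      · have := mul_nonneg (mul_nonneg (neg_pos.2 c).le a1) (a2.2.2 c)
        linarith
      · exact mul_nonneg (mul_nonneg c.le a1) (a2.2.1 c)
    have e1 := setIntegral_le_integral (s := ball (nA L + (r0 + 1 / 2) • e 0) (1 / 2)) i6 p0
    have C0 : 0 < C := by linarith
    have e2 := setIntegral_ge_of_const_le_real (μ := volume)
      (s := ball (nA L + (r0 + 1 / 2) • e 0) (1 / 2)) (f := fun x : E3 => x 2 * g x * u x)
      (c := L / (2 * C ^ 2)) measurableSet_ball measure_ball_lt_top.ne (fun x hx => ?_)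
      i6.integrableOn
    · rw [Measure.real, Measure.addHaar_ball_center, ← Measure.real, ← hb] at e2
      have e3 := e2.trans e1
      have e4 : 0 ≤ L / (2 * C ^ 2) * b := by positivity
      have e5 := mul_le_mul (show 2 * C ^ 2 / b ≤
        2 + (2 * r0 ^ 2 + 8 * C ^ 2 * J) + 2 * C ^ 2 / b by linarith) e3 e4 (by positivity)
      refine le_trans (le_of_eq ?_) e5
      field_simp
    · rw [mem_ball, dist_eq_norm] at hx
      have n1 : ‖(r0 + 1 / 2) • e 0‖ = r0 + 1 / 2 := by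
        rw [norm_smul, norm_e, mul_one, Real.norm_of_nonneg (by linarith)]
      have n2 := abs_norm_sub_norm_le (x - nA L) ((r0 + 1 / 2) • e 0)
      rw [n1, sub_sub, abs_le] at n2
      obtain ⟨a1, a2⟩ := h2 x (by unfold rA; linarith [n2.1]) (by unfold rA; linarith [n2.2])
      have n3 := abs_coord_le (x - (nA L + (r0 + 1 / 2) • e 0)) 2
      have n4 : (x - (nA L + (r0 + 1 / 2) • e 0)) 2 = x 2 - L := by simp [nA, e_apply]
      rw [n4, abs_le] at n3
      have a3 : 1 * 1 ≤ C * g x * (C * u x) := mul_le_mul a1 a2 zero_le_one (by linarith)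
      have a4 := mul_le_mul (show L / 2 ≤ x 2 by linarith [n3.1]) a3 (by norm_num)
        (by linarith [n3.1])
      rw [div_le_iff₀ (by positivity)]
      linarith

end

end Vale.Agent.P363
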