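import Vale.Agent.P363.OHyd

/-! P363, block O: localization to the two nuclei. -/

open MeasureTheory Set Metric Filter Topology
open scoped RealInnerProductSpace

namespace Vale.Agent.P363

noncomputable section

namespace OTwoAux

theorem nA2 (L : ℝ) : nA L 2 = L := by simp [nA, e]

theorem open_Cb (p : E3) (R : ℝ) : IsOpen (Cb p R) := by
  have e : Cb p R = ⋂ k : Fin 3, {x : E3 | p k - R < x k ∧ x k < p k + R} := by
    ext x
    simp only [Cb, Box, mem_ofPred_eq, mem_iInter]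
  rw [e]
  exact isOpen_iInter_of_finite fun k => (isOpen_lt continuous_const (csg_cont_coord k)).inter
    (isOpen_lt (csg_cont_coord k) continuous_const)

theorem Cb_sub (p : E3) {R : ℝ} (hR : 0 < R) : Cb p R ⊆ closedBall p (2 * R) := by
  intro x hx
  rw [mem_closedBall, dist_eq_norm]
  refine abs_le_of_sq_le_sq' ?_ (by linarith) |>.2
  rw [normsq_eq_sum, Fin.sum_univ_three]
  have h : ∀ k, (x - p) k ^ 2 ≤ R ^ 2 := fun k => by
    have h1 := hx k
    rw [PiLp.sub_apply]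
    exact sq_le_sq' (by linarith [h1.1]) (by linarith [h1.2])
  nlinarith [h 0, h 1, h 2]

theorem inv_le {L r z : ℝ} (hL : 1 ≤ L) (h1 : |z| ≤ r) (h2 : L / 2 ≤ |z|) : r⁻¹ ≤ 2 / L := by
  rw [← inv_div]
  exact inv_anti₀ (by linarith) (h2.trans h1)

theorem hyd {f : E3 → ℝ} {g : E3 → E3} (h : H1 f g) (c : E3) :
    -1 / 2 * ∫ x, f x ^ 2 ≤ (1 / 2) * (∫ x, ‖g x‖ ^ 2) - ∫ x, f x ^ 2 / ‖x - c‖ := by
  have h1 := hydrogen h c
  have h2 : 0 ≤ ∫ x, ‖g x + (f x * ‖x - c‖⁻¹) • (x - c)‖ ^ 2 :=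
    integral_nonneg fun x => sq_nonneg _
  linarith

end OTwoAux

open OTwoAux

theorem ims_two {L : ℝ} (hL : 1 ≤ L) {f : E3 → ℝ} {g : E3 → E3} (h : H1 f g) :
    ∃ f1 g1 f2 g2, H1 f1 g1 ∧ H1 f2 g2 ∧ (∀ x, f1 x ^ 2 + f2 x ^ 2 = f x ^ 2) ∧
      (∀ x, L / 2 ≤ x 2 → f1 x = f x) ∧ (∀ x, x 2 ≤ -L / 2 → f2 x = f x) ∧
      ((1 / 2) * (∫ x, ‖g1 x‖ ^ 2) - ∫ x, f1 x ^ 2 / ‖x - nA L‖) +
        ((1 / 2) * (∫ x, ‖g2 x‖ ^ 2) - ∫ x, f2 x ^ 2 / ‖x - -nA L‖) - 4 / L * ∫ x, f x ^ 2 ≤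
      q1 L f g f g := by
  have hL0 : 0 < L := by linarith
  obtain ⟨ξ, q, hξ, hq, x1, x0⟩ : ∃ ξ q, LD univ ξ q ∧ (∀ x, ‖q x‖ ≤ 1 / L) ∧
      (∀ x : E3, L / 2 ≤ x 2 → ξ x = 1) ∧ ∀ x : E3, x 2 ≤ -L / 2 → ξ x = 0 := by
    refine ⟨_, _, LD.clamp isOpen_univ (((LD.coord univ 2).cmul (1 / L)).add
      (LD.const univ (1 / 2))) zero_le_one, fun x => ?_, fun x hx => ?_, fun x hx => ?_⟩
    · split_ifs
      · rw [add_zero, norm_smul, norm_e, mul_one, Real.norm_of_nonneg (by positivity)]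
      · rw [norm_zero]
        positivity
    · have h1 : 1 / L * (L / 2) = 1 / 2 := by field_simp
      have h2 := mul_le_mul_of_nonneg_left hx (by positivity : 0 ≤ 1 / L)
      rw [min_eq_left (by linarith), max_eq_right zero_le_one]
    · have h1 : 1 / L * (-L / 2) = -1 / 2 := by field_simp
      have h2 := mul_le_mul_of_nonneg_left hx (by positivity : 0 ≤ 1 / L)
      exact max_eq_left ((min_le_right _ _).trans (by linarith))
  have hq1 : ∀ x, ‖q x‖ ≤ 1 := fun x => (hq x).trans ((div_le_one hL0).2 hL)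
  have hpi : Real.pi / 2 ≤ 2 := by linarith [Real.pi_le_four]
  have hpi0 : 0 ≤ Real.pi / 2 := by positivity
  have bd : ∀ (t : ℝ) (x : E3), |t| ≤ 1 → ‖(Real.pi / 2 * t) • q x‖ ≤ 2 := fun t x ht => by
    rw [norm_smul, Real.norm_eq_abs, abs_mul, abs_of_nonneg hpi0]
    have h1 : Real.pi / 2 * |t| ≤ 2 * 1 := mul_le_mul hpi ht (abs_nonneg _) (by norm_num)
    have h2 := mul_le_mul h1 (hq1 x) (norm_nonneg _) (by norm_num)
    linarith
  obtain ⟨l1, l2⟩ := exists_ims hξ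
  have h1 := h.mul_lip l1 (M := 2) (Eventually.of_forall fun x =>
    ⟨(Real.abs_sin_le_one _).trans one_le_two, bd _ x (Real.abs_cos_le_one _)⟩)
  have h2 := h.mul_lip l2 (M := 2) (Eventually.of_forall fun x =>
    ⟨(Real.abs_cos_le_one _).trans one_le_two, by
      rw [neg_smul, norm_neg]
      exact bd _ x (Real.abs_sin_le_one _)⟩)
  have s1 : ∀ x : E3, L / 2 ≤ x 2 → Real.sin (Real.pi / 2 * ξ x) = 1 ∧
      Real.cos (Real.pi / 2 * ξ x) = 0 := fun x hx => by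
    rw [x1 x hx, mul_one]
    exact ⟨Real.sin_pi_div_two, Real.cos_pi_div_two⟩
  have s0 : ∀ x : E3, x 2 ≤ -L / 2 → Real.sin (Real.pi / 2 * ξ x) = 0 ∧
      Real.cos (Real.pi / 2 * ξ x) = 1 := fun x hx => by
    rw [x0 x hx, mul_zero]
    exact ⟨Real.sin_zero, Real.cos_zero⟩
  refine ⟨_, _, _, _, h1, h2, fun x => ?_, fun x hx => ?_, fun x hx => ?_, ?_⟩
  · linear_combination f x ^ 2 * Real.sin_sq_add_cos_sq (Real.pi / 2 * ξ x)
  · rw [(s1 x hx).1, one_mul]
  · rw [(s0 x hx).2, one_mul]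
  have i1 := (CIntAux.int_gsq h1).const_mul (1 / 2)
  have i2 := (hardy1 h1 (nA L) one_pos).1
  have i3 := (CIntAux.int_gsq h2).const_mul (1 / 2)
  have i4 := (hardy1 h2 (-nA L) one_pos).1
  have i5 := (CIntAux.int_sq h).const_mul (4 / L)
  have i6 := ((q1_int h h L).1.const_mul (1 / 2)).add (q1_int h h L).2.1
  rw [← integral_const_mul, ← integral_const_mul, ← integral_const_mul, ← integral_sub' i1 i2,
    ← integral_sub' i3 i4, ← integral_add' (i1.sub i2) (i3.sub i4),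
    ← integral_sub' ((i1.sub i2).add (i3.sub i4)) i5]
  refine integral_mono (((i1.sub i2).add (i3.sub i4)).sub i5) i6 fun x => ?_
  have a1 := ims_identity (f x) (Real.pi / 2 * ξ x) (Real.pi / 2) (g x) (q x)
  have a2 : (Real.pi / 2) ^ 2 * ‖q x‖ ^ 2 ≤ 4 / L := by
    have b1 := pow_le_pow_left₀ hpi0 hpi 2
    have b2 := mul_le_mul (hq x) (hq1 x) (norm_nonneg _) (by positivity)
    have b3 := mul_le_mul b1 b2 (by positivity) (by positivity)
    have b4 : (2 : ℝ) ^ 2 * (1 / L * 1) = 4 / L := by ring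
    rw [sq ‖q x‖]
    linarith
  have a3 := mul_le_mul_of_nonneg_left a2 (sq_nonneg (f x))
  have a4 : (Real.cos (Real.pi / 2 * ξ x) * f x) ^ 2 * ‖x - nA L‖⁻¹ ≤
      (Real.cos (Real.pi / 2 * ξ x) * f x) ^ 2 * (2 / L) := by
    by_cases hx : L / 2 ≤ x 2
    · rw [(s1 x hx).2]
      simp
    · refine mul_le_mul_of_nonneg_left (inv_le hL (abs_coord_le _ 2) ?_) (sq_nonneg _)
      rw [PiLp.sub_apply, nA2]
      exact le_abs.2 (Or.inr (by linarith [not_le.1 hx]))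
  have a5 : (Real.sin (Real.pi / 2 * ξ x) * f x) ^ 2 * ‖x + nA L‖⁻¹ ≤
      (Real.sin (Real.pi / 2 * ξ x) * f x) ^ 2 * (2 / L) := by
    by_cases hx : x 2 ≤ -L / 2
    · rw [(s0 x hx).1]
      simp
    · refine mul_le_mul_of_nonneg_left (inv_le hL (abs_coord_le _ 2) ?_) (sq_nonneg _)
      rw [PiLp.add_apply, nA2]
      exact le_abs.2 (Or.inl (by linarith [not_le.1 hx]))
  have a6 := Real.sin_sq_add_cos_sq (Real.pi / 2 * ξ x)
  simp only [Pi.add_apply, Pi.sub_apply, V, rA, rB, sub_neg_eq_add, real_inner_self_eq_norm_sq,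
    div_eq_mul_inv _ ‖_‖]
  have a7 : ∀ y : ℝ, f x ^ 2 * y = (Real.sin (Real.pi / 2 * ξ x) * f x) ^ 2 * y +
      (Real.cos (Real.pi / 2 * ξ x) * f x) ^ 2 * y := fun y => by
    linear_combination (-(f x ^ 2 * y)) * a6
  have a8 := a7 ‖x - nA L‖⁻¹
  have a9 := a7 ‖x + nA L‖⁻¹
  have a10 := a7 (2 / L)
  have a11 : 4 / L = 2 * (2 / L) := by ring
  rw [a11] at a3 ⊢
  linarith

theorem phi_sg (L R : ℝ) (f : E3 → ℝ) : phi (-nA L) R f = phi (nA L) R (fun x => f (sg x)) := by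
  unfold phi
  rw [← integral_indicator (open_Cb _ _).measurableSet,
    ← integral_indicator (open_Cb _ _).measurableSet, ← integral_sg]
  refine integral_congr_ae (Eventually.of_forall fun x => ?_)
  have h1 : sg x ∈ Cb (-nA L) R ↔ x ∈ Cb (nA L) R := by
    simp only [Cb, Box, mem_ofPred_eq, Fin.forall_fin_succ, IsEmpty.forall_iff, and_true,
      Fin.succ_zero_eq_one, Fin.succ_one_eq_two, sg_0, sg_1, sg_2, PiLp.neg_apply, nA2]
    have e0 : nA L 0 = 0 := by simp [nA, e]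
    have e1 : nA L 1 = 0 := by simp [nA, e]
    rw [e0, e1, neg_zero]
    refine and_congr_right fun _ => and_congr_right fun _ => ?_
    constructor <;> rintro ⟨a, b⟩ <;> constructor <;> linarith
  have h2 : ‖sg x - -nA L‖ = ‖x - nA L‖ := by rw [← csg_nA, ← sg_sub, norm_sg]
  by_cases hx : x ∈ Cb (nA L) R
  · simp only [indicator_of_mem hx, indicator_of_mem (h1.2 hx), h2]
  · simp only [indicator_of_notMem hx, indicator_of_notMem (fun h => hx (h1.1 h))]

theorem phi_bd (R : ℝ) (hR : 0 < R) : ∃ M, ∀ (p : E3) (f : E3 → ℝ), MemLp f 2 volume →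
    IntegrableOn (fun x => Real.exp ‖x - p‖ * f x) (Cb p R) ∧
      phi p R f ^ 2 ≤ M * ∫ x, f x ^ 2 := by
  refine ⟨volume.real (closedBall (0 : E3) (2 * R)) * Real.exp (2 * R) ^ 2, fun p f hf => ?_⟩
  have fin : IsFiniteMeasure (volume.restrict (Cb p R)) := isFiniteMeasure_restrict.2
    ((measure_mono (Cb_sub p hR)).trans_lt measure_closedBall_lt_top).ne
  have hb : ∀ᵐ x ∂volume.restrict (Cb p R), ‖Real.exp ‖x - p‖‖ ≤ Real.exp (2 * R) := by
    filter_upwards [ae_restrict_mem (open_Cb p R).measurableSet] with x hx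
    rw [Real.norm_of_nonneg (Real.exp_nonneg _)]
    exact Real.exp_le_exp.2 (mem_closedBall_iff_norm.1 (Cb_sub p hR hx))
  have ha : MemLp (fun x : E3 => Real.exp ‖x - p‖) 2 (volume.restrict (Cb p R)) :=
    MemLp.of_bound (by fun_prop) _ hb
  refine ⟨cabs_mul ha (hf.restrict _), (cabs_cs ha (hf.restrict _)).trans ?_⟩
  refine mul_le_mul ?_ (setIntegral_le_integral hf.integrable_sq
    (Eventually.of_forall fun x => sq_nonneg _)) (integral_nonneg fun x => sq_nonneg _)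
    (by positivity)
  have h1 : ∫ x in Cb p R, Real.exp ‖x - p‖ ^ 2 ≤ ∫ _x in Cb p R, Real.exp (2 * R) ^ 2 :=
    integral_mono_ae ha.integrable_sq (integrable_const _) (hb.mono fun x hx =>
      pow_le_pow_left₀ (Real.exp_nonneg _) ((le_abs_self _).trans hx) 2)
  rw [setIntegral_const, smul_eq_mul] at h1
  refine h1.trans (mul_le_mul_of_nonneg_right ?_ (sq_nonneg _))
  rw [← Measure.addHaar_real_closedBall_center volume p]
  exact measureReal_mono (Cb_sub p hR) measure_closedBall_lt_top.ne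

theorem o_two : ∃ R c K : ℝ, 1 ≤ R ∧ 0 < c ∧ c ≤ 1 / 8 ∧ 0 < K ∧ ∀ ω : ℝ, 0 < ω →
    ∀ᶠ L : ℝ in atTop, ∀ f g, H1 f g → (-1 / 2 - ω) * (∫ x, f x ^ 2) ≤ q1 L f g f g ∧
      ∀ s : ℝ, s = 1 ∨ s = -1 → (∀ᵐ x : E3, f (sg x) = s * f x) →
        (-1 / 2 + c) * (∫ x, f x ^ 2) - K * phi (nA L) R f ^ 2 ≤ q1 L f g f g := by
  obtain ⟨R, c, K, hR, hc, hc', hK, gap⟩ := hyd_gap
  refine ⟨R, c / 2, 2 * K, hR, by linarith, by linarith, by linarith, fun ω hω => ?_⟩
  filter_upwards [eventually_ge_atTop (2 * R), eventually_ge_atTop (4 / ω),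
    eventually_ge_atTop (4 / (c / 2))] with L l1 l2 l3 f g h
  have hL : 0 < L := by linarith
  obtain ⟨f1, g1, f2, g2, h1, h2, e1, e2, e3, e4⟩ := ims_two (L := L) (by linarith) h
  have e5 : (∫ x, f1 x ^ 2) + ∫ x, f2 x ^ 2 = ∫ x, f x ^ 2 := by
    rw [← integral_add (CIntAux.int_sq h1) (CIntAux.int_sq h2)]
    simp only [e1]
  have n0 : 0 ≤ ∫ x, f x ^ 2 := integral_nonneg fun x => sq_nonneg _
  have k : ∀ a : ℝ, 0 < a → 4 / a ≤ L → 4 / L * ∫ x, f x ^ 2 ≤ a * ∫ x, f x ^ 2 := fun a ha hl => by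
    refine mul_le_mul_of_nonneg_right ?_ n0
    rw [div_le_iff₀ ha] at hl
    rw [div_le_iff₀ hL]
    linarith
  refine ⟨by linarith [hyd h1 (nA L), hyd h2 (-nA L), k ω hω l2], fun s hs hsym => ?_⟩
  have p1 : phi (nA L) R f1 = phi (nA L) R f :=
    setIntegral_congr_fun (open_Cb _ _).measurableSet fun x hx => by
      have a := (hx 2).1
      simp only [nA2] at a
      simp only [e2 x (by linarith)]
  have p2 : phi (-nA L) R f2 = phi (-nA L) R f :=
    setIntegral_congr_fun (open_Cb _ _).measurableSet fun x hx => by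
      have a := (hx 2).2
      simp only [PiLp.neg_apply, nA2] at a
      simp only [e3 x (by linarith)]
  have p3 : phi (-nA L) R f = s * phi (nA L) R f := by
    rw [phi_sg]
    unfold phi
    rw [← integral_const_mul]
    refine integral_congr_ae (ae_restrict_of_ae (hsym.mono fun x hx => ?_))
    simp only [hx]
    ring
  have p4 : (s * phi (nA L) R f) ^ 2 = phi (nA L) R f ^ 2 := by
    rcases hs with rfl | rfl <;> ring
  have g1' := gap (nA L) f1 g1 h1
  have g2' := gap (-nA L) f2 g2 h2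
  rw [p1] at g1'
  rw [p2, p3, p4] at g2'
  have k2 := k (c / 2) (by linarith) l3
  rw [← e5] at k2 e4 ⊢
  linarith

end

end Vale.Agent.P363
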