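import Vale.Agent.P363.OReg
import Vale.Agent.P363.OTwo

/-! P363, block O: positivity. -/

open MeasureTheory Set Metric Filter Topology
open scoped RealInnerProductSpace

namespace Vale.Agent.P363

noncomputable section

theorem opos_int_sg {F : E3 → ℝ} (hF : Integrable F) : Integrable fun y => F (sg y) :=
  mp_sg.integrable_comp_of_integrable hF

theorem opos_fold {F : E3 → ℝ} (hF : Integrable F) :
    ∫ y, F y = ∫ y in Hp, (F y + F (sg y)) := by
  have h2 := opos_int_sg hF
  have h := integral_even (f := fun y => F y + F (sg y)) (hF.add h2)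
    (Eventually.of_forall fun y => by simp only [sg_sg]; ring)
  rw [integral_add hF h2, integral_sg] at h
  linarith

theorem opos_hk_sg {t : ℝ} (ht : 0 < t) (x y : E3) :
    hk t (x - sg y) = hk t (x - y) * Real.exp (-(2 * x 2 * y 2 / t)) := by
  unfold hk
  rw [mul_assoc _ (Real.exp _), ← Real.exp_add]
  congr 2
  rw [normsq_eq_sum, normsq_eq_sum, Fin.sum_univ_three, Fin.sum_univ_three]
  simp only [PiLp.sub_apply, sg_0, sg_1, sg_2]
  field_simp
  ring

theorem opos_ker {s t : ℝ} (hs : s = 1 ∨ s = -1) (ht : 0 < t) {x y : E3} (hx : s = 1 ∨ 0 < x 2)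
    (hy : 0 < y 2) : 0 < hk t (x - y) + s * hk t (x - sg y) := by
  have h1 := hk_pos ht (x - y)
  have h2 := hk_pos ht (x - sg y)
  rcases hs with rfl | rfl
  · linarith
  · rcases hx with h | h
    · norm_num at h
    · rw [opos_hk_sg ht]
      have : Real.exp (-(2 * x 2 * y 2 / t)) < 1 := by
        rw [Real.exp_lt_one_iff, neg_lt_zero]
        positivity
      nlinarith

theorem opos_cont {f : E3 → ℝ} (hf : MemLp f 2 volume) :
    Continuous fun x : E3 => ∫ y, hk 1 (x - y) * f y := by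
  have hπ := Real.pi_pos
  refine continuous_iff_continuousAt.2 fun x0 => ?_
  obtain ⟨C, hC⟩ : ∃ C : ℝ, C = (2 * Real.pi * 1) ^ (-(3 / 2) : ℝ) * Real.exp (1 / 2) /
    (2 * Real.pi * 2) ^ (-(3 / 2) : ℝ) := ⟨_, rfl⟩
  refine continuousAt_of_dominated (bound := fun y => C * (hk 2 (x0 - y) * ‖f y‖))
    (Eventually.of_forall fun x => ?_) ?_
    (((hk_H1 two_pos x0).l2.integrable_mul hf.norm).const_mul C)
    (Eventually.of_forall fun y => ?_)
  · exact (Continuous.aestronglyMeasurable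
      (by have := continuous_hk 1; fun_prop)).mul hf.1
  · filter_upwards [ball_mem_nhds x0 one_pos] with x hx
    refine Eventually.of_forall fun y => ?_
    rw [norm_mul, ← mul_assoc, Real.norm_of_nonneg (hk_pos one_pos _).le]
    refine mul_le_mul_of_nonneg_right ?_ (norm_nonneg _)
    have h1 : ‖x0 - y‖ ≤ 1 + ‖x - y‖ := by
      have := norm_sub_le_norm_sub_add_norm_sub x0 x y
      have h2 : ‖x0 - x‖ < 1 := by rwa [mem_ball, dist_comm, dist_eq_norm] at hx
      linarith
    have h2 : ‖x0 - y‖ ^ 2 ≤ 2 + 2 * ‖x - y‖ ^ 2 := by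
      have := pow_le_pow_left₀ (norm_nonneg _) h1 2
      nlinarith [sq_nonneg (1 - ‖x - y‖)]
    have e : C * hk 2 (x0 - y) = (2 * Real.pi * 1) ^ (-(3 / 2) : ℝ) *
        Real.exp (1 / 2 + -‖x0 - y‖ ^ 2 / (2 * 2)) := by
      rw [hC, Real.exp_add]
      unfold hk
      have : 0 < (2 * Real.pi * 2) ^ (-(3 / 2) : ℝ) := by positivity
      field_simp
    rw [e]
    unfold hk
    refine mul_le_mul_of_nonneg_left (Real.exp_le_exp.2 ?_) (by positivity)
    linarith
  · have := continuous_hk 1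
    exact Continuous.continuousAt (by fun_prop)

theorem opos_le {U : Set E3} (hU : IsOpen U) {a b : E3 → ℝ} (ha : ContinuousOn a U)
    (hb : ContinuousOn b U) (h : ∀ᵐ x : E3, x ∈ U → a x ≤ b x) : ∀ x ∈ U, a x ≤ b x := by
  have := Measure.eqOn_open_of_ae_eq (μ := (volume : Measure E3)) (f := fun x => max (a x) (b x))
    (g := b) ((ae_restrict_iff' hU.measurableSet).2
      (h.mono fun x hx hU => max_eq_right (hx hU))) hU (ha.sup hb) hb
  intro x hx
  exact max_eq_right_iff.1 (this hx)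

theorem o_super {L s E : ℝ} {f : E3 → ℝ} {g : E3 → E3} (hs : s = 1 ∨ s = -1)
    (h : Eig L s E f g) : ∀ x ∈ D L, s = 1 ∨ 0 < x 2 →
      IntegrableOn (fun y => (hk 1 (x - y) + s * hk 1 (x - sg y)) * f y) Hp ∧
      (∀ y, 0 < y 2 → 0 < hk 1 (x - y) + s * hk 1 (x - sg y)) ∧
      Real.exp E * ∫ y in Hp, (hk 1 (x - y) + s * hk 1 (x - sg y)) * f y ≤ f x := by
  have key := heat_super h.h (-E) (S := {x | s = 1 ∨ 0 < x 2}) fun x hx t ht => by
    have hH := hk_H1 ht x
    obtain ⟨i1, i2, i3⟩ := q1_int h.h hH L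
    have e := h.eq _ _ hH
    unfold q1 at e
    rw [integral_add (i1.const_mul _) i2] at e
    have e2 : ∫ y, ((1 / 2) * ⟪g y, (hk t (x - y) / t) • (x - y)⟫ + -E * f y * hk t (x - y))
        = (∫ y, (1 / 2) * ⟪g y, (hk t (x - y) / t) • (x - y)⟫) +
          -E * ∫ y, f y * hk t (x - y) := by
      rw [← integral_const_mul, ← integral_add (i1.const_mul _) (i3.const_mul _)]
      exact integral_congr_ae (Eventually.of_forall fun y => by ring)
    have e3 : ∫ y, V L y * f y * hk t (x - y) ≤ 0 := by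
      rw [opos_fold i2]
      refine setIntegral_nonpos_of_ae_restrict ?_
      rw [Filter.EventuallyLE, ae_restrict_iff' isOpen_Hp.measurableSet]
      filter_upwards [h.nn] with y hy hp
      have k := opos_ker hs ht hx hp
      have v : V L y ≤ 0 := by
        unfold V rA rB
        rw [neg_nonpos]
        positivity
      rw [V_sg, h.sy]
      have := mul_nonneg (mul_nonneg (neg_nonneg.2 v) (hy hp)) k.le
      simp only [Pi.zero_apply]
      nlinarith
    rw [e2]
    linarith
  have hU : IsOpen (D L ∩ {x | s = 1 ∨ 0 < x 2}) := by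
    refine (isOpen_D L).inter ?_
    by_cases h1 : s = 1
    · simp [h1]
    · simp only [h1, false_or]
      exact isOpen_Hp
  have le := opos_le hU (a := fun x => Real.exp E * ∫ y, hk 1 (x - y) * f y) (b := f)
    (continuous_const.mul (opos_cont h.h.l2)).continuousOn (h.ct.mono inter_subset_left)
    (key.mono fun x hx hm => by simpa using hx hm.2 1 one_pos)
  intro x hx hx2
  have i : Integrable fun y => hk 1 (x - y) * f y := (hk_H1 one_pos x).l2.integrable_mul h.h.l2
  have e : (fun y => (hk 1 (x - y) + s * hk 1 (x - sg y)) * f y)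
      = fun y => hk 1 (x - y) * f y + hk 1 (x - sg y) * f (sg y) := by
    funext y
    rw [h.sy]
    ring
  refine ⟨?_, fun y hy => opos_ker hs one_pos hx2 hy, ?_⟩
  · rw [e]
    exact (i.add (opos_int_sg i)).integrableOn
  · rw [e, ← opos_fold i]
    exact le x ⟨hx, hx2⟩

theorem o_pos {L s E : ℝ} {f : E3 → ℝ} {g : E3 → E3} (hs : s = 1 ∨ s = -1)
    (h : Eig L s E f g) : ∀ x ∈ D L, s = 1 ∨ 0 < x 2 → 0 < f x := by
  intro x hx hx2
  obtain ⟨i, k, le⟩ := o_super hs h x hx hx2
  refine lt_of_lt_of_le (mul_pos (Real.exp_pos _) ?_) le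
  have nn : 0 ≤ᵐ[volume.restrict Hp] fun y => (hk 1 (x - y) + s * hk 1 (x - sg y)) * f y := by
    rw [Filter.EventuallyLE, ae_restrict_iff' isOpen_Hp.measurableSet]
    filter_upwards [h.nn] with y hy hp
    exact mul_nonneg (k y hp).le (hy hp)
  refine lt_of_le_of_ne (integral_nonneg_of_ae nn) fun h0 => ?_
  have z := (setIntegral_eq_zero_iff_of_nonneg_ae nn i).1 h0.symm
  rw [Filter.EventuallyEq, ae_restrict_iff' isOpen_Hp.measurableSet] at z
  have z1 : ∀ᵐ y : E3, 0 < y 2 → f y = 0 := by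
    filter_upwards [z] with y hy hp
    exact (mul_eq_zero.1 (hy hp)).resolve_left (k y hp).ne'
  have z2 : ∀ᵐ y : E3, f y ^ 2 = 0 := by
    filter_upwards [z1, ae_sg z1, ae_plane] with y h1 h2 h3
    rcases lt_or_gt_of_ne h3 with h4 | h4
    · have h5 := h2 (by rw [sg_2]; linarith)
      rw [h.sy] at h5
      rcases hs with rfl | rfl
      · simpa using h5
      · simpa using h5
    · rw [h1 h4]
      norm_num
  have := h.one
  rw [integral_congr_ae z2] at this
  simp at this

theorem o_shell {R r0 b : ℝ} (hR : 0 < R) (hr : 0 < r0) (hb : 0 < b) : ∃ C : ℝ, 1 ≤ C ∧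
    ∀ᶠ L : ℝ in atTop, ∀ (s E : ℝ) (f : E3 → ℝ) (g : E3 → E3), s = 1 ∨ s = -1 → Eig L s E f g →
      -1 ≤ E → b ≤ phi (nA L) R f ^ 2 → ∀ x, r0 ≤ rA L x → rA L x ≤ r0 + 1 → 1 ≤ C * f x := by
  have hπ := Real.pi_pos
  obtain ⟨m, hm⟩ : ∃ m : ℝ, m = (2 * Real.pi * 1) ^ (-(3 / 2) : ℝ) *
    Real.exp (-(r0 + 1 + 2 * R) ^ 2 / (2 * 1)) / 2 * Real.exp (-(2 * R)) := ⟨_, rfl⟩
  have m0 : 0 < m := by rw [hm]; positivity
  have b0 : 0 < √b := Real.sqrt_pos.2 hb
  have c0 : 0 < Real.exp (-1) * (m * √b) := by positivity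
  refine ⟨max 1 (Real.exp (-1) * (m * √b))⁻¹, le_max_left _ _, ?_⟩
  filter_upwards [eventually_ge_atTop (r0 + 2), eventually_ge_atTop (R + 1)]
    with L hL1 hL2 s E f g hs h hE hphi x hx1 hx2
  have n2 : nA L 2 = L := by simp [nA, e_apply]
  have x2 : 1 ≤ x 2 := by
    have h1 := abs_coord_le (x - nA L) 2
    rw [PiLp.sub_apply, n2] at h1
    have h2 := neg_abs_le (x 2 - L)
    unfold rA at hx2
    linarith
  have xD : x ∈ D L := csg_mem_D.2 ⟨by linarith, by
    have := (rA_le_rB (L := L) (by linarith) (x := x) (by linarith)).2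
    linarith⟩
  obtain ⟨i, k, le⟩ := o_super hs h x xD (Or.inr (by linarith))
  have oC : IsOpen (Cb (nA L) R) := isOpen_Box _ _
  have y2 : ∀ y ∈ Cb (nA L) R, 1 ≤ y 2 := fun y hy => by
    have := (hy 2).1
    simp only [n2] at this
    linarith
  have sub : Cb (nA L) R ⊆ Hp := fun y hy => lt_of_lt_of_le one_pos (y2 y hy)
  have nn : ∀ᵐ y : E3, y ∈ Cb (nA L) R → 0 ≤ f y := h.nn.mono fun y hy hm => hy (sub hm)
  have p0 : 0 ≤ phi (nA L) R f := by
    refine setIntegral_nonneg_of_ae_restrict ?_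
    rw [Filter.EventuallyLE, ae_restrict_iff' oC.measurableSet]
    filter_upwards [nn] with y hy hm
    exact mul_nonneg (Real.exp_pos _).le (hy hm)
  have p1 : √b ≤ phi (nA L) R f := Real.sqrt_le_iff.2 ⟨p0, hphi⟩
  have ip : IntegrableOn (fun y => Real.exp ‖y - nA L‖ * f y) (Cb (nA L) R) :=
    Integrable.of_integral_ne_zero (b0.trans_le p1).ne'
  have s1 : m * phi (nA L) R f ≤
      ∫ y in Cb (nA L) R, (hk 1 (x - y) + s * hk 1 (x - sg y)) * f y := by
    unfold phi
    rw [← integral_const_mul]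
    refine integral_mono_ae (ip.const_mul m) (i.mono_set sub) ?_
    rw [Filter.EventuallyLE, ae_restrict_iff' oC.measurableSet]
    filter_upwards [nn] with y hy hy'
    rw [← mul_assoc]
    refine mul_le_mul_of_nonneg_right ?_ (hy hy')
    have d1 : ‖y - nA L‖ ≤ 2 * R := by
      refine (pow_le_pow_iff_left₀ (norm_nonneg _) (by positivity) two_ne_zero).1 ?_
      rw [normsq_eq_sum, Fin.sum_univ_three]
      have q : ∀ j, (y - nA L) j ^ 2 ≤ R ^ 2 := fun j => by
        have := hy' j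
        rw [PiLp.sub_apply]
        exact sq_le_sq' (by linarith [this.1]) (by linarith [this.2])
      nlinarith [q 0, q 1, q 2]
    have d2 : ‖x - y‖ ≤ r0 + 1 + 2 * R := by
      have := norm_sub_le_norm_sub_add_norm_sub x (nA L) y
      rw [norm_sub_rev (nA L) y] at this
      unfold rA at hx2
      linarith
    have d3 : (2 * Real.pi * 1) ^ (-(3 / 2) : ℝ) * Real.exp (-(r0 + 1 + 2 * R) ^ 2 / (2 * 1))
        ≤ hk 1 (x - y) := by
      unfold hk
      refine mul_le_mul_of_nonneg_left (Real.exp_le_exp.2 ?_) (by positivity)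
      have := pow_le_pow_left₀ (norm_nonneg _) d2 2
      linarith
    have d4 : Real.exp (-(2 * x 2 * y 2 / 1)) ≤ 1 / 2 := by
      have h1 : 1 ≤ x 2 * y 2 := one_le_mul_of_one_le_of_one_le x2 (y2 y hy')
      have h2 := Real.add_one_le_exp (2 * x 2 * y 2 / 1)
      rw [Real.exp_neg, one_div]
      exact inv_anti₀ two_pos (by linarith)
    have d5 : hk 1 (x - y) / 2 ≤ hk 1 (x - y) + s * hk 1 (x - sg y) := by
      have h1 := hk_pos one_pos (x - y)
      have h2 := hk_pos one_pos (x - sg y)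
      rcases hs with rfl | rfl
      · linarith
      · rw [opos_hk_sg one_pos]
        nlinarith
    have d6 : Real.exp (-(2 * R)) * Real.exp ‖y - nA L‖ ≤ 1 := by
      rw [← Real.exp_add, Real.exp_le_one_iff]
      linarith
    rw [hm, mul_assoc]
    refine (mul_le_of_le_one_right (by positivity) d6).trans ?_
    linarith
  have s2 : ∫ y in Cb (nA L) R, (hk 1 (x - y) + s * hk 1 (x - sg y)) * f y ≤
      ∫ y in Hp, (hk 1 (x - y) + s * hk 1 (x - sg y)) * f y := by
    refine setIntegral_mono_set i ?_ sub.eventuallyLE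
    rw [Filter.EventuallyLE, ae_restrict_iff' isOpen_Hp.measurableSet]
    filter_upwards [h.nn] with y hy hp
    exact mul_nonneg (k y hp).le (hy hp)
  have s3 : Real.exp (-1) * (m * √b) ≤ f x := by
    refine le_trans (mul_le_mul (Real.exp_le_exp.2 hE) ?_ (by positivity) (Real.exp_pos _).le) le
    exact ((mul_le_mul_of_nonneg_left p1 m0.le).trans s1).trans s2
  calc (1 : ℝ) = (Real.exp (-1) * (m * √b))⁻¹ * (Real.exp (-1) * (m * √b)) :=
        (inv_mul_cancel₀ c0.ne').symm
    _ ≤ _ := mul_le_mul (le_max_right _ _) s3 c0.le (by positivity)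

end

end Vale.Agent.P363
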