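import Vale.Agent.P363.OTwo

/-! P363, block O: the minimizer in a sector. -/

open MeasureTheory Set Metric Filter Topology
open scoped RealInnerProductSpace

namespace Vale.Agent.P363

noncomputable section

namespace OSec

/-- The sector of parity `s`. -/
def X (s : ℝ) : Submodule ℝ ((E3 → ℝ) × (E3 → E3)) where
  carrier := {p | H1 p.1 p.2 ∧ ∀ᵐ x : E3, p.1 (sg x) = s * p.1 x}
  add_mem' := fun {a b} ha hb => ⟨ha.1.add hb.1, by
    filter_upwards [ha.2, hb.2] with x h1 h2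
    simp only [Prod.fst_add, Pi.add_apply, h1, h2, mul_add]⟩
  zero_mem' := ⟨H1.zero, Eventually.of_forall fun x => by simp⟩
  smul_mem' := fun c a ha => ⟨ha.1.cmul c, by
    filter_upwards [ha.2] with x h1
    simp only [Prod.smul_fst, Pi.smul_apply, h1, smul_eq_mul]
    ring⟩

variable {L s : ℝ} {f f' f'' : E3 → ℝ} {g g' g'' : E3 → E3}

theorem intq (h : H1 f g) (h' : H1 f' g') (L : ℝ) :
    Integrable fun x => (1 / 2) * ⟪g x, g' x⟫ + V L x * f x * f' x :=
  ((q1_int h h' L).1.const_mul _).add (q1_int h h' L).2.1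

theorem q1_comm (L : ℝ) (f f' : E3 → ℝ) (g g' : E3 → E3) :
    q1 L f g f' g' = q1 L f' g' f g := by
  unfold q1
  refine integral_congr_ae (Eventually.of_forall fun x => ?_)
  simp only [real_inner_comm (g x)]
  ring

theorem q1_add (h : H1 f g) (h' : H1 f' g') (h'' : H1 f'' g'') (L : ℝ) :
    q1 L (f + f') (g + g') f'' g'' = q1 L f g f'' g'' + q1 L f' g' f'' g'' := by
  unfold q1
  rw [← integral_add (intq h h'' L) (intq h' h'' L)]
  refine integral_congr_ae (Eventually.of_forall fun x => ?_)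
  simp only [Pi.add_apply, inner_add_left]
  ring

theorem q1_smul (c L : ℝ) (f f' : E3 → ℝ) (g g' : E3 → E3) :
    q1 L (c • f) (c • g) f' g' = c * q1 L f g f' g' := by
  unfold q1
  rw [← integral_const_mul]
  refine integral_congr_ae (Eventually.of_forall fun x => ?_)
  simp only [Pi.smul_apply, real_inner_smul_left, smul_eq_mul]
  ring

def ip (s : ℝ) : X s →ₗ[ℝ] X s →ₗ[ℝ] ℝ :=
  LinearMap.mk₂ ℝ (fun a b => ∫ x, a.1.1 x * b.1.1 x)
    (fun a b c => by
      rw [← integral_add (cabs_mul a.2.1.l2 c.2.1.l2) (cabs_mul b.2.1.l2 c.2.1.l2)]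
      simp [add_mul])
    (fun t a c => by
      rw [smul_eq_mul, ← integral_const_mul]
      simp [mul_assoc])
    (fun a b c => by
      rw [← integral_add (cabs_mul a.2.1.l2 b.2.1.l2) (cabs_mul a.2.1.l2 c.2.1.l2)]
      simp [mul_add])
    (fun t a c => by
      rw [smul_eq_mul, ← integral_const_mul]
      simp [mul_left_comm])

def qq (L s : ℝ) : X s →ₗ[ℝ] X s →ₗ[ℝ] ℝ :=
  LinearMap.mk₂ ℝ (fun a b => q1 L a.1.1 a.1.2 b.1.1 b.1.2)
    (fun a b c => q1_add a.2.1 b.2.1 c.2.1 L)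
    (fun t a c => q1_smul t L _ _ _ _)
    (fun a b c => by
      rw [q1_comm, q1_comm L a.1.1, q1_comm L a.1.1]
      exact q1_add b.2.1 c.2.1 a.2.1 L)
    (fun t a c => by
      rw [q1_comm, q1_comm L a.1.1]
      exact q1_smul t L _ _ _ _)

theorem ip_apply (a b : X s) : ip s a b = ∫ x, a.1.1 x * b.1.1 x := rfl

theorem ip_self (a : X s) : ip s a a = ∫ x, a.1.1 x ^ 2 := by
  simp only [ip_apply, sq]

theorem qq_apply (a b : X s) : qq L s a b = q1 L a.1.1 a.1.2 b.1.1 b.1.2 := rfl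

theorem q1_upper (h : H1 f g) (L : ℝ) : q1 L f g f g ≤ (1 / 2) * ∫ x, ‖g x‖ ^ 2 := by
  unfold q1
  rw [← integral_const_mul]
  refine integral_mono (intq h h L) (h.l2g.norm.integrable_sq.const_mul _) fun x => ?_
  have h1 : V L x ≤ 0 := by
    unfold V rA rB
    exact neg_nonpos.2 (by positivity)
  simp only [real_inner_self_eq_norm_sq]
  nlinarith [mul_self_nonneg (f x)]

theorem par_lim (hs : s = 1 ∨ s = -1) {F : ℕ → E3 → ℝ} (hF : ∀ n, MemLp (F n) 2 volume)
    (hp : ∀ n, ∀ᵐ x : E3, F n (sg x) = s * F n x) (hf : MemLp f 2 volume)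
    (hl : Tendsto (fun n => ∫ x, (F n x - f x) ^ 2) atTop (𝓝 0)) :
    ∀ᵐ x : E3, f (sg x) = s * f x := by
  have hs2 : s ^ 2 = 1 := by rcases hs with rfl | rfl <;> norm_num
  have i0 : Integrable fun x => (f (sg x) - s * f x) ^ 2 :=
    ((ctst_memLp_sg hf).sub (hf.const_mul s)).integrable_sq
  have h1 : ∀ n, ∫ x, (f (sg x) - s * f x) ^ 2 ≤ 4 * ∫ x, (F n x - f x) ^ 2 := fun n => by
    have i1 : Integrable fun x => (F n x - f x) ^ 2 := ((hF n).sub hf).integrable_sq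
    have i2 : Integrable fun x => (F n (sg x) - f (sg x)) ^ 2 :=
      mp_sg.integrable_comp_of_integrable i1
    have e := integral_sg fun x => (F n x - f x) ^ 2
    have h2 : ∫ x, (f (sg x) - s * f x) ^ 2 ≤
        ∫ x, (2 * (F n x - f x) ^ 2 + 2 * (F n (sg x) - f (sg x)) ^ 2) := by
      refine integral_mono_ae i0 ((i1.const_mul 2).add (i2.const_mul 2)) ?_
      filter_upwards [hp n] with x hx
      rw [hx]
      have e2 : (s * (F n x - f x)) ^ 2 = (F n x - f x) ^ 2 := by rw [mul_pow, hs2, one_mul]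
      nlinarith [sq_nonneg (s * (F n x - f x) + (s * F n x - f (sg x)))]
    rw [integral_add (i1.const_mul 2) (i2.const_mul 2), integral_const_mul, integral_const_mul,
      e] at h2
    linarith
  have h2 : ∫ x, (f (sg x) - s * f x) ^ 2 ≤ 0 := by
    have := hl.const_mul 4
    rw [mul_zero] at this
    exact ge_of_tendsto' this h1
  have h3 := (integral_eq_zero_iff_of_nonneg (fun x => sq_nonneg _) i0).1
    (le_antisymm h2 (integral_nonneg fun x => sq_nonneg _))
  filter_upwards [h3] with x hx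
  exact sub_eq_zero.1 (pow_eq_zero_iff two_ne_zero |>.1 hx)

theorem lower (a : X s) : (1 / 4) * (∫ x, ‖a.1.2 x‖ ^ 2) + ∫ x, a.1.1 x ^ 2 ≤
    qq L s a a + 17 * ip s a a := by
  have := q1_lower a.2.1 L
  rw [qq_apply, ip_self]
  linarith

theorem cpl (hs : s = 1 ∨ s = -1) (a : ℕ → X s) (h : ∀ ε > 0, ∃ N, ∀ m ≥ N, ∀ n ≥ N,
    qq L s (a m - a n) (a m - a n) + 17 * ip s (a m - a n) (a m - a n) < ε) :
    ∃ x, Tendsto (fun n => qq L s (a n - x) (a n - x) + 17 * ip s (a n - x) (a n - x))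
      atTop (𝓝 0) := by
  obtain ⟨f, g, hfg, t1, t2⟩ := H1.complete (F := fun n => (a n).1.1) (G := fun n => (a n).1.2)
    (fun n => (a n).2.1) fun ε hε => by
      obtain ⟨N, hN⟩ := h (ε / 4) (by positivity)
      refine ⟨N, fun m hm n hn => ?_⟩
      have h1 := hN m hm n hn
      have h2 : (1 / 4) * (∫ x, ‖(a m).1.2 x - (a n).1.2 x‖ ^ 2) +
        ∫ x, ((a m).1.1 x - (a n).1.1 x) ^ 2 ≤ _ := lower (L := L) (a m - a n)
      have h3 : 0 ≤ ∫ x, ((a m).1.1 x - (a n).1.1 x) ^ 2 := integral_nonneg fun x => sq_nonneg _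
      linarith
  let x : X s := ⟨(f, g), hfg, par_lim hs (fun n => (a n).2.1.l2) (fun n => (a n).2.2) hfg.l2 t1⟩
  refine ⟨x, ?_⟩
  have t3 := (t2.const_mul (1 / 2)).add (t1.const_mul 17)
  simp only [mul_zero, add_zero] at t3
  refine squeeze_zero (fun n => le_trans ?_ (lower (a n - x))) (fun n => ?_) t3
  · exact add_nonneg (mul_nonneg (by norm_num) (integral_nonneg fun x => sq_nonneg _))
      (integral_nonneg fun x => sq_nonneg _)
  · have h1 : qq L s (a n - x) (a n - x) ≤ (1 / 2) * ∫ y, ‖(a n).1.2 y - g y‖ ^ 2 :=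
      q1_upper (a n - x).2.1 L
    have h2 : ip s (a n - x) (a n - x) = ∫ y, ((a n).1.1 y - f y) ^ 2 := ip_self _
    linarith

theorem repl (hs : s = 1 ∨ s = -1) (h : H1 f g) (hp : ∀ᵐ x : E3, f (sg x) = s * f x) :
    ∃ f1 g1, H1 f1 g1 ∧ (∀ᵐ x : E3, f1 (sg x) = s * f1 x) ∧ (∀ x : E3, 0 < x 2 → 0 ≤ f1 x) ∧
      ∀ᵐ x : E3, f1 x ^ 2 = f x ^ 2 ∧ ‖g1 x‖ = ‖g x‖ := by
  have hn : ∀ x, ‖if 0 < f x then g x else -g x‖ = ‖g x‖ := fun x => by split_ifs <;> simp
  rcases hs with rfl | rfl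
  · refine ⟨_, _, h.abs, ?_, fun x _ => abs_nonneg _,
      Eventually.of_forall fun x => ⟨sq_abs _, hn x⟩⟩
    filter_upwards [hp] with x hx
    rw [hx, one_mul, one_mul]
  · have hz : TZ univ f := TZ.of_odd isOpen_univ (fun _ _ => mem_univ _) h.ld
      (hp.mono fun x hx _ => by rw [hx, neg_one_mul])
    have hz' : TZ univ fun x => |f x| := hz.dom isOpen_univ fun K _ _ =>
      ⟨1, Eventually.of_forall fun x _ h1 _ => by rw [abs_abs]; linarith⟩
    obtain ⟨f1, g1, h1, h2, h3, h4⟩ := h.abs.oddext hz'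
    refine ⟨f1, g1, h1, Eventually.of_forall fun x => by rw [h2, neg_one_mul], fun x hx => ?_, ?_⟩
    · rw [(h4 x hx).1]; exact abs_nonneg _
    filter_upwards [hp, ae_coord_ne 2 0, h.ld.sym_grad isOpen_univ (fun _ _ => mem_univ _)
      (hp.mono fun x hx _ => hx)] with x a1 a2 a3
    rcases lt_or_gt_of_ne a2 with h5 | h5
    · have h6 := h4 (sg x) (by rw [sg_2]; linarith)
      constructor
      · rw [← neg_sq, ← h2, h6.1, sq_abs, a1]; ring
      · rw [← h3, h6.2, hn, ← norm_sg, a3 (mem_univ _)]; simp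
    · rw [(h4 x h5).1, (h4 x h5).2, hn]
      exact ⟨sq_abs _, rfl⟩

theorem avg {u v : E3 → ℝ} (hu : Integrable u) (h : ∀ᵐ x : E3, v x = 1 / 2 * (u x + u (sg x))) :
    ∫ x, v x = ∫ x, u x := by
  have h1 : Integrable fun x => u (sg x) := mp_sg.integrable_comp_of_integrable hu
  rw [integral_congr_ae h, integral_const_mul, integral_add hu h1, integral_sg u]
  ring

theorem all (hs : s = 1 ∨ s = -1) (a : X s) {E : ℝ} (h : ∀ b, qq L s a b = E * ip s a b)
    (h' : H1 f' g') : q1 L a.1.1 a.1.2 f' g' = E * ∫ x, a.1.1 x * f' x := by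
  have hs2 : s * s = 1 := by rcases hs with rfl | rfl <;> norm_num
  have h1 := h ⟨(_, _), (h'.add (h'.refl.cmul s)).cmul (1 / 2), Eventually.of_forall fun x => by
    simp only [sg_sg]
    linear_combination (-1 / 2 * f' (sg x)) * hs2⟩
  rw [qq_apply, ip_apply] at h1
  have g1 := a.2.1.ld.sym_grad isOpen_univ (fun _ _ => mem_univ _) (a.2.2.mono fun x hx _ => hx)
  rw [avg (cabs_mul a.2.1.l2 h'.l2)] at h1
  · rw [← h1]
    unfold q1
    refine (avg (intq a.2.1 h' L) ?_).symm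
    filter_upwards [a.2.2, g1] with x h2 h3
    rw [← inner_sg (a.1.2 (sg x)), h3 (mem_univ _), h2, V_sg]
    simp only [inner_add_right, real_inner_smul_left, real_inner_smul_right]
    ring
  · filter_upwards [a.2.2] with x h2
    rw [h2]
    ring

end OSec

open OSec in
theorem o_sector {L s R Λ Λ' : ℝ} (hs : s = 1 ∨ s = -1) (hR : 0 < R) (hΛ : Λ' ≤ Λ)
    (gap : ∀ f g, H1 f g → (∀ᵐ x : E3, f (sg x) = s * f x) → phi (nA L) R f = 0 →
      Λ * ∫ x, f x ^ 2 ≤ q1 L f g f g)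
    (tr : ∃ f g, H1 f g ∧ (∀ᵐ x : E3, f (sg x) = s * f x) ∧ q1 L f g f g < Λ' * ∫ x, f x ^ 2) :
    ∃ E f g, E < Λ' ∧ Eg0 L s E f g ∧ Gap L s Λ E f := by
  obtain ⟨M, hM⟩ := phi_bd R hR
  let φ : X s →ₗ[ℝ] ℝ :=
    { toFun := fun a => phi (nA L) R a.1.1
      map_add' := fun a b => by
        unfold phi
        rw [← integral_add (hM _ _ a.2.1.l2).1 (hM _ _ b.2.1.l2).1]
        simp [mul_add]
      map_smul' := fun t a => by
        unfold phi
        rw [smul_eq_mul, ← integral_const_mul]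
        simp [mul_left_comm] }
  have hip : ∀ x y, ip s x y = ip s y x := fun x y => by simp only [ip_apply, mul_comm]
  have hq : ∀ x y, qq L s x y = qq L s y x := fun x y => q1_comm _ _ _ _ _
  have nn : ∀ x, 0 ≤ ip s x x := fun x => by
    rw [ip_self]; exact integral_nonneg fun _ => sq_nonneg _
  have hK : ∀ x, ip s x x ≤ qq L s x x + 17 * ip s x x := fun x => by
    have h1 := lower (L := L) x
    have h2 : 0 ≤ ∫ y, ‖x.1.2 y‖ ^ 2 := integral_nonneg fun _ => sq_nonneg _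
    rw [← ip_self] at h1
    linarith
  have hφ : ∀ x, φ x ^ 2 ≤ M * ip s x x := fun x => by
    rw [ip_self]; exact (hM _ _ x.2.1.l2).2
  have hg : ∀ x, φ x = 0 → Λ * ip s x x ≤ qq L s x x := fun x hx => by
    rw [ip_self]; exact gap _ _ x.2.1 x.2.2 hx
  obtain ⟨f0, g0, a1, a2, a3⟩ := tr
  let x0 : X s := ⟨(f0, g0), a1, a2⟩
  have h0 : qq L s x0 x0 < Λ' * ip s x0 x0 := by rw [ip_self]; exact a3
  obtain ⟨x, E, hE, n1, n2, n3⟩ := AF (ip s) (qq L s) hip hq nn hK (cpl hs) φ hφ hg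
    (h0.trans_le (mul_le_mul_of_nonneg_right hΛ (nn x0)))
  obtain ⟨f, g, b1, b2, b3, b4⟩ := repl hs x.2.1 x.2.2
  let y : X s := ⟨(f, g), b1, b2⟩
  have m1 : ∫ z, f z ^ 2 = 1 := by
    rw [← n1, ip_self]
    exact integral_congr_ae (b4.mono fun z hz => hz.1)
  have m2 : qq L s y y = E := by
    rw [← n2, qq_apply, qq_apply]
    refine integral_congr_ae ?_
    filter_upwards [b4] with z hz
    simp only [y, real_inner_self_eq_norm_sq, hz.2, mul_assoc, ← sq, hz.1]
  obtain ⟨c1, -, c3⟩ := AF_of_min (ip s) (qq L s) hip hq nn φ hg hE (x := y)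
    (by rw [ip_self]; exact m1) m2 n3
  refine ⟨E, f, g, lt_of_mul_lt_mul_right ((n3 x0).trans_lt h0) (nn x0),
    ⟨b1, m1, b2, Eventually.of_forall b3, fun f' g' h' => all hs y c1 h'⟩,
    fun f' g' h1 h2 => ?_⟩
  have := c3 ⟨(f', g'), h1, h2⟩
  rw [ip_self] at this
  exact this

end

end Vale.Agent.P363
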