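import Vale.Agent.P363.OTri
import Vale.Agent.P363.OSec
import Vale.Agent.P363.OPos
import Vale.Agent.P363.OBar
import Vale.Agent.P363.OMom

/-! P363, block O. -/

open MeasureTheory Set Metric Filter Topology
open scoped RealInnerProductSpace

namespace Vale.Agent.P363

theorem ob_main (h : T_Beven) : T_OB := by
  obtain ⟨R, c, K, hR, hc, hc', hK, htwo⟩ := o_two
  obtain ⟨Kb, hKb, hbd⟩ := o_bd
  refine ⟨c, hc, hc', ?_⟩
  filter_upwards [o_bar h, eventually_ge_atTop (2 : ℝ)] with r0 hbar hr0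
  obtain ⟨C1, hC1, hsh⟩ := o_shell (show 0 < R by linarith) (show 0 < r0 by linarith)
    (show 0 < c / (2 * K) by positivity)
  obtain ⟨C2, hC2, hbar⟩ := hbar (C1 + Kb) (by linarith)
  obtain ⟨C3, hC3, hmom⟩ := o_mom (show 1 ≤ r0 by linarith) (show 1 ≤ C1 + C2 by linarith)
  refine ⟨C1 + Kb + C2 + C3, by linarith, fun ω hω => ?_⟩
  set w := min ω (c / 2) with hw
  have w0 : 0 < w := lt_min hω (by linarith)
  have w1 : w ≤ ω := min_le_left _ _
  have w2 : w ≤ c / 2 := min_le_right _ _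
  filter_upwards [htwo w w0, o_trial w0, hsh, hbar, hmom, eventually_ge_atTop (r0 + 3)]
    with L htwo htr hsh hbar hmom hL
  have sec : ∀ s : ℝ, s = 1 ∨ s = -1 → ∃ E f g, Eig L s E f g ∧ Gap L s (-1 / 2 + c) E f ∧
      |E + 1 / 2| ≤ w ∧ ∀ x, r0 ≤ rA L x → rA L x ≤ r0 + 1 → 1 ≤ C1 * f x ∧ f x ≤ Kb := by
    intro s hs
    obtain ⟨E, f0, g, hE, h0, hg0⟩ := o_sector (Λ := -1 / 2 + c) hs (show 0 < R by linarith)
      (by linarith) (fun f g hf hsy hp => by
        have := (htwo f g hf).2 s hs hsy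
        rw [hp] at this
        linarith) (htr s hs)
    obtain ⟨f, hf, hg⟩ := o_reg hs h0 hg0
    have e1 : q1 L f g f g = E := by
      rw [hf.eq f g hf.h]
      have := hf.one
      simp only [sq] at this
      rw [this, mul_one]
    have e2 := (htwo f g hf.h).1
    have e3 := (htwo f g hf.h).2 s hs hf.sym
    rw [hf.one, e1] at e2 e3
    have e4 : c / (2 * K) ≤ phi (nA L) R f ^ 2 := by
      rw [div_le_iff₀ (by positivity)]
      linarith
    refine ⟨E, f, g, hf, hg, abs_le.2 ⟨by linarith, by linarith⟩, fun x h1 h2 =>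
      ⟨hsh s E f g hs hf (by linarith) e4 x h1 h2, hbd L s E f g hf (by linarith) x ⟨by linarith, ?_⟩⟩⟩
    have a1 := abs_le.1 (abs_coord_le (x - nA L) 2)
    have a2 := abs_le.1 (abs_coord_le (x + nA L) 2)
    have a3 : nA L 2 = L := by simp [nA, e_apply]
    simp only [PiLp.sub_apply, PiLp.add_apply, a3] at a1 a2
    unfold rA at h2
    unfold rB
    linarith
  obtain ⟨eg, g, gg, hg, gapg, bg, shg⟩ := sec 1 (Or.inl rfl)
  obtain ⟨eu, u, gu, hu, gapu, bu, shu⟩ := sec (-1) (Or.inr rfl)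
  have bg' := abs_le.1 bg
  have pg : ∀ x ∈ D L, 0 < g x := fun x hx => o_pos (Or.inl rfl) hg x hx (Or.inl rfl)
  have pos : ∀ {a b : ℝ}, 1 ≤ a → 1 ≤ a * b → 0 < b := fun {a b} h1 h2 => by
    by_contra h3
    nlinarith [not_lt.1 h3]
  have two := hbar eg g gg hg (bg.trans (by linarith)) fun x h1 h2 => by
    have := shg x h1 h2
    have := pos hC1 this.1
    constructor <;> nlinarith
  have hk : √(-2 * eg) ∈ Icc (4 / 5 : ℝ) (6 / 5) :=
    ⟨Real.le_sqrt_of_sq_le (by linarith), Real.sqrt_le_iff.2 ⟨by norm_num, by linarith⟩⟩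
  obtain ⟨m1, m2, m3⟩ := hmom _ eg eu g u gg gu hk hg hu (fun x hx => by
    have := (two x hx).2
    have := Ye_pos L √(-2 * eg) 0 x
    nlinarith) (fun x h1 h2 => by
    have a1 := shg x h1 h2
    have a2 := shu x h1 h2
    have := pos hC1 a1.1
    have := pos hC1 a2.1
    constructor <;> nlinarith)
  refine ⟨⟨g, u, gg, gu, eg, eu, hg.h, hu.h, hg.one, hu.one, fun x => by simpa using hg.sy x,
    fun x => by simpa using hu.sy x, hg.ct, hu.ct, pg,
    fun x hx hz => o_pos (Or.inr rfl) hu x hx (Or.inr hz), hg.eq, hu.eq,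
    o_lt (by linarith) hg hu pg gapg (by linarith), o_gap hg hu gapg gapu⟩,
    bg.trans w1, bu.trans w1, fun x h1 h2 => ?_, fun x hx => ?_, ⟨m1, m2.trans ?_⟩, ?_⟩
  · have a1 := shg x h1 h2
    have a2 := shu x h1 h2
    have := pos hC1 a1.1
    have := pos hC1 a2.1
    refine ⟨?_, ?_, ?_, ?_⟩ <;> dsimp only <;> nlinarith
  · have a1 := two x hx
    have a2 := Ye_pos L √(-2 * eg) 0 x
    have a3 := pg x (Ext2_subset_D (by linarith) hx)
    constructor <;> dsimp only <;> nlinarith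
  · exact pow_le_pow_left₀ (by nlinarith) (by nlinarith) 2
  · dsimp only
    have : 0 < ∫ x, x 2 * g x * u x := by
      by_contra h3
      nlinarith [not_lt.1 h3]
    nlinarith

end Vale.Agent.P363
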