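import Vale.Agent.P363.ThPair

/-! P363, block Th: polar form. -/

open MeasureTheory Set Metric Filter Topology
open scoped RealInnerProductSpace

namespace Vale.Agent.P363

noncomputable section

theorem thang_cs (t : ℝ) : Real.cos (2 * Real.arctan t) = 2 / (1 + t ^ 2) - 1 ∧
    Real.sin (2 * Real.arctan t) = t * (2 / (1 + t ^ 2)) := by
  have h1 := Real.cos_sq_arctan t
  have h2 : Real.sin (Real.arctan t) = t * Real.cos (Real.arctan t) := by
    rw [← Real.tan_mul_cos (Real.cos_arctan_pos t).ne', Real.tan_arctan]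
  rw [Real.cos_two_mul, Real.sin_two_mul, h2]
  constructor
  · rw [h1]; ring
  · linear_combination 2 * t * h1

theorem thang_bd {s : ℝ} (h1 : -1 ≤ s) (h2 : s ≤ 1) : |2 * Real.arctan s| ≤ Real.pi / 2 := by
  have a1 := Real.arctan_mono h1
  have a2 := Real.arctan_mono h2
  rw [Real.arctan_neg, Real.arctan_one] at a1
  rw [Real.arctan_one] at a2
  rw [abs_le]
  constructor <;> linarith

theorem thang_pt {n f w : ℝ} (hn : 0 < n) (hf : 0 ≤ f) (h : f ^ 2 + w ^ 2 = n ^ 2) :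
    |w| ≤ n ∧ f ≤ n ∧ max (-1) (min 1 (w / (n + f))) = w / (n + f) ∧
      2 / (1 + (w / (n + f)) ^ 2) = (n + f) / n := by
  have h1 : |w| ≤ n := abs_le_of_sq_le_sq (by nlinarith) hn.le
  have h2 : f ≤ n := le_of_sq_le_sq (by nlinarith) hn.le
  have h3 : 0 < n + f := by linarith
  have h4 := abs_le.mp h1
  refine ⟨h1, h2, ?_, ?_⟩
  · rw [min_eq_right ((div_le_one h3).mpr (by linarith)),
      max_eq_right ((le_div_iff₀ h3).mpr (by linarith))]
  · field_simp
    nlinarith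

theorem th_theta {L I δ0 : ℝ} {N : E3 → ℝ} {gN : E3 → E3} (n0 : N0 L I N gN) (m : MP δ0 N)
    (el : m.EL) : ∃ t : TH L I δ0 N gN, t.toMP = m := by
  have hD := isOpen_D L
  have hN : ∀ᵐ x : E3, 0 < N x := by
    have h1 := ae_of_compacts hD (P := fun x => 0 < N x) fun K hK hKD => by
      obtain ⟨c, hc, h⟩ := n0.lp K hK hKD
      exact h.mono fun x hx hx' => hc.trans_le (hx hx')
    filter_upwards [h1, ae_mem_D L] with x a b using a b
  have hpt : ∀ᵐ x : E3, 0 < N x ∧ |m.Ω x| ≤ N x ∧ m.Φ x ≤ N x ∧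
      max (-1) (min 1 (m.Ω x / (N x + m.Φ x))) = m.Ω x / (N x + m.Φ x) ∧
      2 / (1 + (m.Ω x / (N x + m.Φ x)) ^ 2) = (N x + m.Φ x) / N x := by
    filter_upwards [hN, m.pair.sum] with x a b using ⟨a, thang_pt a (m.n1 x) b⟩
  set θ : E3 → ℝ := fun x => 2 * Real.arctan (max (-1) (min 1 (m.Ω x / (N x + m.Φ x)))) with hθ
  set gθ : E3 → E3 := fun x => (N x ^ 2)⁻¹ • (m.Φ x • m.gΩ x - m.Ω x • m.gΦ x) with hgθ
  have hbd : ∀ x, |θ x| ≤ Real.pi / 2 := fun x =>
    thang_bd (le_max_left _ _) (max_le (by norm_num) (min_le_left _ _))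
  have hrep : ∀ᵐ x : E3, 0 < N x ∧ m.Φ x = N x * Real.cos (θ x) ∧
      m.Ω x = N x * Real.sin (θ x) := by
    filter_upwards [hpt] with x ⟨a1, _, _, a4, a5⟩
    have h3 : 0 < N x + m.Φ x := by linarith [m.n1 x]
    simp only [hθ, a4, (thang_cs _).1, (thang_cs _).2, a5]
    refine ⟨a1, by field_simp; ring, by field_simp⟩
  have hld : LD (D L) θ gθ := by
    have h1 := (m.pair.h2.ld.mono (subset_univ (D L))).div hD
      ((n0.h.ld.add m.pair.h1.ld).mono (subset_univ (D L))) fun K hK hKD => by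
        obtain ⟨c, hc, h⟩ := n0.lp K hK hKD
        exact ⟨c, hc, h.mono fun x hx hx' => (hx hx').trans (le_add_of_nonneg_right (m.n1 x))⟩
    have h2 := h1.comp (Γ := fun s => 2 * Real.arctan s) (Γ' := fun s => 2 / (1 + s ^ 2)) hD
      (fun s => ((Real.hasDerivAt_arctan s).const_mul 2).congr_deriv (by ring))
      (continuous_const.div (by fun_prop) fun s => by positivity)
    refine h2.congr hD (hpt.mono fun x hx _ => by simp only [hθ, hx.2.2.2.1]) ?_
    filter_upwards [hpt, (m.pair.kin n0.h n0.nn).1, m.pair.sum] with x ⟨a1, _, _, _, a5⟩ b1 b2 _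
    have h3 : 0 < N x + m.Φ x := by linarith [m.n1 x]
    have h4 : gN x = (N x)⁻¹ • (m.Φ x • m.gΦ x + m.Ω x • m.gΩ x) := by
      rw [← b1.1, smul_smul, inv_mul_cancel₀ a1.ne', one_smul]
    simp only [hgθ]
    rw [a5, h4]
    match_scalars
    · field_simp
      linear_combination b2
    · field_simp
      ring
  refine ⟨⟨m, θ, gθ, n0, ?_, hbd, fun x hx => ?_, ?_, hrep, fun φ p ht => ?_⟩, rfl⟩
  · refine L1.of_le (b := fun x => ‖m.gΦ x‖ + ‖m.gΩ x‖) hD hld (ctst_loc2_zero _)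
      (fun K _ _ => (m.pair.h1.l2g.norm.add m.pair.h2.l2g.norm).restrict K) fun K hK hKD => ?_
    obtain ⟨c, hc, h⟩ := n0.lp K hK hKD
    refine ⟨2 + c⁻¹, ?_⟩
    filter_upwards [h, hpt] with x hx ⟨a1, a2, a3, _, _⟩ hx'
    have hc' := inv_pos.mpr hc
    refine ⟨(hbd x).trans (by simp only [abs_zero]; linarith [Real.pi_le_four]), ?_⟩
    have h1 : ‖m.Φ x • m.gΩ x - m.Ω x • m.gΦ x‖ ≤ N x * (‖m.gΦ x‖ + ‖m.gΩ x‖) := by
      refine (norm_sub_le _ _).trans ?_
      rw [norm_smul, norm_smul, Real.norm_of_nonneg (m.n1 x), Real.norm_eq_abs, mul_add, add_comm]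
      gcongr
    have h2 : (N x)⁻¹ ≤ c⁻¹ := inv_anti₀ hc (hx hx')
    have h3 : 0 ≤ ‖m.gΦ x‖ + ‖m.gΩ x‖ := by positivity
    rw [abs_of_nonneg h3]
    calc ‖gθ x‖ ≤ (N x ^ 2)⁻¹ * (N x * (‖m.gΦ x‖ + ‖m.gΩ x‖)) := by
          simp only [hgθ]
          rw [norm_smul, Real.norm_of_nonneg (by positivity)]
          gcongr
      _ = (N x)⁻¹ * (‖m.gΦ x‖ + ‖m.gΩ x‖) := by field_simp
      _ ≤ _ := by nlinarith
  · refine mul_nonneg two_pos.le (Real.arctan_nonneg.mpr (le_max_of_le_right (le_min one_pos.le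
      (div_nonneg (m.n2 x hx) (add_nonneg (n0.nn x) (m.n1 x))))))
  · refine (TZ.of_odd hD (fun x hx => mem_D_sg hx) (m.pair.h2.ld.mono (subset_univ _))
      (m.pair.od.mono fun x hx _ => hx)).dom hD fun K hK hKD => ?_
    obtain ⟨c, hc, h⟩ := n0.lp K hK hKD
    refine ⟨2 / c, ?_⟩
    filter_upwards [h, hrep] with x hx ⟨a1, _, a3⟩ hx' h0 _
    have h1 := Real.mul_abs_le_abs_sin (hbd x)
    have h2 : 1 / 2 ≤ 2 / Real.pi := by
      rw [div_le_div_iff₀ two_pos Real.pi_pos]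
      linarith [Real.pi_le_four]
    have h3 : c * |Real.sin (θ x)| ≤ |m.Ω x| := by
      rw [a3, abs_mul, abs_of_pos a1]
      exact mul_le_mul_of_nonneg_right (hx hx') (abs_nonneg _)
    have h4 := mul_le_mul_of_nonneg_right h2 (abs_nonneg (θ x))
    rw [div_mul_eq_mul_div, le_div_iff₀ hc]
    nlinarith
  · obtain ⟨K, hK, hKD, hK0⟩ := ht.cpt
    obtain ⟨M, hM⟩ := n0.lb K hK hKD
    have h1 : MemLp (fun x => N x • p x) 2 volume := by
      refine (ht.l2g.const_smul |M|).of_le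
        (n0.h.l2.aestronglyMeasurable.smul ht.l2g.aestronglyMeasurable) ?_
      filter_upwards [hM] with x hx
      by_cases hxK : x ∈ K
      · rw [Pi.smul_apply, norm_smul, norm_smul, Real.norm_eq_abs, Real.norm_eq_abs, abs_abs]
        exact mul_le_mul_of_nonneg_right ((hx hxK).trans (le_abs_self M)) (norm_nonneg _)
      · simp [(hK0 x hxK).2]
    have h2 := el φ p ht.ld ht.bd h1
    have h3 : ∫ x, N x ^ 2 * ⟪gθ x, p x⟫ = ∫ x, ⟪m.Φ x • m.gΩ x - m.Ω x • m.gΦ x, p x⟫ := by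
      refine integral_congr_ae (hN.mono fun x hx => ?_)
      simp only [hgθ]
      rw [real_inner_smul_left, ← mul_assoc, mul_inv_cancel₀ (by positivity), one_mul]
    have h4 : ∫ x, N x ^ 2 * Real.sin (2 * θ x) * φ x = 2 * ∫ x, m.Φ x * m.Ω x * φ x := by
      rw [← integral_const_mul]
      refine integral_congr_ae (hrep.mono fun x hx => ?_)
      beta_reduce
      rw [Real.sin_two_mul]
      conv_rhs => rw [hx.2.1, hx.2.2]
      ring
    rw [h3, h4, h2]
    ring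

theorem thang_lip {r r' a b B : ℝ} (hr : 0 ≤ r) (hr' : 0 ≤ r') (ha : a ^ 2 ≤ B) (hb : b ^ 2 ≤ B) :
    (r * a - r' * b) ^ 2 ≤ 2 * (r * r' * (a - b) ^ 2) + 2 * B * (r - r') ^ 2 := by
  rcases le_total r r' with h | h
  · have h1 : r * r * (a - b) ^ 2 ≤ r * r' * (a - b) ^ 2 := by gcongr
    have h2 : b ^ 2 * (r - r') ^ 2 ≤ B * (r - r') ^ 2 := by gcongr
    nlinarith [sq_nonneg (r * (a - b) - (r - r') * b)]
  · have h1 : r' * r' * (a - b) ^ 2 ≤ r * r' * (a - b) ^ 2 := by gcongr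
    have h2 : a ^ 2 * (r - r') ^ 2 ≤ B * (r - r') ^ 2 := by gcongr
    nlinarith [sq_nonneg (r' * (a - b) - (r - r') * a)]

theorem ang_lip {r r' a b : ℝ} (hr : 0 ≤ r) (hr' : 0 ≤ r') (ha : |a| ≤ Real.pi / 2)
    (hb : |b| ≤ Real.pi / 2) :
    (r * a - r' * b) ^ 2 ≤ 10 * ((r * Real.cos a - r' * Real.cos b) ^ 2 +
      (r * Real.sin a - r' * Real.sin b) ^ 2) ∧
    (r * (Real.pi / 2 - a) - r' * (Real.pi / 2 - b)) ^ 2 ≤
      30 * ((r * Real.cos a - r' * Real.cos b) ^ 2 + (r * Real.sin a - r' * Real.sin b) ^ 2) := by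
  have hp := Real.pi_pos
  have hp2 : Real.pi ^ 2 ≤ 10 := by nlinarith [Real.pi_lt_d2]
  have ha' := abs_le.mp ha
  have hb' := abs_le.mp hb
  have h1 := Real.cos_le_one_sub_mul_cos_sq (x := a - b)
    (abs_le.mpr ⟨by linarith, by linarith⟩)
  have h2 : 1 / 5 ≤ 2 / Real.pi ^ 2 := by
    rw [div_le_div_iff₀ (by norm_num) (by positivity)]
    linarith
  have h3 : (a - b) ^ 2 ≤ 5 * (1 - Real.cos (a - b)) := by
    nlinarith [mul_le_mul_of_nonneg_right h2 (sq_nonneg (a - b))]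
  have h4 := mul_le_mul_of_nonneg_left h3 (mul_nonneg hr hr')
  have e : (r * Real.cos a - r' * Real.cos b) ^ 2 + (r * Real.sin a - r' * Real.sin b) ^ 2 =
      (r - r') ^ 2 + 2 * (r * r' * (1 - Real.cos (a - b))) := by
    rw [Real.cos_sub]
    linear_combination r ^ 2 * Real.cos_sq_add_sin_sq a + r' ^ 2 * Real.cos_sq_add_sin_sq b
  have h5 := thang_lip (a := a) (b := b) (B := 5 / 2) hr hr' (by nlinarith) (by nlinarith)
  have h6 := thang_lip (a := Real.pi / 2 - a) (b := Real.pi / 2 - b) (B := 10) hr hr'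
    (by nlinarith) (by nlinarith)
  have h7 : 0 ≤ r * r' * (1 - Real.cos (a - b)) :=
    mul_nonneg (mul_nonneg hr hr') (by linarith [Real.cos_le_one (a - b)])
  rw [show (Real.pi / 2 - a - (Real.pi / 2 - b)) ^ 2 = (a - b) ^ 2 by ring] at h6
  rw [e]
  constructor <;> nlinarith [sq_nonneg (r - r')]

theorem sin_two_lower {c : ℝ} (h0 : 0 ≤ c) (h1 : c ≤ Real.pi / 2) :
    2 * c * max (1 - c ^ 2) 0 ≤ Real.sin (2 * c) := by
  rcases le_total 1 c with h | h
  · rw [max_eq_right (by nlinarith), mul_zero]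
    exact Real.sin_nonneg_of_nonneg_of_le_pi (by linarith) (by linarith)
  · rcases h0.eq_or_lt with rfl | h0'
    · simp
    · have a1 := (Real.sin_gt_sub_cube (x := 2 * c) (by linarith)).le
      rw [max_eq_left (by nlinarith)]
      nlinarith [pow_pos h0' 3]

end

end Vale.Agent.P363
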