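import Vale.Agent.P363.ThSub
import Vale.Agent.P363.ThAng

/-! P363, block Th: pointwise bounds in the bulk. -/

open MeasureTheory Set Metric Filter Topology
open scoped RealInnerProductSpace

namespace Vale.Agent.P363

noncomputable section

theorem thb_int {U : Set E3} (hU : MeasurableSet U) {f S : E3 → ℝ}
    (hf : AEStronglyMeasurable f (volume.restrict U)) (hS : Integrable S) (h0 : ∀ x, 0 ≤ S x)
    {k : ℝ} (hk : 0 ≤ k) (h : ∀ᵐ x : E3, x ∈ U → f x ^ 2 ≤ k * S x) :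
    IntegrableOn (fun x => f x ^ 2) U ∧ ∫ x in U, f x ^ 2 ≤ k * ∫ x, S x := by
  have h1 := (ae_restrict_iff' hU).2 h
  have i1 : Integrable (fun x => k * S x) (volume.restrict U) := (hS.const_mul k).restrict
  have i2 : Integrable (fun x => f x ^ 2) (volume.restrict U) :=
    i1.mono' (hf.pow 2) (h1.mono fun x hx => by
      rw [Real.norm_eq_abs, abs_of_nonneg (sq_nonneg _)]; exact hx)
  refine ⟨i2, (integral_mono_ae i2 i1 h1).trans ?_⟩
  rw [integral_const_mul]
  exact mul_le_mul_of_nonneg_left (setIntegral_le_integral hS (Eventually.of_forall h0)) hk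

/-- Polar form of the limit pair. -/
theorem thb_polar {g u : ℝ} (hg : 0 < g) :
    √(2 * g ^ 2 + u ^ 2) * Real.cos (Real.arctan (u / (√2 * g))) = √2 * g ∧
    √(2 * g ^ 2 + u ^ 2) * Real.sin (Real.arctan (u / (√2 * g))) = u := by
  have h2 : (0 : ℝ) < √2 := by positivity
  have h3 : √2 ^ 2 = (2 : ℝ) := Real.sq_sqrt zero_le_two
  have h4 : 0 < √(1 + (u / (√2 * g)) ^ 2) := by positivity
  have e1 : √(2 * g ^ 2 + u ^ 2) = √2 * g * √(1 + (u / (√2 * g)) ^ 2) := by
    rw [Real.sqrt_eq_iff_mul_self_eq (by positivity) (by positivity), ← pow_two, mul_pow,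
      Real.sq_sqrt (by positivity)]
    field_simp
    rw [h3]
    ring
  rw [Real.cos_arctan, Real.sin_arctan, e1]
  constructor <;> field_simp

theorem thb_low {N θ r a g τ e : ℝ} (hN : 0 ≤ N) (h0 : 0 ≤ θ) (a0 : 0 ≤ a)
    (a1 : a ≤ Real.pi / 2) (hr : r * Real.cos a = √2 * g) (h1 : N * θ ≤ r * a + τ)
    (h2 : |N - r| ≤ e) (hτ : 0 ≤ τ) (h3 : τ ≤ g / 10) (h4 : e ≤ g / 10) :
    g ≤ N * Real.cos θ := by
  have s2 : (1.4 : ℝ) ≤ √2 := Real.le_sqrt_of_sq_le (by norm_num)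
  have p4 := Real.pi_le_four
  have c0 : 0 ≤ Real.cos a := Real.cos_nonneg_of_mem_Icc ⟨by linarith, a1⟩
  have c1 := Real.cos_le_one a
  obtain ⟨e1, e2⟩ := abs_le.1 h2
  have e0 : 0 ≤ e := (abs_nonneg _).trans h2
  have g0 : 0 ≤ g := by linarith
  have b1 : √2 * g - e ≤ N * Real.cos a := by nlinarith
  have b2 : 1.4 * g ≤ √2 * g := mul_le_mul_of_nonneg_right s2 g0
  rcases le_total θ a with h | h
  · have := mul_le_mul_of_nonneg_left
      (Real.cos_le_cos_of_nonneg_of_le_pi h0 (by linarith [Real.pi_pos]) h) hN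
    linarith
  · have b3 := (abs_le.1 (Real.abs_cos_sub_cos_le θ a)).1
    rw [abs_of_nonneg (sub_nonneg.2 h)] at b3
    have b4 := mul_le_mul_of_nonneg_left b3 hN
    have b5 : (r - N) * a ≤ e * 2 := mul_le_mul (by linarith) (by linarith) a0 e0
    nlinarith

theorem th_bulk {c0 L : ℝ} (ob : OB c0 L) {Q : Set E3} (hQ : IsCompact Q) (hD : Q ⊆ D L) :
    ∃ a > 0, ∀ (I δ0 : ℝ) (N : E3 → ℝ) (gN : E3 → E3) (t : TH L I δ0 N gN), |I| ≤ 1 → 0 ≤ δ0 →
      δ0 ≤ 1 → ∫ x, (t.Φ x - √2 * ob.g x) ^ 2 ≤ a → ∫ x, (t.Ω x - ob.u x) ^ 2 ≤ a →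
      (∀ᵐ x : E3, x ∈ Q → |N x - √(2 * ob.g x ^ 2 + ob.u x ^ 2)| ≤ a) →
      ∀ᵐ x : E3, x ∈ Q → 0 < x 2 → ob.g x ≤ t.Φ x ∧ t.X x ≤ 3 * ob.g x := by
  have hU := isOpen_D L
  have hU2 := hU.inter isOpen_Hp
  obtain ⟨m, hm, hmQ⟩ := LocP.of_cont ob.cg ob.pg Q hQ hD
  set r : E3 → ℝ := fun x => √(2 * ob.g x ^ 2 + ob.u x ^ 2) with hr
  set α : E3 → ℝ := fun x => Real.arctan (ob.u x / (√2 * ob.g x)) with hα
  have cr : ContinuousOn r (D L) :=
    ((continuousOn_const.mul (ob.cg.pow 2)).add (ob.cu.pow 2)).sqrt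
  have cα : ContinuousOn α (D L) :=
    Real.continuous_arctan.comp_continuousOn (ob.cu.div (continuousOn_const.mul ob.cg)
      fun x hx => (mul_pos (by positivity) (ob.pg x hx)).ne')
  have r0 : ∀ x, 0 ≤ r x := fun x => Real.sqrt_nonneg _
  have α1 : ∀ x, |α x| ≤ Real.pi / 2 := fun x =>
    abs_le.2 ⟨(Real.neg_pi_div_two_lt_arctan _).le, (Real.arctan_lt_pi_div_two _).le⟩
  have α0 : ∀ x ∈ D L, 0 < x 2 → 0 ≤ α x := fun x hx hz =>
    Real.arctan_nonneg.2 (div_nonneg (ob.pu x hx hz).le (mul_pos (by positivity) (ob.pg x hx)).le)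
  have pol : ∀ x ∈ D L, r x * Real.cos (α x) = √2 * ob.g x ∧ r x * Real.sin (α x) = ob.u x :=
    fun x hx => thb_polar (ob.pg x hx)
  have hτ : 0 < m / 10 := by positivity
  obtain ⟨a1, ha1, k1⟩ := mv_close hU hQ hD (cr.mul cα)
    ((continuousOn_V L).sub (continuousOn_const (c := 2))) hτ
  have hQ2 : IsCompact ((Q ∩ ob.u ⁻¹' Ici (m / 10)) ∩ {x : E3 | 0 ≤ x 2}) :=
    (hQ.of_isClosed_subset ((ob.cu.mono hD).preimage_isClosed_of_isClosed hQ.isClosed
      isClosed_Ici) inter_subset_left).inter_right (isClosed_le continuous_const (csg_cont_coord 2))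
  have hQ2U : (Q ∩ ob.u ⁻¹' Ici (m / 10)) ∩ {x : E3 | 0 ≤ x 2} ⊆ D L ∩ Hp := by
    intro x hx
    have h0 : 0 ≤ x 2 := hx.2
    refine ⟨hD hx.1.1, show 0 < x 2 from lt_of_le_of_ne h0 fun h => ?_⟩
    have h1 : sg x = x := by
      unfold sg
      rw [← h, mul_zero, zero_smul, sub_zero]
    have h2 := ob.odu x
    have h3 : m / 10 ≤ ob.u x := hx.1.2
    rw [h1] at h2
    linarith
  obtain ⟨a2, ha2, k2⟩ := mv_close hU2 hQ2 hQ2U
    ((cr.mul ((continuousOn_const (c := Real.pi / 2)).sub cα)).mono inter_subset_left)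
    (((continuousOn_V L).sub (continuousOn_const (c := 1))).mono inter_subset_left) hτ
  refine ⟨min (m / 10) (min (a1 / 20) (a2 / 60)), by positivity,
    fun I δ0 N gN t hI d0 d1 c1 c2 c3 => ?_⟩
  have b1 := min_le_left (m / 10) (min (a1 / 20) (a2 / 60))
  have b2 := (min_le_right (m / 10) _).trans (min_le_left (a1 / 20) (a2 / 60))
  have b3 := (min_le_right (m / 10) _).trans (min_le_right (a1 / 20) (a2 / 60))
  generalize min (m / 10) (min (a1 / 20) (a2 / 60)) = a at *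
  have i1 : Integrable (fun x => (t.Φ x - √2 * ob.g x) ^ 2) :=
    (t.pair.h1.l2.sub (ob.hg.l2.const_mul √2)).integrable_sq
  have i2 : Integrable (fun x => (t.Ω x - ob.u x) ^ 2) := (t.pair.h2.l2.sub ob.hu.l2).integrable_sq
  have iS : Integrable (fun x => (t.Φ x - √2 * ob.g x) ^ 2 + (t.Ω x - ob.u x) ^ 2) := i1.add i2
  have eS := integral_add i1 i2
  have lip : ∀ᵐ x : E3, x ∈ D L →
      (N x * t.θ x - r x * α x) ^ 2 ≤
        10 * ((t.Φ x - √2 * ob.g x) ^ 2 + (t.Ω x - ob.u x) ^ 2) ∧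
      (t.X x - r x * (Real.pi / 2 - α x)) ^ 2 ≤
        30 * ((t.Φ x - √2 * ob.g x) ^ 2 + (t.Ω x - ob.u x) ^ 2) := by
    filter_upwards [t.rep] with x h hx
    have := ang_lip h.1.le (r0 x) (t.bd x) (α1 x)
    rwa [← h.2.1, ← h.2.2, (pol x hx).1, (pol x hx).2] at this
  have hI' := abs_le.1 hI
  have z1 := t.subZ d0
  obtain ⟨j1, j2⟩ := thb_int hU.measurableSet (f := fun x => N x * t.θ x - r x * α x)
    (z1.l1.ld.mf.sub ((cr.mul cα).aestronglyMeasurable hU.measurableSet)) iS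
    (fun x => by positivity) (k := 10) (by norm_num) (lip.mono fun x h hx => (h hx).1)
  have f1 := k1 _ _ _ z1 (Eventually.of_forall fun x _ =>
    mul_le_mul_of_nonneg_right (by simp only [Pi.sub_apply]; linarith) (sq_nonneg _)) j1
    (j2.trans (by rw [eS]; linarith))
  have X0 : ∀ x, 0 ≤ t.X x := fun x => mul_nonneg (t.n0.nn x) (t.chi_bd x).1
  have z2 := (t.subX hU2 inter_subset_left (t.n0.sub.mono inter_subset_left)).toSubQ hU2
    (ths_locB_mono t.locB_X.1 inter_subset_left) (Eventually.of_forall fun x _ => X0 x)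
  obtain ⟨j3, j4⟩ := thb_int hU2.measurableSet
    (f := fun x => t.X x - r x * (Real.pi / 2 - α x))
    (z2.l1.ld.mf.sub (((cr.mul ((continuousOn_const (c := Real.pi / 2)).sub cα)).mono
      inter_subset_left).aestronglyMeasurable hU2.measurableSet)) iS
    (fun x => by positivity) (k := 30) (by norm_num) (lip.mono fun x h hx => (h hx.1).2)
  have f2 := k2 _ _ _ z2 (Eventually.of_forall fun x hx => by
    have h1 : 0 ≤ Real.sin (2 * t.θ x) := Real.sin_nonneg_of_nonneg_of_le_pi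
      (by linarith [t.pos x hx.2]) (by linarith [(t.chi_bd x).1])
    have h2 := mul_nonneg (mul_nonneg (mul_nonneg d0 (t.n0.nn x)) h1) (X0 x)
    have h3 := mul_nonneg (show 0 ≤ I + 1 by linarith) (sq_nonneg (t.X x))
    simp only [Pi.sub_apply]
    nlinarith) j3 (j4.trans (by rw [eS]; linarith))
  filter_upwards [f1, f2, c3, hmQ, t.rep] with x f1 f2 c3 hmx rep hx hz
  have xD := hD hx
  have g0 := ob.pg x xD
  have gm := hmx hx
  have a0 := α0 x xD hz
  have a1' := (abs_le.1 (α1 x)).2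
  have s2 : √2 ≤ (1.5 : ℝ) := Real.sqrt_le_iff.2 ⟨by norm_num, by norm_num⟩
  have s3 := mul_le_mul_of_nonneg_right s2 g0.le
  have p1 := Real.pi_lt_d2
  have p0 := Real.pi_pos
  constructor
  · have h1 := f1 hx
    simp only [Pi.mul_apply] at h1
    rw [abs_of_nonneg (mul_nonneg (r0 x) a0)] at h1
    rw [rep.2.1]
    exact thb_low rep.1.le (t.pos x hz) a0 a1' (pol x xD).1 ((le_abs_self _).trans h1) (c3 hx)
      hτ.le (by linarith) (by linarith)
  · rcases le_total (m / 10) (ob.u x) with h | h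
    · have h1 := f2 ⟨⟨hx, h⟩, hz.le⟩
      simp only [Pi.mul_apply, Pi.sub_apply] at h1
      rw [abs_of_nonneg (X0 x), abs_of_nonneg (mul_nonneg (r0 x) (by linarith))] at h1
      have h2 := Real.mul_le_sin (x := Real.pi / 2 - α x) (by linarith) (by linarith)
      rw [Real.sin_pi_div_two_sub, div_mul_eq_mul_div, div_le_iff₀ p0] at h2
      have h3 := mul_le_mul_of_nonneg_left h2 (r0 x)
      have h4 : r x * (Real.cos (α x) * Real.pi) = √2 * ob.g x * Real.pi := by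
        rw [← (pol x xD).1]; ring
      have h5 : √2 * ob.g x * Real.pi ≤ 1.5 * ob.g x * 3.15 :=
        mul_le_mul s3 p1.le p0.le (by positivity)
      nlinarith
    · have u0 := (ob.pu x xD hz).le
      have h1 : r x ≤ √2 * ob.g x + ob.u x := by
        refine Real.sqrt_le_iff.2 ⟨by positivity, ?_⟩
        have : √2 ^ 2 = (2 : ℝ) := Real.sq_sqrt zero_le_two
        have : 0 ≤ √2 * ob.g x * ob.u x := by positivity
        nlinarith
      have h2 := (abs_le.1 (c3 hx)).2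
      have h3 : N x ≤ 1.7 * ob.g x := by
        have : r x = √(2 * ob.g x ^ 2 + ob.u x ^ 2) := rfl
        linarith
      have h4 : N x * (Real.pi / 2 - t.θ x) ≤ 1.7 * ob.g x * 1.6 :=
        mul_le_mul h3 (by linarith [t.pos x hz]) (t.chi_bd x).1 (by positivity)
      unfold TH.X
      linarith

end

end Vale.Agent.P363
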