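import Vale.Agent.P363.ThPair

/-! P363, block Th: closeness to the noninteracting pair. -/

open MeasureTheory Set Metric Filter Topology
open scoped RealInnerProductSpace

namespace Vale.Agent.P363

noncomputable section

theorem thcl_sq {f w : E3 → ℝ} (hf : MemLp f 2 volume) (hw : MemLp w 2 volume) (s : ℝ) :
    ∫ x, (f x - s * w x) ^ 2 = (∫ x, f x ^ 2) - 2 * s * (∫ x, w x * f x) + s ^ 2 * ∫ x, w x ^ 2 := by
  have i1 := hf.integrable_sq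
  have i2 := ((cs_integral hw hf).1).const_mul (2 * s)
  have i3 := hw.integrable_sq.const_mul (s ^ 2)
  rw [← integral_const_mul, ← integral_const_mul, ← integral_sub i1 i2,
    ← integral_add (i1.sub' i2) i3]
  exact integral_congr_ae (ae_of_all _ fun x => by ring)

theorem thcl_int {f f' : E3 → ℝ} {g g' : E3 → E3} (h : H1 f g) (h' : H1 f' g') (L : ℝ) :
    Integrable fun x => (1 / 2) * ⟪g x, g' x⟫ + V L x * f x * f' x :=
  ((q1_int h h' L).1.const_mul _).add (q1_int h h' L).2.1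

theorem thcl_q {L : ℝ} {f w : E3 → ℝ} {gf gw : E3 → E3} (hf : H1 f gf) (hw : H1 w gw) (s : ℝ) :
    q1 L (fun x => f x - s * w x) (fun x => gf x - s • gw x) (fun x => f x - s * w x)
      (fun x => gf x - s • gw x) = q1 L f gf f gf - 2 * s * q1 L w gw f gf +
        s ^ 2 * q1 L w gw w gw := by
  have i1 := thcl_int hf hf L
  have i2 := (thcl_int hw hf L).const_mul (2 * s)
  have i3 := (thcl_int hw hw L).const_mul (s ^ 2)
  unfold q1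
  rw [← integral_const_mul, ← integral_const_mul, ← integral_sub i1 i2,
    ← integral_add (i1.sub' i2) i3]
  refine integral_congr_ae (ae_of_all _ fun x => ?_)
  simp only [inner_sub_left, inner_sub_right, real_inner_smul_left,
    real_inner_smul_right, real_inner_comm (gw x) (gf x)]
  ring

theorem thcl_one {L μ s a γ : ℝ} {f w : E3 → ℝ} {gf gw : E3 → E3} (hf : H1 f gf) (hw : H1 w gw)
    (nw : ∫ x, w x ^ 2 = 1) (hs : 0 ≤ s) (nf : ∫ x, f x ^ 2 = s ^ 2)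
    (eq : ∀ f gf, H1 f gf → q1 L w gw f gf = μ * ∫ x, w x * f x) (hc : 0 ≤ ∫ x, w x * f x)
    (hγ : 0 < γ) (h1 : γ * (s ^ 2 - (∫ x, w x * f x) ^ 2) ≤ a) (h2 : q1 L f gf f gf ≤ μ * s ^ 2 + a) :
    ∫ x, (f x - s * w x) ^ 2 ≤ 2 / γ * a ∧
      ∫ x, ‖gf x - s • gw x‖ ^ 2 ≤ (4 + 4 * (|μ| + 16) * (2 / γ)) * a := by
  have e1 := thcl_sq hf.l2 hw.l2 s
  have e2 := thcl_q (L := L) hf hw s
  have h3 := (cs_integral hw.l2 hf.l2).2
  have e3 : ∫ x, w x * w x = 1 := by simpa only [sq] using nw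
  rw [nw, nf, Real.sqrt_one, Real.sqrt_sq hs, one_mul, abs_of_nonneg hc] at h3
  rw [eq f gf hf, eq w gw hw, e3] at e2
  rw [nw, nf] at e1
  have h4 := q1_lower (hf.sub (hw.cmul s)) L
  have h0 : 0 ≤ ∫ x, (f x - s * w x) ^ 2 := integral_nonneg fun _ => sq_nonneg _
  have h5 : ∫ x, (f x - s * w x) ^ 2 ≤ 2 / γ * a := by
    rw [div_mul_eq_mul_div, le_div_iff₀ hγ, e1]
    nlinarith [mul_nonneg hγ.le (mul_nonneg hc (sub_nonneg.mpr h3))]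
  refine ⟨h5, ?_⟩
  have h6 : μ * ∫ x, (f x - s * w x) ^ 2 ≤ |μ| * (2 / γ * a) :=
    (mul_le_mul_of_nonneg_right (le_abs_self μ) h0).trans
      (mul_le_mul_of_nonneg_left h5 (abs_nonneg μ))
  rw [e2] at h4
  rw [e1] at h6
  nlinarith

theorem thcl_T {f : E3 → ℝ} {h p : E3 → E3} (hf : MemLp f 2 volume) (hh : MemLp h 2 volume)
    (hp : AEStronglyMeasurable p volume) (hb : ∀ x, ‖p x‖ ≤ 1) :
    Integrable (fun x => f x * ⟪h x, p x⟫) ∧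
      |∫ x, f x * ⟪h x, p x⟫| ≤ √(∫ x, f x ^ 2) * √(∫ x, ‖h x‖ ^ 2) := by
  have h1 : ∀ x, |⟪h x, p x⟫| ≤ ‖h x‖ := fun x =>
    (abs_real_inner_le_norm _ _).trans (mul_le_of_le_one_right (norm_nonneg _) (hb x))
  have h2 : MemLp (fun x => ⟪h x, p x⟫) 2 volume :=
    hh.of_le (hh.aestronglyMeasurable.inner hp) (ae_of_all _ h1)
  refine ⟨(cs_integral hf h2).1, (cs_integral hf h2).2.trans ?_⟩
  exact mul_le_mul_of_nonneg_left (Real.sqrt_le_sqrt (integral_mono h2.integrable_sq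
    hh.norm.integrable_sq fun x => sq_le_sq' (abs_le.mp (h1 x)).1 (abs_le.mp (h1 x)).2))
    (Real.sqrt_nonneg _)

theorem thcl_S {f h φ : E3 → ℝ} (hf : MemLp f 2 volume) (hh : MemLp h 2 volume)
    (hp : AEStronglyMeasurable φ volume) (hb : ∀ x, |φ x| ≤ 1) :
    Integrable (fun x => f x * (h x * φ x)) ∧
      |∫ x, f x * (h x * φ x)| ≤ √(∫ x, f x ^ 2) * √(∫ x, h x ^ 2) := by
  have h1 : ∀ x, |h x * φ x| ≤ |h x| := fun x => by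
    rw [abs_mul]
    exact mul_le_of_le_one_right (abs_nonneg _) (hb x)
  have h2 : MemLp (fun x => h x * φ x) 2 volume :=
    hh.of_le (hh.aestronglyMeasurable.mul hp) (ae_of_all _ h1)
  refine ⟨(cs_integral hf h2).1, (cs_integral hf h2).2.trans ?_⟩
  exact mul_le_mul_of_nonneg_left (Real.sqrt_le_sqrt (integral_mono h2.integrable_sq
    hh.integrable_sq fun x => sq_le_sq.mpr (h1 x))) (Real.sqrt_nonneg _)

theorem thcl_test : ∃ (φ : E3 → ℝ) (p : E3 → E3), LD univ φ p ∧ (∀ x, |φ x| ≤ 1 ∧ ‖p x‖ ≤ 1) ∧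
    ∀ x, (0 < x 2 → 0 < φ x) ∧ (x 2 < 0 → φ x < 0) := by
  refine ⟨_, _, (LD.coord univ 2).clamp isOpen_univ (a := -1) (b := 1) (by norm_num),
    fun x => ⟨abs_le.mpr ⟨le_max_left _ _, max_le (by norm_num) (min_le_left _ _)⟩, ?_⟩,
    fun x => ⟨fun h => lt_max_of_lt_right (lt_min one_pos h),
      fun h => max_lt (by norm_num) (min_lt_of_right_lt h)⟩⟩
  split_ifs <;> simp [norm_e]

theorem thcl_inf {c0 L : ℝ} (ob : OB c0 L) {φ : E3 → ℝ} {p : E3 → E3} (h : LD univ φ p)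
    (hb : ∀ x, |φ x| ≤ 1 ∧ ‖p x‖ ≤ 1) :
    (∫ x, ob.g x * ⟪ob.gu x, p x⟫) - ∫ x, ob.u x * ⟪ob.gg x, p x⟫ =
      2 * ob.del * ∫ x, ob.g x * (ob.u x * φ x) := by
  have mp := h.mg
  rw [Measure.restrict_univ] at mp
  have k1 := ob.hg.mul_lip h (ae_of_all _ hb)
  have k2 := ob.hu.mul_lip h (ae_of_all _ hb)
  have e1 := ob.equ _ _ k1
  have e2 := ob.eqg _ _ k2
  have e3 : ∫ x, ob.u x * (φ x * ob.g x) = ∫ x, ob.g x * (ob.u x * φ x) :=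
    integral_congr_ae (ae_of_all _ fun x => by ring)
  have e4 : ∫ x, ob.g x * (φ x * ob.u x) = ∫ x, ob.g x * (ob.u x * φ x) :=
    integral_congr_ae (ae_of_all _ fun x => by ring)
  have e5 : q1 L ob.u ob.gu (fun x => φ x * ob.g x) (fun x => φ x • ob.gg x + ob.g x • p x) -
      q1 L ob.g ob.gg (fun x => φ x * ob.u x) (fun x => φ x • ob.gu x + ob.u x • p x) =
      (1 / 2) * ((∫ x, ob.g x * ⟪ob.gu x, p x⟫) - ∫ x, ob.u x * ⟪ob.gg x, p x⟫) := by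
    unfold q1
    rw [← integral_sub (thcl_int ob.hu k1 L) (thcl_int ob.hg k2 L),
      ← integral_sub (thcl_T ob.hg.l2 ob.hu.l2g mp fun x => (hb x).2).1
        (thcl_T ob.hu.l2 ob.hg.l2g mp fun x => (hb x).2).1, ← integral_const_mul]
    refine integral_congr_ae (ae_of_all _ fun x => ?_)
    simp only [inner_add_right, real_inner_smul_right, real_inner_comm (ob.gu x) (ob.gg x)]
    ring
  rw [e1, e2, e3, e4] at e5
  unfold OB.del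
  linarith

theorem thcl_u {c0 L : ℝ} (ob : OB c0 L) : ∀ᵐ x : E3, 0 < ob.g x ∧
    ((0 < x 2 ∧ 0 < ob.u x) ∨ (x 2 < 0 ∧ ob.u x < 0)) := by
  filter_upwards [ae_mem_D L, ae_plane] with x hx h2
  refine ⟨ob.pg x hx, (lt_or_gt_of_ne h2).symm.imp (fun h => ⟨h, ob.pu x hx h⟩) fun h => ⟨h, ?_⟩⟩
  have := ob.pu _ (mem_D_sg hx) (by rw [sg_2]; linarith)
  rw [ob.odu] at this
  linarith

theorem thcl_fin {A A' B B' δ d ρ C : ℝ} (hB : 0 < B') (h1 : A = 2 * δ * B) (h2 : A' = 2 * d * B')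
    (h3 : |A - A'| ≤ C * ρ) (h4 : |B - B'| ≤ 3 * ρ) (h5 : ρ ≤ B' / 6) :
    (δ - d) ^ 2 ≤ ((C + 6 * |d|) / B') ^ 2 * ρ ^ 2 := by
  have h6 : B' / 2 ≤ B := by linarith [(abs_le.mp h4).1]
  have h7 : |δ - d| * (2 * B) = |A - A' - 2 * d * (B - B')| := by
    rw [← abs_of_nonneg (by linarith : 0 ≤ 2 * B), ← abs_mul, h1, h2]
    congr 1
    ring
  have h8 : |A - A' - 2 * d * (B - B')| ≤ C * ρ + 2 * |d| * (3 * ρ) := by
    refine (abs_sub _ _).trans (add_le_add h3 ?_)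
    rw [abs_mul, abs_mul, abs_two]
    gcongr
  have h9 : |δ - d| ≤ (C + 6 * |d|) / B' * ρ := by
    rw [div_mul_eq_mul_div, le_div_iff₀ hB]
    nlinarith [abs_nonneg (δ - d)]
  rw [← mul_pow, ← sq_abs]
  exact pow_le_pow_left₀ (abs_nonneg _) h9 2

theorem thcl_num {γ eg eu c a A B X Y : ℝ} (hγ : γ = c - eu) (h0 : 0 < γ) (hlt : eg < eu)
    (d3 : 0 ≤ 2 - X ^ 2) (d4 : 0 ≤ 1 - Y ^ 2)
    (g1 : c * 2 - (c - eg) * X ^ 2 - (c - eu) * 0 ^ 2 ≤ A)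
    (g2 : c * 1 - (c - eg) * 0 ^ 2 - (c - eu) * Y ^ 2 ≤ B) (hE : A + B ≤ 2 * eg + eu + a) :
    γ * (2 - X ^ 2) ≤ a ∧ A ≤ eg * 2 + a ∧ γ * (1 ^ 2 - Y ^ 2) ≤ a ∧ B ≤ eu * 1 ^ 2 + a := by
  have d5 := mul_nonneg h0.le d3
  have d6 := mul_nonneg h0.le d4
  have d7 := mul_nonneg (sub_nonneg.mpr hlt.le) d3
  subst hγ
  refine ⟨?_, ?_, ?_, ?_⟩ <;> nlinarith

theorem thcl_en {c0 L : ℝ} (ob : OB c0 L) (h0 : ob.eu < -1 / 2 + c0) :
    ∃ K : ℝ, 0 < K ∧ ∀ a : ℝ, 0 < a → ∀ (δ0 : ℝ) (N : E3 → ℝ) (m : MP δ0 N),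
      ∫ x, m.Ω x ^ 2 = 1 →
      (1 / 2) * JJ m.gΦ m.gΩ + ∫ x, V L x * N x ^ 2 ≤ 2 * ob.eg + ob.eu + a →
      ∫ x, (m.Φ x - √2 * ob.g x) ^ 2 ≤ K * a ∧ ∫ x, ‖m.gΦ x - √2 • ob.gg x‖ ^ 2 ≤ K * a ∧
        ∫ x, (m.Ω x - ob.u x) ^ 2 ≤ K * a ∧ ∫ x, ‖m.gΩ x - ob.gu x‖ ^ 2 ≤ K * a := by
  obtain ⟨γ, hγ⟩ : ∃ γ, γ = -1 / 2 + c0 - ob.eu := ⟨_, rfl⟩
  have hγ0 : 0 < γ := by linarith
  have s2 : √2 ^ 2 = 2 := Real.sq_sqrt two_pos.le
  have s0 : 0 < √2 := Real.sqrt_pos.mpr two_pos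
  refine ⟨2 / γ + (4 + 4 * (|ob.eg| + |ob.eu| + 16) * (2 / γ)), by positivity,
    fun a ha δ0 N m m2 hE => ?_⟩
  have h1 := m.pair.h1
  have h2 := m.pair.h2
  have eq : q1 L m.Φ m.gΦ m.Φ m.gΦ + q1 L m.Ω m.gΩ m.Ω m.gΩ =
      (1 / 2) * JJ m.gΦ m.gΩ + ∫ x, V L x * N x ^ 2 := by
    have e1 : ∫ x, V L x * N x ^ 2 =
        (∫ x, V L x * m.Φ x * m.Φ x) + ∫ x, V L x * m.Ω x * m.Ω x := by
      rw [← integral_add (q1_int h1 h1 L).2.1 (q1_int h2 h2 L).2.1]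
      exact integral_congr_ae (m.pair.sum.mono fun x hx => by beta_reduce; rw [← hx]; ring)
    unfold q1 JJ
    rw [integral_add ((q1_int h1 h1 L).1.const_mul _) (q1_int h1 h1 L).2.1,
      integral_add ((q1_int h2 h2 L).1.const_mul _) (q1_int h2 h2 L).2.1, e1,
      integral_const_mul, integral_const_mul]
    simp only [real_inner_self_eq_norm_sq]
    ring
  have g1 := ob.gap _ _ h1
  have g2 := ob.gap _ _ h2
  rw [m.m1, integral_odd (f := fun x => ob.u x * m.Φ x)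
    (m.pair.ev.mono fun x hx => by rw [hx, ob.odu, neg_mul])] at g1
  rw [m2, integral_odd (f := fun x => ob.g x * m.Ω x)
    (m.pair.od.mono fun x hx => by rw [hx, ob.evg, mul_neg])] at g2
  have c1 : 0 ≤ ∫ x, ob.g x * m.Φ x :=
    integral_nonneg_of_ae ((thcl_u ob).mono fun x hx => mul_nonneg hx.1.le (m.n1 x))
  have c2 : 0 ≤ ∫ x, ob.u x * m.Ω x := by
    refine integral_nonneg_of_ae ?_
    filter_upwards [thcl_u ob, m.pair.od] with x ⟨_, a2⟩ a3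
    rcases a2 with ⟨b1, b2⟩ | ⟨b1, b2⟩
    · exact mul_nonneg b2.le (m.n2 x b1)
    · have := m.n2 (sg x) (by rw [sg_2]; linarith)
      exact mul_nonneg_of_nonpos_of_nonpos b2.le (by linarith)
  have d1 := (cs_integral ob.hg.l2 h1.l2).2
  have d2 := (cs_integral ob.hu.l2 h2.l2).2
  rw [ob.ng, m.m1, Real.sqrt_one, one_mul, abs_of_nonneg c1] at d1
  rw [ob.nu, m2, Real.sqrt_one, one_mul, abs_of_nonneg c2] at d2
  have d3 := pow_le_pow_left₀ c1 d1 2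
  have d4 := pow_le_pow_left₀ c2 d2 2
  rw [s2] at d3
  rw [one_pow] at d4
  obtain ⟨n1, n2, n3, n4⟩ := thcl_num hγ hγ0 ob.lt (sub_nonneg.mpr d3) (sub_nonneg.mpr d4) g1 g2
    (eq.trans_le hE)
  obtain ⟨o1, o2⟩ := thcl_one (a := a) h1 ob.hg ob.ng s0.le (m.m1.trans s2.symm) ob.eqg c1 hγ0
    (by rw [s2]; exact n1) (by rw [s2]; exact n2)
  obtain ⟨o3, o4⟩ := thcl_one (a := a) h2 ob.hu ob.nu one_pos.le (m2.trans (one_pow 2).symm)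
    ob.equ c2 hγ0 n3 n4
  simp only [one_mul, one_smul] at o3 o4
  have p1 : 0 < 2 / γ := by positivity
  have p2 := mul_nonneg (abs_nonneg ob.eg) p1.le
  have p3 := mul_nonneg (abs_nonneg ob.eu) p1.le
  refine ⟨o1.trans ?_, o2.trans ?_, o3.trans ?_, o4.trans ?_⟩ <;>
    exact mul_le_mul_of_nonneg_right (by linarith) ha.le

theorem thcl_del {c0 L : ℝ} (ob : OB c0 L) :
    ∃ B C : ℝ, 0 < B ∧ ∀ (ρ δ0 : ℝ) (N : E3 → ℝ) (m : MP δ0 N), m.EL → MemLp N 2 volume →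
      ∫ x, m.Ω x ^ 2 = 1 → √(∫ x, (m.Φ x - √2 * ob.g x) ^ 2) ≤ ρ →
      √(∫ x, ‖m.gΦ x - √2 • ob.gg x‖ ^ 2) ≤ ρ → √(∫ x, (m.Ω x - ob.u x) ^ 2) ≤ ρ →
      √(∫ x, ‖m.gΩ x - ob.gu x‖ ^ 2) ≤ ρ → ρ ≤ B / 6 → (δ0 - ob.del) ^ 2 ≤ C ^ 2 * ρ ^ 2 := by
  obtain ⟨φ, p, hφ, hb, hs⟩ := thcl_test
  have mφ := hφ.mf
  have mp := hφ.mg
  rw [Measure.restrict_univ] at mφ mp
  have hb1 := fun x => (hb x).1
  have hb2 := fun x => (hb x).2
  have hB0 : 0 < ∫ x, ob.g x * (ob.u x * φ x) := by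
    have h1 : ∀ᵐ x : E3, 0 < ob.g x * (ob.u x * φ x) := by
      filter_upwards [thcl_u ob] with x ⟨a1, a2⟩
      rcases a2 with ⟨b1, b2⟩ | ⟨b1, b2⟩
      · exact mul_pos a1 (mul_pos b2 ((hs x).1 b1))
      · exact mul_pos a1 (mul_pos_of_neg_of_neg b2 ((hs x).2 b1))
    refine (integral_nonneg_of_ae (h1.mono fun x hx => hx.le)).lt_of_ne' fun h2 => ?_
    have h3 := (integral_eq_zero_iff_of_nonneg_ae (h1.mono fun x hx => hx.le)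
      (thcl_S ob.hg.l2 ob.hu.l2 mφ hb1).1).mp h2
    obtain ⟨x, a1, a2⟩ := (h1.and h3).exists
    exact a1.ne' a2
  have s0 : 0 < √2 := Real.sqrt_pos.mpr two_pos
  have s1 : √2 ≤ 2 := Real.sqrt_le_iff.mpr ⟨two_pos.le, by norm_num⟩
  refine ⟨√2 * ∫ x, ob.g x * (ob.u x * φ x),
    (3 + √(∫ x, ‖ob.gu x‖ ^ 2) + √2 * √(∫ x, ‖ob.gg x‖ ^ 2) + 6 * |ob.del|) /
      (√2 * ∫ x, ob.g x * (ob.u x * φ x)), mul_pos s0 hB0,
    fun ρ δ0 N m el hN m2 r1 r2 r3 r4 r5 => ?_⟩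
  have h1 := m.pair.h1
  have h2 := m.pair.h2
  have hG := ob.hg.cmul √2
  have k1 := h1.sub hG
  have k2 := h2.sub ob.hu
  obtain ⟨t1, t1'⟩ := thcl_T h1.l2 k2.l2g mp hb2
  obtain ⟨t2, t2'⟩ := thcl_T k1.l2 ob.hu.l2g mp hb2
  obtain ⟨t3, t3'⟩ := thcl_T h2.l2 k1.l2g mp hb2
  obtain ⟨t4, t4'⟩ := thcl_T k2.l2 ob.hg.l2g mp hb2
  obtain ⟨t5, -⟩ := thcl_T ob.hg.l2 ob.hu.l2g mp hb2
  obtain ⟨t6, -⟩ := thcl_T ob.hu.l2 ob.hg.l2g mp hb2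
  obtain ⟨u1, u1'⟩ := thcl_S h1.l2 k2.l2 mφ hb1
  obtain ⟨u2, u2'⟩ := thcl_S k1.l2 ob.hu.l2 mφ hb1
  obtain ⟨u3, -⟩ := thcl_S ob.hg.l2 ob.hu.l2 mφ hb1
  rw [m.m1] at t1' u1'
  rw [m2, Real.sqrt_one, one_mul] at t3'
  rw [ob.nu, Real.sqrt_one, mul_one] at u2'
  have e1 := el φ p hφ ⟨1, ae_of_all _ hb1⟩ (hN.of_le (hN.aestronglyMeasurable.smul mp)
    (ae_of_all _ fun x => by
      rw [norm_smul]; exact mul_le_of_le_one_right (norm_nonneg _) (hb2 x)))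
  have e2 : ∫ x, ⟪m.Φ x • m.gΩ x - m.Ω x • m.gΦ x, p x⟫ =
      (∫ x, m.Φ x * ⟪m.gΩ x - ob.gu x, p x⟫) + (∫ x, (m.Φ x - √2 * ob.g x) * ⟪ob.gu x, p x⟫) -
        (∫ x, m.Ω x * ⟪m.gΦ x - √2 • ob.gg x, p x⟫) -
        √2 * (∫ x, (m.Ω x - ob.u x) * ⟪ob.gg x, p x⟫) +
        √2 * ((∫ x, ob.g x * ⟪ob.gu x, p x⟫) - ∫ x, ob.u x * ⟪ob.gg x, p x⟫) := by
    rw [← integral_sub t5 t6, ← integral_const_mul, ← integral_const_mul, ← integral_add t1 t2,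
      ← integral_sub (t1.fun_add t2) t3, ← integral_sub ((t1.fun_add t2).sub' t3) (t4.const_mul _),
      ← integral_add (((t1.fun_add t2).sub' t3).sub' (t4.const_mul _)) ((t5.sub' t6).const_mul _)]
    refine integral_congr_ae (ae_of_all _ fun x => ?_)
    simp only [inner_sub_left, real_inner_smul_left]
    ring
  have e3 : ∫ x, m.Φ x * m.Ω x * φ x = (∫ x, m.Φ x * ((m.Ω x - ob.u x) * φ x)) +
      (∫ x, (m.Φ x - √2 * ob.g x) * (ob.u x * φ x)) + √2 * ∫ x, ob.g x * (ob.u x * φ x) := by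
    rw [← integral_const_mul, ← integral_add u1 u2, ← integral_add (u1.fun_add u2) (u3.const_mul _)]
    exact integral_congr_ae (ae_of_all _ fun x => by ring)
  have n1 := Real.sqrt_nonneg (∫ x, ‖ob.gu x‖ ^ 2)
  have n2 := Real.sqrt_nonneg (∫ x, ‖ob.gg x‖ ^ 2)
  have v1 := abs_le.mp (t1'.trans (mul_le_mul s1 r4 (Real.sqrt_nonneg _) two_pos.le))
  have v2 := abs_le.mp (t2'.trans (mul_le_mul_of_nonneg_right r1 n1))
  have v3 := abs_le.mp (t3'.trans r2)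
  have v4 := abs_le.mp (t4'.trans (mul_le_mul_of_nonneg_right r3 n2))
  have v5 := abs_le.mp (u1'.trans (mul_le_mul s1 r3 (Real.sqrt_nonneg _) two_pos.le))
  have v6 := abs_le.mp (u2'.trans r1)
  have w1 := mul_le_mul_of_nonneg_left v4.1 s0.le
  have w2 := mul_le_mul_of_nonneg_left v4.2 s0.le
  exact thcl_fin (A' := √2 * ((∫ x, ob.g x * ⟪ob.gu x, p x⟫) -
      ∫ x, ob.u x * ⟪ob.gg x, p x⟫)) (mul_pos s0 hB0) e1
    (by rw [thcl_inf ob hφ hb]; ring)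
    (by rw [e2, abs_le]; constructor <;> linarith [v1.1, v1.2, v2.1, v2.2, v3.1, v3.2])
    (by rw [e3, abs_le]; constructor <;> linarith [v5.1, v5.2, v6.1, v6.2]) r5

theorem th_close {c0 L : ℝ} (ob : OB c0 L) (h0 : ob.eu < -1 / 2 + c0) :
    ∃ K : ℝ, 1 ≤ K ∧ ∀ a : ℝ, 0 < a → K * a ≤ 1 → ∀ (δ0 : ℝ) (N : E3 → ℝ) (m : MP δ0 N), m.EL →
      MemLp N 2 volume → ∫ x, N x ^ 2 = 3 →
      (1 / 2) * JJ m.gΦ m.gΩ + ∫ x, V L x * N x ^ 2 ≤ 2 * ob.eg + ob.eu + a →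
      ∫ x, (m.Φ x - √2 * ob.g x) ^ 2 ≤ K * a ∧ ∫ x, (m.Ω x - ob.u x) ^ 2 ≤ K * a ∧
        (δ0 - ob.del) ^ 2 ≤ K * a := by
  obtain ⟨K, hK, hen⟩ := thcl_en ob h0
  obtain ⟨B, C, hB, hdel⟩ := thcl_del ob
  have z1 : 0 ≤ C ^ 2 * K := by positivity
  have z2 : 0 ≤ (6 / B) ^ 2 * K := by positivity
  refine ⟨1 + K + C ^ 2 * K + (6 / B) ^ 2 * K, by linarith,
    fun a ha hKa δ0 N m el hN mass hE => ?_⟩
  have m2 : ∫ x, m.Ω x ^ 2 = 1 := by linarith [m.pair.mass, m.m1]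
  obtain ⟨o1, o2, o3, o4⟩ := hen a ha δ0 N m m2 hE
  have y1 := mul_nonneg z1 ha.le
  have y2 := mul_nonneg z2 ha.le
  have y3 := mul_pos hK ha
  have fin := hdel √(K * a) δ0 N m el hN m2 (Real.sqrt_le_sqrt o1) (Real.sqrt_le_sqrt o2)
    (Real.sqrt_le_sqrt o3) (Real.sqrt_le_sqrt o4) (by
      refine Real.sqrt_le_iff.mpr ⟨by positivity, ?_⟩
      have h3 : (6 / B) ^ 2 * (K * a) ≤ 1 := by linarith
      have h4 := mul_le_mul_of_nonneg_left h3 (sq_nonneg (B / 6))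
      have h5 : (B / 6) ^ 2 * ((6 / B) ^ 2 * (K * a)) = K * a := by field_simp
      linarith)
  rw [Real.sq_sqrt y3.le] at fin
  exact ⟨by linarith, by linarith, by linarith⟩

end

end Vale.Agent.P363
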