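import Vale.Agent.P363.ThPair

/-! P363, block Th: the Euler-Lagrange equation. -/

open MeasureTheory Set Metric Filter Topology
open scoped RealInnerProductSpace

namespace Vale.Agent.P363

noncomputable section

namespace ThEL

theorem sin_quad (x : ℝ) : |x - Real.sin x| ≤ x ^ 2 := by
  have h0 := abs_nonneg x
  rw [← sq_abs x]
  rcases le_total |x| 2 with h | h
  · have h1 := Real.abs_sub_sin_le x
    nlinarith [mul_nonneg h0 h0]
  · have h1 := abs_sub x (Real.sin x)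
    have h2 := Real.abs_sin_le_abs (x := x)
    nlinarith

theorem mass_pt (y a b : ℝ) :
    |(Real.cos y * a - Real.sin y * b) ^ 2 - a ^ 2 + 2 * y * (a * b)| ≤
      3 * y ^ 2 * (a ^ 2 + b ^ 2) := by
  have e : (Real.cos y * a - Real.sin y * b) ^ 2 - a ^ 2 + 2 * y * (a * b) =
      (2 * y - Real.sin (2 * y)) * (a * b) + Real.sin y ^ 2 * (b ^ 2 - a ^ 2) := by
    rw [Real.sin_two_mul]
    linear_combination a ^ 2 * Real.sin_sq_add_cos_sq y
  have h1 := sin_quad (2 * y)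
  have h2 : |a * b| ≤ (a ^ 2 + b ^ 2) / 2 :=
    abs_le.2 ⟨by nlinarith [sq_nonneg (a + b)], by nlinarith [sq_nonneg (a - b)]⟩
  have h3 : |b ^ 2 - a ^ 2| ≤ a ^ 2 + b ^ 2 :=
    abs_le.2 ⟨by nlinarith [sq_nonneg b], by nlinarith [sq_nonneg a]⟩
  have h4 := Real.sin_sq_le_sq (x := y)
  rw [e]
  refine (abs_add_le _ _).trans ?_
  rw [abs_mul, abs_mul (Real.sin y ^ 2), abs_of_nonneg (sq_nonneg (Real.sin y))]
  have h5 := mul_le_mul h1 h2 (abs_nonneg _) (sq_nonneg _)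
  have h6 := mul_le_mul h4 h3 (abs_nonneg _) (sq_nonneg _)
  nlinarith

theorem grad_pt {c s t u v n : ℝ} (hcs : s ^ 2 + c ^ 2 = 1) (hn : u ^ 2 + v ^ 2 = n ^ 2)
    (a b p : E3) :
    ‖(c • a + u • ((-s * t) • p)) - (s • b + v • ((c * t) • p))‖ ^ 2 +
      ‖(s • a + u • ((c * t) • p)) + (c • b + v • ((-s * t) • p))‖ ^ 2 =
      ‖a‖ ^ 2 + ‖b‖ ^ 2 + 2 * t * ⟪u • b - v • a, p⟫ + t ^ 2 * ‖n • p‖ ^ 2 := by
  simp only [← real_inner_self_eq_norm_sq, inner_add_left, inner_add_right, inner_sub_left,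
    inner_sub_right, real_inner_smul_left, real_inner_smul_right, real_inner_comm a b,
    real_inner_comm a p, real_inner_comm b p]
  linear_combination (⟪a, a⟫ + ⟪b, b⟫ - 2 * t * v * ⟪a, p⟫ + 2 * t * u * ⟪b, p⟫ +
    t ^ 2 * (u ^ 2 + v ^ 2) * ⟪p, p⟫) * hcs + t ^ 2 * ⟪p, p⟫ * hn

theorem lin_zero {a C : ℝ} (h : ∀ t : ℝ, t * a ≤ C * t ^ 2) : a = 0 := by
  have hC : 0 < |C| + 1 := by positivity
  have h1 := h (a / (|C| + 1))
  have h2 : C * (a / (|C| + 1)) ^ 2 ≤ |C| * (a / (|C| + 1)) ^ 2 :=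
    mul_le_mul_of_nonneg_right (le_abs_self C) (sq_nonneg _)
  have h3 : a = (|C| + 1) * (a / (|C| + 1)) := by field_simp
  generalize a / (|C| + 1) = t at h1 h2 h3
  have h4 : t ^ 2 ≤ 0 := by rw [h3] at h1; nlinarith
  have h5 : t = 0 := pow_eq_zero_iff two_ne_zero |>.1 (le_antisymm h4 (sq_nonneg t))
  rw [h3, h5, mul_zero]

variable {N Φ Ω F φ : E3 → ℝ} {gΦ gΩ gF p : E3 → E3}

theorem dom (hφ : LD univ φ p) (hp : MemLp (fun x => N x • p x) 2 volume) {a : E3 → ℝ}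
    (ma : AEStronglyMeasurable a volume) {K : ℝ} (h : ∀ᵐ x : E3, |a x| ≤ K * |N x|) :
    MemLp (fun x => a x • p x) 2 volume := by
  refine hp.of_le_mul (c := K) (ma.smul (ctst_mg hφ)) ?_
  filter_upwards [h] with x hx
  rw [norm_smul, norm_smul, ← mul_assoc]
  exact mul_le_mul_of_nonneg_right hx (norm_nonneg _)

theorem mulG (hF : H1 F gF) (hle : ∀ᵐ x : E3, |F x| ≤ |N x|) (hφ : LD univ φ p)
    (hp : MemLp (fun x => N x • p x) 2 volume) {Γ Γ' : ℝ → ℝ} (hd : ∀ s, HasDerivAt Γ (Γ' s) s)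
    (hc : Continuous Γ') (b1 : ∀ s, |Γ s| ≤ 1) {K : ℝ} (b2 : ∀ s, |Γ' s| ≤ K) :
    H1 (fun x => Γ (φ x) * F x) (fun x => Γ (φ x) • gF x + F x • (Γ' (φ x) • p x)) := by
  refine hF.mul_bdd (hφ.comp isOpen_univ hd hc) (Eventually.of_forall fun x => b1 _) ?_
  simp only [smul_smul]
  refine dom hφ hp (hF.l2.1.mul (hc.comp_aestronglyMeasurable (ctst_mf hφ))) (K := K) ?_
  filter_upwards [hle] with x hx
  rw [abs_mul, mul_comm]
  exact mul_le_mul (b2 _) hx (abs_nonneg _) ((abs_nonneg _).trans (b2 0))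

theorem le1 (P : Pair N Φ Ω gΦ gΩ) : ∀ᵐ x : E3, |Φ x| ≤ |N x| :=
  P.sum.mono fun x hx => sq_le_sq.1 (by nlinarith [sq_nonneg (Ω x)])

theorem le2 (P : Pair N Φ Ω gΦ gΩ) : ∀ᵐ x : E3, |Ω x| ≤ |N x| :=
  P.sum.mono fun x hx => sq_le_sq.1 (by nlinarith [sq_nonneg (Φ x)])

theorem intW (P : Pair N Φ Ω gΦ gΩ) (hφ : LD univ φ p)
    (hp : MemLp (fun x => N x • p x) 2 volume) :
    Integrable fun x => ⟪Φ x • gΩ x - Ω x • gΦ x, p x⟫ := by
  have h1 := ctst_inner P.h2.l2g (dom hφ hp P.h1.l2.1 (K := 1) (by simpa using le1 P))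
  have h2 := ctst_inner P.h1.l2g (dom hφ hp P.h2.l2.1 (K := 1) (by simpa using le2 P))
  refine (h1.sub h2).congr (Eventually.of_forall fun x => ?_)
  simp only [Pi.sub_apply, inner_sub_left, real_inner_smul_left, real_inner_smul_right]

theorem intM (P : Pair N Φ Ω gΦ gΩ) (hφ : LD univ φ p) {M : ℝ} (hM : ∀ᵐ x : E3, |φ x| ≤ M) :
    Integrable fun x => Φ x * Ω x * φ x :=
  (P.h1.l2.integrable_mul P.h2.l2).mul_bdd (ctst_mf hφ) hM

theorem rot (P : Pair N Φ Ω gΦ gΩ) (hφ : LD univ φ p) {M : ℝ} (hM : ∀ᵐ x : E3, |φ x| ≤ M)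
    (hp : MemLp (fun x => N x • p x) 2 volume) (od : ∀ᵐ x : E3, φ (sg x) = -φ x) (t : ℝ) :
    ∃ Φ' Ω' p' q', Pair N Φ' Ω' p' q' ∧
      JJ p' q' = JJ gΦ gΩ + 2 * t * (∫ x, ⟪Φ x • gΩ x - Ω x • gΦ x, p x⟫) +
        t ^ 2 * ∫ x, ‖N x • p x‖ ^ 2 ∧
      |(∫ x, Φ' x ^ 2) - (∫ x, Φ x ^ 2) + 2 * t * ∫ x, Φ x * Ω x * φ x| ≤
        t ^ 2 * (3 * M ^ 2 * ∫ x, (Φ x ^ 2 + Ω x ^ 2)) := by
  have dl : ∀ s : ℝ, HasDerivAt (fun s : ℝ => t * s) t s := fun s => by
    simpa using (hasDerivAt_id s).const_mul t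
  have dc : ∀ s, HasDerivAt (fun s => Real.cos (t * s)) (-Real.sin (t * s) * t) s :=
    fun s => (dl s).cos
  have ds : ∀ s, HasDerivAt (fun s => Real.sin (t * s)) (Real.cos (t * s) * t) s :=
    fun s => (dl s).sin
  have cc : Continuous fun s => -Real.sin (t * s) * t := by fun_prop
  have cs : Continuous fun s => Real.cos (t * s) * t := by fun_prop
  have bc : ∀ s, |-Real.sin (t * s) * t| ≤ |t| := fun s => by
    rw [abs_mul, abs_neg]
    exact mul_le_of_le_one_left (abs_nonneg _) (Real.abs_sin_le_one _)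
  have bs : ∀ s, |Real.cos (t * s) * t| ≤ |t| := fun s => by
    rw [abs_mul]
    exact mul_le_of_le_one_left (abs_nonneg _) (Real.abs_cos_le_one _)
  have a1 := (mulG P.h1 (le1 P) hφ hp dc cc (fun _ => Real.abs_cos_le_one _) bc).sub
    (mulG P.h2 (le2 P) hφ hp ds cs (fun _ => Real.abs_sin_le_one _) bs)
  have a2 := (mulG P.h1 (le1 P) hφ hp ds cs (fun _ => Real.abs_sin_le_one _) bs).add
    (mulG P.h2 (le2 P) hφ hp dc cc (fun _ => Real.abs_cos_le_one _) bc)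
  have i1 := P.h1.l2.integrable_sq
  have i2 := P.h2.l2.integrable_sq
  refine ⟨_, _, _, _, ⟨a1, a2, ?_, ?_, ?_⟩, ?_, ?_⟩
  · filter_upwards [od, P.ev, P.od] with x h1 h2 h3
    rw [h1, h2, h3, mul_neg, Real.cos_neg, Real.sin_neg]
    ring
  · filter_upwards [od, P.ev, P.od] with x h1 h2 h3
    rw [h1, h2, h3, mul_neg, Real.cos_neg, Real.sin_neg]
    ring
  · filter_upwards [P.sum] with x hx
    linear_combination (Φ x ^ 2 + Ω x ^ 2) * Real.sin_sq_add_cos_sq (t * φ x) + hx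
  · have j1 := P.h1.l2g.norm.integrable_sq
    have j2 := P.h2.l2g.norm.integrable_sq
    have j3 := (intW P hφ hp).const_mul (2 * t)
    have j4 := hp.norm.integrable_sq.const_mul (t ^ 2)
    have j12 : Integrable fun x => ‖gΦ x‖ ^ 2 + ‖gΩ x‖ ^ 2 := j1.add j2
    have j123 : Integrable fun x => ‖gΦ x‖ ^ 2 + ‖gΩ x‖ ^ 2 +
      2 * t * ⟪Φ x • gΩ x - Ω x • gΦ x, p x⟫ := j12.add j3
    unfold JJ
    rw [← integral_add a1.l2g.norm.integrable_sq a2.l2g.norm.integrable_sq, ← integral_add j1 j2,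
      ← integral_const_mul, ← integral_const_mul, ← integral_add j12 j3, ← integral_add j123 j4]
    refine integral_congr_ae ?_
    filter_upwards [P.sum] with x hx
    exact grad_pt (Real.sin_sq_add_cos_sq _) hx _ _ _
  · have j1 := a1.l2.integrable_sq
    have j3 := (intM P hφ hM).const_mul (2 * t)
    have j2 : Integrable fun x => (Real.cos (t * φ x) * Φ x - Real.sin (t * φ x) * Ω x) ^ 2 -
      Φ x ^ 2 := j1.sub i1
    rw [← integral_sub j1 i1, ← integral_const_mul, ← integral_add j2 j3, ← integral_const_mul,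
      ← integral_const_mul, ← Real.norm_eq_abs]
    refine norm_integral_le_of_norm_le (((i1.add i2).const_mul _).const_mul _) ?_
    filter_upwards [hM] with x hx
    have h1 := mass_pt (t * φ x) (Φ x) (Ω x)
    have h2 : φ x ^ 2 ≤ M ^ 2 := sq_le_sq' (abs_le.1 hx).1 (abs_le.1 hx).2
    have h3 : 0 ≤ Φ x ^ 2 + Ω x ^ 2 := by positivity
    have h4 := mul_le_mul_of_nonneg_right (mul_le_mul_of_nonneg_left h2 (sq_nonneg t)) h3
    have e : 2 * t * (Φ x * Ω x * φ x) = 2 * (t * φ x) * (Φ x * Ω x) := by ring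
    rw [Real.norm_eq_abs, e]
    nlinarith

theorem el_odd {δ0 : ℝ} (m : MP δ0 N) (hφ : LD univ φ p) {M : ℝ} (hM : ∀ᵐ x : E3, |φ x| ≤ M)
    (hp : MemLp (fun x => N x • p x) 2 volume) (od : ∀ᵐ x : E3, φ (sg x) = -φ x) :
    ∫ x, ⟪m.Φ x • m.gΩ x - m.Ω x • m.gΦ x, p x⟫ = 2 * δ0 * ∫ x, m.Φ x * m.Ω x * φ x := by
  have h := lin_zero
    (a := 2 * (2 * δ0 * (∫ x, m.Φ x * m.Ω x * φ x) - ∫ x, ⟪m.Φ x • m.gΩ x - m.Ω x • m.gΦ x, p x⟫))
    (C := (∫ x, ‖N x • p x‖ ^ 2) + |2 * δ0| * (3 * M ^ 2 * ∫ x, (m.Φ x ^ 2 + m.Ω x ^ 2)))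
    fun t => by
      obtain ⟨Φ', Ω', p', q', P', h1, h2⟩ := rot m.pair hφ hM hp od t
      have h3 := m.min _ _ _ _ P'
      rw [m.m1] at h2
      have h4 := mul_le_mul_of_nonneg_left h2 (abs_nonneg (2 * δ0))
      rw [← abs_mul] at h4
      have h5 := (le_abs_self _).trans h4
      rw [h1] at h3
      nlinarith
  linarith

theorem avg {f g : E3 → ℝ} (hf : Integrable f) (h : ∀ᵐ x : E3, g x = 1 / 2 * (f x + f (sg x))) :
    ∫ x, g x = ∫ x, f x := by
  have h1 : Integrable fun x => f (sg x) := mp_sg.integrable_comp_of_integrable hf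
  rw [integral_congr_ae h, integral_const_mul, integral_add hf h1, integral_sg f]
  ring

end ThEL

open ThEL in
theorem th_el {δ0 : ℝ} {N : E3 → ℝ} (m : MP δ0 N) (ev : ∀ x, N (sg x) = N x) : m.EL := by
  rintro φ p hφ ⟨M, hM⟩ hp
  have hr : LD univ (fun x => φ (sg x)) (fun x => sg (p (sg x))) := hφ.refl
  have ho := (hφ.sub hr).cmul (1 / 2)
  have hp' : MemLp (fun x => N x • sg (p (sg x))) 2 volume := by
    have := ctst_memLp_sg' (ctst_memLp_sg hp)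
    simpa only [sg_smul, ev] using this
  have hp2 : MemLp (fun x => N x • ((1 / 2 : ℝ) • (p x - sg (p (sg x))))) 2 volume := by
    refine ((hp.sub hp').const_smul (1 / 2 : ℝ)).ae_eq (Eventually.of_forall fun x => ?_)
    simp only [Pi.smul_apply, Pi.sub_apply]
    rw [← smul_sub, smul_comm]
  have hM2 : ∀ᵐ x : E3, |1 / 2 * (φ x - φ (sg x))| ≤ M := by
    filter_upwards [hM, ae_sg hM] with x h1 h2
    have h3 := abs_le.1 h1
    have h4 := abs_le.1 h2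
    exact abs_le.2 ⟨by linarith [h3.1, h4.2], by linarith [h3.2, h4.1]⟩
  have h := el_odd m ho hM2 hp2 (Eventually.of_forall fun x => by rw [sg_sg]; ring)
  have g1 := m.pair.h1.ld.sym_grad isOpen_univ (fun _ _ => mem_univ _) (s := 1)
    (m.pair.ev.mono fun x hx _ => by rw [hx, one_mul])
  have g2 := m.pair.h2.ld.sym_grad isOpen_univ (fun _ _ => mem_univ _) (s := -1)
    (m.pair.od.mono fun x hx _ => by rw [hx, neg_one_mul])
  rw [avg (intW m.pair hφ hp),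
    avg (g := fun x => m.Φ x * m.Ω x * (1 / 2 * (φ x - φ (sg x)))) (intM m.pair hφ hM)] at h
  · exact h
  · filter_upwards [m.pair.ev, m.pair.od] with x h1 h2
    rw [h1, h2]
    ring
  · filter_upwards [m.pair.ev, m.pair.od, g1, g2] with x h1 h2 h3 h4
    rw [← inner_sg (m.Φ (sg x) • _ - _), sg_sub, sg_smul, sg_smul, h3 (mem_univ _),
      h4 (mem_univ _), h1, h2]
    simp only [inner_sub_left, inner_sub_right, real_inner_smul_left, real_inner_smul_right]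
    ring

end

end Vale.Agent.P363
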