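import Vale.Agent.P363.ThDir

/-! P363, block Th: the estimate in the far region. -/

open MeasureTheory Set Metric Filter Topology
open scoped RealInnerProductSpace

namespace Vale.Agent.P363

noncomputable section

theorem thfar_real {A η T n r r1 u v s1 s2 : ℝ} (hA : 0 ≤ A) (h0 : 0 ≤ η) (h1 : η ≤ 1)
    (hr1 : 100 ≤ r1) (hr : r1 ≤ r) (hu : |u| ≤ r * n) (hv : |v| ≤ 2)
    (l1 : -(206 / 100) ≤ s1) (l2 : s1 ≤ -(194 / 100)) (l3 : -(2 / 100) ≤ s2) :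
    η * A * T ^ 2 ≤ (A * (s1 / r * (η * (2 * T * u) + T ^ 2 * v)) +
      A * (s2 + s1 ^ 2 + 2 * s1 / r) * (η * T ^ 2)) + 5 * A * (n ^ 2 + T ^ 2 / r1) := by
  have hr0 : 0 < r := by linarith
  have hr10 : 0 < r1 := by linarith
  obtain ⟨w, hw⟩ : ∃ w, w = u / r := ⟨_, rfl⟩
  obtain ⟨i, hi⟩ : ∃ i, i = r⁻¹ := ⟨_, rfl⟩
  obtain ⟨j, hj⟩ : ∃ j, j = r1⁻¹ := ⟨_, rfl⟩
  have hi0 : 0 < i := hi ▸ inv_pos.mpr hr0
  have hij : i ≤ j := by rw [hi, hj]; exact inv_anti₀ hr10 hr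
  have hj1 : j ≤ 1 / 100 := by
    rw [hj, one_div]; exact inv_anti₀ (by norm_num) hr1
  have hwn : |w| ≤ n := by
    rw [hw, abs_div, abs_of_pos hr0, div_le_iff₀ hr0]; linarith
  have hw2 : w ^ 2 ≤ n ^ 2 := by
    rw [← sq_abs w]; exact pow_le_pow_left₀ (abs_nonneg _) hwn 2
  have e1 : s1 / r * (η * (2 * T * u) + T ^ 2 * v) =
      η * (2 * T * (s1 * w)) + T ^ 2 * (s1 * v * i) := by
    rw [hw, hi]; field_simp
  have e2 : 2 * s1 / r = 2 * s1 * i := by rw [hi]; field_simp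
  have e3 : T ^ 2 / r1 = T ^ 2 * j := by rw [hj]; field_simp
  rw [e1, e2, e3]
  have hT := sq_nonneg T
  have b1 : -(T ^ 2 + 5 * n ^ 2) ≤ 2 * T * (s1 * w) := by
    have h5 : s1 ^ 2 ≤ 5 := by nlinarith
    have h6 : s1 ^ 2 * w ^ 2 ≤ 5 * n ^ 2 := mul_le_mul h5 hw2 (sq_nonneg _) (by norm_num)
    nlinarith [sq_nonneg (T + s1 * w)]
  have b2 : -(5 * j) ≤ s1 * v * i := by
    have h5 : -5 ≤ s1 * v := by
      obtain ⟨a, b⟩ := abs_le.mp hv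
      nlinarith
    nlinarith
  have b3 : 2 ≤ s2 + s1 ^ 2 + 2 * s1 * i := by nlinarith
  have c1 : -(η * T ^ 2 + 5 * n ^ 2) ≤ η * (2 * T * (s1 * w)) := by
    have := mul_le_mul_of_nonneg_left b1 h0
    nlinarith [sq_nonneg n]
  have c2 : -(5 * (T ^ 2 * j)) ≤ T ^ 2 * (s1 * v * i) := by
    have := mul_le_mul_of_nonneg_left b2 hT
    linarith
  have c3 : 2 * (η * T ^ 2) ≤ (s2 + s1 ^ 2 + 2 * s1 * i) * (η * T ^ 2) :=
    mul_le_mul_of_nonneg_right b3 (mul_nonneg h0 hT)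
  have c4 : η * T ^ 2 ≤ η * (2 * T * (s1 * w)) + T ^ 2 * (s1 * v * i) +
      (s2 + s1 ^ 2 + 2 * s1 * i) * (η * T ^ 2) + 5 * (n ^ 2 + T ^ 2 * j) := by linarith
  have := mul_le_mul_of_nonneg_left c4 hA
  linarith

theorem thfar_sqrt {I : ℝ} (hI : |I - 1 / 2| ≤ 1 / 100) :
    98 / 100 ≤ √(2 * I) ∧ √(2 * I) ≤ 102 / 100 := by
  obtain ⟨a, b⟩ := abs_le.mp hI
  constructor
  · exact Real.le_sqrt_of_sq_le (by linarith)
  · exact Real.sqrt_le_iff.mpr ⟨by norm_num, by linarith⟩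

theorem thfar_slab : MeasurableSet {x : E3 | |x 2| ≤ 1 / 8} :=
  (isClosed_le (csg_cont_coord 2).abs continuous_const).measurableSet

theorem thfar_pt {c C k aa η T n r1 F E : ℝ} (hc : 0 < c) (hk : k = 5 * C ^ 2 / c ^ 2)
    (ha : 0 < aa) (hr1 : 0 < r1) (lo : c * aa ≤ F)
    (main : η * aa ^ 2 * T ^ 2 ≤ E + 5 * aa ^ 2 * (n ^ 2 + T ^ 2 / r1)) :
    C ^ 2 * (η * aa ^ 2 * T ^ 2) ≤ C ^ 2 * E + (k + 1) * (F ^ 2 * n ^ 2 + F ^ 2 * T ^ 2 / r1) := by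
  have hk0 : 0 ≤ k := by rw [hk]; positivity
  have q2 : 5 * C ^ 2 * aa ^ 2 ≤ k * F ^ 2 := by
    have h2 : c ^ 2 * aa ^ 2 ≤ F ^ 2 := by
      rw [← mul_pow]; exact pow_le_pow_left₀ (by positivity) lo 2
    have h3 : 5 * C ^ 2 * aa ^ 2 = k * (c ^ 2 * aa ^ 2) := by rw [hk]; field_simp
    rw [h3]; exact mul_le_mul_of_nonneg_left h2 hk0
  have q4 := mul_le_mul_of_nonneg_left main (sq_nonneg C)
  have n2 : 0 ≤ n ^ 2 + T ^ 2 / r1 := by positivity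
  have q5 := mul_le_mul_of_nonneg_right q2 n2
  have q6 : F ^ 2 * n ^ 2 + F ^ 2 * T ^ 2 / r1 = F ^ 2 * (n ^ 2 + T ^ 2 / r1) := by ring
  have n1 := mul_nonneg (sq_nonneg F) n2
  rw [q6]
  generalize n ^ 2 + T ^ 2 / r1 = u at *
  linarith

theorem thfar_weak {r1 I : ℝ} {φ φ1 φ2 : ℝ → ℝ} (hr1 : 100 ≤ r1) (ht : Tame r1 I φ φ1 φ2)
    {T η : E3 → ℝ} {p q : E3 → E3} (hT : Tst (Ext r1) T p) (hη : LD univ η q)
    (hq : ∀ x, 0 ≤ η x ∧ η x ≤ 1 ∧ ‖q x‖ ≤ 8) : ∃ E : E3 → ℝ, Integrable E ∧ ∫ x, E x = 0 ∧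
      ∀ x, E x = Real.exp (φ ‖x‖) ^ 2 * (2 * φ1 ‖x‖ / ‖x‖ *
        (η x * (2 * T x * ⟪x, p x⟫) + T x ^ 2 * ⟪x, q x⟫)) + Real.exp (φ ‖x‖) ^ 2 *
        (2 * φ2 ‖x‖ + (2 * φ1 ‖x‖) ^ 2 + 2 * (2 * φ1 ‖x‖) / ‖x‖) * (η x * T x ^ 2) := by
  obtain ⟨K, hK, hKU, h0⟩ := hT.cpt
  have hr0 : 0 < r1 := by linarith
  have hB := C2.zrad (h := fun _ => 1) (h1 := fun _ => 0) (h2 := fun _ => 0)
    (ψ := fun s => 2 * φ s) (ψ1 := fun s => 2 * φ1 s) (ψ2 := fun s => 2 * φ2 s) (a := r1) hr0.le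
    (fun s => ⟨hasDerivAt_const s 1, hasDerivAt_const s 0⟩) continuous_const
    (fun s hs => ⟨(ht.d s (by linarith)).1.const_mul 2, (ht.d s (by linarith)).2.const_mul 2⟩)
    (continuousOn_const.mul (ht.c.mono fun s hs => by
      have : r1 < s := hs
      show r1 / 2 < s
      linarith))
  have hf := LD.mul isOpen_univ hη (LD.sq isOpen_univ hT.ld)
  have jT := CIntAux.int_sq hT.h1.1
  have jTp := CIntAux.int_fg hT.h1.1
  have j1 : Integrable (fun x => η x * T x ^ 2) := by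
    refine jT.mono' (ctst_mf hf) (ae_of_all _ fun x => ?_)
    obtain ⟨a, b, -⟩ := hq x
    rw [Real.norm_eq_abs, abs_of_nonneg (by positivity)]
    nlinarith [sq_nonneg (T x)]
  have j2 : Integrable (fun x => η x • (2 * T x) • p x + T x ^ 2 • q x) := by
    refine ((jTp.const_mul 2).add (jT.const_mul 8)).mono' (ctst_mg hf) (ae_of_all _ fun x => ?_)
    obtain ⟨a, b, d⟩ := hq x
    refine (norm_add_le _ _).trans ?_
    simp only [norm_smul, Real.norm_eq_abs, abs_mul, abs_of_nonneg a, abs_two, Pi.add_apply,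
      abs_of_nonneg (sq_nonneg (T x))]
    have e1 : 0 ≤ |T x| * ‖p x‖ := by positivity
    nlinarith [sq_nonneg (T x)]
  obtain ⟨w1, w2, w3⟩ := C2.weak hB hf j1 j2 hK hKU (fun x hx => by simp [h0 x hx])
  refine ⟨_, w1.add w2, w3, fun x => ?_⟩
  have eA : Real.exp (2 * φ ‖x‖) = Real.exp (φ ‖x‖) ^ 2 := by
    rw [sq, ← Real.exp_add, two_mul]
  simp only [Pi.add_apply, eA, zero_smul, zero_add, one_mul, mul_zero, zero_mul, zero_div,
    inner_add_right, real_inner_smul_left, real_inner_smul_right]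
  ring

theorem slab_hardy {c C : ℝ} (hc : 0 < c) (hC : 0 < C) : ∃ K : ℝ, 1 ≤ K ∧ ∀ (r1 I : ℝ)
    (φ φ1 φ2 : ℝ → ℝ) (Φ : E3 → ℝ), 100 ≤ r1 → |I - 1 / 2| ≤ 1 / 100 → Tame r1 I φ φ1 φ2 →
    AEStronglyMeasurable Φ volume →
    (∀ᵐ x : E3, x ∈ Ext r1 → |x 2| < 1 / 4 →
      c * Real.exp (φ ‖x‖) ≤ Φ x ∧ Φ x ≤ C * Real.exp (φ ‖x‖)) →
    ∀ T p, Tst (Ext r1) T p → Integrable (fun x => Φ x ^ 2 * T x ^ 2) →
      Integrable (fun x => Φ x ^ 2 * ‖p x‖ ^ 2) →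
      ∫ x in {x : E3 | |x 2| ≤ 1 / 8}, Φ x ^ 2 * T x ^ 2 ≤
        K * ((∫ x, Φ x ^ 2 * ‖p x‖ ^ 2) + (∫ x, Φ x ^ 2 * T x ^ 2) / r1) := by
  obtain ⟨k, hk⟩ : ∃ k, k = 5 * C ^ 2 / c ^ 2 := ⟨_, rfl⟩
  have hk0 : 0 ≤ k := by rw [hk]; positivity
  refine ⟨k + 1, by linarith, ?_⟩
  intro r1 I φ φ1 φ2 Φ hr1 hI ht _ hΦ T p hT i1 i2
  obtain ⟨η, q, hη, -, -, hq⟩ := exists_zcut (a := 1 / 8) (b := 1 / 4) (by norm_num) (by norm_num)
  obtain ⟨E, w1, w3, hE⟩ := thfar_weak hr1 ht hT hη fun x => ⟨(hq x).1, (hq x).2.1, by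
    linarith [(hq x).2.2.1, show (1 : ℝ) / (1 / 4 - 1 / 8) = 8 by norm_num]⟩
  obtain ⟨K, hK, hKU, h0⟩ := hT.cpt
  obtain ⟨s1, s2⟩ := thfar_sqrt hI
  have hr0 : 0 < r1 := by linarith
  have w4 := w1.const_mul (C ^ 2)
  have w5 : Integrable (fun x => (k + 1) * (Φ x ^ 2 * ‖p x‖ ^ 2 + Φ x ^ 2 * T x ^ 2 / r1)) :=
    (i2.add (i1.div_const r1)).const_mul (k + 1)
  have key : ∫ x, indicator {x : E3 | |x 2| ≤ 1 / 8} (fun x => Φ x ^ 2 * T x ^ 2) x ≤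
      ∫ x, (C ^ 2 * E x + (k + 1) * (Φ x ^ 2 * ‖p x‖ ^ 2 + Φ x ^ 2 * T x ^ 2 / r1)) := by
    refine integral_mono_ae (i1.indicator thfar_slab) (w4.add w5) ?_
    filter_upwards [hΦ] with x hx
    have n1 : 0 ≤ Φ x ^ 2 * ‖p x‖ ^ 2 + Φ x ^ 2 * T x ^ 2 / r1 := by positivity
    rw [hE x]
    by_cases hxK : x ∈ K
    swap
    · simp [h0 x hxK, indicator]
    obtain ⟨a, b, -, d1, d2, -, d3⟩ := hq x
    by_cases hz : |x 2| < 1 / 4
    swap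
    · have hz' := not_lt.mp hz
      rw [indicator_of_notMem (by simp only [mem_ofPred_eq]; linarith)]
      simp only [(d2 hz').1, (d2 hz').2, add_zero, inner_zero_right, zero_mul, mul_zero, zero_add]
      positivity
    have hr : r1 < ‖x‖ := hKU hxK
    obtain ⟨t1, t2⟩ := ht.t _ hr.le
    obtain ⟨t3, t4⟩ := abs_le.mp t1
    obtain ⟨t5, -⟩ := abs_le.mp t2
    obtain ⟨lo, up⟩ := hx hr hz
    have ha := Real.exp_pos (φ ‖x‖)
    generalize Real.exp (φ ‖x‖) = aa at lo up ha ⊢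
    have main := thfar_real (A := aa ^ 2) (η := η x) (T := T x) (n := ‖p x‖) (r := ‖x‖) (r1 := r1)
      (u := ⟪x, p x⟫) (v := ⟪x, q x⟫) (s1 := 2 * φ1 ‖x‖) (s2 := 2 * φ2 ‖x‖) (sq_nonneg _) a b hr1
      hr.le (abs_real_inner_le_norm _ _)
      (by rw [real_inner_comm]; linarith [show (1 : ℝ) / 4 / (1 / 4 - 1 / 8) = 2 by norm_num])
      (by linarith) (by linarith) (by linarith)
    refine le_trans ?_ (thfar_pt hc hk ha hr0 lo main)
    have p0 : 0 ≤ Φ x := le_trans (by positivity) lo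
    have q1 : Φ x ^ 2 ≤ C ^ 2 * aa ^ 2 := by
      rw [← mul_pow]; exact pow_le_pow_left₀ p0 up 2
    by_cases h8 : |x 2| ≤ 1 / 8
    · rw [indicator_of_mem (by simpa only [mem_ofPred_eq] using h8), (d1 h8).1]
      have := mul_le_mul_of_nonneg_right q1 (sq_nonneg (T x))
      linarith
    · rw [indicator_of_notMem (by simpa only [mem_ofPred_eq] using h8)]
      positivity
  rw [integral_indicator thfar_slab, integral_add w4 w5, integral_const_mul,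
    integral_const_mul, integral_add i2 (i1.div_const r1), integral_div, w3] at key
  linarith

theorem thfar_int {L I δ0 r1 : ℝ} {N : E3 → ℝ} {gN : E3 → E3} (t : TH L I δ0 N gN)
    (hD : Ext r1 ⊆ D L) {T : E3 → ℝ} {p : E3 → E3} (hT : Tst (Ext r1) T p) :
    Integrable (fun x => t.Φ x ^ 2 * T x ^ 2) ∧ Integrable (fun x => t.Φ x ^ 2 * ‖p x‖ ^ 2) := by
  obtain ⟨K, hK, hKU, h0⟩ := hT.cpt
  obtain ⟨M, hM⟩ := hT.bd
  obtain ⟨B, hB⟩ := t.n0.lb K hK (hKU.trans hD)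
  have mΦ := ctst_mf t.pair.h1.ld
  constructor
  · refine ((CIntAux.int_sq t.pair.h1).mul_const (M ^ 2)).mono'
      ((mΦ.pow 2).mul ((ctst_mf hT.ld).pow 2)) ?_
    filter_upwards [hM] with x hx
    rw [Real.norm_eq_abs, abs_of_nonneg (by positivity), ← sq_abs (T x)]
    exact mul_le_mul_of_nonneg_left (pow_le_pow_left₀ (abs_nonneg _) hx 2) (sq_nonneg _)
  · refine ((CIntAux.int_gsq hT.h1.1).const_mul (B ^ 2)).mono'
      ((mΦ.pow 2).mul ((ctst_mg hT.ld).norm.pow 2)) ?_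
    filter_upwards [hB, t.pair.sum] with x hx hs
    rw [Real.norm_eq_abs, abs_of_nonneg (by positivity)]
    by_cases hxK : x ∈ K
    · have h1 : N x ^ 2 ≤ B ^ 2 := by
        rw [← sq_abs (N x)]; exact pow_le_pow_left₀ (abs_nonneg _) (hx hxK) 2
      exact mul_le_mul_of_nonneg_right (by linarith [sq_nonneg (t.Ω x)]) (sq_nonneg _)
    · simp [h0 x hxK]

theorem thfar_V {L I r1 : ℝ} (hL : 0 ≤ L) (hr : L + 10 ≤ r1) (hI : |I - 1 / 2| ≤ 1 / 100)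
    {x : E3} (hx : x ∈ Ext r1) : 1 / 5 ≤ V L x + I := by
  have h : r1 < ‖x‖ := hx
  obtain ⟨a, b⟩ := abs_rA_sub hL x
  have a1 : 10 ≤ rA L x := by linarith [(abs_le.mp a).1]
  have b1 : 10 ≤ rB L x := by linarith [(abs_le.mp b).1]
  have a2 := inv_anti₀ (by norm_num) a1
  have b2 := inv_anti₀ (by norm_num) b1
  have := (abs_le.mp hI).1
  unfold V
  linarith

theorem thfar_dir {L I δ0 r1 : ℝ} {N : E3 → ℝ} {gN : E3 → E3} (t : TH L I δ0 N gN)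
    (hδ : 0 ≤ δ0) (hL : 0 ≤ L) (hr : L + 10 ≤ r1) (hI : |I - 1 / 2| ≤ 1 / 100)
    {s : E3 → ℝ} {p : E3 → E3} (hs : Tst (D L ∩ Hp) s p) (h0 : ∀ x, x ∉ Ext r1 → s x = 0)
    (i1 : Integrable (fun x => t.Φ x ^ 2 * s x ^ 2)) :
    Integrable (fun x => t.Φ x ^ 2 * ‖p x‖ ^ 2) ∧
      ∫ x, t.Φ x ^ 2 * s x ^ 2 ≤ 5 * ∫ x, t.Φ x ^ 2 * ‖p x‖ ^ 2 := by
  obtain ⟨h, gh, hh, h1, h2, h3⟩ := th_dir t hδ hs
  refine ⟨h2, ?_⟩
  obtain ⟨-, j1, j2⟩ := q1_int hh hh L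
  have j3 : Integrable (fun x => (V L x + I) * h x ^ 2) :=
    (j1.add (j2.const_mul I)).congr (ae_of_all _ fun x => by simp only [Pi.add_apply]; ring)
  have k1 : ∫ x, t.Φ x ^ 2 * s x ^ 2 ≤ ∫ x, 10 * ((V L x + I) * h x ^ 2) := by
    refine integral_mono_ae i1 (j3.const_mul 10) ?_
    filter_upwards [h1] with x hx
    by_cases hE : x ∈ Ext r1
    · have := mul_le_mul_of_nonneg_right (thfar_V hL hr hI hE) (sq_nonneg (h x))
      linarith [hx.1]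
    · have e : h x ^ 2 = 0 := le_antisymm (by simpa [h0 x hE] using hx.2) (sq_nonneg _)
      simp [h0 x hE, e]
  have k2 : 0 ≤ ∫ x, ‖gh x‖ ^ 2 := integral_nonneg fun x => sq_nonneg _
  rw [integral_const_mul] at k1
  linarith

theorem thfar_up {L I δ0 r1 : ℝ} {N : E3 → ℝ} {gN : E3 → E3} (t : TH L I δ0 N gN)
    (hδ : 0 ≤ δ0) (hL : 0 ≤ L) (hr : L + 10 ≤ r1) (hI : |I - 1 / 2| ≤ 1 / 100)
    {T : E3 → ℝ} {p : E3 → E3} (hT : Tst (Ext r1) T p) :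
    ∫ x in Hp, t.Φ x ^ 2 * T x ^ 2 ≤ 10 * (∫ x, t.Φ x ^ 2 * ‖p x‖ ^ 2) +
      2561 * ∫ x in {x : E3 | |x 2| ≤ 1 / 8}, t.Φ x ^ 2 * T x ^ 2 := by
  obtain ⟨i1, i2⟩ := thfar_int t (Ext_subset_D hL (by linarith)) hT
  obtain ⟨η, q, hη, -, -, hq⟩ := exists_zcut (a := 1 / 16) (b := 1 / 8) (by norm_num) (by norm_num)
  have e16 : (1 : ℝ) / (1 / 8 - 1 / 16) = 16 := by norm_num
  obtain ⟨K, hK, hKU, h0⟩ := hT.cpt
  obtain ⟨M, hM⟩ := hT.bd
  have hm : ∀ x, |1 - η x| ≤ 1 := fun x => by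
    rw [abs_le]; constructor <;> linarith [(hq x).1, (hq x).2.1]
  have h1 := H1.mul_lip hT.h1.1 (LD.sub (LD.const univ 1) hη) (M := 16) (ae_of_all _ fun x =>
    ⟨(hm x).trans (by norm_num), by rw [zero_sub, norm_neg, ← e16]; exact (hq x).2.2.1⟩)
  obtain ⟨K', hK'⟩ : ∃ K', K' = K ∩ {x : E3 | 1 / 16 ≤ x 2} := ⟨_, rfl⟩
  have mK : ∀ x, x ∈ K' ↔ x ∈ K ∧ 1 / 16 ≤ x 2 := fun x => by rw [hK']; rfl
  have cK : IsCompact K' := hK' ▸ hK.inter_right (isClosed_le continuous_const (csg_cont_coord 2))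
  have hs := Tst.mk' ((isOpen_D L).inter isOpen_Hp) cK (fun x hx => ⟨Ext_subset_D hL
      (by linarith) (hKU ((mK x).mp hx).1), lt_of_lt_of_le (by norm_num) ((mK x).mp hx).2⟩)
    (h1.l1 _) (fun _ _ _ => ⟨M, hM.mono fun x hx _ => by
      rw [abs_mul]; nlinarith [hm x, abs_nonneg (T x), abs_nonneg (1 - η x)]⟩)
    (ae_of_all _ fun x hx hx' => by
      by_cases hxK : x ∈ K
      · have a : 0 < x 2 := hx.2
        have b : x 2 < 1 / 16 := not_le.mp fun h => hx' ((mK x).mpr ⟨hxK, h⟩)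
        rw [((hq x).2.2.2.1 (by rw [abs_of_pos a]; exact b.le)).1]; simp
      · simp [h0 x hxK])
  have i3 : Integrable (fun x => t.Φ x ^ 2 * K'.indicator (fun x => (1 - η x) * T x) x ^ 2) := by
    refine i1.mono' (((ctst_mf t.pair.h1.ld).pow 2).mul ((ctst_mf hs.ld).pow 2))
      (ae_of_all _ fun x => ?_)
    rw [Real.norm_eq_abs, abs_of_nonneg (by positivity)]
    refine mul_le_mul_of_nonneg_left ?_ (sq_nonneg _)
    by_cases hx : x ∈ K'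
    · rw [indicator_of_mem hx, mul_pow]
      have : (1 - η x) ^ 2 ≤ 1 := by nlinarith [(hq x).1, (hq x).2.1]
      nlinarith [sq_nonneg (T x)]
    · rw [indicator_of_notMem hx]; simpa using sq_nonneg (T x)
  obtain ⟨i4, k1⟩ := thfar_dir t hδ hL hr hI hs
    (fun x hx => indicator_of_notMem (fun h => hx (hKU ((mK x).mp h).1)) _) i3
  have i5 := i1.indicator thfar_slab
  have k2 := integral_mono_ae i4 ((i2.const_mul 2).add (i5.const_mul 512)) (ae_of_all _ fun x => by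
    simp only [Pi.add_apply]
    have n1 : 0 ≤ indicator {x : E3 | |x 2| ≤ 1 / 8} (fun x => t.Φ x ^ 2 * T x ^ 2) x :=
      indicator_nonneg (fun x _ => by positivity) _
    by_cases hx : x ∈ K'
    swap
    · rw [indicator_of_notMem hx, norm_zero]
      have : 0 ≤ t.Φ x ^ 2 * ‖p x‖ ^ 2 := by positivity
      linarith
    rw [indicator_of_mem hx]
    have a1 : ‖(1 - η x) • p x + T x • (0 - q x)‖ ≤ ‖p x‖ + |T x| * ‖q x‖ := by
      refine (norm_add_le _ _).trans ?_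
      rw [norm_smul, norm_smul, zero_sub, norm_neg, Real.norm_eq_abs, Real.norm_eq_abs]
      nlinarith [hm x, norm_nonneg (p x)]
    have a2 := pow_le_pow_left₀ (norm_nonneg _) a1 2
    have a3 : (‖p x‖ + |T x| * ‖q x‖) ^ 2 ≤ 2 * ‖p x‖ ^ 2 + 2 * (T x ^ 2 * ‖q x‖ ^ 2) := by
      rw [← sq_abs (T x)]; nlinarith [sq_nonneg (‖p x‖ - |T x| * ‖q x‖)]
    have a4 := mul_le_mul_of_nonneg_left (a2.trans a3) (sq_nonneg (t.Φ x))
    by_cases h8 : |x 2| ≤ 1 / 8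
    · rw [indicator_of_mem (by simpa only [mem_ofPred_eq] using h8)]
      have a5 : ‖q x‖ ^ 2 ≤ 16 ^ 2 :=
        pow_le_pow_left₀ (norm_nonneg _) (e16 ▸ (hq x).2.2.1) 2
      have a6 := mul_le_mul_of_nonneg_left a5 (mul_nonneg (sq_nonneg (t.Φ x)) (sq_nonneg (T x)))
      linarith
    · rw [((hq x).2.2.2.2.1 (not_le.mp h8).le).2] at a4 ⊢
      simp only [norm_zero] at a4
      linarith)
  have k3 := integral_mono_ae (i1.indicator isOpen_Hp.measurableSet) (i3.add i5)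
    (ae_of_all _ fun x => by
    simp only [Pi.add_apply]
    have n1 : 0 ≤ indicator {x : E3 | |x 2| ≤ 1 / 8} (fun x => t.Φ x ^ 2 * T x ^ 2) x :=
      indicator_nonneg (fun x _ => by positivity) _
    have n2 : 0 ≤ t.Φ x ^ 2 * K'.indicator (fun x => (1 - η x) * T x) x ^ 2 := by positivity
    by_cases hx : x ∈ Hp
    swap
    · rw [indicator_of_notMem hx]; linarith
    rw [indicator_of_mem hx]
    by_cases h8 : |x 2| ≤ 1 / 8
    · rw [indicator_of_mem (s := {x : E3 | |x 2| ≤ 1 / 8}) h8]; linarith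
    have a : 0 < x 2 := hx
    have b := not_le.mp h8
    by_cases hxK : x ∈ K
    · rw [indicator_of_mem ((mK x).mpr ⟨hxK, by rw [abs_of_pos a] at b; linarith⟩),
        ((hq x).2.2.2.2.1 b.le).1, sub_zero, one_mul]
      linarith
    · rw [(h0 x hxK).1]; linarith)
  rw [integral_add' (i2.const_mul 2) (i5.const_mul 512), integral_const_mul, integral_const_mul,
    integral_indicator thfar_slab] at k2
  rw [integral_add' i3 i5, integral_indicator thfar_slab,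
    integral_indicator isOpen_Hp.measurableSet] at k3
  linarith

theorem th_far {c C : ℝ} (hc : 0 < c) (hC : 0 < C) : ∃ K : ℝ, 1 ≤ K ∧ ∀ᶠ r1 : ℝ in atTop,
    ∀ (L I δ0 : ℝ) (N : E3 → ℝ) (gN : E3 → E3) (t : TH L I δ0 N gN) (φ φ1 φ2 : ℝ → ℝ),
    0 ≤ L → L + 10 ≤ r1 → |I - 1 / 2| ≤ 1 / 100 → 0 ≤ δ0 → Tame r1 I φ φ1 φ2 →
    (∀ᵐ x : E3, x ∈ Ext r1 → 0 < x 2 → x 2 < 1 / 4 →
      c * Real.exp (φ ‖x‖) ≤ t.Φ x ∧ t.Φ x ≤ C * Real.exp (φ ‖x‖)) → FarB r1 K t.Φ := by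
  obtain ⟨K, hK, hs⟩ := slab_hardy hc hC
  refine ⟨40 + 10244 * K, by linarith, ?_⟩
  filter_upwards [eventually_ge_atTop 100, eventually_ge_atTop (10244 * K)] with r1 h1 h2
  intro L I δ0 N gN t φ φ1 φ2 hL hr hI hδ ht hΦ T p hT hev
  obtain ⟨i1, i2⟩ := thfar_int t (Ext_subset_D hL (by linarith)) hT
  have k1 := hs r1 I φ φ1 φ2 t.Φ h1 hI ht (ctst_mf t.pair.h1.ld) (by
    filter_upwards [hΦ, ae_sg hΦ, t.pair.ev, ae_plane] with x a b d z hx hz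
    obtain ⟨z1, z2⟩ := abs_lt.mp hz
    rcases lt_or_gt_of_ne z with h | h
    · have := b (by show r1 < ‖sg x‖; rw [norm_sg]; exact hx) (by rw [sg_2]; linarith)
        (by rw [sg_2]; linarith)
      rwa [norm_sg, d] at this
    · exact a hx h z2) T p hT i1 i2
  have k2 := thfar_up t hδ hL hr hI hT
  have k3 := integral_even i1 (by
    filter_upwards [t.pair.ev, hev] with x a b
    rw [a, b])
  have n1 : 0 ≤ ∫ x, t.Φ x ^ 2 * ‖p x‖ ^ 2 := integral_nonneg fun x => by positivity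
  have n2 : 0 ≤ ∫ x, t.Φ x ^ 2 * T x ^ 2 := integral_nonneg fun x => by positivity
  generalize ∫ x, t.Φ x ^ 2 * ‖p x‖ ^ 2 = P at *
  generalize ∫ x, t.Φ x ^ 2 * T x ^ 2 = Q at *
  have k4 : 10244 * K * (Q / r1) ≤ Q := by
    have : 10244 * K * (Q / r1) ≤ r1 * (Q / r1) :=
      mul_le_mul_of_nonneg_right h2 (div_nonneg n2 (by linarith))
    rwa [mul_div_cancel₀ _ (by linarith : r1 ≠ 0)] at this
  linarith

end

end Vale.Agent.P363
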