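import Vale.Agent.P363.ThDir

/-! P363, block Th: the estimate near a nucleus. -/

open MeasureTheory Set Metric Filter Topology
open scoped RealInnerProductSpace

namespace Vale.Agent.P363

noncomputable section

namespace ThHoleAux

theorem small {u : E3 → ℝ} (hu : Integrable u) (c : E3) :
    Tendsto (fun ε : ℝ => ∫ x, {x : E3 | ‖x - c‖ ≤ 2 * ε}.indicator u x) (𝓝[>] 0) (𝓝 0) := by
  have hm : ∀ ε : ℝ, MeasurableSet {x : E3 | ‖x - c‖ ≤ 2 * ε} := fun ε =>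
    measurableSet_le (CIntAux.meas_r c) measurable_const
  have h := tendsto_integral_filter_of_dominated_convergence (μ := (volume : Measure E3))
    (l := 𝓝[>] (0 : ℝ)) (F := fun ε x => {x : E3 | ‖x - c‖ ≤ 2 * ε}.indicator u x)
    (f := fun _ => (0 : ℝ)) (fun x => ‖u x‖)
    (Eventually.of_forall fun ε => hu.1.indicator (hm ε))
    (Eventually.of_forall fun ε => ae_of_all _ fun x => norm_indicator_le_norm_self _ _)
    hu.norm ?_
  · simpa using h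
  · filter_upwards [CIntAux.ae_ne c] with x hx
    have hp : 0 < ‖x - c‖ / 2 := half_pos (lt_of_le_of_ne (norm_nonneg _) hx.symm)
    refine tendsto_const_nhds.congr' ?_
    filter_upwards [nhdsWithin_le_nhds (gt_mem_nhds hp)] with ε hε
    have hε : ε < ‖x - c‖ / 2 := hε
    rw [indicator_of_notMem]
    simp only [mem_setOf_eq, not_le]
    linarith

theorem near {L : ℝ} (hL : 1 ≤ L) {x : E3} (hx : rA L x ≤ 1 / 100) : 0 < x 2 ∧ 1 ≤ rB L x := by
  have h1 := abs_coord_le (x - nA L) 2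
  have h2 : (x - nA L) 2 = x 2 - L := by simp [nA, e_apply]
  rw [h2, abs_le] at h1
  have h3 : ‖x - nA L‖ ≤ 1 / 100 := hx
  have h4 : 0 < x 2 := by linarith [h1.1]
  exact ⟨h4, hL.trans (rA_le_rB (by linarith) h4.le).2⟩

theorem pot {L I : ℝ} (hL : 1 ≤ L) (hI : |I| ≤ 1) {x : E3} (h0 : rA L x ≠ 0)
    (hx : rA L x ≤ 1 / 100) : |V L x + I| ≤ 1 / 50 * (rA L x ^ 2)⁻¹ := by
  have hr : 0 < rA L x := lt_of_le_of_ne (norm_nonneg _) h0.symm
  have hB := (near hL hx).2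
  have h1 : (rB L x)⁻¹ ≤ 1 := inv_le_one_of_one_le₀ hB
  have h2 : 0 ≤ (rB L x)⁻¹ := inv_nonneg.2 (by linarith)
  have h3 : 100 ≤ (rA L x)⁻¹ := by
    rw [le_inv_comm₀ (by norm_num) hr]
    linarith
  rw [abs_le] at hI
  rw [← inv_pow, V, abs_le]
  constructor <;> nlinarith [hI.1, hI.2]

variable {L I δ0 : ℝ} {N : E3 → ℝ} {gN : E3 → E3}

theorem step (t : TH L I δ0 N gN) (hL : 1 ≤ L) (hI : |I| ≤ 1) (hδ : 0 ≤ δ0) {s : E3 → ℝ}
    {p : E3 → E3} (hs : Tst (D L ∩ Hp) s p) (h0 : ∀ x, 1 / 100 < rA L x → s x = 0) :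
    Integrable (fun x => t.Φ x ^ 2 * s x ^ 2 / rA L x ^ 2) ∧
      Integrable (fun x => t.Φ x ^ 2 * ‖p x‖ ^ 2) ∧
      ∫ x, t.Φ x ^ 2 * s x ^ 2 / rA L x ^ 2 ≤ 10 * ∫ x, t.Φ x ^ 2 * ‖p x‖ ^ 2 := by
  obtain ⟨h, gh, hh, hae, ip, hle⟩ := th_dir t hδ hs
  obtain ⟨ih, hardy'⟩ := hardy hh (nA L)
  change Integrable (fun x => h x ^ 2 / rA L x ^ 2) at ih
  change ∫ x, h x ^ 2 / rA L x ^ 2 ≤ _ at hardy'
  have mr : AEStronglyMeasurable (fun x => (rA L x ^ 2)⁻¹) (volume : Measure E3) :=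
    (((continuous_rA L).1.measurable.pow_const 2).inv).aestronglyMeasurable
  have hv : ∀ᵐ x : E3, |(V L x + I) * h x ^ 2| ≤ 1 / 50 * (h x ^ 2 / rA L x ^ 2) := by
    filter_upwards [hae, CIntAux.ae_ne (nA L)] with x hx hn
    rcases le_or_gt (rA L x) (1 / 100) with hr | hr
    · rw [abs_mul, abs_of_nonneg (sq_nonneg (h x))]
      have := mul_le_mul_of_nonneg_right (pot hL hI hn hr) (sq_nonneg (h x))
      rw [div_eq_mul_inv (h x ^ 2)]
      linarith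
    · have e : h x ^ 2 = 0 := by
        have := hx.2
        rw [h0 x hr] at this
        exact le_antisymm (by simpa using this) (sq_nonneg _)
      rw [e]
      simp
  have iv : Integrable (fun x => (V L x + I) * h x ^ 2) :=
    (ih.const_mul (1 / 50)).mono'
      (((measurable_V L).add_const I).aestronglyMeasurable.mul (hh.l2.1.pow 2)) hv
  have a1 : ∫ x, -(1 / 50) * (h x ^ 2 / rA L x ^ 2) ≤ ∫ x, (V L x + I) * h x ^ 2 :=
    integral_mono_ae (ih.const_mul _) iv (hv.mono fun x hx => by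
      have := (abs_le.1 hx).1
      simp only
      linarith)
  rw [integral_const_mul] at a1
  have hb : ∀ᵐ x : E3, t.Φ x ^ 2 * s x ^ 2 / rA L x ^ 2 ≤ 2 * (h x ^ 2 / rA L x ^ 2) := by
    filter_upwards [hae] with x hx
    rw [← mul_div_assoc]
    exact div_le_div_of_nonneg_right (by linarith [hx.1]) (sq_nonneg _)
  have i1 : Integrable (fun x => t.Φ x ^ 2 * s x ^ 2 / rA L x ^ 2) := by
    refine (ih.const_mul 2).mono' ?_ (hb.mono fun x hx => ?_)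
    · simp only [div_eq_mul_inv]
      exact ((t.pair.h1.l2.1.pow 2).mul ((ctst_mf hs.ld).pow 2)).mul mr
    · rwa [Real.norm_eq_abs, abs_of_nonneg (by positivity)]
  refine ⟨i1, ip, ?_⟩
  have a2 := integral_mono_ae i1 (ih.const_mul 2) hb
  rw [integral_const_mul] at a2
  have a3 : 0 ≤ ∫ x, h x ^ 2 / rA L x ^ 2 := integral_nonneg fun x => by positivity
  linarith

/-- The annular cut-off. -/
theorem cut (hL : 1 ≤ L) {ε : ℝ} (hε : 0 < ε) (hε' : ε ≤ 1 / 400) :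
    ∃ (ψ : E3 → ℝ) (q1 q2 : E3 → E3), Tst (D L ∩ Hp) ψ (fun x => q1 x - q2 x) ∧
      ∀ x, 0 ≤ ψ x ∧ ψ x ≤ 1 ∧ ‖q1 x‖ ≤ 200 ∧
      ‖q2 x‖ ^ 2 ≤ 4 / rA L x ^ 2 ∧ (2 * ε < rA L x → q2 x = 0) ∧ (1 / 100 < rA L x → ψ x = 0) ∧
      (2 * ε < rA L x → rA L x ≤ 1 / 200 → ψ x = 1) := by
  obtain ⟨ξ1, q1, t1, -, -, h1⟩ := exists_cut (nA L) (a := 1 / 200) (b := 1 / 100) (by norm_num)
    (by norm_num)
  obtain ⟨ξ2, q2, t2, -, -, h2⟩ := exists_cut (nA L) (a := ε) (b := 2 * ε) hε.le (by linarith)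
  have hb : ∀ x, 0 ≤ ξ1 x - ξ2 x ∧ ξ1 x - ξ2 x ≤ 1 := by
    intro x
    obtain ⟨a1, a2, -, a4, -⟩ := h1 x
    obtain ⟨b1, b2, -, -, b5, -⟩ := h2 x
    refine ⟨?_, by linarith⟩
    rcases le_total ‖x - nA L‖ (1 / 200) with hr | hr
    · rw [(a4 hr).1]; linarith
    · rw [(b5 (by linarith)).1]; linarith
  refine ⟨fun x => ξ1 x - ξ2 x, q1, q2, ⟨t1.ld.sub t2.ld, t1.l2g.sub t2.l2g,
    ⟨1, ae_of_all _ fun x => abs_le.2 ⟨by linarith [(hb x).1], (hb x).2⟩⟩,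
    {x | ε ≤ rA L x ∧ rA L x ≤ 1 / 100}, ?_, fun x hx => ?_, fun x hx => ?_⟩, fun x => ?_⟩
  · refine (isCompact_closedBall (nA L) (1 / 100)).of_isClosed_subset
      ((isClosed_le continuous_const (continuous_rA L).1).inter
        (isClosed_le (continuous_rA L).1 continuous_const)) fun x hx => ?_
    rw [mem_closedBall, dist_eq_norm]
    exact hx.2
  · have := near hL hx.2
    exact ⟨csg_mem_D.2 ⟨hε.trans_le hx.1, by linarith [this.2]⟩, this.1⟩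
  · obtain ⟨-, -, -, a4, a5, -⟩ := h1 x
    obtain ⟨-, -, -, b4, b5, -⟩ := h2 x
    simp only [mem_setOf_eq, not_and_or, not_le] at hx
    rcases hx with hx | hx
    · have hx : ‖x - nA L‖ < ε := hx
      have a := a4 (by linarith)
      have b := b4 hx.le
      simp [a.1, a.2, b.1, b.2]
    · have hx : 1 / 100 < ‖x - nA L‖ := hx
      have a := a5 hx.le
      have b := b5 (by linarith)
      simp [a.1, a.2, b.1, b.2]
  · obtain ⟨-, -, a3, a4, a5, -⟩ := h1 x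
    obtain ⟨-, -, b3, b4, b5, -⟩ := h2 x
    refine ⟨(hb x).1, (hb x).2, a3.trans (by norm_num), ?_, fun hx => (b5 (le_of_lt hx)).2,
      fun hx => ?_, fun hx hx' => ?_⟩
    · change _ ≤ 4 / ‖x - nA L‖ ^ 2
      rcases le_or_gt ‖x - nA L‖ ε with hr | hr
      · rw [(b4 hr).2, norm_zero, zero_pow two_ne_zero]; positivity
      rcases le_total (2 * ε) ‖x - nA L‖ with hr' | hr'
      · rw [(b5 hr').2, norm_zero, zero_pow two_ne_zero]; positivity
      have hp : 0 < ‖x - nA L‖ := hε.trans hr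
      have e : 1 / (2 * ε - ε) ≤ 2 / ‖x - nA L‖ := by
        rw [div_le_div_iff₀ (by linarith) hp]; linarith
      have := pow_le_pow_left₀ (norm_nonneg _) (b3.trans e) 2
      rw [div_pow] at this
      norm_num at this ⊢
      exact this
    · have hx : 1 / 100 < ‖x - nA L‖ := hx
      simp only [(a5 hx.le).1, (b5 (by linarith)).1, sub_zero]
    · simp only [(a4 hx').1, (b5 (le_of_lt hx)).1, sub_zero]

theorem grad (a b : ℝ) (u v w : E3) (hb0 : 0 ≤ b) (hb : b ≤ 1) (hu : ‖u‖ ≤ 200) :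
    ‖a • (u - v) + b • w‖ ^ 2 ≤ 3 * (‖w‖ ^ 2 + 40000 * a ^ 2 + a ^ 2 * ‖v‖ ^ 2) := by
  have h1 : ‖a • (u - v) + b • w‖ ≤ |a| * 200 + |a| * ‖v‖ + ‖w‖ := by
    refine (norm_add_le _ _).trans ?_
    rw [norm_smul, norm_smul, Real.norm_eq_abs, Real.norm_eq_abs, abs_of_nonneg hb0]
    have h2 := mul_le_mul_of_nonneg_left ((norm_sub_le u v).trans (add_le_add_left hu _))
      (abs_nonneg a)
    have h3 := mul_le_mul_of_nonneg_right hb (norm_nonneg w)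
    linarith
  refine (pow_le_pow_left₀ (norm_nonneg _) h1 2).trans ?_
  rw [← sq_abs a]
  nlinarith [sq_nonneg (|a| * 200 - |a| * ‖v‖), sq_nonneg (|a| * 200 - ‖w‖),
    sq_nonneg (|a| * ‖v‖ - ‖w‖)]

theorem eps (t : TH L I δ0 N gN) (hL : 1 ≤ L) (hI : |I| ≤ 1) (hδ : 0 ≤ δ0) {s : E3 → ℝ}
    {p : E3 → E3} (hs : Adm L t.Φ s p) {M : ℝ} (hM : ∀ᵐ x : E3, |s x| ≤ M)
    (i0 : Integrable (fun x => t.Φ x ^ 2 * s x ^ 2 / rA L x ^ 2)) {ε : ℝ} (hε : 0 < ε)
    (hε' : ε ≤ 1 / 400) :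
    ∫ x in {x | rA L x ≤ 1 / 200}, t.Φ x ^ 2 * s x ^ 2 / rA L x ^ 2 ≤
      30 * (∫ x, t.Φ x ^ 2 * ‖p x‖ ^ 2) + 1200000 * (∫ x, t.Φ x ^ 2 * s x ^ 2) +
      121 * M ^ 2 * ∫ x, {x : E3 | ‖x - nA L‖ ≤ 2 * ε}.indicator
        (fun x => t.Φ x ^ 2 / ‖x - nA L‖ ^ 2) x := by
  obtain ⟨ψ, q1, q2, hψ, hq⟩ := cut hL hε hε'
  have ht := hψ.mul ((isOpen_D L).inter isOpen_Hp) (hs.l1.mono inter_subset_left)
    (fun K _ _ => ⟨M, hM.mono fun x hx _ => hx⟩)
  obtain ⟨i1, i2, h1⟩ := step t hL hI hδ ht fun x hx => by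
    show s x * ψ x = 0
    rw [(hq x).2.2.2.2.2.1 hx, mul_zero]
  have iJ := (hardy t.pair.h1 (nA L)).1.indicator
    (measurableSet_le (CIntAux.meas_r (nA L)) (measurable_const (a := 2 * ε)))
  set J := {x : E3 | ‖x - nA L‖ ≤ 2 * ε}.indicator (fun x => t.Φ x ^ 2 / ‖x - nA L‖ ^ 2) with hJ
  have hm : MeasurableSet {x | rA L x ≤ 1 / 200} :=
    measurableSet_le (continuous_rA L).1.measurable measurable_const
  have J0 : ∀ x, 0 ≤ J x := fun x => indicator_nonneg (fun y _ => by positivity) x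
  have J1 : ∀ x, rA L x ≤ 2 * ε → J x = t.Φ x ^ 2 / rA L x ^ 2 := fun x hx =>
    indicator_of_mem (s := {x : E3 | ‖x - nA L‖ ≤ 2 * ε}) hx _
  have hM2 : ∀ᵐ x : E3, s x ^ 2 ≤ M ^ 2 := hM.mono fun x hx => by
    rw [← sq_abs (s x)]; exact pow_le_pow_left₀ (abs_nonneg _) hx 2
  have a1 : ∫ x in {x | rA L x ≤ 1 / 200}, t.Φ x ^ 2 * s x ^ 2 / rA L x ^ 2 ≤
      ∫ x, (t.Φ x ^ 2 * (s x * ψ x) ^ 2 / rA L x ^ 2 + M ^ 2 * J x) := by
    rw [← integral_indicator hm]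
    refine integral_mono_ae (i0.indicator hm) (i1.add (iJ.const_mul _)) ?_
    filter_upwards [hM2] with x hx
    have p1 : 0 ≤ t.Φ x ^ 2 * (s x * ψ x) ^ 2 / rA L x ^ 2 := by positivity
    have p2 : 0 ≤ M ^ 2 * J x := mul_nonneg (sq_nonneg _) (J0 x)
    by_cases h2 : rA L x ≤ 1 / 200
    · rw [indicator_of_mem (s := {x | rA L x ≤ 1 / 200}) h2]
      rcases le_or_gt (rA L x) (2 * ε) with h3 | h3
      · rw [J1 x h3]
        have : t.Φ x ^ 2 * s x ^ 2 / rA L x ^ 2 ≤ M ^ 2 * (t.Φ x ^ 2 / rA L x ^ 2) := by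
          rw [mul_comm, mul_div_assoc]
          exact mul_le_mul_of_nonneg_right hx (by positivity)
        linarith
      · rw [(hq x).2.2.2.2.2.2 h3 h2, mul_one]
        linarith
    · rw [indicator_of_notMem (s := {x | rA L x ≤ 1 / 200}) h2]
      linarith
  have a2 : ∫ x, t.Φ x ^ 2 * ‖s x • (q1 x - q2 x) + ψ x • p x‖ ^ 2 ≤
      ∫ x, (3 * (t.Φ x ^ 2 * ‖p x‖ ^ 2) + 120000 * (t.Φ x ^ 2 * s x ^ 2) + 12 * M ^ 2 * J x) := by
    refine integral_mono_ae i2 (((hs.i2.const_mul _).add (hs.i1.const_mul _)).add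
      (iJ.const_mul _)) ?_
    filter_upwards [hM2] with x hx
    obtain ⟨b1, b2, b3, b4, b5, -⟩ := hq x
    have g := mul_le_mul_of_nonneg_left (grad (s x) (ψ x) (q1 x) (q2 x) (p x) b1 b2 b3)
      (sq_nonneg (t.Φ x))
    have g2 : t.Φ x ^ 2 * (s x ^ 2 * ‖q2 x‖ ^ 2) ≤ 4 * M ^ 2 * J x := by
      rcases le_or_gt (rA L x) (2 * ε) with h3 | h3
      · rw [J1 x h3]
        have := mul_le_mul_of_nonneg_left (mul_le_mul hx b4 (sq_nonneg _) (sq_nonneg M))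
          (sq_nonneg (t.Φ x))
        refine this.trans (le_of_eq ?_)
        ring
      · rw [b5 h3, norm_zero]
        have := J0 x
        have : 0 ≤ 4 * M ^ 2 * J x := by positivity
        simpa using this
    linarith
  rw [integral_add i1 (iJ.const_mul _), integral_const_mul] at a1
  have i3 : Integrable (fun x => 3 * (t.Φ x ^ 2 * ‖p x‖ ^ 2) + 120000 * (t.Φ x ^ 2 * s x ^ 2)) :=
    (hs.i2.const_mul _).add (hs.i1.const_mul _)
  rw [integral_add i3 (iJ.const_mul _),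
    integral_add (hs.i2.const_mul _) (hs.i1.const_mul _), integral_const_mul, integral_const_mul,
    integral_const_mul] at a2
  linarith

end ThHoleAux

theorem th_hole : ∃ Ch : ℝ, 1 ≤ Ch ∧ ∀ (L I δ0 : ℝ) (N : E3 → ℝ) (gN : E3 → E3)
    (t : TH L I δ0 N gN), 1 ≤ L → |I| ≤ 1 → 0 ≤ δ0 → HoleB L Ch t.Φ := by
  refine ⟨1200000, by norm_num, fun L I δ0 N gN t hL hI hδ s p hs ⟨M, hM⟩ => ?_⟩
  have iH := (hardy t.pair.h1 (nA L)).1
  have ms : AEStronglyMeasurable s (volume : Measure E3) := by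
    have := hs.l1.ld.mf
    rwa [Measure.restrict_eq_self_of_ae_mem (ae_mem_D L)] at this
  have i0 : Integrable (fun x => t.Φ x ^ 2 * s x ^ 2 / rA L x ^ 2) := by
    refine (iH.const_mul (M ^ 2)).mono' ?_ (hM.mono fun x hx => ?_)
    · simp only [div_eq_mul_inv]
      exact ((t.pair.h1.l2.1.pow 2).mul (ms.pow 2)).mul
        (((continuous_rA L).1.measurable.pow_const 2).inv).aestronglyMeasurable
    · rw [Real.norm_eq_abs, abs_of_nonneg (by positivity), mul_comm, mul_div_assoc]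
      refine mul_le_mul_of_nonneg_right ?_ (by positivity)
      rw [← sq_abs (s x)]
      exact pow_le_pow_left₀ (abs_nonneg _) hx 2
  refine ⟨i0.integrableOn, ?_⟩
  have lim := (((ThHoleAux.small iH (nA L)).const_mul (121 * M ^ 2)).const_add
    (30 * (∫ x, t.Φ x ^ 2 * ‖p x‖ ^ 2) + 1200000 * (∫ x, t.Φ x ^ 2 * s x ^ 2)))
  have key := ge_of_tendsto lim (by
    filter_upwards [Ioc_mem_nhdsGT (show (0 : ℝ) < 1 / 400 by norm_num)] with ε hε
    exact ThHoleAux.eps t hL hI hδ hs hM i0 hε.1 hε.2)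
  have p1 : 0 ≤ ∫ x, t.Φ x ^ 2 * ‖p x‖ ^ 2 := integral_nonneg fun x => by positivity
  linarith

end

end Vale.Agent.P363
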