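import Vale.Agent.P363.ThKeyB

/-! P363, block Th: the kinetic energy bound. -/

open MeasureTheory Set Metric Filter Topology
open scoped RealInnerProductSpace

namespace Vale.Agent.P363

noncomputable section

theorem thkey_even {f g : E3 → ℝ} (hf : MemLp f 2 volume) (hg : MemLp g 2 volume)
    (he : ∀ᵐ x : E3, f (sg x) = f x) : ∫ x, f x * ((g x + g (sg x)) / 2) = ∫ x, f x * g x := by
  have i1 : Integrable fun x => f x * g x := hf.integrable_mul hg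
  have i2 : Integrable fun x => f x * g (sg x) :=
    hf.integrable_mul (hg.comp_measurePreserving mp_sg)
  have e1 : ∫ x, f x * g (sg x) = ∫ x, f x * g x := by
    rw [← integral_sg fun x => f x * g x]
    exact integral_congr_ae (he.mono fun x hx => by simp only [hx])
  have e2 : ∀ x, f x * ((g x + g (sg x)) / 2) = (1 / 2) * (f x * g x + f x * g (sg x)) :=
    fun x => by ring
  simp only [e2]
  rw [integral_const_mul, integral_add i1 i2, e1]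
  ring

theorem th_key {L I δ0 κ : ℝ} {N : E3 → ℝ} {gN : E3 → E3} (n0 : N0 L I N gN) (m : MP δ0 N)
    (hδ : 0 ≤ δ0) (hκ : 2 * δ0 ≤ κ) (hP : Poin L κ m.Φ) (pos : ∀ᵐ x : E3, 0 < m.Φ x)
    (Y : Type) [MeasurableSpace Y] (ν : Measure Y) [SFinite ν] (G : E3 × Y → ℝ)
    (GG : E3 × Y → E3) (hG : HV ν G GG) (hN : ∀ᵐ x : E3, ∫ y, G (x, y) ^ 2 ∂ν = N x ^ 2)
    (pauli : ∀ f : E3 → ℝ, MemLp f 2 volume →
      ∫ y, (∫ x, f x * G (x, y)) ^ 2 ∂ν ≤ 2 * ∫ x, f x ^ 2) :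
    (∫ x, ‖m.gΦ x‖ ^ 2) + (∫ x, ‖m.gΩ x‖ ^ 2) ≤ ∫ w, ‖GG w‖ ^ 2 ∂(volume.prod ν) := by
  obtain ⟨W, gW, hp, -, -, hW⟩ := pair_of_HV hG hN n0.ev
  have hE := ev_od_energy hG
  obtain ⟨u1, -, u3⟩ := hG.evp.nrm
  show JJ m.gΦ m.gΩ ≤ _
  rcases le_total (∫ x, nrm ν (evp G) x ^ 2) 2 with h2 | h2
  · have h := m.min _ _ _ _ hp
    have h3 : JJ (gnr ν (evp G) (evg GG)) gW =
        (∫ x, ‖gnr ν (evp G) (evg GG) x‖ ^ 2) + ∫ x, ‖gW x‖ ^ 2 := rfl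
    nlinarith
  have hκ0 : 0 ≤ κ := by linarith
  have pe : ∀ f : E3 → ℝ, MemLp f 2 volume → (∀ᵐ x : E3, f (sg x) = f x) →
      ∫ y, (∫ x, f x * evp G (x, y)) ^ 2 ∂ν ≤ 2 * ∫ x, f x ^ 2 := by
    intro f hf he
    refine le_trans (le_of_eq (integral_congr_ae ?_)) (pauli f hf)
    filter_upwards [hG.slice] with y hy
    exact congrArg (· ^ 2) (thkey_even hf hy.l2 he)
  have eG : ∀ w : E3 × Y, evp G (sg w.1, w.2) = evp G w := fun w => by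
    simp only [evp, sg_sg]
    ring
  have hl := key_lim (N := N) m.pair.h1.l2.1 u1.l2 n0.h.l2.1 pos
  have hs : Tendsto (fun s : ℝ => s) (𝓝[>] 0) (𝓝 0) := tendsto_nhdsWithin_of_tendsto_nhds tendsto_id
  have hlim : Tendsto (fun s : ℝ => (1 + s) * JJ m.gΦ m.gΩ - s * (∫ x, ‖gN x‖ ^ 2) -
      2 * δ0 * ((∫ x, nrm ν (evp G) x ^ 2) - 2 + s) + κ * ((1 - s - s ^ 2) *
        (∫ x, m.Φ x ^ 2 * nrm ν (evp G) x ^ 2 / Rs m.Φ (nrm ν (evp G)) N s x ^ 2) - 2))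
      (𝓝[>] 0) (𝓝 ((1 + 0) * JJ m.gΦ m.gΩ - 0 * (∫ x, ‖gN x‖ ^ 2) -
        2 * δ0 * ((∫ x, nrm ν (evp G) x ^ 2) - 2 + 0) + κ * ((1 - 0 - 0 ^ 2) *
          (∫ x, nrm ν (evp G) x ^ 2) - 2))) :=
    ((((hs.const_add 1).mul_const _).sub (hs.mul_const _)).sub
      ((hs.const_add _).const_mul _)).add
      (((((hs.const_sub 1).sub (hs.pow 2)).mul hl).sub_const 2).const_mul κ)
  have hle := le_of_tendsto hlim (b := ∫ w, ‖GG w‖ ^ 2 ∂(volume.prod ν)) (by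
    filter_upwards [Ioc_mem_nhdsGT (show (0 : ℝ) < 1 / 2 by norm_num)] with s hs
    obtain ⟨GT, t1, t2, t3⟩ := key_comp n0 m hG.evp hp hs.1 hs.2
    have t4 := key_var hκ0 hP m.pair.h1.l2 m.m1 m.pair.ev n0.ev n0.h.l2.1 hG.evp.l2 eG pe
      hs.1 hs.2 t1 t2
    have hq : 0 < 1 - s - s ^ 2 := by nlinarith [hs.1, hs.2]
    have t5 := mul_le_mul_of_nonneg_left t4 hq.le
    generalize (∫ x, m.Φ x ^ 2 * nrm ν (evp G) x ^ 2 / Rs m.Φ (nrm ν (evp G)) N s x ^ 2) = Z at *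
    have t6 : (1 - s - s ^ 2) * (κ * (Z - 2 / (1 - s - s ^ 2))) =
        κ * ((1 - s - s ^ 2) * Z - 2) := by
      field_simp
    rw [t6] at t5
    linarith)
  nlinarith [mul_nonneg (sub_nonneg.2 hκ) (sub_nonneg.2 h2)]

end

end Vale.Agent.P363
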