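import Vale.Agent.P363.ThD

/-! P363, block Th: weak inequalities for `N θ` and `N χ`. -/

open MeasureTheory Set Metric Filter Topology
open scoped RealInnerProductSpace

namespace Vale.Agent.P363

noncomputable section

variable {L I δ0 : ℝ} {N : E3 → ℝ} {gN : E3 → E3}

theorem ths_locB {U : Set E3} {f : E3 → ℝ} {M : ℝ} (h : ∀ x, |f x| ≤ M) : LocB U f :=
  fun _ _ _ => ⟨M, Eventually.of_forall fun x _ => h x⟩

theorem ths_locB_mono {U U' : Set E3} {f : E3 → ℝ} (h : LocB U f) (hU : U' ⊆ U) : LocB U' f :=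
  fun K hK hKU => h K hK (hKU.trans hU)

theorem ths_locP_mono {U U' : Set E3} {f : E3 → ℝ} (h : LocP U f) (hU : U' ⊆ U) : LocP U' f :=
  fun K hK hKU => h K hK (hKU.trans hU)

theorem ths_locB_sq {U : Set E3} {f : E3 → ℝ} (h : LocB U f) : LocB U (fun x => f x ^ 2) := by
  simpa only [pow_two] using wmp_locB_mul h h

theorem ths_loc1_congr {U : Set E3} {f f' : E3 → ℝ} (h : Loc1 U f)
    (he : ∀ᵐ x : E3, x ∈ U → f' x = f x) : Loc1 U f' := fun K hK hKU => by
  refine Integrable.congr (h K hK hKU) ((ae_restrict_iff' hK.measurableSet).2 ?_)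
  filter_upwards [he] with x a hx using (a (hKU hx)).symm

theorem ths_sin (y : ℝ) : Real.sin (2 * y) * y ≤ 2 * y ^ 2 := by
  have h1 := Real.abs_sin_le_abs (x := 2 * y)
  have h2 : Real.sin (2 * y) * y ≤ |Real.sin (2 * y)| * |y| := by
    rw [← abs_mul]; exact le_abs_self _
  have h3 := mul_le_mul_of_nonneg_right h1 (abs_nonneg y)
  rw [abs_mul, abs_two] at h3
  nlinarith [sq_abs y]

theorem TH.meas (t : TH L I δ0 N gN) : AEStronglyMeasurable t.θ volume := by
  have h := t.l1.ld.mf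
  rwa [Measure.restrict_eq_self_of_ae_mem (ae_mem_D L)] at h

theorem TH.chi_bd (t : TH L I δ0 N gN) (x : E3) :
    0 ≤ Real.pi / 2 - t.θ x ∧ Real.pi / 2 - t.θ x ≤ Real.pi := by
  have := abs_le.1 (t.bd x)
  constructor <;> linarith [this.1, this.2]

theorem TH.chi_l1 (t : TH L I δ0 N gN) :
    L1 (D L) (fun x => Real.pi / 2 - t.θ x) (fun x => 0 - t.gθ x) ∧
      LocB (D L) (fun x => Real.pi / 2 - t.θ x) :=
  ⟨(C2.const (isOpen_D L) _).l1.1.sub t.l1, ths_locB (M := Real.pi) fun x => by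
    rw [abs_of_nonneg (t.chi_bd x).1]; exact (t.chi_bd x).2⟩

/-- Integrability of both sides of the Euler-Lagrange equation. -/
theorem TH.el_int (t : TH L I δ0 N gN) {φ : E3 → ℝ} {p : E3 → E3} (ht : Tst (D L) φ p) :
    Integrable (fun x => N x ^ 2 * ⟪t.gθ x, p x⟫) ∧
      Integrable (fun x => N x ^ 2 * Real.sin (2 * t.θ x) * φ x) := by
  have mN : AEStronglyMeasurable (fun x => N x ^ 2) (volume.restrict (D L)) :=
    (t.n0.h.l2.1.pow 2).restrict
  refine ⟨csub_intQ t.l1.l2g ht (csub_smul_tst ht mN (ths_locB_sq t.n0.lb)),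
    (ht.int (csub_loc1_mul (cmv_sq (t.n0.h.l1 _).l2) ?_ (ths_locB fun x => Real.abs_sin_le_one _))
      t.l1.l2g).1⟩
  exact Real.continuous_sin.comp_aestronglyMeasurable (t.l1.ld.mf.const_mul 2)

theorem TH.subZ (t : TH L I δ0 N gN) (hδ : 0 ≤ δ0) :
    SubQ (D L) (fun x => N x * t.θ x) (fun x => t.θ x • gN x + N x • t.gθ x)
      (fun x => (V L x + I - δ0) * (N x * t.θ x) ^ 2) := by
  have hU := isOpen_D L
  have bθ : LocB (D L) t.θ := ths_locB t.bd
  have l1 : L1 (D L) (fun x => N x * t.θ x) (fun x => t.θ x • gN x + N x • t.gθ x) :=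
    ((t.n0.h.l1 _).mul hU t.l1 t.n0.lb bθ).congr hU (Eventually.of_forall fun _ _ => rfl)
      (Eventually.of_forall fun _ _ => add_comm _ _)
  have cV : ContinuousOn (fun x => V L x + I - δ0) (D L) :=
    ((continuousOn_V L).add continuousOn_const).sub continuousOn_const
  refine ⟨l1, ?_, fun ψ p ht hψ _ => ?_⟩
  · simpa only [mul_comm] using csub_loc1_mul (cmv_sq l1.l2)
      (cV.aestronglyMeasurable hU.measurableSet) (LocB.of_cont cV)
  have t1 := ht.mul hU t.l1 bθ
  have t2 := t1.mul hU t.l1 bθ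
  have m2 := csub_smul_tst t2 t.n0.sub.l1.ld.mf t.n0.lb
  have a := t.n0.sub.ineq _ _ t2 (by
    filter_upwards [hψ] with x hx
    rw [← mul_assoc]
    exact mul_nonneg (mul_self_nonneg _) hx) m2
  obtain ⟨i1, i2, i3⟩ := t.n0.sub.int t2 m2
  obtain ⟨j1, j2⟩ := t.el_int t1
  have b := t.el _ _ t1
  have iA := ((i1.add i2).const_mul (1 / 2)).add i3
  have iB := (j1.const_mul (1 / 2)).sub (j2.const_mul (δ0 / 2))
  have e1 := integral_add iA iB
  have e2 := integral_sub (j1.const_mul (1 / 2)) (j2.const_mul (δ0 / 2))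
  simp only [Pi.add_apply, Pi.sub_apply] at e1
  rw [integral_const_mul, integral_const_mul, b] at e2
  rw [e2] at e1
  have k3 : Integrable (fun x => N x ^ 2 * (t.θ x * (t.θ x * ψ x))) :=
    (t2.int (cmv_sq (t.n0.h.l1 _).l2) t.l1.l2g).1
  have iC := (j2.const_mul (δ0 / 2)).sub (k3.const_mul δ0)
  have e3 := integral_add (iA.add iB) iC
  simp only [Pi.add_apply, Pi.sub_apply] at e3
  have c : ∫ x, (δ0 / 2 * (N x ^ 2 * Real.sin (2 * t.θ x) * (t.θ x * ψ x)) -
      δ0 * (N x ^ 2 * (t.θ x * (t.θ x * ψ x)))) ≤ 0 := by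
    refine integral_nonpos_of_ae ?_
    filter_upwards [hψ] with x hx
    have h1 := mul_le_mul_of_nonneg_left (ths_sin (t.θ x))
      (mul_nonneg hδ (mul_nonneg (sq_nonneg (N x)) hx))
    simp only [Pi.zero_apply]
    nlinarith
  refine le_trans (le_of_eq ?_) (e3.le.trans (by rw [e1]; linarith))
  refine integral_congr_ae (Eventually.of_forall fun x => ?_)
  simp only [norm_add_sq_real, inner_add_left, inner_add_right, real_inner_smul_left,
    real_inner_smul_right, real_inner_self_eq_norm_sq, norm_smul, mul_pow, Real.norm_eq_abs,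
    sq_abs]
  ring

theorem ths_trig {c : ℝ} (h0 : 0 ≤ c) (h1 : c ≤ Real.pi / 2) :
    c ≤ 2 ∧ c ≤ 2 * Real.sin c ∧ c ^ 2 - Real.sin c ^ 2 ≤ c ^ 2 * c ^ 2 := by
  have p4 := Real.pi_le_four
  have p0 := Real.pi_pos
  refine ⟨by linarith, ?_, ?_⟩
  · have h2 := Real.mul_le_sin h0 h1
    have h3 : 1 / 2 ≤ 2 / Real.pi := by
      rw [div_le_div_iff₀ two_pos p0]; linarith
    nlinarith
  · rcases le_total c 1 with h | h
    · rcases h0.eq_or_lt with rfl | h0'
      · simp
      · have h2 := (Real.sin_gt_sub_cube h0').le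
        have h3 : 0 ≤ c - c ^ 3 / 6 := by nlinarith [mul_le_mul h h h0 zero_le_one]
        have h4 := pow_le_pow_left₀ h3 h2 2
        nlinarith [sq_nonneg (c ^ 3), sq_nonneg (c ^ 2)]
    · have h2 : 1 ≤ c ^ 2 := by nlinarith
      nlinarith [sq_nonneg (Real.sin c)]

theorem TH.locB_X (t : TH L I δ0 N gN) : LocB (D L) t.X ∧ MemLp t.X 2 volume ∧
    ∀ᵐ x : E3, 0 ≤ t.Φ x ∧ t.Φ x ≤ t.X x ∧ (0 < x 2 → t.X x ≤ 2 * N x ∧ t.X x ≤ 2 * t.Φ x ∧
      t.X x ^ 2 - t.Φ x ^ 2 ≤ (Real.pi / 2 - t.θ x) ^ 2 * t.X x ^ 2) := by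
  refine ⟨wmp_locB_mul t.n0.lb t.chi_l1.2, ?_, ?_⟩
  · have := ctst_smul (M := Real.pi) (aestronglyMeasurable_const.sub t.meas)
      (Eventually.of_forall fun x => by
        show |Real.pi / 2 - t.θ x| ≤ _
        rw [abs_of_nonneg (t.chi_bd x).1]; exact (t.chi_bd x).2) t.n0.h.l2
    refine this.ae_eq (Eventually.of_forall fun x => ?_)
    simp only [TH.X, smul_eq_mul, Pi.sub_apply, mul_comm]
  · filter_upwards [t.rep] with x hx
    obtain ⟨h0, h1, -⟩ := hx
    rw [← Real.sin_pi_div_two_sub] at h1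
    have c0 := (t.chi_bd x).1
    refine ⟨t.n1 x, ?_, fun hz => ?_⟩
    · rw [h1]
      exact mul_le_mul_of_nonneg_left (Real.sin_le c0) h0.le
    · obtain ⟨a1, a2, a3⟩ := ths_trig c0 (by linarith [t.pos x hz])
      unfold TH.X
      rw [h1]
      refine ⟨by nlinarith, by nlinarith, ?_⟩
      have := mul_le_mul_of_nonneg_left a3 (sq_nonneg (N x))
      nlinarith

theorem TH.subX (t : TH L I δ0 N gN) {U : Set E3} (hU : IsOpen U) (hD : U ⊆ D L) {c : E3 → ℝ}
    (h : SubQ U N gN (fun x => c x * N x ^ 2)) :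
    Sub U t.X t.gX (fun x => c x * t.X x + δ0 * N x * Real.sin (2 * t.θ x) / 2) := by
  have lb := ths_locB_mono t.n0.lb hD
  have lp := ths_locP_mono t.n0.lp hD
  have c1 := t.chi_l1.1.mono hD
  have c2 := ths_locB_mono t.chi_l1.2 hD
  have n1 := csub_inv_l1 hU h.l1 lp
  have n2 := csub_inv_b lp
  refine ⟨(h.l1.mul hU c1 lb c2).congr hU (Eventually.of_forall fun _ _ => rfl)
    (Eventually.of_forall fun x _ => ?_), fun K hK hKU => Integrable.add ?_ ?_,
    fun ψ p ht hψ => ?_⟩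
  · simp only [TH.gX, zero_sub, smul_neg]
    abel
  · refine ths_loc1_congr (csub_loc1_mul h.li (c1.ld.mf.mul n1.ld.mf) (wmp_locB_mul c2 n2)) ?_
      K hK hKU
    filter_upwards [t.rep] with x hx _
    have := hx.1.ne'
    simp only [TH.X, Pi.mul_apply]
    field_simp
  · refine ths_loc1_congr (f := fun x => N x * (δ0 / 2 * Real.sin (2 * t.θ x)))
      (csub_loc1_mul (csub_loc1 h.l1.l2) ?_ (ths_locB (M := |δ0 / 2|) fun x => ?_))
      (Eventually.of_forall fun x _ => by ring) K hK hKU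
    · exact (Real.continuous_sin.comp_aestronglyMeasurable
        (t.meas.restrict.const_mul 2)).const_mul _
    · rw [abs_mul]
      exact mul_le_of_le_one_right (abs_nonneg _) (Real.abs_sin_le_one _)
  have t1 := ht.mul hU n1 n2
  have t2 := t1.mul hU c1 c2
  have m2 := csub_smul_tst t2 h.l1.ld.mf lb
  have a := h.ineq _ _ t2 (by
    filter_upwards [hψ, t.rep] with x hx hr
    exact mul_nonneg (t.chi_bd x).1 (mul_nonneg (inv_pos.2 hr.1).le hx)) m2
  obtain ⟨i1, i2, i3⟩ := h.int t2 m2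
  obtain ⟨j1, j2⟩ := t.el_int (t1.mono hD)
  have b := t.el _ _ (t1.mono hD)
  have iA := ((i1.add i2).const_mul (1 / 2)).add i3
  have iB := (j2.const_mul (δ0 / 2)).sub (j1.const_mul (1 / 2))
  have e1 := integral_add iA iB
  have e2 := integral_sub (j2.const_mul (δ0 / 2)) (j1.const_mul (1 / 2))
  simp only [Pi.add_apply, Pi.sub_apply] at e1
  rw [integral_const_mul, integral_const_mul, b] at e2
  rw [e2] at e1
  refine le_trans (le_of_eq ?_) (e1.le.trans (by linarith))
  refine integral_congr_ae ?_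
  filter_upwards [t.rep] with x hx
  have := hx.1.ne'
  simp only [TH.X, TH.gX, zero_sub, inner_add_right, inner_sub_left, inner_neg_right, smul_neg,
    real_inner_smul_left, real_inner_smul_right, real_inner_self_eq_norm_sq,
    real_inner_comm (gN x) (t.gθ x)]
  field_simp
  ring

end

end Vale.Agent.P363
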