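import Vale.Agent.P363.ThNovB
import Vale.Agent.P363.ThSub
import Vale.Agent.P363.ThAng

/-! P363, block Th: no potential. -/

open MeasureTheory Set Metric Filter Topology
open scoped RealInnerProductSpace

namespace Vale.Agent.P363

noncomputable section

theorem thnov_geo {ρ S : ℝ} {x : E3} (hx : x ∈ ball (ρ • e 0) S) (hρ : 0 ≤ ρ) :
    |‖x‖ - ρ| < S ∧ ρ - S < x 0 ∧ x 0 ≤ ‖x‖ ∧ ‖x‖ ^ 2 - x 0 ^ 2 ≤ S ^ 2 ∧ x 2 < S := by
  rw [mem_ball_iff_norm] at hx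
  have h1 : ‖ρ • e 0‖ = ρ := by simp [e, norm_smul, abs_of_nonneg hρ]
  have h2 := abs_norm_sub_norm_le x (ρ • e 0)
  have h3 : ∀ (v : E3) k, |v k| ≤ ‖v‖ := fun v k => by
    simpa using PiLp.norm_apply_le v k
  have h4 := abs_le.1 (h3 (x - ρ • e 0) 0)
  have h5 := abs_le.1 (h3 (x - ρ • e 0) 2)
  have h6 := EuclideanSpace.real_norm_sq_eq (x - ρ • e 0)
  have h7 := EuclideanSpace.real_norm_sq_eq x
  have h8 : ‖x - ρ • e 0‖ ^ 2 ≤ S ^ 2 := pow_le_pow_left₀ (norm_nonneg _) hx.le 2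
  simp [e, Fin.sum_univ_three] at h4 h5 h6 h7
  simp only [e] at hx h8
  rw [h1] at h2
  refine ⟨h2.trans_lt (by simpa only [e] using hx), by linarith [h4.1], (le_abs_self _).trans (h3 x 0),
    by nlinarith [sq_nonneg (x 0 - ρ)], by linarith [h5.2]⟩

theorem thnov_flat {φ φ1 : ℝ → ℝ} {r κ S : ℝ} (hκ : 0 < κ) (hS : 0 < S)
    (hd : ∀ s, r < s → HasDerivAt φ (φ1 s) s) (hl : Tendsto φ1 atTop (𝓝 (-κ))) :
    ∀ᶠ ρ : ℝ in atTop, ∀ x ∈ ball (ρ • e 0) S,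
      |φ ‖x‖ - φ ρ + κ * (x 0 - ρ)| ≤ 1 / 2 := by
  have h1 : ∀ᶠ s : ℝ in atTop, |φ1 s + κ| ≤ 1 / (4 * S) := by
    have := (hl.add_const κ).abs
    rw [neg_add_cancel, abs_zero] at this
    exact this.eventually (ge_mem_nhds (by positivity))
  obtain ⟨a, ha⟩ := eventually_atTop.1 (h1.and (eventually_gt_atTop r))
  filter_upwards [eventually_ge_atTop (a + S), eventually_ge_atTop 0,
    eventually_ge_atTop (S + 4 * κ * S ^ 2)] with ρ r1 r2 r3 x hx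
  obtain ⟨g1, g2, g3, g4, -⟩ := thnov_geo hx r2
  have h2 := (convex_Ici a).norm_image_sub_le_of_norm_hasDerivWithin_le
    (f := fun s => φ s + κ * s) (f' := fun s => φ1 s + κ) (C := 1 / (4 * S)) (x := ρ) (y := ‖x‖)
    (fun s hs => by
      simpa using ((hd s (ha s hs).2).fun_add ((hasDerivAt_id s).const_mul κ)).hasDerivWithinAt)
    (fun s hs => (ha s hs).1) (show a ≤ ρ by linarith)
    (show a ≤ ‖x‖ by linarith [(abs_lt.1 g1).1])
  rw [Real.norm_eq_abs, Real.norm_eq_abs] at h2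
  have h3 : 1 / (4 * S) * |‖x‖ - ρ| ≤ 1 / 4 := by
    rw [div_mul_eq_mul_div, div_le_div_iff₀ (by positivity) (by positivity)]
    linarith
  have h4 : κ * (‖x‖ - x 0) ≤ 1 / 4 := by
    have h5 : 0 < κ * S ^ 2 := by positivity
    have h6 : 4 * κ * S ^ 2 ≤ ‖x‖ + x 0 := by linarith [norm_nonneg x]
    have h7 : (‖x‖ - x 0) * (4 * κ * S ^ 2) ≤ S ^ 2 := by nlinarith
    have h8 : (4 * (κ * (‖x‖ - x 0))) * S ^ 2 ≤ 1 * S ^ 2 := by linarith
    have := le_of_mul_le_mul_right h8 (by positivity)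
    linarith
  have h5 : 0 ≤ κ * (‖x‖ - x 0) := mul_nonneg hκ.le (sub_nonneg.2 g3)
  have h6 := abs_le.1 (h2.trans h3)
  rw [abs_le]
  constructor <;> linarith [h6.1, h6.2]

theorem thnov_exp {t : ℝ} (h : |t| ≤ 1 / 2) : 1 / 2 ≤ Real.exp t ∧ Real.exp t ≤ 2 := by
  have h1 := abs_le.1 h
  have h2 := Real.add_one_le_exp t
  have h3 := Real.add_one_le_exp (-t)
  have h4 : Real.exp t * Real.exp (-t) = 1 := by rw [← Real.exp_add]; simp
  have h5 := Real.exp_pos t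
  exact ⟨by linarith [h1.1], by nlinarith [h1.2]⟩

theorem th_nov {L I δ0 δ η r1 C c : ℝ} {g N : E3 → ℝ} {gN : E3 → E3} (t : TH L I δ0 N gN)
    (nd : ND L δ η r1 C I g N gN) (hL : 0 ≤ L) (hr : L ≤ r1) (hr' : 0 < r1) (hI : 0 < I)
    (hδ : 0 < δ0) (hC : 0 < C) (hc : 0 < c)
    (up : ∀ᵐ x : E3, x ∈ Ext r1 → 0 < x 2 → t.X x ≤ nd.B3 x)
    (lo : ∀ᵐ x : E3, x ∈ Ext r1 → 0 < x 2 → x 2 < 1 / 4 → c * Real.exp (nd.φ ‖x‖) ≤ t.Φ x)
    (v₁ v₂ : E3 → ℝ) (h1 : MemLp v₁ (3 / 2) volume) (h2 : MemLp v₂ ⊤ volume) (μ : ℝ) :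
    ¬∀ f gf, H1 f gf →
      ∫ x, ((1 / 2) * ⟪t.gΦ x, gf x⟫ + (v₁ x + v₂ x) * t.Φ x * f x) = μ * ∫ x, t.Φ x * f x := by
  intro H
  obtain ⟨M, hM0, hM⟩ : ∃ M, 0 ≤ M ∧ ∀ᵐ x : E3, ‖v₂ x‖ ≤ M :=
    ⟨_, lpNorm_nonneg, ae_le_lpNorm_exponent_top h2⟩
  have hκ : 0 < √(2 * I) := Real.sqrt_pos.2 (by linarith)
  obtain ⟨s, hs, S, hS, τ, hτ, a', ha', core⟩ := nov_core (M := M + |μ|) (δ := δ0 / 2) (c := c / 2)
    (C := 2 * C) (by positivity) hκ (by positivity) (by positivity) (by positivity)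
  have hτ1 : 0 < min τ (1 / 2) := by positivity
  have ev := ((nd.f3 S).and (nd.g3 s S _ hs hτ1)).and ((sobolev_far h1 ha').and
    ((eventually_ge_atTop r1).and (eventually_ge_atTop (L + 8 / δ0))))
  obtain ⟨ρ, ⟨⟨⟨f3, g3⟩, sob, r2, r3⟩, fl⟩, r0⟩ :=
    ((((tendsto_atTop_add_const_right _ (-S) tendsto_id).eventually ev).and
      (thnov_flat hκ hS (fun s hs => (nd.dφ s hs).1) nd.lim)).and (eventually_ge_atTop 0)).exists
  simp only [id] at f3 g3 sob r2 r3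
  have hn : ∀ x ∈ ball (ρ • e 0) S, ρ + -S < ‖x‖ := fun x hx => by
    linarith [(abs_lt.1 (thnov_geo hx r0).1).1]
  have hE : ∀ x ∈ ball (ρ • e 0) S, x ∈ Ext r1 := fun x hx => r2.trans_lt (hn x hx)
  have hD : ball (ρ • e 0) S ∩ Hp ⊆ D L := fun x hx => Ext_subset_D hL hr (hE x hx.1)
  obtain ⟨-, -, hX⟩ := t.locB_X
  refine core (ρ • e 0) (Real.exp (nd.φ ρ)) t.Φ t.X _ v₁ (fun x => v₂ x - μ) t.gΦ t.gX
    (by simp [e]) (Real.exp_pos _) t.pair.h1 t.pair.ev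
    (t.subX (isOpen_ball.inter isOpen_Hp) hD (t.n0.sub.mono hD)) ?_ h1
    ⟨h2.1.sub aestronglyMeasurable_const, hM.mono fun x hx => ?_⟩ (fun f q hf hz => ?_)
    fun f gf hf => ?_
  · filter_upwards [up, lo, hX, g3, t.rep] with x a1 a2 a3 a4 a5 hx
    have hp : 0 < x 2 := hx.2
    obtain ⟨-, -, -, -, b1⟩ := thnov_geo hx.1 r0
    obtain ⟨b2, b3⟩ := thnov_exp (fl x hx.1)
    have b4 : Real.exp (√(2 * I) * (x 0 - (ρ • e 0) 0)) * Real.exp (nd.φ ‖x‖) =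
        Real.exp (nd.φ ‖x‖ - nd.φ ρ + √(2 * I) * (x 0 - ρ)) * Real.exp (nd.φ ρ) := by
      rw [← Real.exp_add, ← Real.exp_add]
      simp only [e, PiLp.smul_apply, PiLp.single_apply, if_true, smul_eq_mul, mul_one]
      congr 1
      ring
    have b5 := Real.exp_pos (√(2 * I) * (x 0 - (ρ • e 0) 0))
    have b6 := Real.exp_pos (nd.φ ρ)
    have b7 := a1 (hE x hx.1) hp
    refine ⟨a3.1, a3.2.1, ?_, fun h4 => ?_, fun h4 => ?_⟩
    · refine (mul_le_mul_of_nonneg_left (b7.trans (f3 x (hn x hx.1).le hp b1.le)) b5.le).trans ?_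
      rw [mul_left_comm, b4, mul_comm 2 C, mul_assoc]
      gcongr
    · refine le_trans ?_ (mul_le_mul_of_nonneg_left (a2 (hE x hx.1) hp h4) b5.le)
      rw [mul_left_comm, b4, div_eq_mul_one_div, mul_assoc]
      gcongr
    · have c0 : 0 ≤ Real.pi / 2 - t.θ x := sub_nonneg.2 (abs_le.1 (t.bd x)).2
      have c1 : Real.pi / 2 - t.θ x ≤ min τ (1 / 2) := by
        have := b7.trans (a4 (hn x hx.1).le h4 b1.le)
        rw [TH.X, mul_comm] at this
        exact le_of_mul_le_mul_right this a5.1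
      have c2 := c1.trans (min_le_left _ _)
      have c3 := c1.trans (min_le_right _ _)
      have c4 : 0 ≤ t.X x := a3.1.trans a3.2.1
      refine ⟨(a3.2.2 hp).2.2.trans (mul_le_mul_of_nonneg_right (by nlinarith) (sq_nonneg _)), ?_⟩
      have c5 := sin_two_lower c0 (by linarith [t.pos x hp])
      rw [show 2 * (Real.pi / 2 - t.θ x) = Real.pi - 2 * t.θ x by ring, Real.sin_pi_sub] at c5
      have c6 : 3 / 4 ≤ max (1 - (Real.pi / 2 - t.θ x) ^ 2) 0 := le_max_of_le_left (by nlinarith)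
      have c7 : 3 / 4 * t.X x ≤ N x * Real.sin (2 * t.θ x) / 2 := by
        have := mul_le_mul_of_nonneg_left ((mul_le_mul_of_nonneg_left c6
          (by linarith : 0 ≤ Real.pi - 2 * t.θ x)).trans c5) a5.1.le
        rw [TH.X]
        linarith
      have c8 : -(δ0 / 4) ≤ V L x := by
        obtain ⟨d1, d2⟩ := abs_rA_sub hL x
        have d3 : ∀ r : ℝ, |r - ‖x‖| ≤ L → r⁻¹ ≤ δ0 / 8 := fun r hr => by
          rw [← inv_div]
          exact inv_anti₀ (by positivity) (by linarith [(abs_le.1 hr).1, hn x hx.1])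
        have := d3 _ d1
        have := d3 _ d2
        rw [V]
        linarith
      rw [Real.sq_sqrt (by linarith)]
      have c9 := mul_le_mul_of_nonneg_right c8 c4
      have c10 := mul_le_mul_of_nonneg_left c7 hδ.le
      linarith
  · exact (abs_sub _ _).trans (by linarith [show |v₂ x| ≤ M from hx])
  · exact sob f q hf (hz.mono fun x hx hl => hx fun hb => absurd (hn x hb) (not_lt.2 hl.le))
  · obtain ⟨i1, -, i3⟩ := q1_int t.pair.h1 hf L
    have i4 : Integrable fun x => (1 / 2) * ⟪t.gΦ x, gf x⟫ + (v₁ x + v₂ x) * t.Φ x * f x := by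
      refine ((i1.const_mul (1 / 2)).add ((sobolev_int h1 t.pair.h1 hf).add
        (i3.bdd_mul h2.1 hM))).congr (ae_of_all _ fun x => ?_)
      simp only [Pi.add_apply]
      ring
    rw [← sub_eq_zero.2 (H f gf hf), ← integral_const_mul, ← integral_sub i4 (i3.const_mul μ)]
    exact integral_congr_ae (ae_of_all _ fun x => by simp only; ring)

end

end Vale.Agent.P363
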