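import Vale.Agent.P363.ThPoinxA

/-! P363, block Th: the Poincare inequality. -/

open MeasureTheory Set Metric Filter Topology
open scoped RealInnerProductSpace

namespace Vale.Agent.P363

noncomputable section

theorem thp_int3 {f u v w : E3 → ℝ} (hf : Integrable f) (hu : Integrable u) (hv : Integrable v)
    (hw : Integrable w) {a b c : ℝ} (h : ∀ᵐ x : E3, f x ≤ a * u x + b * v x + c * w x) :
    ∫ x, f x ≤ a * (∫ x, u x) + b * (∫ x, v x) + c * ∫ x, w x := by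
  have i1 : Integrable (fun x => a * u x + b * v x) := (hu.const_mul a).add (hv.const_mul b)
  have := integral_mono_ae hf (i1.add (hw.const_mul c)) h
  simp only [Pi.add_apply] at this
  rwa [integral_add i1 (hw.const_mul c), integral_add (hu.const_mul a) (hv.const_mul b),
    integral_const_mul, integral_const_mul, integral_const_mul] at this

theorem thp_main {c0 Ch K L r1 s0 e1 : ℝ} (ob : OB c0 L) {Φ s : E3 → ℝ} {p : E3 → E3}
    (hL : 1 ≤ L) (hr : L + 1 ≤ r1) (h0 : 0 < s0) (h1 : s0 < e1) (h2 : e1 ≤ 1 / 200) (hK : 0 ≤ K)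
    (hg : ob.eg ≤ -1 / 2 + c0 / 2) (hΦ : MemLp Φ 2 volume) (ev : ∀ᵐ x : E3, Φ (sg x) = Φ x)
    (hh : HoleB L Ch Φ) (hf : FarB r1 K Φ)
    (hc : ∀ᵐ x : E3, x ∈ Blk L (3 * r1) s0 → ob.g x ≤ Φ x ∧ Φ x ≤ 3 * ob.g x)
    (hs : Adm L Φ s p) {M0 : ℝ} (hM : ∀ᵐ x : E3, |s x| ≤ M0) :
    ∃ a G M D : ℝ, M = ∫ x, Φ x ^ 2 * (s x - a) ^ 2 ∧ D = ∫ x, Φ x ^ 2 * ‖p x‖ ^ 2 ∧
      M ≤ e1 ^ 2 * (2 * (Ch * (D + M))) + 2 * K * (D + 4 / r1 ^ 2 * M) + 9 * G ∧
      c0 * G ≤ 2 * D + 2 / Real.log (e1 / s0) ^ 2 * (2 * (Ch * (D + M))) + 2 / r1 ^ 2 * M := by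
  obtain ⟨χ, q, tχ, hχ⟩ := thp_cut hL hr h0 h1 h2
  have ig : Integrable (fun x => ob.g x ^ 2) := ob.hg.l2.integrable_sq
  have mχ := ctst_mf tχ.ld
  have im : Integrable (fun x => ob.g x ^ 2 * χ x) := ig.mul_bdd (c := 1) mχ
    (Eventually.of_forall fun x => by
      rw [Real.norm_eq_abs, abs_of_nonneg (hχ x).1]
      exact (hχ x).2.1)
  obtain ⟨a, ha⟩ := thp_mean im (fun x => mul_nonneg (sq_nonneg _) (hχ x).1) (thp_meas hs.l1) hM
  obtain ⟨hw, hb⟩ := thp_shift hΦ hs hM a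
  set w : E3 → ℝ := fun x => s x - a with hwd
  have lb : LocB (D L) w := fun _ _ _ => ⟨M0 + |a|, by
    filter_upwards [hb] with x hx _ using hx⟩
  have tT := tχ.mul (isOpen_D L) hw.l1 lb
  obtain ⟨g1, g2⟩ := g_gap ob tT (by
    filter_upwards [hw.ev] with x hx
    rw [hx, (hχ x).2.2.1]) (by
    rw [← ha]
    congr 1
    funext x
    ring)
  obtain ⟨k1, k2⟩ := thp_hole hh hw ⟨_, hb⟩ ev
  have k3 := far_adm (by linarith) (by linarith) (by linarith) hK hf hw ⟨_, hb⟩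
  have mF : MeasurableSet {x : E3 | 2 * r1 ≤ ‖x‖} :=
    (isClosed_le continuous_const continuous_norm).measurableSet
  rw [← integral_indicator mF] at k3
  have iF := hw.i1.indicator mF
  obtain ⟨M1, hM1⟩ := tT.bd
  have iT : Integrable (fun x => ob.g x ^ 2 * (w x * χ x) ^ 2) := by
    refine ig.mul_bdd (c := M1 ^ 2) ((ctst_mf tT.ld).pow 2) ?_
    filter_upwards [hM1] with x hx
    rw [Real.norm_eq_abs, abs_pow]
    exact pow_le_pow_left₀ (abs_nonneg _) hx 2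
  refine ⟨a, ∫ x, ob.g x ^ 2 * (w x * χ x) ^ 2, _, _, rfl, rfl, ?_, ?_⟩
  · have j := thp_int3 hw.i1 k1 iF iT (a := e1 ^ 2) (b := 1) (c := 9) (by
      filter_upwards [hc, ae_mem_D L] with x c1 c2
      obtain ⟨pA, pB⟩ := csg_mem_D.1 c2
      have n0 : 0 ≤ Φ x ^ 2 * w x ^ 2 := by positivity
      have n1 := thpU_nn L x
      have n2 := thpU_nn L (sg x)
      have n3 : 0 ≤ {x : E3 | 2 * r1 ≤ ‖x‖}.indicator (fun x => Φ x ^ 2 * w x ^ 2) x :=
        indicator_nonneg (fun y _ => by positivity) x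
      have n4 : 0 ≤ ob.g x ^ 2 * (w x * χ x) ^ 2 := by positivity
      have n5 : 0 ≤ e1 ^ 2 * (Φ x ^ 2 * w x ^ 2 * (thpU L x + thpU L (sg x))) := by positivity
      have hole : ∀ y, 0 < rA L y → rA L y ≤ e1 → 1 ≤ e1 ^ 2 * thpU L y := by
        intro y a1 a2
        unfold thpU
        rw [if_pos (a2.trans h2), mul_one_div, one_le_div (by positivity)]
        exact pow_le_pow_left₀ a1.le a2 2
      have hole2 : 1 ≤ e1 ^ 2 * (thpU L x + thpU L (sg x)) → Φ x ^ 2 * w x ^ 2 ≤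
          e1 ^ 2 * (Φ x ^ 2 * w x ^ 2 * (thpU L x + thpU L (sg x))) := fun h => by
        linarith [mul_le_mul_of_nonneg_left h n0]
      rcases le_total (rA L x) e1 with hA | hA
      · have := hole x pA hA
        have := hole2 (by nlinarith [mul_nonneg (sq_nonneg e1) n2])
        linarith
      rcases le_total (rB L x) e1 with hB | hB
      · have := hole (sg x) (by rwa [rA_sg]) (by rwa [rA_sg])
        have := hole2 (by nlinarith [mul_nonneg (sq_nonneg e1) n1])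
        linarith
      rcases le_total (2 * r1) ‖x‖ with hx | hx
      · rw [indicator_of_mem (by exact hx)]
        linarith
      obtain ⟨d1, d2⟩ := c1 ⟨by linarith, by linarith, by linarith⟩
      have d0 := ob.pg x c2
      rw [(hχ x).2.2.2.2.1 hA hB hx, mul_one] at n4 ⊢
      have d3 : Φ x ^ 2 ≤ (3 * ob.g x) ^ 2 := pow_le_pow_left₀ (by linarith) d2 2
      have d4 := mul_le_mul_of_nonneg_right d3 (sq_nonneg (w x))
      linarith)
    have := mul_le_mul_of_nonneg_left k2 (sq_nonneg e1)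
    linarith
  · have j := thp_int3 g1 hw.i2 k1 hw.i1 (a := 2) (b := 2 / Real.log (e1 / s0) ^ 2)
      (c := 2 / r1 ^ 2) (by
      filter_upwards [hc, ae_mem_D L] with x c1 c2
      obtain ⟨a1, a2, -, a4, -, a6⟩ := hχ x
      have n1 := thpU_nn L x
      have n2 := thpU_nn L (sg x)
      by_cases hx : x ∈ Blk L (3 * r1) s0
      · have d0 := ob.pg x c2
        have d3 : ob.g x ^ 2 ≤ Φ x ^ 2 := pow_le_pow_left₀ d0.le (c1 hx).1 2
        have d4 : ‖w x • q x + χ x • p x‖ ≤ |w x| * ‖q x‖ + ‖p x‖ := by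
          refine (norm_add_le _ _).trans ?_
          rw [norm_smul, norm_smul, Real.norm_eq_abs, Real.norm_eq_abs, abs_of_nonneg a1]
          linarith [mul_le_mul_of_nonneg_right a2 (norm_nonneg (p x))]
        have d5 : ‖w x • q x + χ x • p x‖ ^ 2 ≤ 2 * (w x ^ 2 * ‖q x‖ ^ 2) + 2 * ‖p x‖ ^ 2 := by
          have := pow_le_pow_left₀ (norm_nonneg _) d4 2
          rw [← sq_abs (w x)]
          nlinarith [sq_nonneg (|w x| * ‖q x‖ - ‖p x‖)]
        have d6 := mul_le_mul_of_nonneg_left a6 (sq_nonneg (w x))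
        have d7 : ‖w x • q x + χ x • p x‖ ^ 2 ≤ 2 * (w x ^ 2 * ((thpU L x + thpU L (sg x)) /
            Real.log (e1 / s0) ^ 2 + 1 / r1 ^ 2)) + 2 * ‖p x‖ ^ 2 := by linarith
        refine (mul_le_mul d3 d7 (sq_nonneg _) (sq_nonneg _)).trans (le_of_eq ?_)
        ring
      · rw [(a4 hx).1, (a4 hx).2]
        simp only [smul_zero, zero_smul, add_zero, norm_zero]
        norm_num
        positivity)
    have j1 := mul_le_mul_of_nonneg_left k2
      (show 0 ≤ 2 / Real.log (e1 / s0) ^ 2 by positivity)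
    have j2 : 0 ≤ ∫ x, ob.g x ^ 2 * (w x * χ x) ^ 2 := integral_nonneg fun x => by positivity
    have j3 := mul_le_mul_of_nonneg_right (show c0 ≤ 2 * (-1 / 2 + c0 - ob.eg) by linarith) j2
    linarith

theorem th_poin {c0 Ch K : ℝ} (h0 : 0 < c0) (hCh : 1 ≤ Ch) (hK : 1 ≤ K) : ∃ κ > 0, ∃ s0 > 0,
    s0 ≤ 1 / 200 ∧ ∀ᶠ r1 : ℝ in atTop, ∀ (L : ℝ) (ob : OB c0 L) (Φ : E3 → ℝ), 1 ≤ L →
    L + 1 ≤ r1 → ob.eg ≤ -1 / 2 + c0 / 2 → MemLp Φ 2 volume → ∫ x, Φ x ^ 2 = 2 →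
    (∀ᵐ x : E3, Φ (sg x) = Φ x) → HoleB L Ch Φ → FarB r1 K Φ →
    (∀ᵐ x : E3, x ∈ Blk L (3 * r1) s0 → ob.g x ≤ Φ x ∧ Φ x ≤ 3 * ob.g x) → Poin L κ Φ := by
  set e1 : ℝ := 1 / (200 * Ch) with he1
  set l : ℝ := 1 + 288 * Ch / c0 with hl
  have p1 : 0 < e1 := by positivity
  have p2 : e1 ≤ 1 / 200 := one_div_le_one_div_of_le (by norm_num) (by linarith)
  have p3 : 1 ≤ l := le_add_of_nonneg_right (by positivity)
  have p4 : e1 * Real.exp (-l) < e1 :=
    mul_lt_of_lt_one_right p1 (Real.exp_lt_one_iff.2 (by linarith))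
  have p5 : Real.log (e1 / (e1 * Real.exp (-l))) = l := by
    rw [← div_div, div_self p1.ne', one_div, ← Real.exp_neg, neg_neg, Real.log_exp]
  set B : ℝ := 2 * (1 / 4 + 2 * K + 18 / c0) with hB
  have p6 : 0 < B := by positivity
  refine ⟨B⁻¹, inv_pos.2 p6, e1 * Real.exp (-l), by positivity, p4.le.trans p2, ?_⟩
  filter_upwards [eventually_ge_atTop (1 + 64 * K + 144 / c0)] with r1 hr1
  intro L ob Φ hL hr hg hΦ m1 ev hh hf hc
  refine th_var (inv_pos.2 p6).le hΦ m1 fun s p hs ⟨M0, hM⟩ => ?_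
  obtain ⟨a, G, M, D, eM, eD, i1, i2⟩ := thp_main ob hL hr (by positivity) p4 p2 (by linarith) hg
    hΦ ev hh hf hc hs hM
  refine ⟨a, ?_⟩
  have nM : 0 ≤ M := eM ▸ integral_nonneg fun x => by positivity
  have nD : 0 ≤ D := eD ▸ integral_nonneg fun x => by positivity
  rw [← eM, ← eD, inv_mul_le_iff₀ p6]
  rw [p5] at i2
  have q0 : 0 ≤ 144 / c0 := by positivity
  have q1 : 1 ≤ r1 := by linarith
  have q2 : r1 ≤ r1 ^ 2 := by nlinarith
  have q3 : 0 < r1 ^ 2 := by positivity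
  have a1 : e1 ^ 2 * (2 * Ch) ≤ 1 / 8 := by
    have : e1 * Ch = 1 / 200 := by
      rw [he1]
      field_simp
    nlinarith
  have a2 : 2 * K * (4 / r1 ^ 2) ≤ 1 / 8 := by
    rw [← mul_div_assoc, div_le_iff₀ q3]
    linarith
  have a3 : 9 / c0 * (2 / l ^ 2 * (2 * Ch)) ≤ 1 / 8 := by
    have e : 9 / c0 * (2 / l ^ 2 * (2 * Ch)) = 288 * Ch / c0 / 8 / l ^ 2 := by
      field_simp
      ring
    rw [e, div_le_iff₀ (by positivity)]
    nlinarith
  have a4 : 9 / c0 * (2 / r1 ^ 2) ≤ 1 / 8 := by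
    have e : 9 / c0 * (2 / r1 ^ 2) = 144 / c0 / 8 / r1 ^ 2 := by
      field_simp
      ring
    rw [e, div_le_iff₀ q3]
    linarith
  have b0 := mul_le_mul_of_nonneg_left i2 (show 0 ≤ 9 / c0 by positivity)
  have b1 : 9 / c0 * (c0 * G) = 9 * G := by field_simp
  have b2 := mul_le_mul_of_nonneg_right a1 (add_nonneg nD nM)
  have b3 := mul_le_mul_of_nonneg_right a2 nM
  have b4 := mul_le_mul_of_nonneg_right a3 (add_nonneg nD nM)
  have b5 := mul_le_mul_of_nonneg_right a4 nM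
  have b6 : 18 / c0 = 2 * (9 / c0) := by ring
  rw [hB, b6]
  nlinarith

end

end Vale.Agent.P363
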