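import Vale.Agent.P363.ThSub

/-! P363, block Th: positivity. -/

open MeasureTheory Set Metric Filter Topology
open scoped RealInnerProductSpace

namespace Vale.Agent.P363

noncomputable section

theorem thpos_D {L : ℝ} {x : E3} (h : x 0 ≠ 0) : x ∈ D L := by
  constructor <;> rintro rfl <;> exact h (by simp [nA, e_apply])

theorem thpos_pt {w ξ M : ℝ} (g q : E3) (hq : ‖q‖ ≤ M) :
    ξ ^ 2 * ‖w • (0 - g)‖ ^ 2 / 2 ≤
      ⟪g, w • (ξ • q + ξ • q) + (ξ * ξ) • (-(w ^ 2) • (0 - g))⟫ + 2 * M ^ 2 := by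
  have h1 := norm_add_sq_real ((ξ * w) • g) ((2 : ℝ) • q)
  have h2 := sq_nonneg ‖(ξ * w) • g + (2 : ℝ) • q‖
  have h3 := pow_le_pow_left₀ (norm_nonneg _) hq 2
  simp only [zero_sub, inner_add_right, real_inner_smul_right, real_inner_smul_left,
    inner_neg_right, real_inner_self_eq_norm_sq, norm_smul, norm_neg, mul_pow, Real.norm_eq_abs,
    sq_abs] at h1 ⊢
  nlinarith

theorem thpos_log {y e : ℝ} (he : 0 < e) (h1 : e ≤ y) (h2 : y ≤ Real.pi + e) :
    |Real.log y| ≤ Real.pi + e + e⁻¹ := by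
  have h0 : 0 < y := he.trans_le h1
  have a1 := Real.log_le_sub_one_of_pos h0
  have a2 := Real.log_le_sub_one_of_pos (inv_pos.mpr h0)
  have a3 := inv_anti₀ he h1
  have a4 := inv_pos.mpr he
  have a5 := Real.pi_pos
  rw [Real.log_inv] at a2
  rw [abs_le]
  constructor <;> linarith

variable {L I δ0 : ℝ} {N : E3 → ℝ} {gN : E3 → E3}

theorem thpos_l1 (t : TH L I δ0 N gN) {e : ℝ} (he : 0 < e) :
    L1 (D L) (fun x => (Real.pi / 2 + e - t.θ x)⁻¹)
      (fun x => -((Real.pi / 2 + e - t.θ x)⁻¹ ^ 2) • (0 - t.gθ x)) ∧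
    L1 (D L) (fun x => Real.log (Real.pi / 2 + e - t.θ x))
      (fun x => (Real.pi / 2 + e - t.θ x)⁻¹ • (0 - t.gθ x)) ∧
    ∀ x, e ≤ Real.pi / 2 + e - t.θ x ∧ |(Real.pi / 2 + e - t.θ x)⁻¹| ≤ e⁻¹ := by
  have hU := isOpen_D L
  have hb : ∀ x, e ≤ Real.pi / 2 + e - t.θ x ∧ |(Real.pi / 2 + e - t.θ x)⁻¹| ≤ e⁻¹ := fun x => by
    have h1 : e ≤ Real.pi / 2 + e - t.θ x := by linarith [(t.chi_bd x).1]
    exact ⟨h1, by rw [abs_of_pos (inv_pos.mpr (he.trans_le h1))]; exact inv_anti₀ he h1⟩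
  have l0 := (LD.const (D L) (Real.pi / 2 + e)).sub t.l1.ld
  have hp : LocP (D L) fun x => Real.pi / 2 + e - t.θ x :=
    fun _ _ _ => ⟨e, he, ae_of_all _ fun x _ => (hb x).1⟩
  have hg : Loc2 (D L) fun x => ‖t.gθ x‖ := fun K hK hKU => (t.l1.l2g K hK hKU).norm
  have e0 := inv_pos.mpr he
  have p0 := Real.pi_pos
  refine ⟨L1.of_le hU (l0.inv hU hp) (ctst_loc2_zero _) hg fun _ _ _ =>
      ⟨e⁻¹ + e⁻¹ ^ 2, ae_of_all _ fun x _ => ⟨?_, ?_⟩⟩,
    L1.of_le hU (l0.log hU hp) (ctst_loc2_zero _) hg fun _ _ _ =>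
      ⟨Real.pi + e + e⁻¹, ae_of_all _ fun x _ => ⟨?_, ?_⟩⟩, hb⟩
  · simp only [abs_zero, add_zero, mul_one]
    linarith [(hb x).2, sq_nonneg e⁻¹]
  · rw [zero_sub, norm_smul, norm_neg, norm_neg, abs_norm, norm_pow, Real.norm_eq_abs]
    exact mul_le_mul (by linarith [pow_le_pow_left₀ (abs_nonneg _) (hb x).2 2]) (by linarith)
      (norm_nonneg _) (by positivity)
  · simp only [abs_zero, add_zero, mul_one]
    exact thpos_log he (hb x).1 (by linarith [(t.chi_bd x).2])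
  · rw [zero_sub, norm_smul, norm_neg, abs_norm, Real.norm_eq_abs]
    exact mul_le_mul (by linarith [(hb x).2]) (by linarith) (norm_nonneg _) (by positivity)

theorem thpos_grad (t : TH L I δ0 N gN) (hδ : 0 ≤ δ0) {c : E3} {r1 r2 : ℝ} (h1 : 0 ≤ r1)
    (h2 : r1 < r2) (hD : closedBall c r2 ⊆ D L) {B : Set E3} (hB : MeasurableSet B)
    (hBc : B ⊆ closedBall c r1) : ∃ C, 0 ≤ C ∧ ∀ e > 0,
      ∫ x in B, ‖(Real.pi / 2 + e - t.θ x)⁻¹ • (0 - t.gθ x)‖ ^ 2 ≤ C := by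
  have hU := isOpen_D L
  have hK := isCompact_closedBall c r2
  have hBK : B ⊆ closedBall c r2 := hBc.trans (closedBall_subset_closedBall h2.le)
  obtain ⟨ξ, q, hξ, -, -, hq⟩ := exists_cut c h1 h2
  have tξ : Tst (D L) ξ q := ⟨hξ.ld, hξ.l2g, hξ.bd, _, hK, hD, fun x hx =>
    (hq x).2.2.2.2.1 (by rw [mem_closedBall, dist_eq_norm, not_le] at hx; exact hx.le)⟩
  have t1 := tξ.mul hU (hξ.h1.1.l1 _) (ths_locB (M := 1) fun x => by
    rw [abs_of_nonneg (hq x).1]; exact (hq x).2.1)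
  obtain ⟨n, hn, hn'⟩ := t.n0.lp _ hK hD
  obtain ⟨M, hM⟩ : ∃ M, M = 1 / (r2 - r1) := ⟨_, rfl⟩
  rw [← hM] at hq
  refine ⟨2 / n ^ 2 * (6 * δ0 + 6 * M ^ 2), by positivity, fun e he => ?_⟩
  obtain ⟨l1, l2, hb⟩ := thpos_l1 t he
  have t2 := t1.mul hU l1 (ths_locB fun x => (hb x).2)
  obtain ⟨i1, i2⟩ := t.el_int t2
  have el := t.el _ _ t2
  have i3 := t.n0.h.l2.integrable_sq
  have i4 := i1.fun_add (i3.const_mul (2 * M ^ 2))
  have a1 : ∫ x, N x ^ 2 * Real.sin (2 * t.θ x) * ((Real.pi / 2 + e - t.θ x)⁻¹ * (ξ x * ξ x)) ≤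
      ∫ x, 2 * N x ^ 2 := by
    refine integral_mono i2 (i3.const_mul 2) fun x => ?_
    have b1 : Real.sin (2 * t.θ x) ≤ 2 * (Real.pi / 2 + e - t.θ x) := by
      rw [← Real.sin_pi_sub]
      linarith [Real.sin_le (x := Real.pi - 2 * t.θ x) (by linarith [(t.chi_bd x).1])]
    have b2 : 0 < Real.pi / 2 + e - t.θ x := he.trans_le (hb x).1
    have b3 : Real.sin (2 * t.θ x) * (Real.pi / 2 + e - t.θ x)⁻¹ ≤ 2 := by
      rwa [← div_eq_mul_inv, div_le_iff₀ b2]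
    have b4 := mul_le_mul_of_nonneg_right b3 (mul_self_nonneg (ξ x))
    have b5 := mul_le_one₀ (hq x).2.1 (hq x).1 (hq x).2.1
    have b6 := mul_le_mul_of_nonneg_left (b4.trans (by linarith : 2 * (ξ x * ξ x) ≤ 2))
      (sq_nonneg (N x))
    beta_reduce
    linarith
  rw [integral_const_mul, t.n0.mass] at a1
  have a2 := integral_add i1 (i3.const_mul (2 * M ^ 2))
  rw [integral_const_mul, t.n0.mass, el] at a2
  have a3 := fun x => mul_le_mul_of_nonneg_left (thpos_pt (w := (Real.pi / 2 + e - t.θ x)⁻¹)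
    (ξ := ξ x) (t.gθ x) (q x) (hq x).2.2.1) (sq_nonneg (N x))
  have a4 := setIntegral_le_integral (s := B) i4 (ae_of_all _ fun x => by
    have := a3 x
    have : 0 ≤ N x ^ 2 * (ξ x ^ 2 * ‖(Real.pi / 2 + e - t.θ x)⁻¹ • (0 - t.gθ x)‖ ^ 2 / 2) := by
      positivity
    simp only [Pi.zero_apply]
    linarith)
  have a5 := mul_le_mul_of_nonneg_left a1 hδ
  refine le_trans ?_ (mul_le_mul_of_nonneg_left (a4.trans (a2.le.trans (by linarith)))
    (by positivity))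
  rw [← integral_const_mul]
  refine integral_mono_ae ((l2.l2g _ hK hD).mono_measure
    (Measure.restrict_mono hBK le_rfl)).norm.integrable_sq (i4.integrableOn.const_mul _) ?_
  filter_upwards [ae_restrict_of_ae hn', ae_restrict_mem hB] with x b1 b2
  have b3 := a3 x
  rw [((hq x).2.2.2.1 (by simpa only [mem_closedBall, dist_eq_norm] using hBc b2)).1] at b3 ⊢
  have b4 := mul_le_mul_of_nonneg_right (pow_le_pow_left₀ hn.le (b1 (hBK b2)) 2)
    (sq_nonneg ‖(Real.pi / 2 + e - t.θ x)⁻¹ • (0 - t.gθ x)‖)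
  rw [div_mul_eq_mul_div, le_div_iff₀ (by positivity)]
  linarith

theorem thpos_box (t : TH L I δ0 N gN) (hδ : 0 ≤ δ0) {c : E3} {r1 r2 : ℝ} (h1 : 0 ≤ r1)
    (h2 : r1 < r2) (hD : closedBall c r2 ⊆ D L) {a b : Fin 3 → ℝ} {s : ℝ}
    (hab : ∀ k, a k < b k ∧ b k - a k ≤ s) (hBc : Box a b ⊆ closedBall c r1) {T : Set E3}
    (hT : IsOpen T) (hT0 : (T ∩ Box a b).Nonempty) {m : ℝ} (hm : 0 < m)
    (h : ∀ᵐ x : E3, x ∈ T → m ≤ t.Φ x) : ∀ᵐ x : E3, x ∈ Box a b → t.θ x ≠ Real.pi / 2 := by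
  have hK := isCompact_closedBall c r2
  have hBK : Box a b ⊆ closedBall c r2 := hBc.trans (closedBall_subset_closedBall h2.le)
  have hB := isOpen_Box a b
  have hfin := (volume_Box fun k => (hab k).1).1
  obtain ⟨C, hC, hG⟩ := thpos_grad t hδ h1 h2 hD hB.measurableSet hBc
  obtain ⟨M, hM⟩ := t.n0.lb _ hK hD
  have hS : NullMeasurableSet ({x | t.θ x = Real.pi / 2} ∩ Box a b) volume :=
    (t.meas.aemeasurable.nullMeasurable (measurableSet_singleton _)).inter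
      hB.measurableSet.nullMeasurableSet
  have hT1 : 0 < volume.real (T ∩ Box a b) :=
    ENNReal.toReal_pos ((hT.inter hB).measure_pos _ hT0).ne'
      (ne_top_of_le_ne_top hfin (measure_mono inter_subset_right))
  have key : volume.real ({x | t.θ x = Real.pi / 2} ∩ Box a b) = 0 := by
    by_contra h0
    have hμ := lt_min (measureReal_nonneg.lt_of_ne' h0) hT1
    obtain ⟨μ, eμ⟩ : ∃ μ, μ = min (volume.real ({x | t.θ x = Real.pi / 2} ∩ Box a b))
      (volume.real (T ∩ Box a b)) := ⟨_, rfl⟩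
    rw [← eμ] at hμ
    have hm' : 0 < m / (|M| + 1) := by positivity
    have hτ : 0 ≤ 8 * s ^ 2 * C / μ := by positivity
    have he : 0 < m / (|M| + 1) * Real.exp (-(8 * s ^ 2 * C / μ + 1)) := by positivity
    obtain ⟨-, l2, hb⟩ := thpos_l1 t he
    have k := box_two_sets hab (l2.ld.mono (hBK.trans hD))
      ((l2.l2 _ hK hD).mono_measure (Measure.restrict_mono hBK le_rfl))
      ((l2.l2g _ hK hD).mono_measure (Measure.restrict_mono hBK le_rfl)) hS
      (hT.inter hB).measurableSet.nullMeasurableSet inter_subset_right inter_subset_right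
      (c := Real.log (m / (|M| + 1)) - (8 * s ^ 2 * C / μ + 1)) (t := 8 * s ^ 2 * C / μ + 1)
      (by positivity)
      (ae_of_all _ fun x hx => by
        rw [show t.θ x = Real.pi / 2 from hx.1, add_sub_cancel_left,
          Real.log_mul hm'.ne' (Real.exp_pos _).ne', Real.log_exp]
        exact le_rfl)
      (by
        filter_upwards [h, hM, t.locB_X.2.2] with x a1 a2 a3 hx
        rw [sub_add_cancel]
        refine Real.log_le_log hm' ?_
        have b1 : m ≤ N x * (Real.pi / 2 - t.θ x) := (a1 hx.1).trans a3.2.1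
        have b2 : N x ≤ |M| + 1 := by
          linarith [le_abs_self (N x), a2 (hBK hx.2), le_abs_self M]
        have b3 := mul_le_mul_of_nonneg_right b2 (t.chi_bd x).1
        have b4 : m / (|M| + 1) ≤ Real.pi / 2 - t.θ x := by
          rw [div_le_iff₀ (by positivity)]
          linarith
        linarith)
    rw [← eμ] at k
    have k1 := mul_le_mul_of_nonneg_left (hG _ he) (by positivity : 0 ≤ 8 * s ^ 2)
    have k2 : 8 * s ^ 2 * C / μ * μ = 8 * s ^ 2 * C := div_mul_cancel₀ _ hμ.ne'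
    have k3 := mul_nonneg (mul_nonneg hτ hτ) hμ.le
    have k4 := mul_nonneg hτ hμ.le
    nlinarith
  rw [measureReal_eq_zero_iff (ne_top_of_le_ne_top hfin (measure_mono inter_subset_right))] at key
  filter_upwards [measure_eq_zero_iff_ae_notMem.mp key] with x hx h3 h4
  exact hx ⟨h4, h3⟩

theorem thpos_half (t : TH L I δ0 N gN) (hδ : 0 ≤ δ0) {m : ℝ} (hm : 0 < m)
    (h : ∀ᵐ x : E3, ‖x‖ ≤ 3 → 1 ≤ |x 0| → 0 < x 2 → m ≤ t.Φ x) {s r : ℝ} (hs : s = 1 ∨ s = -1)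
    (hr : 2 < r) : ∀ᵐ x : E3, r⁻¹ < s * x 0 → ‖x‖ < r → t.θ x ≠ Real.pi / 2 := by
  have r0 : 0 < r := by linarith
  have r1 : 0 < r⁻¹ := inv_pos.mpr r0
  have r2 : r⁻¹ * r = 1 := inv_mul_cancel₀ r0.ne'
  have r3 : r⁻¹ < 1 := inv_lt_one_of_one_lt₀ (by linarith)
  have r4 : 1 ≤ r ^ 3 := one_le_pow₀ (by linarith)
  have s2 : s ^ 2 = 1 := by rcases hs with rfl | rfl <;> norm_num
  have hmem : ∀ x : E3, x ∈ Box ![min (s * r⁻¹) (s * r), -r, -r] ![max (s * r⁻¹) (s * r), r, r] ↔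
      (r⁻¹ < s * x 0 ∧ s * x 0 < r) ∧ |x 1| < r ∧ |x 2| < r := fun x => by
    simp only [Box, mem_ofPred_eq, Fin.forall_fin_succ, abs_lt]
    refine and_congr ?_ (by simp)
    rcases hs with rfl | rfl
    · simp [min_eq_left (by linarith : r⁻¹ ≤ r), max_eq_right (by linarith : r⁻¹ ≤ r)]
    · simp only [neg_mul, one_mul, min_eq_right (by linarith : -r ≤ -r⁻¹),
        max_eq_left (by linarith : -r ≤ -r⁻¹), Matrix.cons_val_zero]
      constructor <;> rintro ⟨_, _⟩ <;> constructor <;> linarith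
  have key := thpos_box t hδ (c := (s * (3 * r ^ 3)) • e 0) (r1 := 3 * r ^ 3 - r⁻¹ / 2)
    (r2 := 3 * r ^ 3 - r⁻¹ / 4) (by linarith) (by linarith) (fun x hx => thpos_D fun h0 => ?_)
    (a := ![min (s * r⁻¹) (s * r), -r, -r]) (b := ![max (s * r⁻¹) (s * r), r, r]) (s := 2 * r) ?_
    (fun x hx => ?_) (T := {x : E3 | ‖x‖ < 3 ∧ 1 < |x 0| ∧ 0 < x 2}) ?_
    ⟨(s * (3 / 2)) • e 0 + e 2, ?_, ?_⟩ hm (h.mono fun x hx hT => hx hT.1.le hT.2.1.le hT.2.2)
  · filter_upwards [key] with x hx h1 h2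
    refine hx ((hmem x).mpr ⟨⟨h1, ?_⟩, (abs_coord_le x 1).trans_lt h2,
      (abs_coord_le x 2).trans_lt h2⟩)
    have := abs_le.mp (abs_coord_le x 0)
    rcases hs with rfl | rfl <;> linarith [this.1, this.2]
  · rw [mem_closedBall, dist_eq_norm] at hx
    have h1 := abs_le.mp ((abs_coord_le _ 0).trans hx)
    simp only [PiLp.sub_apply, PiLp.smul_apply, e_apply, h0, if_true, smul_eq_mul] at h1
    rcases hs with rfl | rfl <;> linarith [h1.1, h1.2]
  · simp only [Fin.forall_fin_succ]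
    refine ⟨?_, by simp; constructor <;> linarith, by simp; constructor <;> linarith, by simp⟩
    rcases hs with rfl | rfl
    · simp only [one_mul, min_eq_left (by linarith : r⁻¹ ≤ r), max_eq_right (by linarith : r⁻¹ ≤ r),
        Matrix.cons_val_zero]
      constructor <;> linarith
    · simp only [neg_mul, one_mul, min_eq_right (by linarith : -r ≤ -r⁻¹),
        max_eq_left (by linarith : -r ≤ -r⁻¹), Matrix.cons_val_zero]
      constructor <;> linarith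
  · obtain ⟨⟨a1, a2⟩, a3, a4⟩ := (hmem x).mp hx
    rw [mem_closedBall, dist_eq_norm]
    refine (pow_le_pow_iff_left₀ (norm_nonneg _) (by linarith) two_ne_zero).mp ?_
    rw [norm_sub_sq_real, real_inner_smul_right, inner_e, norm_smul, norm_e, mul_one,
      Real.norm_eq_abs, sq_abs, normsq_eq_sum, Fin.sum_univ_three]
    have b0 : (s * x 0) ^ 2 ≤ r ^ 2 := pow_le_pow_left₀ (by linarith) a2.le 2
    have b1 : x 1 ^ 2 ≤ r ^ 2 := sq_le_sq' (abs_lt.mp a3).1.le (abs_lt.mp a3).2.le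
    have b2 : x 2 ^ 2 ≤ r ^ 2 := sq_le_sq' (abs_lt.mp a4).1.le (abs_lt.mp a4).2.le
    have b3 := mul_le_mul_of_nonneg_left a1.le (by linarith : 0 ≤ r ^ 3)
    have b4 : r ^ 3 * r⁻¹ = r ^ 2 := by field_simp
    rw [mul_pow, s2] at b0
    rw [mul_pow, s2]
    nlinarith [sq_nonneg r⁻¹]
  · exact (isOpen_lt continuous_norm continuous_const).inter
      ((isOpen_lt continuous_const (csg_cont_coord 0).abs).inter
        (isOpen_lt continuous_const (csg_cont_coord 2)))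
  · refine ⟨(norm_add_le _ _).trans_lt ?_, ?_, by simp [e_apply]⟩
    · rw [norm_smul, norm_e, norm_e]
      rcases hs with rfl | rfl <;> norm_num
    · rcases hs with rfl | rfl <;> simp [e_apply] <;> norm_num
  · rw [hmem]
    rcases hs with rfl | rfl <;> simp [e_apply] <;> refine ⟨⟨?_, ?_⟩, ?_, ?_⟩ <;> linarith

theorem th_pos {L I δ0 : ℝ} {N : E3 → ℝ} {gN : E3 → E3} (t : TH L I δ0 N gN) (hδ : 0 ≤ δ0)
    (h : ∃ c > 0, ∀ᵐ x : E3, ‖x‖ ≤ 3 → 1 ≤ |x 0| → 0 < x 2 → c ≤ t.Φ x) :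
    ∀ᵐ x : E3, 0 < t.Φ x := by
  obtain ⟨m, hm, h⟩ := h
  have k1 := ae_all_iff.mpr fun n : ℕ => thpos_half t hδ hm h (Or.inl rfl) (r := n + 3)
    (by linarith [n.cast_nonneg (α := ℝ)])
  have k2 := ae_all_iff.mpr fun n : ℕ => thpos_half t hδ hm h (Or.inr rfl) (r := n + 3)
    (by linarith [n.cast_nonneg (α := ℝ)])
  have k3 : ∀ᵐ x : E3, 0 < x 2 → 0 < t.Φ x := by
    filter_upwards [k1, k2, ae_coord_ne 0 0, t.rep] with x a1 a2 a3 a4 hx
    obtain ⟨n, hn⟩ := exists_nat_gt (max ‖x‖ |x 0|⁻¹)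
    have b1 : ‖x‖ < n + 3 := by linarith [le_max_left ‖x‖ |x 0|⁻¹]
    have b2 : (n + 3 : ℝ)⁻¹ < |x 0| :=
      inv_lt_of_inv_lt₀ (abs_pos.mpr a3) (by linarith [le_max_right ‖x‖ |x 0|⁻¹])
    have b3 : t.θ x ≠ Real.pi / 2 := by
      rcases lt_abs.mp b2 with b | b
      · exact a1 n (by linarith) b1
      · exact a2 n (by linarith) b1
    rw [a4.2.1]
    exact mul_pos a4.1 (Real.cos_pos_of_mem_Ioo ⟨by linarith [t.pos x hx, Real.pi_pos],
      (abs_le.mp (t.bd x)).2.lt_of_ne b3⟩)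
  filter_upwards [k3, ae_sg k3, ae_plane, t.pair.ev] with x a1 a2 a3 a4
  rcases lt_or_gt_of_ne a3 with b | b
  · rw [← a4]
    exact a2 (by rw [sg_2]; linarith)
  · exact a1 b

end

end Vale.Agent.P363
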