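import Vale.Agent.P363.ThWw
import Vale.Agent.P363.ThSub

/-! P363, block Th: lower bound in the far slab. -/

open MeasureTheory Set Metric Filter Topology
open scoped RealInnerProductSpace

namespace Vale.Agent.P363

noncomputable section

theorem thl_locB_sub {U : Set E3} {f g : E3 → ℝ} (h : LocB U f) (h' : LocB U g) :
    LocB U (fun x => f x - g x) := fun K hK hKU => by
  obtain ⟨M, hM⟩ := h K hK hKU
  obtain ⟨M', hM'⟩ := h' K hK hKU
  refine ⟨M + M', ?_⟩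
  filter_upwards [hM, hM'] with x a b hx using (abs_sub _ _).trans (add_le_add (a hx) (b hx))

/-- The weak inequality for `Y1 / N - Y2 / N - χ`. -/
theorem thl_ineq {L I δ0 : ℝ} {N : E3 → ℝ} {gN : E3 → E3} (t : TH L I δ0 N gN) {U : Set E3}
    (hD : U ⊆ D L) {Y1 Y2 a1 a2 : E3 → ℝ} {g1 g2 : E3 → E3}
    (h1 : L1 U (fun x => Y1 x / N x) g1) (b1 : LocB U (fun x => Y1 x / N x))
    (h2 : L1 U (fun x => Y2 x / N x) g2) (b2 : LocB U (fun x => Y2 x / N x)) (d0 : 0 ≤ δ0)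
    {ψ : E3 → ℝ} {p : E3 → E3} (ht : Tst U ψ p) (hψ : ∀ᵐ x : E3, 0 ≤ ψ x)
    (i1 : Integrable (fun x => a1 x * N x * ψ x))
    (e1 : ∫ x, N x ^ 2 * ⟪g1 x, p x⟫ ≤ ∫ x, a1 x * N x * ψ x)
    (i2 : Integrable (fun x => a2 x * N x * ψ x))
    (e2 : ∫ x, a2 x * N x * ψ x ≤ ∫ x, N x ^ 2 * ⟪g2 x, p x⟫)
    (s1 : ∀ x ∈ U, a1 x + 2 * δ0 * Y1 x ≤ 0) (s2 : ∀ x ∈ U, 0 ≤ a2 x ∧ 0 ≤ Y2 x) :
    ∫ x, (N x ^ 2 * ⟪g1 x - g2 x - (0 - t.gθ x), p x⟫ +
      2 * δ0 * N x ^ 2 * (Y1 x / N x - Y2 x / N x - (Real.pi / 2 - t.θ x)) * ψ x) ≤ 0 := by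
  obtain ⟨K, hK, hKU, hz⟩ := ht.cpt
  have iN : Integrable (fun x => N x ^ 2) := t.n0.h.l2.integrable_sq
  have m1 := csub_smul_tst ht iN.1.restrict (ths_locB_sq (ths_locB_mono t.n0.lb hD))
  have j1 := csub_intQ h1.l2g ht m1
  have j2 := csub_intQ h2.l2g ht m1
  obtain ⟨j3, i3⟩ := t.el_int (ht.mono hD)
  have e3 := t.el _ _ (ht.mono hD)
  have c1 := t.chi_l1.1.mono hD
  have i4 : Integrable (fun x => 2 * δ0 * N x ^ 2 *
      (Y1 x / N x - Y2 x / N x - (Real.pi / 2 - t.θ x)) * ψ x) :=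
    (ht.int (csub_loc1_mul (fun K _ _ => (iN.const_mul (2 * δ0)).integrableOn)
      ((h1.sub h2).sub c1).ld.mf (thl_locB_sub (thl_locB_sub b1 b2)
        (ths_locB_mono t.chi_l1.2 hD))) h1.l2g).1
  have j4 : Integrable (fun x => N x ^ 2 * ⟪g1 x, p x⟫ - N x ^ 2 * ⟪g2 x, p x⟫) := j1.sub j2
  have j5 : Integrable (fun x => N x ^ 2 * ⟪g1 x, p x⟫ - N x ^ 2 * ⟪g2 x, p x⟫ +
      N x ^ 2 * ⟪t.gθ x, p x⟫) := j4.add j3
  have k4 : Integrable (fun x => a1 x * N x * ψ x - a2 x * N x * ψ x) := i1.sub i2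
  have k5 : Integrable (fun x => a1 x * N x * ψ x - a2 x * N x * ψ x +
      δ0 * (N x ^ 2 * Real.sin (2 * t.θ x) * ψ x)) := k4.add (i3.const_mul δ0)
  have f1 : ∫ x, (a1 x * N x * ψ x - a2 x * N x * ψ x +
      δ0 * (N x ^ 2 * Real.sin (2 * t.θ x) * ψ x) + 2 * δ0 * N x ^ 2 *
      (Y1 x / N x - Y2 x / N x - (Real.pi / 2 - t.θ x)) * ψ x) ≤ 0 := by
    refine integral_nonpos_of_ae ?_
    filter_upwards [hψ, t.rep] with x a b
    by_cases hx : x ∈ K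
    · have n0 := b.1.ne'
      have u1 := mul_nonneg b.1.le a
      have u2 := mul_le_mul_of_nonneg_right (s1 x (hKU hx)) u1
      have u3 := mul_nonneg (s2 x (hKU hx)).1 u1
      have u4 := mul_nonneg (mul_nonneg d0 (s2 x (hKU hx)).2) u1
      have u5 : Real.sin (2 * t.θ x) ≤ 2 * (Real.pi / 2 - t.θ x) := by
        rw [← Real.sin_pi_sub]
        exact (Real.sin_le (by linarith [(t.chi_bd x).1])).trans (le_of_eq (by ring))
      have u6 := mul_le_mul_of_nonneg_left u5 (mul_nonneg d0 (mul_nonneg (sq_nonneg (N x)) a))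
      have u7 : N x ^ 2 * (Y1 x / N x - Y2 x / N x - (Real.pi / 2 - t.θ x)) =
          N x * Y1 x - N x * Y2 x - N x ^ 2 * (Real.pi / 2 - t.θ x) := by
        field_simp
      simp only [Pi.zero_apply]
      rw [mul_assoc (2 * δ0), u7]
      nlinarith
    · simp only [(hz x hx).1, mul_zero, sub_zero, add_zero, Pi.zero_apply, le_refl]
  rw [integral_add k5 i4, integral_add k4 (i3.const_mul δ0), integral_sub i1 i2,
    integral_const_mul] at f1
  have f2 := integral_add j5 i4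
  rw [integral_add j4 j3, integral_sub j1 j2] at f2
  refine le_trans (le_of_eq ?_) (f2.le.trans (by linarith))
  refine integral_congr_ae (Eventually.of_forall fun x => ?_)
  simp only [zero_sub, inner_sub_left, inner_neg_left]
  ring

/-- Truncation of `Λ`. -/
theorem thl_clamp {L δ η r1 C I : ℝ} {g N : E3 → ℝ} {gN : E3 → E3} (hC : 1 ≤ C)
    (nd : ND L δ η r1 C I g N gN) {U : Set E3} (hU : IsOpen U) (h1 : U ⊆ nd.Us)
    (h2 : ∀ x ∈ U, x 2 < 1) : ∃ (Λ : E3 → ℝ) (gΛ : E3 → E3), L1 U Λ gΛ ∧ (∀ x, |Λ x| ≤ C) ∧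
      ∀ ψ p, Tst U ψ p → (∀ᵐ x : E3, 0 ≤ ψ x) → (∀ x, x 2 < 0 → ψ x = 0 ∧ p x = 0) →
        ∫ x, ((1 / 2) * ⟪gΛ x - (N x)⁻¹ • gN x, p x⟫ +
          (‖gN x‖ ^ 2 / (2 * N x ^ 2) - C) * ψ x) ≤ 0 := by
  have l0 := nd.lΛ.mono h1
  have l1 := l0.ld.clamp hU (show -C ≤ C by linarith)
  have bd : ∀ x, |max (-C) (min C (nd.Λ x))| ≤ C := fun x =>
    abs_le.2 ⟨le_max_left _ _, max_le (by linarith) (min_le_left _ _)⟩
  refine ⟨_, _, L1.of_le (a := fun _ => 0) (b := fun x => ‖nd.gΛ x‖) hU l1 (ctst_loc2_zero U)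
    (fun K hK hKU => (l0.l2g K hK hKU).norm) fun K _ _ => ⟨C, Eventually.of_forall fun x _ =>
      ⟨by simpa using bd x, ?_⟩⟩, bd, fun ψ p ht hψ hn => ?_⟩
  · rw [abs_norm]
    have := norm_nonneg (nd.gΛ x)
    split_ifs
    · nlinarith
    · rw [norm_zero]; positivity
  · refine le_trans (le_of_eq ?_) (nd.iΛ ψ p (ht.mono h1) hψ hn)
    obtain ⟨K, hK, hKU, hz⟩ := ht.cpt
    refine integral_congr_ae ?_
    filter_upwards [l1.level hU l0.ld, nd.bΛ, ae_coord_ne 2 0] with x a b c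
    by_cases hx : x ∈ K
    · rcases lt_or_gt_of_ne c with h | h
      · simp only [(hn x h).2, inner_zero_right]
      · have h3 := abs_le.1 (b ⟨nd.oUs.2.1 (h1 (hKU hx)), h, h2 x (hKU hx)⟩)
        rw [a (hKU hx) (by rw [min_eq_right h3.2, max_eq_right h3.1])]
    · simp only [(hz x hx).2, inner_zero_right]

theorem thl_tame {I r a b : ℝ} (hI : |I - 1 / 2| ≤ 1 / 100) (hr : 100 ≤ r)
    (ha : |a + √(2 * I)| ≤ 1 / 100) (hb : |b| ≤ 1 / 100) {z : ℝ} (hz : z ^ 2 ≤ 1) :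
    -1 ≤ b + 2 * a / r ∧
      -2 + 2 * (-2 * z) * a * z / r + (2 - z ^ 2) * (b + a ^ 2 + 2 * a / r) ≤
        2 / 5 * (2 - z ^ 2) := by
  obtain ⟨i1, i2⟩ := abs_le.1 hI
  obtain ⟨a1, a2⟩ := abs_le.1 ha
  obtain ⟨b1, b2⟩ := abs_le.1 hb
  have s1 : √(2 * I) ≤ 1.01 := Real.sqrt_le_iff.2 ⟨by norm_num, by linarith⟩
  have s2 : 0.9 ≤ √(2 * I) := Real.le_sqrt_of_sq_le (by linarith)
  have r0 : 0 < r := by linarith
  have q1 : a / r ≤ 0 := div_nonpos_of_nonpos_of_nonneg (by linarith) r0.le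
  have q2 : -(1 / 50) ≤ a / r := by
    rw [le_div_iff₀ r0]; linarith
  have q3 : a ^ 2 ≤ 1.05 := by nlinarith
  have z0 := sq_nonneg z
  rw [show 2 * (-2 * z) * a * z / r = -4 * z ^ 2 * (a / r) by ring, mul_div_assoc]
  refine ⟨by linarith, ?_⟩
  have q4 : (2 - z ^ 2) * (b + a ^ 2 + 2 * (a / r) - 2 / 5) ≤ 2 * 0.7 := by
    rcases le_total 0 (b + a ^ 2 + 2 * (a / r) - 2 / 5) with h | h
    · exact mul_le_mul (by linarith) (by linarith) h zero_le_two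
    · have := mul_nonpos_of_nonneg_of_nonpos (show 0 ≤ 2 - z ^ 2 by linarith) h
      linarith
  nlinarith

theorem th_slab {C : ℝ} (hC : 1 ≤ C) : ∃ c > 0, ∀ (L I δ0 δ η r1 : ℝ) (g N : E3 → ℝ)
    (gN : E3 → E3) (t : TH L I δ0 N gN) (nd : ND L δ η r1 C I g N gN), 0 ≤ L → L ≤ r1 →
    100 ≤ r1 → |I - 1 / 2| ≤ 1 / 100 → 0 < δ0 → δ0 ≤ 1 / 2 →
    (∀ᵐ x : E3, x ∈ Ext r1 → ‖x‖ < r1 + 1 → 0 < x 2 → g x ≤ t.Φ x) →
    ∀ᵐ x : E3, x ∈ Ext r1 → 0 < x 2 → x 2 < 1 / 4 → c * Real.exp (nd.φ ‖x‖) ≤ t.Φ x := by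
  obtain ⟨K, hK⟩ : ∃ K : ℝ, K = 4 * C + 16 := ⟨_, rfl⟩
  have K0 : 1 ≤ K := by linarith
  obtain ⟨m, hm⟩ : ∃ m : ℝ, m = 2 * Real.exp (-C - K) := ⟨_, rfl⟩
  have m0 : 0 < m := by rw [hm]; positivity
  refine ⟨m, m0, fun L I δ0 δ η r1 g N gN t nd hL hr h100 hI d0 d1 sh => ?_⟩
  have hU : IsOpen (nd.Us ∩ {x : E3 | -1 < x 2 ∧ x 2 < 1}) :=
    nd.oUs.1.inter ((isOpen_lt continuous_const (csg_cont_coord 2)).inter
      (isOpen_lt (csg_cont_coord 2) continuous_const))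
  set U := nd.Us ∩ {x : E3 | -1 < x 2 ∧ x 2 < 1} with hUd
  have hE : U ⊆ Ext r1 := inter_subset_left.trans nd.oUs.2.1
  have hE' : ∀ x ∈ U, r1 < ‖x‖ := hE
  have hD : U ⊆ D L := hE.trans (Ext_subset_D hL hr)
  have hz : ∀ x ∈ U, x 2 ^ 2 ≤ 1 := fun x hx => by nlinarith [hx.2.1, hx.2.2]
  have mU : ∀ x ∈ Ext r1, 0 ≤ x 2 → x 2 < 1 → x ∈ U := fun x a b c =>
    ⟨nd.oUs.2.2 x a b c, by linarith, c⟩
  have lb := ths_locB_mono t.n0.lb hD
  have lp := ths_locP_mono t.n0.lp hD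
  obtain ⟨Λ, gΛ, hΛ, bΛ, iΛ⟩ := thl_clamp hC nd hU inter_subset_left fun x hx => hx.2.2
  have r2 : 0 ≤ r1 / 2 := by linarith
  have c1 := (C2.radial r2 (0 : E3) nd.dφ nd.cφ).mono hU fun x hx => by
    show r1 / 2 < ‖x - 0‖
    rw [sub_zero]; linarith [hE' x hx]
  simp only [sub_zero] at c1
  have c2 := (C2.coord hU 2).comp (Γ := fun s => K * ((s - 1) ^ 2 - 1) - 2 * C)
    (Γ1 := fun s => 2 * K * (s - 1)) (Γ2 := fun _ => 2 * K) isOpen_univ (fun s _ => ⟨by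
      have := (((((hasDerivAt_id s).sub_const 1).pow 2).sub_const 1).const_mul K).sub_const (2 * C)
      refine (this.congr_deriv ?_)
      simp only [id]
      ring, by
      have := ((hasDerivAt_id s).sub_const 1).const_mul (2 * K)
      exact this.congr_deriv (mul_one _)⟩) continuousOn_const fun _ _ => mem_univ _
  have c3 := c1.add c2
  have c4 := (C2.zrad (h := fun s => m * (2 - s ^ 2)) (h1 := fun s => m * (-2 * s))
    (h2 := fun _ => m * -2) r2 (fun s => ⟨by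
      have := (((hasDerivAt_id s).pow 2).const_sub 2).const_mul m
      refine (this.congr_deriv ?_)
      simp only [id]
      ring, by
      have := ((hasDerivAt_id s).const_mul (-2)).const_mul m
      exact this.congr_deriv (by ring)⟩) continuous_const nd.dφ nd.cφ).mono hU fun x hx => by
    show r1 / 2 < ‖x‖
    linarith [hE' x hx]
  have Y0 : ∀ x ∈ U, 0 ≤ m * (2 - x 2 ^ 2) * Real.exp (nd.φ ‖x‖) := fun x hx =>
    mul_nonneg (mul_nonneg m0.le (by linarith [hz x hx])) (Real.exp_pos _).le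
  obtain ⟨p1, p2, p3⟩ := quot_exp c3 hΛ (ths_locB bΛ) (t.n0.h.l1 U) lb lp iΛ
  obtain ⟨q1, q2, q3⟩ := quot_C2 c4 Y0 (nd.scr.mono hE) lb lp
  have up : ∀ x : E3, Real.exp (Λ x + (nd.φ ‖x‖ + (K * ((x 2 - 1) ^ 2 - 1) - 2 * C))) ≤
      Real.exp (K * ((x 2 - 1) ^ 2 - 1) - C) * Real.exp (nd.φ ‖x‖) := fun x => by
    rw [← Real.exp_add]
    exact Real.exp_le_exp.2 (by linarith [(abs_le.1 (bΛ x)).2])
  have up1 : ∀ x : E3, 0 < x 2 → x 2 < 1 →
      C * Real.exp (Λ x + (nd.φ ‖x‖ + (K * ((x 2 - 1) ^ 2 - 1) - 2 * C))) ≤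
        Real.exp (nd.φ ‖x‖) := fun x a b => by
    have h1 : Real.exp (K * ((x 2 - 1) ^ 2 - 1) - C) ≤ Real.exp (-C) :=
      Real.exp_le_exp.2 (by nlinarith [mul_pos a (show 0 < 2 - x 2 by linarith)])
    have h2 : C * Real.exp (-C) ≤ 1 := by
      rw [Real.exp_neg, ← div_eq_mul_inv, div_le_one (Real.exp_pos _)]
      linarith [Real.add_one_le_exp C]
    have h3 := mul_le_mul_of_nonneg_left ((up x).trans
      (mul_le_mul_of_nonneg_right h1 (Real.exp_pos _).le)) (show 0 ≤ C by linarith)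
    have h4 := mul_le_mul_of_nonneg_right h2 (Real.exp_pos (nd.φ ‖x‖)).le
    linarith
  have w1 : ∀ᵐ x : E3, x ∈ U → 0 < x 2 →
      Real.exp (Λ x + (nd.φ ‖x‖ + (K * ((x 2 - 1) ^ 2 - 1) - 2 * C))) / N x -
        m * (2 - x 2 ^ 2) * Real.exp (nd.φ ‖x‖) / N x ≤ 1 := by
    filter_upwards [nd.low, t.rep] with x a b hx h0
    have h1 := (up1 x h0 hx.2.2).trans (a ⟨hE hx, h0, hx.2.2⟩)
    have h2 := (div_le_one b.1).2 (le_of_mul_le_mul_left h1 (by linarith))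
    linarith [div_nonneg (Y0 x hx) b.1.le]
  have hA : IsClosed {x : E3 | r1 + 1 / 2 ≤ ‖x‖ ∧ 0 ≤ x 2 ∧ x 2 ≤ 1 - 1 / (2 * K)} :=
    (isClosed_le continuous_const continuous_norm).inter
      ((isClosed_le continuous_const (csg_cont_coord 2)).inter
        (isClosed_le (csg_cont_coord 2) continuous_const))
  have s0 : 0 < 1 / (2 * K) := by positivity
  have key := wwmp (lam := 2 * δ0) hU hA (fun x hx => mU x (by
      show r1 < ‖x‖
      linarith [hx.1]) hx.2.1 (by linarith [hx.2.2])) (by linarith) t.n0.h.l2 lb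
    (t.rep.mono fun x hx => hx.1) ((p1.sub q1).sub (t.chi_l1.1.mono hD))
    (thl_locB_sub (thl_locB_sub p2 q2) (ths_locB_mono t.chi_l1.2 hD)) ?_ ?_ ?_ ?_
  · filter_upwards [key, t.rep, t.locB_X.2.2] with x a b c hx h0 h1
    have hxU := mU x hx h0.le (by linarith)
    have h2 := a hxU h0
    rw [← sub_div, sub_nonpos, div_le_iff₀ b.1] at h2
    have h3 := (c.2.2 h0).2.1
    unfold TH.X at h3
    have e0 := Real.exp_pos (nd.φ ‖x‖)
    have h4 : 8 * Real.exp (-C - K) * Real.exp (nd.φ ‖x‖) ≤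
        Real.exp (Λ x + (nd.φ ‖x‖ + (K * ((x 2 - 1) ^ 2 - 1) - 2 * C))) := by
      have h5 : 8 ≤ Real.exp 7 := by linarith [Real.add_one_le_exp 7]
      refine (mul_le_mul_of_nonneg_right (mul_le_mul_of_nonneg_right h5 (Real.exp_pos _).le)
        e0.le).trans ?_
      rw [← Real.exp_add, ← Real.exp_add]
      have h6 : 9 / 16 ≤ (x 2 - 1) ^ 2 := by nlinarith
      have h7 := mul_le_mul_of_nonneg_left h6 (show 0 ≤ K by linarith)
      exact Real.exp_le_exp.2 (by linarith [(abs_le.1 (bΛ x)).1])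
    have h8 := mul_nonneg (mul_nonneg m0.le (sq_nonneg (x 2))) e0.le
    rw [hm] at *
    linarith
  · filter_upwards [w1] with x a hx h0
    linarith [a hx h0, (t.chi_bd x).1]
  · filter_upwards [sh, t.rep, t.locB_X.2.2] with x a b c hx h0 hxA
    by_cases h : r1 + 1 / 2 ≤ ‖x‖
    · have h1 : 1 - 1 / (2 * K) < x 2 := by
        by_contra h'
        exact hxA ⟨h, h0.le, not_lt.1 h'⟩
      have h2 : K * (x 2 - 1) ^ 2 ≤ 1 / 2 := by
        have h3 : (x 2 - 1) ^ 2 ≤ (1 / (2 * K)) ^ 2 :=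
          sq_le_sq' (by linarith) (by linarith [hx.2.2])
        have h4 : K * (1 / (2 * K)) = 1 / 2 := by field_simp
        have h5 : 1 / (2 * K) ≤ 1 := by
          rw [div_le_one (by linarith)]; linarith
        have h6 := mul_le_mul_of_nonneg_left h3 (show 0 ≤ K by linarith)
        nlinarith
      have h3 : Real.exp (K * ((x 2 - 1) ^ 2 - 1) - C) ≤ m := by
        rw [hm, ← Real.exp_log two_pos, ← Real.exp_add]
        exact Real.exp_le_exp.2 (by linarith [Real.log_two_gt_d9])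
      have h4 : m ≤ m * (2 - x 2 ^ 2) := le_mul_of_one_le_right m0.le (by linarith [hz x hx])
      have h5 := (up x).trans (mul_le_mul_of_nonneg_right (h3.trans h4) (Real.exp_pos _).le)
      have h6 := div_le_div_of_nonneg_right h5 b.1.le
      linarith [(t.chi_bd x).1]
    · have h1 : ‖x‖ < r1 + 1 := by linarith [not_le.1 h]
      have h2 := (up1 x h0 hx.2.2).trans (nd.anc x ⟨hE hx, h0, hx.2.2⟩ h1)
      have h3 := ((le_of_mul_le_mul_left h2 (by linarith)).trans (a (hE hx) h1 h0)).trans c.2.1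
      unfold TH.X at h3
      rw [mul_comm (N x), ← div_le_iff₀ b.1] at h3
      linarith [div_nonneg (Y0 x hx) b.1.le]
  · refine TZ.dom hU (t.tz.mono hD) fun K' _ hKU => ⟨1, ?_⟩
    filter_upwards [w1] with x a hx h0 _
    have h1 := a (hKU hx) h0
    have h2 := le_abs_self (t.θ x)
    have h3 := Real.two_le_pi
    rw [abs_of_nonneg (le_max_right _ _)]
    exact max_le (by linarith) (by positivity)
  · intro ψ p ht hψ hn
    refine thl_ineq t hD p1 p2 q1 q2 d0.le ht hψ (p3 ψ p ht hψ hn).1 (p3 ψ p ht hψ hn).2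
      (q3 ψ p ht hψ).1 (q3 ψ p ht hψ).2 (fun x hx => ?_) fun x hx => ⟨?_, Y0 x hx⟩
    · have h1 := (hE' x hx).le
      have h2 := (thl_tame hI (h100.trans h1) (nd.tame _ h1).1 (nd.tame _ h1).2 (hz x hx)).1
      rw [← add_mul, norm_e]
      exact mul_nonpos_of_nonpos_of_nonneg (by linarith) (Real.exp_pos _).le
    · have h1 := (hE' x hx).le
      have h2 := (thl_tame hI (h100.trans h1) (nd.tame _ h1).1 (nd.tame _ h1).2 (hz x hx)).2
      have h3 := mul_le_mul_of_nonneg_left h2 (mul_pos m0 (Real.exp_pos (nd.φ ‖x‖))).le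
      have h4 := mul_le_mul_of_nonneg_right (nd.bVf x (hE hx)).1 (Y0 x hx)
      rw [sub_nonneg]
      refine le_trans (le_of_eq ?_) (h3.trans (by linarith))
      ring

end

end Vale.Agent.P363
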