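import Vale.Agent.P363.ThSub
import Vale.Agent.P363.ThAng

/-! P363, block Th: upper barriers in the far region. -/

open MeasureTheory Set Metric Filter Topology
open scoped RealInnerProductSpace

namespace Vale.Agent.P363

noncomputable section

variable {L I δ0 δ η r1 C : ℝ} {g N : E3 → ℝ} {gN : E3 → E3}

theorem thx_one (t : TH L I δ0 N gN) {Vf c B : E3 → ℝ} (hD : Ext r1 ⊆ D L)
    (scr : SubQ (Ext r1) N gN (fun x => Vf x * N x ^ 2)) (xb : XB r1 g N c B)
    (hc : ∀ x ∈ Ext r1, 1 / 5 ≤ c x)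
    (hx : ∀ᵐ x : E3, x ∈ Ext r1 → 0 < x 2 →
      c x * t.X x ≤ Vf x * t.X x + δ0 * N x * Real.sin (2 * t.θ x) / 2)
    (sh : ∀ᵐ x : E3, x ∈ Ext r1 → ‖x‖ < r1 + 1 → 0 < x 2 → t.X x ≤ 3 * g x) :
    ∀ᵐ x : E3, x ∈ Ext r1 → 0 < x 2 → t.X x ≤ B x := by
  obtain ⟨U, gB, l, hB, hUE, hEU, hl⟩ := xb.c2
  have hs := (t.subX (isOpen_Ext r1) hD scr).mono hUE
  have hA : IsClosed {x : E3 | r1 + 1 / 2 ≤ ‖x‖ ∧ 0 ≤ x 2} :=
    (isClosed_le continuous_const continuous_norm).inter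
      (isClosed_le continuous_const (csg_cont_coord 2))
  have hAE : {x : E3 | r1 + 1 / 2 ≤ ‖x‖ ∧ 0 ≤ x 2} ⊆ Ext r1 := fun x h => by
    show r1 < ‖x‖
    linarith [h.1]
  have hAU : {x : E3 | r1 + 1 / 2 ≤ ‖x‖ ∧ 0 ≤ x 2} ⊆ U := fun x h => hEU x (hAE h) h.2
  have hm := hA.measurableSet.inter isOpen_Hp.measurableSet
  have key := wmpH (lam := 1 / 5) hs hB hA hAU (ths_locB_mono t.locB_X.1 (hUE.trans hD))
    (by norm_num) ?_ ?_ ?_ ?_
  · filter_upwards [key] with x a h1 h2 using a (hEU x h1 h2.le) h2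
  · filter_upwards [sh] with x a h1 h2 h3
    have h4 : ‖x‖ < r1 + 1 := by
      by_contra h
      exact h3 ⟨by linarith [not_lt.1 h], h2.le⟩
    exact (a (hUE h1) h4 h2).trans (xb.anchor x (hUE h1) h4 h2)
  · refine TZ.of_le hB.op fun K hK hKU => ?_
    obtain ⟨M, hM⟩ := xb.plane K hK (hKU.trans hUE)
    refine ⟨|M|, ?_⟩
    filter_upwards [hM, t.locB_X.2.2] with x a b h1 h2 h3
    rw [abs_of_nonneg (le_max_right _ _)]
    have h4 := mul_le_mul_of_nonneg_right (le_abs_self M) h2.le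
    exact max_le (by linarith [a h1 h2 h3, (b.2.2 h2).1]) (by positivity)
  · have mB : AEStronglyMeasurable B
        (volume.restrict ({x : E3 | r1 + 1 / 2 ≤ ‖x‖ ∧ 0 ≤ x 2} ∩ Hp)) :=
      (hB.cont.1.mono (inter_subset_left.trans hAU)).aestronglyMeasurable hm
    refine (t.locB_X.2.1.restrict _).of_le
      ((continuous_id.max continuous_const).comp_aestronglyMeasurable
        (t.locB_X.2.1.1.restrict.sub mB)) ((ae_restrict_iff' hm).2 ?_)
    refine Eventually.of_forall fun x hx => ?_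
    rw [Real.norm_eq_abs, Real.norm_eq_abs, abs_of_nonneg (le_max_right _ _)]
    have := xb.nn x (hAE hx.1) hx.1.2
    exact max_le (by linarith [le_abs_self (t.X x)]) (abs_nonneg _)
  · filter_upwards [hx] with x a h1 h2 h3
    have b1 := a (hAE h1) h2
    have b2 := hl x (hAE h1) h2
    have b3 := mul_le_mul_of_nonneg_right (hc x (hAE h1)) (sub_pos.2 h3).le
    linarith

theorem thx_sin (t : TH L I δ0 N gN) {x : E3} (hx : 0 < x 2) :
    2 * (Real.pi / 2 - t.θ x) * max (1 - (Real.pi / 2 - t.θ x) ^ 2) 0 ≤ Real.sin (2 * t.θ x) := by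
  have h := sin_two_lower (t.chi_bd x).1 (by linarith [t.pos x hx])
  rwa [show 2 * (Real.pi / 2 - t.θ x) = Real.pi - 2 * t.θ x by ring, Real.sin_pi_sub,
    show Real.pi - 2 * t.θ x = 2 * (Real.pi / 2 - t.θ x) by ring] at h

theorem th_X (t : TH L I δ0 N gN) (nd : ND L δ η r1 C I g N gN) (hL : 0 ≤ L) (hr : L ≤ r1)
    (h1 : 0 < η) (h2 : η ≤ δ / 3) (h3 : δ - η ≤ δ0)
    (sh : ∀ᵐ x : E3, x ∈ Ext r1 → ‖x‖ < r1 + 1 → 0 < x 2 → t.X x ≤ 3 * g x) :
    ∀ᵐ x : E3, x ∈ Ext r1 → 0 < x 2 → t.X x ≤ nd.B3 x := by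
  have hD := Ext_subset_D hL hr
  have d0 : 0 ≤ δ0 := by linarith
  -- the basic lower bound for the angular term
  have low : ∀ x : E3, 0 < x 2 → δ0 * max (1 - (Real.pi / 2 - t.θ x) ^ 2) 0 * t.X x ≤
      δ0 * N x * Real.sin (2 * t.θ x) / 2 := fun x hx => by
    have := mul_le_mul_of_nonneg_left (thx_sin t hx) (mul_nonneg d0 (t.n0.nn x))
    unfold TH.X
    linarith
  have X0 : ∀ x, 0 ≤ t.X x := fun x => mul_nonneg (t.n0.nn x) (t.chi_bd x).1
  have low0 : ∀ x : E3, 0 < x 2 → 0 ≤ δ0 * N x * Real.sin (2 * t.θ x) / 2 := fun x hx =>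
    (mul_nonneg (mul_nonneg d0 (le_max_right _ _)) (X0 x)).trans (low x hx)
  have k1 := thx_one t hD nd.scr nd.x1 (fun x hx => (nd.bVf x hx).1)
    (Eventually.of_forall fun x _ hx => by linarith [low0 x hx]) sh
  have k2 := thx_one t hD nd.scr nd.x2 (fun x hx => by
    have := (nd.bVf x hx).1
    split_ifs <;> linarith) (by
    filter_upwards [k1, nd.s1, t.rep] with x a b c hx hz
    split_ifs with h
    · have e1 : N x * (10 * (Real.pi / 2 - t.θ x)) ≤ N x * 1 := by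
        have := a hx hz
        have := b hx h
        unfold TH.X at *
        linarith
      have e2 := le_of_mul_le_mul_left e1 c.1
      have e3 : 9 / 10 ≤ max (1 - (Real.pi / 2 - t.θ x) ^ 2) 0 :=
        le_max_of_le_left (by nlinarith [(t.chi_bd x).1])
      have e4 : δ / 2 ≤ δ0 * max (1 - (Real.pi / 2 - t.θ x) ^ 2) 0 := by nlinarith
      have e5 := mul_le_mul_of_nonneg_right e4 (X0 x)
      linarith [low x hz]
    · linarith [low0 x hz]) sh
  refine thx_one t hD nd.scr nd.x3 (fun x hx => ?_) ?_ sh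
  · have := (nd.bVf x hx).1
    have := mul_nonneg (show 0 ≤ δ - η by linarith) (le_max_right (1 - nd.χ x ^ 2) 0)
    split_ifs <;> linarith
  · filter_upwards [k2, nd.s2, t.rep] with x a b c hx hz
    split_ifs with h
    · have e1 : N x * (Real.pi / 2 - t.θ x) ≤ N x * nd.χ x := by
        have := a hx hz
        have := (b hx h).1
        unfold TH.X at *
        linarith
      have e2 := pow_le_pow_left₀ (t.chi_bd x).1 (le_of_mul_le_mul_left e1 c.1) 2
      have e3 : max (1 - nd.χ x ^ 2) 0 ≤ max (1 - (Real.pi / 2 - t.θ x) ^ 2) 0 :=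
        max_le_max (by linarith) le_rfl
      have e4 := mul_le_mul h3 e3 (le_max_right _ _) d0
      have e5 := mul_le_mul_of_nonneg_right e4 (X0 x)
      linarith [low x hz]
    · linarith [low0 x hz]

end

end Vale.Agent.P363
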