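import Vale.Agent.P363.ThMul
import Vale.Agent.P363.ThEL
import Vale.Agent.P363.ThCl
import Vale.Agent.P363.ThBlk
import Vale.Agent.P363.ThX
import Vale.Agent.P363.ThSlab
import Vale.Agent.P363.ThPos
import Vale.Agent.P363.ThHole
import Vale.Agent.P363.ThFar
import Vale.Agent.P363.ThPoin
import Vale.Agent.P363.ThKey
import Vale.Agent.P363.ThNov

/-! P363, block Th. -/

open MeasureTheory Set Metric Filter Topology
open scoped RealInnerProductSpace

namespace Vale.Agent.P363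

theorem ev_small {a : ℝ} (ha : 0 < a) : ∀ᶠ x in 𝓝[>] (0 : ℝ), x ≤ a :=
  mem_nhdsWithin_of_mem_nhds (Iic_mem_nhds ha)

theorem both_halves {P : E3 → Prop} (h : ∀ᵐ x : E3, 0 < x 2 → P x ∧ P (sg x)) :
    ∀ᵐ x : E3, P x := by
  filter_upwards [h, ae_sg h, ae_coord_ne 2 0] with x h1 h2 h3
  rcases lt_or_gt_of_ne h3 with h4 | h4
  · have := (h2 (by rw [sg_2]; linarith)).2
    rwa [sg_sg] at this
  · exact (h1 h4).1

theorem Blk_sg {L ρ s : ℝ} {x : E3} (h : sg x ∈ Blk L ρ s) : x ∈ Blk L ρ s := by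
  obtain ⟨h1, h2, h3⟩ := h
  rw [norm_sg] at h1
  rw [rA_sg] at h2
  rw [rB_sg] at h3
  exact ⟨h1, h3, h2⟩

theorem side_mem {L ρ s : ℝ} (hρ : 3 ≤ ρ) (hs : s ≤ 1) {x : E3} (h1 : ‖x‖ ≤ 3)
    (h2 : 1 ≤ |x 0|) : x ∈ Blk L ρ s := by
  have e0 : ∀ t : ℝ, (x - t • e 2) 0 = x 0 := by
    intro t
    simp [e_apply]
  refine ⟨h1.trans hρ, ?_, ?_⟩
  · have := abs_coord_le (x - nA L) 0
    rw [nA, e0] at this
    exact hs.trans (h2.trans this)
  · have := abs_coord_le (x - (-L) • e 2) 0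
    rw [e0] at this
    have h3 : x - (-L) • e 2 = x + nA L := by simp [nA]
    rw [h3] at this
    exact hs.trans (h2.trans this)

theorem th_main : T_Th := by
  intro c0 hc0 hc0' r0 C C2 _ hC2
  obtain ⟨c, hc, hslab⟩ := th_slab hC2
  obtain ⟨Ch, hCh, hhole⟩ := th_hole
  obtain ⟨Kf, hKf, hfar⟩ := th_far hc (show (0 : ℝ) < C2 by linarith)
  obtain ⟨κ, hκ, s0, hs0, hs0', hpoin⟩ := th_poin hc0 hCh hKf
  obtain ⟨Km, hKm, hmin⟩ := th_min
  filter_upwards [ev_small (show 0 < c0 / 2 by linarith), ev_small (show 0 < κ / 8 by linarith),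
    ev_small (show (0 : ℝ) < 1 / 1000 by norm_num), self_mem_nhdsWithin] with ω hω1 hω2 hω3 hω4
  filter_upwards [eventually_ge_atTop (1 : ℝ)] with L hL ob obb
  have hsg := abs_le.1 obb.sg
  have hsu := abs_le.1 obb.su
  have hω0 : 0 < ω := hω4
  have hdel : 0 < ob.del := sub_pos.2 ob.lt
  have hdel2 : ob.del ≤ 2 * ω := by unfold OB.del; linarith
  obtain ⟨Kc, hKc, hclose⟩ := th_close ob (by linarith)
  filter_upwards [hfar, hpoin, eventually_ge_atTop (L + 100)] with r1 hfar hpoin hr1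
  obtain ⟨ab, hab, hbulk⟩ := th_bulk ob (isCompact_Blk L (3 * r1) s0) (Blk_subset_D hs0)
  have hKK : 1 ≤ Kc * Km := one_le_mul_of_one_le_of_one_le hKc hKm
  filter_upwards [ev_small hs0, ev_small hab, ev_small (show 0 < ob.del / 3 by linarith),
    ev_small (show 0 < 1 / (Kc * Km) by positivity), ev_small (show (0 : ℝ) < 1 / 1000 by norm_num)]
    with ε hε1 hε2 hε3 hε4 hε5 η hη0 hη I N gN nb ⟨nd⟩
  have hI := abs_le.1 nb.hI
  have n0 : N0 L I N gN := ⟨nb.h, nb.nn, nb.ev, nb.mass, nb.lb, nb.lp, nb.sub⟩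
  have hη1 : η ≤ 1 / 1000 := hη.trans hε5
  have hη4 : 0 < η ^ 4 := by positivity
  have hKη : Kc * Km * η ≤ 1 := by
    have := hη.trans hε4
    rwa [le_div_iff₀ (by positivity), mul_comm] at this
  have hb3 : Kc * (Km * η ^ 4) ≤ η ^ 3 := by
    have : Kc * (Km * η ^ 4) = Kc * Km * η * η ^ 3 := by ring
    rw [this]
    exact mul_le_of_le_one_left (by positivity) hKη
  have hη3 : η ^ 3 ≤ η ^ 2 := pow_le_pow_of_le_one hη0.le (by linarith) (by norm_num)
  have hη2 : η ^ 2 ≤ η := by nlinarith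
  have hη44 : η ^ 4 ≤ η ^ 2 := pow_le_pow_of_le_one hη0.le (by linarith) (by norm_num)
  obtain ⟨δ0, m, hen⟩ := hmin L (η ^ 4) (2 * ob.eg + ob.eu) N gN hη4 (by linarith) (by linarith)
    nb.h nb.nn nb.ev nb.mass nb.comp
  have el := th_el m nb.ev
  obtain ⟨k1, k2, k3⟩ := hclose (Km * η ^ 4) (by positivity) (by linarith) δ0 N m el nb.h.l2
    nb.mass hen
  have hδ : |δ0 - ob.del| ≤ η := by
    rw [← abs_of_pos hη0]
    exact sq_le_sq.1 (by linarith)
  have hδ' := abs_le.1 hδ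
  have hδ0 : 0 < δ0 := by linarith
  obtain ⟨t, rfl⟩ := th_theta n0 m el
  have hbk := hbulk I δ0 N gN t (by rw [abs_le]; constructor <;> linarith) hδ0.le (by linarith)
    (by linarith) (by linarith) (by
      filter_upwards [nb.close] with x hx hxQ
      exact (hx ⟨hxQ.1, hε1.trans hxQ.2.1, hε1.trans hxQ.2.2⟩).trans hε2)
  obtain ⟨-, -, hX⟩ := t.locB_X
  have shell : ∀ x ∈ Ext r1, ‖x‖ < r1 + 1 → x ∈ Blk L (3 * r1) s0 := by
    intro x hx hx'
    have h1 : r1 < ‖x‖ := hx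
    have h2 := abs_rA_sub (show 0 ≤ L by linarith) x
    have h3 := abs_le.1 h2.1
    have h4 := abs_le.1 h2.2
    exact ⟨by linarith, by linarith, by linarith⟩
  have hI2 : |I - 1 / 2| ≤ 1 / 100 := by rw [abs_le]; constructor <;> linarith
  have up := th_X t nd (by linarith) (by linarith) hη0 (by linarith) (by linarith) (by
    filter_upwards [hbk] with x hx h1 h2 h3
    exact (hx (shell x h1 h2) h3).2)
  have lo := hslab L I δ0 ob.del η r1 ob.g N gN t nd (by linarith) (by linarith) (by linarith) hI2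
    hδ0 (by linarith) (by
      filter_upwards [hbk] with x hx h1 h2 h3
      exact (hx (shell x h1 h2) h3).1)
  have hblk : ∀ᵐ x : E3, x ∈ Blk L (3 * r1) s0 → ob.g x ≤ t.Φ x ∧ t.Φ x ≤ 3 * ob.g x := by
    apply both_halves
    filter_upwards [hbk, hX, t.pair.ev] with x h1 h2 h3 h4
    refine ⟨fun h => ⟨(h1 h h4).1, h2.2.1.trans (h1 h h4).2⟩, fun h => ?_⟩
    have h5 := Blk_sg h
    rw [ob.evg, h3]
    exact ⟨(h1 h5 h4).1, h2.2.1.trans (h1 h5 h4).2⟩
  have pos : ∀ᵐ x : E3, 0 < t.Φ x := by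
    apply th_pos t hδ0.le
    obtain ⟨c1, hc1, h1⟩ := LocP.of_cont ob.cg ob.pg _ (isCompact_Blk L (3 * r1) s0)
      (Blk_subset_D hs0)
    refine ⟨c1, hc1, ?_⟩
    filter_upwards [h1, hblk] with x h2 h3 h4 h5 _
    have h6 : x ∈ Blk L (3 * r1) s0 := side_mem (by linarith) (by linarith) h4 h5
    exact (h2 h6).trans (h3 h6).1
  have hF : FarB r1 Kf t.Φ := by
    refine hfar L I δ0 N gN t nd.φ nd.φ1 nd.φ2 (by linarith) (by linarith) hI2 hδ0.le
      ⟨nd.dφ, nd.cφ, nd.tame⟩ ?_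
    filter_upwards [up, lo, hX] with x h1 h2 h3 h4 h5 h6
    exact ⟨h2 h4 h5 h6, h3.2.1.trans ((h1 h4 h5).trans (nd.s3 x ⟨h4, h5, by linarith⟩))⟩
  have hP : Poin L κ t.Φ := hpoin L ob t.Φ hL (by linarith) (by linarith) t.pair.h1.l2 t.m1
    t.pair.ev (hhole L I δ0 N gN t hL (by rw [abs_le]; constructor <;> linarith) hδ0.le) hF hblk
  refine ⟨⟨t.Φ, t.Ω, t.gΦ, t.gΩ, t.pair, t.m1, ?_, ?_, ?_⟩⟩
  · have h1 := t.pair.mass
    rw [nb.mass, t.m1] at h1
    linarith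
  · intro Y _ ν _ G GG hG hN pauli
    exact th_key n0 t.toMP hδ0.le (by linarith) hP pos Y ν G GG hG hN pauli
  · intro v₁ v₂ h1 h2 μ
    exact th_nov t nd (by linarith) (by linarith) (by linarith) (by linarith) hδ0 (by linarith) hc
      up lo v₁ v₂ h1 h2 μ

end Vale.Agent.P363
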