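import Vale.Agent.P363.DefsV

/-! P363, block Top. -/

open MeasureTheory Set Metric Filter Topology
open scoped RealInnerProductSpace

namespace Vale.Agent.P363

theorem top_eta {ε : ℝ} (hε : 0 < ε) : ∀ᶠ lam in 𝓝[>] (0 : ℝ), 0 < eta lam ∧ eta lam ≤ ε := by
  have h1 : ContinuousAt eta 0 :=
    Real.continuousAt_rpow_const 0 (1 / 16) (Or.inr (by norm_num))
  have h0 : eta 0 = 0 := by
    unfold eta
    exact Real.zero_rpow (by norm_num)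
  have h2 : ∀ᶠ lam in 𝓝 (0 : ℝ), eta lam < ε := by
    have := h1.tendsto
    rw [h0] at this
    exact this.eventually (gt_mem_nhds hε)
  filter_upwards [self_mem_nhdsWithin, nhdsWithin_le_nhds h2] with lam hl hl2
  exact ⟨Real.rpow_pos_of_pos hl _, hl2.le⟩

theorem core_main (h1 : T_OB) (h2 : T_MB) (h3 : T_VB) (h4 : T_VF) (h5 : T_ND) (h6 : T_Th) :
    T_Core := by
  obtain ⟨c0, hc0, hc8, h1⟩ := h1
  obtain ⟨r0, ⟨C, hC, h1⟩, h4, h5⟩ := (h1.and ((h4 c0 hc0 hc8).and (h5 c0 hc0 hc8))).exists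
  obtain ⟨C2, hC2, h2⟩ := h2 c0 hc0 hc8 r0 C hC
  obtain ⟨Cq, hCq, h3⟩ := h3 c0 hc0 hc8 r0 C C2 hC hC2
  obtain ⟨C4, hC4, h4⟩ := h4 C C2 Cq hC hC2 hCq
  obtain ⟨C5, hC5, h5⟩ := h5 C C4 hC hC4
  have h6 := h6 c0 hc0 hc8 r0 C C5 hC hC5
  obtain ⟨ω, hω, h2, h3, h4, h5, h6⟩ :=
    ((eventually_mem_nhdsWithin (a := (0 : ℝ)) (s := Ioi 0)).and
      (h2.and (h3.and (h4.and (h5.and h6))))).exists
  obtain ⟨L, hL, ⟨ob, hob⟩, h2, h3, h4, h5, h6⟩ :=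
    ((eventually_gt_atTop (0 : ℝ)).and ((h1 ω hω).and
      (h2.and (h3.and (h4.and (h5.and h6)))))).exists
  obtain ⟨C1, hC1, h2⟩ := h2 ob hob
  obtain ⟨C3, hC3, h3⟩ := h3 ob hob C1 hC1
  obtain ⟨r1, h3, h4, h5, h6⟩ :=
    (h3.and ((h4 ob hob C3 hC3).and ((h5 ob hob).and (h6 ob hob)))).exists
  obtain ⟨ε, hε, h4, h5, h6⟩ :=
    ((eventually_mem_nhdsWithin (a := (0 : ℝ)) (s := Ioi 0)).and (h4.and (h5.and h6))).exists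
  refine ⟨L, hL, ?_⟩
  filter_upwards [h2, h3 ε hε, h4, h5, top_eta hε] with lam hm h3 h4 h5 hη
  obtain ⟨mb⟩ := hm
  obtain ⟨gN, ⟨vb⟩⟩ := h3 mb
  obtain ⟨hp, hfb⟩ := h4 _ _ _ ⟨vb⟩
  have hnb := vb.nb hp
  refine ⟨mb.F, mb.E, mb.nF, mb.aF, ?_, mb.minF,
    h6 _ hη.1 hη.2 _ _ _ hnb (h5 _ _ _ hnb hfb)⟩
  rw [mb.eqF, mb.nF, mul_one]

end Vale.Agent.P363
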