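import Vale.Agent.P363.B1
import Vale.Agent.P363.B2
import Vale.Agent.P363.B3
import Vale.Agent.P363.B4
import Vale.Agent.P363.B5
import Vale.Agent.P363.O
import Vale.Agent.P363.M1
import Vale.Agent.P363.MV
import Vale.Agent.P363.MF
import Vale.Agent.P363.ND
import Vale.Agent.P363.Th
import Vale.Agent.P363.Top
import Vale.Agent.P363.AMain

/-! P363: assembly of all blocks. -/

namespace Vale.Agent.P363

theorem t_B : T_B := ⟨b_even, b_odd, b_far, b_rad, b_cmp⟩

theorem final : T_Main :=
  t_main (core_main (ob_main b_even) mb_main vb_main (vf_main t_B) (nd_main t_B) th_main)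

end Vale.Agent.P363
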