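import Vale.Agent.P363.C
import Vale.Agent.P363.DefsV

/-! P363, block K. -/

open MeasureTheory Set Metric Filter Topology
open scoped RealInnerProductSpace

namespace Vale.Agent.P363

theorem k_main (h : T_Core) : T_Main := by
  sorry

end Vale.Agent.P363
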