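import Vale.Agent.P363.CAbsA

/-! P363, block M1: eigenvectors in symmetry sectors, abstractly. -/

open MeasureTheory Set Metric Filter Topology

namespace Vale.Agent.P363

noncomputable section

open CAbsAx

variable {X : Type} [AddCommGroup X] [Module ℝ X] (ip q : X →ₗ[ℝ] X →ₗ[ℝ] ℝ)

theorem M1ax_pyth (B : X →ₗ[ℝ] X →ₗ[ℝ] ℝ) (hB : ∀ x y, B x y = B y x) (π : X →ₗ[ℝ] X)
    (ππ : ∀ x, π (π x) = π x) (bπ : ∀ x y, B (π x) y = B x (π y)) (y : X) :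
    B y y = B (π y) (π y) + B (y - π y) (y - π y) := by
  have h1 : B (π y) (π y) = B (π y) y := by rw [← bπ, ππ]
  simp only [map_sub, LinearMap.sub_apply, hB y (π y), h1]
  ring

theorem AF_proj (hip : ∀ x y, ip x y = ip y x) (hq : ∀ x y, q x y = q y x) (nn : ∀ x, 0 ≤ ip x x)
    {K : ℝ} (hK : ∀ x, ip x x ≤ q x x + K * ip x x)
    (cpl : ∀ s : ℕ → X, (∀ ε > 0, ∃ N, ∀ m ≥ N, ∀ n ≥ N,
      q (s m - s n) (s m - s n) + K * ip (s m - s n) (s m - s n) < ε) →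
      ∃ x, Tendsto (fun n => q (s n - x) (s n - x) + K * ip (s n - x) (s n - x)) atTop (𝓝 0))
    (π : X →ₗ[ℝ] X) (ππ : ∀ x, π (π x) = π x) (iπ : ∀ x y, ip (π x) y = ip x (π y))
    (qπ : ∀ x y, q (π x) y = q x (π y)) {x0 : X} (n0 : ip x0 x0 = 1)
    (s0 : ∀ y, ip (π x0) y = ip x0 y ∧ q (π x0) y = q x0 y) {Λ β η : ℝ} (h0 : 0 ≤ η) (hβ : η < β)
    (gap : ∀ x, π x = x → Λ * ip x x - β * ip x0 x ^ 2 ≤ q x x) (e0 : q x0 x0 ≤ Λ - β + η) :
    ∃ (x : X) (E : ℝ), π x = x ∧ ip x x = 1 ∧ (∀ y, q x y = E * ip x y) ∧ Λ - β ≤ E ∧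
      E ≤ Λ - β + η ∧ β * ip (x - x0) (x - x0) ≤ 2 * η := by
  have i0 : ip (π x0) (π x0) = 1 := by rw [(s0 _).1, hip, (s0 _).1, n0]
  have q0 : q (π x0) (π x0) = q x0 x0 := by rw [(s0 _).2, hq, (s0 _).2]
  have gap' : ∀ x, ((ip x0).comp π) x = 0 →
      Λ * (ip.compl₁₂ π π) x x ≤ (q.compl₁₂ π π) x x := fun x hx => by
    have := gap (π x) (ππ x)
    simp only [LinearMap.comp_apply] at hx
    simpa [hx] using this
  obtain ⟨x, E, hE, x1, x2, x3⟩ := AF (ip.compl₁₂ π π) (q.compl₁₂ π π) (fun x y => hip _ _)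
    (fun x y => hq _ _) (fun x => nn _) (K := K) (fun x => hK _) (fun s hs => by
      obtain ⟨x, hx⟩ := cpl (fun n => π (s n)) (by simpa using hs)
      refine ⟨x, squeeze_zero (fun n => (nn _).trans (hK _)) (fun n => ?_) hx⟩
      have e : π (π (s n) - x) = π (s n - x) := by simp only [map_sub, ππ]
      have a1 := M1ax_pyth ip hip π ππ iπ (π (s n) - x)
      have a2 := M1ax_pyth q hq π ππ qπ (π (s n) - x)
      have a3 := (nn _).trans (hK (π (s n) - x - π (π (s n) - x)))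
      rw [a1, a2, e]
      rw [e] at a3
      simp only [LinearMap.compl₁₂_apply]
      linarith) ((ip x0).comp π) (M := 1) (fun x => by
      have := cs ip hip nn x0 (π x)
      rwa [n0] at this) gap' (x0 := x0) (by
      simp only [LinearMap.compl₁₂_apply, i0, q0]
      linarith)
  have eig := (AF_of_min (ip.compl₁₂ π π) (q.compl₁₂ π π) (fun x y => hip _ _)
    (fun x y => hq _ _) (fun x => nn _) _ gap' hE x1 x2 x3).1
  have up := x3 x0
  simp only [LinearMap.compl₁₂_apply, i0, q0] at up x1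
  simp only [LinearMap.compl₁₂_apply, ← iπ, ← qπ, ππ] at eig
  obtain ⟨z, z1, z2, z3, z4⟩ : ∃ z, π z = z ∧ ip z z = 1 ∧ (∀ y, q z y = E * ip z y) ∧
      0 ≤ ip x0 z := by
    rcases le_total 0 (ip x0 (π x)) with h | h
    · exact ⟨π x, ππ x, x1, eig, h⟩
    · exact ⟨-π x, by simp [ππ], by simpa using x1, fun y => by simp [eig], by simpa using h⟩
  have g := gap z z1
  have c1 := cs ip hip nn x0 z
  rw [z3, z2] at g
  rw [n0, z2] at c1
  have c2 : ip x0 z ≤ 1 := by nlinarith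
  refine ⟨z, E, z1, z2, z3, by nlinarith, by linarith, ?_⟩
  simp only [map_sub, LinearMap.sub_apply, z2, n0, hip z x0]
  nlinarith [mul_nonneg (h0.trans hβ.le) (mul_nonneg z4 (sub_nonneg.2 c2))]

theorem AF_two (hip : ∀ x y, ip x y = ip y x) (hq : ∀ x y, q x y = q y x) (nn : ∀ x, 0 ≤ ip x x)
    {K : ℝ} (hK : ∀ x, ip x x ≤ q x x + K * ip x x)
    (cpl : ∀ s : ℕ → X, (∀ ε > 0, ∃ N, ∀ m ≥ N, ∀ n ≥ N,
      q (s m - s n) (s m - s n) + K * ip (s m - s n) (s m - s n) < ε) →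
      ∃ x, Tendsto (fun n => q (s n - x) (s n - x) + K * ip (s n - x) (s n - x)) atTop (𝓝 0))
    (σ τ : X →ₗ[ℝ] X) (σσ : ∀ x, σ (σ x) = x) (ττ : ∀ x, τ (τ x) = x)
    (στ : ∀ x, τ (σ x) = σ (τ x))
    (hσ : ∀ x y, q (σ x) (σ y) = q x y ∧ ip (σ x) (σ y) = ip x y)
    (hτ : ∀ x y, q (τ x) (τ y) = q x y ∧ ip (τ x) (τ y) = ip x y) {x0 : X} (n0 : ip x0 x0 = 1)
    (s0 : ∀ y, q (σ x0) y = q x0 y ∧ ip (σ x0) y = ip x0 y)
    (t0 : ∀ y, q (τ x0) y = q x0 y ∧ ip (τ x0) y = ip x0 y) {Λ β η : ℝ} (h0 : 0 ≤ η) (hβ : η < β)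
    (gap : ∀ x, σ x = x → τ x = x → Λ * ip x x - β * ip x0 x ^ 2 ≤ q x x)
    (e0 : q x0 x0 ≤ Λ - β + η) :
    ∃ (x : X) (E : ℝ), σ x = x ∧ τ x = x ∧ ip x x = 1 ∧ (∀ y, q x y = E * ip x y) ∧ Λ - β ≤ E ∧
      E ≤ Λ - β + η ∧ β * ip (x - x0) (x - x0) ≤ 2 * η := by
  have key : ∀ B : X →ₗ[ℝ] X →ₗ[ℝ] ℝ, (∀ x y, B (σ x) (σ y) = B x y) →
      (∀ x y, B (τ x) (τ y) = B x y) → (∀ y, B (σ x0) y = B x0 y) → (∀ y, B (τ x0) y = B x0 y) →
      (∀ x y, B (((1 / 4 : ℝ) • (LinearMap.id + σ + τ + σ.comp τ) : X →ₗ[ℝ] X) x) y =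
        B x (((1 / 4 : ℝ) • (LinearMap.id + σ + τ + σ.comp τ) : X →ₗ[ℝ] X) y)) ∧
      ∀ y, B (((1 / 4 : ℝ) • (LinearMap.id + σ + τ + σ.comp τ) : X →ₗ[ℝ] X) x0) y = B x0 y := by
    intro B b1 b2 b3 b4
    have a1 : ∀ x y, B (σ x) y = B x (σ y) := fun x y => by rw [← b1 x, σσ]
    have a2 : ∀ x y, B (τ x) y = B x (τ y) := fun x y => by rw [← b2 x, ττ]
    refine ⟨fun x y => by simp [a1, a2, στ], fun y => ?_⟩
    have a3 : B (σ (τ x0)) y = B x0 y := by rw [a1, b4, ← a1, b3]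
    simp only [LinearMap.smul_apply, LinearMap.add_apply, LinearMap.id_apply,
      LinearMap.comp_apply, map_add, map_smul, b3, b4, a3, smul_eq_mul]
    ring
  have ki := key ip (fun x y => (hσ x y).2) (fun x y => (hτ x y).2) (fun y => (s0 y).2)
    fun y => (t0 y).2
  have kq := key q (fun x y => (hσ x y).1) (fun x y => (hτ x y).1) (fun y => (s0 y).1)
    fun y => (t0 y).1
  generalize hπ : ((1 / 4 : ℝ) • (LinearMap.id + σ + τ + σ.comp τ) : X →ₗ[ℝ] X) = π at ki kq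
  have p1 : ∀ x, σ (π x) = π x ∧ τ (π x) = π x := fun x => by
    subst hπ
    simp only [LinearMap.smul_apply, LinearMap.add_apply, LinearMap.id_apply,
      LinearMap.comp_apply, map_add, map_smul, σσ, ττ, στ]
    constructor <;> module
  have p2 : ∀ x, σ x = x → τ x = x → π x = x := fun x h1 h2 => by
    subst hπ
    simp only [LinearMap.smul_apply, LinearMap.add_apply, LinearMap.id_apply,
      LinearMap.comp_apply, h1, h2]
    module
  obtain ⟨x, E, x1, x2⟩ := AF_proj ip q hip hq nn hK cpl π (fun x => p2 _ (p1 x).1 (p1 x).2) ki.1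
    kq.1 n0 (fun y => ⟨ki.2 y, kq.2 y⟩) h0 hβ
    (fun x hx => gap x (hx ▸ (p1 x).1) (hx ▸ (p1 x).2)) e0
  exact ⟨x, E, x1 ▸ (p1 x).1, x1 ▸ (p1 x).2, x2⟩

/-- An eigenvector below a codimension one gap is a minimizer. -/
theorem AF_up (hip : ∀ x y, ip x y = ip y x) (hq : ∀ x y, q x y = q y x) (nn : ∀ x, 0 ≤ ip x x)
    (S : X → Prop) {x x0 : X} (hS : ∀ (t : ℝ) b, S b → S (t • x + (1 : ℝ) • b)) (Sx : S x)
    {Λ β E : ℝ} (hE : E < Λ) (h1 : ip x x = 1) (eig : ∀ y, q x y = E * ip x y)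
    (gap : ∀ b, S b → Λ * ip b b - β * ip x0 b ^ 2 ≤ q b b) (b : X) (hb : S b) :
    E * ip b b ≤ q b b ∧ (ip x b = 0 → Λ * ip b b ≤ q b b) := by
  have hφ : ip x0 x ≠ 0 := fun h => by
    have := gap x Sx
    rw [eig, h1, h] at this
    linarith
  obtain ⟨t, ht⟩ : ∃ t, t * ip x0 x + ip x0 b = 0 := ⟨-(ip x0 b / ip x0 x), by field_simp; ring⟩
  have g := gap _ (hS t b hb)
  have n := nn (t • x + (1 : ℝ) • b)
  have e : ip x0 (t • x + (1 : ℝ) • b) = 0 := by simpa using ht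
  rw [e, expand q hq, eig, eig] at g
  rw [expand ip hip, h1] at g n
  refine ⟨by nlinarith [mul_nonneg (sub_nonneg.2 hE.le) n], fun h => ?_⟩
  rw [h] at g
  nlinarith [mul_nonneg (sub_nonneg.2 hE.le) (sq_nonneg t)]

end

end Vale.Agent.P363
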