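import Vale.Agent.P363.M1s

/-! P363, block M1, decay part: working definitions. -/

open MeasureTheory Set Metric Filter Topology
open scoped RealInnerProductSpace

namespace Vale.Agent.P363

/-- The truncated exponential weight. -/
noncomputable def mw (t : ℝ) (w : E6) : ℝ := Real.exp (min (rho6 w) t / 10)

/-- Localization of low energy states. -/
def Lc (L lam e R : ℝ) : Prop :=
  ∀ b : O2, e * ip2 b b - ∫ w in {w | rho6 w ≤ R}, b.f w ^ 2 ≤ q2 L lam b b

/-- Exponential decay in the quadratic mean. -/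
structure Ag (a : O2) (Cw : ℝ) : Prop where
  cut : ∀ t : ℝ, ∃ b : O2, (∀ w, b.f w = mw t w * a.f w) ∧ k2 b ≤ Cw
  wt : Integrable (fun w => Real.exp (rho6 w / 5) * a.f w ^ 2) ∧
    ∫ w, Real.exp (rho6 w / 5) * a.f w ^ 2 ≤ Cw

end Vale.Agent.P363
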