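import Vale.Agent.P363.M1b0

/-! P363, block M1, decay part: localization. -/

open MeasureTheory Set Metric Filter Topology
open scoped RealInnerProductSpace

namespace Vale.Agent.P363

namespace M1b1x

theorem intE {F : E6 → ℝ} {G : E6 → E3} (h : HV volume F G) (L : ℝ) :
    Integrable (fun w : E6 => (1 / 2) * ‖G w‖ ^ 2 + V L w.1 * F w ^ 2) := by
  have i2 : Integrable (fun w => ‖G w‖ ^ 2) (volume.prod volume) := h.l2g.norm.integrable_sq
  have i3 : Integrable (fun w : E6 => V L w.1 * F w ^ 2) (volume.prod volume) :=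
    (cabs_mul (CO3x.hv_V h L).1 h.l2).congr (ae_of_all _ fun w => by simp only; ring)
  exact (i2.const_mul _).add i3

theorem low {c0 L : ℝ} (ob : OB c0 L) (h1 : ob.eu ≤ -1 / 2 + c0) {F : E6 → ℝ} {G : E6 → E3}
    (h : HV volume F G) :
    ob.eg * ∫ w, F w ^ 2 ≤ ∫ w : E6, ((1 / 2) * ‖G w‖ ^ 2 + V L w.1 * F w ^ 2) := by
  have k := gap_slice (L := L) (A := ob.eg) (B := 0) (C := 0) ob.hg.l2 ob.hu.l2
    (fun f gf hf => by
      have a := ob.gap1 h1 f gf hf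
      have b := cabs_cs ob.hg.l2 hf.l2
      rw [ob.ng, one_mul] at b
      nlinarith [mul_le_mul_of_nonneg_left b (sub_pos.2 ob.lt).le]) h
  simp only [zero_mul, sub_zero] at k
  exact k

theorem V_far {L : ℝ} (hL : 0 ≤ L) {x : E3} (hx : 2 * L + 80 ≤ ‖x‖) : -(1 / 40) ≤ V L x := by
  obtain ⟨a, b⟩ := abs_rA_sub hL x
  have a1 : 80 ≤ rA L x := by linarith [(abs_le.1 a).1]
  have b1 : 80 ≤ rB L x := by linarith [(abs_le.1 b).1]
  have a2 : (rA L x)⁻¹ ≤ 80⁻¹ := inv_anti₀ (by norm_num) a1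
  have b2 : (rB L x)⁻¹ ≤ 80⁻¹ := inv_anti₀ (by norm_num) b1
  rw [V]
  linarith

theorem intχ {χ : E3 → ℝ} (hc : Continuous χ) (hb : ∀ x, 0 ≤ χ x ∧ χ x ≤ 1) {F : E6 → ℝ}
    (hF : MemLp F 2 volume) : Integrable fun w : E6 => χ w.1 * F w ^ 2 :=
  hF.integrable_sq.bdd_mul (c := 1) (hc.comp continuous_fst).aestronglyMeasurable
    (ae_of_all _ fun w => by rw [Real.norm_of_nonneg (hb _).1]; exact (hb _).2)

theorem one {c0 L : ℝ} (ob : OB c0 L) (hL : 0 ≤ L) (h1 : ob.eu ≤ -1 / 2 + c0)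
    (h2 : ob.eg ≤ -9 / 20) : ∃ χ : E3 → ℝ, Continuous χ ∧ (∀ x, 0 ≤ χ x ∧ χ x ≤ 1) ∧
    (∀ x, 2 * L + 90 ≤ ‖x‖ → χ x = 1) ∧ ∀ (F : E6 → ℝ) (G : E6 → E3), HV volume F G →
      (ob.eg - 1 / 80) * (∫ w, F w ^ 2) + (2 / 5) * ∫ w : E6, χ w.1 * F w ^ 2 ≤
        ∫ w : E6, ((1 / 2) * ‖G w‖ ^ 2 + V L w.1 * F w ^ 2) := by
  obtain ⟨ξ, q, ht, hc, hq, hp⟩ := exists_cut (0 : E3) (a := 2 * L + 80) (b := 2 * L + 90)
    (by linarith) (by linarith)
  simp only [sub_zero] at hp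
  have hq1 : ∀ x, ‖q x‖ ≤ 1 / 10 := fun x => (hp x).2.2.1.trans_eq (by ring)
  have hcχ : Continuous fun x => 1 - Real.sin (Real.pi / 2 * ξ x) ^ 2 := by fun_prop
  have hbχ : ∀ x, 0 ≤ 1 - Real.sin (Real.pi / 2 * ξ x) ^ 2 ∧
      1 - Real.sin (Real.pi / 2 * ξ x) ^ 2 ≤ 1 := fun x =>
    ⟨sub_nonneg.2 (Real.sin_sq_le_one _), by linarith [sq_nonneg (Real.sin (Real.pi / 2 * ξ x))]⟩
  refine ⟨fun x => 1 - Real.sin (Real.pi / 2 * ξ x) ^ 2, hcχ, hbχ, fun x hx => ?_, fun F G h => ?_⟩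
  · simp [((hp x).2.2.2.2.1 hx).1]
  have hpi : (Real.pi / 2) ^ 2 ≤ 5 / 2 := by nlinarith [Real.pi_lt_d2, Real.pi_pos]
  have hg : MemLp (fun w : E6 => F w • ((Real.pi / 2 * Real.cos (Real.pi / 2 * ξ w.1)) • q w.1)) 2
      volume := by
    refine CO2A_memLp (M := Real.pi / 2 * (1 / 10)) h.l2 ?_ fun w => ?_
    · have := hc.measurable
      fun_prop
    · rw [norm_smul, norm_mul, Real.norm_of_nonneg (by positivity)]
      have := mul_le_mul (Real.abs_cos_le_one (Real.pi / 2 * ξ w.1)) (hq1 w.1) (norm_nonneg _)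
        zero_le_one
      rw [mul_assoc]
      exact mul_le_mul_of_nonneg_left (this.trans_eq (one_mul _)) (by positivity)
  have h' := h.mulg (m := fun w => Real.sin (Real.pi / 2 * ξ w.1))
    (gm := fun w => (Real.pi / 2 * Real.cos (Real.pi / 2 * ξ w.1)) • q w.1) (M := 1)
    (ae_of_all _ fun _ => (exists_ims ht.ld).1) (Continuous.aestronglyMeasurable (by fun_prop))
    (ae_of_all _ fun w => Real.abs_sin_le_one _) hg
  have k := low ob h1 h'
  have i0 : Integrable fun w => F w ^ 2 := h.l2.integrable_sq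
  have i1 := intχ hcχ hbχ h.l2
  have i2 := intE h L
  have i3 := intE h' L
  have i4 : Integrable fun w : E6 => (Real.sin (Real.pi / 2 * ξ w.1) * F w) ^ 2 :=
    h'.l2.integrable_sq
  have j1 : Integrable fun w : E6 => (ob.eg - 1 / 80) * F w ^ 2 +
      (2 / 5) * ((1 - Real.sin (Real.pi / 2 * ξ w.1) ^ 2) * F w ^ 2) :=
    (i0.const_mul _).add (i1.const_mul _)
  have key := integral_mono (j1.add i3) (i2.add (i4.const_mul ob.eg)) fun w => by
    simp only [Pi.add_apply]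
    have a := ims_identity (F w) (Real.pi / 2 * ξ w.1) (Real.pi / 2) (G w) (q w.1)
    have a1 := sq_nonneg ‖Real.cos (Real.pi / 2 * ξ w.1) • G w +
      F w • (-(Real.pi / 2 * Real.sin (Real.pi / 2 * ξ w.1)) • q w.1)‖
    have a2 : ‖q w.1‖ ^ 2 ≤ (1 / 10) ^ 2 := pow_le_pow_left₀ (norm_nonneg _) (hq1 _) 2
    have a3 : (Real.pi / 2) ^ 2 * ‖q w.1‖ ^ 2 ≤ 5 / 2 * (1 / 10) ^ 2 :=
      mul_le_mul hpi a2 (sq_nonneg _) (by norm_num)
    have a4 := mul_le_mul_of_nonneg_left a3 (sq_nonneg (F w))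
    have a5 : 0 ≤ (V L w.1 - ob.eg - 2 / 5) * (1 - Real.sin (Real.pi / 2 * ξ w.1) ^ 2) := by
      rcases le_total ‖w.1‖ (2 * L + 80) with b | b
      · simp [((hp w.1).2.2.2.1 b).1]
      · exact mul_nonneg (by linarith [V_far hL b]) (hbχ _).1
    have a6 := mul_nonneg a5 (sq_nonneg (F w))
    nlinarith
  simp only [Pi.add_apply] at key
  rw [integral_add j1 i3, integral_add i2 (i4.const_mul _), integral_add (i0.const_mul _)
    (i1.const_mul _), integral_const_mul, integral_const_mul, integral_const_mul] at key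
  linarith

end M1b1x

open M1b1x in
theorem loc0 {c0 L : ℝ} (ob : OB c0 L) (hL : 0 ≤ L) (h1 : ob.eu ≤ -1 / 2 + c0)
    (h2 : ob.eg ≤ -9 / 20) {lam : ℝ} (hl : 0 ≤ lam) :
    Lc L lam (2 * ob.eg + 3 / 8) (4 * L + 200) := by
  intro b
  obtain ⟨χ, hc, hb, hf, k⟩ := one ob hL h1 h2
  have k1 := k _ _ b.h.h1
  have k2 := k _ _ b.h.h2
  have i1 := intE b.h.h1 L
  have i2 := intE b.h.h2 L
  have i3 : Integrable (fun y : E6 => ‖y.1 - y.2‖⁻¹ * b.f y * b.f y) :=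
    (b.hardy 0).2.2.1.1.integrable_mul b.l2.1
  have i2' : Integrable fun w : E6 => (1 / 2) * ‖b.g2 w‖ ^ 2 + V L w.2 * b.f w ^ 2 := by
    have := mp_swap6.integrable_comp_of_integrable i2
    simpa only [Function.comp_def, Prod.swap_swap, Prod.fst_swap] using this
  have j1 := intχ hc hb b.h.h1.l2
  have j2 : Integrable fun w : E6 => χ w.2 * b.f w ^ 2 := by
    have := mp_swap6.integrable_comp_of_integrable (intχ hc hb b.h.h2.l2)
    simpa only [Function.comp_def, Prod.swap_swap, Prod.fst_swap] using this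
  have k3 : (ob.eg - 1 / 80) * (∫ w, b.f w ^ 2) + (2 / 5) * ∫ w : E6, χ w.2 * b.f w ^ 2 ≤
      ∫ w : E6, ((1 / 2) * ‖b.g2 w‖ ^ 2 + V L w.2 * b.f w ^ 2) := by
    rw [← integral_swap6 fun w => b.f w ^ 2, ← integral_swap6 fun w => χ w.2 * b.f w ^ 2,
      ← integral_swap6 fun w => (1 / 2) * ‖b.g2 w‖ ^ 2 + V L w.2 * b.f w ^ 2]
    exact k2
  have s1 : Integrable fun w : E6 => ((1 / 2) * ‖b.g1 w‖ ^ 2 + V L w.1 * b.f w ^ 2) +
      ((1 / 2) * ‖b.g2 w‖ ^ 2 + V L w.2 * b.f w ^ 2) := i1.add i2'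
  have e1 : q2 L lam b b = ∫ w : E6, ((((1 / 2) * ‖b.g1 w‖ ^ 2 + V L w.1 * b.f w ^ 2) +
      ((1 / 2) * ‖b.g2 w‖ ^ 2 + V L w.2 * b.f w ^ 2)) +
        lam * (‖w.1 - w.2‖⁻¹ * b.f w * b.f w)) := by
    refine integral_congr_ae (ae_of_all _ fun w => ?_)
    simp only [W2, real_inner_self_eq_norm_sq]
    ring
  have n3 : 0 ≤ ∫ y : E6, ‖y.1 - y.2‖⁻¹ * b.f y * b.f y := integral_nonneg fun y => by
    rw [mul_assoc]
    exact mul_nonneg (by positivity) (mul_self_nonneg _)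
  have hm : MeasurableSet {w : E6 | rho6 w ≤ 4 * L + 200} :=
    (isClosed_le (by unfold rho6; fun_prop) continuous_const).measurableSet
  have i0 : Integrable fun w => b.f w ^ 2 := b.l2.1.integrable_sq
  have s2 : Integrable fun w : E6 => χ w.1 * b.f w ^ 2 + χ w.2 * b.f w ^ 2 := j1.add j2
  have key := integral_mono i0 (s2.add (i0.indicator hm)) fun w => by
    simp only [Pi.add_apply]
    have a1 := mul_nonneg (hb w.1).1 (sq_nonneg (b.f w))
    have a2 := mul_nonneg (hb w.2).1 (sq_nonneg (b.f w))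
    by_cases hw : w ∈ {w : E6 | rho6 w ≤ 4 * L + 200}
    · rw [indicator_of_mem hw]
      linarith
    · rw [indicator_of_notMem hw]
      simp only [mem_ofPred_eq, rho6, not_le] at hw
      rcases le_total (2 * L + 90) ‖w.1‖ with c | c
      · rw [hf _ c]
        linarith
      · rw [hf w.2 (by linarith)]
        linarith
  simp only [Pi.add_apply] at key
  rw [integral_add s2 (i0.indicator hm), integral_add j1 j2, integral_indicator hm] at key
  have n4 : 0 ≤ ∫ w in {w : E6 | rho6 w ≤ 4 * L + 200}, b.f w ^ 2 :=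
    integral_nonneg fun _ => sq_nonneg _
  have e2 : ip2 b b = ∫ w, b.f w ^ 2 := by simp only [ip2, sq]
  rw [e1, integral_add s1 (i3.const_mul lam), integral_add i1 i2', integral_const_mul, e2]
  nlinarith [mul_nonneg hl n3]

end Vale.Agent.P363
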