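import Vale.Agent.P363.M1b0

/-! P363, block M1, decay part: pointwise multipole bounds. -/

open MeasureTheory Set Metric Filter Topology
open scoped RealInnerProductSpace

namespace Vale.Agent.P363

theorem m1b3_dist (x y : E3) : |‖x - y‖ - ‖x‖| ≤ ‖y‖ ∧ |‖sg x - y‖ - ‖x‖| ≤ ‖y‖ := by
  have h (a : E3) : |‖a - y‖ - ‖a‖| ≤ ‖y‖ := by
    have := abs_norm_sub_norm_le (a - y) a
    rwa [sub_sub_cancel_left, norm_neg] at this
  exact ⟨h x, norm_sg x ▸ h (sg x)⟩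

theorem m1b3_sq (x y : E3) : ‖sg x - y‖ ^ 2 - ‖x - y‖ ^ 2 = 4 * (x 2 * y 2) := by
  simp only [normsq_eq_sum, Fin.sum_univ_three, PiLp.sub_apply, sg_0, sg_1, sg_2]
  ring

theorem m1b3_near {r s A B m : ℝ} (hr : 0 < r) (hs : 0 ≤ s) (h : s ≤ r / 2) (hA : |A - r| ≤ s)
    (hB : |B - r| ≤ s) (e : B ^ 2 - A ^ 2 = 4 * m) :
    |(A⁻¹ - B⁻¹) / 2| ≤ 8 / r ^ 3 * |m| ∧ |(A⁻¹ - B⁻¹) / 2 - m / r ^ 3| ≤ 14 * s / r ^ 4 * |m| := by
  obtain ⟨a1, a2⟩ := abs_le.1 hA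
  obtain ⟨b1, b2⟩ := abs_le.1 hB
  obtain ⟨u, hu⟩ : ∃ u, u = r - s := ⟨_, rfl⟩
  have hu0 : 0 < u := by linarith
  have hA0 : 0 < A := by linarith
  have hB0 : 0 < B := by linarith
  obtain ⟨P, hP⟩ : ∃ P, P = A * B * (A + B) := ⟨_, rfl⟩
  have hP0 : 0 < P := by rw [hP]; positivity
  have p1 : u * u * (u + u) ≤ P := by
    rw [hP]
    gcongr <;> linarith
  have p2 : P ≤ (r + s) * (r + s) * ((r + s) + (r + s)) := by
    rw [hP]
    gcongr <;> linarith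
  have e1 : (A⁻¹ - B⁻¹) / 2 = 2 / P * m := by
    rw [hP]
    field_simp
    linear_combination e
  have q1 : r ^ 3 ≤ (2 * u) ^ 3 := pow_le_pow_left₀ hr.le (by linarith) 3
  have hr3 : 0 < r ^ 3 := by positivity
  rw [e1]
  constructor
  · rw [abs_mul, abs_of_pos (by positivity)]
    refine mul_le_mul_of_nonneg_right ?_ (abs_nonneg _)
    rw [div_le_div_iff₀ hP0 hr3]
    nlinarith
  · rw [show 2 / P * m - m / r ^ 3 = (2 * r ^ 3 - P) / (P * r ^ 3) * m by field_simp, abs_mul]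
    refine mul_le_mul_of_nonneg_right ?_ (abs_nonneg _)
    rw [abs_div, abs_of_pos (mul_pos hP0 hr3), div_le_div_iff₀ (mul_pos hP0 hr3) (by positivity)]
    have key : |2 * r ^ 3 - P| * r ≤ 14 * s * P := by
      rcases le_total P (2 * r ^ 3) with hc | hc
      · rw [abs_of_nonneg (by linarith)]
        have t0 : r ≤ 2 * u := by linarith
        have t1 : r ^ 2 + r * u + u ^ 2 ≤ 7 * u ^ 2 := by nlinarith
        have t2 : (r ^ 2 + r * u + u ^ 2) * r ≤ 7 * u ^ 2 * (2 * u) :=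
          mul_le_mul t1 t0 hr.le (by positivity)
        have t3 := mul_le_mul_of_nonneg_left t2 hs
        have t4 := mul_le_mul_of_nonneg_left p1 hs
        have t5 := mul_le_mul_of_nonneg_right p1 hr.le
        have t6 : r ^ 3 - u ^ 3 = s * (r ^ 2 + r * u + u ^ 2) := by rw [hu]; ring
        have t7 : (r ^ 3 - u ^ 3) * r = s * ((r ^ 2 + r * u + u ^ 2) * r) := by rw [t6]; ring
        nlinarith
      · rw [abs_of_nonpos (by linarith)]
        have t1 : 3 * r ^ 2 + 3 * r * s + s ^ 2 ≤ 7 * r ^ 2 := by nlinarith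
        have t2 := mul_le_mul_of_nonneg_left t1 (mul_nonneg hs hr.le)
        have t4 := mul_le_mul_of_nonneg_left hc hs
        have t5 := mul_le_mul_of_nonneg_right p2 hr.le
        have t6 := mul_nonneg hs hr3.le
        nlinarith
    have := mul_le_mul_of_nonneg_right key hr3.le
    nlinarith

theorem m1b3_far {r s ρ a b : ℝ} (hr : 0 ≤ r) (h : r / 2 ≤ s) (hρ : s ≤ ρ) (ha : 0 ≤ a)
    (hb : 0 ≤ b) : |(a - b) / 2| ≤ Real.exp (-r / 20) * (Real.exp (min ρ r / 10) * (a + b)) := by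
  have h1 : r / 2 ≤ min ρ r := le_min (by linarith) (by linarith)
  have h2 : 1 ≤ Real.exp (-r / 20) * Real.exp (min ρ r / 10) := by
    rw [← Real.exp_add]
    exact Real.one_le_exp (by linarith)
  have h3 : |(a - b) / 2| ≤ a + b := abs_le.2 ⟨by linarith, by linarith⟩
  have h4 := mul_le_mul_of_nonneg_right h2 (add_nonneg ha hb)
  rw [← mul_assoc]
  linarith

theorem geo1 (x y : E3) {ρ : ℝ} (h : ‖y‖ ≤ ρ) :
    (1 + ‖x‖) ^ 2 * |‖x - y‖⁻¹ - 1 / (1 + ‖x‖)| ≤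
      1600 * (Real.exp (ρ / 10) + ‖x - y‖⁻¹ * Real.exp (min ρ ‖x‖ / 10)) := by
  obtain ⟨a1, a2⟩ := abs_le.1 (m1b3_dist x y).1
  have hA := norm_nonneg (x - y)
  have hr := norm_nonneg x
  have hs := norm_nonneg y
  generalize ‖x - y‖ = A at *
  generalize ‖x‖ = r at *
  generalize ‖y‖ = s at *
  have hA' : 0 ≤ A⁻¹ := inv_nonneg.2 hA
  have i1 : 0 ≤ 1 / (1 + r) := by positivity
  have i2 : 1 / (1 + r) ≤ 1 := (div_le_one (by linarith)).2 (by linarith)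
  have i3 : |A⁻¹ - 1 / (1 + r)| ≤ 1 + A⁻¹ := abs_le.2 ⟨by linarith, by linarith⟩
  have crude : ∀ t, t ≤ min ρ r / 10 → (1 + r) ^ 2 ≤ 1600 * Real.exp t →
      (1 + r) ^ 2 * |A⁻¹ - 1 / (1 + r)| ≤
        1600 * (Real.exp (ρ / 10) + A⁻¹ * Real.exp (min ρ r / 10)) := by
    intro t h1 h2
    have e1 := Real.exp_le_exp.2 h1
    have e2 : Real.exp t ≤ Real.exp (ρ / 10) :=
      Real.exp_le_exp.2 (by linarith [min_le_left ρ r])
    have e3 := mul_le_mul h2 i3 (abs_nonneg _) (by positivity)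
    have e4 := mul_le_mul_of_nonneg_left e1 hA'
    nlinarith
  rcases le_total r 1 with h1 | h1
  · refine crude 0 (by have := le_min (hs.trans h) hr; linarith) ?_
    rw [Real.exp_zero]
    nlinarith
  rcases le_total (r / 2) s with h2 | h2
  · refine crude (r / 20) (by have := le_min (h2.trans h) (show r / 2 ≤ r by linarith); linarith) ?_
    have := Real.quadratic_le_exp_of_nonneg (show 0 ≤ r / 20 by linarith)
    nlinarith
  have hA0 : 0 < A := by linarith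
  have e1 : (1 + r) ^ 2 * |A⁻¹ - 1 / (1 + r)| = (1 + r) / A * |1 + r - A| := by
    rw [show A⁻¹ - 1 / (1 + r) = (1 + r - A) / (A * (1 + r)) by field_simp, abs_div,
      abs_of_pos (show 0 < A * (1 + r) by positivity)]
    field_simp
  have e2 : (1 + r) / A ≤ 4 := (div_le_iff₀ hA0).2 (by linarith)
  have e3 : |1 + r - A| ≤ 1 + s := abs_le.2 ⟨by linarith, by linarith⟩
  have e4 := mul_le_mul e2 e3 (abs_nonneg _) (by norm_num)
  have e5 := Real.add_one_le_exp (ρ / 10)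
  have e6 := mul_nonneg hA' (Real.exp_pos (min ρ r / 10)).le
  rw [e1]
  linarith

theorem geo2 {x : E3} (hx : 0 < ‖x‖) (y : E3) {ρ : ℝ} (h : ‖y‖ ≤ ρ) :
    |(‖x - y‖⁻¹ - ‖sg x - y‖⁻¹) / 2| ≤ 8 * |x 2| / ‖x‖ ^ 3 * |y 2| +
      Real.exp (-‖x‖ / 20) * (Real.exp (min ρ ‖x‖ / 10) * (‖x - y‖⁻¹ + ‖sg x - y‖⁻¹)) := by
  rcases le_total ‖y‖ (‖x‖ / 2) with h1 | h1
  · refine le_add_of_le_of_nonneg (((m1b3_near hx (norm_nonneg y) h1 (m1b3_dist x y).1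
      (m1b3_dist x y).2 (m1b3_sq x y)).1).trans_eq ?_) (by positivity)
    rw [abs_mul]
    ring
  · exact le_add_of_nonneg_of_le (by positivity)
      (m1b3_far hx.le h1 h (by positivity) (by positivity))

theorem geo3 {x : E3} (hx : 0 < ‖x‖) (y : E3) {ρ : ℝ} (h : ‖y‖ ≤ ρ) :
    |(‖x - y‖⁻¹ - ‖sg x - y‖⁻¹) / 2 - x 2 / ‖x‖ ^ 3 * y 2| ≤ 14 * |x 2| / ‖x‖ ^ 4 * ‖y‖ ^ 2 +
      Real.exp (-‖x‖ / 20) * (Real.exp (min ρ ‖x‖ / 10) * (‖x - y‖⁻¹ + ‖sg x - y‖⁻¹)) := by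
  have hy := abs_coord_le y 2
  rcases le_total ‖y‖ (‖x‖ / 2) with h1 | h1
  · have h2 := (m1b3_near hx (norm_nonneg y) h1 (m1b3_dist x y).1
      (m1b3_dist x y).2 (m1b3_sq x y)).2
    rw [show x 2 / ‖x‖ ^ 3 * y 2 = x 2 * y 2 / ‖x‖ ^ 3 by ring]
    refine le_add_of_le_of_nonneg (h2.trans ?_) (by positivity)
    rw [abs_mul]
    calc _ ≤ 14 * ‖y‖ / ‖x‖ ^ 4 * (|x 2| * ‖y‖) := by gcongr
      _ = _ := by ring
  · have h2 := m1b3_far (a := ‖x - y‖⁻¹) (b := ‖sg x - y‖⁻¹) hx.le h1 h (by positivity)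
      (by positivity)
    have h3 : |x 2 / ‖x‖ ^ 3 * y 2| ≤ 14 * |x 2| / ‖x‖ ^ 4 * ‖y‖ ^ 2 := by
      rw [abs_mul, abs_div, abs_of_pos (pow_pos hx 3)]
      calc _ ≤ |x 2| / ‖x‖ ^ 3 * ‖y‖ := by gcongr
        _ = |x 2| / ‖x‖ ^ 4 * ‖y‖ * ‖x‖ := by field_simp
        _ ≤ |x 2| / ‖x‖ ^ 4 * ‖y‖ * (14 * ‖y‖) := by
          gcongr
          linarith [norm_nonneg y]
        _ = _ := by ring
    linarith [abs_sub ((‖x - y‖⁻¹ - ‖sg x - y‖⁻¹) / 2) (x 2 / ‖x‖ ^ 3 * y 2)]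

end Vale.Agent.P363
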