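import Vale.Agent.P363.M1m

/-! P363, block M1: repulsion and completeness, two particles. -/

open MeasureTheory Set Metric Filter Topology
open scoped RealInnerProductSpace

namespace Vale.Agent.P363

noncomputable section

theorem M1cx_int (a : O2) : Integrable fun w : E6 => ‖w.1 - w.2‖⁻¹ * a.f w * a.f w :=
  (a.hardy 0).2.2.1.1.integrable_mul a.l2.1

theorem q2_split (L lam : ℝ) (a : O2) :
    q2 L lam a a = q2 L 0 a a + lam * rep2 a ∧ 0 ≤ rep2 a := by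
  refine ⟨?_, integral_nonneg fun w => ?_⟩
  · unfold q2 rep2
    rw [← integral_const_mul, ← integral_add (CO2Aux.intq a a L 0) ((M1cx_int a).const_mul lam)]
    refine integral_congr_ae (ae_of_all _ fun w => ?_)
    simp only [W2]
    ring
  · rw [mul_assoc]
    exact mul_nonneg (by positivity) (mul_self_nonneg _)

theorem M1cx_n2 (a : O2) :
    ∫ w, (a.f w ^ 2 + ‖a.g1 w‖ ^ 2 + ‖a.g2 w‖ ^ 2) = ip2 a a + k2 a := by
  have i1 := a.l2.2.1.norm.integrable_sq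
  have i2 := a.l2.2.2.norm.integrable_sq
  have i3 : Integrable fun w => ‖a.g1 w‖ ^ 2 + ‖a.g2 w‖ ^ 2 := i1.add i2
  simp only [add_assoc]
  rw [integral_add a.l2.1.integrable_sq i3]
  simp only [ip2, k2, sq]

theorem M1cx_up (L : ℝ) {lam : ℝ} (h0 : 0 ≤ lam) (a : O2) :
    q2 L lam a a + 33 * ip2 a a ≤ (34 + 2 * lam) * (ip2 a a + k2 a) := by
  have i1 := a.l2.2.1.norm.integrable_sq
  have i2 := a.l2.2.2.norm.integrable_sq
  have i3 := (a.hardy 0).2.2.1.1.integrable_sq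
  have i4 := (a.int a L 0).1
  have p1 : 0 ≤ ip2 a a := integral_nonneg fun _ => mul_self_nonneg _
  have p2 : 0 ≤ k2 a := integral_nonneg fun _ => by positivity
  have e1 : q2 L 0 a a ≤ k2 a := by
    refine integral_mono (CO2Aux.intq a a L 0) (i1.add i2) fun w => ?_
    have hV : ∀ x, V L x ≤ 0 := fun x => neg_nonpos.2 (by unfold rA rB; positivity)
    have := mul_nonneg (neg_nonneg.2 (add_nonpos (hV w.1) (hV w.2))) (mul_self_nonneg (a.f w))
    simp only [W2, real_inner_self_eq_norm_sq]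
    nlinarith [sq_nonneg ‖a.g1 w‖, sq_nonneg ‖a.g2 w‖]
  have e2 : ∫ w, ‖a.g1 w‖ ^ 2 ≤ k2 a :=
    integral_mono i1 (i1.add i2) fun w => le_add_of_nonneg_right (sq_nonneg _)
  have e3 : rep2 a ≤ (1 / 2) * ((∫ w : E6, (‖w.1 - w.2‖⁻¹ * a.f w) ^ 2) + ip2 a a) := by
    unfold ip2
    rw [← integral_add i3 i4, ← integral_const_mul]
    refine integral_mono (M1cx_int a) ((i3.add i4).const_mul _) fun w => ?_
    show _ ≤ (1 / 2) * ((‖w.1 - w.2‖⁻¹ * a.f w) ^ 2 + a.f w * a.f w)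
    nlinarith [sq_nonneg (‖w.1 - w.2‖⁻¹ * a.f w - a.f w)]
  have e4 : rep2 a ≤ 2 * (ip2 a a + k2 a) := by linarith [(a.hardy 0).2.2.1.2]
  have e5 := mul_le_mul_of_nonneg_left e4 h0
  rw [(q2_split L lam a).1]
  linarith

theorem M1cx_sub (a b : O2) :
    ∫ w, ((a.f w - b.f w) ^ 2 + ‖a.g1 w - b.g1 w‖ ^ 2 + ‖a.g2 w - b.g2 w‖ ^ 2) =
      ip2 (a - b) (a - b) + k2 (a - b) := by
  rw [← M1cx_n2]
  simp only [(O2.sub_eq a b).1, (O2.sub_eq a b).2.1, (O2.sub_eq a b).2.2]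

theorem O2.cpl (L : ℝ) {lam : ℝ} (h0 : 0 ≤ lam) (s : ℕ → O2)
    (h : ∀ ε > 0, ∃ N, ∀ m ≥ N, ∀ n ≥ N,
      q2 L lam (s m - s n) (s m - s n) + 33 * ip2 (s m - s n) (s m - s n) < ε) :
    ∃ x, Tendsto (fun n => q2 L lam (s n - x) (s n - x) + 33 * ip2 (s n - x) (s n - x))
      atTop (𝓝 0) := by
  have p1 : ∀ a : O2, 0 ≤ ip2 a a := fun a => integral_nonneg fun _ => mul_self_nonneg _
  have p2 : ∀ a : O2, 0 ≤ k2 a := fun a => integral_nonneg fun _ => by positivity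
  obtain ⟨x, hx⟩ := O2.complete s fun ε hε => by
    obtain ⟨N, hN⟩ := h (ε / 4) (by linarith)
    refine ⟨N, fun m hm n hn => ?_⟩
    rw [M1cx_sub]
    linarith [hN m hm n hn, q2_kin h0 L (s m - s n), p1 (s m - s n)]
  simp only [M1cx_sub] at hx
  refine ⟨x, squeeze_zero (fun n => ?_) (fun n => M1cx_up L h0 (s n - x))
    (by simpa using hx.const_mul (34 + 2 * lam))⟩
  linarith [q2_kin h0 L (s n - x), p1 (s n - x), p2 (s n - x)]

end

end Vale.Agent.P363
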