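import Vale.Agent.P363.C

/-! P363, block M1: the interface between the variational part and the decay part. -/

open MeasureTheory Set Metric Filter Topology
open scoped RealInnerProductSpace

namespace Vale.Agent.P363

/-- Variational many-body data. -/
structure MA {c0 L : ℝ} (ob : OB c0 L) (lam C1 : ℝ) where
  F : O3
  P : O2
  S : O2
  T : O2
  E : ℝ
  E0 : ℝ
  ES : ℝ
  ET : ℝ
  nF : ip3 F F = 1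
  aF : ∀ w, F.f (p12 w) = -F.f w
  oF : ∀ w, F.f (sg9 w) = -F.f w
  eqF : ∀ b : O3, q3 L lam F b = E * ip3 F b
  minF : ∀ b : O3, (∀ᵐ w : E9, b.f (p12 w) = -b.f w) → E * ip3 b b ≤ q3 L lam b b
  nP : ip2 P P = 1
  nS : ip2 S S = 1
  nT : ip2 T T = 1
  eP : ∀ b : O2, q2 L lam P b = E0 * ip2 P b
  eS : ∀ b : O2, q2 L lam S b = ES * ip2 S b
  eT : ∀ b : O2, q2 L lam T b = ET * ip2 T b
  sP : ∀ w, P.f w.swap = P.f w ∧ P.f (sg6 w) = P.f w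
  sS : ∀ w, S.f w.swap = S.f w ∧ S.f (sg6 w) = -S.f w
  sT : ∀ w, T.f w.swap = -T.f w ∧ T.f (sg6 w) = -T.f w
  en : |E - (2 * ob.eg + ob.eu)| ≤ C1 * lam ∧ |E0 - 2 * ob.eg| ≤ C1 * lam ∧
    |ES - (ob.eg + ob.eu)| ≤ C1 * lam ∧ |ET - (ob.eg + ob.eu)| ≤ C1 * lam
  cF : ∫ w, (F.f w - Finf ob w) ^ 2 ≤ C1 * lam
  cP : ∫ w, (P.f w - Pinf ob w) ^ 2 ≤ C1 * lam
  cS : ∫ w, (S.f w - Sinf ob w) ^ 2 ≤ C1 * lam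
  cT : ∫ w, (T.f w - Tinf ob w) ^ 2 ≤ C1 * lam
  lowP : ∀ b : O2, E0 * ip2 b b ≤ q2 L lam b b
  gapP : ∀ b : O2, ip2 P b = 0 → (ob.eg + ob.eu) * ip2 b b ≤ q2 L lam b b
  lowT : ∀ b : O2, (∀ᵐ w : E6, b.f w.swap = -b.f w) → ET * ip2 b b ≤ q2 L lam b b

/-- The variational part. -/
def T_MA : Prop := ∀ (c0 L : ℝ) (ob : OB c0 L), |ob.eg + 1 / 2| ≤ c0 / 4 →
  |ob.eu + 1 / 2| ≤ c0 / 4 → ∃ C1 : ℝ, 1 ≤ C1 ∧ ∀ᶠ lam in 𝓝[>] (0 : ℝ), Nonempty (MA ob lam C1)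

/-- The decay part. -/
def T_MAb : Prop := ∀ c0 : ℝ, 0 < c0 → c0 ≤ 1 / 8 → ∀ r0 C : ℝ, 1 ≤ C → ∃ C' : ℝ, 1 ≤ C' ∧
  ∀ᶠ ω in 𝓝[>] (0 : ℝ), ∀ᶠ L : ℝ in atTop, ∀ ob : OB c0 L, OBb ob C r0 ω → ∀ C0 : ℝ, 1 ≤ C0 →
    ∃ C1 : ℝ, 1 ≤ C1 ∧ ∀ᶠ lam in 𝓝[>] (0 : ℝ), Nonempty (MA ob lam C0) →
      Nonempty (MB ob lam C' C1)

theorem mb_of (h1 : T_MA) (h2 : T_MAb) : T_MB := by
  intro c0 h0 h8 r0 C hC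
  obtain ⟨C', c1, h2⟩ := h2 c0 h0 h8 r0 C hC
  refine ⟨C', c1, ?_⟩
  filter_upwards [h2, Ioo_mem_nhdsGT (show 0 < c0 / 4 by positivity)] with ω h2 hω
  filter_upwards [h2] with L h2 ob hb
  obtain ⟨C0, c0', h1⟩ := h1 c0 L ob (hb.sg.trans hω.2.le) (hb.su.trans hω.2.le)
  obtain ⟨C1, c2, h2⟩ := h2 ob hb C0 c0'
  exact ⟨C1, c2, (h1.and h2).mono fun _ h => h.2 h.1⟩

end Vale.Agent.P363
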