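import Vale.Agent.P363.M1m

/-! P363, block M1: repulsion and completeness, three particles. -/

open MeasureTheory Set Metric Filter Topology
open scoped RealInnerProductSpace

namespace Vale.Agent.P363

noncomputable section

theorem q3_split (L lam : ℝ) (a : O3) :
    q3 L lam a a = q3 L 0 a a + lam * rep3 a ∧ 0 ≤ rep3 a := by
  refine ⟨?_, integral_nonneg fun w => ?_⟩
  · have h := a.mem L lam
    have i : Integrable fun w : E9 => (‖w.2.1 - w.2.2‖⁻¹ + Mx w.1 w.2) * a.f w * a.f w := by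
      simp only [add_mul]
      exact (cabs_mul h.2.2.2.2.1 a.l2.1).add (cabs_mul h.2.2.1 a.l2.1)
    rw [q3, q3, rep3, ← integral_const_mul, ← integral_add (CO3x.intq a a L 0) (i.const_mul _)]
    refine integral_congr_ae (ae_of_all _ fun w => ?_)
    simp only [W3, W2]
    ring
  · show 0 ≤ (‖w.2.1 - w.2.2‖⁻¹ + Mx w.1 w.2) * a.f w * a.f w
    rw [mul_assoc, Mx]
    exact mul_nonneg (by positivity) (mul_self_nonneg _)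

theorem M1ex_half {u f : E9 → ℝ} (hu : MemLp u 2 volume) (hf : MemLp f 2 volume) :
    ∫ w, u w * f w ≤ ((∫ w, u w ^ 2) + ∫ w, f w ^ 2) / 2 := by
  have h1 := cabs_exp hu hf (-1)
  have h2 : 0 ≤ ∫ w, (u w + -1 * f w) ^ 2 := integral_nonneg fun _ => sq_nonneg _
  linarith

theorem M1ex_rep (a : O3) :
    rep3 a ≤ 4 * (∫ w, ‖a.g1 w‖ ^ 2) + 2 * (∫ w, ‖a.g2 w‖ ^ 2) + 3 / 2 * ∫ w, a.f w ^ 2 := by
  obtain ⟨m1, b1⟩ := CO3x.hv_hardy a.h.h1 (c := fun y => y.1) measurable_fst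
  obtain ⟨m2, b2⟩ := CO3x.hv_hardy a.h.h1 (c := fun y => y.2) measurable_snd
  have b3 : ∫ w : E9, (‖w.2.1 - w.2.2‖⁻¹ * a.f w) ^ 2 ≤ 4 * ∫ w, ‖a.g2 w‖ ^ 2 := by
    rw [← integral_p12, ← integral_p12 fun w => ‖a.g2 w‖ ^ 2]
    exact (CO3x.hv_hardy a.h.h2 (c := fun y => y.2) measurable_snd).2
  have m3 := (a.mem 0 0).2.2.2.2.1
  replace m1 : MemLp (fun w : E9 => ‖w.1 - w.2.1‖⁻¹ * a.f w) 2 volume := m1
  replace m2 : MemLp (fun w : E9 => ‖w.1 - w.2.2‖⁻¹ * a.f w) 2 volume := m2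
  have e : rep3 a = (∫ w : E9, ‖w.2.1 - w.2.2‖⁻¹ * a.f w * a.f w) +
      ((∫ w : E9, ‖w.1 - w.2.1‖⁻¹ * a.f w * a.f w) +
        ∫ w : E9, ‖w.1 - w.2.2‖⁻¹ * a.f w * a.f w) := by
    rw [← integral_add' (cabs_mul m1 a.l2.1) (cabs_mul m2 a.l2.1),
      ← integral_add' (cabs_mul m3 a.l2.1) ((cabs_mul m1 a.l2.1).add (cabs_mul m2 a.l2.1)), rep3]
    refine integral_congr_ae (ae_of_all _ fun w => ?_)
    simp only [Mx, Pi.add_apply]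
    ring
  have c1 := M1ex_half m1 a.l2.1
  have c2 := M1ex_half m2 a.l2.1
  have c3 := M1ex_half m3 a.l2.1
  have b1' : ∫ w : E9, (‖w.1 - w.2.1‖⁻¹ * a.f w) ^ 2 ≤ 4 * ∫ w, ‖a.g1 w‖ ^ 2 := b1
  have b2' : ∫ w : E9, (‖w.1 - w.2.2‖⁻¹ * a.f w) ^ 2 ≤ 4 * ∫ w, ‖a.g1 w‖ ^ 2 := b2
  linarith

/-- The squared Sobolev norm. -/
def M1ex_n (a : O3) : ℝ := ∫ w, (a.f w ^ 2 + ‖a.g1 w‖ ^ 2 + ‖a.g2 w‖ ^ 2 + ‖a.g3 w‖ ^ 2)

theorem M1ex_two (L : ℝ) {lam : ℝ} (h0 : 0 ≤ lam) (a : O3) :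
    0 ≤ M1ex_n a ∧ M1ex_n a / 4 ≤ q3 L lam a a + 49 * ip3 a a ∧
      q3 L lam a a + 49 * ip3 a a ≤ (50 + 4 * lam) * M1ex_n a := by
  obtain ⟨l0, l1, l2, l3⟩ := a.l2
  have i0 := l0.integrable_sq
  have i1 := CO3x.int_nsq l1
  have i2 := CO3x.int_nsq l2
  have i3 := CO3x.int_nsq l3
  have e1 : ∫ w, (‖a.g1 w‖ ^ 2 + ‖a.g2 w‖ ^ 2 + ‖a.g3 w‖ ^ 2) =
      (∫ w, ‖a.g1 w‖ ^ 2) + (∫ w, ‖a.g2 w‖ ^ 2) + ∫ w, ‖a.g3 w‖ ^ 2 :=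
    (integral_add (i1.add i2) i3).trans (congrArg (· + _) (integral_add i1 i2))
  have e2 : M1ex_n a = (∫ w, a.f w ^ 2) +
      ∫ w, (‖a.g1 w‖ ^ 2 + ‖a.g2 w‖ ^ 2 + ‖a.g3 w‖ ^ 2) := by
    rw [M1ex_n]
    simp only [add_assoc]
    exact integral_add i0 (i1.add (i2.add i3))
  have e3 : ip3 a a = ∫ w, a.f w ^ 2 := by simp only [ip3, sq]
  have k1 := q3_kin h0 L a
  have k2 : q3 L 0 a a ≤ 1 / 2 * ∫ w, (‖a.g1 w‖ ^ 2 + ‖a.g2 w‖ ^ 2 + ‖a.g3 w‖ ^ 2) := by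
    rw [← integral_const_mul]
    refine integral_mono (CO3x.intq a a L 0) (((i1.add i2).add i3).const_mul _) fun w => ?_
    have hV : ∀ x, V L x ≤ 0 := fun x => neg_nonpos.2 (by simp only [rA, rB]; positivity)
    have : W3 L 0 w ≤ 0 := by
      simp only [W3, W2, zero_mul, add_zero]
      linarith [hV w.1, hV w.2.1, hV w.2.2]
    simp only [real_inner_self_eq_norm_sq, mul_assoc]
    linarith [mul_nonneg (neg_nonneg.2 this) (mul_self_nonneg (a.f w))]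
  have k3 := mul_le_mul_of_nonneg_left (M1ex_rep a) h0
  have p0 : 0 ≤ ∫ w, a.f w ^ 2 := CLscAux.nnr
  have p1 : 0 ≤ ∫ w, ‖a.g1 w‖ ^ 2 := CLscAux.nn
  have p2 : 0 ≤ ∫ w, ‖a.g2 w‖ ^ 2 := CLscAux.nn
  have p3 : 0 ≤ ∫ w, ‖a.g3 w‖ ^ 2 := CLscAux.nn
  rw [e1] at e2 k1 k2
  rw [e3] at k1
  rw [e2, e3]
  refine ⟨by positivity, by linarith, ?_⟩
  rw [(q3_split L lam a).1]
  nlinarith [mul_nonneg h0 p0, mul_nonneg h0 p2, mul_nonneg h0 p3]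

theorem M1ex_sub (a b : O3) : M1ex_n (a - b) = ∫ w, ((a.f w - b.f w) ^ 2 +
    ‖a.g1 w - b.g1 w‖ ^ 2 + ‖a.g2 w - b.g2 w‖ ^ 2 + ‖a.g3 w - b.g3 w‖ ^ 2) := by
  obtain ⟨h0, h1, h2, h3⟩ := O3.sub_eq a b
  simp only [M1ex_n, h0, h1, h2, h3]

theorem O3.cpl (L : ℝ) {lam : ℝ} (h0 : 0 ≤ lam) (s : ℕ → O3)
    (h : ∀ ε > 0, ∃ N, ∀ m ≥ N, ∀ n ≥ N,
      q3 L lam (s m - s n) (s m - s n) + 49 * ip3 (s m - s n) (s m - s n) < ε) :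
    ∃ x, Tendsto (fun n => q3 L lam (s n - x) (s n - x) + 49 * ip3 (s n - x) (s n - x))
      atTop (𝓝 0) := by
  obtain ⟨x, hx⟩ := O3.complete s fun ε hε => by
    obtain ⟨N, hN⟩ := h (ε / 4) (by positivity)
    refine ⟨N, fun m hm n hn => ?_⟩
    rw [← M1ex_sub]
    linarith [hN m hm n hn, (M1ex_two L h0 (s m - s n)).2.1]
  simp only [← M1ex_sub] at hx
  refine ⟨x, squeeze_zero (fun n => ?_) (fun n => (M1ex_two L h0 (s n - x)).2.2) ?_⟩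
  · linarith [(M1ex_two L h0 (s n - x)).1, (M1ex_two L h0 (s n - x)).2.1]
  · simpa only [mul_zero] using hx.const_mul (50 + 4 * lam)

end

end Vale.Agent.P363
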