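import Vale.Agent.P363.M1s

/-! P363, block M1: the master gap inequality for two particles. -/

open MeasureTheory Set Metric Filter Topology
open scoped RealInnerProductSpace

namespace Vale.Agent.P363

noncomputable section

theorem M1gx_int {F : E6 → ℝ} {G : E6 → E3} (h : HV volume F G) (L : ℝ) :
    Integrable (fun w : E6 => (1 / 2) * ‖G w‖ ^ 2 + V L w.1 * F w ^ 2) := by
  have h1 := (cabs_mul h.l2g.norm h.l2g.norm).const_mul (1 / 2)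
  have h2 := cabs_mul (CO3x.hv_V h L).1 h.l2
  refine (h1.add h2).congr (ae_of_all _ fun w => ?_)
  simp only [Pi.add_apply]
  ring

theorem M1gx_split (L : ℝ) (b : O2) : q2 L 0 b b =
    (∫ w : E6, ((1 / 2) * ‖b.g1 w‖ ^ 2 + V L w.1 * b.f w ^ 2)) +
      ∫ w : E6, ((1 / 2) * ‖b.g2 w.swap‖ ^ 2 + V L w.1 * b.f w.swap ^ 2) := by
  have h2 : Integrable (fun w : E6 => (1 / 2) * ‖b.g2 w‖ ^ 2 + V L w.2 * b.f w ^ 2) :=
    mp_swap6.integrable_comp_of_integrable (M1gx_int b.h.h2 L)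
  have e := integral_swap6 fun w : E6 => (1 / 2) * ‖b.g2 w‖ ^ 2 + V L w.2 * b.f w ^ 2
  refine Eq.trans ?_ (congrArg _ e.symm)
  rw [← integral_add (M1gx_int b.h.h1 L) h2, q2]
  refine integral_congr_ae (ae_of_all _ fun w => ?_)
  simp only [W2, real_inner_self_eq_norm_sq]
  ring

theorem M1gx_num {e x y N Ag Au Bg Bu c1 c2 c3 c4 I1 I2 : ℝ} (ha : y ≤ e) (hd : x < y)
    (g1 : e * N - (e - x) * Ag - (e - y) * Au ≤ I1)
    (g2 : e * N - (e - x) * Bg - (e - y) * Bu ≤ I2)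
    (p1 : Ag + Au + (Bg + Bu) ≤ N + (c1 + c2 + (c3 + c4))) (p2 : c3 + c4 ≤ Au)
    (p3 : c2 + c4 ≤ Bu) :
    (x + e) * N - (e - x) * c1 - (e - y) * (c2 + c3) - (e + x - 2 * y) * c4 ≤ I1 + I2 := by
  nlinarith [mul_le_mul_of_nonneg_left p1 (by linarith : 0 ≤ e - x),
    mul_le_mul_of_nonneg_left p2 (by linarith : 0 ≤ y - x),
    mul_le_mul_of_nonneg_left p3 (by linarith : 0 ≤ y - x)]

theorem gap_master {c0 L : ℝ} (ob : OB c0 L) (h : ob.eu ≤ -1 / 2 + c0) (b : O2) :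
    (ob.eg + (-1 / 2 + c0)) * ip2 b b - (-1 / 2 + c0 - ob.eg) * ip2 (tens ob.hg ob.hg) b ^ 2 -
      (-1 / 2 + c0 - ob.eu) * (ip2 (tens ob.hg ob.hu) b ^ 2 + ip2 (tens ob.hu ob.hg) b ^ 2) -
      (-1 / 2 + c0 + ob.eg - 2 * ob.eu) * ip2 (tens ob.hu ob.hu) b ^ 2 ≤ q2 L 0 b b ∧
    ip2 (tens ob.hg ob.hg) b ^ 2 + ip2 (tens ob.hg ob.hu) b ^ 2 + ip2 (tens ob.hu ob.hg) b ^ 2 +
      ip2 (tens ob.hu ob.hu) b ^ 2 ≤ ip2 b b := by
  have on : ∀ i j : Fin 2, ∫ x, ![ob.g, ob.u] i x * ![ob.g, ob.u] j x = if i = j then 1 else 0 := by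
    have o1 : ∫ x, ob.g x * ob.u x = 0 := ob.orth
    have o2 : ∫ x, ob.u x * ob.g x = 0 := by simpa only [mul_comm] using o1
    have o3 : ∫ x, ob.g x * ob.g x = 1 := by simpa only [sq] using ob.ng
    have o4 : ∫ x, ob.u x * ob.u x = 1 := by simpa only [sq] using ob.nu
    exact Fin.forall_fin_two.2 ⟨Fin.forall_fin_two.2 ⟨o3, o1⟩, Fin.forall_fin_two.2 ⟨o2, o4⟩⟩
  obtain ⟨p1, p2, p3⟩ := four_proj (μ := volume) (f := b.f) (a := ![ob.g, ob.u]) b.l2.1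
    (Fin.forall_fin_two.2 ⟨ob.hg.l2, ob.hu.l2⟩) on
  have g1 := gap_slice ob.hg.l2 ob.hu.l2 ob.gap b.h.h1
  have g2 := gap_slice ob.hg.l2 ob.hu.l2 ob.gap b.h.h2
  have n1 : ∫ w, b.f w ^ 2 ∂((volume : Measure E3).prod volume) = ip2 b b := by
    simp only [sq]
    rfl
  have n2 : ∫ w, b.f w.swap ^ 2 ∂((volume : Measure E3).prod volume) = ip2 b b :=
    (integral_swap6 fun w => b.f w ^ 2).trans n1
  have q0 := p2 0
  have q1 := p2 1
  have r0 := p3 0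
  have r1 := p3 1
  simp only [Fin.sum_univ_two, Matrix.cons_val_zero, Matrix.cons_val_one] at p1 q0 q1 r0 r1
  rw [n1] at p1 g1
  rw [n2] at g2
  constructor
  · rw [M1gx_split]
    exact M1gx_num h ob.lt g1 g2 p1 q1 r1
  · have e : ∀ {φ ψ : E3 → ℝ} {p q : E3 → E3} (h : H1 φ p) (h' : H1 ψ q), ip2 (tens h h') b =
        ∫ w, φ w.1 * ψ w.2 * b.f w ∂((volume : Measure E3).prod volume) := fun _ _ => rfl
    rw [e, e, e, e]
    linarith

end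

end Vale.Agent.P363
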