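import Vale.Agent.P363.M1j

/-! P363, block M1: the gap inequality for three particles. -/

open MeasureTheory Set Metric Filter Topology
open scoped RealInnerProductSpace

namespace Vale.Agent.P363

noncomputable section

/-- The ion part of the form, for a function antisymmetric in the ion variables. -/
theorem M1hx_ion {c0 L : ℝ} (ob : OB c0 L) (h : ob.eu ≤ -1 / 2 + c0) (b : O3)
    (hb : ∀ (x : E3) (y : E6), b.f (x, y.swap) = -b.f (x, y)) :
    (ob.eg + (-1 / 2 + c0)) * (∫ w, b.f w ^ 2) -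
      (-1 / 2 + c0 - ob.eu) * (∫ x, (∫ y, (T0o ob).f y * b.f (x, y)) ^ 2) ≤
      ∫ w : E9, ((1 / 2) * (⟪b.g2 w, b.g2 w⟫ + ⟪b.g3 w, b.g3 w⟫) + W2 L 0 w.2 * b.f w * b.f w) := by
  have i1 : Integrable (fun w : E9 => (1 / 2) * (⟪b.g2 w, b.g2 w⟫ + ⟪b.g3 w, b.g3 w⟫) +
      W2 L 0 w.2 * b.f w * b.f w) (volume.prod volume) :=
    (((b.int b L 0).2.2.1.add (b.int b L 0).2.2.2.1).const_mul _).add
      (cabs_mul (b.mem L 0).2.1 b.l2.1)
  have i2 : Integrable (fun w : E9 => b.f w ^ 2) (volume.prod volume) := b.l2.1.integrable_sq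
  have i3 := (memLp_proj (μ := volume) (ν := volume) b.l2.1 (T0o ob).l2.1).1.integrable_sq
  have e1 := integral_prod _ i1
  have e2 := integral_prod _ i2
  have a := integral_mono_ae ((i2.integral_prod_left.const_mul (ob.eg + (-1 / 2 + c0))).sub
    (i3.const_mul (-1 / 2 + c0 - ob.eu))) i1.integral_prod_left (by
      filter_upwards [b.h.slice] with x hx
      have c := gapT0 ob h ⟨_, _, _, hx⟩ (hb x)
      simp only [ip2, q2, ← pow_two] at c
      exact c)
  simp only [Pi.sub_apply] at a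
  rw [integral_sub (i2.integral_prod_left.const_mul _) (i3.const_mul _), integral_const_mul,
    integral_const_mul, ← e1, ← e2] at a
  exact a

theorem M1hx_main {c0 L : ℝ} (ob : OB c0 L) (h : ob.eu - ob.eg ≤ -1 / 2 + c0 - ob.eu) (b : O3)
    (hb : ∀ (x : E3) (y : E6), b.f (x, y.swap) = -b.f (x, y)) :
    (ob.eg + 2 * ob.eu) * ip3 b b - (ob.eu - ob.eg) * ip3 (ten3 ob.hg (T0o ob)) b ^ 2 ≤
      q3 L 0 b b := by
  have lt := ob.lt
  have h' : ob.eu ≤ -1 / 2 + c0 := by linarith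
  have a1 := gap_slice ob.hg.l2 ob.hu.l2 (ob.gap1 h') b.h.h1
  have a2 := M1hx_ion ob h' b hb
  have nT : ∫ y, (T0o ob).f y ^ 2 = 1 := by
    have := (inf_en ob).2.2.2.2.1
    simpa only [ip2, ← pow_two] using this
  have a3 := (two_proj (μ := volume) (ν := volume) b.l2.1 ob.hg.l2 (T0o ob).l2.1 ob.ng nT).1
  have i2 : Integrable (fun w : E9 => b.f w ^ 2) (volume.prod volume) := b.l2.1.integrable_sq
  have m := memLp_proj (μ := volume) (ν := volume) b.l2.1 (T0o ob).l2.1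
  have a4 := integral_mono_ae m.1.integrable_sq i2.integral_prod_left (by
    filter_upwards [m.2] with x hx
    have c := hx.2
    rw [nT, one_mul] at c
    exact c)
  rw [← integral_prod _ i2] at a4
  have j1 : Integrable (fun w : E9 => (1 / 2) * ‖b.g1 w‖ ^ 2 + V L w.1 * b.f w ^ 2) := by
    have := ((b.int b L 0).2.1.const_mul (1 / 2)).add (cabs_mul (b.mem L 0).1 b.l2.1)
    refine this.congr (Eventually.of_forall fun w => ?_)
    simp only [Pi.add_apply, real_inner_self_eq_norm_sq]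
    ring
  have j2 : Integrable (fun w : E9 => (1 / 2) * (⟪b.g2 w, b.g2 w⟫ + ⟪b.g3 w, b.g3 w⟫) +
      W2 L 0 w.2 * b.f w * b.f w) :=
    (((b.int b L 0).2.2.1.add (b.int b L 0).2.2.2.1).const_mul _).add
      (cabs_mul (b.mem L 0).2.1 b.l2.1)
  have e1 : q3 L 0 b b = (∫ w : E9, ((1 / 2) * ‖b.g1 w‖ ^ 2 + V L w.1 * b.f w ^ 2)) +
      ∫ w : E9, ((1 / 2) * (⟪b.g2 w, b.g2 w⟫ + ⟪b.g3 w, b.g3 w⟫) +
        W2 L 0 w.2 * b.f w * b.f w) := by
    rw [← integral_add j1 j2, q3]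
    refine integral_congr_ae (Eventually.of_forall fun w => ?_)
    simp only [W3, real_inner_self_eq_norm_sq]
    ring
  have e2 : ip3 b b = ∫ w, b.f w ^ 2 := by simp only [ip3, ← pow_two]
  have e3 : ip3 (ten3 ob.hg (T0o ob)) b = ∫ w : E9, ob.g w.1 * (T0o ob).f w.2 * b.f w := rfl
  rw [e1, e2, e3]
  have v : (volume : Measure E3).prod (volume : Measure E6) = volume := rfl
  rw [v] at a1 a3 a4
  have c1 := mul_le_mul_of_nonneg_left a3 (sub_pos.2 lt).le
  have c2 := mul_le_mul_of_nonneg_left a4 (sub_nonneg.2 h)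
  linarith

theorem gapF0 {c0 L : ℝ} (ob : OB c0 L) (h : ob.eu - ob.eg ≤ -1 / 2 + c0 - ob.eu) (b : O3)
    (hb : ∀ w, b.f (p12 w) = -b.f w) :
    (ob.eg + 2 * ob.eu) * ip3 b b - (ob.eu - ob.eg) * ip3 (F0o ob) b ^ 2 ≤ q3 L 0 b b := by
  have a := M1hx_main ob h b.perm13 fun x y => hb (p13 (x, y))
  have e : ip3 (F0o ob) b = ip3 (ten3 ob.hg (T0o ob)) b.perm13 :=
    (q3_perm13 L 0 (ten3 ob.hg (T0o ob)) b.perm13).2
  rw [(q3_perm13 L 0 b b).1, (q3_perm13 L 0 b b).2, ← e] at a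
  exact a

end

end Vale.Agent.P363
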