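import Vale.Agent.P363.M1g

/-! P363, block M1: gap inequalities in the symmetry sectors. -/

open MeasureTheory Set Metric Filter Topology
open scoped RealInnerProductSpace

namespace Vale.Agent.P363

noncomputable section

theorem M1jx_swap {φ ψ : E3 → ℝ} {p q : E3 → E3} (h : H1 φ p) (h' : H1 ψ q) (b : O2) {s : ℝ}
    (hb : ∀ w, b.f w.swap = s * b.f w) : ip2 (tens h h') b = s * ip2 (tens h' h) b := by
  rw [ip2, ip2, ← integral_swap6, ← integral_const_mul]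
  refine integral_congr_ae (Eventually.of_forall fun w => ?_)
  simp only [tens, hb, Prod.fst_swap, Prod.snd_swap]
  ring

theorem M1jx_sg {φ : E3 → ℝ} {p : E3 → E3} (h : H1 φ p) (b : O2)
    (hφ : ∀ x y, φ (sg x) * φ (sg y) = φ x * φ y) (hb : ∀ w, b.f (sg6 w) = -b.f w) :
    ip2 (tens h h) b = 0 := by
  have : ip2 (tens h h) b = -ip2 (tens h h) b := by
    conv_lhs => rw [ip2, ← integral_sg6]
    rw [ip2, ← integral_neg]
    refine integral_congr_ae (Eventually.of_forall fun w => ?_)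
    have e := hφ w.1 w.2
    simp only [hb]
    simp only [tens, sg6, e]
    ring
  linarith

theorem M1jx_sq (x : ℝ) : ((√2)⁻¹ * (x + x)) ^ 2 = x ^ 2 + x ^ 2 := by
  rw [mul_pow, inv_pow, Real.sq_sqrt (by norm_num)]
  ring

variable {c0 L : ℝ} (ob : OB c0 L)

theorem gapP0 (h : ob.eu ≤ -1 / 2 + c0) (b : O2) :
    (ob.eg + ob.eu) * ip2 b b - (ob.eu - ob.eg) * ip2 (P0o ob) b ^ 2 ≤ q2 L 0 b b := by
  obtain ⟨h1, h2⟩ := gap_master ob h b
  have h3 := mul_le_mul_of_nonneg_left h2 (sub_nonneg.2 h)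
  have h4 := mul_nonneg (sub_nonneg.2 ob.lt.le) (sq_nonneg (ip2 (tens ob.hu ob.hu) b))
  rw [P0o]
  linarith

theorem gapT0 (h : ob.eu ≤ -1 / 2 + c0) (b : O2) (hb : ∀ w, b.f w.swap = -b.f w) :
    (ob.eg + (-1 / 2 + c0)) * ip2 b b - (-1 / 2 + c0 - ob.eu) * ip2 (T0o ob) b ^ 2 ≤
      q2 L 0 b b := by
  have h1 := (gap_master ob h b).1
  have hb' : ∀ w, b.f w.swap = -1 * b.f w := fun w => by rw [hb, neg_one_mul]
  have e1 : ip2 (tens ob.hg ob.hg) b = 0 := by linarith [M1jx_swap ob.hg ob.hg b hb']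
  have e2 : ip2 (tens ob.hu ob.hu) b = 0 := by linarith [M1jx_swap ob.hu ob.hu b hb']
  have e3 := M1jx_swap ob.hg ob.hu b hb'
  rw [T0o, ip2_cmul, ip2_add, ip2_cmul, ← e3, M1jx_sq]
  have e4 : ip2 (tens ob.hu ob.hg) b ^ 2 = ip2 (tens ob.hg ob.hu) b ^ 2 := by rw [e3]; ring
  rw [e1, e2, e4] at h1
  linarith

theorem gapS0 (h : ob.eu ≤ -1 / 2 + c0) (b : O2)
    (hb : ∀ w, b.f w.swap = b.f w ∧ b.f (sg6 w) = -b.f w) :
    (ob.eg + (-1 / 2 + c0)) * ip2 b b - (-1 / 2 + c0 - ob.eu) * ip2 (S0o ob) b ^ 2 ≤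
      q2 L 0 b b := by
  have h1 := (gap_master ob h b).1
  have e1 := M1jx_sg ob.hg b (fun x y => by rw [ob.evg, ob.evg]) fun w => (hb w).2
  have e2 := M1jx_sg ob.hu b (fun x y => by rw [ob.odu, ob.odu, neg_mul_neg]) fun w => (hb w).2
  have e3 := M1jx_swap ob.hu ob.hg b (s := 1) fun w => by rw [(hb w).1, one_mul]
  rw [one_mul] at e3
  rw [S0o, ip2_cmul, ip2_add, e3, M1jx_sq]
  rw [e1, e2, e3] at h1
  linarith

end

end Vale.Agent.P363
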