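import Vale.Agent.P363.M1d

/-! P363, block M1: module structure, noninteracting states. -/

open MeasureTheory Set Metric Filter Topology
open scoped RealInnerProductSpace

namespace Vale.Agent.P363

noncomputable section

def O2.emb (a : O2) : (E6 → ℝ) × (E6 → E3) × (E6 → E3) := (a.f, a.g1, a.g2)

theorem O2.emb_inj : Function.Injective O2.emb := by
  rintro ⟨_, _, _, _⟩ ⟨_, _, _, _⟩ h
  simp only [O2.emb, Prod.mk.injEq] at h
  obtain ⟨rfl, rfl, rfl⟩ := h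
  rfl

def tens {φ ψ : E3 → ℝ} {p q : E3 → E3} (h : H1 φ p) (h' : H1 ψ q) : O2 :=
  ⟨_, _, _, H2.tensor h h'⟩

instance : Zero O2 := ⟨(tens H1.zero H1.zero).cmul 0⟩
instance : Add O2 := ⟨O2.add⟩
instance : Neg O2 := ⟨O2.cmul (-1)⟩
instance : _root_.Sub O2 := ⟨fun a b => a.add (b.cmul (-1))⟩
instance : SMul ℕ O2 := ⟨fun n a => a.cmul n⟩
instance : SMul ℤ O2 := ⟨fun n a => a.cmul n⟩
instance : SMul ℝ O2 := ⟨fun c a => a.cmul c⟩

instance O2.grp : AddCommGroup O2 := O2.emb_inj.addCommGroup O2.emb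
  (show O2.emb (O2.cmul 0 _) = 0 by ext <;> simp [O2.emb, O2.cmul]) (fun _ _ => rfl)
  (fun a => show O2.emb (a.cmul (-1)) = _ by ext <;> simp [O2.emb, O2.cmul])
  (fun a b => show O2.emb (a.add (b.cmul (-1))) = _ by
    ext <;> simp [O2.emb, O2.cmul, O2.add, sub_eq_add_neg])
  (fun a n => show O2.emb (a.cmul n) = _ by ext <;> simp [O2.emb, O2.cmul])
  (fun a n => show O2.emb (a.cmul n) = _ by ext <;> simp [O2.emb, O2.cmul])

instance O2.mod : Module ℝ O2 := O2.emb_inj.module ℝ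
  ⟨⟨O2.emb, show O2.emb (O2.cmul 0 _) = 0 by ext <;> simp [O2.emb, O2.cmul]⟩, fun _ _ => rfl⟩
  fun _ _ => rfl

def O3.emb (a : O3) : (E9 → ℝ) × (E9 → E3) × (E9 → E3) × (E9 → E3) := (a.f, a.g1, a.g2, a.g3)

theorem O3.emb_inj : Function.Injective O3.emb := by
  rintro ⟨_, _, _, _, _⟩ ⟨_, _, _, _, _⟩ h
  simp only [O3.emb, Prod.mk.injEq] at h
  obtain ⟨rfl, rfl, rfl, rfl⟩ := h
  rfl

def ten3 {φ : E3 → ℝ} {p : E3 → E3} (h : H1 φ p) (a : O2) : O3 := ⟨_, _, _, _, H3.tensor h a⟩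

instance : Zero O3 := ⟨(ten3 H1.zero 0).cmul 0⟩
instance : Add O3 := ⟨O3.add⟩
instance : Neg O3 := ⟨O3.cmul (-1)⟩
instance : _root_.Sub O3 := ⟨fun a b => a.add (b.cmul (-1))⟩
instance : SMul ℕ O3 := ⟨fun n a => a.cmul n⟩
instance : SMul ℤ O3 := ⟨fun n a => a.cmul n⟩
instance : SMul ℝ O3 := ⟨fun c a => a.cmul c⟩

instance O3.grp : AddCommGroup O3 := O3.emb_inj.addCommGroup O3.emb
  (show O3.emb (O3.cmul 0 _) = 0 by ext <;> simp [O3.emb, O3.cmul]) (fun _ _ => rfl)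
  (fun a => show O3.emb (a.cmul (-1)) = _ by ext <;> simp [O3.emb, O3.cmul])
  (fun a b => show O3.emb (a.add (b.cmul (-1))) = _ by
    ext <;> simp [O3.emb, O3.cmul, O3.add, sub_eq_add_neg])
  (fun a n => show O3.emb (a.cmul n) = _ by ext <;> simp [O3.emb, O3.cmul])
  (fun a n => show O3.emb (a.cmul n) = _ by ext <;> simp [O3.emb, O3.cmul])

instance O3.mod : Module ℝ O3 := O3.emb_inj.module ℝ
  ⟨⟨O3.emb, show O3.emb (O3.cmul 0 _) = 0 by ext <;> simp [O3.emb, O3.cmul]⟩, fun _ _ => rfl⟩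
  fun _ _ => rfl

theorem O2.sub_eq (a b : O2) : (∀ w, (a - b).f w = a.f w - b.f w) ∧
    (∀ w, (a - b).g1 w = a.g1 w - b.g1 w) ∧ ∀ w, (a - b).g2 w = a.g2 w - b.g2 w :=
  ⟨fun w => show a.f w + -1 * b.f w = _ by ring,
    fun w => show a.g1 w + (-1 : ℝ) • b.g1 w = _ by simp [sub_eq_add_neg],
    fun w => show a.g2 w + (-1 : ℝ) • b.g2 w = _ by simp [sub_eq_add_neg]⟩

theorem O3.sub_eq (a b : O3) : (∀ w, (a - b).f w = a.f w - b.f w) ∧
    (∀ w, (a - b).g1 w = a.g1 w - b.g1 w) ∧ (∀ w, (a - b).g2 w = a.g2 w - b.g2 w) ∧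
    ∀ w, (a - b).g3 w = a.g3 w - b.g3 w :=
  ⟨fun w => show a.f w + -1 * b.f w = _ by ring,
    fun w => show a.g1 w + (-1 : ℝ) • b.g1 w = _ by simp [sub_eq_add_neg],
    fun w => show a.g2 w + (-1 : ℝ) • b.g2 w = _ by simp [sub_eq_add_neg],
    fun w => show a.g3 w + (-1 : ℝ) • b.g3 w = _ by simp [sub_eq_add_neg]⟩

variable {c0 L : ℝ} (ob : OB c0 L)

def P0o : O2 := tens ob.hg ob.hg

def S0o : O2 := ((tens ob.hg ob.hu).add (tens ob.hu ob.hg)).cmul (√2)⁻¹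

def T0o : O2 := ((tens ob.hg ob.hu).add ((tens ob.hu ob.hg).cmul (-1))).cmul (√2)⁻¹

def F0o : O3 := (ten3 ob.hg (T0o ob)).perm13

theorem inf_f : (∀ w, (P0o ob).f w = Pinf ob w) ∧ (∀ w, (S0o ob).f w = Sinf ob w) ∧
    (∀ w, (T0o ob).f w = Tinf ob w) ∧ ∀ w, (F0o ob).f w = Finf ob w := by
  refine ⟨fun _ => rfl, fun w => ?_, fun w => ?_, fun w => ?_⟩ <;>
    simp only [S0o, T0o, F0o, O2.cmul, O2.add, tens, ten3, O3.perm13, Sinf, Tinf, Finf, p13] <;>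
    ring

def rep2 (a : O2) : ℝ := ∫ w : E6, ‖w.1 - w.2‖⁻¹ * a.f w * a.f w

def rep3 (a : O3) : ℝ := ∫ w : E9, (‖w.2.1 - w.2.2‖⁻¹ + Mx w.1 w.2) * a.f w * a.f w

end

end Vale.Agent.P363
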