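import Vale.Agent.P363.M1u

/-! P363, block M1: the one-body gap on slices. -/

open MeasureTheory Set Metric Filter Topology
open scoped RealInnerProductSpace

namespace Vale.Agent.P363

noncomputable section

/-- A one-body inequality integrated over the other variables. -/
theorem gap_slice {L A B C : ℝ} {g u : E3 → ℝ} (hg : MemLp g 2 volume) (hu : MemLp u 2 volume)
    (gap : ∀ f gf, H1 f gf → A * (∫ x, f x ^ 2) - B * (∫ x, g x * f x) ^ 2 -
      C * (∫ x, u x * f x) ^ 2 ≤ q1 L f gf f gf)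
    {Y : Type} [MeasurableSpace Y] {ν : Measure Y} [SFinite ν] {F : E3 × Y → ℝ}
    {G : E3 × Y → E3} (h : HV ν F G) :
    A * (∫ w, F w ^ 2 ∂(volume.prod ν)) - B * (∫ y, (∫ x, g x * F (x, y)) ^ 2 ∂ν) -
      C * (∫ y, (∫ x, u x * F (x, y)) ^ 2 ∂ν) ≤
      ∫ w, ((1 / 2) * ‖G w‖ ^ 2 + V L w.1 * F w ^ 2) ∂(volume.prod ν) := by
  have i1 : Integrable (fun w => F w ^ 2) (volume.prod ν) := h.l2.integrable_sq
  have i2 : Integrable (fun w => ‖G w‖ ^ 2) (volume.prod ν) := h.l2g.norm.integrable_sq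
  have i3 : Integrable (fun w : E3 × Y => V L w.1 * F w ^ 2) (volume.prod ν) :=
    (cabs_mul (CO3x.hv_V h L).1 h.l2).congr (ae_of_all _ fun w => by simp only; ring)
  have i4 : Integrable (fun w : E3 × Y => (1 / 2) * ‖G w‖ ^ 2 + V L w.1 * F w ^ 2)
      (volume.prod ν) := (i2.const_mul _).add i3
  have j1 : Integrable (fun y => (∫ x, g x * F (x, y)) ^ 2) ν :=
    (memLp_proj (cabs_swap h.l2) hg).1.integrable_sq
  have j2 : Integrable (fun y => (∫ x, u x * F (x, y)) ^ 2) ν :=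
    (memLp_proj (cabs_swap h.l2) hu).1.integrable_sq
  have j3 : Integrable (fun y => ∫ x, F (x, y) ^ 2) ν := i1.integral_prod_right
  have j4 : Integrable (fun y => A * ∫ x, F (x, y) ^ 2) ν := j3.const_mul A
  have j5 : Integrable (fun y => B * (∫ x, g x * F (x, y)) ^ 2) ν := j1.const_mul B
  have j6 : Integrable (fun y => C * (∫ x, u x * F (x, y)) ^ 2) ν := j2.const_mul C
  have j7 : Integrable (fun y => A * (∫ x, F (x, y) ^ 2) - B * (∫ x, g x * F (x, y)) ^ 2) ν :=
    j4.sub j5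
  rw [integral_prod_symm _ i4, integral_prod_symm _ i1, ← integral_const_mul,
    ← integral_const_mul, ← integral_const_mul, ← integral_sub j4 j5, ← integral_sub j7 j6]
  refine integral_mono_ae (j7.sub j6) i4.integral_prod_right ?_
  filter_upwards [h.slice] with y hy
  refine (gap _ _ hy).trans_eq ?_
  rw [q1]
  refine integral_congr_ae (ae_of_all _ fun x => ?_)
  simp only [real_inner_self_eq_norm_sq]
  ring

theorem OB.gap1 {c0 L : ℝ} (ob : OB c0 L) (h : ob.eu ≤ -1 / 2 + c0) (f : E3 → ℝ) (gf : E3 → E3)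
    (hf : H1 f gf) : ob.eu * (∫ x, f x ^ 2) - (ob.eu - ob.eg) * (∫ x, ob.g x * f x) ^ 2 -
      0 * (∫ x, ob.u x * f x) ^ 2 ≤ q1 L f gf f gf := by
  have h1 := ob.gap f gf hf
  have h2 := cabs_bes_le (ι := Fin 2) (a := ![ob.g, ob.u]) hf.l2
    (by intro i; fin_cases i; exacts [ob.hg.l2, ob.hu.l2]) (by
      intro i j
      have e1 := ob.ng
      have e2 := ob.nu
      have e3 := OB.orth ob
      have e4 : ∫ x, ob.u x * ob.g x = 0 := by simpa only [mul_comm] using e3
      simp only [sq] at e1 e2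
      fin_cases i <;> fin_cases j
      exacts [e1, e3, e4, e2])
  rw [Fin.sum_univ_two] at h2
  have h3 : (∫ x, ob.g x * f x) ^ 2 + (∫ x, ob.u x * f x) ^ 2 ≤ ∫ x, f x ^ 2 := h2
  nlinarith [mul_nonneg (sub_nonneg.2 h) (sub_nonneg.2 h3)]

end

end Vale.Agent.P363
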