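import Vale.Agent.P363.M1m

/-! P363, block M1: forms on tensor products. -/

open MeasureTheory Set Metric Filter Topology
open scoped RealInnerProductSpace

namespace Vale.Agent.P363

noncomputable section

theorem M1tx_sum {α β : Type} [MeasurableSpace α] [MeasurableSpace β] {μ : Measure α}
    {ν : Measure β} [SFinite μ] [SFinite ν] {A C : α → ℝ} {B D : β → ℝ} (hA : Integrable A μ)
    (hB : Integrable B ν) (hC : Integrable C μ) (hD : Integrable D ν) :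
    ∫ w, (A w.1 * B w.2 + C w.1 * D w.2) ∂(μ.prod ν) =
      (∫ x, A x ∂μ) * (∫ y, B y ∂ν) + (∫ x, C x ∂μ) * ∫ y, D y ∂ν := by
  rw [integral_add (hA.mul_prod hB) (hC.mul_prod hD), integral_prod_mul, integral_prod_mul]

theorem M1tx_int {f f' : E3 → ℝ} {g g' : E3 → E3} (h : H1 f g) (h' : H1 f' g') (L : ℝ) :
    Integrable fun x => (1 / 2) * ⟪g x, g' x⟫ + V L x * f x * f' x :=
  ((q1_int h h' L).1.const_mul _).add (q1_int h h' L).2.1

theorem q2_tens (L : ℝ) {φ ψ φ' ψ' : E3 → ℝ} {p q p' q' : E3 → E3} (h1 : H1 φ p) (h2 : H1 ψ q)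
    (h3 : H1 φ' p') (h4 : H1 ψ' q') :
    ip2 (tens h1 h2) (tens h3 h4) = (∫ x, φ x * φ' x) * ∫ x, ψ x * ψ' x ∧
    q2 L 0 (tens h1 h2) (tens h3 h4) =
      q1 L φ p φ' p' * (∫ x, ψ x * ψ' x) + (∫ x, φ x * φ' x) * q1 L ψ q ψ' q' := by
  constructor
  · rw [← integral_prod_mul (μ := volume) (ν := volume) (fun x => φ x * φ' x)
      fun x => ψ x * ψ' x]
    refine integral_congr_ae (Eventually.of_forall fun w => ?_)
    show φ w.1 * ψ w.2 * (φ' w.1 * ψ' w.2) = φ w.1 * φ' w.1 * (ψ w.2 * ψ' w.2)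
    ring
  · refine Eq.trans ?_ (M1tx_sum (M1tx_int h1 h3 L) (q1_int h2 h4 L).2.2 (q1_int h1 h3 L).2.2
      (M1tx_int h2 h4 L))
    refine integral_congr_ae (Eventually.of_forall fun w => ?_)
    show (1 / 2) * (⟪ψ w.2 • p w.1, ψ' w.2 • p' w.1⟫ + ⟪φ w.1 • q w.2, φ' w.1 • q' w.2⟫) +
      W2 L 0 w * (φ w.1 * ψ w.2) * (φ' w.1 * ψ' w.2) = _
    simp only [W2, real_inner_smul_left, real_inner_smul_right]
    ring

theorem q3_tens (L : ℝ) {φ : E3 → ℝ} {p : E3 → E3} (h : H1 φ p) (a : O2) :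
    ip3 (ten3 h a) (ten3 h a) = (∫ x, φ x * φ x) * ip2 a a ∧
    q3 L 0 (ten3 h a) (ten3 h a) = q1 L φ p φ p * ip2 a a + (∫ x, φ x * φ x) * q2 L 0 a a := by
  constructor
  · unfold ip2
    rw [← integral_prod_mul (μ := volume) (ν := volume) (fun x => φ x * φ x)
      fun w => a.f w * a.f w]
    refine integral_congr_ae (Eventually.of_forall fun w => ?_)
    show φ w.1 * a.f w.2 * (φ w.1 * a.f w.2) = φ w.1 * φ w.1 * (a.f w.2 * a.f w.2)
    ring
  · refine Eq.trans ?_ (M1tx_sum (M1tx_int h h L) (a.int a L 0).1 (q1_int h h L).2.2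
      (CO2Aux.intq a a L 0))
    refine integral_congr_ae (Eventually.of_forall fun w => ?_)
    show (1 / 2) * (⟪a.f w.2 • p w.1, a.f w.2 • p w.1⟫ + ⟪φ w.1 • a.g1 w.2, φ w.1 • a.g1 w.2⟫ +
      ⟪φ w.1 • a.g2 w.2, φ w.1 • a.g2 w.2⟫) +
      W3 L 0 w * (φ w.1 * a.f w.2) * (φ w.1 * a.f w.2) = _
    simp only [W3, real_inner_smul_left, real_inner_smul_right]
    ring

end

end Vale.Agent.P363
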