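import Vale.Agent.P363.M1t

/-! P363, block M1: energies of the noninteracting states. -/

open MeasureTheory Set Metric Filter Topology
open scoped RealInnerProductSpace

namespace Vale.Agent.P363

noncomputable section

variable {c0 L : ℝ} (ob : OB c0 L)

theorem OB.orth : ∫ x, ob.g x * ob.u x = 0 := by
  exact integral_odd (ae_of_all _ fun x => by rw [ob.evg, ob.odu, mul_neg])

theorem M1ux_ip (a b : O2) (s t : ℝ) :
    ip2 ((a.add (b.cmul s)).cmul t) ((a.add (b.cmul s)).cmul t) =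
      t * t * (ip2 a a + 2 * s * ip2 a b + s * s * ip2 b b) := by
  rw [ip2_cmul, ip2_comm, ip2_cmul, ip2_add, ip2_cmul, ip2_comm a, ip2_comm b, ip2_add, ip2_add,
    ip2_cmul, ip2_cmul, ip2_comm b a]
  ring

theorem M1ux_q (a b : O2) (s t : ℝ) :
    q2 L 0 ((a.add (b.cmul s)).cmul t) ((a.add (b.cmul s)).cmul t) =
      t * t * (q2 L 0 a a + 2 * s * q2 L 0 a b + s * s * q2 L 0 b b) := by
  rw [q2_cmul, q2_comm, q2_cmul, q2_add, q2_cmul, q2_comm L 0 a, q2_comm L 0 b, q2_add, q2_add,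
    q2_cmul, q2_cmul, q2_comm L 0 b a]
  ring

theorem M1ux_one (b : O2) : b.cmul 1 = b := one_smul ℝ b

theorem inf_en : ip2 (P0o ob) (P0o ob) = 1 ∧ q2 L 0 (P0o ob) (P0o ob) = 2 * ob.eg ∧
    ip2 (S0o ob) (S0o ob) = 1 ∧ q2 L 0 (S0o ob) (S0o ob) = ob.eg + ob.eu ∧
    ip2 (T0o ob) (T0o ob) = 1 ∧ q2 L 0 (T0o ob) (T0o ob) = ob.eg + ob.eu ∧
    ip3 (F0o ob) (F0o ob) = 1 ∧ q3 L 0 (F0o ob) (F0o ob) = 2 * ob.eg + ob.eu := by
  have gg : ∫ x, ob.g x * ob.g x = 1 := by simpa only [sq] using ob.ng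
  have uu : ∫ x, ob.u x * ob.u x = 1 := by simpa only [sq] using ob.nu
  have gu := ob.orth
  have ug : ∫ x, ob.u x * ob.g x = 0 := by simpa only [mul_comm] using gu
  have qgg := ob.eqg _ _ ob.hg
  have quu := ob.equ _ _ ob.hu
  have qgu := ob.eqg _ _ ob.hu
  have qug := ob.equ _ _ ob.hg
  obtain ⟨p1, p2⟩ := q2_tens L ob.hg ob.hg ob.hg ob.hg
  obtain ⟨a1, a2⟩ := q2_tens L ob.hg ob.hu ob.hg ob.hu
  obtain ⟨b1, b2⟩ := q2_tens L ob.hg ob.hu ob.hu ob.hg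
  obtain ⟨c1, c2⟩ := q2_tens L ob.hu ob.hg ob.hu ob.hg
  simp only [qgg, quu, qgu, qug, gg, uu, gu, ug, mul_one, one_mul, mul_zero, add_zero]
    at p1 p2 a1 a2 b1 b2 c1 c2
  have ht : (√2)⁻¹ * (√2)⁻¹ = (1 / 2 : ℝ) := by
    rw [← mul_inv, Real.mul_self_sqrt (by norm_num), one_div]
  have s1 := M1ux_ip (tens ob.hg ob.hu) (tens ob.hu ob.hg) 1 (√2)⁻¹
  have s2 := M1ux_q (L := L) (tens ob.hg ob.hu) (tens ob.hu ob.hg) 1 (√2)⁻¹
  have t1 := M1ux_ip (tens ob.hg ob.hu) (tens ob.hu ob.hg) (-1) (√2)⁻¹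
  have t2 := M1ux_q (L := L) (tens ob.hg ob.hu) (tens ob.hu ob.hg) (-1) (√2)⁻¹
  rw [M1ux_one] at s1 s2
  rw [ht, a1, b1, c1] at s1 t1
  rw [ht, a2, b2, c2] at s2 t2
  have t3 : ip2 (T0o ob) (T0o ob) = 1 := t1.trans (by ring)
  have t4 : q2 L 0 (T0o ob) (T0o ob) = ob.eg + ob.eu := t2.trans (by ring)
  obtain ⟨f1, f2⟩ := q3_perm13 L 0 (ten3 ob.hg (T0o ob)) (ten3 ob.hg (T0o ob))
  obtain ⟨g1, g2⟩ := q3_tens L ob.hg (T0o ob)
  rw [t3, gg] at g1 g2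
  rw [t4, qgg, gg] at g2
  exact ⟨p1, p2.trans (by ring), s1.trans (by ring), s2.trans (by ring), t3, t4,
    f2.trans (g1.trans (by ring)), f1.trans (g2.trans (by ring))⟩

end

end Vale.Agent.P363
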