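import Vale.Agent.P363.M1a
import Vale.Agent.P363.M1c
import Vale.Agent.P363.M1e
import Vale.Agent.P363.M1h

/-! P363, block M1: the variational part. -/

open MeasureTheory Set Metric Filter Topology
open scoped RealInnerProductSpace

namespace Vale.Agent.P363

noncomputable section

def ip2L : O2 →ₗ[ℝ] O2 →ₗ[ℝ] ℝ := LinearMap.mk₂ ℝ ip2 ip2_add ip2_cmul
  (fun a b c => by rw [ip2_comm, ip2_comm a, ip2_comm a]; exact ip2_add b c a)
  fun c a b => by rw [ip2_comm, ip2_comm a]; exact ip2_cmul c b a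

def q2L (L lam : ℝ) : O2 →ₗ[ℝ] O2 →ₗ[ℝ] ℝ := LinearMap.mk₂ ℝ (q2 L lam) (q2_add L lam)
  (q2_cmul L lam) (fun a b c => by rw [q2_comm, q2_comm L lam a, q2_comm L lam a]; exact q2_add ..)
  fun c a b => by rw [q2_comm, q2_comm L lam a]; exact q2_cmul ..

def ip3L : O3 →ₗ[ℝ] O3 →ₗ[ℝ] ℝ := LinearMap.mk₂ ℝ ip3 ip3_add ip3_cmul
  (fun a b c => by rw [ip3_comm, ip3_comm a, ip3_comm a]; exact ip3_add b c a)
  fun c a b => by rw [ip3_comm, ip3_comm a]; exact ip3_cmul c b a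

def q3L (L lam : ℝ) : O3 →ₗ[ℝ] O3 →ₗ[ℝ] ℝ := LinearMap.mk₂ ℝ (q3 L lam) (q3_add L lam)
  (q3_cmul L lam) (fun a b c => by rw [q3_comm, q3_comm L lam a, q3_comm L lam a]; exact q3_add ..)
  fun c a b => by rw [q3_comm, q3_comm L lam a]; exact q3_cmul ..

def swL : O2 →ₗ[ℝ] O2 := ⟨⟨O2.swap, fun _ _ => rfl⟩, fun _ _ => rfl⟩

def rf2L : O2 →ₗ[ℝ] O2 where
  toFun := O2.refl
  map_add' a b := O2.emb_inj (Prod.ext rfl (Prod.ext (funext fun _ => sg_add _ _)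
    (funext fun _ => sg_add _ _)))
  map_smul' c a := O2.emb_inj (Prod.ext rfl (Prod.ext (funext fun _ => sg_smul _ _)
    (funext fun _ => sg_smul _ _)))

def m1p12L : O3 →ₗ[ℝ] O3 := ⟨⟨O3.perm12, fun _ _ => rfl⟩, fun _ _ => rfl⟩

def rf3L : O3 →ₗ[ℝ] O3 where
  toFun := O3.refl
  map_add' a b := O3.emb_inj (Prod.ext rfl (Prod.ext (funext fun _ => sg_add _ _)
    (Prod.ext (funext fun _ => sg_add _ _) (funext fun _ => sg_add _ _))))
  map_smul' c a := O3.emb_inj (Prod.ext rfl (Prod.ext (funext fun _ => sg_smul _ _)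
    (Prod.ext (funext fun _ => sg_smul _ _) (funext fun _ => sg_smul _ _))))

theorem rf2L_inv (a : O2) : rf2L (rf2L a) = a := by
  refine O2.emb_inj ?_
  ext w : 3 <;> simp [rf2L, O2.emb, O2.refl, csg_sg6_inv _, sg_sg]

theorem rf3L_inv (a : O3) : rf3L (rf3L a) = a := by
  have h : ∀ w, sg9 (sg9 w) = w := fun w => by simp only [sg9, sg_sg, csg_sg6_inv w.2]
  refine O3.emb_inj ?_
  ext w : 4 <;> simp [rf3L, O3.emb, O3.refl, h, sg_sg]

theorem ip2_nn (a : O2) : 0 ≤ ip2 a a := integral_nonneg fun _ => mul_self_nonneg _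

theorem ip3_nn (a : O3) : 0 ≤ ip3 a a := integral_nonneg fun _ => mul_self_nonneg _

theorem q2_mono (L : ℝ) {lam : ℝ} (h : 0 ≤ lam) (a : O2) : q2 L 0 a a ≤ q2 L lam a a := by
  have := q2_split L lam a
  nlinarith [mul_nonneg h this.2]

theorem q3_mono (L : ℝ) {lam : ℝ} (h : 0 ≤ lam) (a : O3) : q3 L 0 a a ≤ q3 L lam a a := by
  have := q3_split L lam a
  nlinarith [mul_nonneg h this.2]

theorem sec2 (L : ℝ) {lam s t Λ β : ℝ} (h0 : 0 ≤ lam) (hs : s * s = 1) (ht : t * t = 1) {x0 : O2}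
    (n0 : ip2 x0 x0 = 1) (sx : ∀ w, x0.f w.swap = s * x0.f w ∧ x0.f (sg6 w) = t * x0.f w)
    (gap : ∀ b : O2, (∀ w, b.f w.swap = s * b.f w ∧ b.f (sg6 w) = t * b.f w) →
      Λ * ip2 b b - β * ip2 x0 b ^ 2 ≤ q2 L 0 b b) (e0 : q2 L 0 x0 x0 = Λ - β)
    (hβ : lam * rep2 x0 < β) :
    ∃ (x : O2) (E : ℝ), (∀ w, x.f w.swap = s * x.f w ∧ x.f (sg6 w) = t * x.f w) ∧ ip2 x x = 1 ∧
      (∀ y, q2 L lam x y = E * ip2 x y) ∧ Λ - β ≤ E ∧ E ≤ Λ - β + lam * rep2 x0 ∧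
      β * ∫ w, (x.f w - x0.f w) ^ 2 ≤ 2 * (lam * rep2 x0) := by
  have pt : ∀ x : O2, (s • swL) x = x → (t • rf2L) x = x →
      ∀ w, x.f w.swap = s * x.f w ∧ x.f (sg6 w) = t * x.f w := fun x h1 h2 w => by
    have a1 : s * x.f w.swap = x.f w := congrFun (congrArg O2.f h1) w
    have a2 : t * x.f (sg6 w) = x.f w := congrFun (congrArg O2.f h2) w
    exact ⟨by rw [← a1, ← mul_assoc, hs, one_mul], by rw [← a2, ← mul_assoc, ht, one_mul]⟩
  obtain ⟨x, E, x1, x2, x3, x4, x5, x6, x7⟩ := AF_two ip2L (q2L L lam) ip2_comm (q2_comm L lam)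
    ip2_nn (K := 33) (fun x => by
      have := q2_kin h0 L x
      have k : 0 ≤ k2 x := integral_nonneg fun _ => by positivity
      change ip2 x x ≤ q2 L lam x x + 33 * ip2 x x
      linarith) (O2.cpl L h0) (s • swL) (t • rf2L)
    (fun x => by simp only [LinearMap.smul_apply, map_smul, smul_smul, hs, one_smul]; rfl)
    (fun x => by simp only [LinearMap.smul_apply, map_smul, smul_smul, ht, one_smul, rf2L_inv])
    (fun x => by simp only [LinearMap.smul_apply, map_smul, smul_smul, mul_comm]; rfl)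
    (fun x y => by
      simp only [LinearMap.smul_apply, map_smul, smul_eq_mul, ← mul_assoc, hs, one_mul]
      exact ⟨q2_swap L lam x y, ip2_swap x y⟩)
    (fun x y => by
      simp only [LinearMap.smul_apply, map_smul, smul_eq_mul, ← mul_assoc, ht, one_mul]
      exact ⟨q2_refl L lam x y, ip2_refl x y⟩) (x0 := x0) n0
    (q2_congr L lam (ae_of_all _ fun w => show s * x0.f w.swap = _ by
      rw [(sx w).1, ← mul_assoc, hs, one_mul]))
    (q2_congr L lam (ae_of_all _ fun w => show t * x0.f (sg6 w) = _ by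
      rw [(sx w).2, ← mul_assoc, ht, one_mul])) (Λ := Λ)
    (mul_nonneg h0 (q2_split L lam x0).2) hβ
    (fun x h1 h2 => (gap x (pt x h1 h2)).trans (q2_mono L h0 x))
    (by rw [← e0]; exact (q2_split L lam x0).1.le)
  refine ⟨x, E, pt x x1 x2, x3, x4, x5, x6, le_of_eq_of_le ?_ x7⟩
  change _ = β * ip2 _ _
  simp only [ip2, (O2.sub_eq x x0).1, sq]

theorem sec3 (L : ℝ) {lam Λ β : ℝ} (h0 : 0 ≤ lam) {x0 : O3} (n0 : ip3 x0 x0 = 1)
    (sx : ∀ w, x0.f (p12 w) = -x0.f w ∧ x0.f (sg9 w) = -x0.f w)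
    (gap : ∀ b : O3, (∀ w, b.f (p12 w) = -b.f w) →
      Λ * ip3 b b - β * ip3 x0 b ^ 2 ≤ q3 L 0 b b) (e0 : q3 L 0 x0 x0 = Λ - β)
    (hβ : lam * rep3 x0 < β) :
    ∃ (x : O3) (E : ℝ), (∀ w, x.f (p12 w) = -x.f w ∧ x.f (sg9 w) = -x.f w) ∧ ip3 x x = 1 ∧
      (∀ y, q3 L lam x y = E * ip3 x y) ∧ Λ - β ≤ E ∧ E ≤ Λ - β + lam * rep3 x0 ∧
      β * ∫ w, (x.f w - x0.f w) ^ 2 ≤ 2 * (lam * rep3 x0) := by
  have pt : ∀ x : O3, (-m1p12L) x = x → (-rf3L) x = x →
      ∀ w, x.f (p12 w) = -x.f w ∧ x.f (sg9 w) = -x.f w := fun x h1 h2 w => by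
    have a1 : -1 * x.f (p12 w) = x.f w := congrFun (congrArg O3.f h1) w
    have a2 : -1 * x.f (sg9 w) = x.f w := congrFun (congrArg O3.f h2) w
    constructor <;> linarith
  obtain ⟨x, E, x1, x2, x3, x4, x5, x6, x7⟩ := AF_two ip3L (q3L L lam) ip3_comm (q3_comm L lam)
    ip3_nn (K := 49) (fun x => by
      have := q3_kin h0 L x
      have k : 0 ≤ ∫ w, (‖x.g1 w‖ ^ 2 + ‖x.g2 w‖ ^ 2 + ‖x.g3 w‖ ^ 2) :=
        integral_nonneg fun _ => by positivity
      change ip3 x x ≤ q3 L lam x x + 49 * ip3 x x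
      linarith) (O3.cpl L h0) (-m1p12L) (-rf3L)
    (fun x => by simp only [LinearMap.neg_apply, map_neg, neg_neg]; rfl)
    (fun x => by simp only [LinearMap.neg_apply, map_neg, neg_neg, rf3L_inv])
    (fun x => by simp only [LinearMap.neg_apply, map_neg, neg_neg]; rfl)
    (fun x y => by
      simp only [LinearMap.neg_apply, map_neg, neg_neg]
      exact q3_perm12 L lam x y)
    (fun x y => by
      simp only [LinearMap.neg_apply, map_neg, neg_neg]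
      exact q3_refl L lam x y) (x0 := x0) n0
    (q3_congr L lam (ae_of_all _ fun w => show -1 * x0.f (p12 w) = _ by rw [(sx w).1]; ring))
    (q3_congr L lam (ae_of_all _ fun w => show -1 * x0.f (sg9 w) = _ by rw [(sx w).2]; ring))
    (Λ := Λ) (mul_nonneg h0 (q3_split L lam x0).2) hβ
    (fun x h1 h2 => (gap x fun w => (pt x h1 h2 w).1).trans (q3_mono L h0 x))
    (by rw [← e0]; exact (q3_split L lam x0).1.le)
  refine ⟨x, E, pt x x1 x2, x3, x4, x5, x6, le_of_eq_of_le ?_ x7⟩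
  change _ = β * ip3 _ _
  simp only [ip3, (O3.sub_eq x x0).1, sq]

variable {c0 L : ℝ} (ob : OB c0 L)

theorem gapT1 (h : ob.eu ≤ -1 / 2 + c0) (b : O2) (hb : ∀ᵐ w : E6, b.f w.swap = -b.f w) :
    (ob.eg + (-1 / 2 + c0)) * ip2 b b - (-1 / 2 + c0 - ob.eu) * ip2 (T0o ob) b ^ 2 ≤
      q2 L 0 b b := by
  have e : ∀ᵐ w : E6, ((b.add (b.swap.cmul (-1))).cmul (1 / 2)).f w = b.f w := by
    filter_upwards [hb] with w hw
    simp only [O2.cmul, O2.add, O2.swap, hw]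
    ring
  have := gapT0 ob h ((b.add (b.swap.cmul (-1))).cmul (1 / 2)) fun w => by
    simp only [O2.cmul, O2.add, O2.swap, Prod.swap_swap]
    ring
  rwa [(q2_congr L 0 e _).1, (q2_congr L 0 e _).2, q2_comm, ip2_comm, ip2_comm (T0o ob),
    (q2_congr L 0 e _).1, (q2_congr L 0 e _).2, (q2_congr L 0 e _).2, ip2_comm b (T0o ob)] at this

theorem gapF1 (h : ob.eu - ob.eg ≤ -1 / 2 + c0 - ob.eu) (b : O3)
    (hb : ∀ᵐ w : E9, b.f (p12 w) = -b.f w) :
    (ob.eg + 2 * ob.eu) * ip3 b b - (ob.eu - ob.eg) * ip3 (F0o ob) b ^ 2 ≤ q3 L 0 b b := by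
  have e : ∀ᵐ w : E9, ((b.add (b.perm12.cmul (-1))).cmul (1 / 2)).f w = b.f w := by
    filter_upwards [hb] with w hw
    simp only [O3.cmul, O3.add, O3.perm12, hw]
    ring
  have := gapF0 ob h ((b.add (b.perm12.cmul (-1))).cmul (1 / 2)) fun w => by
    simp only [O3.cmul, O3.add, O3.perm12, show p12 (p12 w) = w from rfl]
    ring
  rwa [(q3_congr L 0 e _).1, (q3_congr L 0 e _).2, q3_comm, ip3_comm, ip3_comm (F0o ob),
    (q3_congr L 0 e _).1, (q3_congr L 0 e _).2, (q3_congr L 0 e _).2, ip3_comm b (F0o ob)] at this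

theorem ma_main : T_MA := by
  intro c0 L ob hg hu
  rw [abs_le] at hg hu
  have lt := ob.lt
  have h1 : ob.eu ≤ -1 / 2 + c0 := by linarith [hg.1, hu.2]
  have h2 : ob.eu - ob.eg ≤ -1 / 2 + c0 - ob.eu := by linarith [hg.1, hu.2]
  have dp : 0 < ob.eu - ob.eg := by linarith
  have r1 := (q2_split L 0 (P0o ob)).2
  have r2 := (q2_split L 0 (S0o ob)).2
  have r3 := (q2_split L 0 (T0o ob)).2
  have r4 := (q3_split L 0 (F0o ob)).2
  obtain ⟨R, hR⟩ : ∃ R, R = rep2 (P0o ob) + rep2 (S0o ob) + rep2 (T0o ob) + rep3 (F0o ob) :=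
    ⟨_, rfl⟩
  have R0 : 0 ≤ R := by linarith
  have R1 : 0 ≤ 2 * R / (ob.eu - ob.eg) := by positivity
  refine ⟨1 + R + 2 * R / (ob.eu - ob.eg), by linarith, ?_⟩
  filter_upwards [Ioo_mem_nhdsGT (show 0 < (ob.eu - ob.eg) / (R + 1) by positivity)] with lam hl
  have l0 := hl.1.le
  have l1 : lam * R < ob.eu - ob.eg := by
    have := (lt_div_iff₀ (by positivity)).1 hl.2
    linarith
  have m : ∀ r, 0 ≤ r → r ≤ R → lam * r < ob.eu - ob.eg ∧
      (∀ E e, e ≤ E → E ≤ e + lam * r → |E - e| ≤ (1 + R + 2 * R / (ob.eu - ob.eg)) * lam) ∧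
      ∀ β d, ob.eu - ob.eg ≤ β → β * d ≤ 2 * (lam * r) →
        d ≤ (1 + R + 2 * R / (ob.eu - ob.eg)) * lam := fun r a1 a2 => by
    have a3 := mul_le_mul_of_nonneg_left a2 l0
    have a4 := mul_nonneg R1 l0
    have a5 := mul_nonneg R0 l0
    refine ⟨by linarith, fun E e b1 b2 => abs_le.2 ⟨by nlinarith, by nlinarith⟩,
      fun β d b1 b2 => ?_⟩
    rcases le_total d 0 with b3 | b3
    · nlinarith
    · have : d ≤ 2 * R / (ob.eu - ob.eg) * lam := by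
        rw [div_mul_eq_mul_div, le_div_iff₀ dp]
        nlinarith [mul_le_mul_of_nonneg_right b1 b3]
      nlinarith
  obtain ⟨i1, i2, i3, i4, i5, i6, i7, i8⟩ := inf_en ob
  obtain ⟨f1, f2, f3, f4⟩ := inf_f ob
  obtain ⟨m1, m2, m3⟩ := m _ r1 (by linarith)
  obtain ⟨P, E0, p1, p2, p3, p4, p5, p6⟩ := sec2 L l0 (one_mul 1) (one_mul 1) i1
    (fun w => by simp [f1, Pinf, sg6, ob.evg, mul_comm]) (fun b _ => gapP0 ob h1 b)
    (by rw [i2]; ring) m1
  obtain ⟨m4, m5, m6⟩ := m _ r2 (by linarith)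
  obtain ⟨S, ES, s1, s2, s3, s4, s5, s6⟩ := sec2 L l0 (one_mul 1) (t := -1) (by norm_num) i3
    (fun w => by
      simp only [f2, Sinf, sg6, ob.evg, ob.odu, Prod.fst_swap, Prod.snd_swap]
      constructor <;> ring)
    (fun b hb => gapS0 ob h1 b (by simpa using hb)) (by rw [i4]; ring) (m4.trans_le h2)
  obtain ⟨m7, m8, m9⟩ := m _ r3 (by linarith)
  obtain ⟨T, ET, t1, t2, t3, t4, t5, t6⟩ := sec2 L l0 (s := -1) (t := -1) (by norm_num)
    (by norm_num) i5 (fun w => by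
      simp only [f3, Tinf, sg6, ob.evg, ob.odu, Prod.fst_swap, Prod.snd_swap]
      constructor <;> ring)
    (fun b hb => gapT0 ob h1 b fun w => by simpa using (hb w).1) (by rw [i6]; ring)
    (m7.trans_le h2)
  obtain ⟨n1, n2, n3⟩ := m _ r4 (by linarith)
  obtain ⟨F, E, g1, g2, g3, g4, g5, g6⟩ := sec3 L l0 i7 (fun w => by
      simp only [f4, Finf, sg9, sg6, p12, ob.evg, ob.odu]
      constructor <;> ring) (gapF0 ob h2) (by rw [i8]; ring) n1
  have uP := fun b => AF_up ip2L (q2L L lam) ip2_comm (q2_comm L lam) ip2_nn (fun _ => True)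
    (fun _ _ _ => trivial) trivial (Λ := ob.eg + ob.eu) (by linarith) p2 p3
    (fun b _ => (gapP0 ob h1 b).trans (q2_mono L l0 b)) b trivial
  have uT := AF_up ip2L (q2L L lam) ip2_comm (q2_comm L lam) ip2_nn
    (fun b => ∀ᵐ w : E6, b.f w.swap = -b.f w) (x := T) (fun t b hb => hb.mono fun w hw => by
      change t * T.f w.swap + 1 * b.f w.swap = -(t * T.f w + 1 * b.f w)
      rw [hw, (t1 w).1]
      ring) (ae_of_all _ fun w => by simpa using (t1 w).1) (Λ := ob.eg + (-1 / 2 + c0))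
    (by linarith) t2 t3 fun b hb => (gapT1 ob h1 b hb).trans (q2_mono L l0 b)
  have uF := AF_up ip3L (q3L L lam) ip3_comm (q3_comm L lam) ip3_nn
    (fun b => ∀ᵐ w : E9, b.f (p12 w) = -b.f w) (x := F) (fun t b hb => hb.mono fun w hw => by
      change t * F.f (p12 w) + 1 * b.f (p12 w) = -(t * F.f w + 1 * b.f w)
      rw [hw, (g1 w).1]
      ring) (ae_of_all _ fun w => (g1 w).1) (Λ := ob.eg + 2 * ob.eu)
    (by linarith) g2 g3 fun b hb => (gapF1 ob h2 b hb).trans (q3_mono L l0 b)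
  simp only [f1, f2, f3, f4] at p6 s6 t6 g6
  exact ⟨⟨F, P, S, T, E, E0, ES, ET, g2, fun w => (g1 w).1, fun w => (g1 w).2, g3,
    fun b hb => (uF b hb).1, p2, s2, t2, p3, s3, t3, by simpa using p1, by simpa using s1,
    by simpa using t1, ⟨n2 _ _ (by linarith) (by linarith), m2 _ _ (by linarith) (by linarith),
      m5 _ _ (by linarith) (by linarith), m8 _ _ (by linarith) (by linarith)⟩,
    n3 _ _ le_rfl g6, m3 _ _ le_rfl p6, m6 _ _ h2 s6, m9 _ _ h2 t6, fun b => (uP b).1,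
    fun b => (uP b).2, fun b hb => (uT b hb).1⟩⟩

end

end Vale.Agent.P363
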