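import Vale.Agent.P363.MFA
import Vale.Agent.P363.MFG

/-! P363, block MF: radial bound for `N`. -/

open MeasureTheory Set Metric Filter Topology
open scoped RealInnerProductSpace

namespace Vale.Agent.P363

noncomputable section

variable {c0 L : ℝ} {ob : OB c0 L} {lam r1 ε C2 C3 Cq I : ℝ} {N : E3 → ℝ} {gN : E3 → E3}

theorem mf1 (h : T_Brad) (ob : OB c0 L) (hL : 1 ≤ L) (hC : 1 ≤ C3) : ∀ᶠ ρ : ℝ in atTop,
    ∃ K, 1 ≤ K ∧ ∀ {lam r1 ε C2 Cq I N gN} (v : VB ob lam r1 ε C2 C3 Cq I N gN),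
      Par L lam C3 I ob.del → v.Bn ρ K := by
  filter_upwards [h L hL, eventually_ge_atTop (100 * L)] with ρ hb hρ
  have hE : 1 ≤ Real.exp (6 / 5 * (ρ + 1)) := Real.one_le_exp (by linarith)
  have hK : 1 ≤ C3 * Real.exp (6 / 5 * (ρ + 1)) * (30 * (ρ + 1)) :=
    one_le_mul_of_one_le_of_one_le (one_le_mul_of_one_le_of_one_le hC hE) (by linarith)
  refine ⟨_, hK, fun {lam r1 ε C2 Cq I N gN} v hp => ?_⟩
  set K := C3 * Real.exp (6 / 5 * (ρ + 1)) * (30 * (ρ + 1)) with hKd
  obtain ⟨g, l, hc2, hx⟩ := hb _ hp.hk _ hp.hc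
  have hsub : Ext ρ ⊆ ({0}ᶜ : Set E3) := by
    intro x hx h0
    have h1 : ρ < ‖x‖ := hx
    rw [mem_singleton_iff.1 h0, norm_zero] at h1
    linarith
  have hpos : ∀ A s, 0 < fb L √(2 * I) (1 - 2 * lam) A s := fun A s => Real.exp_pos _
  have key := gqE (v.scr hp (ρ := ρ) (by linarith)) ((hc2.mono (isOpen_Ext ρ) hsub).cmul K)
    (fun x _ => mul_pos (by linarith) (hpos _ _)) (v.h.l2.restrict _) ?_ ?_
  · filter_upwards [key] with x h1 h2
    exact (h1 h2).trans (mul_le_mul_of_nonneg_left (hx x (le_of_lt h2)).2.1 (by linarith))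
  · filter_upwards [v.bd] with x h1 h2 h3
    refine (h1 (Ext_subset_Ext2 (ρ := ρ) (by linarith) (by linarith) h2)).trans ?_
    have a1 := (fb_crude hL hp.hk hp.hc (s := ‖x‖) (by linarith)).1
    have a2 := (hx x h2.le).2.2
    have a3 : Real.exp (-(6 / 5 * (ρ + 1))) ≤ Real.exp (-√(2 * I) * ‖x‖) := by
      refine Real.exp_le_exp.2 ?_
      have := mul_le_mul hp.hk.2 h3.le (norm_nonneg x) (by norm_num)
      linarith
    have a4 : ‖x‖ * fb L √(2 * I) (1 - 2 * lam) 0 ‖x‖ ≤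
        (ρ + 1) * (30 * fb L √(2 * I) (1 - 2 * lam) 1 ‖x‖) :=
      mul_le_mul h3.le a2 (hpos _ _).le (by linarith)
    have a5 := mul_le_mul_of_nonneg_left ((a3.trans a1).trans a4)
      (show 0 ≤ C3 * Real.exp (6 / 5 * (ρ + 1)) by positivity)
    rw [mul_assoc C3, ← Real.exp_add, add_neg_cancel, Real.exp_zero, mul_one] at a5
    refine a5.trans (le_of_eq ?_)
    rw [hKd]
    ring
  · refine .of_forall fun x h1 => ⟨V L x + I + P0 L lam x, 0, 0, ?_, le_rfl, by simp, ?_⟩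
    · have h2 : ρ < ‖x‖ := h1
      have a1 := (V_ext hL hρ h1).1
      have a2 := hp.hI.1
      have a3 := abs_le.1 (abs_rA_sub (L := L) (by linarith) x).1
      have a4 := abs_le.1 (abs_rA_sub (L := L) (by linarith) x).2
      have a5 : 10 ≤ min (rA L x) (rB L x) := le_min (by linarith) (by linarith)
      have a6 : 0 ≤ 2 * lam / (min (rA L x) (rB L x) + L) :=
        div_nonneg (by linarith [hp.l0]) (by linarith)
      have a7 : 1 / min (rA L x) (rB L x) ^ 2 ≤ 1 / 100 :=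
        one_div_le_one_div_of_le (by norm_num) (by nlinarith)
      unfold P0
      linarith
    · have a1 := (hx x (le_of_lt h1)).1
      have a2 : √(2 * I) ^ 2 / 2 = I := by
        rw [Real.sq_sqrt (by linarith [hp.hI.1])]; ring
      rw [a2, show 1 - (1 - 2 * lam) = 2 * lam by ring] at a1
      have a3 := mul_nonneg (mul_nonneg (show 0 ≤ K by linarith) a1)
        (mul_nonneg (show 0 ≤ K by linarith) (hpos 1 ‖x‖).le)
      refine le_of_eq_of_le (by ring) (a3.trans (le_of_eq ?_))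
      unfold P0
      ring

end

end Vale.Agent.P363
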