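import Vale.Agent.P363.MFA

/-! P363, block MF: capacity for the odd channel. -/

open MeasureTheory Set Metric Filter Topology
open scoped RealInnerProductSpace

namespace Vale.Agent.P363

noncomputable section

variable {c0 L : ℝ} {ob : OB c0 L} {lam r1 ε C2 C3 Cq I : ℝ} {N : E3 → ℝ} {gN : E3 → E3}

theorem mf4c_w {r : ℝ} (hr : 0 ≤ r) : 1 ≤ (1 + r) ^ 3 * (1 + r) ^ (-(5 / 2) : ℝ) := by
  rw [← Real.rpow_natCast, ← Real.rpow_add (by linarith)]
  exact Real.one_le_rpow (by linarith) (by norm_num)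

theorem mf4c_cmp {k c r s : ℝ} (hL : 1 ≤ L) (hk : k ∈ Icc (4 / 5 : ℝ) (6 / 5))
    (hc : c ∈ Icc (9 / 10 : ℝ) 1) (hr : 5 ≤ r) (hs : 5 ≤ s) (h : |s - r| ≤ L) :
    fb L k c 0 r ≤ Real.exp (2 * L) * fb L k c 0 s := by
  have h1 := abs_le.1 h
  rcases le_total r s with h2 | h2
  · refine (fb_rate (by linarith) hk hc hr h2).2.trans ?_
    exact mul_le_mul_of_nonneg_right (Real.exp_le_exp.2 (by linarith)) (fb_pos _ _ _ _ _).le
  · refine (fb_rate (by linarith) hk hc hs h2).1.trans ?_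
    exact mul_le_mul_of_nonneg_right (Real.exp_le_exp.2 (by linarith)) (fb_pos _ _ _ _ _).le

theorem mf4c_low {k c s R : ℝ} (hL : 1 ≤ L) (hk : k ∈ Icc (4 / 5 : ℝ) (6 / 5))
    (hc : c ∈ Icc (9 / 10 : ℝ) 1) (hs : 1 ≤ s) (h : s ≤ R) :
    1 ≤ R * Real.exp (2 * R) * fb L k c 0 s := by
  have h1 := (fb_crude hL hk hc hs).1
  have h2 := mul_le_mul_of_nonneg_right h (fb_pos L k c 0 s).le
  have h3 : 1 ≤ Real.exp (2 * R) * Real.exp (-k * s) := by
    rw [← Real.exp_add]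
    refine Real.one_le_exp ?_
    have := mul_le_mul_of_nonneg_right hk.2 (by linarith : 0 ≤ s)
    linarith
  have h4 := mul_le_mul_of_nonneg_left (h1.trans h2) (Real.exp_pos (2 * R)).le
  linarith

theorem mf4c (ob : OB c0 L) (hL : 1 ≤ L) (hC : 1 ≤ C3) {ρ K M τ : ℝ} (hK : 1 ≤ K) (hM : 1 ≤ M)
    (hτ : 0 < τ) : ∀ᶠ lam in 𝓝[>] (0 : ℝ),
      ∀ {r1 ε C2 Cq I N gN} (v : VB ob lam r1 ε C2 C3 Cq I N gN) (r0 : ℝ), 5 ≤ r0 →
        Par L lam C3 I ob.del → v.BX ρ K → v.Cap r0 M τ := by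
  obtain ⟨R, hR1, hR2⟩ : ∃ R, ρ ≤ R ∧ 5 ≤ R := ⟨max ρ 5, le_max_left _ _, le_max_right _ _⟩
  set K1 := 2 * K * Real.exp (2 * L) with hK1
  set K2 := (1 + R) * C3 * ((R + L) * Real.exp (2 * (R + L))) with hK2
  have k1 : 0 < K1 := by positivity
  have k2 : 0 < K2 := by
    have : 0 < R := by linarith
    positivity
  filter_upwards [lam_ev (M * C3 * (K1 + K2)) hτ] with lam hl r1 ε C2 Cq I N gN v r0 h0 hp hX
  obtain ⟨l0, l1, -⟩ := hl
  filter_upwards [hX, v.bd, v.dom, v.alg] with x b1 b2 b3 b4 hx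
  have X0 : 0 ≤ v.X x := b4.2.2.2.1
  have hA : 5 ≤ rA L x := h0.trans hx.1.le
  have hB : 5 ≤ rB L x := h0.trans hx.2.le
  have fp := fb_pos L √(2 * I) (1 - 2 * lam) 0 (rA L x)
  have r0 := norm_nonneg x
  have key : (1 + ‖x‖) * v.X x ≤ (K1 + K2) * fb L √(2 * I) (1 - 2 * lam) 0 (rA L x) := by
    rcases lt_or_ge R ‖x‖ with h | h
    · have a1 := b1 (hR1.trans_lt h)
      have a2 := mf4c_cmp hL hp.hk hp.hc (hR2.trans h.le) hA (abs_rA_sub (by linarith) x).1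
      have a3 := fb_pos L √(2 * I) (1 - 2 * lam) 0 ‖x‖
      have r5 : 5 ≤ ‖x‖ := hR2.trans h.le
      have a4 : 1 / ‖x‖ + lam ≤ 2 := by
        have : 1 / ‖x‖ ≤ 1 := by
          rw [div_le_one (by linarith)]
          linarith
        linarith [hp.hc.1]
      unfold fbar at a1
      generalize fb L √(2 * I) (1 - 2 * lam) 0 ‖x‖ = f at a1 a2 a3
      have a5 : (1 / ‖x‖ + lam) * f / ‖x‖ ^ 2 ≤ 2 * f / (1 + ‖x‖) :=
        div_le_div₀ (by positivity) (mul_le_mul_of_nonneg_right a4 a3.le) (by linarith)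
          (by nlinarith)
      have a6 := mul_le_mul_of_nonneg_left
        (a1.trans (mul_le_mul_of_nonneg_left a5 (by linarith))) (by linarith : 0 ≤ 1 + ‖x‖)
      have a7 : (1 + ‖x‖) * (K * (2 * f / (1 + ‖x‖))) = 2 * K * f := by field_simp
      have a8 := mul_le_mul_of_nonneg_left a2 (by linarith : 0 ≤ 2 * K)
      have a9 := mul_pos k2 fp
      rw [a7] at a6
      rw [hK1]
      linarith
    · have a1 := b3.2.1.trans (b2 ⟨by linarith, by linarith⟩)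
      have a2 := mf4c_low (R := R + L) hL hp.hk hp.hc (by linarith : 1 ≤ rA L x)
        (by linarith [(abs_le.1 (abs_rA_sub (by linarith : 0 ≤ L) x).1).2])
      have a3 : (1 + ‖x‖) * v.X x ≤ (1 + R) * C3 :=
        mul_le_mul (by linarith) a1 X0 (by linarith)
      have a4 := mul_le_mul_of_nonneg_left a2
        (mul_nonneg (by linarith) (by linarith) : 0 ≤ (1 + R) * C3)
      have a9 := mul_pos k1 fp
      rw [hK2]
      linarith
  have hw := mf4c_w r0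
  have w0 : 0 < (1 + ‖x‖) ^ (-(5 / 2) : ℝ) := Real.rpow_pos_of_pos (by linarith) _
  generalize (1 + ‖x‖) ^ (-(5 / 2) : ℝ) = w at hw w0 ⊢
  generalize fb L √(2 * I) (1 - 2 * lam) 0 (rA L x) = f at key fp ⊢
  have c1 : 1 / (1 + ‖x‖) ^ 2 ≤ w * (1 + ‖x‖) := by
    rw [div_le_iff₀ (by positivity)]
    linarith
  have c0 : 0 ≤ M * lam * C3 := by positivity
  calc M * (lam * C3 / (1 + ‖x‖) ^ 2 * v.X x)
      = M * lam * C3 * (1 / (1 + ‖x‖) ^ 2 * v.X x) := by ring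
    _ ≤ M * lam * C3 * (w * (1 + ‖x‖) * v.X x) :=
        mul_le_mul_of_nonneg_left (mul_le_mul_of_nonneg_right c1 X0) c0
    _ = M * lam * C3 * w * ((1 + ‖x‖) * v.X x) := by ring
    _ ≤ M * lam * C3 * w * ((K1 + K2) * f) := mul_le_mul_of_nonneg_left key (by positivity)
    _ = M * C3 * (K1 + K2) * lam * (w * f) := by ring
    _ ≤ τ * (w * f) := mul_le_mul_of_nonneg_right l1 (by positivity)
    _ = τ * w * f := by ring

end

end Vale.Agent.P363
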