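import Vale.Agent.P363.MFA
import Vale.Agent.P363.MFG

/-! P363, block MF: upper bound for `d`. -/

open MeasureTheory Set Metric Filter Topology
open scoped RealInnerProductSpace

namespace Vale.Agent.P363

noncomputable section

variable {c0 L : ℝ} {ob : OB c0 L} {lam r1 ε C2 C3 Cq I : ℝ} {N : E3 → ℝ} {gN : E3 → E3}

/-- The two admissible potentials. -/
theorem odd_P (hp : Par L lam C3 I ob.del) (hl : lam * (10 * L ^ 2 * C3) ≤ 1) {r0 : ℝ}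
    (hr : 20 ≤ r0) {x : E3} (hx : x ∈ Ext2 L r0) {σ : ℝ} (hσ : |σ| ≤ 1) :
    |2 * lam / (1 + ‖x‖) + σ * (lam * C3 / (1 + ‖x‖) ^ 2) - (1 - (1 - 2 * lam)) / (rA L x + L)| ≤
      1 / rA L x ^ 2 ∧
    1 / 5 ≤ V L x + I + (2 * lam / (1 + ‖x‖) + σ * (lam * C3 / (1 + ‖x‖) ^ 2)) := by
  have hL := hp.hL
  have hC := hp.hC
  have l0 := hp.l0
  have hA : r0 < rA L x := hx.1
  have hV := (V_far (by linarith : 0 < r0) hx).1
  have hV2 : 2 / r0 ≤ 1 / 10 := by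
    rw [div_le_iff₀ (by linarith)]
    linarith
  obtain ⟨b1, b2⟩ := abs_le.1 (abs_rA_sub (by linarith : 0 ≤ L) x).1
  have hn := norm_nonneg x
  generalize rA L x = a at *
  generalize ‖x‖ = r at *
  have a0 : 0 < a := by linarith
  have u0 : 0 < (1 + r)⁻¹ := by positivity
  have w0 : 0 < (a + L)⁻¹ := by positivity
  have c0 : 0 < a⁻¹ := by positivity
  have u1 : (1 + r)⁻¹ ≤ 1 := inv_le_one_of_one_le₀ (by linarith)
  have u2 : (1 + r)⁻¹ ≤ L * a⁻¹ := by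
    rw [← div_eq_mul_inv, inv_eq_one_div, div_le_div_iff₀ (by linarith) a0]
    nlinarith
  have w1 : (a + L)⁻¹ ≤ a⁻¹ := inv_anti₀ a0 (by linarith)
  have e1 : (1 + r)⁻¹ - (a + L)⁻¹ = (a + L - 1 - r) * ((1 + r)⁻¹ * (a + L)⁻¹) := by
    field_simp
    ring
  have e2 : 2 * lam / (1 + r) + σ * (lam * C3 / (1 + r) ^ 2) - (1 - (1 - 2 * lam)) / (a + L) =
      2 * lam * ((1 + r)⁻¹ - (a + L)⁻¹) + σ * (lam * C3 * (1 + r)⁻¹ ^ 2) := by
    rw [inv_pow]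
    ring
  have t0 : 0 ≤ lam * C3 * (1 + r)⁻¹ ^ 2 := by positivity
  have t1 : |σ * (lam * C3 * (1 + r)⁻¹ ^ 2)| ≤ lam * C3 * (1 + r)⁻¹ ^ 2 := by
    rw [abs_mul, abs_of_nonneg t0]
    exact mul_le_of_le_one_left t0 hσ
  constructor
  · have t2 : |a + L - 1 - r| ≤ 2 * L := abs_le.2 ⟨by linarith, by linarith⟩
    have t3 : |2 * lam * ((1 + r)⁻¹ - (a + L)⁻¹)| ≤ 2 * lam * (2 * L * (L * a⁻¹ * a⁻¹)) := by
      rw [e1, abs_mul, abs_mul _ (_ * _), abs_of_pos (by positivity : 0 < 2 * lam),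
        abs_of_pos (mul_pos u0 w0)]
      gcongr
    have t4 : lam * C3 * (1 + r)⁻¹ ^ 2 ≤ lam * C3 * (L * a⁻¹) ^ 2 := by gcongr
    have t5 : lam * L ^ 2 * a⁻¹ ^ 2 ≤ lam * L ^ 2 * a⁻¹ ^ 2 * C3 :=
      le_mul_of_one_le_right (by positivity) hC
    have t6 : lam * (10 * L ^ 2 * C3) * a⁻¹ ^ 2 ≤ 1 * a⁻¹ ^ 2 := by gcongr
    have t7 : 0 ≤ a⁻¹ ^ 2 := by positivity
    rw [e2, one_div, ← inv_pow]
    refine (abs_add_le _ _).trans ?_
    nlinarith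
  · have t2 : lam * C3 * (1 + r)⁻¹ ^ 2 ≤ lam * C3 * 1 ^ 2 := by gcongr
    have t3 : 0 ≤ 2 * lam / (1 + r) := by positivity
    have t4 := (abs_le.1 t1).1
    have t5 : lam * C3 / (1 + r) ^ 2 = lam * C3 * (1 + r)⁻¹ ^ 2 := by rw [inv_pow, div_eq_mul_inv]
    rw [t5]
    linarith [hp.hI.1, hp.l1, hp.d1]

theorem mf4_k (hp : Par L lam C3 I ob.del) : √(2 * I) ^ 2 / 2 = I := by
  rw [Real.sq_sqrt (by linarith [hp.hI.1])]
  ring

theorem mf4u (v : VB ob lam r1 ε C2 C3 Cq I N gN) (hp : Par L lam C3 I ob.del) {r0 Co M τ : ℝ}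
    {U : E3 → ℝ} (hr : 20 ≤ r0) (hCo : 1 ≤ Co) (hM : 1 ≤ M) (hτ : 0 < τ)
    (hU : OddB L r0 Co τ √(2 * I) (1 - 2 * lam) 1 U) (hl : lam * (10 * L ^ 2 * C3) ≤ 1)
    (cap : v.Cap r0 1 τ) (col : ∀ᵐ x : E3, x ∈ Ext2 L r0 → rA L x < r0 + 1 → v.d x ≤ M) :
    ∀ᵐ x : E3, x ∈ Ext2 L r0 → 0 < x 2 →
      v.d x ≤ M * Co ^ 3 * Uo L √(2 * I) (1 - 2 * lam) x := by
  obtain ⟨g, l, h2, hU⟩ := hU
  have hK : 1 ≤ M * Co ^ 2 := one_le_mul_of_one_le_of_one_le hM (one_le_pow₀ hCo)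
  have U0 : ∀ x ∈ Ext2 L r0, 0 ≤ x 2 → 0 ≤ M * Co ^ 2 * U x := fun x hx h => by
    obtain ⟨-, a1, -, a2, -⟩ := hU x hx h
    exact mul_nonneg (by linarith) (nonneg_of_mul_nonneg_right (a1.trans a2) (by linarith))
  have key := glH (Bm := fun _ => 0) (by linarith [hp.hL]) (by linarith : 0 ≤ r0) v.sd.1
    (h2.cmul (M * Co ^ 2)) (v.locB subset_rfl).1 (v.sym.mono fun x hx => hx.1) v.hd.l2 MemLp.zero'
    (fun x hx h => by simpa only [neg_zero] using U0 x hx h.le) (fun x hx h => U0 x hx h.ge) ?_ ?_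
  · filter_upwards [key] with x hx h1 h3
    obtain ⟨-, -, a1, -⟩ := hU x h1 h3.le
    have := mul_le_mul_of_nonneg_left a1 (by linarith : 0 ≤ M * Co ^ 2)
    have := hx h1 h3
    linarith
  · filter_upwards [col] with x hx h1 h3 h4
    obtain ⟨-, -, -, a1, a2⟩ := hU x h1 h3.le
    have b1 := (a2 h4.le).1.trans (mul_le_mul_of_nonneg_left a1 (by linarith))
    have := mul_le_mul_of_nonneg_left b1 (by linarith : 0 ≤ M)
    have := hx h1 h4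
    linarith
  · filter_upwards [cap, v.ed] with x hx he h1 h3 h4
    obtain ⟨p1, p2⟩ := odd_P hp hl hr h1 (σ := -1) (by simp)
    have b1 := (hU x h1 h3.le).1 _ p1
    have b2 := hx h1
    have b3 : 0 ≤ τ * (1 + ‖x‖) ^ (-(5 / 2) : ℝ) * fb L √(2 * I) (1 - 2 * lam) 0 (rA L x) :=
      mul_nonneg (by positivity) (fb_pos _ _ _ _ _).le
    rw [abs_of_nonneg ((U0 x h1 h3.le).trans h4.le)] at he
    rw [mf4_k hp] at b1
    refine ⟨_, lam * C3 / (1 + ‖x‖) ^ 2 * v.X x, p2, by linarith [(abs_le.1 he).1], ?_⟩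
    have := le_mul_of_one_le_left (b3.trans b1) hK
    linarith

end

end Vale.Agent.P363
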