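import Vale.Agent.P363.MFD

/-! P363, block MF: elementary facts. -/

open MeasureTheory Set Metric Filter Topology
open scoped RealInnerProductSpace

namespace Vale.Agent.P363

noncomputable section

variable {c0 L : ℝ} {ob : OB c0 L} {lam r1 ε C2 C3 Cq I : ℝ} {N : E3 → ℝ} {gN : E3 → E3}

theorem mfa_eta_tendsto : Tendsto eta (𝓝[>] (0 : ℝ)) (𝓝 0) := by
  have h : ContinuousAt (fun x : ℝ => x ^ (1 / 16 : ℝ)) 0 :=
    Real.continuousAt_rpow_const 0 _ (Or.inr (by norm_num))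
  have h2 := h.tendsto
  rw [Real.zero_rpow (by norm_num)] at h2
  exact h2.mono_left nhdsWithin_le_nhds

theorem mfa_eta_pow {lam : ℝ} (h : 0 < lam) :
    0 < eta lam ∧ lam = eta lam ^ 16 ∧ √lam = eta lam ^ 8 := by
  have h1 : lam = eta lam ^ 16 := by
    unfold eta
    rw [← Real.rpow_natCast, ← Real.rpow_mul h.le]
    norm_num
  have h0 : 0 < eta lam := Real.rpow_pos_of_pos h _
  refine ⟨h0, h1, ?_⟩
  rw [Real.sqrt_eq_iff_mul_self_eq h.le (by positivity)]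
  rw [← pow_add]
  exact h1

theorem lam_ev (M : ℝ) {a : ℝ} (ha : 0 < a) : ∀ᶠ lam in 𝓝[>] (0 : ℝ), 0 < lam ∧ M * lam ≤ a ∧
    M * √lam ≤ a ∧ M * eta lam ≤ a ∧ M * lam ≤ a * eta lam ∧ M * √lam ≤ a * eta lam := by
  have hM : 0 < |M| + 1 := by positivity
  have e1 : ∀ᶠ lam in 𝓝[>] (0 : ℝ), eta lam < 1 :=
    mfa_eta_tendsto.eventually (gt_mem_nhds one_pos)
  have e2 : ∀ᶠ lam in 𝓝[>] (0 : ℝ), eta lam < a / (|M| + 1) :=
    mfa_eta_tendsto.eventually (gt_mem_nhds (div_pos ha hM))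
  filter_upwards [e1, e2, self_mem_nhdsWithin] with lam h1 h2 h0
  have h0' : 0 < lam := h0
  obtain ⟨p0, p1, p2⟩ := mfa_eta_pow h0'
  set t := eta lam with ht
  rw [lt_div_iff₀ hM] at h2
  have hMt : M * t ≤ a := by
    have := le_abs_self M
    nlinarith
  have hA : |M| * t ≤ a := by nlinarith
  have key : ∀ n : ℕ, M * t ^ (n + 2) ≤ a * t := by
    intro n
    have q1 : t ^ n ≤ 1 := pow_le_one₀ p0.le h1.le
    have q2 : 0 < t ^ n := pow_pos p0 n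
    have q3 : M * t ^ (n + 2) ≤ |M| * t ^ (n + 2) :=
      mul_le_mul_of_nonneg_right (le_abs_self M) (by positivity)
    have q4 : |M| * t ^ (n + 2) = (|M| * t) * t * t ^ n := by ring
    have q5 : (|M| * t) * t * t ^ n ≤ (|M| * t) * t * 1 :=
      mul_le_mul_of_nonneg_left q1 (by positivity)
    have q6 : (|M| * t) * t ≤ a * t := mul_le_mul_of_nonneg_right hA p0.le
    linarith
  have hat : a * t ≤ a := by nlinarith
  have k16 : M * lam ≤ a * t := by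
    have := key 14
    rw [← p1] at this
    exact this
  have k8 : M * √lam ≤ a * t := by
    rw [p2]
    exact key 6
  exact ⟨h0', k16.trans hat, k8.trans hat, hMt, k16, k8⟩

theorem mfa_sqrt_mem {y a b : ℝ} (hb : 0 ≤ b) (h1 : a ^ 2 ≤ y) (h2 : y ≤ b ^ 2) :
    a ≤ √y ∧ √y ≤ b :=
  ⟨Real.le_sqrt_of_sq_le h1, Real.sqrt_le_iff.2 ⟨hb, h2⟩⟩

theorem par_ev (ob : OB c0 L) (hL : 1 ≤ L) (hC : 1 ≤ C3) (h1 : |ob.eg + 1 / 2| ≤ 1 / 100)
    (h2 : |ob.eu + 1 / 2| ≤ 1 / 100) :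
    ∀ᶠ lam in 𝓝[>] (0 : ℝ), ∀ I, |I + ob.eu| ≤ C3 * lam → Par L lam C3 I ob.del := by
  have d0 : 0 < ob.del := sub_pos.2 ob.lt
  obtain ⟨a1, a2⟩ := abs_le.1 h1
  obtain ⟨b1, b2⟩ := abs_le.1 h2
  have d1 : ob.del ≤ 1 / 50 := by unfold OB.del; linarith
  filter_upwards [lam_ev C3 (a := ob.del / 1000) (by positivity),
    lam_ev 1 (a := 1 / 100) (by norm_num), lam_ev C3 (a := 1 / 4) (by norm_num)] with lam
    ⟨l0, l1, _⟩ ⟨_, _, _, m1, _⟩ ⟨_, _, _, _, n1, _⟩ I hI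
  obtain ⟨c1, c2⟩ := abs_le.1 hI
  have e0 := (mfa_eta_pow l0).1
  have hl : lam ≤ C3 * lam := by nlinarith
  have s1 := mfa_sqrt_mem (y := 2 * I) (a := 4 / 5) (b := 6 / 5) (by norm_num)
    (by linarith) (by linarith)
  have s2 := mfa_sqrt_mem (y := 2 * (I + ob.del)) (a := 9 / 10) (b := 11 / 10)
    (by norm_num) (by linarith) (by linarith)
  refine ⟨hL, hC, d0, d1, l0, l1, ⟨by linarith, by linarith⟩, s1, ⟨by linarith, by linarith⟩,
    ⟨?_, ?_⟩, ⟨?_, ?_⟩, e0, by linarith, by linarith⟩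
  · unfold kp; linarith [s2.1]
  · unfold kp; linarith [s2.2]
  · unfold km; linarith [s2.1]
  · unfold km; linarith [s2.2]

theorem V_far {ρ : ℝ} (hρ : 0 < ρ) {x : E3} (hx : x ∈ Ext2 L ρ) : -(2 / ρ) ≤ V L x ∧ V L x ≤ 0 := by
  obtain ⟨h1, h2⟩ := hx
  have a1 : (rA L x)⁻¹ ≤ ρ⁻¹ := inv_anti₀ hρ h1.le
  have a2 : (rB L x)⁻¹ ≤ ρ⁻¹ := inv_anti₀ hρ h2.le
  have b1 : 0 < (rA L x)⁻¹ := inv_pos.2 (hρ.trans h1)
  have b2 : 0 < (rB L x)⁻¹ := inv_pos.2 (hρ.trans h2)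
  unfold V
  rw [div_eq_mul_inv]
  constructor <;> linarith

theorem V_ext {ρ : ℝ} (hL : 1 ≤ L) (hρ : 100 * L ≤ ρ) {x : E3} (hx : x ∈ Ext ρ) :
    -(1 / 40) ≤ V L x ∧ -(3 / ‖x‖) ≤ V L x ∧ V L x ≤ 0 := by
  have hx' : ρ < ‖x‖ := hx
  obtain ⟨h1, h2⟩ := abs_rA_sub (L := L) (by linarith) x
  have a1 := (abs_le.1 h1).1
  have a2 := (abs_le.1 h2).1
  have hr : 0 < 2 / 3 * ‖x‖ := by linarith
  have m1 : x ∈ Ext2 L (2 / 3 * ‖x‖) := ⟨by linarith, by linarith⟩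
  have m2 : x ∈ Ext2 L 80 := ⟨by linarith, by linarith⟩
  have v1 := V_far hr m1
  have v2 := V_far (by norm_num) m2
  have hx0 : ‖x‖ ≠ 0 := by linarith
  have e1 : 2 / (2 / 3 * ‖x‖) = 3 / ‖x‖ := by field_simp
  rw [e1] at v1
  exact ⟨by linarith [v2.1], v1.1, v1.2⟩

theorem mfa_le {a b : ℝ} (h : a ^ 2 ≤ b ^ 2) (hb : 0 ≤ b) : a ≤ b :=
  (le_abs_self a).trans (abs_le_of_sq_le_sq h hb)

theorem VB.dom (v : VB ob lam r1 ε C2 C3 Cq I N gN) : ∀ᵐ x : E3, |v.d x| ≤ N x ∧ v.X x ≤ N x ∧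
    v.a x ≤ v.X x ∧ v.b x ≤ v.X x ∧ v.c x ≤ v.X x ∧ |v.dT x| ≤ N x ∧ |v.dS x| ≤ N x := by
  filter_upwards [v.alg] with x ⟨ha, hb, hc, hX, _, e1, e2, hT, hS⟩
  have hN := v.nn x
  have q1 : |v.d x| ≤ N x := abs_le_of_sq_le_sq (by nlinarith [sq_nonneg (v.X x)]) hN
  have q2 : v.X x ≤ N x := mfa_le (by nlinarith [sq_nonneg (v.d x)]) hN
  have q3 : v.a x ≤ v.X x :=
    mfa_le (by nlinarith [sq_nonneg (v.b x), sq_nonneg (v.c x)]) hX
  have q4 : v.b x ≤ v.X x :=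
    mfa_le (by nlinarith [sq_nonneg (v.a x), sq_nonneg (v.c x)]) hX
  have q5 : v.c x ≤ v.X x :=
    mfa_le (by nlinarith [sq_nonneg (v.b x), sq_nonneg (v.a x)]) hX
  exact ⟨q1, q2, q3, q4, q5, by linarith, by linarith⟩

theorem mfa_l2 (v : VB ob lam r1 ε C2 C3 Cq I N gN) {U : Set E3} (hU : U ⊆ D L) {f : E3 → ℝ}
    (hm : AEStronglyMeasurable f (volume.restrict (D L))) (hb : ∀ᵐ x : E3, |f x| ≤ N x) :
    MemLp f 2 (volume.restrict U) := by
  refine MemLp.of_le (v.h.l2.restrict U) (hm.mono_set hU) (ae_restrict_of_ae ?_)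
  filter_upwards [hb] with x hx
  rw [Real.norm_eq_abs, Real.norm_eq_abs, abs_of_nonneg (v.nn x)]
  exact hx

theorem VB.l2 (v : VB ob lam r1 ε C2 C3 Cq I N gN) {U : Set E3} (hU : U ⊆ D L) :
    MemLp v.X 2 (volume.restrict U) ∧ MemLp v.a 2 (volume.restrict U) ∧
    MemLp v.b 2 (volume.restrict U) ∧ MemLp v.c 2 (volume.restrict U) ∧
    MemLp v.dT 2 (volume.restrict U) ∧ MemLp v.dS 2 (volume.restrict U) := by
  have hT : AEStronglyMeasurable v.dT (volume.restrict (D L)) := by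
    have := v.sT.l1.ld.mf.neg
    refine this.congr (ae_of_all _ fun x => ?_)
    simp
  refine ⟨mfa_l2 v hU v.sX.l1.ld.mf ?_, mfa_l2 v hU v.sa.l1.ld.mf ?_, mfa_l2 v hU v.sb.l1.ld.mf ?_,
    mfa_l2 v hU v.sc.l1.ld.mf ?_, mfa_l2 v hU hT ?_, mfa_l2 v hU v.sS.l1.ld.mf ?_⟩ <;>
  filter_upwards [v.alg, v.dom] with x ⟨ha, hb, hc, hX, _⟩ ⟨q1, q2, q3, q4, q5, q6, q7⟩
  · rw [abs_of_nonneg hX]; exact q2
  · rw [abs_of_nonneg ha]; linarith
  · rw [abs_of_nonneg hb]; linarith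
  · rw [abs_of_nonneg hc]; linarith
  · exact q6
  · exact q7

theorem mfa_locB (v : VB ob lam r1 ε C2 C3 Cq I N gN) {U : Set E3} (hU : U ⊆ D L) {f : E3 → ℝ}
    (hb : ∀ᵐ x : E3, |f x| ≤ N x) : LocB U f := by
  intro K hK hKU
  obtain ⟨M, hM⟩ := v.lb K hK (hKU.trans hU)
  refine ⟨M, ?_⟩
  filter_upwards [hM, hb] with x h1 h2 hx
  exact h2.trans ((le_abs_self _).trans (h1 hx))

theorem VB.locB (v : VB ob lam r1 ε C2 C3 Cq I N gN) {U : Set E3} (hU : U ⊆ D L) :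
    LocB U v.d ∧ LocB U (fun x => -v.d x) ∧ LocB U (fun x => -v.dT x) ∧ LocB U v.dS := by
  refine ⟨mfa_locB v hU ?_, mfa_locB v hU ?_, mfa_locB v hU ?_, mfa_locB v hU ?_⟩ <;>
  filter_upwards [v.dom] with x ⟨q1, q2, q3, q4, q5, q6, q7⟩
  · exact q1
  · rw [abs_neg]; exact q1
  · rw [abs_neg]; exact q6
  · exact q7

theorem CY.mono {δ C C' : ℝ} {Y Z : E3 → ℝ} (h : CY L lam C3 I δ r1 C Y Z) (hC : C ≤ C') :
    CY L lam C3 I δ r1 C' Y Z := by
  refine ⟨h.y2, h.z2, h.pos, h.l2, fun x hx => ⟨?_, ?_⟩, fun x hx => ⟨?_, ?_⟩⟩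
  · exact (h.cmp x hx).1.trans (mul_le_mul_of_nonneg_right hC (h.pos x).1.le)
  · exact (h.cmp x hx).2.trans (mul_le_mul_of_nonneg_right hC (Ye_pos _ _ _ _).le)
  · exact (h.sl x hx).1.trans (mul_le_mul_of_nonneg_right hC (fb_pos _ _ _ _ _).le)
  · exact (h.sl x hx).2.trans (mul_le_mul_of_nonneg_right hC (h.pos x).2.le)

theorem mfa_cosh_low (x : ℝ) : 1 + x ^ 2 / 2 ≤ Real.cosh x := by
  have h1 : |x| / 2 ≤ Real.sinh (|x| / 2) := Real.self_le_sinh_iff.2 (by positivity)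
  have h2 : Real.cosh (2 * (|x| / 2)) = Real.cosh (|x| / 2) ^ 2 + Real.sinh (|x| / 2) ^ 2 :=
    Real.cosh_two_mul _
  have h3 := Real.cosh_sq (|x| / 2)
  rw [show 2 * (|x| / 2) = |x| by ring, Real.cosh_abs] at h2
  have h4 : (|x| / 2) ^ 2 ≤ Real.sinh (|x| / 2) ^ 2 := pow_le_pow_left₀ (by positivity) h1 2
  have h5 : |x| ^ 2 = x ^ 2 := sq_abs x
  nlinarith

theorem mfa_cosh_exp (x : ℝ) : Real.exp x ≤ 2 * Real.cosh x := by
  rw [Real.cosh_eq]
  have := Real.exp_pos (-x)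
  linarith

theorem hyp_ineq (x : ℝ) : x ^ 2 * Real.exp (|x| / 2) ≤ 16 * Real.cosh x ∧ |x| ≤ Real.cosh x ∧
    1 + x ^ 2 ≤ 2 * Real.cosh x ∧ 0 ≤ x * Real.sinh x ∧
    (0 ≤ x → x * Real.exp (x / 2) ≤ 2 * Real.sinh x) ∧
    (0 ≤ x → x ≤ 1 → Real.sinh x ≤ 2 * x ∧ Real.cosh x ≤ 2 ∧ Real.exp (x / 2) ≤ 2) := by
  have c1 := mfa_cosh_low x
  have h5 : |x| ^ 2 = x ^ 2 := sq_abs x
  refine ⟨?_, by nlinarith [sq_nonneg (|x| - 1)], by linarith, ?_, fun h0 => ?_, fun h0 h1 => ?_⟩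
  · have a1 := mfa_cosh_exp |x|
    rw [Real.cosh_abs] at a1
    have a2 : Real.exp |x| = Real.exp (|x| / 2) * Real.exp (|x| / 2) := by
      rw [← Real.exp_add]; ring_nf
    have a3 : 1 + |x| / 2 + (|x| / 2) ^ 2 / 2 ≤ Real.exp (|x| / 2) :=
      Real.quadratic_le_exp_of_nonneg (by positivity)
    have a4 : x ^ 2 ≤ 8 * Real.exp (|x| / 2) := by nlinarith [abs_nonneg x]
    have a5 := Real.exp_pos (|x| / 2)
    nlinarith
  · rcases le_total 0 x with h | h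
    · exact mul_nonneg h (Real.sinh_nonneg_iff.2 h)
    · exact mul_nonneg_of_nonpos_of_nonpos h (Real.sinh_nonpos_iff.2 h)
  · have a1 : x / 2 ≤ Real.sinh (x / 2) := Real.self_le_sinh_iff.2 (by positivity)
    have a2 := Real.sinh_two_mul (x / 2)
    rw [show 2 * (x / 2) = x by ring] at a2
    have a3 := mfa_cosh_exp (x / 2)
    have a4 := Real.exp_pos (x / 2)
    have a5 : x / 2 * Real.exp (x / 2) ≤ Real.sinh (x / 2) * (2 * Real.cosh (x / 2)) :=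
      mul_le_mul a1 a3 a4.le (by linarith)
    linarith
  · have a1 : |Real.exp x - 1 - x| ≤ x ^ 2 :=
      Real.abs_exp_sub_one_sub_id_le (by rw [abs_of_nonneg h0]; exact h1)
    have a2 : |Real.exp (x / 2) - 1 - x / 2| ≤ (x / 2) ^ 2 :=
      Real.abs_exp_sub_one_sub_id_le (by rw [abs_of_nonneg (by linarith)]; linarith)
    have a3 := (abs_le.1 a1).2
    have a4 := (abs_le.1 a2).2
    have a5 := Real.add_one_le_exp (-x)
    have a6 : Real.exp (-x) ≤ 1 := Real.exp_le_one_iff.2 (by linarith)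
    rw [Real.sinh_eq, Real.cosh_eq]
    refine ⟨by nlinarith, by nlinarith, by nlinarith⟩

theorem Gn_pos (L k c : ℝ) (n : ℕ) {x : E3} (hx : 0 < ‖x‖) : 0 < Gn L k c n x :=
  div_pos (fb_pos _ _ _ _ _) (pow_pos hx n)

theorem RS_eq (L lam I δ : ℝ) (x : E3) :
    RS L lam I δ ‖x‖ = lam * L ^ 2 / δ ^ 2 * Gn L √(2 * I) (1 - 2 * lam) 4 x ∧
    bb L lam I ‖x‖ / ‖x‖ = L * Gn L √(2 * I) (1 - 2 * lam) 2 x ∧
    bb L lam I ‖x‖ = L / ‖x‖ * fbar L lam I x := by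
  refine ⟨?_, ?_, rfl⟩
  · unfold RS bb Gn; ring
  · unfold bb Gn; ring

/-- The screened inequality. -/
theorem VB.scr (v : VB ob lam r1 ε C2 C3 Cq I N gN) (hp : Par L lam C3 I ob.del) {ρ : ℝ}
    (hρ : 2 * L ≤ ρ) : SubQ (Ext ρ) N gN (fun x => (V L x + I + P0 L lam x) * N x ^ 2) := by
  have hL := hp.hL
  have hD : Ext ρ ⊆ D L := Ext_subset_D (by linarith) (by linarith)
  have hm : ∀ x ∈ Ext ρ, ‖x‖ - L ≤ min (rA L x) (rB L x) ∧ min (rA L x) (rB L x) ≤ ‖x‖ + L := by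
    intro x _
    obtain ⟨h1, h2⟩ := abs_rA_sub (L := L) (by linarith) x
    have a1 := abs_le.1 h1
    have a2 := abs_le.1 h2
    exact ⟨le_min (by linarith [a1.1]) (by linarith [a2.1]),
      (min_le_left _ _).trans (by linarith [a1.2])⟩
  refine (v.sN.mono hD).monoR ?_ ?_
  · intro K hK hKU
    refine IntegrableOn.continuousOn_mul ?_ (v.h.l2.integrable_sq.integrableOn) hK
    have cm : Continuous fun x => min (rA L x) (rB L x) :=
      (continuous_rA L).1.min (continuous_rA L).2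
    refine (((continuousOn_V L).mono (hKU.trans hD)).add continuousOn_const).add ?_
    unfold P0
    refine ContinuousOn.sub (continuousOn_const.div (cm.add continuous_const).continuousOn ?_)
      (continuousOn_const.div (cm.pow 2).continuousOn ?_)
    · intro x hx
      have h1 : ρ < ‖x‖ := hKU hx
      have := (hm x (hKU hx)).1
      linarith
    · intro x hx
      have h1 : ρ < ‖x‖ := hKU hx
      have := (hm x (hKU hx)).1
      have h2 : 0 < min (rA L x) (rB L x) := by linarith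
      positivity
  · filter_upwards [v.eN] with x hx hxE
    refine le_trans (mul_le_mul_of_nonneg_right ?_ (sq_nonneg _)) hx
    have h1 : ρ < ‖x‖ := hxE
    obtain ⟨m1, m2⟩ := hm x hxE
    unfold P0
    set m := min (rA L x) (rB L x) with hmdef
    set r := ‖x‖ with hr
    have r0 : 0 < r := by linarith
    have m0 : 0 < m := by linarith
    have l0 := hp.l0
    have l1 : C3 * lam ≤ 1 / 100 := by linarith [hp.l1, hp.d1]
    have l2 : lam ≤ C3 * lam := by nlinarith [hp.hC]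
    have b1 : 2 * lam / (m + L) ≤ 2 * lam / r :=
      div_le_div_of_nonneg_left (by linarith) r0 (by linarith)
    have b2 : 1 / (2 * r) ^ 2 ≤ 1 / m ^ 2 :=
      div_le_div_of_nonneg_left (by norm_num) (by positivity)
        (pow_le_pow_left₀ m0.le (by linarith) 2)
    have b3 : lam * C3 / (1 + r) ^ 2 ≤ (1 / 100) / r ^ 2 :=
      div_le_div₀ (by norm_num) (by linarith) (by positivity)
        (pow_le_pow_left₀ r0.le (by linarith) 2)
    have b4 : 2 * lam / r - 2 * lam / (1 + r) = 2 * lam / (r * (1 + r)) := by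
      field_simp; ring
    have b5 : 2 * lam / (r * (1 + r)) ≤ (1 / 50) / r ^ 2 :=
      div_le_div₀ (by norm_num) (by linarith) (by positivity) (by nlinarith)
    have b6 : 1 / (2 * r) ^ 2 = (1 / 4) * (1 / r ^ 2) := by field_simp; ring
    have b7 : (1 / 100) / r ^ 2 = (1 / 100) * (1 / r ^ 2) := by ring
    have b8 : (1 / 50) / r ^ 2 = (1 / 50) * (1 / r ^ 2) := by ring
    have b9 : 0 < 1 / r ^ 2 := by positivity
    linarith

end

end Vale.Agent.P363
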