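import Vale.Agent.P363.C
import Vale.Agent.P363.DefsV

/-! P363, block MF: definitions. -/

open MeasureTheory Set Metric Filter Topology
open scoped RealInnerProductSpace

namespace Vale.Agent.P363

noncomputable section

def Gn (L k c : ℝ) (n : ℕ) (x : E3) : ℝ := fb L k c 0 ‖x‖ / ‖x‖ ^ n

def fbar (L lam I : ℝ) (x : E3) : ℝ := fb L √(2 * I) (1 - 2 * lam) 0 ‖x‖

def chR (L lam I δ : ℝ) (x : E3) : ℝ := Real.cosh (√δ * x 2) * RS L lam I δ ‖x‖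

def shB (L lam I δ : ℝ) (x : E3) : ℝ := Real.sinh (√δ * x 2) / √δ * (bb L lam I ‖x‖ / ‖x‖)

def jj (δ z : ℝ) : ℝ := 1 + δ * z ^ 2 - Real.cosh (√δ * z) / 4

def kp (lam I δ : ℝ) : ℝ := √(2 * (I + δ)) - 2 * eta lam

def km (lam I δ : ℝ) : ℝ := √(2 * (I + δ)) + eta lam

/-- Numerical side conditions. -/
structure Par (L lam C3 I δ : ℝ) : Prop where
  hL : 1 ≤ L
  hC : 1 ≤ C3
  d0 : 0 < δ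
  d1 : δ ≤ 1 / 50
  l0 : 0 < lam
  l1 : C3 * lam ≤ δ / 1000
  hI : I ∈ Icc (2 / 5 : ℝ) (3 / 5)
  hk : √(2 * I) ∈ Icc (4 / 5 : ℝ) (6 / 5)
  hc : 1 - 2 * lam ∈ Icc (9 / 10 : ℝ) 1
  hp : kp lam I δ ∈ Icc (4 / 5 : ℝ) (6 / 5)
  hm : km lam I δ ∈ Icc (4 / 5 : ℝ) (6 / 5)
  e0 : 0 < eta lam
  e1 : eta lam ≤ 1 / 100
  e2 : C3 * lam ≤ eta lam / 4

/-- The body of `T_Bodd`. -/
def OddB (L r0 C τ k c s : ℝ) (U : E3 → ℝ) : Prop :=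
  ∃ g l, C2 (D L) U g l ∧ ∀ x ∈ Ext2 L r0, 0 ≤ x 2 →
    (∀ P : ℝ, |P - (1 - c) / (rA L x + L)| ≤ 1 / rA L x ^ 2 →
      τ * (1 + ‖x‖) ^ (-(5 / 2) : ℝ) * fb L k c 0 (rA L x) ≤
        s * (-(1 / 2) * l x + (V L x + k ^ 2 / 2 + P) * U x)) ∧
    0 ≤ Uo L k c x ∧ U x ≤ C * Uo L k c x ∧ Uo L k c x ≤ C * U x ∧
    (rA L x ≤ r0 + 1 → 1 ≤ C * Uo L k c x ∧ Uo L k c x ≤ C)

/-- The even barriers `Y` (upper) and `Z` (lower). -/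
structure CY (L lam C3 I δ r1 C : ℝ) (Y Z : E3 → ℝ) : Prop where
  y2 : ∃ g l, C2 (Ext r1) Y g l ∧ ∀ x ∈ Ext r1,
    eta lam * Y x ≤ -(1 / 2) * l x + (V L x + I + δ - C3 * lam) * Y x
  z2 : ∃ g l, C2 (Ext r1) Z g l ∧ ∀ x ∈ Ext r1,
    -(1 / 2) * l x + (V L x + I + δ + C3 * lam) * Z x ≤ 0
  pos : ∀ x, 0 < Y x ∧ 0 < Z x
  l2 : MemLp Z 2 (volume.restrict (Ext r1))
  cmp : ∀ x ∈ Ext r1, Ye L (kp lam I δ) 0 x ≤ C * Y x ∧ Z x ≤ C * Ye L (km lam I δ) 0 x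
  sl : ∀ x ∈ Slab r1, Y x ≤ C * fb L (kp lam I δ) 1 0 ‖x‖ ∧ RT L lam I δ ‖x‖ ≤ C * Z x

section

variable {c0 L : ℝ} {ob : OB c0 L} {lam r1 ε C2 C3 Cq I : ℝ} {N : E3 → ℝ} {gN : E3 → E3}
  (v : VB ob lam r1 ε C2 C3 Cq I N gN)

def VB.Bn (_ : VB ob lam r1 ε C2 C3 Cq I N gN) (ρ K : ℝ) : Prop :=
  ∀ᵐ x : E3, x ∈ Ext ρ → N x ≤ K * fbar L lam I x

def VB.Bm (ρ K : ℝ) : Prop :=
  ∀ᵐ x : E3, x ∈ Ext ρ → v.m x ≤ K * (Real.exp (-‖x‖ / 20) * fbar L lam I x)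

def VB.BX (ρ K : ℝ) : Prop :=
  ∀ᵐ x : E3, x ∈ Ext ρ → v.X x ≤ K * ((1 / ‖x‖ + lam) * fbar L lam I x / ‖x‖ ^ 2)

def VB.Cap (r0 M τ : ℝ) : Prop :=
  ∀ᵐ x : E3, x ∈ Ext2 L r0 → M * (lam * C3 / (1 + ‖x‖) ^ 2 * v.X x) ≤
    τ * (1 + ‖x‖) ^ (-(5 / 2) : ℝ) * fb L √(2 * I) (1 - 2 * lam) 0 (rA L x)

def VB.D4 (r0 C4 : ℝ) : Prop :=
  ∀ᵐ x : E3, x ∈ Ext2 L r0 → 0 < x 2 → Uo L √(2 * I) (1 - 2 * lam) x ≤ C4 * v.d x ∧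
    v.d x ≤ C4 * Uo L √(2 * I) (1 - 2 * lam) x

def VB.Col (C : ℝ) (Y Z : E3 → ℝ) : Prop :=
  ∀ᵐ x : E3, r1 < ‖x‖ → ‖x‖ < r1 + 1 → v.a x ≤ C * Y x ∧ v.b x ≤ C * Y x ∧ v.c x ≤ Y x ∧
    Z x ≤ C * v.dT x ∧ chR L lam I ob.del x ≤ Y x

def VB.Dd (C : ℝ) : Prop :=
  ∀ᵐ x : E3, x ∈ Ext r1 → x 2 ^ 2 * bb L lam I ‖x‖ ≤ C * (x 2 * v.d x) ∧
    |v.d x| ≤ C * (|x 2| * bb L lam I ‖x‖ * Real.exp (√ob.del * |x 2| / 2))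

def VB.Sm (Y : E3 → ℝ) : Prop :=
  ∀ᵐ x : E3, x ∈ Ext r1 → lam * C3 * Real.exp (-‖x‖ / 20) * N x ≤ eta lam / 8 * Y x ∧
    2 * lam * v.m x ^ 2 ≤ eta lam / 2 * Y x ^ 2 ∧ v.X x ≤ 1 / 64 * (fbar L lam I x / ‖x‖ ^ 2)

/-- Everything used on `Ext r1`. -/
structure VB.Cx (C : ℝ) (Y Z : E3 → ℝ) : Prop where
  par : Par L lam C3 I ob.del
  hC : 1 ≤ C
  hC2 : 1 ≤ C2
  hr : 100 * L + C3 ≤ r1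
  cy : CY L lam C3 I ob.del r1 C Y Z
  col : v.Col C Y Z
  dd : v.Dd C
  sm : v.Sm Y

def VB.Bb (C : ℝ) (Y : E3 → ℝ) : Prop := ∀ᵐ x : E3, x ∈ Ext r1 → v.b x ≤ C * Y x

def VB.Ba (K : ℝ) (Y : E3 → ℝ) : Prop :=
  ∀ᵐ x : E3, x ∈ Ext r1 → v.a x ≤ K * (Y x + chR L lam I ob.del x)

def VB.Bc (Y : E3 → ℝ) : Prop :=
  ∀ᵐ x : E3, x ∈ Ext r1 → 0 < x 2 →
    v.c x ≤ √lam * shB L lam I ob.del x + (Y x + chR L lam I ob.del x)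

def VB.BT (C : ℝ) (Y Z : E3 → ℝ) : Prop :=
  ∀ᵐ x : E3, x ∈ Ext r1 → Z x / C - √lam * Y x ≤ v.dT x

def VB.BS (C : ℝ) (Y : E3 → ℝ) : Prop :=
  ∀ᵐ x : E3, x ∈ Ext r1 →
    v.dS x ≤ -(jj ob.del (x 2) * Vale.Agent.P363.RS L lam I ob.del ‖x‖) / (C2 * C) + (C + 4) * Y x

def VB.Sl (C : ℝ) : Prop :=
  ∀ᵐ x : E3, x ∈ Slab r1 → x 2 * bb L lam I ‖x‖ ≤ C * v.d x ∧
    v.d x ≤ C * (x 2 * bb L lam I ‖x‖) ∧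
    v.X x ^ 2 ≤ C * (aa L lam I ob.del ‖x‖ ^ 2 + lam / ‖x‖ ^ 2 * (x 2 * bb L lam I ‖x‖) ^ 2) ∧
    aa L lam I ob.del ‖x‖ ≤ C * N x

end

end

end Vale.Agent.P363
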