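import Vale.Agent.P363.MFA

/-! P363, block MF: positivity near a nucleus. -/

open MeasureTheory Set Metric Filter Topology
open scoped RealInnerProductSpace

namespace Vale.Agent.P363

noncomputable section

variable {c0 L : ℝ} {ob : OB c0 L} {lam r1 ε C2 C3 Cq I : ℝ} {N : E3 → ℝ} {gN : E3 → E3}

theorem mfh_meas (c : E3) : Measurable fun x : E3 => ‖x - c‖ := by fun_prop

theorem mfh_ae (c : E3) : ∀ᵐ x : E3, ‖x - c‖ ≠ 0 := by
  filter_upwards [compl_mem_ae_iff.2 (measure_singleton c)] with x hx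
  exact norm_ne_zero_iff.2 (sub_ne_zero.2 hx)

theorem mfh_rB (hL : 1 ≤ L) {x : E3} (hx : x ∈ ball (nA L) (1 / 32)) :
    rA L x < 1 / 32 ∧ 1 ≤ rB L x := by
  have h1 : rA L x < 1 / 32 := by rwa [mem_ball, dist_eq_norm] at hx
  have h2 := norm_sub_le (x + nA L) (x - nA L)
  have h3 : x + nA L - (x - nA L) = (2 : ℝ) • nA L := by
    rw [two_smul]
    abel
  rw [h3, norm_smul, csg_nA_norm (by linarith), Real.norm_two] at h2
  refine ⟨h1, ?_⟩
  unfold rA at h1
  unfold rB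
  linarith

theorem mfh_sub (hL : 1 ≤ L) : ball (nA L) (1 / 32) \ {nA L} ⊆ D L := fun x hx =>
  csg_mem_D.2 ⟨norm_pos_iff.2 (sub_ne_zero.2 hx.2), lt_of_lt_of_le one_pos (mfh_rB hL hx.1).2⟩

theorem mfh_V (hL : 1 ≤ L) {x : E3} (hx : x ∈ ball (nA L) (1 / 32)) (h0 : 0 < rA L x) :
    -(1 / (16 * rA L x ^ 2)) ≤ V L x ∧ V L x ≤ -(rA L x)⁻¹ := by
  obtain ⟨h1, h2⟩ := mfh_rB hL hx
  have h3 : (rB L x)⁻¹ ≤ (rA L x)⁻¹ := inv_anti₀ h0 (by linarith)
  have h4 : 0 ≤ (rB L x)⁻¹ := inv_nonneg.2 (by linarith)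
  have h5 : 2 * (rA L x)⁻¹ ≤ 1 / (16 * rA L x ^ 2) := by
    rw [← div_eq_mul_inv, div_le_div_iff₀ h0 (by positivity)]
    nlinarith
  unfold V
  constructor <;> linarith

theorem mfh_c2 (c : E3) (K : ℝ) : ∃ g, Vale.Agent.P363.C2 (ball c (1 / 32) \ {c})
    (fun x => K / √‖x - c‖) g (fun x => -(K / √‖x - c‖ / (4 * ‖x - c‖ ^ 2))) := by
  have hd : ∀ s : ℝ, 0 < s → HasDerivAt (fun s => K / √s) (-(K / (2 * √s ^ 3))) s ∧
      HasDerivAt (fun s => -(K / (2 * √s ^ 3))) (3 * K / (4 * √s ^ 5)) s := by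
    intro s hs
    have h0 : √s ≠ 0 := (Real.sqrt_pos.2 hs).ne'
    have h1 := Real.hasDerivAt_sqrt hs.ne'
    constructor
    · refine ((hasDerivAt_const s K).div h1 h0).congr_deriv ?_
      field_simp
      ring
    · refine ((hasDerivAt_const s K).div ((h1.pow 3).const_mul 2)
        (mul_ne_zero two_ne_zero (pow_ne_zero 3 h0))).neg.congr_deriv ?_
      simp only [Pi.pow_apply]
      field_simp
      ring
  have hc : ContinuousOn (fun s : ℝ => 3 * K / (4 * √s ^ 5)) (Ioi 0) :=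
    continuousOn_const.div (by fun_prop) fun s hs =>
      mul_ne_zero four_ne_zero (pow_ne_zero 5 (Real.sqrt_pos.2 hs).ne')
  have h := (C2.radial le_rfl c hd hc).mono (isOpen_ball.sdiff isClosed_singleton :
    IsOpen (ball c (1 / 32) \ {c})) fun x hx => norm_pos_iff.2 (sub_ne_zero.2 hx.2)
  refine ⟨_, h.congr (fun _ _ => rfl) (fun _ _ => rfl) fun x hx => ?_⟩
  have h1 : 0 < ‖x - c‖ := norm_pos_iff.2 (sub_ne_zero.2 hx.2)
  obtain ⟨t, ht, e⟩ : ∃ t : ℝ, 0 < t ∧ ‖x - c‖ = t ^ 2 :=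
    ⟨√‖x - c‖, Real.sqrt_pos.2 h1, (Real.sq_sqrt h1.le).symm⟩
  rw [e, Real.sqrt_sq ht.le]
  field_simp
  ring

theorem mfh1 (v : VB ob lam r1 ε C2 C3 Cq I N gN) (hp : Par L lam C3 I ob.del) {K : ℝ}
    (hK : 0 < K) (col : ∀ᵐ x : E3, 1 / 64 < rA L x → rA L x < 1 / 32 → N x ≤ K) :
    ∀ᵐ x : E3, x ∈ ball (nA L) (1 / 32) → N x ≤ K / √(rA L x) := by
  obtain ⟨g, hB⟩ := mfh_c2 (nA L) K
  show ∀ᵐ x : E3, x ∈ ball (nA L) (1 / 32) → N x ≤ K / √‖x - nA L‖
  refine wmpQ_ball (ρ' := 1 / 64) (by norm_num) (v.sub.mono (mfh_sub hp.hL)) hB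
    (fun x hx => div_pos hK (Real.sqrt_pos.2 (norm_pos_iff.2 (sub_ne_zero.2 hx.2)))) ?_ ?_ ?_
  · filter_upwards [col] with x h hx hy
    have h1 := (mfh_rB hp.hL hx).1
    refine (h hy h1).trans ?_
    rw [le_div_iff₀ (Real.sqrt_pos.2 (by linarith))]
    exact mul_le_of_le_one_right hK.le (Real.sqrt_le_one.2 (by unfold rA at h1; linarith))
  · refine ((hardy v.h (nA L)).1.mono' ?_ (Eventually.of_forall fun x => ?_)).integrableOn
    · have m1 : Measurable fun x : E3 => K / √‖x - nA L‖ := by fun_prop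
      exact ((((v.h.l2.1.aemeasurable.sub m1.aemeasurable).max aemeasurable_const).pow_const 2).div
        ((mfh_meas _).pow_const 2).aemeasurable).aestronglyMeasurable
    · have h1 : 0 ≤ K / √‖x - nA L‖ := by positivity
      rw [Real.norm_eq_abs, abs_of_nonneg (by positivity)]
      exact div_le_div_of_nonneg_right (pow_le_pow_left₀ (le_max_right _ _)
        (max_le (by linarith) (v.nn x)) 2) (sq_nonneg _)
  · filter_upwards [mfh_ae (nA L)] with x h0 hx _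
    have h1 : 0 < rA L x := lt_of_le_of_ne (norm_nonneg _) h0.symm
    have h2 := (mfh_V hp.hL hx h1).1
    have h3 := hp.hI.1
    have h4 : 0 ≤ K / √‖x - nA L‖ := by positivity
    have h5 := v.nn x
    unfold rA at h1 h2
    generalize K / √‖x - nA L‖ = B at h4 ⊢
    have h6 : 0 ≤ B * N x * (1 / (16 * ‖x - nA L‖ ^ 2)) := by positivity
    have h7 : -(1 / (16 * ‖x - nA L‖ ^ 2)) * N x ^ 2 ≤ (V L x + I) * N x ^ 2 :=
      mul_le_mul_of_nonneg_right (by linarith) (sq_nonneg _)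
    have e1 : (N x - B) * N x / (16 * ‖x - nA L‖ ^ 2) =
      1 / (16 * ‖x - nA L‖ ^ 2) * N x ^ 2 - B * N x * (1 / (16 * ‖x - nA L‖ ^ 2)) := by ring
    have e2 : -(B / (4 * ‖x - nA L‖ ^ 2)) / 2 * N x =
      -(2 * (B * N x * (1 / (16 * ‖x - nA L‖ ^ 2)))) := by ring
    rw [e1, e2]
    linarith

theorem mfh2 (v : VB ob lam r1 ε C2 C3 Cq I N gN) (hp : Par L lam C3 I ob.del) {K c : ℝ}
    (hK : 0 < K) (hl : 4 * lam * C3 * K ≤ c)
    (hN : ∀ᵐ x : E3, x ∈ ball (nA L) (1 / 32) → N x ≤ K / √(rA L x))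
    (col : ∀ᵐ x : E3, 1 / 64 < rA L x → rA L x < 1 / 32 → c ≤ v.d x) :
    ∀ᵐ x : E3, x ∈ ball (nA L) (1 / 32) → c ≤ v.d x := by
  have l0 := hp.l0
  have hC := hp.hC
  have hc : 0 < c := lt_of_lt_of_le (by positivity) hl
  have hU : IsOpen (ball (nA L) (1 / 32) \ {nA L}) := isOpen_ball.sdiff isClosed_singleton
  refine (wmp_ball (ρ' := 1 / 64) (by norm_num) (v.sd.2.mono (mfh_sub hp.hL)) (Vale.Agent.P363.C2.const hU (-c))
    (v.locB (mfh_sub hp.hL)).2.1 ?_ ?_ ?_).mono fun x h hx => neg_le_neg_iff.1 (h hx)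
  · filter_upwards [col] with x h hx hy
    exact neg_le_neg (h hy (mfh_rB hp.hL hx).1)
  · obtain ⟨ξ, q, ht, -, -, hξ⟩ := exists_cut (nA L) (a := 1) (b := 2) zero_le_one one_lt_two
    have i1 := (((hardy ht.h1.1 (nA L)).1.const_mul (2 * c ^ 2)).add
      ((hardy v.hd (nA L)).1.const_mul 2)).integrableOn (s := ball (nA L) (1 / 32))
    refine i1.mono' ?_ ((ae_restrict_iff' measurableSet_ball).2 (Eventually.of_forall fun x hx => ?_))
    · exact ((((v.hd.l2.1.aemeasurable.neg.sub aemeasurable_const).max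
        aemeasurable_const).pow_const 2).div
        ((mfh_meas _).pow_const 2).aemeasurable).aestronglyMeasurable.restrict
    · have h1 := (mfh_rB hp.hL hx).1
      unfold rA at h1
      have h2 := ((hξ x).2.2.2.1 (by linarith)).1
      have h3 : max (-v.d x - -c) 0 ^ 2 ≤ 2 * c ^ 2 + 2 * v.d x ^ 2 := by
        rcases le_total (-v.d x - -c) 0 with h | h
        · rw [max_eq_right h]
          nlinarith [sq_nonneg c, sq_nonneg (v.d x)]
        · rw [max_eq_left h]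
          nlinarith [sq_nonneg (v.d x + c)]
      rw [Real.norm_eq_abs, abs_of_nonneg (by positivity)]
      refine (div_le_div_of_nonneg_right h3 (sq_nonneg _)).trans (le_of_eq ?_)
      simp only [Pi.add_apply, h2]
      ring
  · filter_upwards [mfh_ae (nA L), hN, v.dom, v.ed] with x h0 h1 h2 h3 hx hy
    have s0 : 0 < rA L x := lt_of_le_of_ne (norm_nonneg _) h0.symm
    obtain ⟨a1, a2⟩ := mfh_V hp.hL hx s0
    have s1 := (mfh_rB hp.hL hx).1
    have r0 := norm_nonneg x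
    have b1 : 0 ≤ 2 * lam / (1 + ‖x‖) := by positivity
    have b2 : 2 * lam / (1 + ‖x‖) ≤ 2 * lam := div_le_self (by positivity) (by linarith)
    have b3 : lam ≤ 1 / 100 := by nlinarith [hp.l1, hp.d1]
    have b4 : 32 ≤ (rA L x)⁻¹ := by
      rw [le_inv_comm₀ (by norm_num) s0]
      linarith
    have b5 : lam * C3 / (1 + ‖x‖) ^ 2 ≤ lam * C3 :=
      div_le_self (by positivity) (one_le_pow₀ (by linarith))
    have b6 : lam * C3 / (1 + ‖x‖) ^ 2 * (|v.d x| + v.X x) ≤ lam * C3 * (2 * N x) :=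
      le_trans (mul_le_mul_of_nonneg_left (by linarith [h2.1, h2.2.1]) (by positivity))
        (mul_le_mul_of_nonneg_right b5 (by linarith [v.nn x]))
    have b7 : N x ≤ K * (rA L x)⁻¹ := by
      refine (h1 hx).trans ?_
      rw [div_eq_mul_inv]
      refine mul_le_mul_of_nonneg_left (inv_anti₀ s0 (Real.le_sqrt_of_sq_le ?_)) hK.le
      nlinarith
    have b8 : lam * C3 * (2 * N x) ≤ c * ((rA L x)⁻¹ / 2) := by
      have := mul_le_mul_of_nonneg_left b7 (by positivity : 0 ≤ 2 * (lam * C3))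
      have := mul_le_mul_of_nonneg_right hl (by positivity : 0 ≤ (rA L x)⁻¹ / 2)
      linarith
    have b9 := (abs_le.1 h3).2
    have hI := hp.hI
    generalize hcv : V L x + I + 2 * lam / (1 + ‖x‖) = cv at b9
    have c1 : -(1 / (16 * rA L x ^ 2)) ≤ cv := by linarith [hI.1]
    have c2 : cv ≤ -((rA L x)⁻¹ / 2) := by linarith [hI.2]
    have c3 := mul_le_mul_of_nonneg_right c1 (by linarith : 0 ≤ c - v.d x)
    have c4 := mul_le_mul_of_nonneg_left c2 hc.le
    have e1 : (-v.d x - -c) / (16 * ‖x - nA L‖ ^ 2) = 1 / (16 * rA L x ^ 2) * (c - v.d x) := by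
      unfold rA
      ring
    rw [e1]
    linarith

end

end Vale.Agent.P363
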