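import Vale.Agent.P363.MFA

/-! P363, block MF: barriers with spare room. -/

open MeasureTheory Set Metric Filter Topology
open scoped RealInnerProductSpace

namespace Vale.Agent.P363

noncomputable section

variable {L : ℝ}

theorem zr {k c ρ : ℝ} {n : ℕ} {h h1 h2 : ℝ → ℝ} (hL : 1 ≤ L) (hk : k ∈ Icc (4 / 5 : ℝ) (6 / 5))
    (hc : c ∈ Icc (9 / 10 : ℝ) 1) (hn : n ≤ 4) (hρ : 10 ≤ ρ)
    (hh : ∀ s, HasDerivAt h (h1 s) s ∧ HasDerivAt h1 (h2 s) s) (c2 : Continuous h2) :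
    ∃ g l, C2 (Ext ρ) (fun x => h (x 2) * Gn L k c n x) g l ∧ ∀ x ∈ Ext ρ, ∃ p e : ℝ,
      -2 ≤ p ∧ p ≤ 0 ∧ |e| ≤ 100 / ‖x‖ ∧ l x = Gn L k c n x *
        (h2 (x 2) + 2 * h1 (x 2) * p * x 2 / ‖x‖ + h (x 2) * (k ^ 2 + e)) := by
  have hL0 : 0 < L := by linarith
  have hz := C2.zrad (ψ := fun s => ph L k c 0 s - n * Real.log s)
    (ψ1 := fun s => ph1 L k c 0 s - n * s⁻¹) (ψ2 := fun s => ph2 L k c 0 s - n * -(s ^ 2)⁻¹)
    (a := ρ) (by linarith) hh c2 (fun s hs => by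
      have hs0 : 0 < s := by linarith
      obtain ⟨d1, d2⟩ := hasDerivAt_ph k c 0 hL0 hs0
      exact ⟨d1.sub ((Real.hasDerivAt_log hs0.ne').const_mul _),
        d2.sub ((hasDerivAt_inv hs0.ne').const_mul _)⟩)
    (((continuousOn_ph2 k c 0 hL0).mono (Ioi_subset_Ioi (by linarith))).sub
      (continuousOn_const.mul (ContinuousOn.inv₀ (by fun_prop) fun s hs =>
        pow_ne_zero 2 (ne_of_gt (lt_of_le_of_lt (by linarith) hs))).neg))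
  have he : ∀ x ∈ Ext ρ, Real.exp (ph L k c 0 ‖x‖ - n * Real.log ‖x‖) = Gn L k c n x :=
    fun x hx => by
    have hx0 : 0 < ‖x‖ := lt_of_le_of_lt (by linarith) hx
    rw [Real.exp_sub, Real.exp_nat_mul, Real.exp_log hx0]
    rfl
  refine ⟨_, _, hz.congr (fun x hx => by rw [he x hx]) (fun _ _ => rfl) fun _ _ => rfl,
    fun x hx => ?_⟩
  have hx1 : 10 < ‖x‖ := lt_of_le_of_lt hρ hx
  have hx0 : 0 < ‖x‖ := by linarith
  obtain ⟨b1, b2⟩ := ph1_bound hL0 hk hc hx0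
  have u0 : 0 < ‖x‖⁻¹ := inv_pos.2 hx0
  have u1 : ‖x‖⁻¹ ≤ 1 / 10 := by
    rw [one_div]
    exact inv_anti₀ (by norm_num) hx1.le
  have n0 : (0 : ℝ) ≤ n := Nat.cast_nonneg n
  have n4 : (n : ℝ) ≤ 4 := by exact_mod_cast hn
  rw [div_eq_mul_inv] at b1
  rw [div_eq_mul_inv, ← inv_pow] at b2
  have m1 : n * ‖x‖⁻¹ ≤ 4 * ‖x‖⁻¹ := mul_le_mul_of_nonneg_right n4 u0.le
  have m0 : 0 ≤ n * ‖x‖⁻¹ := mul_nonneg n0 u0.le
  have m2 : ‖x‖⁻¹ ^ 2 ≤ ‖x‖⁻¹ := by nlinarith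
  have m3 : n * ‖x‖⁻¹ ^ 2 ≤ 4 * ‖x‖⁻¹ := mul_le_mul n4 m2 (by positivity) (by norm_num)
  have m4 : 0 ≤ n * ‖x‖⁻¹ ^ 2 := by positivity
  obtain ⟨p, hp⟩ : ∃ p, p = ph1 L k c 0 ‖x‖ - n * ‖x‖⁻¹ := ⟨_, rfl⟩
  have a1 := abs_le.1 b1
  have a2 := abs_le.1 b2
  have p1 : -2 ≤ p := by linarith [a1.1, hk.2]
  have p2 : p ≤ 0 := by linarith [a1.2, hk.1]
  have p3 : |p + k| ≤ 6 * ‖x‖⁻¹ := abs_le.2 ⟨by linarith [a1.1], by linarith [a1.2]⟩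
  have p4 : |p - k| ≤ 4 := abs_le.2 ⟨by linarith [hk.2], by linarith [hk.1]⟩
  have p5 : |(p + k) * (p - k)| ≤ 6 * ‖x‖⁻¹ * 4 := by
    rw [abs_mul]
    exact mul_le_mul p3 p4 (abs_nonneg _) (by positivity)
  have p6 := abs_le.1 p5
  have p7 := mul_le_mul_of_nonneg_right p1 u0.le
  have p8 := mul_le_mul_of_nonneg_right p2 u0.le
  refine ⟨p, ph2 L k c 0 ‖x‖ + n * ‖x‖⁻¹ ^ 2 + (p + k) * (p - k) + 2 * (p * ‖x‖⁻¹), p1, p2, ?_, ?_⟩
  · rw [div_eq_mul_inv, abs_le]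
    constructor <;> linarith [a2.1, a2.2, p6.1, p6.2]
  · simp only [he x hx, ← hp]
    rw [inv_pow]
    ring

theorem mfz_low {G l V k δ δ' a h h1 h2 p z r e : ℝ} (hG : 0 < G) (hr : 0 < r)
    (hl : l = G * (h2 + 2 * h1 * p * z / r + h * (k ^ 2 + e))) (hp : p ≤ 0) (hz : 0 ≤ h1 * z)
    (h0 : 0 ≤ h) (he : |e| ≤ 100 / r) (hV : -(3 / r) ≤ V) (hrr : 1 / r ≤ δ / 10000)
    (hd : δ - δ / 1000 ≤ δ') (h3 : h2 / 2 + a * h ≤ 3 / 4 * δ * h) (d0 : 0 < δ) :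
    a * (h * G) ≤ -(1 / 2) * l + (V + k ^ 2 / 2 + δ') * (h * G) := by
  have c1 : 0 ≤ h1 * z * -p / r := div_nonneg (mul_nonneg hz (by linarith)) hr.le
  have e1 : 100 / r = 100 * (1 / r) := by ring
  have e2 : 3 / r = 3 * (1 / r) := by ring
  have c2 : 3 / 4 * δ ≤ -e / 2 + V + δ' := by linarith [(abs_le.1 he).2]
  have c3 := mul_le_mul_of_nonneg_right c2 h0
  have c4 : a * h ≤ -h2 / 2 + h1 * z * -p / r + (-e / 2 + V + δ') * h := by linarith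
  have c5 := mul_le_mul_of_nonneg_left c4 hG.le
  rw [hl]
  refine le_trans (le_of_eq ?_) (c5.trans (le_of_eq ?_)) <;> ring

theorem zall {δ : ℝ} (hL : 1 ≤ L) (d0 : 0 < δ) (d1 : δ ≤ 1) : ∀ᶠ ρ : ℝ in atTop,
    ∀ k ∈ Icc (4 / 5 : ℝ) (6 / 5), ∀ c ∈ Icc (9 / 10 : ℝ) 1, ∀ n : ℕ, n ≤ 4 →
    (∃ g l, C2 (Ext ρ) (Gn L k c n) g l ∧ ∀ x ∈ Ext ρ, ∀ δ', δ - δ / 1000 ≤ δ' →
      δ / 2 * Gn L k c n x ≤ -(1 / 2) * l x + (V L x + k ^ 2 / 2 + δ') * Gn L k c n x) ∧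
    (∃ g l, C2 (Ext ρ) (fun x => Real.cosh (√δ * x 2) * Gn L k c n x) g l ∧
      ∀ x ∈ Ext ρ, ∀ δ', δ - δ / 1000 ≤ δ' → δ / 4 * (Real.cosh (√δ * x 2) * Gn L k c n x) ≤
        -(1 / 2) * l x + (V L x + k ^ 2 / 2 + δ') * (Real.cosh (√δ * x 2) * Gn L k c n x)) ∧
    (∃ g l, C2 (Ext ρ) (fun x => Real.sinh (√δ * x 2) / √δ * Gn L k c n x) g l ∧
      ∀ x ∈ Ext ρ, 0 ≤ x 2 → ∀ δ', δ - δ / 1000 ≤ δ' →
        δ / 4 * (Real.sinh (√δ * x 2) / √δ * Gn L k c n x) ≤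
        -(1 / 2) * l x + (V L x + k ^ 2 / 2 + δ') * (Real.sinh (√δ * x 2) / √δ * Gn L k c n x)) ∧
    (∃ g l, C2 (Ext ρ) (fun x => jj δ (x 2) * Gn L k c n x) g l ∧
      ∀ x ∈ Ext ρ, ∀ δ', |δ' - δ| ≤ δ / 1000 →
        -(1 / 2) * l x + (V L x + k ^ 2 / 2 + δ') * (jj δ (x 2) * Gn L k c n x) ≤
          (δ ^ 2 * x 2 ^ 2 - δ / 16 * Real.cosh (√δ * x 2)) * Gn L k c n x) := by
  filter_upwards [eventually_ge_atTop (100 * L), eventually_ge_atTop (10000 / δ)]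
    with ρ r1 r2 k hk c hc n hn
  have hρ : 10 ≤ ρ := by linarith
  have s0 : 0 < √δ := Real.sqrt_pos.2 d0
  have s2 : √δ * √δ = δ := Real.mul_self_sqrt d0.le
  have x0 : ∀ x ∈ Ext ρ, 0 < ‖x‖ := fun x hx => lt_of_le_of_lt (by linarith) hx
  have x1 : ∀ x ∈ Ext ρ, 1 / ‖x‖ ≤ δ / 10000 := fun x hx => by
    rw [← one_div_div 10000 δ]
    exact one_div_le_one_div_of_le (by positivity) (r2.trans (le_of_lt hx))
  have dl : ∀ s : ℝ, HasDerivAt (fun s => √δ * s) (√δ) s := fun s => by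
    simpa using (hasDerivAt_id s).const_mul (√δ)
  have dc : ∀ s : ℝ, HasDerivAt (fun s => Real.cosh (√δ * s)) (Real.sinh (√δ * s) * √δ) s :=
    fun s => (dl s).cosh
  have ds : ∀ s : ℝ, HasDerivAt (fun s => Real.sinh (√δ * s)) (Real.cosh (√δ * s) * √δ) s :=
    fun s => (dl s).sinh
  refine ⟨?_, ?_, ?_, ?_⟩
  · obtain ⟨g, l, a1, a2⟩ := zr (h := fun _ => 1) (h1 := fun _ => 0) (h2 := fun _ => 0) hL hk hc
      hn hρ (fun s => ⟨hasDerivAt_const _ _, hasDerivAt_const _ _⟩) continuous_const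
    refine ⟨g, l, by simpa only [one_mul] using a1, fun x hx δ' hd => ?_⟩
    obtain ⟨p, e, -, p2, p3, p4⟩ := a2 x hx
    simpa only [one_mul] using mfz_low (a := δ / 2) (Gn_pos L k c n (x0 x hx)) (x0 x hx) p4 p2
      (by simp) zero_le_one p3 (V_ext hL r1 hx).2.1 (x1 x hx) hd (by linarith) d0
  · obtain ⟨g, l, a1, a2⟩ := zr (h := fun s => Real.cosh (√δ * s))
      (h1 := fun s => Real.sinh (√δ * s) * √δ) (h2 := fun s => Real.cosh (√δ * s) * √δ * √δ)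
      hL hk hc hn hρ (fun s => ⟨dc s, (ds s).mul_const _⟩) (by fun_prop)
    refine ⟨g, l, a1, fun x hx δ' hd => ?_⟩
    obtain ⟨p, e, -, p2, p3, p4⟩ := a2 x hx
    refine mfz_low (Gn_pos L k c n (x0 x hx)) (x0 x hx) p4 p2 ?_ (Real.cosh_pos _).le p3
      (V_ext hL r1 hx).2.1 (x1 x hx) hd (le_of_eq ?_) d0
    · linarith [(hyp_ineq (√δ * x 2)).2.2.2.1]
    · rw [mul_assoc, s2]
      ring
  · obtain ⟨g, l, a1, a2⟩ := zr (h := fun s => Real.sinh (√δ * s) / √δ)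
      (h1 := fun s => Real.cosh (√δ * s)) (h2 := fun s => Real.sinh (√δ * s) * √δ)
      hL hk hc hn hρ (fun s => ⟨by
        have := (ds s).div_const (√δ)
        rwa [mul_div_cancel_right₀ _ s0.ne'] at this, dc s⟩) (by fun_prop)
    refine ⟨g, l, a1, fun x hx hz δ' hd => ?_⟩
    obtain ⟨p, e, -, p2, p3, p4⟩ := a2 x hx
    refine mfz_low (Gn_pos L k c n (x0 x hx)) (x0 x hx) p4 p2 (mul_nonneg (Real.cosh_pos _).le hz)
      (div_nonneg (Real.sinh_nonneg_iff.2 (mul_nonneg s0.le hz)) s0.le) p3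
      (V_ext hL r1 hx).2.1 (x1 x hx) hd (le_of_eq ?_) d0
    have : Real.sinh (√δ * x 2) * √δ = δ * (Real.sinh (√δ * x 2) / √δ) := by
      rw [← mul_div_assoc, eq_div_iff s0.ne', mul_assoc, s2, mul_comm]
    rw [this]
    ring
  · obtain ⟨g, l, a1, a2⟩ := zr (h := jj δ)
      (h1 := fun s => δ * (2 * s) - Real.sinh (√δ * s) * √δ / 4)
      (h2 := fun s => δ * 2 - Real.cosh (√δ * s) * √δ * √δ / 4)
      hL hk hc hn hρ (fun s => ⟨by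
        have h1 : HasDerivAt (fun s : ℝ => s ^ 2) (2 * s) s := by simpa using hasDerivAt_pow 2 s
        exact ((h1.const_mul δ).const_add 1).sub ((dc s).div_const 4), by
        have h1 : HasDerivAt (fun s : ℝ => 2 * s) 2 s := by
          simpa using (hasDerivAt_id s).const_mul (2 : ℝ)
        exact (h1.const_mul δ).sub (((ds s).mul_const _).div_const 4)⟩) (by fun_prop)
    refine ⟨g, l, a1, fun x hx δ' hd => ?_⟩
    obtain ⟨p, e, p1, p2, p3, p4⟩ := a2 x hx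
    obtain ⟨-, -, y1, y2, -⟩ := hyp_ineq (√δ * x 2)
    obtain ⟨-, v1, v2⟩ := V_ext hL r1 hx
    have hG := Gn_pos L k c n (x0 x hx)
    have hr := x1 x hx
    have hr0 : 0 < 1 / ‖x‖ := one_div_pos.2 (x0 x hx)
    have hC := Real.cosh_pos (√δ * x 2)
    have e0 : (√δ * x 2) ^ 2 = δ * x 2 ^ 2 := by rw [mul_pow, Real.sq_sqrt d0.le]
    rw [e0] at y1
    have e1 : 100 / ‖x‖ = 100 * (1 / ‖x‖) := by ring
    have e2 : 3 / ‖x‖ = 3 * (1 / ‖x‖) := by ring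
    have z0 : 0 ≤ δ * x 2 ^ 2 := by positivity
    have j1 : |jj δ (x 2)| ≤ 2 * Real.cosh (√δ * x 2) := by
      unfold jj
      rw [abs_le]
      constructor <;> linarith
    have j2 : |-e / 2 + V L x + (δ' - δ)| ≤ δ / 100 := by
      rw [abs_le]
      constructor <;> linarith [(abs_le.1 p3).1, (abs_le.1 p3).2, (abs_le.1 hd).1, (abs_le.1 hd).2]
    have j3 : jj δ (x 2) * (-e / 2 + V L x + (δ' - δ)) ≤ 2 * Real.cosh (√δ * x 2) * (δ / 100) :=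
      (le_abs_self _).trans ((abs_mul _ _).trans_le (mul_le_mul j1 j2 (abs_nonneg _) (by positivity)))
    have j4 : (δ * (2 * x 2) - Real.sinh (√δ * x 2) * √δ / 4) * x 2 ≤ 4 * Real.cosh (√δ * x 2) := by
      nlinarith
    have j5 : -p * (1 / ‖x‖) ≤ 2 * (δ / 10000) := mul_le_mul (by linarith) hr hr0.le (by norm_num)
    have j6 : (δ * (2 * x 2) - Real.sinh (√δ * x 2) * √δ / 4) * x 2 * (-p * (1 / ‖x‖)) ≤
        4 * Real.cosh (√δ * x 2) * (2 * (δ / 10000)) :=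
      (mul_le_mul_of_nonneg_right j4 (mul_nonneg (by linarith) hr0.le)).trans
        (mul_le_mul_of_nonneg_left j5 (by positivity))
    have j7 := mul_pos hC d0
    have j8 : δ ^ 2 * x 2 ^ 2 - δ / 8 * Real.cosh (√δ * x 2) +
        (δ * (2 * x 2) - Real.sinh (√δ * x 2) * √δ / 4) * x 2 * (-p * (1 / ‖x‖)) +
        jj δ (x 2) * (-e / 2 + V L x + (δ' - δ)) ≤
        δ ^ 2 * x 2 ^ 2 - δ / 16 * Real.cosh (√δ * x 2) := by linarith
    refine le_trans (le_of_eq ?_) (mul_le_mul_of_nonneg_right j8 hG.le)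
    rw [p4, mul_assoc (Real.cosh _), s2]
    unfold jj
    ring

end

end Vale.Agent.P363
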