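import Vale.Agent.P363.MFb1

/-! P363, block MF, second half: the slab. -/

open MeasureTheory Set Metric Filter Topology
open scoped RealInnerProductSpace

namespace Vale.Agent.P363

namespace MFb

variable {c0 L : ℝ} {ob : OB c0 L} {lam θ η r1 ε C2 C3 Cq I K1 K : ℝ} {N Yp Ym : E3 → ℝ}
  {gN : E3 → E3} {vb : VB ob lam r1 ε C2 C3 Cq I N gN}

theorem slab_a {K θ Y T R S A a b c X w : ℝ} (hK : 1 ≤ K) (hA : A = R + S) (hR : 0 ≤ R)
    (hS : 0 ≤ S) (hY : Y ≤ K * A) (hT : T ≤ 2 * S) (b0 : 0 ≤ b) (a0 : 0 ≤ a) (c0 : 0 ≤ c)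
    (hb : b ≤ 2 * K * Y) (ha : a ≤ 200 * K ^ 2 * (Y + T)) (hc : c ≤ 2 * (θ * w) + (Y + T))
    (hX : X ^ 2 = a ^ 2 + b ^ 2 + c ^ 2) : X ^ 2 ≤ 10 ^ 6 * K ^ 6 * (A ^ 2 + θ ^ 2 * w ^ 2) := by
  have A0 : 0 ≤ A := by linarith
  have k1 : K ≤ K ^ 3 := le_self_pow₀ hK (by norm_num)
  have k2 : K ^ 2 ≤ K ^ 3 := pow_le_pow_right₀ hK (by norm_num)
  have k3 : 1 ≤ K ^ 6 := one_le_pow₀ hK
  have j0 : A ≤ K * A := le_mul_of_one_le_left A0 hK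
  have j1 : Y + T ≤ 3 * (K * A) := by linarith
  have j2 : K * A ≤ K ^ 3 * A := mul_le_mul_of_nonneg_right k1 A0
  have j3 : K ^ 2 * A ≤ K ^ 3 * A := mul_le_mul_of_nonneg_right k2 A0
  have j4 : b ≤ 2 * (K ^ 3 * A) := by
    have := mul_le_mul_of_nonneg_left hY (show 0 ≤ 2 * K by linarith)
    linarith
  have j5 : a ≤ 600 * (K ^ 3 * A) := by
    have := mul_le_mul_of_nonneg_left j1 (show 0 ≤ 200 * K ^ 2 by positivity)
    linarith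
  have j6 : c ≤ 2 * (θ * w) + 3 * (K ^ 3 * A) := by linarith
  have e : 10 ^ 6 * K ^ 6 * (A ^ 2 + θ ^ 2 * w ^ 2) =
      10 ^ 6 * (K ^ 3 * A) ^ 2 + 10 ^ 6 * (K ^ 6 * (θ * w) ^ 2) := by ring
  have j7 : (θ * w) ^ 2 ≤ K ^ 6 * (θ * w) ^ 2 := le_mul_of_one_le_left (sq_nonneg _) k3
  have i1 := pow_le_pow_left₀ b0 j4 2
  have i2 := pow_le_pow_left₀ a0 j5 2
  have i3 := pow_le_pow_left₀ c0 j6 2
  rw [e, hX]
  generalize K ^ 3 * A = P at *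
  generalize θ * w = W at *
  nlinarith [sq_nonneg (2 * W - 3 * P), sq_nonneg P, sq_nonneg W]

theorem slab_b {K θ η Y Z R S N q : ℝ} (hK : 1 ≤ K) (hR : 0 ≤ R) (hS : 0 ≤ S) (hN : 0 ≤ N)
    (hθ : 0 ≤ θ) (h1 : 2 * (K ^ 3 * θ) ≤ 1) (h2 : 20 * K ^ 4 * η ≤ 1) (hq : 1 / 2 ≤ q)
    (hZ : R ≤ K * Z) (hY : Y ≤ K * R ∨ (Y ≤ K * η * S ∧ R ≤ S))
    (hT : K⁻¹ * Z - θ * Y ≤ N) (hd : (K ^ 2)⁻¹ * (q * S) - 5 * K * Y ≤ N) :
    R + S ≤ 10 ^ 6 * K ^ 6 * N := by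
  have K0 : 0 < K := by linarith
  have K2 : 0 < K ^ 2 := by positivity
  have t1 : K * Z - K ^ 2 * θ * Y ≤ K ^ 2 * N := by
    have := mul_le_mul_of_nonneg_left hT K2.le
    have e : K ^ 2 * (K⁻¹ * Z - θ * Y) = K * Z - K ^ 2 * θ * Y := by field_simp
    linarith
  have t2 : S / 2 - 5 * K ^ 3 * Y ≤ K ^ 2 * N := by
    have := mul_le_mul_of_nonneg_left hd K2.le
    have e : K ^ 2 * ((K ^ 2)⁻¹ * (q * S) - 5 * K * Y) = q * S - 5 * K ^ 3 * Y := by field_simp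
    have := mul_le_mul_of_nonneg_right hq hS
    linarith
  have k1 : K ^ 2 * N ≤ K ^ 6 * N :=
    mul_le_mul_of_nonneg_right (pow_le_pow_right₀ hK (by norm_num)) hN
  have k2 : 0 ≤ K ^ 2 * N := by positivity
  rcases hY with hY | ⟨hY, hRS⟩
  · have u1 := mul_le_mul_of_nonneg_left hY (show 0 ≤ K ^ 2 * θ by positivity)
    have u2 := mul_le_mul_of_nonneg_right h1 hR
    have u3 : R ≤ 2 * (K ^ 2 * N) := by linarith
    have u4 := mul_le_mul_of_nonneg_left hY (show 0 ≤ 5 * K ^ 3 by positivity)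
    have u5 := mul_le_mul_of_nonneg_left u3 (show 0 ≤ 5 * K ^ 4 by positivity)
    linarith
  · have u4 := mul_le_mul_of_nonneg_left hY (show 0 ≤ 5 * K ^ 3 by positivity)
    have u5 := mul_le_mul_of_nonneg_right h2 hS
    linarith

theorem slab_c {u : ℝ} (h0 : 0 ≤ u) (h1 : u ≤ 1 / 5) :
    Real.cosh u ≤ 2 ∧ Real.sinh u ≤ 2 * u := by
  have a1 := Real.add_one_le_exp (-u)
  have a2 : Real.exp (-u) ≤ 1 := Real.exp_le_one_iff.2 (by linarith)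
  have a3 : Real.exp u * Real.exp (-u) = 1 := by rw [← Real.exp_add, add_neg_cancel, Real.exp_zero]
  have a4 := Real.exp_pos u
  have a5 : Real.exp u * (1 - u) ≤ 1 := by nlinarith
  have a6 : Real.exp u ≤ 5 / 4 := by nlinarith
  have a7 : Real.exp u ≤ 1 + 2 * u := by nlinarith
  rw [Real.cosh_eq, Real.sinh_eq]
  constructor <;> linarith

theorem slab (n : Num L ob.del lam θ η r1 I C3 K1 K)
    (p : Par L ob.del lam η r1 ε I C3 K ob.g Yp Ym)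
    (hb : ∀ᵐ x : E3, x ∈ Ext r1 → vb.b x ≤ 2 * K * Yp x)
    (ha : ∀ᵐ x : E3, x ∈ Ext r1 → vb.a x ≤ 200 * K ^ 2 * (Yp x + TT L lam I ob.del x))
    (hc : ∀ᵐ x : E3, x ∈ Ext r1 → 0 < x 2 →
      vb.c x ≤ θ * L * (sh ob.del x * fr L lam I 2 ‖x‖) + (Yp x + TT L lam I ob.del x))
    (hT : ∀ᵐ x : E3, x ∈ Ext r1 → -vb.dT x ≤ θ * Yp x - K⁻¹ * Ym x)
    (hS : ∀ᵐ x : E3, x ∈ Ext r1 →
      vb.dS x ≤ 5 * K * Yp x - (K ^ 2)⁻¹ * (hq ob.del x * RS L lam I ob.del ‖x‖)) :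
    ∀ᵐ x : E3, x ∈ Slab r1 →
      vb.X x ^ 2 ≤ 10 ^ 6 * K ^ 6 * (aa L lam I ob.del ‖x‖ ^ 2 +
        lam / ‖x‖ ^ 2 * (x 2 * bb L lam I ‖x‖) ^ 2) ∧
      aa L lam I ob.del ‖x‖ ≤ 10 ^ 6 * K ^ 6 * N x := by
  filter_upwards [hb, ha, hc, hT, hS, vb.alg] with x hb ha hc hT hS hal hx
  obtain ⟨x1, x2, x3⟩ := hx
  have hE : x ∈ Ext r1 := x1
  obtain ⟨a0, b0, c0, X0, -, eX, eN, rest⟩ := hal
  have r0 := n.nrm0 hE
  have s0 : 0 < √ob.del := Real.sqrt_pos.2 n.hδ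
  obtain ⟨c1, c2⟩ := slab_c (mul_nonneg s0.le x2.le) (by nlinarith [n.sqδ.2])
  have hsh : sh ob.del x ≤ 2 * x 2 := by
    rw [sh, div_le_iff₀ s0]
    linarith
  have hS0 := n.RS_nonneg x
  have hR0 : 0 ≤ RT L lam I ob.del ‖x‖ := (fb_pos _ _ _ _ _).le
  have hTT : TT L lam I ob.del x ≤ 2 * RS L lam I ob.del ‖x‖ := mul_le_mul_of_nonneg_right c1 hS0
  obtain ⟨p1, p2⟩ := p.slab x ⟨x1, x2, x3⟩
  have K0 : 0 ≤ K := by linarith [n.hK]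
  have hY : Yp x ≤ K * aa L lam I ob.del ‖x‖ := by
    unfold aa
    have u1 := mul_nonneg K0 hS0
    have u2 := mul_nonneg K0 hR0
    rcases p2 with h | h
    · linarith
    · have u3 := mul_le_mul_of_nonneg_left (show η ≤ 1 by linarith [n.η1]) u1
      linarith [h.1]
  have N0 := vb.nn x
  have aN : vb.a x ≤ N x := by
    refine (pow_le_pow_iff_left₀ a0 N0 two_ne_zero).1 ?_
    linarith [sq_nonneg (vb.b x), sq_nonneg (vb.c x), sq_nonneg (vb.d x)]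
  have bN : vb.b x ≤ N x := by
    refine (pow_le_pow_iff_left₀ b0 N0 two_ne_zero).1 ?_
    linarith [sq_nonneg (vb.a x), sq_nonneg (vb.c x), sq_nonneg (vb.d x)]
  constructor
  · have hc' : vb.c x ≤ 2 * (θ * (x 2 * bb L lam I ‖x‖ / ‖x‖)) +
        (Yp x + TT L lam I ob.del x) := by
      have f0 := fr_nonneg L lam I 2 r0.le
      have u1 := mul_le_mul_of_nonneg_left (mul_le_mul_of_nonneg_right hsh f0)
        (mul_nonneg n.hθ.le (show 0 ≤ L by linarith [n.hL]))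
      have e : θ * L * (2 * x 2 * fr L lam I 2 ‖x‖) =
          2 * (θ * (x 2 * bb L lam I ‖x‖ / ‖x‖)) := by
        rw [bb_eq, fr]
        ring
      linarith [hc hE x2]
    have := slab_a n.hK (A := aa L lam I ob.del ‖x‖) rfl hR0 hS0 hY hTT b0 a0 c0 (hb hE) (ha hE)
      hc' eX
    rw [n.sq] at this
    refine this.trans (le_of_eq ?_)
    ring
  · have hq1 : 1 / 2 ≤ hq ob.del x := by
      have : 0 ≤ ob.del * x 2 ^ 2 := mul_nonneg n.hδ.le (sq_nonneg _)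
      unfold hq ch
      linarith
    have big := n.le_big (a := K ^ 3) (pow_le_pow_right₀ n.hK (by norm_num)) n.hC3 n.hK1
      zero_le_one zero_le_one
    refine slab_b n.hK hR0 hS0 N0 n.hθ.le (by linarith [n.ηδ, n.hδ1]) n.hη hq1 p1 p2 ?_ ?_
    · linarith [hT hE, le_abs_self (vb.dT x), rest.1]
    · linarith [hS hE, neg_abs_le (vb.dS x), rest.2]

end MFb

end Vale.Agent.P363
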