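import Vale.Agent.P363.MFbE

/-! P363, block MF, second half: the parameters. -/

open MeasureTheory Set Metric Filter Topology
open scoped RealInnerProductSpace

namespace Vale.Agent.P363

namespace MFb

theorem p7_low {L k ρ : ℝ} (hL : 1 ≤ L) (hk : k ∈ Icc (4 / 5 : ℝ) (6 / 5)) {x : E3}
    (h1 : x ∈ Ext2 L 1) (h2 : ‖x‖ ≤ ρ) :
    Real.exp (-(6 / 5) * (ρ + L)) / (ρ + L) ≤ Ye L k 0 x := by
  have h0 := norm_nonneg x
  have h3 := (Ye_crude hL hk h1).2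
  have h4 := Ye_pos L k 0 x
  have h5 : 0 < ρ + L := by linarith
  rw [div_le_iff₀ h5]
  have h6 : Real.exp (-(6 / 5) * (ρ + L)) * Real.exp (k * L) ≤ Real.exp (-k * ‖x‖) := by
    rw [← Real.exp_add]
    apply Real.exp_le_exp.2
    have := mul_le_mul hk.2 (show ‖x‖ + L ≤ ρ + L by linarith) (by linarith) (by norm_num)
    linarith
  have h7 : (‖x‖ + L) * Real.exp (k * L) * Ye L k 0 x ≤
      Ye L k 0 x * (ρ + L) * Real.exp (k * L) := by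
    have := mul_le_mul_of_nonneg_right (show ‖x‖ + L ≤ ρ + L by linarith)
      (mul_pos (Real.exp_pos (k * L)) h4).le
    linarith
  exact le_of_mul_le_mul_right (h6.trans (h3.trans h7)) (Real.exp_pos _)

theorem p7_par {L k k' ρ η : ℝ} (hL : 1 ≤ L) (hk : k ∈ Icc (4 / 5 : ℝ) (6 / 5))
    (hk' : k' ∈ Icc (4 / 5 : ℝ) (6 / 5)) {x : E3} (h1 : x ∈ Ext2 L 1) (h2 : ‖x‖ ≤ ρ)
    (h3 : |k - k'| ≤ 3 * η) (h4 : 15 * η * (ρ + L) ≤ 1 / 2) : Ye L k 0 x ≤ 2 * Ye L k' 0 x := by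
  have h0 := norm_nonneg x
  refine (Ye_param hL hk hk' h1 h2).trans (mul_le_mul_of_nonneg_right ?_ (Ye_pos _ _ _ _).le)
  have h5 : 5 * |k - k'| * (ρ + L) ≤ 1 / 2 := by
    have := mul_le_mul_of_nonneg_right h3 (show 0 ≤ ρ + L by linarith)
    linarith
  have h6 : Real.exp (1 / 2) ≤ 2 := by
    have h7 : Real.exp (1 / 2) * Real.exp (1 / 2) = Real.exp 1 := by
      rw [← Real.exp_add]
      norm_num
    have h8 := Real.exp_one_lt_three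
    nlinarith [Real.exp_pos (1 / 2 : ℝ)]
  exact (Real.exp_le_exp.2 h5).trans h6

theorem p7_RS {L lam I δ r : ℝ} (hL : 0 ≤ L) (hl : 0 ≤ lam) (hr : 0 ≤ r) :
    0 ≤ RS L lam I δ r := by
  unfold RS bb
  have := fb_pos L √(2 * I) (1 - 2 * lam) 0 r
  positivity

theorem p7_sq {I : ℝ} (hI : I ∈ Icc (2 / 5 : ℝ) (3 / 5)) : √(2 * I) ∈ Icc (4 / 5 : ℝ) (6 / 5) :=
  ⟨Real.le_sqrt_of_sq_le (by linarith [hI.1]), Real.sqrt_le_iff.2 ⟨by norm_num, by linarith [hI.2]⟩⟩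

theorem p7_TT {L lam I δ ρ : ℝ} (hL : 1 ≤ L) (hl : 0 < lam) (hl1 : lam ≤ 1 / 20) (hδ : 0 < δ)
    (hδ1 : δ ≤ 1) (hI : I ∈ Icc (2 / 5 : ℝ) (3 / 5)) {x : E3} (h1 : 1 ≤ ‖x‖) (h2 : ‖x‖ ≤ ρ) :
    TT L lam I δ x ≤ lam * (L ^ 2 * Real.cosh ρ * (1 + ρ) ^ 2 / δ ^ 2) := by
  have hk := p7_sq hI
  have h3 := (fb_crude (c := 1 - 2 * lam) hL hk ⟨by linarith, by linarith⟩ h1).2
  have h4 : Real.exp (-√(2 * I) * ‖x‖) ≤ 1 := by
    apply Real.exp_le_one_iff.2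
    have := mul_nonneg (Real.sqrt_nonneg (2 * I)) (norm_nonneg x)
    linarith
  have h5 : fb L √(2 * I) (1 - 2 * lam) 0 ‖x‖ ≤ (1 + ρ) ^ 2 := by
    refine h3.trans ?_
    calc (1 + ‖x‖) ^ 2 * Real.exp (-√(2 * I) * ‖x‖) ≤ (1 + ‖x‖) ^ 2 * 1 :=
          mul_le_mul_of_nonneg_left h4 (by positivity)
      _ ≤ (1 + ρ) ^ 2 := by
          rw [mul_one]
          exact pow_le_pow_left₀ (by linarith) (by linarith) 2
  have h6 : ch δ x ≤ Real.cosh ρ := by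
    unfold ch
    apply Real.cosh_le_cosh.2
    have h7 : √δ ≤ 1 := Real.sqrt_le_one.2 hδ1
    rw [abs_mul, abs_of_nonneg (Real.sqrt_nonneg δ), abs_of_nonneg (show 0 ≤ ρ by linarith)]
    have h8 := abs_coord_le x 2
    calc √δ * |x 2| ≤ 1 * |x 2| := mul_le_mul_of_nonneg_right h7 (abs_nonneg _)
      _ ≤ ρ := by linarith
  have h7 : bb L lam I ‖x‖ ≤ L * (1 + ρ) ^ 2 := by
    unfold bb
    exact mul_le_mul (div_le_self (by linarith) h1) h5 (fb_pos _ _ _ _ _).le (by linarith)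
  have h8 : RS L lam I δ ‖x‖ ≤ lam * L * (L * (1 + ρ) ^ 2) / δ ^ 2 := by
    unfold RS
    have h9 : δ ^ 2 ≤ δ ^ 2 * ‖x‖ ^ 3 := le_mul_of_one_le_right (by positivity) (one_le_pow₀ h1)
    exact div_le_div₀ (by positivity) (mul_le_mul_of_nonneg_left h7 (by positivity))
      (by positivity) h9
  unfold TT
  calc ch δ x * RS L lam I δ ‖x‖ ≤ Real.cosh ρ * (lam * L * (L * (1 + ρ) ^ 2) / δ ^ 2) :=
        mul_le_mul h6 h8 (p7_RS (by linarith) hl.le (norm_nonneg _)) (Real.cosh_pos _).le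
    _ = _ := by ring

theorem p7_ex {L lam I k CE Y : ℝ} (hL : 1 ≤ L) (hl : 0 < lam) (hl1 : lam ≤ 1 / 20)
    (hI : I ∈ Icc (2 / 5 : ℝ) (3 / 5)) (hk : k ∈ Icc (4 / 5 : ℝ) (6 / 5))
    (hkk : k ≤ √(2 * I) + 1 / 40) {x : E3} (h1 : 1 ≤ ‖x‖) (h2 : x ∈ Ext2 L 1) (hY : 0 < Y)
    (h3 : Ye L k 0 x ≤ CE * Y)
    (h4 : CE * (‖x‖ + L) * Real.exp (6 / 5 * L) * (1 + ‖x‖) ^ 2 * Real.exp (-‖x‖ / 40) ≤ 1) :
    Real.exp (-‖x‖ / 20) * fbar L lam I ‖x‖ ≤ Y := by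
  have h5 := (fb_crude (c := 1 - 2 * lam) hL (p7_sq hI) ⟨by linarith, by linarith⟩ h1).2
  have h6 := (Ye_crude hL hk h2).2
  have h7 : Real.exp (-‖x‖ / 20) * Real.exp (-√(2 * I) * ‖x‖) ≤
      Real.exp (-‖x‖ / 40) * Real.exp (-k * ‖x‖) := by
    rw [← Real.exp_add, ← Real.exp_add]
    apply Real.exp_le_exp.2
    have := mul_le_mul_of_nonneg_right hkk (norm_nonneg x)
    linarith
  have h8 : Real.exp (k * L) ≤ Real.exp (6 / 5 * L) :=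
    Real.exp_le_exp.2 (mul_le_mul_of_nonneg_right hk.2 (by linarith))
  have h9 : Real.exp (-k * ‖x‖) ≤ (‖x‖ + L) * Real.exp (6 / 5 * L) * (CE * Y) :=
    h6.trans (mul_le_mul (mul_le_mul_of_nonneg_left h8 (by linarith)) h3 (Ye_pos _ _ _ _).le
      (by positivity))
  calc Real.exp (-‖x‖ / 20) * fbar L lam I ‖x‖
      ≤ Real.exp (-‖x‖ / 20) * ((1 + ‖x‖) ^ 2 * Real.exp (-√(2 * I) * ‖x‖)) :=
        mul_le_mul_of_nonneg_left h5 (Real.exp_pos _).le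
    _ = (1 + ‖x‖) ^ 2 * (Real.exp (-‖x‖ / 20) * Real.exp (-√(2 * I) * ‖x‖)) := by ring
    _ ≤ (1 + ‖x‖) ^ 2 * (Real.exp (-‖x‖ / 40) *
          ((‖x‖ + L) * Real.exp (6 / 5 * L) * (CE * Y))) :=
        mul_le_mul_of_nonneg_left (h7.trans (mul_le_mul_of_nonneg_left h9 (Real.exp_pos _).le))
          (by positivity)
    _ = (CE * (‖x‖ + L) * Real.exp (6 / 5 * L) * (1 + ‖x‖) ^ 2 * Real.exp (-‖x‖ / 40)) * Y := by
        ring
    _ ≤ 1 * Y := mul_le_mul_of_nonneg_right h4 hY.le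
    _ = Y := one_mul _

theorem p7_col {C CE K ε e1 g yp ym yg y1 y2 t T : ℝ} (hC : 1 ≤ C) (hCE : 1 ≤ CE)
    (hK : 4 * (C * CE) ≤ K) (p1 : 0 < yp) (p2 : 0 < yg) (a1 : e1 ≤ y1) (a2 : e1 ≤ yg)
    (a3 : yg ≤ 2 * y1) (a4 : y2 ≤ 2 * yg) (a5 : t ≤ T) (b1 : yg ≤ C * g) (b2 : g ≤ C * yg)
    (c1 : y1 ≤ CE * yp) (c2 : ym ≤ CE * y2) (hε : 2 * C * CE * ε ≤ e1) (hT : CE * T ≤ e1) :
    g ≤ K * yp ∧ ε ≤ yp ∧ ym ≤ K * (g - ε) ∧ t ≤ yp := by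
  have k3 : 0 < C * CE := by positivity
  have hg : 0 < g := by
    by_contra hc
    have := mul_nonneg (show 0 ≤ C by linarith) (show 0 ≤ -g by linarith)
    linarith
  have hεg : 2 * ε ≤ g := by
    rcases le_total ε 0 with h0 | h0
    · linarith
    · have d1 : C * (2 * ε) ≤ 2 * C * CE * ε := by
        have := mul_le_mul_of_nonneg_left hCE (show 0 ≤ C * (2 * ε) by positivity)
        linarith
      exact le_of_mul_le_mul_left (show C * (2 * ε) ≤ C * g by linarith) (by linarith)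
  refine ⟨?_, ?_, ?_, ?_⟩
  · have d1 := mul_le_mul_of_nonneg_left (a3.trans
      (mul_le_mul_of_nonneg_left c1 (by norm_num : (0 : ℝ) ≤ 2))) (show 0 ≤ C by linarith)
    have d2 := mul_le_mul_of_nonneg_right (show 2 * (C * CE) ≤ K by linarith) p1.le
    linarith
  · rcases le_total ε 0 with h0 | h0
    · linarith
    · have d0 : 0 ≤ CE * ε := by positivity
      have d1 := mul_le_mul_of_nonneg_left hC d0
      exact le_of_mul_le_mul_left (show CE * ε ≤ CE * yp by linarith) (by linarith)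
  · have d1 := mul_le_mul_of_nonneg_left (a4.trans
      (mul_le_mul_of_nonneg_left b1 (by norm_num : (0 : ℝ) ≤ 2))) (show 0 ≤ CE by linarith)
    have d2 := mul_le_mul_of_nonneg_right hK (show 0 ≤ g - ε by linarith)
    have d3 := mul_le_mul_of_nonneg_left hεg k3.le
    linarith
  · have d1 := mul_le_mul_of_nonneg_left a5 (show 0 ≤ CE by linarith)
    exact le_of_mul_le_mul_left (show CE * t ≤ CE * yp by linarith) (by linarith)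

theorem p7_slab {CE CF K η yp ym y1 y2 f rt rs ex : ℝ} (hCE : 1 ≤ CE) (hCF : 1 ≤ CF)
    (hK : 300 * (CE * CF) ≤ K) (hη : 0 < η) (hη1 : η ≤ 1) (p1 : 0 < ym) (p2 : 0 < f)
    (p3 : 0 ≤ rt) (p4 : 0 ≤ rs) (c1 : yp ≤ CE * y1) (c2 : y2 ≤ CE * ym) (f1 : rt ≤ CF * y2)
    (f2 : y1 ≤ CF * (f * ex)) (f3 : ex ≤ 3)
    (g : f ≤ 100 * rt ∨ (f ≤ η * rs ∧ rt ≤ η * rs)) :
    rt ≤ K * ym ∧ (yp ≤ K * rt ∨ (yp ≤ K * η * rs ∧ rt ≤ rs)) := by
  have k4 : 0 < CE * CF := by positivity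
  have f4 : yp ≤ 3 * (CE * CF) * f := by
    have d1 := mul_le_mul_of_nonneg_left (mul_le_mul_of_nonneg_left f3 p2.le)
      (show 0 ≤ CF by linarith)
    have d2 := mul_le_mul_of_nonneg_left (f2.trans d1) (show 0 ≤ CE by linarith)
    linarith
  refine ⟨?_, ?_⟩
  · have d1 := mul_le_mul_of_nonneg_left c2 (show 0 ≤ CF by linarith)
    have d2 := mul_le_mul_of_nonneg_right (show CE * CF ≤ K by linarith) p1.le
    linarith
  · rcases g with g1 | ⟨g3, g4⟩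
    · left
      have d1 := mul_le_mul_of_nonneg_left g1 (show 0 ≤ 3 * (CE * CF) by linarith)
      have d3 := mul_le_mul_of_nonneg_right hK p3
      linarith
    · right
      have d1 := mul_le_mul_of_nonneg_left g3 (show 0 ≤ 3 * (CE * CF) by linarith)
      have d2 := mul_le_mul_of_nonneg_right (show 3 * (CE * CF) ≤ K by linarith)
        (mul_nonneg hη.le p4)
      have d3 := mul_le_mul_of_nonneg_right hη1 p4
      exact ⟨by linarith, by linarith⟩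

theorem p7_num {I δ κ k η a : ℝ} (hsq : κ ^ 2 = 2 * (I + δ)) (hsq0 : k ^ 2 = 2 * I)
    (h1 : 9 / 10 ≤ κ) (h2 : 4 / 5 ≤ k) (hδ : δ ≤ 1 / 50) (hη : 0 < η) (hη1 : η ≤ 1 / 20)
    (ha : a ≤ η / 2) : η ≤ I + δ - a - (κ - 2 * η) ^ 2 / 2 ∧ I + δ + a ≤ (κ + η) ^ 2 / 2 ∧
      κ - 2 * η ≤ k + 1 / 40 := by
  refine ⟨by nlinarith, by nlinarith, ?_⟩
  by_contra hc
  have h3 : 1 / 40 < κ - k := by linarith
  have h4 : 17 / 10 ≤ κ + k := by linarith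
  nlinarith

theorem p7_det {L δ lam r1 ε I C3 K C CE CF A r0 kg : ℝ} {g : E3 → ℝ} (hL : 1 ≤ L)
    (hr0 : 1 ≤ r0) (hr1 : L + r0 ≤ r1) (h4 : 4 * L ≤ r1) (hC : 1 ≤ C) (hCE : 1 ≤ CE)
    (hCF : 1 ≤ CF) (hK : 300 * (C * CE * CF) ≤ K) (hδ : 0 < δ) (hδ1 : δ ≤ 1 / 50)
    (hl : 0 < lam) (hl1 : lam ≤ 1 / 20) (hη : 0 < eta lam) (hη1 : eta lam ≤ 1 / 20)
    (hC3 : C3 * lam ≤ eta lam / 2) (hI : I ∈ Icc (2 / 5 : ℝ) (3 / 5))
    (hκ : √(2 * (I + δ)) ∈ Icc (9 / 10 : ℝ) (11 / 10)) (hkg : kg ∈ Icc (4 / 5 : ℝ) (6 / 5))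
    (hkκ : |kg - √(2 * (I + δ))| ≤ eta lam)
    (hE : ∀ k ∈ Icc (4 / 5 : ℝ) (6 / 5), ∀ s : ℝ, s = 1 ∨ s = -1 →
      ∃ gY l, C2 (D L) (Ye L k (s * A)) gY l ∧ ∀ x ∈ Ext2 L r0,
        0 ≤ s * (-(1 / 2) * l x + (V L x + k ^ 2 / 2) * Ye L k (s * A) x) ∧
        Ye L k (s * A) x ≤ CE * Ye L k 0 x ∧ Ye L k 0 x ≤ CE * Ye L k (s * A) x)
    (hF : ∀ k ∈ Icc (4 / 5 : ℝ) (6 / 5), ∀ x : E3, r1 ≤ ‖x‖ →
      fb L k 1 0 ‖x‖ ≤ CF * Ye L k 0 x ∧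
      Ye L k 0 x ≤ CF * (fb L k 1 0 ‖x‖ * Real.exp (4 * L * |x 2| / ‖x‖)))
    (hB : ∀ r : ℝ, 1 ≤ r →
      (r ≤ 1 / eta lam → fb L (√(2 * (I + δ)) - 2 * eta lam) 1 0 r ≤ 100 * RT L lam I δ r) ∧
      (1 / eta lam ≤ r → fb L (√(2 * (I + δ)) - 2 * eta lam) 1 0 r ≤ eta lam * RS L lam I δ r ∧
        RT L lam I δ r ≤ eta lam * RS L lam I δ r))
    (htwo : ∀ x ∈ Ext2 L r0, Ye L kg 0 x ≤ C * g x ∧ g x ≤ C * Ye L kg 0 x)
    (hex : ∀ r, r1 ≤ r →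
      CE * (r + L) * Real.exp (6 / 5 * L) * (1 + r) ^ 2 * Real.exp (-r / 40) ≤ 1)
    (hsm : 15 * eta lam * (r1 + 1 + L) ≤ 1 / 2) (hε1 : ε ≤ 1)
    (hε : 2 * C * CE * ε ≤ Real.exp (-(6 / 5) * (r1 + 1 + L)) / (r1 + 1 + L))
    (hT : CE * (lam * (L ^ 2 * Real.cosh (r1 + 1) * (1 + (r1 + 1)) ^ 2 / δ ^ 2)) ≤
      Real.exp (-(6 / 5) * (r1 + 1 + L)) / (r1 + 1 + L)) :
    ∃ Yp Ym, Par L δ lam (eta lam) r1 ε I C3 K g Yp Ym := by
  have hsq : √(2 * (I + δ)) ^ 2 = 2 * (I + δ) := Real.sq_sqrt (by linarith [hI.1])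
  have hk0 := p7_sq hI
  have hsq0 : √(2 * I) ^ 2 = 2 * I := Real.sq_sqrt (by linarith [hI.1])
  have hRT : ∀ r, RT L lam I δ r = fb L (√(2 * (I + δ)) + eta lam) 1 0 r := fun r => rfl
  generalize √(2 * (I + δ)) = κ at *
  generalize eta lam = η at *
  obtain ⟨hκ1, hκ2⟩ := hκ
  have hp : κ - 2 * η ∈ Icc (4 / 5 : ℝ) (6 / 5) := ⟨by linarith, by linarith⟩
  have hm : κ + η ∈ Icc (4 / 5 : ℝ) (6 / 5) := ⟨by linarith, by linarith⟩
  obtain ⟨gp, lp, cp, ep⟩ := hE _ hp 1 (Or.inl rfl)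
  obtain ⟨gm, lm, cm, em⟩ := hE _ hm (-1) (Or.inr rfl)
  have s1 : Ext r1 ⊆ Ext2 L r0 := Ext_subset_Ext2 (by linarith) hr1
  have s2 : Ext r1 ⊆ Ext2 L 1 := Ext_subset_Ext2 (by linarith) (by linarith)
  have s3 : Ext r1 ⊆ D L := Ext_subset_D (by linarith) (by linarith)
  have k1 : C * CE ≤ C * CE * CF := le_mul_of_one_le_right (by positivity) hCF
  have k2 : CE * CF ≤ C * CE * CF := by
    rw [mul_assoc]
    exact le_mul_of_one_le_left (by positivity) hC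
  have k3 : 0 < C * CE := by positivity
  have k4 : 0 < CE * CF := by positivity
  have hab := abs_le.1 hkκ
  obtain ⟨n1, n2, n3⟩ := p7_num hsq hsq0 hκ1 hk0.1 hδ1 hη hη1 hC3
  refine ⟨Ye L (κ - 2 * η) (1 * A), Ye L (κ + η) (-1 * A),
    ⟨gp, lp, cp.mono (isOpen_Ext _) s3, fun x hx => ?_⟩,
    ⟨gm, lm, cm.mono (isOpen_Ext _) s3, fun x hx => ?_⟩,
    fun x => ⟨Ye_pos _ _ _ _, Ye_pos _ _ _ _⟩,
    ⟨CE * (2 * (1 + L) ^ 2 * Real.exp ((κ + η) * L)), fun x hx => ?_⟩, fun x hx => ?_,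
    fun x hx hx1 => ?_, fun x hx => ?_⟩
  · have h1 := (ep x (s1 hx)).1
    have h3 := mul_le_mul_of_nonneg_right n1 (Ye_pos L (κ - 2 * η) (1 * A) x).le
    linarith
  · have h1 := (em x (s1 hx)).1
    have h3 := mul_le_mul_of_nonneg_right n2 (Ye_pos L (κ + η) (-1 * A) x).le
    linarith
  · have h1 := (em x (s1 hx)).2.1
    have h2 := (Ye_crude hL hm (s2 hx)).1
    have h3 : Real.exp (-(κ + η) * ‖x‖) ≤ Real.exp (-(4 / 5) * ‖x‖) :=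
      Real.exp_le_exp.2 (mul_le_mul_of_nonneg_right (by linarith) (norm_nonneg _))
    have h5 := h2.trans (mul_le_mul_of_nonneg_left h3 (by positivity))
    have h6 := mul_le_mul_of_nonneg_left h5 (show 0 ≤ CE by linarith)
    linarith
  · have hx' : r1 < ‖x‖ := hx
    exact p7_ex hL hl hl1 hI hp n3 (by linarith) (s2 hx) (Ye_pos _ _ _ _) (ep x (s1 hx)).2.2
      (hex _ hx'.le)
  · have hx' : r1 < ‖x‖ := hx
    obtain ⟨b1, b2⟩ := htwo x (s1 hx)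
    exact ⟨⟨by linarith, hε1.trans (s2 hx).1.le, hε1.trans (s2 hx).2.le⟩,
      p7_col hC hCE (by linarith) (Ye_pos _ _ _ _) (Ye_pos _ _ _ _)
        (p7_low hL hp (s2 hx) hx1.le) (p7_low hL hkg (s2 hx) hx1.le)
        (p7_par hL hkg hp (s2 hx) hx1.le (abs_le.2 ⟨by linarith, by linarith⟩) hsm)
        (p7_par hL hm hkg (s2 hx) hx1.le (abs_le.2 ⟨by linarith, by linarith⟩) hsm)
        (p7_TT hL hl hl1 hδ (by linarith) hI (x := x) (by linarith) hx1.le) b1 b2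
        (ep x (s1 hx)).2.2 (em x (s1 hx)).2.1 hε hT⟩
  · obtain ⟨hx, z0, z1⟩ := hx
    have hx' : x ∈ Ext r1 := hx
    have f1 := (hF _ hm x hx.le).1
    rw [← hRT] at f1
    have f3 : Real.exp (4 * L * |x 2| / ‖x‖) ≤ 3 := by
      refine (Real.exp_le_exp.2 ?_).trans Real.exp_one_lt_three.le
      rw [abs_of_pos z0, div_le_one (by linarith)]
      have := mul_le_mul_of_nonneg_left z1.le (show 0 ≤ 4 * L by linarith)
      linarith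
    obtain ⟨g1, g2⟩ := hB ‖x‖ (by linarith)
    exact p7_slab hCE hCF (by linarith) hη (by linarith) (Ye_pos _ _ _ _) (fb_pos _ _ _ _ _)
      (fb_pos _ _ _ _ _).le (p7_RS (by linarith) hl.le (norm_nonneg x)) (ep x (s1 hx')).2.1
      (em x (s1 hx')).2.2 f1 (hF _ hp x hx.le).2 f3 ((le_total ‖x‖ (1 / η)).imp g1 g2)

theorem p7_eta {ε : ℝ} (hε : 0 < ε) : ∀ᶠ lam in 𝓝[>] (0 : ℝ), 0 < eta lam ∧ eta lam ≤ ε := by
  have h1 : ContinuousAt eta 0 :=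
    Real.continuousAt_rpow_const 0 (1 / 16) (Or.inr (by norm_num))
  have h0 : eta 0 = 0 := by
    unfold eta
    exact Real.zero_rpow (by norm_num)
  have h2 : ∀ᶠ lam in 𝓝 (0 : ℝ), eta lam < ε := by
    have := h1.tendsto
    rw [h0] at this
    exact this.eventually (gt_mem_nhds hε)
  filter_upwards [self_mem_nhdsWithin, nhdsWithin_le_nhds h2] with lam hl hl2
  exact ⟨Real.rpow_pos_of_pos hl _, hl2.le⟩

theorem p7_sqrt {lam : ℝ} (hl : 0 < lam) : √lam = eta lam ^ 8 := by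
  unfold eta
  rw [← Real.rpow_natCast, ← Real.rpow_mul hl.le, Real.sqrt_eq_rpow]
  norm_num

theorem p7_small (a : ℝ) {b : ℝ} (hb : 0 < b) : ∀ᶠ t in 𝓝[>] (0 : ℝ), a * t ≤ b := by
  have h1 : Tendsto (fun t : ℝ => a * t) (𝓝 0) (𝓝 (a * 0)) := tendsto_id.const_mul a
  rw [mul_zero] at h1
  exact nhdsWithin_le_nhds (h1.eventually (ge_mem_nhds hb))

theorem p7_small' {a b : ℝ} (ha : 0 < a) (hb : 0 < b) :
    ∀ᶠ lam in 𝓝[>] (0 : ℝ), a * eta lam ≤ b := by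
  filter_upwards [p7_eta (div_pos hb ha)] with lam h
  have := (le_div_iff₀ ha).1 h.2
  linarith

theorem p7_far (a L : ℝ) (ha : 0 ≤ a) (hL : 1 ≤ L) : ∀ᶠ r1 : ℝ in atTop, ∀ r, r1 ≤ r →
    a * (r + L) * Real.exp (6 / 5 * L) * (1 + r) ^ 2 * Real.exp (-r / 40) ≤ 1 := by
  rw [eventually_forall_ge_atTop]
  have h1 := (Real.tendsto_pow_mul_exp_neg_atTop_nhds_zero 3).comp
    (tendsto_id.atTop_div_const (show (0 : ℝ) < 40 by norm_num))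
  have h2 := h1.const_mul (a * Real.exp (6 / 5 * L) * (8 * 40 ^ 3))
  rw [mul_zero] at h2
  filter_upwards [h2.eventually (ge_mem_nhds one_pos), eventually_ge_atTop L] with r h3 h4
  refine le_trans ?_ h3
  have h5 : (r + L) * (1 + r) ^ 2 ≤ 2 * r * (2 * r) ^ 2 :=
    mul_le_mul (by linarith) (pow_le_pow_left₀ (by linarith) (by linarith) 2) (by positivity)
      (by linarith)
  have h6 := mul_le_mul_of_nonneg_left h5
    (show 0 ≤ a * Real.exp (6 / 5 * L) * Real.exp (-r / 40) by positivity)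
  simp only [Function.comp, id]
  rw [← neg_div]
  linarith

theorem p7_kap {a b t : ℝ} (ha : |a - 1| ≤ 1 / 10) (hb : |b - 1| ≤ 1 / 10) (h : |a - b| ≤ t) :
    √a ∈ Icc (9 / 10 : ℝ) (11 / 10) ∧ √b ∈ Icc (9 / 10 : ℝ) (11 / 10) ∧ |√a - √b| ≤ t := by
  have k : ∀ c : ℝ, |c - 1| ≤ 1 / 10 → √c ∈ Icc (9 / 10 : ℝ) (11 / 10) := fun c hc =>
    ⟨Real.le_sqrt_of_sq_le (by linarith [(abs_le.1 hc).1]),
      Real.sqrt_le_iff.2 ⟨by norm_num, by linarith [(abs_le.1 hc).2]⟩⟩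
  refine ⟨k a ha, k b hb, le_trans ?_ h⟩
  have h1 := Real.sq_sqrt (show 0 ≤ a by linarith [(abs_le.1 ha).1])
  have h2 := Real.sq_sqrt (show 0 ≤ b by linarith [(abs_le.1 hb).1])
  have h3 : a - b = (√a - √b) * (√a + √b) := by linarith
  have h4 : 1 ≤ √a + √b := by linarith [(k a ha).1, (k b hb).1]
  rw [h3, abs_mul, abs_of_nonneg (show 0 ≤ √a + √b by linarith)]
  exact le_mul_of_one_le_right (abs_nonneg _) h4

theorem p7_hs {K C3 K1 η δ : ℝ} (hK : 1 ≤ K) (hC3 : 1 ≤ C3) (hK1 : 1 ≤ K1) (hη : 0 < η)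
    (h1 : 20 * K ^ 4 * η ≤ 1) (hδ1 : δ ≤ 1 / 50) (h2 : 10 ^ 6 * K ^ 4 * C3 * K1 * η ≤ δ) :
    η ≤ 1 / 20 ∧ 10 ^ 6 * K ^ 4 * C3 * K1 * η ^ 8 ≤ η * δ ∧ C3 * (η ^ 8) ^ 2 ≤ η / 2 ∧
      (η ^ 8) ^ 2 ≤ 1 / 20 := by
  have k4 : 1 ≤ K ^ 4 := one_le_pow₀ hK
  have a1 : η ≤ 1 / 20 := by nlinarith
  have a2 : η ^ 8 ≤ η ^ 2 := pow_le_pow_of_le_one hη.le (by linarith) (by norm_num)
  have a3 : (η ^ 8) ^ 2 ≤ η ^ 2 := by
    rw [← pow_mul]
    exact pow_le_pow_of_le_one hη.le (by linarith) (by norm_num)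
  have a4 : C3 * η ≤ K ^ 4 * C3 * K1 * η := by
    apply mul_le_mul_of_nonneg_right _ hη.le
    calc C3 = 1 * C3 * 1 := by ring
      _ ≤ K ^ 4 * C3 * K1 := by gcongr
  have a5 : C3 * η ≤ 1 / 2 := by linarith
  refine ⟨a1, ?_, ?_, by nlinarith⟩
  · have b1 := mul_le_mul_of_nonneg_left a2 (show 0 ≤ 10 ^ 6 * K ^ 4 * C3 * K1 by positivity)
    have b2 := mul_le_mul_of_nonneg_left h2 hη.le
    linarith
  · have b1 := mul_le_mul_of_nonneg_left a3 (show 0 ≤ C3 by linarith)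
    have b2 := mul_le_mul_of_nonneg_left a5 hη.le
    linarith

theorem par_main (h : T_B) : T_Par := by
  obtain ⟨⟨A, -, hBe⟩, -, ⟨CF, hCF, hBf⟩, -, hBc⟩ := h
  intro c0
  filter_upwards [hBe, eventually_ge_atTop (1 : ℝ)] with r0 hE hr0 C K0 hC
  obtain ⟨CE, hCE, hE⟩ := hE
  refine ⟨max K0 (300 * (C * CE * CF)), le_max_left _ _, ?_⟩
  have hK := le_max_right K0 (300 * (C * CE * CF))
  generalize max K0 (300 * (C * CE * CF)) = K at hK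
  have hK' : 1 ≤ K := by
    have : 1 ≤ C * CE * CF := one_le_mul_of_one_le_of_one_le
      (one_le_mul_of_one_le_of_one_le hC hCE) hCF
    linarith
  filter_upwards [p7_small 1 (show (0 : ℝ) < 1 / 100 by norm_num)] with ω hω
  filter_upwards [hE, eventually_ge_atTop (1 : ℝ)] with L hE hL ob hob C3 K1 hC3 hK1
  have sg := abs_le.1 hob.sg
  have su := abs_le.1 hob.su
  have hd : ob.del = ob.eu - ob.eg := rfl
  have hδ : 0 < ob.del := sub_pos.2 ob.lt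
  have hδ1 : ob.del ≤ 1 / 50 := by linarith
  filter_upwards [hBf L hL, eventually_ge_atTop (L + r0), eventually_ge_atTop (4 * L),
    eventually_ge_atTop (2000 * K ^ 3 * C3 * L / ob.del), p7_far CE L (by linarith) hL]
    with r1 hF hr1 h4 hr hex
  have e0 : 0 < Real.exp (-(6 / 5) * (r1 + 1 + L)) / (r1 + 1 + L) :=
    div_pos (Real.exp_pos _) (by linarith)
  filter_upwards [p7_small 1 one_pos, p7_small (2 * C * CE) e0] with ε hε1 hε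
  filter_upwards [self_mem_nhdsWithin, p7_eta one_pos, hBc L hL ob.del hδ (by linarith),
    p7_small' (show 0 < 20 * K ^ 4 by positivity) one_pos,
    p7_small' (show 0 < 10 ^ 6 * K ^ 4 * C3 * K1 by positivity) hδ,
    p7_small' (show 0 < 15 * (r1 + 1 + L) by linarith) (show (0 : ℝ) < 1 / 2 by norm_num),
    p7_small (CE * (L ^ 2 * Real.cosh (r1 + 1) * (1 + (r1 + 1)) ^ 2 / ob.del ^ 2)) e0]
    with lam hl hη hB s1 s2 s3 s4 I hI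
  have hl : 0 < lam := hl
  obtain ⟨t1, t2, t3, t4⟩ := p7_hs hK' hC3 hK1 hη.1 s1 hδ1 s2
  rw [← p7_sqrt hl] at t2 t3 t4
  rw [Real.sq_sqrt hl.le] at t3 t4
  have hI' := abs_le.1 hI
  have hI2 : I ∈ Icc (2 / 5 : ℝ) (3 / 5) := ⟨by linarith, by linarith⟩
  obtain ⟨q1, q2, q3⟩ := p7_kap (a := -2 * ob.eg) (b := 2 * (I + ob.del)) (t := eta lam)
    (abs_le.2 ⟨by linarith, by linarith⟩) (abs_le.2 ⟨by linarith, by linarith⟩)
    (abs_le.2 ⟨by linarith, by linarith⟩)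
  refine ⟨⟨hL, hδ, hδ1, Real.sqrt_pos.2 hl, Real.sq_sqrt hl.le, s1, hI2, hC3, hK1, hK', ?_, t2⟩,
    p7_det (A := A) (r0 := r0) hL hr0 hr1 h4 hC hCE hCF hK hδ hδ1 hl t4 hη.1 t1 t3 hI2 q2
      ⟨by linarith [q1.1], by linarith [q1.2]⟩ q3 (fun k hk s hs => ?_)
      (fun k hk x hx => (hF k hk 1 ⟨by norm_num, le_rfl⟩ x hx).2) (hB I hI2) hob.two hex
      (by linarith) (by linarith) hε (by linarith)⟩
  · rw [div_le_iff₀ hδ] at hr
    linarith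
  · obtain ⟨gY, l, c, hc⟩ := hE k hk s hs
    refine ⟨gY, l, c, fun x hx => ⟨le_trans ?_ (hc x hx).1, (hc x hx).2.1, (hc x hx).2.2.1⟩⟩
    have := Ye_pos L k (s * A) x
    positivity

end MFb

end Vale.Agent.P363
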