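import Vale.Agent.P363.MFb4
import Vale.Agent.P363.MFb6
import Vale.Agent.P363.MFb7

/-! P363, block MF, second half. -/

open MeasureTheory Set Metric Filter Topology
open scoped RealInnerProductSpace

namespace Vale.Agent.P363

namespace MFb

theorem symm4 {L lam I r1 C4 K : ℝ} {d : E3 → ℝ} (hL : 0 ≤ L) (h1 : 1 ≤ C4) (hK : C4 ≤ K)
    (hs : ∀ᵐ x : E3, d (sg x) = -d x)
    (h : ∀ᵐ x : E3, x ∈ Ext r1 → 0 < x 2 → x 2 * bb L lam I ‖x‖ ≤ C4 * d x ∧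
      d x ≤ C4 * (x 2 * bb L lam I ‖x‖ * Real.exp (4 * L * x 2 / ‖x‖))) :
    ∀ᵐ x : E3, x ∈ Ext r1 → x 2 ^ 2 * bb L lam I ‖x‖ ≤ K * (x 2 * d x) ∧
      |d x| ≤ K * (|x 2| * bb L lam I ‖x‖ * Real.exp (4 * L * |x 2| / ‖x‖)) := by
  have key : ∀ z u b E : ℝ, 0 < z → 0 ≤ b → 0 < E → z * b ≤ C4 * u → u ≤ C4 * (z * b * E) →
      z ^ 2 * b ≤ K * (z * u) ∧ |u| ≤ K * (z * b * E) := fun z u b E z0 b0 E0 a1 a2 => by
    have u0 : 0 ≤ u := by
      by_contra hc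
      nlinarith [mul_nonneg z0.le b0, not_le.1 hc]
    have a3 := mul_le_mul_of_nonneg_left (a1.trans (mul_le_mul_of_nonneg_right hK u0)) z0.le
    rw [abs_of_nonneg u0]
    exact ⟨by linarith, a2.trans (mul_le_mul_of_nonneg_right hK (by positivity))⟩
  filter_upwards [h, ae_sg h, hs, ae_plane] with x a b c hz hx
  have b0 : 0 ≤ bb L lam I ‖x‖ := by
    have := fbar_pos L lam I ‖x‖
    rw [bb_eq]
    positivity
  rcases hz.lt_or_gt with hz | hz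
  · have hx' : sg x ∈ Ext r1 := by
      show r1 < ‖sg x‖
      rwa [norm_sg]
    rw [sg_2, norm_sg, c] at b
    obtain ⟨b1, b2⟩ := b hx' (neg_pos.2 hz)
    have := key _ _ _ _ (neg_pos.2 hz) b0 (Real.exp_pos _) b1 b2
    rwa [abs_of_neg hz, ← abs_neg (d x), ← neg_sq, ← neg_mul_neg (x 2)]
  · rw [abs_of_pos hz]
    exact key _ _ _ _ hz b0 (Real.exp_pos _) (a hx hz).1 (a hx hz).2

end MFb

open MFb in
theorem mfb_main (h : T_B) : T_MFb := by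
  intro c0 _ _
  filter_upwards [par_main h c0] with r0 h1 C C2 C4 hC h2 h4
  obtain ⟨K, hK, h1⟩ := h1 C (max C2 C4) hC
  have k2 : C2 ≤ K := (le_max_left _ _).trans hK
  have k4 : C4 ≤ K := (le_max_right _ _).trans hK
  refine ⟨10 ^ 6 * K ^ 6, by linarith [one_le_pow₀ (n := 6) (h2.trans k2)], ?_⟩
  filter_upwards [h1] with ω h1
  filter_upwards [h1] with L h1 ob hob C3 K1 h3 hk1
  filter_upwards [h1 ob hob C3 K1 h3 hk1] with r1 h1
  filter_upwards [h1] with ε h1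
  filter_upwards [h1] with lam h1 Cq I N gN vb f1 f4
  obtain ⟨n, Yp, Ym, p⟩ := h1 I vb.hI
  have y : Hy vb K1 K :=
    ⟨⟨h2, k2⟩, f1, symm4 (by linarith [n.hL]) h4 k4 (vb.sym.mono fun _ h => h.1) f4⟩
  exact slab n p (Fb n p) (Fa n p y) (Fc n p y) (F7 n p) (F8 n p y)

end Vale.Agent.P363
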