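import Vale.Agent.P363.MFbE

/-! P363, block MF, second half: elementary facts and capacities. -/

open MeasureTheory Set Metric Filter Topology
open scoped RealInnerProductSpace

namespace Vale.Agent.P363

namespace MFb

variable {L δ lam θ η r1 I C3 K1 K : ℝ}

theorem fbar_pos (L lam I r : ℝ) : 0 < fbar L lam I r := fb_pos _ _ _ _ _

theorem fr_pos (L lam I : ℝ) (n : ℕ) {r : ℝ} (hr : 0 < r) : 0 < fr L lam I n r :=
  div_pos (fbar_pos _ _ _ _) (pow_pos hr n)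

theorem fr_nonneg (L lam I : ℝ) (n : ℕ) {r : ℝ} (hr : 0 ≤ r) : 0 ≤ fr L lam I n r :=
  div_nonneg (fbar_pos _ _ _ _).le (pow_nonneg hr n)

theorem bb_eq (L lam I r : ℝ) : bb L lam I r = L * fbar L lam I r / r := by
  unfold bb fbar
  ring

theorem RS_eq (L lam I δ r : ℝ) : RS L lam I δ r = lam * L ^ 2 / δ ^ 2 * fr L lam I 4 r := by
  rw [RS, bb_eq, fr]
  ring

theorem one_le_ch (δ : ℝ) (x : E3) : 1 ≤ ch δ x := Real.one_le_cosh _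

theorem sh_nonneg (δ : ℝ) {x : E3} (h : 0 ≤ x 2) : 0 ≤ sh δ x :=
  div_nonneg (Real.sinh_nonneg_iff.2 (mul_nonneg (Real.sqrt_nonneg _) h)) (Real.sqrt_nonneg _)

theorem exp_le_cosh (u : ℝ) : Real.exp |u| ≤ 2 * Real.cosh u := by
  rw [← Real.cosh_abs, Real.cosh_eq]
  linarith [Real.exp_pos (-|u|)]

theorem sq_le_cosh (u : ℝ) : u ^ 2 ≤ 2 * Real.cosh u := by
  have h1 := Real.quadratic_le_exp_of_nonneg (abs_nonneg u)
  have h2 := Real.add_one_le_exp (-|u|)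
  rw [← Real.cosh_abs, Real.cosh_eq, ← sq_abs]
  have h3 := Real.sum_le_exp_of_nonneg (abs_nonneg u) 4
  simp only [Finset.sum_range_succ, Finset.range_zero, Finset.sum_empty, Nat.factorial] at h3
  norm_num at h3
  rw [← sq_abs] at h3
  nlinarith [Real.exp_pos (-|u|), abs_nonneg u, mul_nonneg (abs_nonneg u) (sq_nonneg (|u| - 3 / 2))]

theorem dz_le (hδ : 0 ≤ δ) (x : E3) : δ * x 2 ^ 2 ≤ 2 * ch δ x := by
  have h := sq_le_cosh (√δ * x 2)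
  rwa [mul_pow, Real.sq_sqrt hδ] at h

theorem abs_hq (hδ : 0 ≤ δ) (x : E3) : |hq δ x| ≤ 3 * ch δ x := by
  have h1 := dz_le hδ x
  have h2 := one_le_ch δ x
  have h3 : 0 ≤ δ * x 2 ^ 2 := by positivity
  rw [hq, abs_le]
  constructor <;> linarith

namespace Num

variable (n : Num L δ lam θ η r1 I C3 K1 K)
include n

theorem lam0 : 0 < lam := n.sq ▸ pow_pos n.hθ 2

theorem η0 : 0 < η := by
  have h1 := n.hs
  have h2 : 0 < 10 ^ 6 * K ^ 4 * C3 * K1 * θ := by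
    have := n.hK; have := n.hC3; have := n.hK1; have := n.hθ
    positivity
  by_contra hc
  nlinarith [n.hδ, not_lt.1 hc]

theorem K4 : 1 ≤ K ^ 4 := one_le_pow₀ n.hK

theorem η1 : η ≤ 1 / 20 := by nlinarith [n.hη, n.K4, n.η0]

/-- The master smallness bound, in a form without products of large constants. -/
theorem sm {a : ℝ} (ha : a ≤ 10 ^ 6 * K ^ 4 * C3 * K1) : a * θ ≤ η * δ :=
  (mul_le_mul_of_nonneg_right ha n.hθ.le).trans n.hs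

theorem ηδ : η * δ ≤ δ / 20 := by nlinarith [n.η1, n.hδ]

theorem ηδ' : η * δ ≤ η / 50 := by nlinarith [n.η0, n.hδ1]

theorem le_big {a b c : ℝ} (ha : a ≤ K ^ 4) (hb : b ≤ C3) (hc : c ≤ K1) (b0 : 0 ≤ b)
    (c0 : 0 ≤ c) : 10 ^ 6 * (a * b * c) * θ ≤ η * δ := by
  refine n.sm ?_
  have h1 : a * b * c ≤ K ^ 4 * C3 * K1 :=
    mul_le_mul (mul_le_mul ha hb b0 (by linarith [n.K4])) hc c0
      (mul_nonneg (by linarith [n.K4]) (by linarith [n.hC3]))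
  linarith

theorem θ1 : θ ≤ 1 / 10 ^ 6 := by
  have h := n.le_big n.K4 n.hC3 n.hK1 zero_le_one zero_le_one
  linarith [n.ηδ, n.hδ1]

theorem lamθ : lam ≤ θ := by
  rw [← n.sq]
  nlinarith [n.θ1, n.hθ]

theorem C3θ : 10 ^ 6 * (C3 * θ) ≤ η * δ := by
  have h := n.le_big n.K4 le_rfl n.hK1 (by linarith [n.hC3]) zero_le_one
  linarith

theorem C3lam : 10 ^ 6 * (C3 * lam) ≤ η * δ := by
  have := mul_le_mul_of_nonneg_left n.lamθ (by linarith [n.hC3] : 0 ≤ C3)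
  linarith [n.C3θ]

theorem C3lam0 : 0 < C3 * lam := mul_pos (by linarith [n.hC3]) n.lam0

theorem rbig : 2000 * L ≤ δ * r1 ∧ 2000 * (K ^ 3 * C3) ≤ δ * r1 := by
  have h1 : 1 ≤ K ^ 3 := one_le_pow₀ n.hK
  have h2 : 1 ≤ K ^ 3 * C3 := one_le_mul_of_one_le_of_one_le h1 n.hC3
  have h3 := n.hr
  constructor <;> nlinarith [n.hL]

theorem r0 : 0 < r1 := by
  by_contra h
  nlinarith [n.rbig.1, n.hL, n.hδ, not_lt.1 h]

theorem rL : 100000 * L ≤ r1 := by nlinarith [n.rbig.1, n.hδ1, n.r0]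

theorem rK : 100000 * (K ^ 3 * C3) ≤ r1 := by nlinarith [n.rbig.2, n.hδ1, n.r0]

theorem rC3 : C3 ≤ r1 := by
  have h1 : 1 ≤ K ^ 3 := one_le_pow₀ n.hK
  nlinarith [n.rK, n.hC3]

theorem extD : Ext r1 ⊆ D L :=
  Ext_subset_D (by linarith [n.hL]) (by linarith [n.rL, n.hL])

theorem nrm1 {x : E3} (hx : x ∈ Ext r1) : 100000 ≤ ‖x‖ := by
  have h : r1 < ‖x‖ := hx
  linarith [n.rL, n.hL]

theorem nrm0 {x : E3} (hx : x ∈ Ext r1) : 0 < ‖x‖ := by linarith [n.nrm1 hx]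

theorem inv_le {x : E3} (hx : x ∈ Ext r1) : 2000 / ‖x‖ ≤ δ := by
  have h : r1 < ‖x‖ := hx
  rw [div_le_iff₀ (n.nrm0 hx)]
  nlinarith [n.rbig.1, n.hL, n.hδ]

theorem k_mem : √(2 * I) ∈ Icc (4 / 5 : ℝ) (6 / 5) :=
  ⟨Real.le_sqrt_of_sq_le (by linarith [n.hI.1]),
    Real.sqrt_le_iff.2 ⟨by norm_num, by linarith [n.hI.2]⟩⟩

theorem c_mem : 1 - 2 * lam ∈ Icc (9 / 10 : ℝ) 1 :=
  ⟨by linarith [n.lamθ, n.θ1], by linarith [n.lam0]⟩

theorem absV {x : E3} (hx : x ∈ Ext r1) : |V L x| ≤ 4 / ‖x‖ := by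
  have h : r1 < ‖x‖ := hx
  have h0 := n.nrm0 hx
  obtain ⟨a, b⟩ := abs_rA_sub (by linarith [n.hL] : 0 ≤ L) x
  have hA : ‖x‖ / 2 ≤ rA L x := by linarith [(abs_le.1 a).1, n.rL, n.hL]
  have hB : ‖x‖ / 2 ≤ rB L x := by linarith [(abs_le.1 b).1, n.rL, n.hL]
  have iA := inv_anti₀ (half_pos h0) hA
  have iB := inv_anti₀ (half_pos h0) hB
  have e : (‖x‖ / 2)⁻¹ = 2 / ‖x‖ := by rw [inv_div]
  have pA := inv_pos.2 ((half_pos h0).trans_le hA)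
  have pB := inv_pos.2 ((half_pos h0).trans_le hB)
  have e4 : 4 / ‖x‖ = 2 / ‖x‖ + 2 / ‖x‖ := by ring
  rw [V, abs_neg, abs_of_pos (by linarith)]
  linarith

/-- The potential is bounded below far away. -/
theorem Wlow {x : E3} (hx : x ∈ Ext r1) : 1 / 5 ≤ V L x + I + δ - C3 * lam := by
  have h1 := (abs_le.1 (n.absV hx)).1
  have h2 := n.inv_le hx
  have e : 2000 / ‖x‖ = 500 * (4 / ‖x‖) := by ring
  linarith [n.hI.1, n.C3lam, n.ηδ, n.hδ, n.hδ1]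

theorem RS_pos {x : E3} (hx : x ∈ Ext r1) : 0 < RS L lam I δ ‖x‖ := by
  rw [RS_eq]
  have := fr_pos L lam I 4 (n.nrm0 hx)
  have := n.lam0; have := n.hδ; have := n.hL
  positivity

theorem RS_nonneg (x : E3) : 0 ≤ RS L lam I δ ‖x‖ := by
  rw [RS_eq]
  have := fr_nonneg L lam I 4 (norm_nonneg x)
  have := n.lam0
  positivity

theorem TT_nonneg (x : E3) : 0 ≤ TT L lam I δ x :=
  mul_nonneg (by linarith [one_le_ch δ x]) (n.RS_nonneg x)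

theorem sqδ : δ ≤ √δ ∧ √δ ≤ 1 / 5 :=
  ⟨Real.le_sqrt_of_sq_le (by nlinarith [n.hδ, n.hδ1]),
    Real.sqrt_le_iff.2 ⟨by norm_num, by linarith [n.hδ1]⟩⟩

theorem expo {x : E3} (hx : x ∈ Ext r1) : 4 * L * |x 2| / ‖x‖ ≤ |√δ * x 2| / 2 := by
  have h : r1 < ‖x‖ := hx
  rw [abs_mul, abs_of_nonneg (Real.sqrt_nonneg δ), div_le_iff₀ (n.nrm0 hx)]
  have h1 : 8 * L ≤ √δ * ‖x‖ := by
    nlinarith [n.rbig.1, n.sqδ.1, n.hδ, n.hL, n.nrm0 hx]
  nlinarith [abs_nonneg (x 2)]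

theorem zsq {x : E3} (hx : x ∈ Ext r1) :
    δ * (x 2 ^ 2 * Real.exp (4 * L * |x 2| / ‖x‖)) ≤ 16 * ch δ x := by
  obtain ⟨u, hu⟩ : ∃ u, u = |√δ * x 2| := ⟨_, rfl⟩
  have u0 : 0 ≤ u := hu ▸ abs_nonneg _
  have h1 : Real.exp (4 * L * |x 2| / ‖x‖) ≤ Real.exp (u / 2) :=
    Real.exp_le_exp.2 (hu ▸ n.expo hx)
  have h2 : δ * x 2 ^ 2 = u ^ 2 := by rw [hu, sq_abs, mul_pow, Real.sq_sqrt n.hδ.le]
  have h3 := Real.quadratic_le_exp_of_nonneg (by linarith : 0 ≤ u / 2)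
  have h4 : Real.exp u ≤ 2 * ch δ x := hu ▸ exp_le_cosh _
  have h5 : Real.exp (u / 2) * Real.exp (u / 2) = Real.exp u := by rw [← Real.exp_add, add_halves]
  rw [← mul_assoc, h2]
  have h6 : u ^ 2 ≤ 8 * Real.exp (u / 2) := by nlinarith
  calc u ^ 2 * Real.exp (4 * L * |x 2| / ‖x‖) ≤ 8 * Real.exp (u / 2) * Real.exp (u / 2) :=
        mul_le_mul h6 h1 (Real.exp_pos _).le (by positivity)
    _ ≤ 16 * ch δ x := by rw [mul_assoc, h5]; linarith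

theorem zsh {x : E3} (hx : x ∈ Ext r1) (hz : 0 ≤ x 2) :
    |x 2| * Real.exp (4 * L * |x 2| / ‖x‖) ≤ 2 * sh δ x := by
  have s0 : 0 < √δ := Real.sqrt_pos.2 n.hδ
  obtain ⟨u, hu⟩ : ∃ u, u = √δ * x 2 := ⟨_, rfl⟩
  have u0 : 0 ≤ u := hu ▸ mul_nonneg s0.le hz
  have h1 : Real.exp (4 * L * |x 2| / ‖x‖) ≤ Real.exp (u / 2) := by
    have := n.expo hx
    rw [← hu, abs_of_nonneg u0] at this
    exact Real.exp_le_exp.2 this
  have h2 : Real.exp (u / 2) ≤ 2 * Real.cosh (u / 2) := by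
    have := exp_le_cosh (u / 2)
    rwa [abs_of_nonneg (by linarith)] at this
  have h3 : u / 2 ≤ Real.sinh (u / 2) := Real.self_le_sinh_iff.2 (by linarith)
  have h4 : Real.sinh u = 2 * Real.sinh (u / 2) * Real.cosh (u / 2) := by
    rw [← Real.sinh_two_mul]
    congr 1
    ring
  have h5 : u * Real.exp (4 * L * |x 2| / ‖x‖) ≤ 2 * Real.sinh u := by
    have := mul_le_mul (show u ≤ 2 * Real.sinh (u / 2) by linarith) (h1.trans h2)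
      (Real.exp_pos _).le (by linarith)
    rw [h4]
    linarith
  rw [sh, ← hu, ← mul_div_assoc, le_div_iff₀ s0, abs_of_nonneg hz]
  rw [abs_of_nonneg hz] at h5
  calc _ = u * Real.exp (4 * L * x 2 / ‖x‖) := by rw [hu]; ring
    _ ≤ _ := h5

theorem zab (x : E3) : δ * |x 2| ≤ ch δ x := by
  have h1 := sq_le_cosh (√δ * x 2)
  have h2 := Real.one_le_cosh (√δ * x 2)
  have h3 : δ * |x 2| ≤ |√δ * x 2| := by
    rw [abs_mul, abs_of_nonneg (Real.sqrt_nonneg δ)]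
    exact mul_le_mul_of_nonneg_right n.sqδ.1 (abs_nonneg _)
  have h4 := exp_le_cosh (√δ * x 2)
  have h5 := Real.quadratic_le_exp_of_nonneg (abs_nonneg (√δ * x 2))
  unfold ch
  nlinarith [sq_nonneg (|√δ * x 2| - 1)]

theorem TT_dec {x : E3} (hx : x ∈ Ext r1) :
    TT L lam I δ x ≤ lam * L ^ 2 / δ ^ 2 * (1 + ‖x‖) ^ 2 * Real.exp (-(2 / 5) * ‖x‖) := by
  have h1 := n.nrm1 hx
  have h2 : fr L lam I 4 ‖x‖ ≤ (1 + ‖x‖) ^ 2 * Real.exp (-(4 / 5) * ‖x‖) := by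
    refine (div_le_self (fbar_pos _ _ _ _).le (one_le_pow₀ (by linarith))).trans
      ((fb_crude n.hL n.k_mem n.c_mem (by linarith)).2.trans ?_)
    gcongr
    exact n.k_mem.1
  have h3 : ch δ x ≤ Real.exp (2 / 5 * ‖x‖) := by
    have h4 : |√δ * x 2| ≤ 2 / 5 * ‖x‖ := by
      rw [abs_mul, abs_of_nonneg (Real.sqrt_nonneg δ)]
      exact mul_le_mul (by linarith [n.sqδ.2]) (abs_coord_le x 2) (abs_nonneg _) (by norm_num)
    rw [ch, ← Real.cosh_abs, Real.cosh_eq]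
    have h5 := Real.exp_le_exp.2 h4
    have h6 := Real.exp_le_exp.2 ((neg_abs_le _).trans (le_abs_self _) |>.trans h4 :
      -|√δ * x 2| ≤ _)
    linarith
  have h7 : 0 ≤ lam * L ^ 2 / δ ^ 2 := by have := n.lam0; positivity
  have e : Real.exp (-(2 / 5) * ‖x‖) = Real.exp (2 / 5 * ‖x‖) * Real.exp (-(4 / 5) * ‖x‖) := by
    rw [← Real.exp_add]
    congr 1
    ring
  rw [TT, RS_eq, e]
  have h8 := mul_le_mul h3 h2 (fr_nonneg L lam I 4 (norm_nonneg x)) (Real.exp_pos _).le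
  have h9 := mul_le_mul_of_nonneg_left h8 h7
  linarith

/-- Products of a function of the height and the radial profile. -/
theorem zr {m : ℕ} (hm : m ≤ 4) {h h1 h2 : ℝ → ℝ}
    (hh : ∀ s, HasDerivAt h (h1 s) s ∧ HasDerivAt h1 (h2 s) s) (hc : Continuous h2) :
    ∃ g l, C2 (Ext r1) (fun x => h (x 2) * fr L lam I m ‖x‖) g l ∧ ∀ x ∈ Ext r1, ∃ p e : ℝ,
      0 ≤ p ∧ p ≤ 2 ∧ |e| ≤ 16 / ‖x‖ ∧
      -l x / 2 + (V L x + I) * (h (x 2) * fr L lam I m ‖x‖) =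
        fr L lam I m ‖x‖ * (-h2 (x 2) / 2 + p * (h1 (x 2) * x 2) / ‖x‖ + e * h (x 2)) := by
  have hL : 0 < L := by linarith [n.hL]
  obtain ⟨k, hk⟩ : ∃ k, k = √(2 * I) := ⟨_, rfl⟩
  have km : k ∈ Icc (4 / 5 : ℝ) (6 / 5) := hk ▸ n.k_mem
  have k2 : k ^ 2 = 2 * I := by rw [hk, Real.sq_sqrt (by linarith [n.hI.1])]
  have e1 : ∀ s, 0 < s →
      Real.exp (ph L k (1 - 2 * lam) 0 s - m * Real.log s) = fr L lam I m s := fun s hs => by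
    rw [Real.exp_sub, ← Real.log_pow, Real.exp_log (pow_pos hs m), fr, fbar, fb, hk]
  have hz := C2.zrad (a := r1) (ψ := fun s => ph L k (1 - 2 * lam) 0 s - m * Real.log s)
    (ψ1 := fun s => ph1 L k (1 - 2 * lam) 0 s - m * s⁻¹)
    (ψ2 := fun s => ph2 L k (1 - 2 * lam) 0 s - m * (-(s ^ 2)⁻¹)) n.r0.le hh hc
    (fun s hs => ⟨(hasDerivAt_ph k _ 0 hL (n.r0.trans hs)).1.fun_sub
        ((Real.hasDerivAt_log (n.r0.trans hs).ne').const_mul _),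
      (hasDerivAt_ph k _ 0 hL (n.r0.trans hs)).2.fun_sub
        ((hasDerivAt_inv (n.r0.trans hs).ne').const_mul _)⟩)
    (((continuousOn_ph2 k _ 0 hL).mono (Ioi_subset_Ioi n.r0.le)).sub
      (continuousOn_const.mul (((continuousOn_id.pow 2).inv₀ fun s hs =>
        pow_ne_zero 2 (n.r0.trans hs).ne').neg)))
  refine ⟨_, _, hz.congr (fun x hx => by rw [e1 _ (n.nrm0 hx)]) (fun _ _ => rfl) (fun _ _ => rfl),
    fun x hx => ?_⟩
  have h0 := n.nrm0 hx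
  have h1' := n.nrm1 hx
  obtain ⟨b1, b2⟩ := ph1_bound (c := 1 - 2 * lam) hL km n.c_mem h0
  have bV := n.absV hx
  rw [e1 _ h0]
  obtain ⟨t, ht⟩ : ∃ t, t = ‖x‖⁻¹ := ⟨_, rfl⟩
  have t0 : 0 < t := ht ▸ inv_pos.2 h0
  have t1 : t ≤ 1 / 100000 := by
    rw [ht, one_div]
    exact inv_anti₀ (by norm_num) h1'
  have m4 : (m : ℝ) ≤ 4 := by exact_mod_cast hm
  have m0 : (0 : ℝ) ≤ m := Nat.cast_nonneg m
  obtain ⟨u, hu⟩ : ∃ u, u = ph1 L k (1 - 2 * lam) 0 ‖x‖ - m * ‖x‖⁻¹ + k := ⟨_, rfl⟩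
  obtain ⟨v, hv⟩ : ∃ v, v = ph2 L k (1 - 2 * lam) 0 ‖x‖ - m * (-(‖x‖ ^ 2)⁻¹) := ⟨_, rfl⟩
  have eu : ph1 L k (1 - 2 * lam) 0 ‖x‖ - m * ‖x‖⁻¹ = u - k := by rw [hu]; ring
  simp only [div_eq_mul_inv, ← inv_pow, ← ht] at b1 b2 bV hu hv
  have mt : (m : ℝ) * t ≤ 4 * t := mul_le_mul_of_nonneg_right m4 t0.le
  have mt0 : 0 ≤ (m : ℝ) * t := mul_nonneg m0 t0.le
  have mt2 : (m : ℝ) * t ^ 2 ≤ 4 * t ^ 2 := mul_le_mul_of_nonneg_right m4 (sq_nonneg t)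
  have mt20 : 0 ≤ (m : ℝ) * t ^ 2 := mul_nonneg m0 (sq_nonneg t)
  have bu : -(6 * t) ≤ u ∧ u ≤ 6 * t := by
    rw [hu]
    constructor <;> linarith [(abs_le.1 b1).1, (abs_le.1 b1).2]
  have t2 : t ^ 2 ≤ t / 100000 := by nlinarith
  have bv : -t ≤ v ∧ v ≤ t := by
    rw [hv]
    constructor <;> linarith [(abs_le.1 b2).1, (abs_le.1 b2).2]
  have u2 : u ^ 2 ≤ t := by nlinarith [bu.1, bu.2]
  have ku : |k * u| ≤ 8 * t := by
    rw [abs_mul, abs_of_pos (by linarith [km.1] : 0 < k)]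
    exact (mul_le_mul km.2 (abs_le.2 bu) (abs_nonneg _) (by norm_num)).trans (by linarith)
  have pk : 0 ≤ k - u ∧ k - u ≤ 2 := ⟨by linarith [km.1, bu.2], by linarith [km.2, bu.1]⟩
  have pt : 0 ≤ (k - u) * t ∧ (k - u) * t ≤ 2 * t :=
    ⟨mul_nonneg pk.1 t0.le, mul_le_mul_of_nonneg_right pk.2 t0.le⟩
  refine ⟨k - u, V L x - v / 2 - u ^ 2 / 2 + k * u + (k - u) * t, pk.1, pk.2, ?_, ?_⟩
  · rw [div_eq_mul_inv 16, ← ht, abs_le]
    constructor <;>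
      linarith [(abs_le.1 ku).1, (abs_le.1 ku).2, (abs_le.1 bV).1, (abs_le.1 bV).2, bv.1, bv.2,
        pt.1, pt.2, sq_nonneg u]
  · have hI : I = k ^ 2 / 2 := by linarith
    have ev : ph2 L k (1 - 2 * lam) 0 ‖x‖ - m * (-(‖x‖ ^ 2)⁻¹) = v := by
      rw [hv, ht, inv_pow]
    rw [eu, ev]
    simp only [div_eq_mul_inv, ← ht]
    generalize fr L lam I m ‖x‖ = F
    rw [hI]
    ring

end Num

end MFb

end Vale.Agent.P363
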