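import Vale.Agent.P363.MFb1

/-! P363, block MF, second half: capacities and comparison steps. -/

open MeasureTheory Set Metric Filter Topology
open scoped RealInnerProductSpace

namespace Vale.Agent.P363

namespace MFb

/-- `B` is a supersolution with capacity `c` where `P` holds. -/
def Cap (L r1 I d : ℝ) (P : E3 → Prop) (B c : E3 → ℝ) : Prop :=
  ∃ g l, C2 (Ext r1) B g l ∧ ∀ x ∈ Ext r1, P x → c x ≤ -l x / 2 + (V L x + I + d) * B x

variable {L δ lam θ η r1 I C3 K1 K d : ℝ} {P Q : E3 → Prop} {B B' c c' : E3 → ℝ}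

theorem Cap.add (h : Cap L r1 I d P B c) (h' : Cap L r1 I d P B' c') :
    Cap L r1 I d P (fun x => B x + B' x) (fun x => c x + c' x) := by
  obtain ⟨g, l, a, b⟩ := h
  obtain ⟨g', l', a', b'⟩ := h'
  exact ⟨_, _, a.add a', fun x hx hp => by linarith [b x hx hp, b' x hx hp]⟩

theorem Cap.cmul {a : ℝ} (ha : 0 ≤ a) (h : Cap L r1 I d P B c) :
    Cap L r1 I d P (fun x => a * B x) (fun x => a * c x) := by
  obtain ⟨g, l, h1, h2⟩ := h
  exact ⟨_, _, h1.cmul a, fun x hx hp => by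
    linarith [mul_le_mul_of_nonneg_left (h2 x hx hp) ha]⟩

theorem Cap.mono (h : Cap L r1 I d P B c) (hQ : ∀ x, Q x → P x) : Cap L r1 I d Q B c := by
  obtain ⟨g, l, h1, h2⟩ := h
  exact ⟨g, l, h1, fun x hx hq => h2 x hx (hQ x hq)⟩

theorem Cap.congr (h : Cap L r1 I d P B c) (h1 : ∀ x, B' x = B x) (h2 : ∀ x, c' x = c x) :
    Cap L r1 I d P B' c' := by
  rwa [funext h1, funext h2]

theorem l2pos {w G : E3 → ℝ} {U A : Set E3} (hA : MeasurableSet A) (hAU : A ⊆ U)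
    (hw : AEStronglyMeasurable w (volume.restrict U)) (hB : ContinuousOn B U)
    (hG : MemLp G 2 (volume.restrict A)) (h : ∀ᵐ x : E3, x ∈ A → 0 ≤ G x ∧ w x - B x ≤ G x) :
    MemLp (fun x => max (w x - B x) 0) 2 (volume.restrict A) := by
  have h1 := (hw.mono_measure (Measure.restrict_mono hAU le_rfl)).sub
    ((hB.mono hAU).aestronglyMeasurable hA)
  refine hG.mono' ((continuous_id.max continuous_const).comp_aestronglyMeasurable h1) ?_
  rw [ae_restrict_iff' hA]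
  filter_upwards [h] with x h hx
  rw [Real.norm_eq_abs, abs_of_nonneg (le_max_right _ _)]
  exact max_le (h hx).2 (h hx).1

theorem closedA (ρ : ℝ) : IsClosed {x : E3 | ρ ≤ ‖x‖} := isClosed_le continuous_const continuous_norm

theorem subA (ρ : ℝ) : {x : E3 | ρ + 1 ≤ ‖x‖} ⊆ Ext ρ := fun _ hx =>
  (lt_add_one ρ).trans_le hx

theorem der_ch (a s : ℝ) :
    HasDerivAt (fun s => Real.cosh (a * s)) (a * Real.sinh (a * s)) s := by
  simpa [mul_comm] using ((hasDerivAt_id s).const_mul a).cosh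

theorem der_sh (a s : ℝ) :
    HasDerivAt (fun s => Real.sinh (a * s)) (a * Real.cosh (a * s)) s := by
  simpa [mul_comm] using ((hasDerivAt_id s).const_mul a).sinh

theorem mul_sinh (u : ℝ) : 0 ≤ u * Real.sinh u := by
  rcases le_total 0 u with h | h
  · exact mul_nonneg h (Real.sinh_nonneg_iff.2 h)
  · exact mul_nonneg_of_nonpos_of_nonpos h (Real.sinh_nonpos_iff.2 h)

namespace Num

variable (n : Num L δ lam θ η r1 I C3 K1 K) (hd : |d - δ| ≤ C3 * lam)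
include n hd

theorem Wl {x : E3} (hx : x ∈ Ext r1) : 1 / 5 ≤ V L x + I + d := by
  linarith [n.Wlow hx, (abs_le.1 hd).1]

theorem ed {x : E3} (hx : x ∈ Ext r1) {e : ℝ} (he : |e| ≤ 16 / ‖x‖) :
    |e + d - δ| ≤ δ / 100 := by
  have h1 := n.inv_le hx
  have h2 : 2000 / ‖x‖ = 125 * (16 / ‖x‖) := by ring
  rw [abs_le] at he hd ⊢
  constructor <;> linarith [n.C3lam, n.ηδ, n.hδ, he.1, he.2, hd.1, hd.2]

theorem cap0 : Cap L r1 I d (fun _ => True) (fun x => fr L lam I 2 ‖x‖)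
    (fun x => δ / 2 * fr L lam I 2 ‖x‖) := by
  obtain ⟨g, l, h1, h2⟩ := n.zr (m := 2) (h := fun _ => 1) (h1 := fun _ => 0) (h2 := fun _ => 0)
    (by norm_num) (fun s => ⟨hasDerivAt_const _ _, hasDerivAt_const _ _⟩) continuous_const
  refine ⟨g, l, h1.congr (fun _ _ => (one_mul _).symm) (fun _ _ => rfl) (fun _ _ => rfl),
    fun x hx _ => ?_⟩
  obtain ⟨p, e, -, -, he, h⟩ := h2 x hx
  have h3 := (abs_le.1 (n.ed hd hx he)).1
  have h4 := mul_le_mul_of_nonneg_left (show δ / 2 ≤ e + d by linarith [n.hδ])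
    (fr_pos L lam I 2 (n.nrm0 hx)).le
  simp only [one_mul, zero_mul, mul_zero, neg_zero, zero_div, zero_add, mul_one] at h
  linarith

theorem capT : Cap L r1 I d (fun _ => True) (TT L lam I δ) (fun x => δ / 4 * TT L lam I δ x) := by
  have q : √δ * √δ = δ := Real.mul_self_sqrt n.hδ.le
  obtain ⟨g, l, h1, h2⟩ := n.zr (m := 4) (h := fun s => Real.cosh (√δ * s))
    (h1 := fun s => √δ * Real.sinh (√δ * s)) (h2 := fun s => √δ * (√δ * Real.cosh (√δ * s)))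
    le_rfl (fun s => ⟨der_ch _ s, (der_sh _ s).const_mul _⟩) (by fun_prop)
  have h0 : Cap L r1 I d (fun _ => True) (fun x => ch δ x * fr L lam I 4 ‖x‖)
      (fun x => δ / 4 * (ch δ x * fr L lam I 4 ‖x‖)) := by
    refine ⟨g, l, h1, fun x hx _ => ?_⟩
    obtain ⟨p, e, p0, -, he, h⟩ := h2 x hx
    have h3 := (abs_le.1 (n.ed hd hx he)).1
    have h5 : 0 ≤ p * (√δ * Real.sinh (√δ * x 2) * x 2) / ‖x‖ :=
      div_nonneg (mul_nonneg p0 (by linarith [mul_sinh (√δ * x 2)])) (norm_nonneg _)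
    have h6 := mul_le_mul_of_nonneg_right (show 3 * δ / 4 ≤ e + d by linarith [n.hδ])
      (zero_le_one.trans (one_le_ch δ x))
    rw [← mul_assoc √δ √δ, q] at h
    have h4 := mul_le_mul_of_nonneg_left (show δ / 4 * ch δ x ≤ -(δ * ch δ x) / 2 +
      p * (√δ * Real.sinh (√δ * x 2) * x 2) / ‖x‖ + e * ch δ x + d * ch δ x by linarith)
      (fr_pos L lam I 4 (n.nrm0 hx)).le
    unfold ch at h4 ⊢
    linarith
  have a0 : 0 ≤ lam * L ^ 2 / δ ^ 2 := by have := n.lam0; positivity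
  exact (h0.cmul a0).congr (fun x => by rw [TT, RS_eq]; ring) (fun x => by rw [TT, RS_eq]; ring)

theorem capS : Cap L r1 I d (fun x => 0 < x 2) (fun x => sh δ x * fr L lam I 2 ‖x‖)
    (fun x => δ / 4 * (sh δ x * fr L lam I 2 ‖x‖)) := by
  have s0 : √δ ≠ 0 := (Real.sqrt_pos.2 n.hδ).ne'
  have q : √δ * √δ = δ := Real.mul_self_sqrt n.hδ.le
  obtain ⟨g, l, h1, h2⟩ := n.zr (m := 2) (h := fun s => Real.sinh (√δ * s) / √δ)
    (h1 := fun s => Real.cosh (√δ * s)) (h2 := fun s => √δ * Real.sinh (√δ * s))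
    (by norm_num) (fun s => ⟨((der_sh _ s).div_const _).congr_deriv (mul_div_cancel_left₀ _ s0),
      der_ch _ s⟩) (by fun_prop)
  refine ⟨g, l, h1, fun x hx hz => ?_⟩
  obtain ⟨p, e, p0, -, he, h⟩ := h2 x hx
  have h3 := (abs_le.1 (n.ed hd hx he)).1
  have h5 : 0 ≤ p * (Real.cosh (√δ * x 2) * x 2) / ‖x‖ :=
    div_nonneg (mul_nonneg p0 (mul_nonneg (Real.cosh_pos _).le hz.le)) (norm_nonneg _)
  have h6 := mul_le_mul_of_nonneg_right (show 3 * δ / 4 ≤ e + d by linarith [n.hδ])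
    (sh_nonneg δ hz.le)
  have h7 : √δ * Real.sinh (√δ * x 2) = δ * sh δ x := by
    rw [sh, mul_div_assoc', eq_div_iff s0]
    linear_combination Real.sinh (√δ * x 2) * q
  rw [h7] at h
  have h4 := mul_le_mul_of_nonneg_left (show δ / 4 * sh δ x ≤ -(δ * sh δ x) / 2 +
    p * (Real.cosh (√δ * x 2) * x 2) / ‖x‖ + e * sh δ x + d * sh δ x by linarith)
    (fr_pos L lam I 2 (n.nrm0 hx)).le
  unfold sh at h h4 ⊢
  linarith

theorem capH : Cap L r1 I d (fun _ => True) (fun x => -(hq δ x * RS L lam I δ ‖x‖))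
    (fun x => δ / 16 * TT L lam I δ x - δ ^ 2 * x 2 ^ 2 * RS L lam I δ ‖x‖) := by
  have q : √δ * √δ = δ := Real.mul_self_sqrt n.hδ.le
  obtain ⟨g, l, h1, h2⟩ := n.zr (m := 4) (h := fun s => Real.cosh (√δ * s) / 4 - (1 + δ * s ^ 2))
    (h1 := fun s => √δ * Real.sinh (√δ * s) / 4 - δ * (2 * s))
    (h2 := fun s => √δ * (√δ * Real.cosh (√δ * s)) / 4 - δ * 2) le_rfl
    (fun s => ⟨((der_ch _ s).div_const _).fun_sub
        ((((hasDerivAt_pow 2 s).const_mul δ).const_add 1).congr_deriv (by norm_num)),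
      (((der_sh _ s).const_mul _).div_const _).fun_sub
        ((((hasDerivAt_id s).const_mul 2).const_mul δ).congr_deriv (by norm_num))⟩) (by fun_prop)
  have h0 : Cap L r1 I d (fun _ => True) (fun x => -hq δ x * fr L lam I 4 ‖x‖)
      (fun x => (δ / 16 * ch δ x - δ ^ 2 * x 2 ^ 2) * fr L lam I 4 ‖x‖) := by
    have eh : ∀ x : E3, -hq δ x = Real.cosh (√δ * x 2) / 4 - (1 + δ * x 2 ^ 2) := fun x => by
      rw [hq, ch]
      ring
    refine ⟨g, l, h1.congr (fun x _ => by rw [eh]) (fun _ _ => rfl) (fun _ _ => rfl),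
      fun x hx _ => ?_⟩
    obtain ⟨p, e, p0, p2, he, h⟩ := h2 x hx
    have r0 := n.nrm0 hx
    have c1 := one_le_ch δ x
    have h3 : |(e + d - δ) * hq δ x| ≤ δ / 100 * (3 * ch δ x) := by
      rw [abs_mul]
      exact mul_le_mul (n.ed hd hx he) (abs_hq n.hδ.le x) (abs_nonneg _) (by linarith [n.hδ])
    have h5 : -(δ / 250 * ch δ x) ≤
        p * ((√δ * Real.sinh (√δ * x 2) / 4 - δ * (2 * x 2)) * x 2) / ‖x‖ := by
      rw [le_div_iff₀ r0]
      have a1 := n.inv_le hx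
      rw [div_le_iff₀ r0] at a1
      have a2 := dz_le n.hδ.le x
      have a3 := mul_nonneg p0 (mul_sinh (√δ * x 2))
      have a4 := mul_le_mul p2 a2 (by have := n.hδ; positivity) (by norm_num)
      have a5 := mul_le_mul_of_nonneg_right a1 (zero_le_one.trans c1)
      linarith
    rw [← mul_assoc √δ √δ, q, ← eh] at h
    have h6 : δ * hq δ x = δ + δ ^ 2 * x 2 ^ 2 - δ * ch δ x / 4 := by
      rw [hq]
      ring
    have h7 := mul_nonneg n.hδ.le (zero_le_one.trans c1)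
    have h4 := mul_le_mul_of_nonneg_left (show δ / 16 * ch δ x - δ ^ 2 * x 2 ^ 2 ≤
      -(δ * ch δ x / 4 - δ * 2) / 2 +
      p * ((√δ * Real.sinh (√δ * x 2) / 4 - δ * (2 * x 2)) * x 2) / ‖x‖ + e * -hq δ x +
        d * -hq δ x by linarith [(abs_le.1 h3).2]) (fr_pos L lam I 4 r0).le
    unfold ch at h4 ⊢
    linarith
  have a0 : 0 ≤ lam * L ^ 2 / δ ^ 2 := by have := n.lam0; positivity
  exact (h0.cmul a0).congr (fun x => by rw [RS_eq]; ring) (fun x => by rw [TT, RS_eq]; ring)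

variable {w R N : E3 → ℝ} {gw : E3 → E3}

theorem qstep (hs : SubQ (D L) w gw R) (hB : Cap L r1 I d (fun _ => True) B c)
    (hp : ∀ x ∈ Ext r1, 0 < B x) (hN : MemLp N 2 volume) (hw : ∀ᵐ x : E3, |w x| ≤ N x)
    (col : ∀ᵐ x : E3, x ∈ Ext r1 → ‖x‖ < r1 + 1 → w x ≤ B x)
    (pt : ∀ᵐ x : E3, x ∈ Ext r1 → B x < w x → (V L x + I + d) * w x ^ 2 - c x * w x ≤ R x) :
    ∀ᵐ x : E3, x ∈ Ext r1 → w x ≤ B x := by
  obtain ⟨g, l, h1, h2⟩ := hB
  refine wmpQ (lam := 1 / 5) (hs.mono n.extD) h1 hp (closedA (r1 + 1)) (subA r1) (by norm_num)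
    (col.mono fun x h hx hy => h hx (not_le.1 hy))
    (l2pos (closedA _).measurableSet (subA r1) (hs.mono n.extD).l1.ld.mf h1.cont.1
      (hN.restrict _) (hw.mono fun x h hx => ⟨(abs_nonneg _).trans h, by
        linarith [hp x (subA r1 hx), le_abs_self (w x)]⟩)) (pt.mono fun x h hx hy => ?_)
  have hx' := subA r1 hx
  have w0 := ((hp x hx').trans hy).le
  have a1 := mul_le_mul_of_nonneg_right (h2 x hx' trivial) w0
  have a2 := mul_le_mul_of_nonneg_right (n.Wl hd hx') (mul_nonneg (sub_pos.2 hy).le w0)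
  linarith [h hx' hy]

theorem qstepH (hs : SubQ (D L) w gw R) (hB : Cap L r1 I d (fun x => 0 < x 2) B c)
    (hp : ∀ x ∈ Ext r1, 0 ≤ x 2 → 0 < B x) (tz : TZ univ w) (hN : MemLp N 2 volume)
    (hw : ∀ᵐ x : E3, |w x| ≤ N x)
    (col : ∀ᵐ x : E3, x ∈ Ext r1 → 0 < x 2 → ‖x‖ < r1 + 1 → w x ≤ B x)
    (pt : ∀ᵐ x : E3, x ∈ Ext r1 → 0 < x 2 → B x < w x →
      (V L x + I + d) * w x ^ 2 - c x * w x ≤ R x) :
    ∀ᵐ x : E3, x ∈ Ext r1 → 0 < x 2 → w x ≤ B x := by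
  obtain ⟨g, l, h1, h2⟩ := hB
  have hU : IsOpen (Ext r1 ∩ B ⁻¹' Ioi 0) :=
    h1.cont.1.isOpen_inter_preimage (isOpen_Ext r1) isOpen_Ioi
  have hA : IsClosed ({x : E3 | r1 + 1 ≤ ‖x‖} ∩ {x : E3 | 0 ≤ x 2}) :=
    (closedA _).inter (isClosed_le continuous_const (csg_cont_coord 2))
  have hAU : {x : E3 | r1 + 1 ≤ ‖x‖} ∩ {x : E3 | 0 ≤ x 2} ⊆ Ext r1 ∩ B ⁻¹' Ioi 0 :=
    fun x hx => ⟨subA r1 hx.1, hp x (subA r1 hx.1) hx.2⟩
  have hs' := hs.mono (inter_subset_left.trans n.extD : Ext r1 ∩ B ⁻¹' Ioi 0 ⊆ D L)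
  have h1' := h1.mono hU inter_subset_left
  have key := wmpQH (lam := 1 / 5) hs' h1' (fun x hx => hx.2) hA hAU (by norm_num)
    (col.mono fun x h hx hz hy => h hx.1 hz (not_le.1 fun hh => hy ⟨hh, hz.le⟩))
    (TZ.pos_of_cont (B := fun x => -B x) hU (tz.mono (subset_univ _)) h1'.cont.1.neg
      (fun x hx _ => neg_nonpos.2 (le_of_lt hx.2)) (ae_of_all _ fun x _ _ => by linarith))
    (l2pos (hA.measurableSet.inter isOpen_Hp.measurableSet) (inter_subset_left.trans hAU)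
      hs'.l1.ld.mf h1'.cont.1 (hN.restrict _) (hw.mono fun x h hx => ⟨(abs_nonneg _).trans h, by
        linarith [hp x (subA r1 hx.1.1) hx.1.2, le_abs_self (w x)]⟩))
    (pt.mono fun x h hx hz hy => ?_)
  · exact key.mono fun x h hx hz => h ⟨hx, hp x hx hz.le⟩ hz
  have hx' := subA r1 hx.1
  have w0 := ((hp x hx' hz.le).trans hy).le
  have a1 := mul_le_mul_of_nonneg_right (h2 x hx' hz) w0
  have a2 := mul_le_mul_of_nonneg_right (n.Wl hd hx') (mul_nonneg (sub_pos.2 hy).le w0)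
  linarith [h hx' hz hy]

theorem lstep {M : ℝ} (hs : Sub (D L) w gw R) (hB : Cap L r1 I d (fun _ => True) B c)
    (lb : LocB (D L) N) (hN : MemLp N 2 volume) (hw : ∀ᵐ x : E3, |w x| ≤ N x) (hM : 0 ≤ M)
    (dec : ∀ x ∈ Ext r1, -B x ≤ M * (1 + ‖x‖) ^ 2 * Real.exp (-(2 / 5) * ‖x‖))
    (col : ∀ᵐ x : E3, x ∈ Ext r1 → ‖x‖ < r1 + 1 → w x ≤ B x)
    (pt : ∀ᵐ x : E3, x ∈ Ext r1 → (V L x + I + d) * w x - c x ≤ R x) :
    ∀ᵐ x : E3, x ∈ Ext r1 → w x ≤ B x := by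
  obtain ⟨g, l, h1, h2⟩ := hB
  have mA := (closedA (r1 + 1)).measurableSet
  have hG : MemLp (fun x : E3 => M * (1 + ‖x‖) ^ 2 * Real.exp (-(2 / 5) * ‖x‖)) 2
      (volume.restrict {x : E3 | r1 + 1 ≤ ‖x‖}) :=
    memLp_exp_decay (M := M) 2 (by norm_num : (0 : ℝ) < 2 / 5)
      (Continuous.aestronglyMeasurable (by fun_prop)) mA
      (ae_of_all _ fun x _ => (abs_of_nonneg (by positivity)).le)
  refine wmp (lam := 1 / 5) (hs.mono n.extD) h1 (closedA (r1 + 1)) (subA r1) (fun S hS hSU => ?_)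
    (by norm_num) (col.mono fun x h hx hy => h hx (not_le.1 hy))
    (l2pos mA (subA r1) (hs.mono n.extD).l1.ld.mf h1.cont.1 ((hN.restrict _).add hG)
      (hw.mono fun x h hx => ⟨add_nonneg ((abs_nonneg _).trans h) (by positivity), by
        simp only [Pi.add_apply]
        linarith [dec x (subA r1 hx), le_abs_self (w x)]⟩)) (pt.mono fun x h hx hy => ?_)
  · obtain ⟨M', hM'⟩ := lb S hS (hSU.trans n.extD)
    refine ⟨M', ?_⟩
    filter_upwards [hM', hw] with x a b hx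
    exact b.trans ((le_abs_self _).trans (a hx))
  have hx' := subA r1 hx
  have a2 := mul_le_mul_of_nonneg_right (n.Wl hd hx') (sub_pos.2 hy).le
  linarith [h hx', h2 x hx' trivial]

end Num

end MFb

end Vale.Agent.P363
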