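import Vale.Agent.P363.MFb2

/-! P363, block MF, second half: upper bounds for the even components. -/

open MeasureTheory Set Metric Filter Topology
open scoped RealInnerProductSpace

namespace Vale.Agent.P363

namespace MFb

section

variable {L δ lam θ η r1 ε I C3 K1 K d : ℝ} {g Yp Ym : E3 → ℝ}

theorem Par.capP (p : Par L δ lam η r1 ε I C3 K g Yp Ym) (hd : |d - δ| ≤ C3 * lam) :
    Cap L r1 I d (fun _ => True) Yp (fun x => η * Yp x) := by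
  obtain ⟨gY, l, h1, h2⟩ := p.yp
  refine ⟨gY, l, h1, fun x hx _ => ?_⟩
  have := mul_le_mul_of_nonneg_right (show V L x + I + δ - C3 * lam ≤ V L x + I + d by
    linarith [(abs_le.1 hd).1]) (p.pos x).1.le
  linarith [h2 x hx]

theorem Par.capM (p : Par L δ lam η r1 ε I C3 K g Yp Ym) (hd : |d - δ| ≤ C3 * lam) :
    Cap L r1 I d (fun _ => True) (fun x => -1 * Ym x) (fun _ => 0) := by
  obtain ⟨gY, l, h1, h2⟩ := p.ym
  refine ⟨_, _, h1.cmul (-1), fun x hx _ => ?_⟩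
  have := mul_le_mul_of_nonneg_right (show V L x + I + d ≤ V L x + I + δ + C3 * lam by
    linarith [(abs_le.1 hd).2]) (p.pos x).2.le
  linarith [h2 x hx]

namespace Num

variable (n : Num L δ lam θ η r1 I C3 K1 K)
include n

theorem hd0 : |δ - C3 * lam - δ| ≤ C3 * lam := by
  rw [abs_le]
  constructor <;> linarith [n.C3lam0]

theorem Kle : K ≤ K ^ 4 ∧ K ^ 2 ≤ K ^ 4 ∧ K ≤ K ^ 2 :=
  ⟨le_self_pow₀ n.hK (by norm_num), pow_le_pow_right₀ n.hK (by norm_num),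
    le_self_pow₀ n.hK (by norm_num)⟩

/-- The same with `lam` in place of `θ`. -/
theorem le_big' {a b c : ℝ} (ha : a ≤ K ^ 4) (hb : b ≤ C3) (hc : c ≤ K1) (a0 : 0 ≤ a) (b0 : 0 ≤ b)
    (c0 : 0 ≤ c) : 10 ^ 6 * (a * b * c) * lam ≤ η * δ :=
  (mul_le_mul_of_nonneg_left n.lamθ (by positivity)).trans (n.le_big ha hb hc b0 c0)

theorem fr2_ge {x : E3} (hx : x ∈ Ext r1) :
    1 / (1 + ‖x‖) ^ 2 * fbar L lam I ‖x‖ ≤ fr L lam I 2 ‖x‖ := by
  have h0 := n.nrm0 hx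
  have h1 := fbar_pos L lam I ‖x‖
  rw [fr, one_div, inv_mul_eq_div]
  gcongr
  linarith

/-- The dipole source is controlled by `TT`. -/
theorem dip {x : E3} (hx : x ∈ Ext r1) {u : ℝ}
    (hu : u ≤ K * (|x 2| * bb L lam I ‖x‖ * Real.exp (4 * L * |x 2| / ‖x‖))) :
    lam * (L * |x 2| / ‖x‖ ^ 3 * u) ≤ 16 * K * δ * TT L lam I δ x := by
  have h0 := n.nrm0 hx
  have hδ := n.hδ
  have l0 := n.lam0
  have L0 : 0 ≤ L := by linarith [n.hL]
  have K0 : 0 ≤ K := by linarith [n.hK]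
  have h1 := mul_le_mul_of_nonneg_left (n.zsq hx)
    (mul_nonneg (mul_nonneg K0 hδ.le) (n.RS_nonneg x))
  calc lam * (L * |x 2| / ‖x‖ ^ 3 * u) ≤ lam * (L * |x 2| / ‖x‖ ^ 3 *
        (K * (|x 2| * bb L lam I ‖x‖ * Real.exp (4 * L * |x 2| / ‖x‖)))) := by gcongr
    _ = K * δ * RS L lam I δ ‖x‖ * (δ * (x 2 ^ 2 * Real.exp (4 * L * |x 2| / ‖x‖))) := by
        rw [RS, ← sq_abs (x 2)]
        field_simp
    _ ≤ _ := by rw [TT]; linarith

/-- The remainder in the bound for `X` is controlled by `TT`. -/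
theorem rem {x : E3} (hx : x ∈ Ext r1) :
    lam * (|x 2| / ‖x‖ ^ 2 * fr L lam I 2 ‖x‖) ≤ δ * TT L lam I δ x := by
  have h0 := n.nrm0 hx
  have hδ := n.hδ
  have l0 := n.lam0
  have h1 := mul_le_mul_of_nonneg_left (n.zab x) (mul_nonneg hδ.le (n.RS_nonneg x))
  have h2 : 1 ≤ L ^ 2 := one_le_pow₀ n.hL
  have h3 := fr_pos L lam I 4 h0
  calc lam * (|x 2| / ‖x‖ ^ 2 * fr L lam I 2 ‖x‖) = 1 * (lam * |x 2| * fr L lam I 4 ‖x‖) := by
        unfold fr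
        field_simp
    _ ≤ L ^ 2 * (lam * |x 2| * fr L lam I 4 ‖x‖) := by gcongr
    _ = δ * RS L lam I δ ‖x‖ * (δ * |x 2|) := by
        rw [RS_eq]
        field_simp
    _ ≤ _ := by rw [TT]; linarith

theorem zr1 {x : E3} (hx : x ∈ Ext r1) : |x 2| / ‖x‖ ^ 2 ≤ 1 := by
  have h1 := n.nrm1 hx
  rw [div_le_one (by positivity)]
  nlinarith [abs_coord_le x 2]

end Num

end

variable {c0 L : ℝ} {ob : OB c0 L} {lam θ η r1 ε C2 C3 Cq I K1 K : ℝ} {N Yp Ym : E3 → ℝ}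
  {gN : E3 → E3}

theorem leN (vb : VB ob lam r1 ε C2 C3 Cq I N gN) : ∀ᵐ x : E3, |vb.X x| ≤ N x ∧ |vb.d x| ≤ N x ∧
    |vb.a x| ≤ N x ∧ |vb.b x| ≤ N x ∧ |vb.c x| ≤ N x ∧ vb.c x ≤ vb.X x := by
  filter_upwards [vb.alg] with x ⟨a0, b0, c0, X0, _, h1, h2, _, _⟩
  have n0 := vb.nn x
  refine ⟨abs_le_of_sq_le_sq' ?_ n0 |> abs_le.2, abs_le_of_sq_le_sq' ?_ n0 |> abs_le.2,
    abs_le_of_sq_le_sq' ?_ n0 |> abs_le.2, abs_le_of_sq_le_sq' ?_ n0 |> abs_le.2,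
    abs_le_of_sq_le_sq' ?_ n0 |> abs_le.2, (abs_le_of_sq_le_sq' ?_ X0).2⟩ <;>
  linarith [sq_nonneg (vb.a x), sq_nonneg (vb.b x), sq_nonneg (vb.c x), sq_nonneg (vb.d x)]

variable {vb : VB ob lam r1 ε C2 C3 Cq I N gN} (n : Num L ob.del lam θ η r1 I C3 K1 K)
  (p : Par L ob.del lam η r1 ε I C3 K ob.g Yp Ym) (y : Hy vb K1 K)
include n p

theorem colb : ∀ᵐ x : E3, x ∈ Ext r1 → ‖x‖ < r1 + 1 →
    vb.a x ≤ 2 * K * Yp x ∧ vb.b x ≤ 2 * K * Yp x ∧ vb.c x ≤ Yp x ∧ Ym x ≤ K * vb.dT x := by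
  filter_upwards [vb.close] with x h hx hr
  obtain ⟨a1, a2, a3, a4, -⟩ := p.col x hx hr
  obtain ⟨-, b2, b3, b4, b5⟩ := h a1
  have h1 := mul_le_mul_of_nonneg_right n.hK (p.pos x).1.le
  have h2 := mul_le_mul_of_nonneg_left (show ob.g x - ε ≤ vb.dT x by linarith [(abs_le.1 b2).1])
    (zero_le_one.trans n.hK)
  exact ⟨by linarith, by linarith, by linarith, by linarith⟩

theorem Fb : ∀ᵐ x : E3, x ∈ Ext r1 → vb.b x ≤ 2 * K * Yp x := by
  have K0 : 0 < 2 * K := by linarith [n.hK]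
  refine n.qstep n.hd0 vb.sb ((p.capP n.hd0).cmul K0.le) (fun x _ => mul_pos K0 (p.pos x).1)
    vb.h.l2 ((leN vb).mono fun x h => h.2.2.2.1) ((colb n p).mono fun x h hx hr => (h hx hr).2.1) ?_
  filter_upwards [vb.eb, vb.alg] with x h h' _ _
  have := mul_nonneg (mul_nonneg K0.le (mul_nonneg n.η0.le (p.pos x).1.le)) h'.2.1
  linarith

include y

theorem FX : ∀ᵐ x : E3, x ∈ Ext r1 → vb.X x ≤ 6 * K * Yp x + θ * fr L lam I 2 ‖x‖ := by
  have K0 : 0 < 6 * K := by linarith [n.hK]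
  refine n.qstep n.hd0 vb.sX (((p.capP n.hd0).cmul K0.le).add ((n.cap0 n.hd0).cmul n.hθ.le))
    (fun x hx => add_pos (mul_pos K0 (p.pos x).1) (mul_pos n.hθ (fr_pos L lam I 2 (n.nrm0 hx))))
    vb.h.l2 ((leN vb).mono fun x h => h.1) ?_ ?_
  · filter_upwards [colb (vb := vb) n p, vb.alg] with x h ⟨a0, b0, c0, _, _, h1, _⟩ hx hr
    obtain ⟨a1, a2, a3, -⟩ := h hx hr
    have h2 : vb.X x ≤ vb.a x + vb.b x + vb.c x := (abs_le_of_sq_le_sq' (by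
      linarith [mul_nonneg a0 b0, mul_nonneg a0 c0, mul_nonneg b0 c0]) (by linarith)).2
    have h3 := mul_le_mul_of_nonneg_right n.hK (p.pos x).1.le
    linarith [mul_pos n.hθ (fr_pos L lam I 2 (n.nrm0 hx)), (p.pos x).1]
  filter_upwards [vb.eX, vb.alg, leN vb, y.f1] with x h h' hN f1 hx _
  have f0 := fr_pos L lam I 2 (n.nrm0 hx)
  have K1' : 0 ≤ K1 := by linarith [n.hK1]
  have h1 : lam * C3 / (1 + ‖x‖) ^ 2 * |vb.d x| ≤ θ * (ob.del / 2 * fr L lam I 2 ‖x‖) := by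
    have a1 := n.le_big n.K4 le_rfl le_rfl (by linarith [n.hC3]) K1'
    have a2 := mul_le_mul_of_nonneg_left (show C3 * K1 * θ ≤ ob.del / 2 by
      linarith [n.ηδ, n.hδ]) (mul_pos n.hθ f0).le
    have a3 := n.C3lam0
    calc _ ≤ lam * C3 / (1 + ‖x‖) ^ 2 * (K1 * fbar L lam I ‖x‖) :=
          mul_le_mul_of_nonneg_left (hN.2.1.trans (f1 hx).1)
            (div_nonneg (by linarith) (sq_nonneg _))
      _ = C3 * lam * K1 * (1 / (1 + ‖x‖) ^ 2 * fbar L lam I ‖x‖) := by ring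
      _ ≤ C3 * lam * K1 * fr L lam I 2 ‖x‖ :=
          mul_le_mul_of_nonneg_left (n.fr2_ge hx) (mul_nonneg a3.le K1')
      _ = θ * fr L lam I 2 ‖x‖ * (C3 * K1 * θ) := by rw [← n.sq]; ring
      _ ≤ _ := by linarith
  have h2 := mul_le_mul_of_nonneg_right h1 h'.2.2.2.1
  have := mul_nonneg (mul_nonneg K0.le (mul_nonneg n.η0.le (p.pos x).1.le)) h'.2.2.2.1
  linarith

/-- The exponentially small sources. -/
theorem expo_src : ∀ᵐ x : E3, x ∈ Ext r1 →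
    Real.exp (-‖x‖ / 20) * N x ≤ K1 * Yp x ∧ vb.m x ≤ K1 * Yp x := by
  filter_upwards [y.f1] with x h hx
  have h1 := mul_le_mul_of_nonneg_left (p.ex x hx) (zero_le_one.trans n.hK1)
  have h2 := mul_le_mul_of_nonneg_left (h hx).1 (Real.exp_pos (-‖x‖ / 20)).le
  exact ⟨by linarith, by linarith [(h hx).2]⟩

theorem Fa : ∀ᵐ x : E3, x ∈ Ext r1 → vb.a x ≤ 200 * K ^ 2 * (Yp x + TT L lam I ob.del x) := by
  have K2 : 1 ≤ K ^ 2 := one_le_pow₀ n.hK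
  have K0 : 0 < 200 * K ^ 2 := by linarith
  have hp : ∀ x, 0 < Yp x + TT L lam I ob.del x := fun x =>
    add_pos_of_pos_of_nonneg (p.pos x).1 (n.TT_nonneg x)
  refine n.qstep n.hd0 vb.sa (((p.capP n.hd0).add (n.capT n.hd0)).cmul K0.le)
    (fun x _ => mul_pos K0 (hp x)) vb.h.l2 ((leN vb).mono fun x h => h.2.2.1) ?_ ?_
  · filter_upwards [colb (vb := vb) n p] with x h hx hr
    have h1 := mul_le_mul_of_nonneg_right n.Kle.2.2 (p.pos x).1.le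
    have h2 := mul_nonneg K0.le (n.TT_nonneg x)
    have h3 := mul_nonneg K0.le (p.pos x).1.le
    linarith [(h hx hr).1]
  filter_upwards [vb.ea, vb.alg, leN vb, y.f4, FX n p y, expo_src n p y] with x h h' hN f4 fX ex
    hx hB
  have hr : r1 < ‖x‖ := hx
  have r0 := n.nrm0 hx
  have l0 := n.lam0
  have Y0 := (p.pos x).1
  have T0 := n.TT_nonneg x
  have a0 := h'.1
  have hδ := n.hδ
  have L0 : 0 ≤ L := by linarith [n.hL]
  have k0 : 0 ≤ K := by linarith [n.hK]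
  have k1 : 0 ≤ K1 := by linarith [n.hK1]
  have c3 : 0 ≤ C3 := by linarith [n.hC3]
  have aY : Yp x ≤ vb.a x := by nlinarith
  have s1 : lam * (C2 * L * |x 2| / ‖x‖ ^ 3 * |vb.d x|) ≤
      16 * K ^ 2 * (ob.del * TT L lam I ob.del x) := by
    have a1 := mul_le_mul_of_nonneg_left (n.dip hx (f4 hx).2) k0
    have a2 := mul_le_mul_of_nonneg_right y.c2.2
      (show 0 ≤ lam * (L * |x 2| / ‖x‖ ^ 3 * |vb.d x|) by positivity)
    calc _ = C2 * (lam * (L * |x 2| / ‖x‖ ^ 3 * |vb.d x|)) := by ring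
      _ ≤ _ := by linarith
  have s2 : lam * (C3 * Real.exp (-‖x‖ / 20) * |vb.d x|) ≤ η * Yp x := by
    have a1 := mul_le_mul_of_nonneg_left ((mul_le_mul_of_nonneg_left hN.2.1
      (Real.exp_pos (-‖x‖ / 20)).le).trans (ex hx).1) n.C3lam0.le
    have a2 := n.le_big' n.K4 le_rfl le_rfl zero_le_one c3 k1
    have a3 := mul_le_mul_of_nonneg_right (show C3 * lam * K1 ≤ η by
      linarith [n.ηδ', n.η0]) Y0.le
    linarith
  have s3 : lam * (4 * |x 2| / ‖x‖ ^ 2 * vb.c x) ≤ η * Yp x + ob.del * TT L lam I ob.del x := by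
    have a1 := mul_le_mul_of_nonneg_left (hN.2.2.2.2.2.trans (fX hx))
      (show 0 ≤ lam * (4 * (|x 2| / ‖x‖ ^ 2)) by positivity)
    have a2 := mul_le_mul_of_nonneg_left (n.zr1 hx) (show 0 ≤ 24 * K * lam * Yp x by positivity)
    have a3 := n.le_big' n.Kle.1 n.hC3 n.hK1 k0 zero_le_one zero_le_one
    have a4 := mul_le_mul_of_nonneg_right (show 24 * K * lam ≤ η by
      linarith [n.ηδ', n.η0]) Y0.le
    have a5 := mul_le_mul_of_nonneg_left (n.rem hx) n.hθ.le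
    have a6 := mul_le_mul_of_nonneg_right (show θ ≤ 1 / 4 by linarith [n.θ1])
      (mul_nonneg hδ.le T0)
    calc _ = lam * (4 * (|x 2| / ‖x‖ ^ 2)) * vb.c x := by ring
      _ ≤ _ := by linarith
  have s4 : 2 * lam * vb.m x ^ 2 ≤ η * Yp x * vb.a x := by
    have a1 := pow_le_pow_left₀ h'.2.2.2.2.1 (ex hx).2 2
    have a2 := n.le_big n.K4 n.hC3 le_rfl zero_le_one k1
    have a3 : 0 ≤ K1 * θ := mul_nonneg k1 n.hθ.le
    have a4 : 2 * (K1 * θ) ^ 2 ≤ η := by nlinarith [n.ηδ', n.η0, n.η1]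
    calc 2 * lam * vb.m x ^ 2 ≤ 2 * lam * (K1 * Yp x) ^ 2 := by gcongr
      _ = 2 * (K1 * θ) ^ 2 * Yp x * Yp x := by rw [← n.sq]; ring
      _ ≤ η * Yp x * vb.a x := by gcongr; exact mul_nonneg n.η0.le Y0.le
  have b1 := mul_le_mul_of_nonneg_right K2 (mul_nonneg n.η0.le Y0.le)
  have b2 := mul_le_mul_of_nonneg_right K2 (mul_nonneg hδ.le T0)
  have b3 := mul_nonneg n.η0.le Y0.le
  have b4 := mul_nonneg hδ.le T0
  have s5 := mul_le_mul_of_nonneg_right (show lam * ((C2 * L * |x 2| / ‖x‖ ^ 3 +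
    C3 * Real.exp (-‖x‖ / 20)) * |vb.d x| + 4 * |x 2| / ‖x‖ ^ 2 * vb.c x) + η * Yp x ≤
    200 * K ^ 2 * (η * Yp x + ob.del / 4 * TT L lam I ob.del x) by linarith) a0
  linarith [h (n.rC3.trans hr.le)]

end MFb

end Vale.Agent.P363
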