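import Vale.Agent.P363.MFb3

/-! P363, block MF, second half: the odd remainder and the lower bounds. -/

open MeasureTheory Set Metric Filter Topology
open scoped RealInnerProductSpace

namespace Vale.Agent.P363

namespace MFb

variable {c0 L : ℝ} {ob : OB c0 L} {lam θ η r1 ε C2 C3 Cq I K1 K : ℝ} {N Yp Ym : E3 → ℝ}
  {gN : E3 → E3} {vb : VB ob lam r1 ε C2 C3 Cq I N gN} (n : Num L ob.del lam θ η r1 I C3 K1 K)
  (p : Par L ob.del lam η r1 ε I C3 K ob.g Yp Ym) (y : Hy vb K1 K)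
include n p

theorem F7 : ∀ᵐ x : E3, x ∈ Ext r1 → -vb.dT x ≤ θ * Yp x - K⁻¹ * Ym x := by
  have k0 : 0 < K := by linarith [n.hK]
  have i0 : 0 < K⁻¹ := inv_pos.2 k0
  have i1 : K⁻¹ ≤ 1 := inv_le_one_of_one_le₀ n.hK
  obtain ⟨M, hM⟩ := p.dec
  have hB := (((p.capP vb.par.1).cmul n.hθ.le).add ((p.capM vb.par.1).cmul i0.le)).congr
    (B' := fun x => θ * Yp x - K⁻¹ * Ym x) (c' := fun x => θ * (η * Yp x))
    (fun x => by ring) (fun x => by ring)
  refine n.lstep vb.par.1 (M := |M|) vb.sT hB vb.lb vb.h.l2 ?_ (abs_nonneg _) (fun x hx => ?_) ?_ ?_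
  · filter_upwards [vb.alg, leN vb] with x h h'
    rw [abs_neg]
    exact h.2.2.2.2.2.2.2.1.trans ((le_abs_self _).trans h'.2.2.2.1)
  · have h1 := mul_le_mul_of_nonneg_right i1 (p.pos x).2.le
    have h2 := mul_pos n.hθ (p.pos x).1
    have h3 : M * (1 + ‖x‖) ^ 2 * Real.exp (-(4 / 5) * ‖x‖) ≤
        |M| * (1 + ‖x‖) ^ 2 * Real.exp (-(2 / 5) * ‖x‖) :=
      mul_le_mul (mul_le_mul_of_nonneg_right (le_abs_self M) (sq_nonneg _))
        (Real.exp_le_exp.2 (by linarith [norm_nonneg x])) (Real.exp_pos _).le (by positivity)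
    linarith [hM x hx]
  · filter_upwards [colb (vb := vb) n p] with x h hx hr
    have h1 := mul_le_mul_of_nonneg_left (h hx hr).2.2.2 i0.le
    rw [← mul_assoc, inv_mul_cancel₀ k0.ne', one_mul] at h1
    linarith [mul_pos n.hθ (p.pos x).1]
  filter_upwards [vb.eT, Fb (vb := vb) n p] with x h fb hx
  have a1 := mul_le_mul_of_nonneg_left (fb hx) n.C3lam0.le
  have a2 := n.le_big n.Kle.1 le_rfl n.hK1 (by linarith [n.hC3]) zero_le_one
  have a3 := mul_le_mul_of_nonneg_left (show 2 * (K * C3) * θ ≤ η by linarith [n.ηδ', n.η0])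
    (mul_pos n.hθ (p.pos x).1).le
  have a4 : C3 * lam * (2 * K * Yp x) = θ * Yp x * (2 * (K * C3) * θ) := by rw [← n.sq]; ring
  linarith [(abs_le.1 h).2]

include y

theorem Fc : ∀ᵐ x : E3, x ∈ Ext r1 → 0 < x 2 →
    vb.c x ≤ θ * L * (sh ob.del x * fr L lam I 2 ‖x‖) + (Yp x + TT L lam I ob.del x) := by
  have L0 : 0 ≤ L := by linarith [n.hL]
  have tL : 0 ≤ θ * L := mul_nonneg n.hθ.le L0
  have hp : ∀ x, 0 < Yp x + TT L lam I ob.del x := fun x =>
    add_pos_of_pos_of_nonneg (p.pos x).1 (n.TT_nonneg x)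
  have hS : ∀ x : E3, 0 ≤ x 2 → 0 ≤ sh ob.del x * fr L lam I 2 ‖x‖ := fun x hz =>
    mul_nonneg (sh_nonneg _ hz) (fr_nonneg _ _ _ _ (norm_nonneg x))
  refine n.qstepH n.hd0 vb.sc (((n.capS n.hd0).cmul tL).add
    (((p.capP n.hd0).add (n.capT n.hd0)).mono fun _ _ => trivial))
    (fun x _ hz => add_pos_of_nonneg_of_pos (mul_nonneg tL (hS x hz)) (hp x)) vb.tc vb.h.l2
    ((leN vb).mono fun x h => h.2.2.2.2.1) ?_ ?_
  · filter_upwards [colb (vb := vb) n p] with x h hx hz hr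
    linarith [(h hx hr).2.2.1, mul_nonneg tL (hS x hz.le), n.TT_nonneg x]
  filter_upwards [vb.ec, vb.alg, y.f4, Fa n p y] with x h h' f4 fa hx hz hB
  have r1' := n.nrm1 hx
  have r0 := n.nrm0 hx
  have l0 := n.lam0
  have Y0 := (p.pos x).1
  have T0 := n.TT_nonneg x
  have S0 := hS x hz.le
  have c0 := h'.2.2.1
  have hδ := n.hδ
  have k0 : 0 ≤ K := by linarith [n.hK]
  have c3 : 0 ≤ C3 := by linarith [n.hC3]
  have f0 := fbar_pos L lam I ‖x‖
  have cY : Yp x + TT L lam I ob.del x ≤ vb.c x := by linarith [mul_nonneg tL S0]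
  have s1 : lam * C3 / (1 + ‖x‖) ^ 2 * |vb.d x| ≤
      θ * L * (ob.del / 4 * (sh ob.del x * fr L lam I 2 ‖x‖)) := by
    have a0 := sh_nonneg ob.del hz.le
    have a1 : |vb.d x| ≤ K * L * (2 * sh ob.del x) * fbar L lam I ‖x‖ := by
      calc |vb.d x| ≤ K * (|x 2| * bb L lam I ‖x‖ * Real.exp (4 * L * |x 2| / ‖x‖)) := (f4 hx).2
        _ = K * L * (|x 2| * Real.exp (4 * L * |x 2| / ‖x‖)) * (fbar L lam I ‖x‖ / ‖x‖) := by
            rw [bb_eq]; ring
        _ ≤ _ := mul_le_mul (mul_le_mul_of_nonneg_left (n.zsh hx hz.le) (mul_nonneg k0 L0))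
            (div_le_self f0.le (by linarith)) (by positivity) (by positivity)
    have a2 := n.le_big n.Kle.1 le_rfl n.hK1 c3 zero_le_one
    have a3 := mul_le_mul_of_nonneg_left (show 2 * (K * C3) * θ ≤ ob.del / 4 by linarith [n.ηδ])
      (mul_nonneg tL S0)
    calc _ ≤ lam * C3 / (1 + ‖x‖) ^ 2 * (K * L * (2 * sh ob.del x) * fbar L lam I ‖x‖) := by
          gcongr
      _ = lam * C3 * (K * L * (2 * sh ob.del x)) * (1 / (1 + ‖x‖) ^ 2 * fbar L lam I ‖x‖) := by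
          ring
      _ ≤ lam * C3 * (K * L * (2 * sh ob.del x)) * fr L lam I 2 ‖x‖ :=
          mul_le_mul_of_nonneg_left (n.fr2_ge hx) (by positivity)
      _ = θ * L * (sh ob.del x * fr L lam I 2 ‖x‖) * (2 * (K * C3) * θ) := by rw [← n.sq]; ring
      _ ≤ _ := by linarith
  have s2 : 2 * lam * vb.a x ^ 2 ≤
      (η * Yp x + ob.del / 4 * TT L lam I ob.del x) * vb.c x := by
    have a1 := pow_le_pow_left₀ h'.1 (fa hx) 2
    have a2 := n.le_big' le_rfl n.hC3 n.hK1 (by positivity) zero_le_one zero_le_one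
    have a3 := mul_le_mul_of_nonneg_right
      (show 80000 * K ^ 4 * lam ≤ η by linarith [n.ηδ', n.η0]) Y0.le
    have a4 := mul_le_mul_of_nonneg_right
      (show 80000 * K ^ 4 * lam ≤ ob.del / 4 by linarith [n.ηδ]) T0
    calc 2 * lam * vb.a x ^ 2 ≤
          2 * lam * (200 * K ^ 2 * (Yp x + TT L lam I ob.del x)) ^ 2 := by gcongr
      _ = (80000 * K ^ 4 * lam * Yp x + 80000 * K ^ 4 * lam * TT L lam I ob.del x) *
          (Yp x + TT L lam I ob.del x) := by ring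
      _ ≤ _ := mul_le_mul (add_le_add a3 a4) cY (hp x).le
          (add_nonneg (mul_nonneg n.η0.le Y0.le) (by positivity))
  linarith [mul_le_mul_of_nonneg_right s1 c0]

theorem F8 : ∀ᵐ x : E3, x ∈ Ext r1 →
    vb.dS x ≤ 5 * K * Yp x - (K ^ 2)⁻¹ * (hq ob.del x * RS L lam I ob.del ‖x‖) := by
  have k0 : 0 < K := by linarith [n.hK]
  have K2 : 1 ≤ K ^ 2 := one_le_pow₀ n.hK
  obtain ⟨κ, hκ⟩ : ∃ κ, κ = (K ^ 2)⁻¹ := ⟨_, rfl⟩
  have i0 : 0 < κ := hκ ▸ inv_pos.2 (by linarith)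
  have i1 : κ ≤ 1 := hκ ▸ inv_le_one_of_one_le₀ K2
  have i2 : κ * K ^ 2 = 1 := hκ ▸ inv_mul_cancel₀ (by linarith)
  have l0 := n.lam0
  have hδ := n.hδ
  rw [← hκ]
  have hH : ∀ x, κ * (hq ob.del x * RS L lam I ob.del ‖x‖) ≤ 3 * TT L lam I ob.del x := fun x => by
    have a1 := mul_le_mul_of_nonneg_right ((le_abs_self _).trans (abs_hq hδ.le x)) (n.RS_nonneg x)
    have a2 := mul_le_mul_of_nonneg_left a1 i0.le
    have a3 := mul_le_mul_of_nonneg_right i1 (n.TT_nonneg x)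
    rw [TT] at a3 ⊢
    linarith
  have hB := (((p.capP vb.par.2.1).cmul (by linarith : 0 ≤ 5 * K)).add
    ((n.capH vb.par.2.1).cmul i0.le)).congr
    (B' := fun x => 5 * K * Yp x - κ * (hq ob.del x * RS L lam I ob.del ‖x‖))
    (fun x => by ring) (fun x => rfl)
  refine n.lstep vb.par.2.1 (M := 3 * (lam * L ^ 2 / ob.del ^ 2)) vb.sS hB vb.lb vb.h.l2 ?_
    (by positivity) (fun x hx => ?_) ?_ ?_
  · filter_upwards [vb.alg, leN vb] with x h h'
    exact h.2.2.2.2.2.2.2.2.trans ((le_abs_self _).trans h'.2.2.1)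
  · linarith [hH x, n.TT_dec hx, mul_pos k0 (p.pos x).1]
  · filter_upwards [colb (vb := vb) n p, vb.alg] with x h h' hx hr
    have h1 := mul_le_mul_of_nonneg_right n.hK (p.pos x).1.le
    linarith [hH x, (p.col x hx hr).2.2.2.2, (h hx hr).1, (abs_le.1 h'.2.2.2.2.2.2.2.2).2]
  filter_upwards [vb.eS, vb.alg, leN vb, y.f4, FX n p y, Fa n p y, expo_src n p y] with x h h' hN
    f4 fX fa ex hx
  have hr : r1 < ‖x‖ := hx
  have r1' := n.nrm1 hx
  have r0 := n.nrm0 hx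
  have Y0 := (p.pos x).1
  have T0 := n.TT_nonneg x
  have L0 : 0 < L := by linarith [n.hL]
  have k1 : 0 ≤ K1 := by linarith [n.hK1]
  have c3 : 0 ≤ C3 := by linarith [n.hC3]
  have b0 : 0 ≤ bb L lam I ‖x‖ := by
    have := fbar_pos L lam I ‖x‖
    rw [bb_eq]
    positivity
  have dT0 := mul_nonneg hδ.le T0
  -- the main term
  have s0 : κ * (ob.del ^ 2 * x 2 ^ 2 * RS L lam I ob.del ‖x‖) ≤
      lam * vb.Dp * x 2 / ‖x‖ ^ 3 * vb.d x := by
    have D0 : 0 ≤ vb.Dp := by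
      by_contra hc
      nlinarith [vb.par.2.2, y.c2.1, not_le.1 hc]
    have a1 : L ≤ K * vb.Dp := vb.par.2.2.trans (mul_le_mul_of_nonneg_right y.c2.2 D0)
    have a2 := mul_le_mul a1 (f4 hx).1 (by positivity) (by positivity)
    calc _ = κ * lam / ‖x‖ ^ 3 * (L * (x 2 ^ 2 * bb L lam I ‖x‖)) := by
          rw [RS]
          field_simp
      _ ≤ κ * lam / ‖x‖ ^ 3 * (K * vb.Dp * (K * (x 2 * vb.d x))) :=
          mul_le_mul_of_nonneg_left a2 (by positivity)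
      _ = κ * K ^ 2 * (lam * vb.Dp * x 2 / ‖x‖ ^ 3 * vb.d x) := by ring
      _ = _ := by rw [i2, one_mul]
  have sm : ∀ {a : ℝ}, K ^ 2 * a ≤ 1 / 48 → a * (ob.del * TT L lam I ob.del x) ≤
      κ * (ob.del * TT L lam I ob.del x) / 48 := fun {a} ha => by
    have a1 := mul_le_mul_of_nonneg_left ha i0.le
    rw [← mul_assoc, i2, one_mul] at a1
    linarith [mul_le_mul_of_nonneg_right a1 dT0]
  have s1 : lam * C3 * (|x 2| / ‖x‖ ^ 4 * |vb.d x|) ≤
      κ * (ob.del * TT L lam I ob.del x) / 48 := by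
    have a1 := mul_le_mul_of_nonneg_left (n.dip hx (f4 hx).2) (div_nonneg c3 r0.le)
    have a2 := sm (a := C3 / ‖x‖ * (16 * K)) (by
      rw [div_mul_eq_mul_div, ← mul_div_assoc, div_le_iff₀ r0]
      linarith [n.rK])
    have a3 := mul_le_mul_of_nonneg_right n.hL
      (show 0 ≤ lam * C3 * (|x 2| / ‖x‖ ^ 4 * |vb.d x|) by positivity)
    have a4 : L * (lam * C3 * (|x 2| / ‖x‖ ^ 4 * |vb.d x|)) =
        C3 / ‖x‖ * (lam * (L * |x 2| / ‖x‖ ^ 3 * |vb.d x|)) := by field_simp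
    linarith
  have s2 : ∀ {u : ℝ}, u ≤ N x → lam * C3 * (Real.exp (-‖x‖ / 20) * u) ≤ η * Yp x := fun hu => by
    have a1 := mul_le_mul_of_nonneg_left ((mul_le_mul_of_nonneg_left hu
      (Real.exp_pos (-‖x‖ / 20)).le).trans (ex hx).1) n.C3lam0.le
    have a2 := n.le_big' n.K4 le_rfl le_rfl zero_le_one c3 k1
    have a3 := mul_le_mul_of_nonneg_right (show C3 * lam * K1 ≤ η by
      linarith [n.ηδ', n.η0]) Y0.le
    linarith
  have s3 : lam * C3 * vb.a x ≤ η * Yp x + κ * (ob.del * TT L lam I ob.del x) / 48 := by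
    have a1 := mul_le_mul_of_nonneg_left (fa hx) n.C3lam0.le
    have a2 := n.le_big' n.Kle.2.1 le_rfl n.hK1 (by positivity) c3 zero_le_one
    have a3 := mul_le_mul_of_nonneg_right (show 200 * (K ^ 2 * C3) * lam ≤ η by
      linarith [n.ηδ', n.η0]) Y0.le
    have a4 := n.le_big' le_rfl le_rfl n.hK1 (by positivity) c3 zero_le_one
    have a5 := sm (a := 200 * (K ^ 2 * C3) * lam / ob.del) (by
      rw [← mul_div_assoc, div_le_iff₀ hδ]
      linarith [n.ηδ])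
    have a6 : 200 * (K ^ 2 * C3) * lam / ob.del * (ob.del * TT L lam I ob.del x) =
        200 * (K ^ 2 * C3) * lam * TT L lam I ob.del x := by field_simp
    linarith
  have s4 : lam * C3 * (|x 2| / ‖x‖ ^ 3 * vb.c x) ≤
      η * Yp x + κ * (ob.del * TT L lam I ob.del x) / 48 := by
    have a0 : |x 2| / ‖x‖ ^ 3 ≤ |x 2| / ‖x‖ ^ 2 :=
      div_le_div_of_nonneg_left (abs_nonneg _) (by positivity)
        (pow_le_pow_right₀ (by linarith) (by norm_num))
    have a1 := mul_le_mul_of_nonneg_left (mul_le_mul a0 (hN.2.2.2.2.2.trans (fX hx)) h'.2.2.1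
      (by positivity)) n.C3lam0.le
    have a2 := mul_le_mul_of_nonneg_left (n.zr1 hx)
      (show 0 ≤ 6 * (K * C3) * lam * Yp x by positivity)
    have a3 := n.le_big' n.Kle.1 le_rfl n.hK1 k0.le c3 zero_le_one
    have a4 := mul_le_mul_of_nonneg_right (show 6 * (K * C3) * lam ≤ η by
      linarith [n.ηδ', n.η0]) Y0.le
    have a5 := mul_le_mul_of_nonneg_left (n.rem hx) (mul_nonneg c3 n.hθ.le)
    have a6 := n.le_big n.Kle.2.1 le_rfl n.hK1 c3 zero_le_one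
    have a7 := sm (a := C3 * θ) (by linarith [n.ηδ, n.hδ1])
    linarith
  have s5 := mul_le_mul_of_nonneg_right n.hK (mul_nonneg n.η0.le Y0.le)
  have s6 := mul_nonneg n.η0.le Y0.le
  linarith [(abs_le.1 (h (n.rC3.trans hr.le))).1, s2 hN.2.1,
    s2 ((le_abs_self _).trans hN.2.2.2.2.1)]

end MFb

end Vale.Agent.P363
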