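import Vale.Agent.P363.C
import Vale.Agent.P363.DefsV

/-! P363, block MF, second half: interface. -/

open MeasureTheory Set Metric Filter Topology
open scoped RealInnerProductSpace

namespace Vale.Agent.P363

noncomputable section

/-- The radial profile with the exact decay rate. -/
def fbar (L lam I r : ℝ) : ℝ := fb L √(2 * I) (1 - 2 * lam) 0 r

/-- From the bounds F1, F2, F4 to the last two slab bounds. -/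
def T_MFb : Prop := ∀ c0 : ℝ, 0 < c0 → c0 ≤ 1 / 8 → ∀ᶠ r0 : ℝ in atTop, ∀ C C2 C4 : ℝ, 1 ≤ C →
  1 ≤ C2 → 1 ≤ C4 → ∃ C' : ℝ, 1 ≤ C' ∧ ∀ᶠ ω in 𝓝[>] (0 : ℝ), ∀ᶠ L : ℝ in atTop,
    ∀ ob : OB c0 L, OBb ob C r0 ω → ∀ C3 K1 : ℝ, 1 ≤ C3 → 1 ≤ K1 → ∀ᶠ r1 : ℝ in atTop,
      ∀ᶠ ε in 𝓝[>] (0 : ℝ), ∀ᶠ lam in 𝓝[>] (0 : ℝ), ∀ (Cq I : ℝ) (N : E3 → ℝ) (gN : E3 → E3)
        (vb : VB ob lam r1 ε C2 C3 Cq I N gN),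
        (∀ᵐ x : E3, x ∈ Ext r1 → N x ≤ K1 * fbar L lam I ‖x‖ ∧
          vb.m x ≤ K1 * (Real.exp (-‖x‖ / 20) * fbar L lam I ‖x‖)) →
        (∀ᵐ x : E3, x ∈ Ext r1 → 0 < x 2 → x 2 * bb L lam I ‖x‖ ≤ C4 * vb.d x ∧
          vb.d x ≤ C4 * (x 2 * bb L lam I ‖x‖ * Real.exp (4 * L * x 2 / ‖x‖))) →
        ∀ᵐ x : E3, x ∈ Slab r1 →
          vb.X x ^ 2 ≤ C' * (aa L lam I ob.del ‖x‖ ^ 2 +
            lam / ‖x‖ ^ 2 * (x 2 * bb L lam I ‖x‖) ^ 2) ∧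
          aa L lam I ob.del ‖x‖ ≤ C' * N x

end

end Vale.Agent.P363
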