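import Vale.Agent.P363.MFbD

/-! P363, block MF, second half: working definitions. -/

open MeasureTheory Set Metric Filter Topology
open scoped RealInnerProductSpace

namespace Vale.Agent.P363

noncomputable section

namespace MFb

def fr (L lam I : ℝ) (n : ℕ) (r : ℝ) : ℝ := fbar L lam I r / r ^ n

def ch (δ : ℝ) (x : E3) : ℝ := Real.cosh (√δ * x 2)

def sh (δ : ℝ) (x : E3) : ℝ := Real.sinh (√δ * x 2) / √δ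

def hq (δ : ℝ) (x : E3) : ℝ := 1 + δ * x 2 ^ 2 - ch δ x / 4

def TT (L lam I δ : ℝ) (x : E3) : ℝ := ch δ x * RS L lam I δ ‖x‖

/-- Numerical parameters; `θ = √lam`. -/
structure Num (L δ lam θ η r1 I C3 K1 K : ℝ) : Prop where
  hL : 1 ≤ L
  hδ : 0 < δ
  hδ1 : δ ≤ 1 / 50
  hθ : 0 < θ
  sq : θ ^ 2 = lam
  hη : 20 * K ^ 4 * η ≤ 1
  hI : I ∈ Icc (2 / 5 : ℝ) (3 / 5)
  hC3 : 1 ≤ C3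
  hK1 : 1 ≤ K1
  hK : 1 ≤ K
  hr : 2000 * K ^ 3 * C3 * L ≤ δ * r1
  hs : 10 ^ 6 * K ^ 4 * C3 * K1 * θ ≤ η * δ

/-- The two even barriers. -/
structure Par (L δ lam η r1 ε I C3 K : ℝ) (g Yp Ym : E3 → ℝ) : Prop where
  yp : ∃ gY l, C2 (Ext r1) Yp gY l ∧ ∀ x ∈ Ext r1,
    η * Yp x ≤ -l x / 2 + (V L x + I + δ - C3 * lam) * Yp x
  ym : ∃ gY l, C2 (Ext r1) Ym gY l ∧ ∀ x ∈ Ext r1,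
    -l x / 2 + (V L x + I + δ + C3 * lam) * Ym x ≤ 0
  pos : ∀ x, 0 < Yp x ∧ 0 < Ym x
  dec : ∃ M, ∀ x ∈ Ext r1, Ym x ≤ M * (1 + ‖x‖) ^ 2 * Real.exp (-(4 / 5) * ‖x‖)
  ex : ∀ x ∈ Ext r1, Real.exp (-‖x‖ / 20) * fbar L lam I ‖x‖ ≤ Yp x
  col : ∀ x ∈ Ext r1, ‖x‖ < r1 + 1 → x ∈ Blk L (3 * r1) ε ∧ g x ≤ K * Yp x ∧ ε ≤ Yp x ∧
    Ym x ≤ K * (g x - ε) ∧ TT L lam I δ x ≤ Yp x
  slab : ∀ x ∈ Slab r1, RT L lam I δ ‖x‖ ≤ K * Ym x ∧ (Yp x ≤ K * RT L lam I δ ‖x‖ ∨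
    (Yp x ≤ K * η * RS L lam I δ ‖x‖ ∧ RT L lam I δ ‖x‖ ≤ RS L lam I δ ‖x‖))

/-- The input bounds, symmetrized. -/
structure Hy {c0 L : ℝ} {ob : OB c0 L} {lam r1 ε C2 C3 Cq I : ℝ} {N : E3 → ℝ} {gN : E3 → E3}
    (vb : VB ob lam r1 ε C2 C3 Cq I N gN) (K1 K : ℝ) : Prop where
  c2 : 1 ≤ C2 ∧ C2 ≤ K
  f1 : ∀ᵐ x : E3, x ∈ Ext r1 → N x ≤ K1 * fbar L lam I ‖x‖ ∧
    vb.m x ≤ K1 * (Real.exp (-‖x‖ / 20) * fbar L lam I ‖x‖)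
  f4 : ∀ᵐ x : E3, x ∈ Ext r1 → x 2 ^ 2 * bb L lam I ‖x‖ ≤ K * (x 2 * vb.d x) ∧
    |vb.d x| ≤ K * (|x 2| * bb L lam I ‖x‖ * Real.exp (4 * L * |x 2| / ‖x‖))

/-- The parameters are eventually admissible. -/
def T_Par : Prop := ∀ c0 : ℝ, ∀ᶠ r0 : ℝ in atTop, ∀ C K0 : ℝ, 1 ≤ C →
  ∃ K : ℝ, K0 ≤ K ∧ ∀ᶠ ω in 𝓝[>] (0 : ℝ), ∀ᶠ L : ℝ in atTop,
    ∀ ob : OB c0 L, OBb ob C r0 ω → ∀ C3 K1 : ℝ, 1 ≤ C3 → 1 ≤ K1 → ∀ᶠ r1 : ℝ in atTop,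
      ∀ᶠ ε in 𝓝[>] (0 : ℝ), ∀ᶠ lam in 𝓝[>] (0 : ℝ), ∀ I : ℝ, |I + ob.eu| ≤ C3 * lam →
        Num L ob.del lam (√lam) (eta lam) r1 I C3 K1 K ∧
          ∃ Yp Ym, Par L ob.del lam (eta lam) r1 ε I C3 K ob.g Yp Ym

end MFb

end

end Vale.Agent.P363
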