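import Vale.Agent.P363.C
import Vale.Agent.P363.DefsV

/-! P363, block MV: definitions. -/

open MeasureTheory Set Metric Filter Topology
open scoped RealInnerProductSpace

namespace Vale.Agent.P363

noncomputable section

/-- Inner product of two slices. -/
def sip (a b : E9 → ℝ) (x : E3) : ℝ := ∫ y, a (x, y) * b (x, y)

/-- The ion form minus `E0` on slices. -/
def h2 (L lam E0 : ℝ) (a b : O3) (x : E3) : ℝ :=
  ∫ y, ((1 / 2) * (⟪a.g2 (x, y), b.g2 (x, y)⟫ + ⟪a.g3 (x, y), b.g3 (x, y)⟫) +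
    (W2 L lam y - E0) * a.f (x, y) * b.f (x, y))

/-- Kinetic energy of the first particle plus the ion form minus `E0`. -/
def Q0 (L lam E0 : ℝ) (a b : O3) : ℝ :=
  ∫ w, ((1 / 2) * (⟪a.g1 w, b.g1 w⟫ + ⟪a.g2 w, b.g2 w⟫ + ⟪a.g3 w, b.g3 w⟫) +
    (W2 L lam w.2 - E0) * a.f w * b.f w)

/-- The vector equation `-(1/2) Δ Z + (H - E0) Z + S = 0`. -/
structure VE (L lam E0 : ℝ) (Z : O3) (S : E9 → ℝ) : Prop where
  l2 : MemLp S 2 volume
  eq : ∀ b : O3, Q0 L lam E0 Z b + ∫ w, S w * b.f w = 0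

/-- The exact identity for the norm `w` of a vector solution; `K` is the squared norm of the
gradient of the vector. -/
structure EqQ (w : E3 → ℝ) (gw : E3 → E3) (K R : E3 → ℝ) : Prop where
  h : H1 w gw
  iK : Integrable K
  iR : Integrable R
  le : ∀ᵐ x : E3, ‖gw x‖ ^ 2 ≤ K x
  eq : ∀ ψ p, LD univ ψ p → (∃ M, ∀ᵐ x : E3, |ψ x| ≤ M) →
    MemLp (fun x => w x • p x) 2 volume →
    ∫ x, ((1 / 2) * (K x * ψ x + w x * ⟪gw x, p x⟫) + R x * ψ x) = 0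

open Classical in
/-- The slice of a three particle function as an ion state. -/
def O3.sl (a : O3) (x : E3) : O2 :=
  if h : H2 (fun y => a.f (x, y)) (fun y => a.g2 (x, y)) (fun y => a.g3 (x, y)) then ⟨_, _, _, h⟩
  else ⟨_, _, _, H2.tensor H1.zero H1.zero⟩

section fam

variable {n : ℕ}

def fW (Z : Fin n → O3) (x : E3) : ℝ := √(∑ j, sip (Z j).f (Z j).f x)

def fG (Z : Fin n → O3) (x : E3) : E3 :=
  (fW Z x)⁻¹ • ∑ j, ∫ y, (Z j).f (x, y) • (Z j).g1 (x, y)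

def fK (Z : Fin n → O3) (x : E3) : ℝ := ∑ j, ∫ y, ‖(Z j).g1 (x, y)‖ ^ 2

def fR (L lam E0 : ℝ) (Z : Fin n → O3) (S : Fin n → E9 → ℝ) (x : E3) : ℝ :=
  ∑ j, (h2 L lam E0 (Z j) (Z j) x + sip (S j) (Z j).f x)

end fam

/-- Projection on an ion state. -/
def prj (T : O2) (f : E9 → ℝ) (x : E3) : ℝ := ∫ y, T.f y * f (x, y)

def gprj (T : O2) (a : O3) (x : E3) : E3 := ∫ y, T.f y • a.g1 (x, y)

theorem h1_prj (T : O2) (a : O3) : H1 (prj T a.f) (gprj T a) := a.h.h1.proj T.l2.1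

/-- Tensor products. -/
def O3.ten {φ : E3 → ℝ} {p : E3 → E3} (h : H1 φ p) (T : O2) : O3 := ⟨_, _, _, _, H3.tensor h T⟩

def O3.sub (a b : O3) : O3 := a.add (b.cmul (-1))

section mb

variable {c0 L lam C C1 : ℝ} {ob : OB c0 L} (mb : MB ob lam C C1)

def MB.I : ℝ := mb.E0 - mb.E

def MB.A : O3 := mb.F.cmul √2

def MB.B : O3 := mb.F.perm13

/-- Even part in the first variable. -/
def MB.Ap : O3 := (mb.A.add mb.A.refl1).cmul (1 / 2)

/-- Odd part in the first variable. -/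
def MB.Am : O3 := (mb.A.sub mb.A.refl1).cmul (1 / 2)

def MB.d : E3 → ℝ := prj mb.P mb.Am.f

def MB.gd : E3 → E3 := gprj mb.P mb.Am

def MB.chi : O3 := mb.Am.sub (O3.ten (h1_prj mb.P mb.Am) mb.P)

/-- The source of a solution of the full equation. -/
def MB.src (a : O3) (w : E9) : ℝ := (V L w.1 + mb.I + lam * Mx w.1 w.2) * a.f w

def MB.Sp (w : E9) : ℝ := (mb.src mb.A w + mb.src mb.A (sg w.1, w.2)) / 2

def MB.Sm (w : E9) : ℝ := (mb.src mb.A w - mb.src mb.A (sg w.1, w.2)) / 2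

def MB.Rd : E3 → ℝ := prj mb.P mb.Sm

def MB.Sc (w : E9) : ℝ := mb.Sm w - mb.Rd w.1 * mb.P.f w.2

def MB.ZN : Fin 2 → O3 := ![mb.A, mb.B]

def MB.SN : Fin 2 → E9 → ℝ := ![mb.src mb.A, mb.src mb.B]

def MB.ZX : Fin 3 → O3 := ![mb.Ap, mb.B, mb.chi]

def MB.SX : Fin 3 → E9 → ℝ := ![mb.Sp, mb.src mb.B, mb.Sc]

def MB.N : E3 → ℝ := fW mb.ZN

def MB.gN : E3 → E3 := fG mb.ZN

def MB.RN : E3 → ℝ := fR L lam mb.E0 mb.ZN mb.SN

def MB.a : E3 → ℝ := fW ![mb.Ap]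

def MB.b : E3 → ℝ := fW ![mb.B]

def MB.c : E3 → ℝ := fW ![mb.chi]

def MB.X : E3 → ℝ := fW mb.ZX

def MB.RX : E3 → ℝ := fR L lam mb.E0 mb.ZX mb.SX

def MB.m (x : E3) : ℝ := √(∫ y in {y : E6 | ‖x‖ / 2 < rho6 y}, mb.chi.f (x, y) ^ 2)

def MB.dT : E3 → ℝ := prj mb.T mb.B.f

def MB.dS : E3 → ℝ := prj mb.S mb.Ap.f

end mb

/-- The smallness assumptions shared by all parts of block MV. -/
structure Sm {c0 L : ℝ} (ob : OB c0 L) : Prop where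
  c0 : 0 < c0 ∧ c0 ≤ 1 / 8
  L : 1 ≤ L
  eg : |ob.eg + 1 / 2| ≤ 1 / 100
  eu : |ob.eu + 1 / 2| ≤ 1 / 100

end

end Vale.Agent.P363
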