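import Vale.Agent.P363.MVG4

/-! P363, block MV: more definitions. -/

open MeasureTheory Set Metric Filter Topology
open scoped RealInnerProductSpace

namespace Vale.Agent.P363

noncomputable section

/-- The part of `Mx x` that is even in `x`. -/
def Me (x : E3) (w : E6) : ℝ := (Mx x w + Mx (sg x) w) / 2

/-- The smallness assumptions on the coupling constant. -/
structure Sl {c0 L : ℝ} (ob : OB c0 L) (lam C C1 C3 : ℝ) : Prop where
  sm : Sm ob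
  om : ob.eu ≤ -1 / 2 + c0
  hC : 1 ≤ C
  hC1 : 1 ≤ C1
  l0 : 0 < lam
  l1 : (C1 + 2) * lam ≤ ob.del
  l2 : C3 * lam ≤ 1 / 100
  c3 : 2 * C1 + 4 * C + 2 ≤ C3

section mb

variable {c0 L lam C C1 : ℝ} {ob : OB c0 L} (mb : MB ob lam C C1)

def MB.Ra : E3 → ℝ := fR L lam mb.E0 ![mb.Ap] ![mb.Sp]

def MB.Rb : E3 → ℝ := fR L lam mb.E0 ![mb.B] ![mb.src mb.B]

def MB.Rc : E3 → ℝ := fR L lam mb.E0 ![mb.chi] ![mb.Sc]

def MB.RT (x : E3) : ℝ := prj mb.T (mb.src mb.B) x + (mb.ET - mb.E0) * mb.dT x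

def MB.RS (x : E3) : ℝ := prj mb.S mb.Sp x + (mb.ES - mb.E0) * mb.dS x

end mb

/-- The truncated Agmon exponent. -/
def wf (R : ℝ) (y : E6) : ℝ := min (rho6 y) R / 10

section ob

variable {c0 L : ℝ} (ob : OB c0 L)

def O2.ten {φ ψ : E3 → ℝ} {p q : E3 → E3} (h : H1 φ p) (h' : H1 ψ q) : O2 :=
  ⟨_, _, _, H2.tensor h h'⟩

/-- `Finf` as an element of `O3`. -/
def OB.Fi : O3 :=
  ((O3.ten ob.hu (O2.ten ob.hg ob.hg)).sub (O3.ten ob.hg (O2.ten ob.hu ob.hg))).cmul (√2)⁻¹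

/-- `Finf ∘ p13` as an element of `O3`. -/
def OB.Bi : O3 :=
  ((O3.ten ob.hg (O2.ten ob.hg ob.hu)).sub (O3.ten ob.hg (O2.ten ob.hu ob.hg))).cmul (√2)⁻¹

/-- The source of the noninteracting solutions. -/
def OB.srcI (lam E0 : ℝ) (a : O3) (w : E9) : ℝ :=
  (V L w.1 + E0 - (2 * ob.eg + ob.eu) - lam * ‖w.2.1 - w.2.2‖⁻¹) * a.f w

end ob

end

end Vale.Agent.P363
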