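import Vale.Agent.P363.MVD

/-! P363, block MV: slices and the algebra of vector equations. -/

open MeasureTheory Set Metric Filter Topology
open scoped RealInnerProductSpace

namespace Vale.Agent.P363

noncomputable section

variable {L lam E0 : ℝ}

theorem mvg1_W (a b : O3) :
    Integrable fun w : E9 => (W2 L lam w.2 - E0) * a.f w * b.f w := by
  refine (((a.mem L lam).2.1.integrable_mul b.l2.1).sub
    ((a.int b L lam).1.const_mul E0)).congr (Eventually.of_forall fun w => ?_)
  simp only [Pi.sub_apply, Pi.mul_apply]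
  ring

theorem mvg1_int (a b : O3) : Integrable fun w : E9 =>
    (1 / 2) * (⟪a.g1 w, b.g1 w⟫ + ⟪a.g2 w, b.g2 w⟫ + ⟪a.g3 w, b.g3 w⟫) +
      (W2 L lam w.2 - E0) * a.f w * b.f w :=
  ((((a.int b L lam).2.1.add (a.int b L lam).2.2.1).add (a.int b L lam).2.2.2.1).const_mul _).add
    (mvg1_W a b)

theorem mvg1_mp : MeasurePreserving (fun w : E9 => (sg w.1, w.2)) volume volume :=
  mp_sg.prod (MeasurePreserving.id volume)

theorem mvg1_refl (f : E9 → ℝ) : ∫ w : E9, f (sg w.1, w.2) = ∫ w, f w :=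
  mvg1_mp.integral_comp (Homeomorph.measurableEmbedding
    { toFun := fun w : E9 => (sg w.1, w.2)
      invFun := fun w : E9 => (sg w.1, w.2)
      left_inv := fun w => by simp only [sg_sg]
      right_inv := fun w => by simp only [sg_sg]
      continuous_toFun := (continuous_sg.comp continuous_fst).prodMk continuous_snd
      continuous_invFun := (continuous_sg.comp continuous_fst).prodMk continuous_snd }) f

theorem O3.sl_ae (a : O3) : ∀ᵐ x : E3, (a.sl x).f = (fun y => a.f (x, y)) ∧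
    (a.sl x).g1 = (fun y => a.g2 (x, y)) ∧ (a.sl x).g2 = fun y => a.g3 (x, y) := by
  filter_upwards [a.h.slice] with x hx
  simp only [O3.sl, dif_pos hx, and_self]

theorem h2_eq (L lam E0 : ℝ) (a b : O3) : ∀ᵐ x : E3,
    h2 L lam E0 a b x = q2 L lam (a.sl x) (b.sl x) - E0 * ip2 (a.sl x) (b.sl x) ∧
      sip a.f b.f x = ip2 (a.sl x) (b.sl x) := by
  filter_upwards [a.sl_ae, b.sl_ae] with x ha hb
  have h1 := CO2Aux.intq (a.sl x) (b.sl x) L lam
  have h3 := ((a.sl x).int (b.sl x) L lam).1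
  rw [q2, ip2, ← integral_const_mul, ← integral_sub h1 (h3.const_mul _)]
  simp only [ha.1, ha.2.1, ha.2.2, hb.1, hb.2.1, hb.2.2]
  exact ⟨integral_congr_ae (Eventually.of_forall fun y => by ring), rfl⟩

theorem sip_int {f g : E9 → ℝ} (hf : MemLp f 2 volume) (hg : MemLp g 2 volume) :
    Integrable (sip f g) ∧ ∫ x, sip f g x = ∫ w, f w * g w := by
  have h : Integrable (fun w => f w * g w) ((volume : Measure E3).prod (volume : Measure E6)) :=
    hf.integrable_mul hg
  exact ⟨h.integral_prod_left, (integral_prod _ h).symm⟩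

theorem sip_nonneg (f : E9 → ℝ) (x : E3) : 0 ≤ sip f f x := by
  exact integral_nonneg fun y => mul_self_nonneg _

theorem sip_cs {f g : E9 → ℝ} (hf : MemLp f 2 volume) (hg : MemLp g 2 volume) :
    ∀ᵐ x : E3, |sip f g x| ≤ √(sip f f x) * √(sip g g x) := by
  filter_upwards [(ae_slice2 (ν := volume) hf).1, (ae_slice2 (ν := volume) hg).1] with x h1 h2
  simpa only [sip, sq] using (cs_integral h1 h2).2

theorem h2_int (L lam E0 : ℝ) (a b : O3) : Integrable (h2 L lam E0 a b) ∧
    Q0 L lam E0 a b = (1 / 2) * (∫ w, ⟪a.g1 w, b.g1 w⟫) + ∫ x, h2 L lam E0 a b x := by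
  have h1 : Integrable (fun w : E9 => (1 / 2) * (⟪a.g2 w, b.g2 w⟫ + ⟪a.g3 w, b.g3 w⟫) +
      (W2 L lam w.2 - E0) * a.f w * b.f w) ((volume : Measure E3).prod (volume : Measure E6)) :=
    (((a.int b L lam).2.2.1.add (a.int b L lam).2.2.2.1).const_mul _).add (mvg1_W a b)
  refine ⟨h1.integral_prod_left, ?_⟩
  have h3 := integral_prod _ h1
  have h4 := integral_add ((a.int b L lam).2.1.const_mul (1 / 2)) h1
  rw [integral_const_mul] at h4
  refine Eq.trans (integral_congr_ae (Eventually.of_forall fun w => ?_)) (h4.trans ?_)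
  · ring
  · exact congrArg _ h3

theorem Q0_comm (a b : O3) : Q0 L lam E0 a b = Q0 L lam E0 b a := by
  refine integral_congr_ae (Eventually.of_forall fun w => ?_)
  simp only [real_inner_comm (a.g1 w), real_inner_comm (a.g2 w), real_inner_comm (a.g3 w)]
  ring

theorem Q0_add (a b c : O3) : Q0 L lam E0 (a.add b) c = Q0 L lam E0 a c + Q0 L lam E0 b c := by
  rw [Q0, Q0, Q0, ← integral_add (mvg1_int a c) (mvg1_int b c)]
  refine integral_congr_ae (Eventually.of_forall fun w => ?_)
  simp only [O3.add, inner_add_left]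
  ring

theorem Q0_cmul (t : ℝ) (a c : O3) : Q0 L lam E0 (a.cmul t) c = t * Q0 L lam E0 a c := by
  rw [Q0, Q0, ← integral_const_mul]
  refine integral_congr_ae (Eventually.of_forall fun w => ?_)
  simp only [O3.cmul, real_inner_smul_left]
  ring

theorem Q0_refl1 (a b : O3) : Q0 L lam E0 a.refl1 b = Q0 L lam E0 a b.refl1 := by
  rw [Q0, Q0, ← mvg1_refl]
  refine integral_congr_ae (Eventually.of_forall fun w => ?_)
  simp only [O3.refl1, sg_sg]
  rw [← inner_sg, sg_sg]

variable {Z Z' : O3} {S S' : E9 → ℝ}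

theorem VE.add (h : VE L lam E0 Z S) (h' : VE L lam E0 Z' S') :
    VE L lam E0 (Z.add Z') (fun w => S w + S' w) := by
  refine ⟨h.l2.add h'.l2, fun b => ?_⟩
  simp only [Q0_add, add_mul]
  have i1 : Integrable fun w => S w * b.f w := h.l2.integrable_mul b.l2.1
  have i2 : Integrable fun w => S' w * b.f w := h'.l2.integrable_mul b.l2.1
  rw [integral_add i1 i2]
  linarith [h.eq b, h'.eq b]

theorem VE.cmul (t : ℝ) (h : VE L lam E0 Z S) : VE L lam E0 (Z.cmul t) (fun w => t * S w) := by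
  refine ⟨h.l2.const_mul t, fun b => ?_⟩
  simp only [Q0_cmul, mul_assoc]
  rw [integral_const_mul, ← mul_add, h.eq b, mul_zero]

theorem VE.sub (h : VE L lam E0 Z S) (h' : VE L lam E0 Z' S') :
    VE L lam E0 (Z.sub Z') (fun w => S w - S' w) := by
  simpa only [O3.sub, neg_mul, one_mul, ← sub_eq_add_neg] using h.add (h'.cmul (-1))

theorem VE.refl1 (h : VE L lam E0 Z S) : VE L lam E0 Z.refl1 (fun w => S (sg w.1, w.2)) := by
  refine ⟨h.l2.comp_measurePreserving mvg1_mp, fun b => ?_⟩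
  rw [Q0_refl1, ← mvg1_refl, ← h.eq b.refl1]
  simp only [sg_sg]
  rfl

theorem VE.congr (h : VE L lam E0 Z S) (h1 : ∀ᵐ w : E9, Z'.f w = Z.f w)
    (h2 : ∀ᵐ w : E9, S' w = S w) : VE L lam E0 Z' S' := by
  refine ⟨h.l2.ae_eq (h2.mono fun w hw => hw.symm), fun b => ?_⟩
  rw [← h.eq b]
  congr 1
  · refine integral_congr_ae ?_
    filter_upwards [h1, Z.h.unique Z'.h h1] with w e0 e1
    rw [e0, e1.1, e1.2.1, e1.2.2]
  · exact integral_congr_ae (h2.mono fun w hw => by simp only [hw])

end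

end Vale.Agent.P363
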