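import Vale.Agent.P363.MVG1

/-! P363, block MV: testing vector equations. -/

open MeasureTheory Set Metric Filter Topology
open scoped RealInnerProductSpace

namespace Vale.Agent.P363

noncomputable section

variable {L lam E0 : ℝ} {Z : O3} {S : E9 → ℝ}

theorem mvg2_nrm (f : E9 → ℝ) (x : E3) : nrm volume f x = √(sip f f x) := by
  simp only [nrm, sip, sq]

theorem mvg2_ld {n : ℕ} {f : Fin n → E3 → ℝ} {g : Fin n → E3 → E3} (h : ∀ j, LD univ (f j) (g j))
    (s : Finset (Fin n)) : LD univ (fun x => ∑ j ∈ s, f j x) (fun x => ∑ j ∈ s, g j x) := by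
  induction s using Finset.induction_on with
  | empty => simpa using LD.const univ 0
  | insert a s ha ih =>
    simp only [Finset.sum_insert ha]
    exact (h a).add ih

theorem mvg2_bd {ψ : E3 → ℝ} {M : ℝ} (hb : ∀ᵐ x : E3, |ψ x| ≤ M) : ∀ᵐ x : E3, ‖ψ x‖ ≤ M :=
  hb.mono fun _ h => (Real.norm_eq_abs _).trans_le h

theorem mvg2_inner {w : E3 → ℝ} {g p : E3 → E3} (hg : MemLp g 2 volume)
    (hp : MemLp (fun x => w x • p x) 2 volume) : Integrable (fun x => w x * ⟪g x, p x⟫) := by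
  simpa only [real_inner_smul_right] using CO3x.int_inner hg hp

/-- Testing with `ψ (x) Y (x, y)`. -/
theorem VE.test (h : VE L lam E0 Z S) (Y : O3) {ψ : E3 → ℝ} {p : E3 → E3} (hψ : LD univ ψ p)
    {M : ℝ} (hb : ∀ᵐ x : E3, |ψ x| ≤ M)
    (hp : MemLp (fun x => √(sip Y.f Y.f x) • p x) 2 volume) :
    Integrable (fun x => (∫ y, ⟪Z.g1 (x, y), Y.g1 (x, y)⟫) * ψ x) ∧
    Integrable (fun x => ⟪∫ y, Y.f (x, y) • Z.g1 (x, y), p x⟫) ∧
    Integrable (fun x => (h2 L lam E0 Z Y x + sip S Y.f x) * ψ x) ∧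
    ∫ x, ((1 / 2) * ((∫ y, ⟪Z.g1 (x, y), Y.g1 (x, y)⟫) * ψ x +
      ⟪∫ y, Y.f (x, y) • Z.g1 (x, y), p x⟫) + (h2 L lam E0 Z Y x + sip S Y.f x) * ψ x) = 0 := by
  have hg : MemLp (fun x => nrm volume Y.f x • p x) 2 volume := by
    simpa only [mvg2_nrm] using hp
  let b : O3 := ⟨_, _, _, _, Y.h.mul1 hψ hb hg⟩
  have e0 := h.eq b
  obtain ⟨i1, e1⟩ := h2_int L lam E0 Z b
  obtain ⟨i2, e2⟩ := sip_int h.l2 b.l2.1
  have f1 : h2 L lam E0 Z b = fun x => h2 L lam E0 Z Y x * ψ x := by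
    funext x
    simp only [h2, b, real_inner_smul_right]
    rw [← integral_mul_const]
    exact integral_congr_ae (Eventually.of_forall fun y => by ring)
  have f2 : sip S b.f = fun x => sip S Y.f x * ψ x := by
    funext x
    simp only [sip, b]
    rw [← integral_mul_const]
    exact integral_congr_ae (Eventually.of_forall fun y => by ring)
  rw [f1] at i1 e1
  rw [f2] at i2 e2
  have iA : Integrable (fun w : E9 => ⟪Z.g1 w, Y.g1 w⟫ * ψ w.1)
      ((volume : Measure E3).prod (volume : Measure E6)) :=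
    Integrable.mul_bdd (O3.int Z Y L lam).2.1 (ctst_mf hψ).comp_fst
      (Measure.quasiMeasurePreserving_fst.ae (mvg2_bd hb))
  have f3 : ∀ w : E9, ⟪Z.g1 w, b.g1 w⟫ = ⟪Z.g1 w, Y.g1 w⟫ * ψ w.1 + ⟪p w.1, Y.f w • Z.g1 w⟫ := by
    intro w
    simp only [b, inner_add_right, real_inner_smul_right, real_inner_comm (Z.g1 w) (p w.1)]
    ring
  have iB : Integrable (fun w : E9 => ⟪p w.1, Y.f w • Z.g1 w⟫)
      ((volume : Measure E3).prod (volume : Measure E6)) :=
    (Integrable.sub (O3.int Z b L lam).2.1 iA).congr (Eventually.of_forall fun w => by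
      simp only [Pi.sub_apply, f3, add_sub_cancel_left])
  have f4 : ∀ᵐ x : E3, ∫ y : E6, ⟪p x, Y.f (x, y) • Z.g1 (x, y)⟫ =
      ⟪∫ y, Y.f (x, y) • Z.g1 (x, y), p x⟫ := by
    filter_upwards [(ae_slice2 Y.h.h1.l2).1, (ae_slice2 Z.h.h1.l2g).1] with x h1 h2
    rw [integral_inner (norm_int_le h1 h2).1, real_inner_comm]
  have jA : Integrable (fun x => (∫ y, ⟪Z.g1 (x, y), Y.g1 (x, y)⟫) * ψ x) := by
    simpa only [integral_mul_const] using iA.integral_prod_left
  have jB : Integrable (fun x => ⟪∫ y, Y.f (x, y) • Z.g1 (x, y), p x⟫) :=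
    iB.integral_prod_left.congr f4
  have jC : Integrable (fun x => (h2 L lam E0 Z Y x + sip S Y.f x) * ψ x) := by
    simpa only [add_mul] using i1.fun_add i2
  refine ⟨jA, jB, jC, ?_⟩
  have e3 : ∫ w : E9, ⟪Z.g1 w, b.g1 w⟫ = (∫ x, (∫ y, ⟪Z.g1 (x, y), Y.g1 (x, y)⟫) * ψ x) +
      ∫ x, ⟪∫ y, Y.f (x, y) • Z.g1 (x, y), p x⟫ := by
    have a1 := integral_prod _ iA
    have a2 := integral_prod _ iB
    simp only [integral_mul_const] at a1
    rw [integral_congr_ae f4] at a2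
    rw [← a1, ← a2, ← integral_add iA iB]
    exact integral_congr_ae (Eventually.of_forall f3)
  rw [integral_add ((jA.fun_add jB).const_mul _) jC, integral_const_mul, integral_add jA jB]
  simp only [add_mul]
  rw [integral_add i1 i2, e2, ← e3]
  linarith

/-- The norm of a finite family. -/
theorem fam_h1 {n : ℕ} (Z : Fin n → O3) : H1 (fW Z) (fG Z) ∧ Integrable (fK Z) ∧
    (∀ x, 0 ≤ fW Z x ∧ fW Z x ^ 2 = ∑ j, sip (Z j).f (Z j).f x) ∧
    ∫ x, fW Z x ^ 2 = ∑ j, ip3 (Z j) (Z j) ∧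
    ∀ᵐ x : E3, ‖fG Z x‖ ^ 2 ≤ fK Z x ∧
      fW Z x • fG Z x = ∑ j, ∫ y, (Z j).f (x, y) • (Z j).g1 (x, y) := by
  have q0 : ∀ x, 0 ≤ ∑ j, sip (Z j).f (Z j).f x := fun x =>
    Finset.sum_nonneg fun j _ => sip_nonneg _ x
  have hsq : ∀ x, fW Z x ^ 2 = ∑ j, sip (Z j).f (Z j).f x := fun x => Real.sq_sqrt (q0 x)
  have hq : LD univ (fun x => ∑ j, sip (Z j).f (Z j).f x)
      (fun x => (2 : ℝ) • ∑ j, ∫ y, (Z j).f (x, y) • (Z j).g1 (x, y)) := by
    have h1 := mvg2_ld (fun j => ((Z j).h.h1.lv univ).sq isOpen_univ) Finset.univ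
    simpa only [sip, sq, Finset.smul_sum] using h1
  have iK : Integrable (fK Z) :=
    integrable_finsetSum _ fun j _ => (ae_slice2 (Z j).h.h1.l2g).2.1
  have iq : ∀ j, Integrable (sip (Z j).f (Z j).f) := fun j => (sip_int (Z j).l2.1 (Z j).l2.1).1
  have hpt : ∀ᵐ x : E3, ‖fG Z x‖ ^ 2 ≤ fK Z x ∧
      fW Z x • fG Z x = ∑ j, ∫ y, (Z j).f (x, y) • (Z j).g1 (x, y) := by
    filter_upwards [ae_all_iff.2 fun j => (ae_slice2 (Z j).h.h1.l2).1,
      ae_all_iff.2 fun j => (ae_slice2 (Z j).h.h1.l2g).1] with x h1 h2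
    have k0 : ∀ j, 0 ≤ ∫ y, ‖(Z j).g1 (x, y)‖ ^ 2 := fun j => integral_nonneg fun y => sq_nonneg _
    refine vec2_pt (q0 x) (Finset.sum_nonneg fun j _ => k0 j) ?_
    refine (pow_le_pow_left₀ (norm_nonneg _) (norm_sum_le _ _) 2).trans
      (Finset.sum_sq_le_sum_mul_sum_of_sq_le_mul _ (fun j _ => sip_nonneg _ x) (fun j _ => k0 j)
        fun j _ => ?_)
    simpa only [sip, sq] using (norm_int_le (h1 j) (h2 j)).2
  have m0 := vec2_meas hq
  rw [Measure.restrict_univ] at m0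
  have m1 : AEStronglyMeasurable (fW Z) volume := m0.1
  have m2 : AEStronglyMeasurable (fG Z) volume := m0.2
  have l2 : MemLp (fW Z) 2 volume := by
    refine (memLp_two_iff_integrable_sq m1).2 ?_
    simp only [hsq]
    exact integrable_finsetSum _ fun j _ => iq j
  have l2g : MemLp (fG Z) 2 volume := by
    refine (memLp_two_iff_integrable_sq_norm m2).2 (iK.mono' (m2.norm.pow 2) ?_)
    filter_upwards [hpt] with x hx
    rw [Real.norm_of_nonneg (sq_nonneg _)]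
    exact hx.1
  refine ⟨⟨vec2_sqrt isOpen_univ hq q0 fun K hK _ => ?_, l2, l2g⟩, iK,
    fun x => ⟨Real.sqrt_nonneg _, hsq x⟩, ?_, hpt⟩
  · have := ctst_fin hK
    exact ((l2g.restrict K).integrable one_le_two).norm
  · simp only [hsq]
    rw [integral_finsetSum _ fun j _ => iq j]
    exact Finset.sum_congr rfl fun j _ => (sip_int (Z j).l2.1 (Z j).l2.1).2

theorem fam_eq {n : ℕ} {Z : Fin n → O3} {S : Fin n → E9 → ℝ}
    (h : ∀ j, VE L lam E0 (Z j) (S j)) : EqQ (fW Z) (fG Z) (fK Z) (fR L lam E0 Z S) := by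
  obtain ⟨h1, iK, hW, -, hpt⟩ := fam_h1 Z
  refine ⟨h1, iK, integrable_finsetSum _ fun j _ =>
    (h2_int L lam E0 (Z j) (Z j)).1.add (sip_int (h j).l2 (Z j).l2.1).1,
    hpt.mono fun x hx => hx.1, ?_⟩
  rintro ψ p hψ ⟨M, hb⟩ hp
  have hj : ∀ j, MemLp (fun x => √(sip (Z j).f (Z j).f x) • p x) 2 volume := by
    intro j
    refine hp.of_le ((Real.continuous_sqrt.comp_aestronglyMeasurable
      (sip_int (Z j).l2.1 (Z j).l2.1).1.aestronglyMeasurable).smul (ctst_mg hψ))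
      (Eventually.of_forall fun x => ?_)
    rw [norm_smul, norm_smul, Real.norm_of_nonneg (Real.sqrt_nonneg _),
      Real.norm_of_nonneg (hW x).1]
    exact mul_le_mul_of_nonneg_right (Real.sqrt_le_sqrt (Finset.single_le_sum
      (f := fun j => sip (Z j).f (Z j).f x) (fun j _ => sip_nonneg _ x) (Finset.mem_univ j)))
      (norm_nonneg _)
  have ht := fun j => (h j).test (Z j) hψ hb (hj j)
  have e1 := Finset.sum_eq_zero (s := Finset.univ) fun j _ => (ht j).2.2.2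
  rw [← integral_finsetSum _ fun j _ =>
    ((((ht j).1.fun_add (ht j).2.1).const_mul _).fun_add (ht j).2.2.1)] at e1
  refine Eq.trans (integral_congr_ae ?_) e1
  filter_upwards [hpt] with x hx
  rw [← real_inner_smul_left, hx.2]
  simp only [fK, fR, sum_inner, Finset.sum_mul, real_inner_self_eq_norm_sq,
    ← Finset.sum_add_distrib, Finset.mul_sum]

variable {w K R : E3 → ℝ} {gw : E3 → E3}

theorem EqQ.subQ (h : EqQ w gw K R) (U : Set E3) : SubQ U w gw R := by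
  refine ⟨h.h.l1 U, fun K _ _ => h.iR.integrableOn, fun ψ p ht h0 hp => ?_⟩
  obtain ⟨M, hb⟩ := ht.bd
  have hm := ctst_mf ht.ld
  have i1 := mvg2_inner h.h.l2g hp
  have i2 := h.iR.mul_bdd hm (mvg2_bd hb)
  refine le_trans (integral_mono_ae
    (((((CIntAux.int_gsq h.h).mul_bdd hm (mvg2_bd hb)).fun_add i1).const_mul _).fun_add i2)
    ((((h.iK.mul_bdd hm (mvg2_bd hb)).fun_add i1).const_mul _).fun_add i2) ?_)
    (h.eq ψ p ht.ld ⟨M, hb⟩ hp).le
  filter_upwards [h.le, h0] with x h1 h2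
  linarith [mul_le_mul_of_nonneg_right h1 h2]

/-- A scalar weak equation gives the identity for the square. -/
theorem EqQ.of_eq (h : H1 w gw) (hR : MemLp R 2 volume)
    (he : ∀ f gf, H1 f gf → ∫ x, ((1 / 2) * ⟪gw x, gf x⟫ + R x * f x) = 0) :
    EqQ w gw (fun x => ‖gw x‖ ^ 2) (fun x => R x * w x) := by
  refine ⟨h, CIntAux.int_gsq h, hR.integrable_mul h.l2, Eventually.of_forall fun _ => le_rfl, ?_⟩
  rintro ψ p hψ ⟨M, hb⟩ hp
  refine Eq.trans (integral_congr_ae (Eventually.of_forall fun x => ?_))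
    (he _ _ (h.mul_bdd hψ hb hp))
  simp only [inner_add_right, real_inner_smul_right, real_inner_self_eq_norm_sq]
  ring

/-- The global energy identity. -/
theorem EqQ.total (h : EqQ w gw K R) : (1 / 2) * (∫ x, K x) + ∫ x, R x = 0 := by
  have h1 := h.eq (fun _ => 1) (fun _ => 0) (LD.const univ 1)
    ⟨1, Eventually.of_forall fun _ => by simp⟩ (by simp)
  simp only [mul_one, inner_zero_right, mul_zero, add_zero] at h1
  rwa [integral_add (h.iK.const_mul _) h.iR, integral_const_mul] at h1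

end

end Vale.Agent.P363
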