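import Vale.Agent.P363.MVG2

/-! P363, block MV: the vector equations of the pieces of the ground state. -/

open MeasureTheory Set Metric Filter Topology
open scoped RealInnerProductSpace

namespace Vale.Agent.P363

noncomputable section

section

variable {L lam E0 : ℝ} {Z : O3} {S : E9 → ℝ}

theorem memLp_prj (T : O2) (hS : MemLp S 2 volume) : MemLp (prj T S) 2 volume := by
  exact (memLp_proj (μ := volume) (ν := volume) hS T.l2.1).1

theorem mvg3_smul {a : E6 → ℝ} {p : E6 → E3} (ha : MemLp a 2 volume) (hp : MemLp p 2 volume) :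
    Integrable (fun y => a y • p y) :=
  memLp_one_iff_integrable.1 (hp.smul ha)

theorem mvg3_c1 {a : E3 → ℝ} {b : E6 → ℝ} {f : E9 → ℝ} (hf : MemLp f 2 volume)
    (ha : MemLp a 2 volume) (hb : MemLp b 2 volume) :
    ∫ w : E9, a w.1 * b w.2 * f w = ∫ x, a x * ∫ y, b y * f (x, y) :=
  (cabs_c1 (μ := volume) (ν := volume) hf ha hb).1

theorem mvg3_ip (T : O2) (b : O3) : ∀ᵐ x : E3, ip2 T (b.sl x) = prj T b.f x := by
  filter_upwards [b.sl_ae] with x hx
  simp only [ip2, prj, hx.1]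

theorem mvg3_h2 (L lam E0 : ℝ) {φ : E3 → ℝ} {p : E3 → E3} (h : H1 φ p) (T : O2) (b : O3) :
    ∀ᵐ x : E3, h2 L lam E0 (O3.ten h T) b x =
      φ x * (q2 L lam T (b.sl x) - E0 * ip2 T (b.sl x)) := by
  filter_upwards [b.sl_ae] with x hx
  have h1 := CO2Aux.intq T (b.sl x) L lam
  have h3 := (O2.int T (b.sl x) L lam).1.const_mul E0
  rw [q2, ip2, ← integral_const_mul, ← integral_sub h1 h3, ← integral_const_mul, h2]
  refine integral_congr_ae (Eventually.of_forall fun y => ?_)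
  simp only [hx.1, hx.2.1, hx.2.2, O3.ten, real_inner_smul_left]
  ring

theorem mvg3_g1 {φ : E3 → ℝ} {p : E3 → E3} (h : H1 φ p) (T : O2) (b : O3) :
    ∫ w, ⟪(O3.ten h T).g1 w, b.g1 w⟫ = ∫ x, ⟪p x, gprj T b x⟫ := by
  have h1 := (O3.int (O3.ten h T) b 0 0).2.1
  rw [Measure.volume_eq_prod] at h1
  rw [Measure.volume_eq_prod, integral_prod _ h1]
  refine integral_congr_ae ?_
  filter_upwards [(ae_slice2 (ν := volume) b.l2.2.1).1] with x hx
  rw [gprj, ← integral_inner (mvg3_smul T.l2.1 hx)]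
  refine integral_congr_ae (Eventually.of_forall fun y => ?_)
  simp only [O3.ten, real_inner_smul_left, real_inner_smul_right]

theorem mvg3_Q (L lam E0 : ℝ) {φ : E3 → ℝ} {p : E3 → E3} (h : H1 φ p) (T : O2) (b : O3) :
    Q0 L lam E0 (O3.ten h T) b = (1 / 2) * (∫ x, ⟪p x, gprj T b x⟫) +
      ∫ x, φ x * (q2 L lam T (b.sl x) - E0 * ip2 T (b.sl x)) := by
  rw [(h2_int L lam E0 _ b).2, mvg3_g1, integral_congr_ae (mvg3_h2 L lam E0 h T b)]

/-- Projection on an eigenstate of the ion. -/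
theorem VE.prj (h : VE L lam E0 Z S) {T : O2} {Ea : ℝ}
    (hT : ∀ b : O2, q2 L lam T b = Ea * ip2 T b) (f : E3 → ℝ) (gf : E3 → E3) (hf : H1 f gf) :
    ∫ x, ((1 / 2) * ⟪gprj T Z x, gf x⟫ + (prj T S x + (Ea - E0) * prj T Z.f x) * f x) = 0 := by
  have h1 := h.eq (O3.ten hf T)
  rw [Q0_comm, mvg3_Q] at h1
  have hp := h1_prj T Z
  have e1 : ∫ x, f x * (q2 L lam T (Z.sl x) - E0 * ip2 T (Z.sl x)) =
      ∫ x, (Ea - E0) * Vale.Agent.P363.prj T Z.f x * f x := by
    refine integral_congr_ae ?_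
    filter_upwards [mvg3_ip T Z] with x hx
    rw [hT, hx]
    ring
  have e2 : ∫ w, S w * (O3.ten hf T).f w = ∫ x, Vale.Agent.P363.prj T S x * f x := by
    have := mvg3_c1 h.l2 hf.l2 T.l2.1
    simp only [mul_comm (f _) (∫ y, _)] at this
    refine Eq.trans (integral_congr_ae (Eventually.of_forall fun w => ?_)) this
    simp only [O3.ten]
    ring
  have i1 : Integrable fun x => (1 / 2 : ℝ) * ⟪gprj T Z x, gf x⟫ :=
    (CO3x.int_inner hp.l2g hf.l2g).const_mul _
  have i2 : Integrable fun x => Vale.Agent.P363.prj T S x * f x :=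
    cabs_mul (memLp_prj T h.l2) hf.l2
  have i3 : Integrable fun x => (Ea - E0) * Vale.Agent.P363.prj T Z.f x * f x :=
    cabs_mul (hp.l2.const_mul _) hf.l2
  have i4 : Integrable fun x => Vale.Agent.P363.prj T S x * f x +
      (Ea - E0) * Vale.Agent.P363.prj T Z.f x * f x := i2.add i3
  simp only [add_mul]
  rw [integral_add i1 i4, integral_add i2 i3, integral_const_mul]
  simp only [real_inner_comm (gprj T Z _) (gf _)] at h1
  rw [e1, e2] at h1
  linarith

/-- The equation of a tensor product. -/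
theorem ve_ten {φ R : E3 → ℝ} {p : E3 → E3} (h : H1 φ p) (hR : MemLp R 2 volume)
    (he : ∀ f gf, H1 f gf → ∫ x, ((1 / 2) * ⟪p x, gf x⟫ + R x * f x) = 0) {T : O2} {s : E6 → ℝ}
    (hs : MemLp s 2 volume)
    (hT : ∀ b : O2, q2 L lam T b - E0 * ip2 T b + ∫ y, s y * b.f y = 0) :
    VE L lam E0 (O3.ten h T) (fun w => R w.1 * T.f w.2 + φ w.1 * s w.2) := by
  refine ⟨(memLp_tensor (μ := volume) (ν := volume) hR T.l2.1).add
    (memLp_tensor (μ := volume) (ν := volume) h.l2 hs), fun b => ?_⟩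
  have hp := h1_prj T b
  have h1 := he _ _ hp
  have i1 : Integrable fun x => (1 / 2 : ℝ) * ⟪p x, gprj T b x⟫ :=
    (CO3x.int_inner h.l2g hp.l2g).const_mul _
  have i2 : Integrable fun x => R x * prj T b.f x := cabs_mul hR hp.l2
  rw [integral_add i1 i2, integral_const_mul] at h1
  have j1 : Integrable fun w : E9 => R w.1 * T.f w.2 * b.f w :=
    cabs_mul (memLp_tensor (μ := volume) (ν := volume) hR T.l2.1) b.l2.1
  have j2 : Integrable fun w : E9 => φ w.1 * s w.2 * b.f w :=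
    cabs_mul (memLp_tensor (μ := volume) (ν := volume) h.l2 hs) b.l2.1
  have e1 : ∫ x, φ x * (q2 L lam T (b.sl x) - E0 * ip2 T (b.sl x)) =
      -∫ x, φ x * ∫ y, s y * b.f (x, y) := by
    rw [← integral_neg]
    refine integral_congr_ae ?_
    filter_upwards [b.sl_ae] with x hx
    have := hT (b.sl x)
    rw [hx.1] at this
    rw [← mul_neg, eq_neg_of_add_eq_zero_left this]
  simp only [add_mul]
  rw [mvg3_Q, integral_add j1 j2, mvg3_c1 b.l2.1 hR T.l2.1, mvg3_c1 b.l2.1 h.l2 hs, e1]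
  simp only [prj] at h1
  linarith

end

variable {c0 L lam C C1 : ℝ} {ob : OB c0 L} (mb : MB ob lam C C1)

/-- A solution of the full equation. -/
theorem MB.ve_of_eq {a : O3} (h : ∀ b : O3, q3 L lam a b = mb.E * ip3 a b) :
    VE L lam mb.E0 a (mb.src a) := by
  obtain ⟨m1, -, m3, -⟩ := a.mem L lam
  have hS : MemLp (mb.src a) 2 volume := by
    have := (m1.add (a.l2.1.const_mul mb.I)).add (m3.const_mul lam)
    refine this.ae_eq (Eventually.of_forall fun w => ?_)
    simp only [MB.src, Pi.add_apply]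
    ring
  refine ⟨hS, fun b => ?_⟩
  have i1 := CO3x.intq a b L lam
  have i2 := (O3.int a b L lam).1.const_mul mb.E
  have i3 : Integrable fun w => mb.src a w * b.f w := cabs_mul hS b.l2.1
  have e1 : Q0 L lam mb.E0 a b = ∫ w, (((1 / 2) * (⟪a.g1 w, b.g1 w⟫ + ⟪a.g2 w, b.g2 w⟫ +
      ⟪a.g3 w, b.g3 w⟫) + W3 L lam w * a.f w * b.f w) - mb.E * (a.f w * b.f w) -
        mb.src a w * b.f w) := by
    refine integral_congr_ae (Eventually.of_forall fun w => ?_)
    simp only [MB.src, MB.I, W3]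
    ring
  have i4 : Integrable fun w => ((1 / 2) * (⟪a.g1 w, b.g1 w⟫ + ⟪a.g2 w, b.g2 w⟫ +
      ⟪a.g3 w, b.g3 w⟫) + W3 L lam w * a.f w * b.f w) - mb.E * (a.f w * b.f w) := i1.sub i2
  have h1 := h b
  rw [q3, ip3] at h1
  rw [e1, integral_sub i4 i3, integral_sub i1 i2, integral_const_mul]
  linarith

theorem MB.veF : VE L lam mb.E0 mb.F (mb.src mb.F) := by
  exact mb.ve_of_eq mb.eqF

theorem MB.veA : VE L lam mb.E0 mb.A (mb.src mb.A) := by
  refine mb.ve_of_eq fun b => ?_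
  rw [MB.A, q3_cmul, ip3_cmul, mb.eqF]
  ring

theorem MB.veB : VE L lam mb.E0 mb.B (mb.src mb.B) := by
  refine mb.ve_of_eq fun b => ?_
  have h1 := q3_perm13 L lam mb.F b.perm13
  have h2 := q3_congr L lam (a := b) (a' := b.perm13.perm13)
    (Eventually.of_forall fun _ => rfl) mb.B
  rw [q3_comm, ip3_comm, ← h2.1, ← h2.2, q3_comm, ip3_comm, MB.B, h1.1, h1.2, mb.eqF]

theorem MB.veAp : VE L lam mb.E0 mb.Ap mb.Sp := by
  refine ((mb.veA.add mb.veA.refl1).cmul (1 / 2)).congr (Eventually.of_forall fun _ => rfl)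
    (Eventually.of_forall fun w => ?_)
  simp only [MB.Sp]
  ring

theorem MB.veAm : VE L lam mb.E0 mb.Am mb.Sm := by
  refine ((mb.veA.sub mb.veA.refl1).cmul (1 / 2)).congr (Eventually.of_forall fun _ => rfl)
    (Eventually.of_forall fun w => ?_)
  simp only [MB.Sm]
  ring

theorem MB.eqd : H1 mb.d mb.gd ∧ MemLp mb.Rd 2 volume ∧
    ∀ f gf, H1 f gf → ∫ x, ((1 / 2) * ⟪mb.gd x, gf x⟫ + mb.Rd x * f x) = 0 := by
  refine ⟨h1_prj _ _, memLp_prj _ mb.veAm.l2, fun f gf hf => ?_⟩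
  have := mb.veAm.prj mb.iP.eq f gf hf
  simp only [sub_self, zero_mul, add_zero] at this
  exact this

theorem MB.vechi : VE L lam mb.E0 mb.chi mb.Sc := by
  have h1 : VE L lam mb.E0 _ _ := ve_ten (T := mb.P) (s := fun _ => 0) mb.eqd.1 mb.eqd.2.1
    mb.eqd.2.2 MemLp.zero fun b => by simp [mb.iP.eq b]
  refine (mb.veAm.sub h1).congr (Eventually.of_forall fun _ => rfl)
    (Eventually.of_forall fun w => ?_)
  simp only [MB.Sc]
  ring

theorem MB.eqN : EqQ mb.N mb.gN (fK mb.ZN) mb.RN := by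
  refine fam_eq fun j => ?_
  fin_cases j
  · exact mb.veA
  · exact mb.veB

theorem MB.eqX : EqQ mb.X (fG mb.ZX) (fK mb.ZX) mb.RX := by
  refine fam_eq fun j => ?_
  fin_cases j
  · exact mb.veAp
  · exact mb.veB
  · exact mb.vechi

theorem MB.N_eq : N3 mb.F.f = mb.N := by
  funext x
  have e1 : sip mb.A.f mb.A.f x = 2 * ∫ y, mb.F.f (x, y) ^ 2 := by
    rw [← integral_const_mul]
    refine integral_congr_ae (Eventually.of_forall fun y => ?_)
    have : √2 * √2 = 2 := Real.mul_self_sqrt (by norm_num)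
    simp only [MB.A, O3.cmul]
    linear_combination mb.F.f (x, y) ^ 2 * this
  have e2 : sip mb.B.f mb.B.f x = ∫ y, mb.F.f (p13 (x, y)) ^ 2 := by
    refine integral_congr_ae (Eventually.of_forall fun y => ?_)
    simp only [MB.B, O3.perm13]
    ring
  simp only [N3, MB.N, fW, MB.ZN, Fin.sum_univ_two, Matrix.cons_val_zero, Matrix.cons_val_one,
    e1, e2]

end

end Vale.Agent.P363
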