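import Vale.Agent.P363.MVG3

/-! P363, block MV: parities and orthogonality. -/

open MeasureTheory Set Metric Filter Topology
open scoped RealInnerProductSpace

namespace Vale.Agent.P363

noncomputable section

variable {c0 L lam C C1 : ℝ} {ob : OB c0 L} (mb : MB ob lam C C1)

theorem mvg4_odd {f : E6 → ℝ} (h : ∀ y, f (sg6 y) = -f y) : ∫ y, f y = 0 := by
  have h1 := integral_sg6 f
  simp only [h, integral_neg] at h1
  linarith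

theorem mvg4_odd' {f : E6 → ℝ} (h : ∀ y, f y.swap = -f y) : ∫ y, f y = 0 := by
  have h1 := integral_swap6 f
  simp only [h, integral_neg] at h1
  linarith

theorem mvg4_sip (f : E9 → ℝ) (x : E3) : sip f f x = ∫ y, f (x, y) ^ 2 := by
  simp only [sip, sq]

theorem mvg4_ip (T : O2) : ip2 T T = ∫ y, T.f y ^ 2 := by
  simp only [ip2, sq]

theorem mvg4_one (Z : O3) (x : E3) : 0 ≤ fW ![Z] x ∧ fW ![Z] x ^ 2 = sip Z.f Z.f x := by
  simpa using (fam_h1 ![Z]).2.2.1 x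

theorem mvg4_sl (Z : O3) : ∀ᵐ x : E3, MemLp (fun y => Z.f (x, y)) 2 volume :=
  (ae_slice2 (ν := (volume : Measure E6)) Z.l2.1).1

theorem mvg4_cs (T : O2) (hT : ip2 T T = 1) (Z : O3) : ∀ᵐ x : E3, |prj T Z.f x| ≤ fW ![Z] x := by
  filter_upwards [mvg4_sl Z] with x hx
  have h := (cs_integral T.l2.1 hx).2
  rw [← mvg4_ip, hT, Real.sqrt_one, one_mul, ← mvg4_sip, ← (mvg4_one Z x).2,
    Real.sqrt_sq (mvg4_one Z x).1] at h
  exact h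

theorem mvg4_F (x : E3) (y : E6) : mb.F.f (x, sg6 y) = -mb.F.f (sg x, y) := by
  have h := mb.oF (sg x, y)
  simp only [sg9, sg_sg] at h
  exact h

theorem mvg4_A (w : E9) : mb.A.f w = √2 * mb.F.f w := rfl

theorem mvg4_Ap (x : E3) (y : E6) :
    mb.Ap.f (x, y) = 1 / 2 * (√2 * mb.F.f (x, y) + √2 * mb.F.f (sg x, y)) := rfl

theorem mvg4_Am (x : E3) (y : E6) :
    mb.Am.f (x, y) = 1 / 2 * (√2 * mb.F.f (x, y) + -1 * (√2 * mb.F.f (sg x, y))) := rfl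

theorem mvg4_chi (x : E3) (y : E6) :
    mb.chi.f (x, y) = mb.Am.f (x, y) + -1 * (mb.d x * mb.P.f y) := rfl

theorem mvg4_B (x : E3) (y : E6) : mb.B.f (x, y) = mb.F.f (y.2, (y.1, x)) := rfl

theorem MB.par (x : E3) (y : E6) :
    mb.Ap.f (sg x, y) = mb.Ap.f (x, y) ∧ mb.Am.f (sg x, y) = -mb.Am.f (x, y) ∧
    mb.Ap.f (x, sg6 y) = -mb.Ap.f (x, y) ∧ mb.Am.f (x, sg6 y) = mb.Am.f (x, y) ∧
    mb.A.f (x, y) = mb.Ap.f (x, y) + mb.Am.f (x, y) ∧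
    mb.chi.f (x, y) = mb.Am.f (x, y) - mb.d x * mb.P.f y ∧
    mb.chi.f (sg x, y) = -mb.chi.f (x, y) ∧ mb.chi.f (x, sg6 y) = mb.chi.f (x, y) ∧
    mb.B.f (x, y.swap) = -mb.B.f (x, y) ∧ mb.d (sg x) = -mb.d x := by
  have h2 : ∀ y, mb.Am.f (sg x, y) = -mb.Am.f (x, y) := fun y => by
    rw [mvg4_Am, mvg4_Am, sg_sg]; ring
  have h4 : mb.Am.f (x, sg6 y) = mb.Am.f (x, y) := by
    rw [mvg4_Am, mvg4_Am, mvg4_F, mvg4_F, sg_sg]; ring
  have hd : mb.d (sg x) = -mb.d x := by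
    simp only [MB.d, prj, h2, mul_neg, integral_neg]
  refine ⟨?_, h2 y, ?_, h4, ?_, ?_, ?_, ?_, mb.aF (y.2, (y.1, x)), hd⟩
  · rw [mvg4_Ap, mvg4_Ap, sg_sg]; ring
  · rw [mvg4_Ap, mvg4_Ap, mvg4_F, mvg4_F, sg_sg]; ring
  · rw [mvg4_Ap, mvg4_Am, mvg4_A]; ring
  · rw [mvg4_chi]; ring
  · rw [mvg4_chi, mvg4_chi, h2, hd]; ring
  · rw [mvg4_chi, mvg4_chi, h4, (mb.sP y).2]

theorem MB.N_ev (x : E3) : mb.N (sg x) = mb.N x ∧ mb.c (sg x) = mb.c x := by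
  have hA : sip mb.A.f mb.A.f (sg x) = sip mb.A.f mb.A.f x := by
    rw [mvg4_sip, mvg4_sip, ← integral_sg6 fun y => mb.A.f (x, y) ^ 2]
    simp only [mvg4_A, mvg4_F, mul_neg, neg_sq]
  have hB : sip mb.B.f mb.B.f (sg x) = sip mb.B.f mb.B.f x := by
    rw [mvg4_sip, mvg4_sip, ← integral_sg6 fun y => mb.B.f (x, y) ^ 2]
    refine integral_congr_ae (Eventually.of_forall fun y => ?_)
    have h := mb.oF (y.2, (y.1, sg x))
    simp only [sg9, sg6, sg_sg] at h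
    simp only [mvg4_B, sg6, h, neg_sq]
  have hc : sip mb.chi.f mb.chi.f (sg x) = sip mb.chi.f mb.chi.f x := by
    rw [mvg4_sip, mvg4_sip]
    simp only [fun y => (mb.par x y).2.2.2.2.2.2.1, neg_sq]
  constructor
  · simp [MB.N, MB.ZN, fW, hA, hB]
  · simp [MB.c, fW, hc]

/-- Orthogonality relations on almost every slice. -/
theorem MB.orth : ∀ᵐ x : E3, prj mb.P mb.Ap.f x = 0 ∧ prj mb.P mb.chi.f x = 0 ∧
    prj mb.P mb.B.f x = 0 ∧ prj mb.P mb.A.f x = mb.d x ∧ prj mb.S mb.A.f x = mb.dS x ∧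
    sip mb.A.f mb.A.f x = mb.a x ^ 2 + mb.c x ^ 2 + mb.d x ^ 2 ∧
    sip mb.Am.f mb.Am.f x = mb.c x ^ 2 + mb.d x ^ 2 := by
  filter_upwards [mvg4_sl mb.Ap, mvg4_sl mb.Am, mvg4_sl mb.chi] with x l1 l2 l3
  have hP := mb.P.l2.1
  have hS := mb.S.l2.1
  have one : ∫ y, mb.P.f y ^ 2 = 1 := by rw [← mvg4_ip, mb.iP.one]
  have e1 : prj mb.P mb.Ap.f x = 0 := mvg4_odd fun y => by
    rw [(mb.sP y).2, (mb.par x y).2.2.1, mul_neg]
  have e2 : prj mb.P mb.chi.f x = 0 := by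
    have : ∀ y, mb.P.f y * mb.chi.f (x, y) =
        mb.P.f y * mb.Am.f (x, y) - mb.d x * mb.P.f y ^ 2 := fun y => by
      rw [mvg4_chi]; ring
    simp only [prj, this]
    rw [integral_sub (cabs_mul hP l2) (hP.integrable_sq.const_mul _), integral_const_mul, one,
      mul_one]
    exact sub_self _
  have e3 : prj mb.P mb.B.f x = 0 := mvg4_odd' fun y => by
    rw [(mb.sP y).1, (mb.par x y).2.2.2.2.2.2.2.2.1, mul_neg]
  have eA : ∀ y, mb.A.f (x, y) = mb.Ap.f (x, y) + mb.Am.f (x, y) :=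
    fun y => (mb.par x y).2.2.2.2.1
  have sp : ∀ T : O2, prj T mb.A.f x = prj T mb.Ap.f x + prj T mb.Am.f x := fun T => by
    simp only [prj, eA, mul_add]
    exact integral_add (cabs_mul T.l2.1 l1) (cabs_mul T.l2.1 l2)
  have e5 : prj mb.S mb.Am.f x = 0 := mvg4_odd fun y => by
    rw [(mb.sS y).2, (mb.par x y).2.2.2.1, neg_mul]
  have e6 : ∫ y, mb.Ap.f (x, y) * mb.Am.f (x, y) = 0 := mvg4_odd fun y => by
    rw [(mb.par x y).2.2.1, (mb.par x y).2.2.2.1, neg_mul]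
  have e7 : sip mb.Am.f mb.Am.f x = mb.c x ^ 2 + mb.d x ^ 2 := by
    have h := cabs_exp l3 hP (mb.d x)
    have h1 : ∀ y, mb.chi.f (x, y) + mb.d x * mb.P.f y = mb.Am.f (x, y) := fun y => by
      rw [mvg4_chi]; ring
    have h2 : ∫ y, mb.chi.f (x, y) * mb.P.f y = 0 := by
      simp only [mul_comm (mb.chi.f _)]
      exact e2
    simp only [h1] at h
    rw [mvg4_sip, h, h2, one, MB.c, (mvg4_one _ x).2, mvg4_sip]
    ring
  refine ⟨e1, e2, e3, by rw [sp, e1, zero_add]; rfl, by rw [sp, e5, add_zero]; rfl, ?_, e7⟩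
  have h := cabs_exp l1 l2 1
  simp only [one_mul, ← eA] at h
  rw [mvg4_sip, h, e6, ← mvg4_sip mb.Am.f, e7, MB.a, (mvg4_one _ x).2, mvg4_sip]
  ring

theorem MB.alg : ∀ᵐ x : E3, 0 ≤ mb.a x ∧ 0 ≤ mb.b x ∧ 0 ≤ mb.c x ∧ 0 ≤ mb.X x ∧ 0 ≤ mb.m x ∧
    mb.X x ^ 2 = mb.a x ^ 2 + mb.b x ^ 2 + mb.c x ^ 2 ∧ mb.N x ^ 2 = mb.d x ^ 2 + mb.X x ^ 2 ∧
    |mb.dT x| ≤ mb.b x ∧ |mb.dS x| ≤ mb.a x := by
  filter_upwards [mb.orth, mvg4_cs mb.T mb.iT.one mb.B, mvg4_cs mb.S mb.iS.one mb.Ap]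
    with x h h1 h2
  have ha := mvg4_one mb.Ap x
  have hb := mvg4_one mb.B x
  have hc := mvg4_one mb.chi x
  have hX := (fam_h1 mb.ZX).2.2.1 x
  have hN := ((fam_h1 mb.ZN).2.2.1 x).2
  have e1 : mb.X x ^ 2 = mb.a x ^ 2 + mb.b x ^ 2 + mb.c x ^ 2 := by
    rw [MB.X, hX.2, MB.a, MB.b, MB.c, ha.2, hb.2, hc.2]
    simp [MB.ZX, Fin.sum_univ_three]
  refine ⟨ha.1, hb.1, hc.1, hX.1, Real.sqrt_nonneg _, e1, ?_, h1, h2⟩
  have e2 : mb.N x ^ 2 = sip mb.A.f mb.A.f x + sip mb.B.f mb.B.f x := by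
    rw [MB.N, hN]
    simp [MB.ZN]
  rw [e2, e1, h.2.2.2.2.2.1, MB.b, hb.2]
  ring

theorem MB.I_bd : |mb.I + ob.eu| ≤ 2 * C1 * lam := by
  have h1 := abs_le.1 mb.en.1
  have h2 := abs_le.1 mb.en.2.1
  unfold MB.I
  exact abs_le.2 ⟨by linarith [h1.2, h2.1], by linarith [h1.1, h2.2]⟩

theorem MB.mass : ∫ x, mb.N x ^ 2 = 3 := by
  have h1 : ip3 mb.A mb.A = 2 := by
    rw [MB.A, ip3_cmul, ip3_comm, ip3_cmul, mb.nF, mul_one, Real.mul_self_sqrt (by norm_num)]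
  have h2 : ip3 mb.B mb.B = 1 := by rw [MB.B, (q3_perm13 L lam _ _).2, mb.nF]
  rw [MB.N, (fam_h1 mb.ZN).2.2.2.1]
  simp [MB.ZN, h1, h2]
  norm_num

end

end Vale.Agent.P363
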