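import Vale.Agent.P363.MVD2

/-! P363, block MV: multipole facts and the ion form on slices. -/

open MeasureTheory Set Metric Filter Topology
open scoped RealInnerProductSpace

namespace Vale.Agent.P363

noncomputable section

theorem mvs0_Mx (x : E3) (y : E6) : 0 ≤ Mx x y := by
  unfold Mx
  positivity

theorem mvs0_near (x y : E3) (h0 : 0 < ‖x‖) (h : ‖y‖ ≤ ‖x‖ / 2) :
    |‖x - y‖⁻¹ - ‖sg x - y‖⁻¹| ≤ 16 * |x 2| * ‖y‖ / ‖x‖ ^ 3 := by
  have ha : ‖x‖ / 2 ≤ ‖x - y‖ := by linarith [norm_sub_norm_le x y]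
  have hb : ‖x‖ / 2 ≤ ‖sg x - y‖ := by linarith [norm_sub_norm_le (sg x) y, norm_sg x]
  have h1 : ‖sg x - y‖ ^ 2 - ‖x - y‖ ^ 2 = 4 * x 2 * y 2 := by
    rw [normsq_eq_sum, normsq_eq_sum]
    simp only [Fin.sum_univ_three, PiLp.sub_apply, sg_0, sg_1, sg_2]
    ring
  have h2 : |4 * x 2 * y 2| ≤ 4 * |x 2| * ‖y‖ := by
    rw [abs_mul, abs_mul, abs_of_pos (by norm_num : (0 : ℝ) < 4)]
    exact mul_le_mul_of_nonneg_left (abs_coord_le y 2) (by positivity)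
  rw [← h1] at h2
  generalize ‖x - y‖ = a at *
  generalize ‖sg x - y‖ = b at *
  generalize ‖x‖ = r at *
  have a0 : 0 < a := by linarith
  have b0 : 0 < b := by linarith
  have e : a⁻¹ - b⁻¹ = (b ^ 2 - a ^ 2) / (a * b * (a + b)) := by
    field_simp
    ring
  have h3 : r ^ 3 / 4 ≤ a * b * (a + b) := by
    have h4 : r / 2 * (r / 2) ≤ a * b := mul_le_mul ha hb (by linarith) a0.le
    have h5 : r / 2 * (r / 2) * r ≤ a * b * (a + b) :=
      mul_le_mul h4 (by linarith) h0.le (by positivity)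
    linarith
  rw [e, abs_div, abs_of_pos (by positivity : 0 < a * b * (a + b))]
  refine (div_le_div₀ (by positivity) h2 (by positivity) h3).trans (le_of_eq ?_)
  field_simp
  ring

theorem mvs0_avg {p q : E6 → ℝ} (hp : MemLp p 2 volume) (hq : MemLp q 2 volume) {s : ℝ}
    (hs : s ^ 2 = 1) : MemLp (fun y => (p y + s * q y) / 2) 2 volume ∧
      ∫ y, ((p y + s * q y) / 2) ^ 2 ≤ ((∫ y, p y ^ 2) + ∫ y, q y ^ 2) / 2 := by
  have hm : MemLp (fun y => (p y + s * q y) / 2) 2 volume := by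
    simp only [div_eq_mul_inv]
    exact (hp.add (hq.const_mul s)).mul_const _
  refine ⟨hm, ?_⟩
  rw [← integral_add hp.integrable_sq hq.integrable_sq, ← integral_div]
  refine integral_mono hm.integrable_sq ((hp.integrable_sq.add hq.integrable_sq).div_const _)
    fun y => ?_
  have h1 : (s * q y) ^ 2 = q y ^ 2 := by rw [mul_pow, hs, one_mul]
  show ((p y + s * q y) / 2) ^ 2 ≤ (p y ^ 2 + q y ^ 2) / 2
  nlinarith [sq_nonneg (p y - s * q y)]

theorem mvs0_bessel {g u f : E3 → ℝ} (hg : MemLp g 2 volume) (hu : MemLp u 2 volume)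
    (hf : MemLp f 2 volume) (ng : ∫ x, g x ^ 2 = 1) (nu : ∫ x, u x ^ 2 = 1)
    (ho : ∫ x, g x * u x = 0) : (∫ x, g x * f x) ^ 2 + (∫ x, u x * f x) ^ 2 ≤ ∫ x, f x ^ 2 := by
  have i1 : Integrable fun x => g x * f x := hg.integrable_mul hf
  have i2 : Integrable fun x => u x * f x := hu.integrable_mul hf
  have i3 : Integrable fun x => g x * u x := hg.integrable_mul hu
  generalize ha : ∫ x, g x * f x = a
  generalize hb : ∫ x, u x * f x = b
  have h0 : 0 ≤ ∫ x, (f x - a * g x - b * u x) ^ 2 := integral_nonneg fun x => sq_nonneg _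
  have e : ∀ x, (f x - a * g x - b * u x) ^ 2 = f x ^ 2 + a ^ 2 * g x ^ 2 + b ^ 2 * u x ^ 2 +
      -2 * a * (g x * f x) + -2 * b * (u x * f x) + 2 * a * b * (g x * u x) := fun x => by ring
  have j1 : Integrable fun x => f x ^ 2 + a ^ 2 * g x ^ 2 :=
    hf.integrable_sq.add (hg.integrable_sq.const_mul (a ^ 2))
  have j2 : Integrable fun x => f x ^ 2 + a ^ 2 * g x ^ 2 + b ^ 2 * u x ^ 2 :=
    j1.add (hu.integrable_sq.const_mul (b ^ 2))
  have j3 : Integrable fun x => f x ^ 2 + a ^ 2 * g x ^ 2 + b ^ 2 * u x ^ 2 +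
      -2 * a * (g x * f x) := j2.add (i1.const_mul (-2 * a))
  have j4 : Integrable fun x => f x ^ 2 + a ^ 2 * g x ^ 2 + b ^ 2 * u x ^ 2 +
      -2 * a * (g x * f x) + -2 * b * (u x * f x) := j3.add (i2.const_mul (-2 * b))
  simp only [e] at h0
  rw [integral_add j4 (i3.const_mul _), integral_add j3 (i2.const_mul _),
    integral_add j2 (i1.const_mul _), integral_add j1 (hu.integrable_sq.const_mul _),
    integral_add hf.integrable_sq (hg.integrable_sq.const_mul _)] at h0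
  simp only [integral_const_mul, ng, nu, ho, ha, hb] at h0
  linarith

theorem abs_Mo_le (x : E3) (y : E6) : |Mo x y| ≤ Me x y ∧ 0 ≤ Mx x y ∧
    Mx x y = Me x y + Mo x y ∧ Mx (sg x) y = Me x y - Mo x y ∧ Me x (sg6 y) = Me x y ∧
    Mo x (sg6 y) = -Mo x y := by
  have h1 := mvs0_Mx x y
  have h2 := mvs0_Mx (sg x) y
  have h3 := Mx_sg x y
  have h4 := Mx_sg (sg x) y
  rw [sg_sg] at h4
  unfold Mo Me
  rw [h3, h4]
  exact ⟨abs_le.2 ⟨by linarith, by linarith⟩, h1, by ring, by ring, by ring, by ring⟩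

theorem Mo_near (x : E3) (y : E6) (h : rho6 y ≤ ‖x‖ / 2) : |Mo x y| ≤ 4 * |x 2| / ‖x‖ ^ 2 := by
  rcases (norm_nonneg x).eq_or_lt with h0 | h0
  · have hx : x = 0 := norm_eq_zero.1 h0.symm
    have h1 : sg x = x := by rw [hx]; simp [sg]
    simp [Mo, h1, ← h0]
  have a1 := norm_nonneg y.1
  have a2 := norm_nonneg y.2
  unfold rho6 at h
  have b1 := mvs0_near x y.1 h0 (by linarith)
  have b2 := mvs0_near x y.2 h0 (by linarith)
  have b3 : 16 * |x 2| * ‖y.1‖ / ‖x‖ ^ 3 + 16 * |x 2| * ‖y.2‖ / ‖x‖ ^ 3 ≤ 8 * |x 2| / ‖x‖ ^ 2 := by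
    rw [← add_div, ← mul_add, div_le_div_iff₀ (by positivity) (by positivity)]
    have c1 : 0 ≤ |x 2| * ‖x‖ ^ 2 := by positivity
    nlinarith [mul_le_mul_of_nonneg_left h c1]
  have b4 : 8 * |x 2| / ‖x‖ ^ 2 = 2 * (4 * |x 2| / ‖x‖ ^ 2) := by ring
  rw [abs_le] at b1 b2 ⊢
  unfold Mo Mx
  constructor <;> linarith [b1.1, b1.2, b2.1, b2.2]

theorem O2.memMe (a : O2) (x : E3) : MemLp (fun y => Me x y * a.f y) 2 volume ∧
    MemLp (fun y => Mo x y * a.f y) 2 volume ∧ ∫ y, (Mo x y * a.f y) ^ 2 ≤ 8 * k2 a := by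
  obtain ⟨-, -, -, p1, p2⟩ := a.hardy x
  obtain ⟨-, -, -, q1, q2⟩ := a.hardy (sg x)
  have e1 : (fun y => Me x y * a.f y) =
      fun y => (Mx x y * a.f y + 1 * (Mx (sg x) y * a.f y)) / 2 := by
    funext y
    unfold Me
    ring
  have e2 : (fun y => Mo x y * a.f y) =
      fun y => (Mx x y * a.f y + -1 * (Mx (sg x) y * a.f y)) / 2 := by
    funext y
    unfold Mo
    ring
  refine ⟨e1 ▸ (mvs0_avg p1 q1 (s := 1) (by norm_num)).1,
    e2 ▸ (mvs0_avg p1 q1 (s := -1) (by norm_num)).1, ?_⟩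
  have h := (mvs0_avg p1 q1 (s := -1) (by norm_num)).2
  simp only [← congrFun e2] at h
  linarith

theorem Ion.mult {L lam C1 Ea : ℝ} {a : O2} (h : Ion L lam C1 a Ea) (hC : 0 ≤ C1) (x : E3) :
    √(∫ y, ((Me x y - 2 / (1 + ‖x‖)) * a.f y) ^ 2) ≤ C1 / (1 + ‖x‖) ^ 2 ∧
    √(∫ y, (Mo x y * a.f y) ^ 2) ≤ C1 / (1 + ‖x‖) ^ 2 ∧
    √(∫ y, (Me x y * a.f y) ^ 2) ≤ C1 + 2 ∧ √(∫ y, (Mx x y * a.f y) ^ 2) ≤ C1 + 2 := by
  obtain ⟨p1, p2⟩ := h.m1 x
  obtain ⟨q1, q2⟩ := h.m1 (sg x)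
  rw [norm_sg] at q2
  have hf := a.l2.1
  have hx := norm_nonneg x
  have hB : C1 / (1 + ‖x‖) ^ 2 ≤ C1 := div_le_self hC (one_le_pow₀ (by linarith))
  have c0 : 0 ≤ 2 / (1 + ‖x‖) := by positivity
  have c1 : 2 / (1 + ‖x‖) ≤ 2 := div_le_self (by norm_num) (by linarith)
  generalize 2 / (1 + ‖x‖) = c at p2 q2 c0 c1 ⊢
  generalize C1 / (1 + ‖x‖) ^ 2 = B at p2 q2 hB ⊢
  have mem : ∀ m : E6 → ℝ, MemLp (fun y => m y * a.f y) 2 volume →
      MemLp (fun y => (m y - c) * a.f y) 2 volume := fun m hm => by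
    simp only [sub_mul]
    exact hm.sub (hf.const_mul c)
  have hc : √(∫ y, (c * a.f y) ^ 2) = c := by
    have h1 : ∫ y, a.f y ^ 2 = 1 := by
      simp only [sq]
      exact h.one
    simp only [mul_pow]
    rw [integral_const_mul, h1, mul_one, Real.sqrt_sq c0]
  have tri : ∀ m : E6 → ℝ, MemLp (fun y => m y * a.f y) 2 volume →
      √(∫ y, ((m y - c) * a.f y) ^ 2) ≤ B → √(∫ y, (m y * a.f y) ^ 2) ≤ C1 + 2 := fun m hm hb => by
    have h1 := (tri_integral (mem m hm) (hf.const_mul c)).1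
    simp only [← add_mul, sub_add_cancel] at h1
    linarith
  have key : ∀ s : ℝ, s ^ 2 = 1 →
      √(∫ y, (((Mx x y - c) * a.f y + s * ((Mx (sg x) y - c) * a.f y)) / 2) ^ 2) ≤ B := fun s hs => by
    have h1 := (mvs0_avg (mem _ p1) (mem _ q1) hs).2
    rw [Real.sqrt_le_iff] at p2 q2 ⊢
    exact ⟨p2.1, by linarith [p2.2, q2.2]⟩
  have k1 : √(∫ y, ((Me x y - c) * a.f y) ^ 2) ≤ B := by
    refine le_of_eq_of_le ?_ (key 1 (by norm_num))
    congr 2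
    funext y
    unfold Me
    ring
  refine ⟨k1, le_of_eq_of_le ?_ (key (-1) (by norm_num)), tri _ (a.memMe x).1 k1, tri _ p1 p2⟩
  congr 2
  funext y
  unfold Mo
  ring

/-- One-body facts. -/
theorem OB.orthV {c0 L : ℝ} (ob : OB c0 L) : ∫ x, ob.g x * ob.u x = 0 := by
  exact integral_odd (ae_of_all _ fun x => by rw [ob.evg, ob.odu, mul_neg])

theorem OB.lower {c0 L : ℝ} (ob : OB c0 L) (h : ob.eu ≤ -1 / 2 + c0) {f : E3 → ℝ} {g : E3 → E3}
    (hf : H1 f g) : ob.eg * ∫ x, f x ^ 2 ≤ (1 / 2) * (∫ x, ‖g x‖ ^ 2) + ∫ x, V L x * f x ^ 2 := by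
  have h1 := ob.gap f g hf
  have h2 := mvs0_bessel ob.hg.l2 ob.hu.l2 hf.l2 ob.ng ob.nu ob.orthV
  obtain ⟨i1, i2, -⟩ := q1_int hf hf L
  have h3 : q1 L f g f g = (1 / 2) * (∫ x, ‖g x‖ ^ 2) + ∫ x, V L x * f x ^ 2 := by
    rw [q1, integral_add (i1.const_mul _) i2, integral_const_mul]
    simp only [real_inner_self_eq_norm_sq, mul_assoc, ← sq]
  have h4 := ob.lt
  rw [← h3]
  refine le_trans ?_ h1
  have h5 := mul_le_mul_of_nonneg_left h2 (by linarith : 0 ≤ -1 / 2 + c0 - ob.eg)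
  have h6 := mul_nonneg (by linarith : 0 ≤ ob.eu - ob.eg) (sq_nonneg (∫ x, ob.u x * f x))
  nlinarith

variable {c0 L lam C C1 C3 : ℝ} {ob : OB c0 L} (mb : MB ob lam C C1)

theorem MB.h2_nonneg (Z : O3) : ∀ᵐ x : E3, 0 ≤ h2 L lam mb.E0 Z Z x := by
  filter_upwards [h2_eq L lam mb.E0 Z Z] with x hx
  rw [hx.1]
  exact sub_nonneg.2 (mb.lowP _)

/-- Gap with spare kinetic energy on slices orthogonal to `P`. -/
theorem MB.h2_gap (h : Sl ob lam C C1 C3) (Z : O3) : ∀ᵐ x : E3, prj mb.P Z.f x = 0 →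
    (ob.del - (C1 + 4 * C) * lam) * sip Z.f Z.f x + lam * k2 (Z.sl x) ≤ h2 L lam mb.E0 Z Z x ∧
    0 ≤ k2 (Z.sl x) := by
  filter_upwards [h2_eq L lam mb.E0 Z Z, Z.sl_ae] with x hx hs hp
  refine ⟨?_, integral_nonneg fun w => by positivity⟩
  have h0 := sip_nonneg Z.f x
  have h1 : ip2 mb.P (Z.sl x) = 0 := by
    rw [ip2, hs.1]
    exact hp
  have h2 := mb.gapP _ h1
  have h3 := mb.kin (Z.sl x)
  have h4 := (abs_le.1 mb.en.2.1).2
  have h5 := (abs_le.1 h.sm.eg).2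
  have h6 := (abs_le.1 h.sm.eu).2
  have l0 := h.l0
  have l1 : lam ≤ 1 / 100 := by nlinarith [h.l2, h.c3, h.hC, h.hC1]
  rw [hx.1]
  rw [hx.2] at h0 ⊢
  unfold OB.del
  generalize ip2 (Z.sl x) (Z.sl x) = i at *
  generalize q2 L lam (Z.sl x) (Z.sl x) = q at *
  generalize k2 (Z.sl x) = k at *
  have a1 := mul_le_mul_of_nonneg_left h2 (by linarith : 0 ≤ 1 - 4 * lam)
  have a2 := mul_le_mul_of_nonneg_left h3 (by linarith : 0 ≤ 4 * lam)
  have a3 := mul_le_mul_of_nonneg_right h4 h0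
  have a4 := mul_nonneg (mul_nonneg l0.le (by linarith : 0 ≤ -(ob.eg + ob.eu))) h0
  nlinarith

theorem MB.I_mem (h : Sl ob lam C C1 C3) : 12 / 25 ≤ mb.I ∧ mb.I ≤ 13 / 25 ∧ 0 < ob.del ∧
    ob.del ≤ 1 / 50 := by
  have h1 := abs_le.1 mb.I_bd
  have h2 := abs_le.1 h.sm.eg
  have h3 := abs_le.1 h.sm.eu
  have h4 : 2 * C1 * lam ≤ C3 * lam :=
    mul_le_mul_of_nonneg_right (by linarith [h.c3, h.hC]) h.l0.le
  have h5 := h.l2
  have h6 := ob.lt
  unfold OB.del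
  exact ⟨by linarith [h1.1, h3.2], by linarith [h1.2, h3.1], by linarith, by linarith [h2.1, h3.2]⟩

end

end Vale.Agent.P363
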