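import Vale.Agent.P363.MVS0

/-! P363, block MV: the sources on slices. -/

open MeasureTheory Set Metric Filter Topology
open scoped RealInnerProductSpace

namespace Vale.Agent.P363

noncomputable section

variable {c0 L lam C C1 C3 : ℝ} {ob : OB c0 L} (mb : MB ob lam C C1)

theorem mvs1_sq {m f : E6 → ℝ} (h : MemLp (fun y => m y * f y) 2 volume)
    (hf : MemLp f 2 volume) : Integrable fun y => m y * f y ^ 2 :=
  (cabs_mul h hf).congr (Eventually.of_forall fun y => by simp only [sq, mul_assoc])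

theorem mvs1_lin {F f0 f1 f2 f3 f4 : E6 → ℝ} {a l d k : ℝ} (i0 : Integrable f0)
    (i1 : Integrable f1) (i2 : Integrable f2) (i3 : Integrable f3) (i4 : Integrable f4)
    (h0 : k * ∫ y, f0 y = 0)
    (h : ∀ y, F y = a * f1 y + l * (f2 y + d * f3 y + f4 y) + k * f0 y) :
    ∫ y, F y = a * (∫ y, f1 y) + l * ((∫ y, f2 y) + d * (∫ y, f3 y) + ∫ y, f4 y) := by
  have j1 : Integrable fun y => f2 y + d * f3 y := i2.add (i3.const_mul d)
  have j2 : Integrable fun y => f2 y + d * f3 y + f4 y := j1.add i4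
  have j3 : Integrable fun y => a * f1 y + l * (f2 y + d * f3 y + f4 y) :=
    (i1.const_mul a).add (j2.const_mul l)
  simp only [h]
  rw [integral_add j3 (i0.const_mul k), integral_add (i1.const_mul a) (j2.const_mul l),
    integral_const_mul, integral_const_mul, integral_const_mul, integral_add j1 i4,
    integral_add i2 (i3.const_mul d), integral_const_mul, h0, add_zero]

theorem mvs1_fW (Z : O3) (x : E3) : fW ![Z] x ^ 2 = sip Z.f Z.f x := by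
  simp only [fW, Fin.sum_univ_one, Matrix.cons_val_zero]
  exact Real.sq_sqrt (sip_nonneg _ x)

theorem mvs1_fW' (Z : O3) (x : E3) : fW ![Z] x = √(∫ y, Z.f (x, y) ^ 2) := by
  simp only [fW, Fin.sum_univ_one, Matrix.cons_val_zero, sip, sq]

theorem MB.Sp_eq (x : E3) (y : E6) : mb.Sp (x, y) = (V L x + mb.I) * mb.Ap.f (x, y) +
    lam * (Me x y * mb.Ap.f (x, y) + Mo x y * mb.Am.f (x, y)) := by
  have h1 := mb.par x y
  have h2 := mb.par (sg x) y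
  have h3 := abs_Mo_le x y
  simp only [MB.Sp, MB.src]
  rw [V_sg, h2.2.2.2.2.1, h1.2.2.2.2.1, h1.1, h1.2.1, h3.2.2.2.1, h3.2.2.1]
  ring

theorem MB.Sm_eq (x : E3) (y : E6) : mb.Sm (x, y) = (V L x + mb.I) * mb.Am.f (x, y) +
    lam * (Me x y * mb.Am.f (x, y) + Mo x y * mb.Ap.f (x, y)) := by
  have h1 := mb.par x y
  have h2 := mb.par (sg x) y
  have h3 := abs_Mo_le x y
  simp only [MB.Sm, MB.src]
  rw [V_sg, h2.2.2.2.2.1, h1.2.2.2.2.1, h1.1, h1.2.1, h3.2.2.2.1, h3.2.2.1]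
  ring

/-- Almost every slice is square integrable, also after multiplication by the repulsion. -/
theorem O3.sl_mem (Z : O3) : ∀ᵐ x : E3, MemLp (fun y => Z.f (x, y)) 2 volume ∧
    MemLp (fun y => Mx x y * Z.f (x, y)) 2 volume ∧ MemLp (fun y => Me x y * Z.f (x, y)) 2 volume ∧
    MemLp (fun y => Mo x y * Z.f (x, y)) 2 volume ∧
    ∫ y, (Mo x y * Z.f (x, y)) ^ 2 ≤ 8 * k2 (Z.sl x) := by
  filter_upwards [Z.sl_ae] with x hx
  have h1 := (Z.sl x).l2.1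
  have h2 := (Z.sl x).memMe x
  rw [hx.1] at h1 h2
  refine ⟨h1, ?_, h2⟩
  refine (h2.1.add h2.2.1).ae_eq (Eventually.of_forall fun y => ?_)
  simp only [Pi.add_apply]
  rw [(abs_Mo_le x y).2.2.1]
  ring

theorem MB.sip_src (Z : O3) : ∀ᵐ x : E3, sip (mb.src Z) Z.f x =
    (V L x + mb.I) * sip Z.f Z.f x + lam * ∫ y, Mx x y * Z.f (x, y) ^ 2 := by
  filter_upwards [Z.sl_mem] with x hx
  have i1 := cabs_mul hx.1 hx.1
  have i2 : Integrable fun y => Mx x y * Z.f (x, y) ^ 2 := mvs1_sq hx.2.1 hx.1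
  rw [sip, sip, ← integral_const_mul, ← integral_const_mul,
    ← integral_add (i1.const_mul _) (i2.const_mul _)]
  refine integral_congr_ae (Eventually.of_forall fun y => ?_)
  simp only [MB.src]
  ring

theorem MB.sip_Sp : ∀ᵐ x : E3, sip mb.Sp mb.Ap.f x = (V L x + mb.I) * mb.a x ^ 2 +
    lam * ((∫ y, Me x y * mb.Ap.f (x, y) ^ 2) +
      mb.d x * (∫ y, Mo x y * mb.P.f y * mb.Ap.f (x, y)) +
      ∫ y, Mo x y * mb.chi.f (x, y) * mb.Ap.f (x, y)) := by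
  filter_upwards [mb.Ap.sl_mem, mb.chi.sl_mem] with x hx hc
  rw [MB.a, mvs1_fW]
  refine mvs1_lin (k := 0) (integrable_zero _ _ _) (cabs_mul hx.1 hx.1) (mvs1_sq hx.2.2.1 hx.1)
    (cabs_mul (mb.P.memMe x).2.1 hx.1) (cabs_mul hc.2.2.2.1 hx.1) (zero_mul _) fun y => ?_
  rw [mb.Sp_eq, (mb.par x y).2.2.2.2.2.1]
  ring

theorem MB.sip_Sc : ∀ᵐ x : E3, sip mb.Sc mb.chi.f x = (V L x + mb.I) * mb.c x ^ 2 +
    lam * ((∫ y, Me x y * mb.chi.f (x, y) ^ 2) +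
      mb.d x * (∫ y, (Me x y - 2 / (1 + ‖x‖)) * mb.P.f y * mb.chi.f (x, y)) +
      ∫ y, Mo x y * mb.chi.f (x, y) * mb.Ap.f (x, y)) := by
  filter_upwards [mb.Ap.sl_mem, mb.chi.sl_mem, mb.orth] with x hx hc ho
  have i0 := cabs_mul mb.P.l2.1 hc.1
  have i3 : Integrable fun y => (Me x y - 2 / (1 + ‖x‖)) * mb.P.f y * mb.chi.f (x, y) := by
    refine ((cabs_mul (mb.P.memMe x).1 hc.1).sub (i0.const_mul (2 / (1 + ‖x‖)))).congr
      (Eventually.of_forall fun y => ?_)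
    simp only [Pi.sub_apply]
    ring
  rw [MB.c, mvs1_fW]
  refine mvs1_lin (k := (V L x + mb.I) * mb.d x + lam * mb.d x * (2 / (1 + ‖x‖)) - mb.Rd x) i0
    (cabs_mul hc.1 hc.1) (mvs1_sq hc.2.2.1 hc.1) i3 (cabs_mul hc.2.2.2.1 hx.1)
    (mul_eq_zero_of_right _ ho.2.1) fun y => ?_
  simp only [MB.Sc]
  rw [mb.Sm_eq, eq_add_of_sub_eq (mb.par x y).2.2.2.2.2.1.symm]
  ring

theorem MB.sq_eq (x : E3) : mb.a x ^ 2 = sip mb.Ap.f mb.Ap.f x ∧
    mb.b x ^ 2 = sip mb.B.f mb.B.f x ∧ mb.c x ^ 2 = sip mb.chi.f mb.chi.f x ∧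
    mb.N x ^ 2 = sip mb.A.f mb.A.f x + sip mb.B.f mb.B.f x ∧
    mb.a x = √(∫ y, mb.Ap.f (x, y) ^ 2) ∧ mb.b x = √(∫ y, mb.B.f (x, y) ^ 2) ∧
    mb.c x = √(∫ y, mb.chi.f (x, y) ^ 2) := by
  refine ⟨mvs1_fW _ x, mvs1_fW _ x, mvs1_fW _ x, ?_, mvs1_fW' _ x, mvs1_fW' _ x, mvs1_fW' _ x⟩
  simp only [MB.N, fW, MB.ZN, Fin.sum_univ_two, Matrix.cons_val_zero, Matrix.cons_val_one]
  exact Real.sq_sqrt (add_nonneg (sip_nonneg _ x) (sip_nonneg _ x))

end

end Vale.Agent.P363
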