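import Vale.Agent.P363.MVS1

/-! P363, block MV: the noninteracting solutions. -/

open MeasureTheory Set Metric Filter Topology
open scoped RealInnerProductSpace

namespace Vale.Agent.P363

noncomputable section

/-- One-body eigenvalue equation. -/
def mvc1_Eq (L e : ℝ) (φ : E3 → ℝ) (p : E3 → E3) : Prop :=
  ∀ f gf, H1 f gf → q1 L φ p f gf = e * ∫ x, φ x * f x

theorem mvc1_one {L e : ℝ} {φ ψ : E3 → ℝ} {p : E3 → E3} (h : H1 φ p) (he : mvc1_Eq L e φ p)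
    (hψ : MemLp ψ 2 volume) {F : E6 → ℝ} {G : E6 → E3} (hF : HV volume F G) :
    Integrable (fun w : E6 => (1 / 2) * ⟪ψ w.2 • p w.1, G w⟫ + V L w.1 * (φ w.1 * ψ w.2) * F w) ∧
    ∫ w : E6, ((1 / 2) * ⟪ψ w.2 • p w.1, G w⟫ + V L w.1 * (φ w.1 * ψ w.2) * F w) =
      e * ∫ w : E6, φ w.1 * ψ w.2 * F w := by
  have t1 := HV.tensor (ν := (volume : Measure E3)) h hψ
  have i1 : Integrable (fun w : E6 => ⟪ψ w.2 • p w.1, G w⟫) := CO2Aux.int_inner t1.l2g hF.l2g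
  have i2 : Integrable (fun w : E6 => V L w.1 * (φ w.1 * ψ w.2) * F w) := by
    have := (memLp_tensor (μ := volume) (ν := volume) (memLp_V h L) hψ).integrable_mul hF.l2
    refine this.congr (Eventually.of_forall fun w => ?_)
    simp only [Pi.mul_apply]
    ring
  have i3 : Integrable (fun w : E6 => φ w.1 * ψ w.2 * F w) := t1.l2.integrable_mul hF.l2
  have i4 := (i1.const_mul (1 / 2)).add i2
  refine ⟨i4, ?_⟩
  have i5 : Integrable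
      (fun w : E6 => (1 / 2) * ⟪ψ w.2 • p w.1, G w⟫ + V L w.1 * (φ w.1 * ψ w.2) * F w)
      ((volume : Measure E3).prod volume) := i4
  have i6 : Integrable (fun w : E6 => φ w.1 * ψ w.2 * F w) ((volume : Measure E3).prod volume) :=
    i3
  rw [Measure.volume_eq_prod, integral_prod_symm _ i5, integral_prod_symm _ i6,
    ← integral_const_mul]
  refine integral_congr_ae ?_
  filter_upwards [hF.slice] with y hy
  have k := he _ _ hy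
  rw [q1] at k
  have e1 : ∫ x, ((1 / 2) * ⟪ψ y • p x, G (x, y)⟫ + V L x * (φ x * ψ y) * F (x, y)) =
      ψ y * ∫ x, ((1 / 2) * ⟪p x, G (x, y)⟫ + V L x * φ x * F (x, y)) := by
    rw [← integral_const_mul]
    refine integral_congr_ae (Eventually.of_forall fun x => ?_)
    simp only [real_inner_smul_left]
    ring
  have e2 : ∫ x, φ x * ψ y * F (x, y) = ψ y * ∫ x, φ x * F (x, y) := by
    rw [← integral_const_mul]
    refine integral_congr_ae (Eventually.of_forall fun x => ?_)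
    simp only
    ring
  rw [e1, e2, k]
  ring

theorem mvc1_q2 {L e e' : ℝ} {φ ψ : E3 → ℝ} {p q : E3 → E3} (h : H1 φ p) (h' : H1 ψ q)
    (he : mvc1_Eq L e φ p) (he' : mvc1_Eq L e' ψ q) (lam : ℝ) (b : O2) :
    q2 L lam (O2.ten h h') b = (e + e') * ip2 (O2.ten h h') b +
      lam * ∫ y : E6, ‖y.1 - y.2‖⁻¹ * (O2.ten h h').f y * b.f y := by
  obtain ⟨a1, a2⟩ := mvc1_one h he h'.l2 b.h.h1
  obtain ⟨b1, b2⟩ := mvc1_one h' he' h.l2 b.h.h2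
  have b3 : Integrable (fun w : E6 =>
      (1 / 2) * ⟪φ w.1 • q w.2, b.g2 w⟫ + V L w.2 * (ψ w.2 * φ w.1) * b.f w) := by
    have := mp_swap6.integrable_comp_of_integrable b1
    simpa only [Function.comp_def, Prod.swap_swap, Prod.fst_swap, Prod.snd_swap] using this
  have b4 : ∫ w : E6, ((1 / 2) * ⟪φ w.1 • q w.2, b.g2 w⟫ + V L w.2 * (ψ w.2 * φ w.1) * b.f w) =
      e' * ∫ w : E6, φ w.1 * ψ w.2 * b.f w := by
    rw [← integral_swap6, ← integral_swap6 fun w => φ w.1 * ψ w.2 * b.f w]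
    simp only [Prod.fst_swap, Prod.snd_swap]
    rw [b2]
    simp only [mul_comm (ψ _)]
  have c1 : Integrable (fun y : E6 => ‖y.1 - y.2‖⁻¹ * (O2.ten h h').f y * b.f y) :=
    ((O2.ten h h').hardy 0).2.2.1.1.integrable_mul b.l2.1
  have s1 : Integrable (fun w : E6 =>
      ((1 / 2) * ⟪ψ w.2 • p w.1, b.g1 w⟫ + V L w.1 * (φ w.1 * ψ w.2) * b.f w) +
        ((1 / 2) * ⟪φ w.1 • q w.2, b.g2 w⟫ + V L w.2 * (ψ w.2 * φ w.1) * b.f w)) := a1.add b3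
  have e1 : q2 L lam (O2.ten h h') b = ∫ w : E6,
      ((((1 / 2) * ⟪ψ w.2 • p w.1, b.g1 w⟫ + V L w.1 * (φ w.1 * ψ w.2) * b.f w) +
        ((1 / 2) * ⟪φ w.1 • q w.2, b.g2 w⟫ + V L w.2 * (ψ w.2 * φ w.1) * b.f w)) +
        lam * (‖w.1 - w.2‖⁻¹ * (O2.ten h h').f w * b.f w)) := by
    refine integral_congr_ae (Eventually.of_forall fun w => ?_)
    simp only [O2.ten, W2]
    ring
  rw [e1, integral_add s1 (c1.const_mul lam), integral_add a1 b3, integral_const_mul, a2, b4]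
  simp only [ip2, O2.ten]
  ring

theorem mvc1_ve {L e1 e2 e3 : ℝ} {φ1 φ2 φ3 : E3 → ℝ} {p1 p2 p3 : E3 → E3} (h1 : H1 φ1 p1)
    (h2 : H1 φ2 p2) (h3 : H1 φ3 p3) (k1 : mvc1_Eq L e1 φ1 p1) (k2 : mvc1_Eq L e2 φ2 p2)
    (k3 : mvc1_Eq L e3 φ3 p3) (lam E0 : ℝ) :
    VE L lam E0 (O3.ten h1 (O2.ten h2 h3)) (fun w =>
      (V L w.1 + E0 - (e1 + e2 + e3) - lam * ‖w.2.1 - w.2.2‖⁻¹) *
        (φ1 w.1 * (φ2 w.2.1 * φ3 w.2.2))) := by
  have hR : MemLp (fun x => V L x * φ1 x - e1 * φ1 x) 2 volume :=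
    (memLp_V h1 L).sub (h1.l2.const_mul e1)
  have m1 := ((O2.ten h2 h3).hardy 0).2.2.1.1
  have hs : MemLp (fun y : E6 => (E0 - e2 - e3) * (O2.ten h2 h3).f y -
      lam * (‖y.1 - y.2‖⁻¹ * (O2.ten h2 h3).f y)) 2 volume :=
    ((O2.ten h2 h3).l2.1.const_mul _).sub (m1.const_mul lam)
  refine (ve_ten (T := O2.ten h2 h3) h1 hR (fun f gf hf => ?_) hs (fun b => ?_)).congr
    (Eventually.of_forall fun _ => rfl) (Eventually.of_forall fun w => ?_)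
  rotate_right
  · simp only [O2.ten]
    ring
  · obtain ⟨i1, i2, i3⟩ := q1_int h1 hf L
    have k := k1 f gf hf
    rw [q1] at k
    have i4 : Integrable fun x => (1 / 2) * ⟪p1 x, gf x⟫ + V L x * φ1 x * f x :=
      (i1.const_mul (1 / 2)).add i2
    have e : ∫ x, ((1 / 2) * ⟪p1 x, gf x⟫ + (V L x * φ1 x - e1 * φ1 x) * f x) =
        ∫ x, (((1 / 2) * ⟪p1 x, gf x⟫ + V L x * φ1 x * f x) - e1 * (φ1 x * f x)) := by
      refine integral_congr_ae (Eventually.of_forall fun x => ?_)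
      simp only
      ring
    rw [e, integral_sub i4 (i3.const_mul e1), integral_const_mul, k, sub_self]
  · have i1 := ((O2.ten h2 h3).int b L lam).1
    have i2 : Integrable (fun y : E6 => ‖y.1 - y.2‖⁻¹ * (O2.ten h2 h3).f y * b.f y) :=
      m1.integrable_mul b.l2.1
    have e : ∫ y : E6, ((E0 - e2 - e3) * (O2.ten h2 h3).f y -
        lam * (‖y.1 - y.2‖⁻¹ * (O2.ten h2 h3).f y)) * b.f y =
        ∫ y : E6, ((E0 - e2 - e3) * ((O2.ten h2 h3).f y * b.f y) -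
          lam * (‖y.1 - y.2‖⁻¹ * (O2.ten h2 h3).f y * b.f y)) := by
      refine integral_congr_ae (Eventually.of_forall fun x => ?_)
      simp only
      ring
    rw [e, integral_sub (i1.const_mul _) (i2.const_mul _), integral_const_mul, integral_const_mul,
      mvc1_q2 h2 h3 k2 k3, ip2]
    ring

theorem mvc1_s2 : √2 * (√2)⁻¹ = 1 := mul_inv_cancel₀ (by positivity)

theorem mvc1_s2' : (√2)⁻¹ ^ 2 = 1 / 2 := by
  rw [inv_pow, Real.sq_sqrt (by norm_num)]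
  norm_num

theorem mvc1_sq {A B : E6 → ℝ} (hA : MemLp A 2 volume) (hB : MemLp B 2 volume) (a b : ℝ) :
    MemLp (fun y => (√2)⁻¹ * (a * A y + -1 * (b * B y))) 2 volume ∧
    ∫ y, ((√2)⁻¹ * (a * A y + -1 * (b * B y))) ^ 2 ≤
      a ^ 2 * (∫ y, A y ^ 2) + b ^ 2 * ∫ y, B y ^ 2 := by
  refine ⟨((hA.const_mul a).add ((hB.const_mul b).const_mul (-1))).const_mul _, ?_⟩
  have i1 := hA.integrable_sq.const_mul (a ^ 2)
  have i2 := hB.integrable_sq.const_mul (b ^ 2)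
  rw [← integral_const_mul, ← integral_const_mul, ← integral_add i1 i2]
  refine integral_mono_of_nonneg (Eventually.of_forall fun y => sq_nonneg _) (i1.add i2)
    (Eventually.of_forall fun y => ?_)
  simp only [mul_pow, mvc1_s2']
  nlinarith [sq_nonneg (a * A y + b * B y)]

/-- A bound for the three integrals attached to an ion state. -/
theorem mvc1_K (T : O2) : ∃ K : ℝ, 0 ≤ K ∧ ∀ x : E3, ∫ y, T.f y ^ 2 ≤ K ∧
    ∫ y, (Mx x y * T.f y) ^ 2 ≤ K ∧ ∫ y : E6, (‖y.1 - y.2‖⁻¹ * T.f y) ^ 2 ≤ K := by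
  have n1 : 0 ≤ ∫ y, T.f y ^ 2 := integral_nonneg fun _ => sq_nonneg _
  have n2 : 0 ≤ k2 T := integral_nonneg fun _ => by positivity
  have n3 : 0 ≤ ∫ y : E6, (‖y.1 - y.2‖⁻¹ * T.f y) ^ 2 := integral_nonneg fun _ => sq_nonneg _
  refine ⟨(∫ y, T.f y ^ 2) + 8 * k2 T + ∫ y : E6, (‖y.1 - y.2‖⁻¹ * T.f y) ^ 2, by positivity,
    fun x => ⟨by linarith, ?_, by linarith⟩⟩
  linarith [(T.hardy x).2.2.2.2]

theorem mvc1_bd (T T' : O2) : ∃ K : ℝ, 0 ≤ K ∧ ∀ (x : E3) (a b : ℝ) (f : E6 → ℝ),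
    (∀ y, f y = (√2)⁻¹ * (a * T.f y + -1 * (b * T'.f y))) →
    MemLp f 2 volume ∧ MemLp (fun y => Mx x y * f y) 2 volume ∧
    MemLp (fun y : E6 => ‖y.1 - y.2‖⁻¹ * f y) 2 volume ∧
    ∫ y, f y ^ 2 ≤ K * (a ^ 2 + b ^ 2) ∧ ∫ y, (Mx x y * f y) ^ 2 ≤ K * (a ^ 2 + b ^ 2) ∧
    ∫ y : E6, (‖y.1 - y.2‖⁻¹ * f y) ^ 2 ≤ K * (a ^ 2 + b ^ 2) := by
  obtain ⟨K, hK, k⟩ := mvc1_K T
  obtain ⟨K', hK', k'⟩ := mvc1_K T'
  refine ⟨K + K', by positivity, fun x a b f hf => ?_⟩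
  have aux : ∀ {s t : ℝ}, s ≤ K → t ≤ K' → a ^ 2 * s + b ^ 2 * t ≤ (K + K') * (a ^ 2 + b ^ 2) :=
    fun hs ht => by
      nlinarith [mul_le_mul_of_nonneg_left hs (sq_nonneg a),
        mul_le_mul_of_nonneg_left ht (sq_nonneg b), mul_nonneg hK (sq_nonneg b),
        mul_nonneg hK' (sq_nonneg a)]
  obtain ⟨a1, a2⟩ := mvc1_sq T.l2.1 T'.l2.1 a b
  obtain ⟨b1, b2⟩ := mvc1_sq (T.hardy x).2.2.2.1 (T'.hardy x).2.2.2.1 a b
  obtain ⟨c1, c2⟩ := mvc1_sq (T.hardy x).2.2.1.1 (T'.hardy x).2.2.1.1 a b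
  have e1 : f = fun y => (√2)⁻¹ * (a * T.f y + -1 * (b * T'.f y)) := funext hf
  have e2 : ∀ y, Mx x y * f y =
      (√2)⁻¹ * (a * (Mx x y * T.f y) + -1 * (b * (Mx x y * T'.f y))) := fun y => by
    rw [hf]; ring
  have e3 : ∀ y : E6, ‖y.1 - y.2‖⁻¹ * f y =
      (√2)⁻¹ * (a * (‖y.1 - y.2‖⁻¹ * T.f y) + -1 * (b * (‖y.1 - y.2‖⁻¹ * T'.f y))) := fun y => by
    rw [hf]; ring
  simp only [e2, e3]
  refine ⟨e1 ▸ a1, b1, c1, ?_, b2.trans (aux (k x).2.1 (k' x).2.1),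
    c2.trans (aux (k x).2.2 (k' x).2.2)⟩
  simp only [hf]
  exact a2.trans (aux (k x).1 (k' x).1)

variable {c0 L : ℝ} (ob : OB c0 L)

theorem OB.Fi_eq (w : E9) : ob.Fi.f w = Finf ob w ∧ ob.Bi.f w = Finf ob (p13 w) ∧
    ob.Bi.f w = ob.g w.1 * Tinf ob w.2 ∧
    √2 * ob.Fi.f w = ob.u w.1 * Pinf ob w.2 - ob.g w.1 * (ob.u w.2.1 * ob.g w.2.2) := by
  simp only [OB.Fi, OB.Bi, O3.cmul, O3.sub, O3.add, O3.ten, O2.ten, Finf, Tinf, Pinf, p13,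
    div_eq_mul_inv]
  refine ⟨by ring, by ring, by ring, ?_⟩
  rw [← mul_assoc, mvc1_s2]
  ring

theorem OB.veFi (lam E0 : ℝ) : VE L lam E0 ob.Fi (ob.srcI lam E0 ob.Fi) ∧
    VE L lam E0 ob.Bi (ob.srcI lam E0 ob.Bi) := by
  have k1 := mvc1_ve ob.hu ob.hg ob.hg ob.equ ob.eqg ob.eqg lam E0
  have k2 := mvc1_ve ob.hg ob.hu ob.hg ob.eqg ob.equ ob.eqg lam E0
  have k3 := mvc1_ve ob.hg ob.hg ob.hu ob.eqg ob.eqg ob.equ lam E0
  constructor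
  · refine ((k1.sub k2).cmul (√2)⁻¹).congr (Eventually.of_forall fun _ => rfl)
      (Eventually.of_forall fun w => ?_)
    simp only [OB.srcI, OB.Fi, O3.cmul, O3.sub, O3.add, O3.ten, O2.ten]
    ring
  · refine ((k3.sub k2).cmul (√2)⁻¹).congr (Eventually.of_forall fun _ => rfl)
      (Eventually.of_forall fun w => ?_)
    simp only [OB.srcI, OB.Bi, O3.cmul, O3.sub, O3.add, O3.ten, O2.ten]
    ring

theorem mvc1_pm (a b : E3 → ℝ) : ∫ y : E6, a y.1 * b y.2 = (∫ x, a x) * ∫ x, b x :=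
  integral_prod_mul (μ := volume) (ν := volume) a b

theorem OB.norms : ∫ y, Pinf ob y ^ 2 = 1 ∧ ∫ y, Tinf ob y ^ 2 = 1 ∧
    ∫ y : E6, (ob.u y.1 * ob.g y.2) ^ 2 = 1 ∧ ∫ y : E6, Pinf ob y * (ob.u y.1 * ob.g y.2) = 0 ∧
    MemLp (Pinf ob) 2 volume ∧ MemLp (Tinf ob) 2 volume ∧
    MemLp (fun y : E6 => ob.u y.1 * ob.g y.2) 2 volume := by
  have m1 : MemLp (fun y : E6 => ob.g y.1 * ob.g y.2) 2 volume :=
    memLp_tensor (μ := volume) (ν := volume) ob.hg.l2 ob.hg.l2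
  have m2 : MemLp (fun y : E6 => ob.u y.1 * ob.g y.2) 2 volume :=
    memLp_tensor (μ := volume) (ν := volume) ob.hu.l2 ob.hg.l2
  have m3 : MemLp (fun y : E6 => ob.g y.1 * ob.u y.2) 2 volume :=
    memLp_tensor (μ := volume) (ν := volume) ob.hg.l2 ob.hu.l2
  have n1 : ∫ y : E6, (ob.g y.1 * ob.g y.2) ^ 2 = 1 := by
    simp only [mul_pow]
    rw [mvc1_pm (fun x => ob.g x ^ 2) (fun x => ob.g x ^ 2), ob.ng, one_mul]
  have n2 : ∫ y : E6, (ob.u y.1 * ob.g y.2) ^ 2 = 1 := by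
    simp only [mul_pow]
    rw [mvc1_pm (fun x => ob.u x ^ 2) (fun x => ob.g x ^ 2), ob.ng, ob.nu, one_mul]
  have n3 : ∫ y : E6, (ob.g y.1 * ob.u y.2) ^ 2 = 1 := by
    simp only [mul_pow]
    rw [mvc1_pm (fun x => ob.g x ^ 2) (fun x => ob.u x ^ 2), ob.ng, ob.nu, one_mul]
  have o1 : ∫ y : E6, (ob.g y.1 * ob.g y.2) * (ob.u y.1 * ob.g y.2) = 0 := by
    have e : ∀ y : E6, (ob.g y.1 * ob.g y.2) * (ob.u y.1 * ob.g y.2) =
        (ob.g y.1 * ob.u y.1) * ob.g y.2 ^ 2 := fun y => by ring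
    simp only [e]
    rw [mvc1_pm (fun x => ob.g x * ob.u x) (fun x => ob.g x ^ 2), ob.orthV, zero_mul]
  have o2 : ∫ y : E6, (ob.g y.1 * ob.u y.2) * (ob.u y.1 * ob.g y.2) = 0 := by
    have e : ∀ y : E6, (ob.g y.1 * ob.u y.2) * (ob.u y.1 * ob.g y.2) =
        (ob.g y.1 * ob.u y.1) * (ob.g y.2 * ob.u y.2) := fun y => by ring
    simp only [e]
    rw [mvc1_pm (fun x => ob.g x * ob.u x) (fun x => ob.g x * ob.u x), ob.orthV, zero_mul]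
  have eT : ∀ y : E6, Tinf ob y =
      (√2)⁻¹ * (ob.g y.1 * ob.u y.2 + -1 * (ob.u y.1 * ob.g y.2)) := fun y => by
    simp only [Tinf, div_eq_mul_inv]
    ring
  refine ⟨n1, ?_, n2, o1, m1, ?_, m2⟩
  · simp only [eT, mul_pow (√2)⁻¹, mvc1_s2']
    rw [integral_const_mul, cabs_exp m3 m2 (-1), n2, n3, o2]
    norm_num
  · rw [funext eT]
    exact (m3.add (m2.const_mul (-1))).const_mul _

/-- Slice bounds for the noninteracting solutions. -/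
theorem OB.slice_bd : ∃ K : ℝ, 0 ≤ K ∧ ∀ G : O3, G = ob.Fi ∨ G = ob.Bi → ∀ x : E3,
    MemLp (fun y => G.f (x, y)) 2 volume ∧ MemLp (fun y => Mx x y * G.f (x, y)) 2 volume ∧
    MemLp (fun y : E6 => ‖y.1 - y.2‖⁻¹ * G.f (x, y)) 2 volume ∧
    ∫ y, G.f (x, y) ^ 2 ≤ K * (ob.g x ^ 2 + ob.u x ^ 2) ∧
    ∫ y, (Mx x y * G.f (x, y)) ^ 2 ≤ K * (ob.g x ^ 2 + ob.u x ^ 2) ∧
    ∫ y : E6, (‖y.1 - y.2‖⁻¹ * G.f (x, y)) ^ 2 ≤ K * (ob.g x ^ 2 + ob.u x ^ 2) := by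
  obtain ⟨K, hK, k⟩ := mvc1_bd (O2.ten ob.hg ob.hg) (O2.ten ob.hu ob.hg)
  obtain ⟨K', hK', k'⟩ := mvc1_bd (O2.ten ob.hg ob.hu) (O2.ten ob.hu ob.hg)
  refine ⟨K + 2 * K', by positivity, fun G hG x => ?_⟩
  have p1 := mul_nonneg hK (sq_nonneg (ob.g x))
  have p2 := mul_nonneg hK (sq_nonneg (ob.u x))
  have p3 := mul_nonneg hK' (sq_nonneg (ob.g x))
  have p4 := mul_nonneg hK' (sq_nonneg (ob.u x))
  rcases hG with rfl | rfl
  · obtain ⟨a1, a2, a3, a4, a5, a6⟩ := k x (ob.u x) (ob.g x) (fun y => ob.Fi.f (x, y))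
      fun _ => rfl
    exact ⟨a1, a2, a3, by nlinarith, by nlinarith, by nlinarith⟩
  · obtain ⟨a1, a2, a3, a4, a5, a6⟩ := k' x (ob.g x) (ob.g x) (fun y => ob.Bi.f (x, y))
      fun _ => rfl
    exact ⟨a1, a2, a3, by nlinarith, by nlinarith, by nlinarith⟩

end

end Vale.Agent.P363
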