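import Vale.Agent.P363.MVc1

/-! P363, block MV: uniform closeness of the slices. -/

open MeasureTheory Set Metric Filter Topology
open scoped RealInnerProductSpace

namespace Vale.Agent.P363

noncomputable section

theorem mvc2_pt {v i m δ lam r e g : ℝ} (hi : 0 ≤ i) (hm : 0 ≤ m) (hl : 0 ≤ lam) :
    (v - 3) * (e * e) - ((δ * g) ^ 2 + (lam ^ 2 * (m * g) ^ 2 + lam ^ 2 * (r * g) ^ 2)) ≤
      ((v + i + lam * m) * e + (δ + lam * m + lam * r) * g) * e := by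
  have h1 := mul_nonneg (add_nonneg hi (mul_nonneg hl hm)) (mul_self_nonneg e)
  nlinarith [sq_nonneg (e + δ * g), sq_nonneg (e + lam * (m * g)), sq_nonneg (e + lam * (r * g)),
    sq_nonneg e, sq_nonneg (δ * g), sq_nonneg (lam * (m * g)), sq_nonneg (lam * (r * g))]

theorem mvc2_low {c0 L lam C C1 C3 K : ℝ} {ob : OB c0 L} (mb : MB ob lam C C1)
    (h : Sl ob lam C C1 C3) (Z G : O3)
    (hS : MemLp (fun w => mb.src Z w - ob.srcI lam mb.E0 G w) 2 volume)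
    (hG : ∀ x : E3, MemLp (fun y => G.f (x, y)) 2 volume ∧
      MemLp (fun y => Mx x y * G.f (x, y)) 2 volume ∧
      MemLp (fun y : E6 => ‖y.1 - y.2‖⁻¹ * G.f (x, y)) 2 volume ∧
      ∫ y, G.f (x, y) ^ 2 ≤ K * (ob.g x ^ 2 + ob.u x ^ 2) ∧
      ∫ y, (Mx x y * G.f (x, y)) ^ 2 ≤ K * (ob.g x ^ 2 + ob.u x ^ 2) ∧
      ∫ y : E6, (‖y.1 - y.2‖⁻¹ * G.f (x, y)) ^ 2 ≤ K * (ob.g x ^ 2 + ob.u x ^ 2)) :
    ∀ᵐ x : E3, (V L x - 3) * sip (Z.sub G).f (Z.sub G).f x -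
      lam ^ 2 * ((C1 ^ 2 + 2) * (K * (ob.g x ^ 2 + ob.u x ^ 2))) ≤
      sip (fun w => mb.src Z w - ob.srcI lam mb.E0 G w) (Z.sub G).f x := by
  have hI : 0 ≤ mb.I := by linarith [(mb.I_mem h).1]
  have hδ : (2 * ob.eg + ob.eu - mb.E) ^ 2 ≤ (C1 * lam) ^ 2 := by
    have := abs_le.1 mb.en.1
    exact sq_le_sq' (by linarith) (by linarith)
  filter_upwards [cabs_slice (μ := (volume : Measure E3)) (ν := (volume : Measure E6)) hS,
    cabs_slice (μ := (volume : Measure E3)) (ν := (volume : Measure E6)) (Z.sub G).l2.1]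
    with x h1 h2
  obtain ⟨g1, g2, g3, g4, g5, g6⟩ := hG x
  have i1 : Integrable fun y => (V L x - 3) * ((Z.sub G).f (x, y) * (Z.sub G).f (x, y)) :=
    (cabs_mul h2 h2).const_mul _
  have i2 : Integrable fun y => (2 * ob.eg + ob.eu - mb.E) ^ 2 * G.f (x, y) ^ 2 :=
    g1.integrable_sq.const_mul _
  have i3 : Integrable fun y => lam ^ 2 * (Mx x y * G.f (x, y)) ^ 2 :=
    g2.integrable_sq.const_mul _
  have i4 : Integrable fun y : E6 => lam ^ 2 * (‖y.1 - y.2‖⁻¹ * G.f (x, y)) ^ 2 :=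
    g3.integrable_sq.const_mul _
  have i34 : Integrable fun y : E6 => lam ^ 2 * (Mx x y * G.f (x, y)) ^ 2 +
      lam ^ 2 * (‖y.1 - y.2‖⁻¹ * G.f (x, y)) ^ 2 := i3.add i4
  have i234 : Integrable fun y : E6 => (2 * ob.eg + ob.eu - mb.E) ^ 2 * G.f (x, y) ^ 2 +
      (lam ^ 2 * (Mx x y * G.f (x, y)) ^ 2 + lam ^ 2 * (‖y.1 - y.2‖⁻¹ * G.f (x, y)) ^ 2) :=
    i2.add i34
  have key := integral_mono (i1.sub i234) (cabs_mul h1 h2) fun y => by
    have := mvc2_pt (v := V L x) (δ := 2 * ob.eg + ob.eu - mb.E) (r := ‖y.1 - y.2‖⁻¹)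
      (e := (Z.sub G).f (x, y)) (g := G.f (x, y)) hI (abs_Mo_le x y).2.1 h.l0.le
    refine le_of_eq_of_le (by simp only [Pi.sub_apply, mul_pow]) (this.trans (le_of_eq ?_))
    show _ = (mb.src Z (x, y) - ob.srcI lam mb.E0 G (x, y)) * (Z.sub G).f (x, y)
    congr 1
    show (V L x + mb.I + lam * Mx x y) * (Z.f (x, y) + -1 * G.f (x, y)) + _ = _
    simp only [MB.src, OB.srcI, MB.I]
    ring
  simp only [Pi.sub_apply] at key
  rw [integral_sub i1 i234, integral_add i2 i34, integral_add i3 i4, integral_const_mul,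
    integral_const_mul, integral_const_mul, integral_const_mul] at key
  refine le_trans ?_ key
  unfold sip
  have n1 : 0 ≤ ∫ y, G.f (x, y) ^ 2 := integral_nonneg fun _ => sq_nonneg _
  have a1 := mul_le_mul hδ g4 n1 (sq_nonneg _)
  have a2 := mul_le_mul_of_nonneg_left g5 (sq_nonneg lam)
  have a3 := mul_le_mul_of_nonneg_left g6 (sq_nonneg lam)
  nlinarith

theorem mvc2_core {c0 L : ℝ} (ob : OB c0 L) (ρ : ℝ) {ε : ℝ} (hε : 0 < ε) :
    ∃ K1 K2 : ℝ, ∀ (lam C C1 C3 : ℝ) (mb : MB ob lam C C1), Sl ob lam C C1 C3 → ∀ Z G : O3,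
      G = ob.Fi ∨ G = ob.Bi → VE L lam mb.E0 Z (mb.src Z) →
      VE L lam mb.E0 G (ob.srcI lam mb.E0 G) → ∫ w, (Z.f w - G.f w) ^ 2 ≤ C1 * lam →
      ∀ᵐ x : E3, x ∈ Blk L ρ ε → ∫ y, (Z.f (x, y) - G.f (x, y)) ^ 2 ≤
        K1 * (C1 * lam + lam ^ 2 * ((C1 ^ 2 + 2) * K2)) := by
  obtain ⟨K, hK, hG⟩ := ob.slice_bd
  have hs : 0 < min (ε / 4) (1 / 2) := lt_min (by positivity) (by norm_num)
  obtain ⟨K1, hK1, hmv⟩ := mvb (C := 4 / ε + 3) hs (by positivity)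
  have hsub : Blk L (|ρ| + 1) (ε / 2) ⊆ D L := Blk_subset_D (by positivity)
  obtain ⟨M, hM⟩ := (isCompact_Blk L (|ρ| + 1) (ε / 2)).bddAbove_image
    (f := fun x => ob.g x ^ 2 + ob.u x ^ 2) (((ob.cg.mono hsub).pow 2).add ((ob.cu.mono hsub).pow 2))
  refine ⟨K1, K * max M 0, fun lam C C1 C3 mb h Z G hGG hZ hGe hc => ?_⟩
  set U : Set E3 := Ext2 L (ε / 2) ∩ ball 0 (|ρ| + 1) with hUd
  have hU : IsOpen U := (isOpen_Ext2 _ _).inter isOpen_ball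
  have hve := hZ.sub hGe
  have heq := fam_eq (Z := ![Z.sub G]) (S := ![fun w => mb.src Z w - ob.srcI lam mb.E0 G w])
    (fun j => by fin_cases j; exact hve)
  obtain ⟨f1, -, f3, f4, -⟩ := fam_h1 ![Z.sub G]
  have hw : ∀ x, fW ![Z.sub G] x ^ 2 = sip (Z.sub G).f (Z.sub G).f x := fun x => by
    simpa using (f3 x).2
  have hF : 0 ≤ lam ^ 2 * ((C1 ^ 2 + 2) * (K * max M 0)) := by positivity
  have hb := hmv U _ _ _ _ hU hF (heq.subQ U) (by
    filter_upwards [mvc2_low mb h Z G hve.l2 (hG G hGG), mb.h2_nonneg (Z.sub G)] with x a1 a2 hx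
    have e : fR L lam mb.E0 ![Z.sub G] ![fun w => mb.src Z w - ob.srcI lam mb.E0 G w] x =
        h2 L lam mb.E0 (Z.sub G) (Z.sub G) x +
          sip (fun w => mb.src Z w - ob.srcI lam mb.E0 G w) (Z.sub G).f x := by
      simp [fR]
    rw [e, hw]
    have hx1 : ob.g x ^ 2 + ob.u x ^ 2 ≤ max M 0 :=
      (hM ⟨x, ⟨(mem_ball_zero_iff.1 hx.2).le, hx.1.1.le, hx.1.2.le⟩, rfl⟩).trans (le_max_left _ _)
    have hA : (rA L x)⁻¹ ≤ 2 / ε := by
      rw [← inv_div]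
      exact inv_anti₀ (by positivity) hx.1.1.le
    have hB : (rB L x)⁻¹ ≤ 2 / ε := by
      rw [← inv_div]
      exact inv_anti₀ (by positivity) hx.1.2.le
    have hV : -(4 / ε + 3) ≤ V L x - 3 := by
      unfold V
      have : 4 / ε = 2 / ε + 2 / ε := by ring
      linarith
    have b1 := mul_le_mul_of_nonneg_right hV (sip_nonneg (Z.sub G).f x)
    have b2 : lam ^ 2 * ((C1 ^ 2 + 2) * (K * (ob.g x ^ 2 + ob.u x ^ 2))) ≤
        lam ^ 2 * ((C1 ^ 2 + 2) * (K * max M 0)) := by gcongr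
    linarith)
  have ee : ∀ w, (Z.sub G).f w * (Z.sub G).f w = (Z.f w - G.f w) ^ 2 := fun w => by
    show (Z.f w + -1 * G.f w) * (Z.f w + -1 * G.f w) = _
    ring
  have htot : ∫ x, fW ![Z.sub G] x ^ 2 ≤ C1 * lam := by
    rw [f4]
    simpa [ip3, ee] using hc
  filter_upwards [hb] with x hx hx1
  have hball : closedBall x (min (ε / 4) (1 / 2)) ⊆ U := by
    intro y hy
    have d1 : ‖x - y‖ ≤ ε / 4 := (mem_closedBall_iff_norm'.1 hy).trans (min_le_left _ _)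
    have d2 : ‖y - x‖ ≤ 1 / 2 := (mem_closedBall_iff_norm.1 hy).trans (min_le_right _ _)
    refine ⟨⟨?_, ?_⟩, mem_ball_zero_iff.2 ?_⟩
    · have := norm_add_le (x - y) (y - nA L)
      rw [sub_add_sub_cancel] at this
      have h2 : ε ≤ ‖x - nA L‖ := hx1.2.1
      show ε / 2 < ‖y - nA L‖
      linarith
    · have := norm_add_le (x - y) (y + nA L)
      rw [← add_assoc, sub_add_cancel] at this
      have h2 : ε ≤ ‖x + nA L‖ := hx1.2.2
      show ε / 2 < ‖y + nA L‖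
      linarith
    · have := norm_add_le (y - x) x
      rw [sub_add_cancel] at this
      have h2 : ‖x‖ ≤ ρ := hx1.1
      linarith [le_abs_self ρ]
  have h3 := hx hball
  have h4 : ∫ y in closedBall x (min (ε / 4) (1 / 2)), fW ![Z.sub G] y ^ 2 ≤ C1 * lam :=
    (setIntegral_le_integral f1.l2.integrable_sq
      (Eventually.of_forall fun _ => sq_nonneg _)).trans htot
  rw [hw] at h3
  simp only [sip, ee] at h3
  exact h3.trans (mul_le_mul_of_nonneg_left (by linarith) hK1)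

theorem close_core {c0 L C C1 C3 : ℝ} (ob : OB c0 L) (ρ : ℝ) {ε τ : ℝ} (hε : 0 < ε) (hτ : 0 < τ) :
    ∀ᶠ lam in 𝓝[>] (0 : ℝ), ∀ mb : MB ob lam C C1, Sl ob lam C C1 C3 → ∀ᵐ x : E3,
      x ∈ Blk L ρ ε → ∫ y, (mb.F.f (x, y) - ob.Fi.f (x, y)) ^ 2 ≤ τ ^ 2 ∧
        ∫ y, (mb.B.f (x, y) - ob.Bi.f (x, y)) ^ 2 ≤ τ ^ 2 := by
  obtain ⟨K1, K2, hK⟩ := mvc2_core ob ρ hε
  have hc : Continuous fun lam : ℝ => K1 * (C1 * lam + lam ^ 2 * ((C1 ^ 2 + 2) * K2)) := by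
    fun_prop
  have hev : ∀ᶠ lam in 𝓝 (0 : ℝ), K1 * (C1 * lam + lam ^ 2 * ((C1 ^ 2 + 2) * K2)) < τ ^ 2 :=
    hc.continuousAt.eventually_lt continuousAt_const (by simpa using pow_pos hτ 2)
  filter_upwards [hev.filter_mono nhdsWithin_le_nhds] with lam hl mb h
  have c1 : ∫ w, (mb.F.f w - ob.Fi.f w) ^ 2 ≤ C1 * lam := by
    simp only [(ob.Fi_eq _).1]
    exact mb.cF
  have c2 : ∫ w, (mb.B.f w - ob.Bi.f w) ^ 2 ≤ C1 * lam := by
    simp only [(ob.Fi_eq _).2.1]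
    exact (integral_p13 fun w => (mb.F.f w - Finf ob w) ^ 2).trans_le mb.cF
  filter_upwards [hK lam C C1 C3 mb h mb.F ob.Fi (Or.inl rfl) mb.veF (ob.veFi lam mb.E0).1 c1,
    hK lam C C1 C3 mb h mb.B ob.Bi (Or.inr rfl) mb.veB (ob.veFi lam mb.E0).2 c2] with x a b hx
  exact ⟨(a hx).trans hl.le, (b hx).trans hl.le⟩

end

end Vale.Agent.P363
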