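import Vale.Agent.P363.MVS1

/-! P363, block MV: the inequalities for N and b. -/

open MeasureTheory Set Metric Filter Topology
open scoped RealInnerProductSpace

namespace Vale.Agent.P363

noncomputable section

variable {c0 L lam C C1 C3 : ℝ} {ob : OB c0 L} (mb : MB ob lam C C1)

theorem mven_sq (a : O2) : ∫ w, a.f w ^ 2 = ip2 a a := by simp only [ip2, sq]

theorem mven_nn (a : O2) : 0 ≤ ip2 a a := integral_nonneg fun _ => mul_self_nonneg _

theorem mven_ip (P b : O2) (hP : ip2 P P = 1) (s t : ℝ) :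
    ip2 P ((b.cmul s).add (P.cmul t)) = s * ip2 P b + t ∧
    ip2 ((b.cmul s).add (P.cmul t)) ((b.cmul s).add (P.cmul t)) =
      s ^ 2 * ip2 b b + 2 * s * t * ip2 P b + t ^ 2 := by
  have e : ∀ c : O2, ip2 c ((b.cmul s).add (P.cmul t)) = s * ip2 b c + t * ip2 P c := fun c => by
    rw [ip2_comm, ip2_add, ip2_cmul, ip2_cmul]
  refine ⟨by rw [e, hP, ip2_comm b P, mul_one], ?_⟩
  rw [ip2_add, ip2_cmul, ip2_cmul, e, e, hP, ip2_comm b P]
  ring

theorem mven_q (P b : O2) (s t : ℝ) :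
    q2 L lam ((b.cmul s).add (P.cmul t)) ((b.cmul s).add (P.cmul t)) =
      s ^ 2 * q2 L lam b b + 2 * s * t * q2 L lam P b + t ^ 2 * q2 L lam P P := by
  have e : ∀ c : O2, q2 L lam c ((b.cmul s).add (P.cmul t)) =
      s * q2 L lam b c + t * q2 L lam P c := fun c => by
    rw [q2_comm, q2_add, q2_cmul, q2_cmul]
  rw [q2_add, q2_cmul, q2_cmul, e, e, q2_comm L lam b P]
  ring

theorem mven_M {E0 : ℝ} {P : O2} (hP : Ion L lam C1 P E0) (hC : 0 ≤ C1) (b : O2) (x : E3) :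
    ip2 P b ^ 2 * (2 / (1 + ‖x‖)) - 2 * (C1 / (1 + ‖x‖) ^ 2) * ip2 b b ≤
      ∫ y, Mx x y * b.f y ^ 2 := by
  obtain ⟨g, hg⟩ : ∃ g, g = (b.cmul 2).add (P.cmul (-ip2 P b)) := ⟨_, rfl⟩
  obtain ⟨g1, g2⟩ := mven_ip P b hP.one 2 (-ip2 P b)
  obtain ⟨-, g3⟩ := mven_ip P b hP.one 1 (-ip2 P b)
  have g4 := mven_nn ((b.cmul 1).add (P.cmul (-ip2 P b)))
  rw [← hg] at g1 g2
  have gf : ∀ y, g.f y = 2 * b.f y + -ip2 P b * P.f y := fun y => by rw [hg]; rfl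
  obtain ⟨m1, m2⟩ := hP.m1 x
  have hε : 0 ≤ C1 / (1 + ‖x‖) ^ 2 := by positivity
  generalize 2 / (1 + ‖x‖) = m at *
  generalize C1 / (1 + ‖x‖) ^ 2 = ε at *
  have m3 : MemLp (fun w => (Mx x w - m) * P.f w) 2 volume := by
    simp only [sub_mul]
    exact m1.sub (P.l2.1.const_mul m)
  obtain ⟨j1, j2⟩ := cs_integral m3 g.l2.1
  have i1 : Integrable fun y => Mx x y * b.f y ^ 2 := by
    simp only [sq, ← mul_assoc]
    exact (cs_integral (b.hardy x).2.2.2.1 b.l2.1).1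
  have i2 := (P.int g L lam).1
  have e1 : ∫ y, ip2 P b * ((Mx x y - m) * P.f y * g.f y + m * (P.f y * g.f y)) =
      ip2 P b * ((∫ y, (Mx x y - m) * P.f y * g.f y) + m * ip2 P g) := by
    rw [integral_const_mul, integral_add j1 (i2.const_mul m), integral_const_mul]
    rfl
  have e2 : ∫ y, ip2 P b * ((Mx x y - m) * P.f y * g.f y + m * (P.f y * g.f y)) ≤
      ∫ y, Mx x y * b.f y ^ 2 := by
    refine integral_mono ((j1.add (i2.const_mul m)).const_mul _) i1 fun y => ?_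
    have := mul_nonneg (abs_Mo_le x y).2.1 (sq_nonneg (b.f y - ip2 P b * P.f y))
    simp only [gf]
    linarith
  rw [mven_sq g] at j2
  rw [e1] at e2
  have hs := mven_nn b
  have a1 : |ip2 P b| ≤ √(ip2 b b) := Real.abs_le_sqrt (by linarith)
  have a2 : √(ip2 g g) ≤ 2 * √(ip2 b b) := by
    rw [Real.sqrt_le_left (by positivity), mul_pow, Real.sq_sqrt hs]
    nlinarith [sq_nonneg (ip2 P b)]
  have a3 : |ip2 P b * ∫ y, (Mx x y - m) * P.f y * g.f y| ≤ √(ip2 b b) * (ε * (2 * √(ip2 b b))) := by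
    rw [abs_mul]
    exact mul_le_mul a1 (j2.trans (mul_le_mul m2 a2 (Real.sqrt_nonneg _) hε)) (abs_nonneg _)
      (Real.sqrt_nonneg _)
  have a4 : √(ip2 b b) * (ε * (2 * √(ip2 b b))) = 2 * ε * (√(ip2 b b) * √(ip2 b b)) := by ring
  rw [a4, Real.mul_self_sqrt hs] at a3
  rw [g1] at e2
  linarith [(abs_le.1 a3).1]

/-- Screening on the ion level. -/
theorem MB.ion_lower (h : Sl ob lam C C1 C3) (b : O2) (x : E3) :
    (2 * lam / (1 + ‖x‖) - lam * C3 / (1 + ‖x‖) ^ 2) * ip2 b b ≤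
      q2 L lam b b - mb.E0 * ip2 b b + lam * ∫ y, Mx x y * b.f y ^ 2 := by
  have hC1 := h.hC1
  have hl := h.l0
  have a1 := mul_le_mul_of_nonneg_left (mven_M mb.iP (by linarith) b x) hl.le
  obtain ⟨g1, g2⟩ := mven_ip mb.P b mb.iP.one 1 (-ip2 mb.P b)
  have g3 := mven_q (L := L) (lam := lam) mb.P b 1 (-ip2 mb.P b)
  have g4 := mven_nn ((b.cmul 1).add (mb.P.cmul (-ip2 mb.P b)))
  have g5 := mb.gapP _ (g1.trans (by ring))
  rw [mb.iP.eq, mb.iP.eq, mb.iP.one] at g3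
  rw [g3, g2] at g5
  rw [g2] at g4
  have hn : 0 ≤ ip2 b b - ip2 mb.P b ^ 2 := by linarith
  have e1 : 2 * lam ≤ ob.eg + ob.eu - mb.E0 := by
    have := (abs_le.1 mb.en.2.1).2
    have := h.l1
    unfold OB.del at this
    linarith
  have hr : 0 < 1 + ‖x‖ := by positivity
  have e2 : lam * (2 / (1 + ‖x‖)) ≤ lam * 2 :=
    mul_le_mul_of_nonneg_left (div_le_self (by norm_num) (by linarith [norm_nonneg x])) hl.le
  have e3 := mul_le_mul_of_nonneg_right (e2.trans ((mul_comm _ _).le.trans e1)) hn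
  have e4 : lam * (2 * C1 / (1 + ‖x‖) ^ 2 * ip2 b b) ≤ lam * (C3 / (1 + ‖x‖) ^ 2 * ip2 b b) := by
    have := h.c3
    have := h.hC
    have := mven_nn b
    gcongr
    linarith
  rw [mul_div_assoc] at e4
  rw [mul_div_right_comm, mul_div_assoc]
  linarith

theorem mven_RN (x : E3) : mb.RN x = (h2 L lam mb.E0 mb.A mb.A x + sip (mb.src mb.A) mb.A.f x) +
    (h2 L lam mb.E0 mb.B mb.B x + sip (mb.src mb.B) mb.B.f x) := by
  unfold MB.RN fR
  exact Fin.sum_univ_two _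

theorem mven_one (h : Sl ob lam C C1 C3) (Z : O3) : ∀ᵐ x : E3,
    (V L x + mb.I + 2 * lam / (1 + ‖x‖) - lam * C3 / (1 + ‖x‖) ^ 2) * sip Z.f Z.f x ≤
      h2 L lam mb.E0 Z Z x + sip (mb.src Z) Z.f x := by
  filter_upwards [h2_eq L lam mb.E0 Z Z, mb.sip_src Z, Z.sl_ae] with x h1 h2 h3
  have := mb.ion_lower h (Z.sl x) x
  rw [h3.1] at this
  rw [h2, h1.1, h1.2]
  linarith

theorem mven_two (h : Sl ob lam C C1 C3) (Z : O3) : ∀ᵐ x : E3,
    (V L x + mb.I) * sip Z.f Z.f x ≤ sip (mb.src Z) Z.f x := by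
  filter_upwards [mb.sip_src Z] with x h2
  have : 0 ≤ ∫ y, Mx x y * Z.f (x, y) ^ 2 :=
    integral_nonneg fun y => mul_nonneg (abs_Mo_le x y).2.1 (sq_nonneg _)
  rw [h2]
  linarith [mul_nonneg h.l0.le this]

theorem MB.eN (h : Sl ob lam C C1 C3) : ∀ᵐ x : E3,
    (V L x + mb.I + 2 * lam / (1 + ‖x‖) - lam * C3 / (1 + ‖x‖) ^ 2) * mb.N x ^ 2 ≤ mb.RN x := by
  filter_upwards [mven_one mb h mb.A, mven_one mb h mb.B] with x h1 h2
  rw [mven_RN, (mb.sq_eq x).2.2.2.1, mul_add]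
  exact add_le_add h1 h2

theorem MB.subN (h : Sl ob lam C C1 C3) (U : Set E3) :
    SubQ U mb.N mb.gN (fun x => (V L x + mb.I) * mb.N x ^ 2) := by
  refine (mb.eqN.subQ U).monoR (fun K _ _ => Integrable.integrableOn ?_) ?_
  · obtain ⟨-, i1, i2⟩ := q1_int mb.eqN.h mb.eqN.h L
    exact (i1.add (i2.const_mul mb.I)).congr (ae_of_all _ fun x => by simp only [Pi.add_apply]; ring)
  · filter_upwards [mven_two mb h mb.A, mven_two mb h mb.B, mb.h2_nonneg mb.A,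
      mb.h2_nonneg mb.B] with x h1 h2 h3 h4 _
    rw [mven_RN, (mb.sq_eq x).2.2.2.1, mul_add]
    linarith

theorem MB.eb (h : Sl ob lam C C1 C3) : ∀ᵐ x : E3,
    (V L x + mb.I + ob.del - C3 * lam) * mb.b x ^ 2 ≤ mb.Rb x := by
  filter_upwards [mven_two mb h mb.B, mb.h2_gap h mb.B, mb.orth] with x h1 h2 h3
  obtain ⟨h4, h5⟩ := h2 h3.2.2.1
  have e : mb.Rb x = Vale.Agent.P363.h2 L lam mb.E0 mb.B mb.B x + sip (mb.src mb.B) mb.B.f x := by
    unfold MB.Rb fR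
    exact Fin.sum_univ_one _
  have h6 := mul_nonneg h.l0.le h5
  have h7 : (C1 + 4 * C) * lam * sip mb.B.f mb.B.f x ≤ C3 * lam * sip mb.B.f mb.B.f x :=
    mul_le_mul_of_nonneg_right (mul_le_mul_of_nonneg_right (by linarith [h.c3, h.hC1]) h.l0.le)
      (sip_nonneg _ x)
  rw [e, (mb.sq_eq x).2.1]
  linarith

theorem MB.lb (h : Sl ob lam C C1 C3) : LocB (D L) mb.N := by
  refine locB_of_subQ (isOpen_D L) (mb.subN h _) fun K hK hKD => ?_
  obtain ⟨M, hM⟩ := hK.exists_bound_of_continuousOn ((continuousOn_V L).mono hKD)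
  refine ⟨M, ae_of_all _ fun x hx => ?_⟩
  have h1 := hM x hx
  have h2 : 0 ≤ M := (norm_nonneg _).trans h1
  have h3 : -M ≤ V L x + mb.I := by linarith [(abs_le.1 h1).1, (mb.I_mem h).1]
  have h4 := mul_le_mul_of_nonneg_right h3 (sq_nonneg (mb.N x))
  linarith

theorem mven_ball {x : E3} (hx : x ∈ Ext2 L 1) : closedBall x (1 / 2) ⊆ Ext2 L (1 / 4) := by
  intro y hy
  have h0 : ‖x - y‖ ≤ 1 / 2 := by rwa [mem_closedBall', dist_eq_norm] at hy
  have h1 : ‖x - nA L‖ ≤ ‖x - y‖ + ‖y - nA L‖ := norm_sub_le_norm_sub_add_norm_sub _ _ _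
  have h2 : ‖x + nA L‖ ≤ ‖x - y‖ + ‖y + nA L‖ := by
    refine le_trans (le_of_eq ?_) (norm_add_le _ _)
    rw [← add_assoc, sub_add_cancel]
  have h3 : 1 < ‖x - nA L‖ := hx.1
  have h4 : 1 < ‖x + nA L‖ := hx.2
  exact ⟨show 1 / 4 < ‖y - nA L‖ by linarith, show 1 / 4 < ‖y + nA L‖ by linarith⟩

theorem MB.bd : ∃ K : ℝ, ∀ {c0 L lam C C1 C3 : ℝ} {ob : OB c0 L} (mb : MB ob lam C C1),
    Sl ob lam C C1 C3 → ∀ᵐ x : E3, x ∈ Ext2 L 1 → mb.N x ≤ K := by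
  obtain ⟨K, hK, H⟩ := mvb (s := 1 / 2) (C := 8) (by norm_num) (by norm_num)
  refine ⟨√(K * 3), fun {c0 L lam C C1 C3 ob} mb h => ?_⟩
  have H1 := H _ _ _ _ 0 (isOpen_Ext2 L (1 / 4)) le_rfl (mb.subN h _) (ae_of_all _ fun x hx => by
    have h1 : (rA L x)⁻¹ ≤ (1 / 4)⁻¹ := inv_anti₀ (by norm_num) hx.1.le
    have h2 : (rB L x)⁻¹ ≤ (1 / 4)⁻¹ := inv_anti₀ (by norm_num) hx.2.le
    have h3 : -8 ≤ V L x + mb.I := by
      unfold V
      linarith [(mb.I_mem h).1]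
    have h4 := mul_le_mul_of_nonneg_right h3 (sq_nonneg (mb.N x))
    linarith)
  filter_upwards [H1] with x hx h1
  refine Real.le_sqrt_of_sq_le ((hx (mven_ball h1)).trans (mul_le_mul_of_nonneg_left ?_ hK))
  rw [add_zero, ← mb.mass]
  exact setIntegral_le_integral mb.eqN.h.l2.integrable_sq (ae_of_all _ fun _ => sq_nonneg _)

end

end Vale.Agent.P363
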