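import Vale.Agent.P363.MVS1

/-! P363, block MV: the weighted identity. -/

open MeasureTheory Set Metric Filter Topology
open scoped RealInnerProductSpace

namespace Vale.Agent.P363

noncomputable section

theorem mvw1_ld (c R : ℝ) : LD univ (fun x : E3 => Real.exp (min (‖x‖ + c) R / 10))
    (fun x => Real.exp (min (‖x‖ + c) R / 10) •
      (if ‖x‖ + c < R then (1 / 10 : ℝ) • ‖x‖⁻¹ • x else 0)) := by
  refine ((((LD.norm'.add (LD.const univ c)).min isOpen_univ (LD.const univ R)).cmul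
    (1 / 10)).exp isOpen_univ).congr isOpen_univ (.of_forall fun x _ => ?_)
    (.of_forall fun x _ => ?_)
  · rw [one_div_mul_eq_div]
  · rw [one_div_mul_eq_div]
    split_ifs
    · rw [add_zero]
    · simp only [smul_zero]

theorem mvw1_bd (t : ℝ) (P : Prop) [Decidable P] (x : E3) :
    ‖Real.exp t • (if P then (1 / 10 : ℝ) • ‖x‖⁻¹ • x else 0)‖ ≤ Real.exp t / 10 := by
  have h0 := Real.exp_pos t
  split_ifs
  · rw [norm_smul, norm_smul, norm_smul, norm_inv, norm_norm, Real.norm_of_nonneg h0.le,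
      Real.norm_of_nonneg (by norm_num)]
    have := mul_le_mul_of_nonneg_left (inv_mul_le_one (a := ‖x‖)) h0.le
    linarith
  · rw [smul_zero, norm_zero]
    positivity

theorem mvw1_ex (R : ℝ) : ∃ m1 m2 : E6 → E3, (∀ y, ‖m1 y‖ ≤ Real.exp (wf R y) / 10 ∧
    ‖m2 y‖ ≤ Real.exp (wf R y) / 10 ∧ Real.exp (wf R y) ≤ Real.exp (R / 10)) ∧
    ∀ Z : O3, H3 (fun w => Real.exp (wf R w.2) * Z.f w) (fun w => Real.exp (wf R w.2) • Z.g1 w)
      (fun w => Real.exp (wf R w.2) • Z.g2 w + Z.f w • m1 w.2)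
      (fun w => Real.exp (wf R w.2) • Z.g3 w + Z.f w • m2 w.2) := by
  have b0 : ∀ y, Real.exp (wf R y) ≤ Real.exp (R / 10) := fun y =>
    Real.exp_le_exp.2 (div_le_div_of_nonneg_right (min_le_right _ _) (by norm_num))
  have c0 : Measurable rho6 := by unfold rho6; fun_prop
  have c1 : Measurable fun y => Real.exp (wf R y) := by unfold wf; fun_prop
  have c2 : Measurable fun y : E6 => (1 / 10 : ℝ) • ‖y.1‖⁻¹ • y.1 := by fun_prop
  have c3 : Measurable fun y : E6 => (1 / 10 : ℝ) • ‖y.2‖⁻¹ • y.2 := by fun_prop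
  have c4 : MeasurableSet {y | rho6 y < R} := measurableSet_lt c0 measurable_const
  refine ⟨fun y => Real.exp (wf R y) • (if rho6 y < R then (1 / 10 : ℝ) • ‖y.1‖⁻¹ • y.1 else 0),
    fun y => Real.exp (wf R y) • (if rho6 y < R then (1 / 10 : ℝ) • ‖y.2‖⁻¹ • y.2 else 0),
    fun y => ⟨mvw1_bd _ _ _, mvw1_bd _ _ _, b0 y⟩, fun Z => ?_⟩
  refine Z.h.mul23 (m := fun y => Real.exp (wf R y))
    (m1 := fun y => Real.exp (wf R y) • (if rho6 y < R then (1 / 10 : ℝ) • ‖y.1‖⁻¹ • y.1 else 0))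
    (m2 := fun y => Real.exp (wf R y) • (if rho6 y < R then (1 / 10 : ℝ) • ‖y.2‖⁻¹ • y.2 else 0))
    (M := Real.exp (R / 10)) c1 ?_ ?_ (fun y => ?_) (fun x => ?_) fun y => ?_
  · exact c1.smul (Measurable.ite c4 c2 measurable_const)
  · exact c1.smul (Measurable.ite c4 c3 measurable_const)
  · exact mvw1_ld ‖y‖ R
  · simpa only [wf, rho6, add_comm ‖x‖] using mvw1_ld ‖x‖ R
  · have h0 := Real.exp_pos (wf R y)
    have h1 := b0 y
    refine ⟨by rwa [abs_of_pos h0], (mvw1_bd _ _ _).trans ?_, (mvw1_bd _ _ _).trans ?_⟩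
    · linarith
    · linarith

theorem mvw1_ims {m f : ℝ} {g n : E3} (h : ‖n‖ ≤ m / 10) :
    ⟪m • g + f • n, m • g + f • n⟫ - 1 / 100 * (m * f * (m * f)) ≤
      ⟪g, m • (m • g + f • n) + (m * f) • n⟫ := by
  have h1 := mul_le_mul_of_nonneg_left (pow_le_pow_left₀ (norm_nonneg n) h 2) (sq_nonneg f)
  simp only [inner_add_left, inner_add_right, real_inner_smul_left, real_inner_smul_right,
    real_inner_comm g n, real_inner_self_eq_norm_sq n]
  linarith

/-- Multiplying a vector solution by the Agmon weight in the ion variables. -/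
theorem VE.weight {L lam E0 : ℝ} {Z : O3} {S : E9 → ℝ} (h : VE L lam E0 Z S) {R : ℝ} (hR : 0 ≤ R) :
    ∃ (Y : O3) (Rw : E3 → ℝ), (∀ w, Y.f w = Real.exp (wf R w.2) * Z.f w) ∧
      EqQ (fW ![Y]) (fG ![Y]) (fK ![Y]) Rw ∧ ∀ᵐ x : E3,
        h2 L lam E0 Y Y x - (1 / 100) * sip Y.f Y.f x +
          ∫ y, Real.exp (wf R y) * S (x, y) * Y.f (x, y) ≤ Rw x := by
  obtain ⟨m1, m2, hb, hH⟩ := mvw1_ex R
  let Y : O3 := ⟨_, _, _, _, hH Z⟩
  let Y2 : O3 := ⟨_, _, _, _, hH Y⟩
  obtain ⟨f1, f2, -, -, f3⟩ := fam_h1 ![Y]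
  have hY : ∀ᵐ x : E3, Integrable fun y => Y.f (x, y) * Y.f (x, y) :=
    Integrable.prod_right_ae (μ := volume) (ν := volume) (Y.int Y L lam).1
  refine ⟨Y, fun x => h2 L lam E0 Z Y2 x + sip S Y2.f x, fun _ => rfl,
    ⟨f1, f2, (h2_int L lam E0 Z Y2).1.add (sip_int h.l2 Y2.l2.1).1, f3.mono fun x hx => hx.1,
      fun ψ p hψ ⟨M, hM⟩ hp => ?_⟩, ?_⟩
  · have hp' : MemLp (fun x => √(sip Y2.f Y2.f x) • p x) 2 volume := by
      have mp : AEStronglyMeasurable p volume := by simpa using hψ.mg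
      refine hp.of_le_mul (c := Real.exp (R / 10)) ((Real.continuous_sqrt.comp_aestronglyMeasurable
        (sip_int Y2.l2.1 Y2.l2.1).1.aestronglyMeasurable).smul mp) ?_
      filter_upwards [hY] with x hx
      have a1 : sip Y2.f Y2.f x ≤ Real.exp (R / 10) ^ 2 * sip Y.f Y.f x := by
        rw [sip, sip, ← integral_const_mul]
        refine integral_mono_of_nonneg (.of_forall fun y => mul_self_nonneg _) (hx.const_mul _)
          (.of_forall fun y => ?_)
        have := mul_le_mul_of_nonneg_right (pow_le_pow_left₀ (Real.exp_pos _).le (hb y).2.2 2)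
          (mul_self_nonneg (Y.f (x, y)))
        show Real.exp (wf R y) * Y.f (x, y) * (Real.exp (wf R y) * Y.f (x, y)) ≤ _
        linarith
      have a2 := Real.sqrt_le_sqrt a1
      rw [Real.sqrt_mul (sq_nonneg _), Real.sqrt_sq (Real.exp_pos _).le] at a2
      simp only [norm_smul, fW, Fin.sum_univ_one, Matrix.cons_val_zero, ← mul_assoc,
        Real.norm_of_nonneg (Real.sqrt_nonneg _)]
      exact mul_le_mul_of_nonneg_right a2 (norm_nonneg _)
    refine Eq.trans (integral_congr_ae ?_) (h.test Y2 hψ hM hp').2.2.2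
    filter_upwards [f3] with x hx
    have a1 : fK ![Y] x = ∫ y, ⟪Z.g1 (x, y), Y2.g1 (x, y)⟫ := by
      simp only [fK, Fin.sum_univ_one, Matrix.cons_val_zero]
      refine integral_congr_ae (.of_forall fun y => ?_)
      show ‖Real.exp (wf R y) • Z.g1 (x, y)‖ ^ 2 =
        ⟪Z.g1 (x, y), Real.exp (wf R y) • Real.exp (wf R y) • Z.g1 (x, y)⟫
      rw [← real_inner_self_eq_norm_sq]
      simp only [real_inner_smul_left, real_inner_smul_right]
    have a2 : fW ![Y] x • fG ![Y] x = ∫ y, Y2.f (x, y) • Z.g1 (x, y) := by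
      rw [hx.2]
      simp only [Fin.sum_univ_one, Matrix.cons_val_zero]
      refine integral_congr_ae (.of_forall fun y => ?_)
      show Y.f (x, y) • Real.exp (wf R y) • Z.g1 (x, y) =
        (Real.exp (wf R y) * Y.f (x, y)) • Z.g1 (x, y)
      rw [smul_smul, mul_comm]
    rw [a1, ← a2, real_inner_smul_left]
  · have i0 : ∀ a b : O3, ∀ᵐ x : E3, Integrable fun y => (1 / 2) * (⟪a.g2 (x, y), b.g2 (x, y)⟫ +
        ⟪a.g3 (x, y), b.g3 (x, y)⟫) + (W2 L lam y - E0) * a.f (x, y) * b.f (x, y) := fun a b =>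
      Integrable.prod_right_ae (μ := volume) (ν := volume)
        ((((a.int b L lam).2.2.1.add (a.int b L lam).2.2.2.1).const_mul _).add (mvg1_W a b))
    filter_upwards [i0 Y Y, i0 Z Y2, hY] with x i1 i2 i3
    refine add_le_add ?_ (le_of_eq (integral_congr_ae (.of_forall fun y => ?_)))
    · rw [h2, h2, sip, ← integral_const_mul, ← integral_sub i1 (i3.const_mul _)]
      refine integral_mono (i1.sub (i3.const_mul _)) i2 fun y => ?_
      have a1 := mvw1_ims (f := Z.f (x, y)) (g := Z.g2 (x, y)) (hb y).1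
      have a2 := mvw1_ims (f := Z.f (x, y)) (g := Z.g3 (x, y)) (hb y).2.1
      simp only [Y, Y2]
      linarith
    · show _ = S (x, y) * (Real.exp (wf R y) * Y.f (x, y))
      ring

end

end Vale.Agent.P363
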