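import Vale.Agent.P363.NDd

/-! P363, block ND: numerical facts and radial data. -/

open MeasureTheory Set Metric Filter Topology
open scoped RealInnerProductSpace

namespace Vale.Agent.P363

noncomputable section

variable {L δ lam r1 I G : ℝ}

theorem nd_sqrt {a b : ℝ} (ha : 9 / 10 ≤ a) (hab : a ≤ b) (hb : b ≤ 111 / 100) :
    47 / 50 ≤ √a ∧ √a ≤ 53 / 50 ∧ 47 / 100 * (b - a) ≤ √b - √a ∧ √b - √a ≤ 27 / 50 * (b - a) := by
  have h1 : ∀ t : ℝ, 9 / 10 ≤ t → 47 / 50 ≤ √t := fun t ht => Real.le_sqrt_of_sq_le (by linarith)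
  have h2 : ∀ t : ℝ, t ≤ 111 / 100 → √t ≤ 53 / 50 := fun t ht =>
    Real.sqrt_le_iff.2 ⟨by norm_num, by linarith⟩
  have a1 := h1 a ha
  have a2 := h2 a (hab.trans hb)
  have b1 := h1 b (ha.trans hab)
  have b2 := h2 b hb
  have a3 := Real.sq_sqrt (show 0 ≤ a by linarith)
  have b3 := Real.sq_sqrt (show 0 ≤ b by linarith)
  have h3 := Real.sqrt_le_sqrt hab
  refine ⟨a1, a2, ?_, ?_⟩ <;> nlinarith

theorem NX.etap (h : NX L δ lam r1 I G) : 0 < eta lam ∧ lam ≤ eta lam := by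
  have h0 : 0 < eta lam := Real.rpow_pos_of_pos h.l0 _
  refine ⟨h0, ?_⟩
  have h1 : eta lam ^ 16 = lam := by
    rw [eta, ← Real.rpow_natCast, ← Real.rpow_mul h.l0.le]; norm_num
  nth_rewrite 1 [← h1]
  exact pow_le_of_le_one h0.le (by linarith [h.he, h.d1]) (by norm_num)

theorem NX.ks (h : NX L δ lam r1 I G) : √(2 * I) ∈ Icc (4 / 5 : ℝ) (6 / 5) ∧
    kT lam I δ ∈ Icc (4 / 5 : ℝ) (6 / 5) ∧ kP lam I δ ∈ Icc (4 / 5 : ℝ) (6 / 5) ∧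
    kH I δ ∈ Icc (4 / 5 : ℝ) (6 / 5) ∧ 1 - 2 * lam ∈ Icc (9 / 10 : ℝ) 1 := by
  obtain ⟨i1, i2⟩ := h.hI
  have := h.d0
  have := h.d1
  have := h.he
  have := h.l0
  obtain ⟨e0, e1⟩ := h.etap
  have a := nd_sqrt (a := 2 * I) (by linarith) le_rfl (by linarith)
  have b := nd_sqrt (a := 2 * (I + δ)) (by linarith) le_rfl (by linarith)
  have c := nd_sqrt (a := 2 * (I + δ / 4)) (by linarith) le_rfl (by linarith)
  unfold kT kP kH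
  refine ⟨⟨?_, ?_⟩, ⟨?_, ?_⟩, ⟨?_, ?_⟩, ⟨?_, ?_⟩, ⟨?_, ?_⟩⟩ <;> linarith [a.1, a.2.1, b.1, b.2.1,
    c.1, c.2.1]

theorem NX.ord (h : NX L δ lam r1 I G) : √(2 * I) + δ / 5 ≤ kH I δ ∧
    kH I δ + δ / 5 ≤ kP lam I δ ∧ kP lam I δ + 3 * eta lam = kT lam I δ ∧
    kT lam I δ ≤ √(2 * I) + 2 * δ ∧ √(2 * I) ^ 2 / 2 = I ∧ kH I δ ^ 2 / 2 = I + δ / 4 ∧
    kP lam I δ ^ 2 / 2 ≤ I + δ - eta lam ∧ kT lam I δ ^ 2 / 2 ≤ I + 1 / 2 ∧ 0 < eta lam ∧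
    lam ≤ eta lam := by
  obtain ⟨i1, i2⟩ := h.hI
  have := h.d0
  have := h.d1
  have := h.he
  obtain ⟨e0, e1⟩ := h.etap
  have a := nd_sqrt (a := 2 * I) (b := 2 * (I + δ / 4)) (by linarith) (by linarith) (by linarith)
  have b := nd_sqrt (a := 2 * (I + δ / 4)) (b := 2 * (I + δ)) (by linarith) (by linarith)
    (by linarith)
  have c := nd_sqrt (a := 2 * (I + δ)) (by linarith) le_rfl (by linarith)
  have s1 := Real.sq_sqrt (show 0 ≤ 2 * I by linarith)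
  have s2 := Real.sq_sqrt (show 0 ≤ 2 * (I + δ / 4) by linarith)
  have s3 := Real.sq_sqrt (show 0 ≤ 2 * (I + δ) by linarith)
  unfold kT kP kH
  refine ⟨by linarith [a.2.2.1], by linarith [b.2.2.1], by ring, by linarith [a.2.2.2, b.2.2.2],
    by linarith, by linarith, by nlinarith [c.1], by nlinarith [c.2.1, c.1], e0, e1⟩

theorem NX.rad (h : NX L δ lam r1 I G) {r : ℝ} (hr : r1 ≤ r) :
    1000 * L ≤ δ * r ∧ 1000 * L ≤ r ∧ 1000 ≤ r ∧ G * (1 + r) ^ 10 ≤ Real.exp (δ * r / 10) := by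
  have := h.d0
  have := h.d1
  have := h.hL
  have := h.hG
  have h1 : 1000 * L ≤ δ * r := h.hr.trans (by gcongr)
  have h2 : 0 < r := by
    by_contra h0
    nlinarith [mul_nonneg h.d0.le (neg_nonneg.2 (not_lt.1 h0))]
  have h3 : 1000 * L ≤ r := by nlinarith
  refine ⟨h1, h3, by linarith, le_trans (le_mul_of_one_le_right (by positivity) ?_) (h.big r hr)⟩
  exact one_le_mul_of_one_le_of_one_le (one_le_pow₀ (by linarith))
    (Real.one_le_exp (by linarith))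

theorem NX.sub (h : NX L δ lam r1 I G) : Ext r1 ⊆ D L ∧ Ext r1 ⊆ Ext2 L 1 := by
  have := h.rad le_rfl
  have := h.hL
  exact ⟨Ext_subset_D (by linarith) (by linarith), Ext_subset_Ext2 (by linarith) (by linarith)⟩

theorem NX.geo (h : NX L δ lam r1 I G) {x : E3} (hx : x ∈ Ext r1) :
    ‖x‖ / 2 ≤ min (rA L x) (rB L x) ∧ min (rA L x) (rB L x) ≤ 2 * ‖x‖ ∧
    |Vf L lam I x - I| ≤ 5 / ‖x‖ ∧ -(1 / min (rA L x) (rB L x) ^ 2) ≤ P0 L lam x := by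
  obtain ⟨-, h1, h2, -⟩ := h.rad (le_of_lt hx)
  have := h.hL
  have := h.l0
  have l1 : lam ≤ 1 := by linarith [h.etap.2, h.he, h.d1]
  obtain ⟨a, b⟩ := abs_rA_sub (L := L) (by linarith) x
  rw [abs_le] at a b
  have a1 : ‖x‖ / 2 ≤ rA L x := by linarith
  have b1 : ‖x‖ / 2 ≤ rB L x := by linarith
  have m1 := le_min a1 b1
  have hx0 : 0 < ‖x‖ := by linarith
  have a2 : (rA L x)⁻¹ ≤ 2 / ‖x‖ := by
    rw [← inv_div]; exact inv_anti₀ (by positivity) a1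
  have b2 : (rB L x)⁻¹ ≤ 2 / ‖x‖ := by
    rw [← inv_div]; exact inv_anti₀ (by positivity) b1
  have a3 : 0 ≤ (rA L x)⁻¹ := inv_nonneg.2 (by linarith)
  have b3 : 0 ≤ (rB L x)⁻¹ := inv_nonneg.2 (by linarith)
  have m0 : 0 < min (rA L x) (rB L x) := by linarith
  have p1 : 0 ≤ 2 * lam / (min (rA L x) (rB L x) + L) := by positivity
  have p2 : 2 * lam / (min (rA L x) (rB L x) + L) ≤ 4 / ‖x‖ := by
    rw [div_le_div_iff₀ (by positivity) hx0]; nlinarith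
  have p3 : 1 / min (rA L x) (rB L x) ^ 2 ≤ 1 / ‖x‖ :=
    one_div_le_one_div_of_le hx0 (by nlinarith)
  have p4 : 0 ≤ 1 / min (rA L x) (rB L x) ^ 2 := by positivity
  have e : ∀ c : ℝ, c / ‖x‖ = c * (1 / ‖x‖) := fun c => by ring
  have p5 : 0 ≤ 1 / ‖x‖ := by positivity
  refine ⟨m1, (min_le_left _ _).trans (by linarith), abs_le.2 ⟨?_, ?_⟩, ?_⟩ <;>
    simp only [Vf, V, P0]
  · rw [e 2] at a2 b2; rw [e 5]; linarith
  · rw [e 4] at p2; rw [e 5]; linarith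
  · linarith

theorem NX.decY (h : NX L δ lam r1 I G) {k : ℝ} (hk : k ∈ Icc (4 / 5 : ℝ) (6 / 5)) {x : E3}
    (hx : x ∈ Ext r1) : G * (1 + ‖x‖) ^ 8 * Ye L k 0 x ≤ Real.exp (-(k - δ / 5) * ‖x‖) := by
  have hr : r1 ≤ ‖x‖ := le_of_lt hx
  have := h.hL
  have := h.hG
  have h1 := (Ye_crude h.hL hk (h.sub.2 hx)).1
  have h2 := h.big _ hr
  have h3 : 2 ≤ Real.exp (δ * ‖x‖ / 10) := by
    linarith [Real.add_one_le_exp (δ * ‖x‖ / 10), (h.rad hr).1]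
  have h4 : Real.exp (k * L) ≤ Real.exp (2 * L) := Real.exp_le_exp.2 (by nlinarith [hk.2])
  calc G * (1 + ‖x‖) ^ 8 * Ye L k 0 x
      ≤ G * (1 + ‖x‖) ^ 8 * (2 * (1 + L) ^ 2 * Real.exp (2 * L) * (1 + ‖x‖) ^ 2 *
        Real.exp (-k * ‖x‖)) := by gcongr; exact h1.trans (by gcongr)
    _ = 2 * (G * (1 + ‖x‖) ^ 10 * ((1 + L) ^ 2 * Real.exp (2 * L))) * Real.exp (-k * ‖x‖) := by
        ring
    _ ≤ Real.exp (δ * ‖x‖ / 10) * Real.exp (δ * ‖x‖ / 10) * Real.exp (-k * ‖x‖) := by gcongr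
    _ = _ := by rw [← Real.exp_add, ← Real.exp_add]; congr 1; ring

theorem NX.decF (h : NX L δ lam r1 I G) {k c : ℝ} (hk : k ∈ Icc (4 / 5 : ℝ) (6 / 5))
    (hc : c ∈ Icc (9 / 10 : ℝ) 1) {r : ℝ} (hr : r1 ≤ r) :
    G * (1 + r) ^ 8 * fb L k c 0 r ≤ Real.exp (-(k - δ / 5) * r) := by
  obtain ⟨h0, -, h1, h2⟩ := h.rad hr
  have := h.hG
  have := h.hL
  have h3 := (fb_crude h.hL hk hc (by linarith : 1 ≤ r)).2
  calc G * (1 + r) ^ 8 * fb L k c 0 r ≤ G * (1 + r) ^ 8 * ((1 + r) ^ 2 * Real.exp (-k * r)) := by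
        gcongr
    _ = G * (1 + r) ^ 10 * Real.exp (-k * r) := by ring
    _ ≤ Real.exp (δ * r / 10) * Real.exp (-k * r) := by gcongr
    _ ≤ _ := by rw [← Real.exp_add]; exact Real.exp_le_exp.2 (by linarith)

theorem NX.low (h : NX L δ lam r1 I G) {r : ℝ} (hr : r1 ≤ r) :
    0 < bb L lam I r ∧ 0 < RS L lam I δ r ∧ 0 < RT L lam I δ r ∧
    Real.exp (-√(2 * I) * r) ≤ r * fb L √(2 * I) (1 - 2 * lam) 0 r ∧
    Real.exp (-√(2 * I) * r) ≤ r ^ 2 * bb L lam I r ∧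
    1000 * bb L lam I r ≤ fb L √(2 * I) (1 - 2 * lam) 0 r ∧
    G * r ^ 3 * RS L lam I δ r ≤ bb L lam I r ∧ lam / r ^ 3 * bb L lam I r ≤ RS L lam I δ r ∧
    G * RT L lam I δ r ≤ bb L lam I r ∧ bb L lam I r ≤ 1 := by
  obtain ⟨h0, h1, h2, h3⟩ := h.rad hr
  have := h.hG
  have := h.hL
  have := h.d0
  have := h.d1
  have := h.l0
  have k := h.ks
  have o := h.ord
  have f0 := fb_pos L √(2 * I) (1 - 2 * lam) 0 r
  have r0 : 0 < r := by linarith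
  have b0 : 0 < bb L lam I r := by unfold bb; positivity
  have c1 := (fb_crude h.hL k.1 k.2.2.2.2 (by linarith : 1 ≤ r)).1
  have e : r * bb L lam I r = L * fb L √(2 * I) (1 - 2 * lam) 0 r := by unfold bb; field_simp
  have c2 : Real.exp (-√(2 * I) * r) ≤ r ^ 2 * bb L lam I r := by
    rw [pow_two, mul_assoc, e]; exact c1.trans (by gcongr; nlinarith)
  have c3 : 1000 * bb L lam I r ≤ fb L √(2 * I) (1 - 2 * lam) 0 r :=
    le_of_mul_le_mul_left (by nlinarith) r0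
  have p8 : r ^ 2 ≤ (1 + r) ^ 8 :=
    (pow_le_pow_left₀ r0.le (by linarith) 2).trans (pow_le_pow_right₀ (by linarith) (by norm_num))
  have t0 : 0 < RT L lam I δ r := fb_pos _ _ _ _ _
  refine ⟨b0, by unfold RS; positivity, t0, c1, c2, c3, ?_, ?_, ?_, ?_⟩
  · have : G * r ^ 3 * RS L lam I δ r = G * lam * L / δ ^ 2 * bb L lam I r := by
      unfold RS; field_simp
    rw [this]
    exact mul_le_of_le_one_left b0.le ((div_le_one (by positivity)).2 h.small)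
  · have : RS L lam I δ r = L / δ ^ 2 * (lam / r ^ 3 * bb L lam I r) := by unfold RS; field_simp
    rw [this]
    exact le_mul_of_one_le_left (by positivity) ((one_le_div (by positivity)).2 (by nlinarith))
  · have d := h.decF k.2.1 (c := 1) ⟨by norm_num, le_rfl⟩ hr
    have d2 : Real.exp (-(kT lam I δ - δ / 5) * r) ≤ Real.exp (-√(2 * I) * r) :=
      Real.exp_le_exp.2 (mul_le_mul_of_nonneg_right
        (by linarith [o.1, o.2.1, o.2.2.1, o.2.2.2.2.2.2.2.2.1]) r0.le)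
    refine le_of_mul_le_mul_left ?_ (pow_pos r0 2)
    refine le_trans ?_ (d.trans (d2.trans c2))
    exact (mul_le_mul_of_nonneg_right p8 (by positivity)).trans_eq (by unfold RT kT; ring)
  · have d := h.decF k.1 k.2.2.2.2 hr
    have d2 : Real.exp (-(√(2 * I) - δ / 5) * r) ≤ 1 :=
      Real.exp_le_one_iff.2 (mul_nonpos_of_nonpos_of_nonneg (by linarith [k.1.1]) r0.le)
    have d3 : 1 ≤ G * (1 + r) ^ 8 := one_le_mul_of_one_le_of_one_le h.hG (one_le_pow₀ (by linarith))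
    nlinarith

theorem NX.pw_data (h : NX L δ lam r1 I G) {a : ℝ} (ha : 0 < a) (n : ℕ) :
    ∃ ψ ψ1 ψ2 : ℝ → ℝ, ContinuousOn ψ2 (Ioi 0) ∧ ∀ r, 0 < r →
      a / r ^ n * fb L √(2 * I) (1 - 2 * lam) 0 r = Real.exp (ψ r) ∧ HasDerivAt ψ (ψ1 r) r ∧
      HasDerivAt ψ1 (ψ2 r) r ∧ |ψ1 r + √(2 * I)| ≤ (2 + n) / r ∧ |ψ2 r| ≤ (2 + n) / r ^ 2 := by
  have L0 : 0 < L := by linarith [h.hL]
  refine ⟨fun r => Real.log a - n * Real.log r + ph L √(2 * I) (1 - 2 * lam) 0 r,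
    fun r => -(n * r⁻¹) + ph1 L √(2 * I) (1 - 2 * lam) 0 r,
    fun r => n * (r ^ 2)⁻¹ + ph2 L √(2 * I) (1 - 2 * lam) 0 r, ?_, fun r hr => ?_⟩
  · exact ContinuousOn.add (continuousOn_const.mul ((continuousOn_pow 2).inv₀ fun r hr =>
      (pow_pos (mem_Ioi.1 hr) 2).ne')) (continuousOn_ph2 _ _ _ L0)
  obtain ⟨d1, d2⟩ := hasDerivAt_ph √(2 * I) (1 - 2 * lam) 0 L0 hr
  obtain ⟨b1, b2⟩ := ph1_bound L0 h.ks.1 h.ks.2.2.2.2 hr
  refine ⟨?_, (((Real.hasDerivAt_log hr.ne').const_mul _).const_sub _).add d1, ?_, ?_, ?_⟩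
  · rw [Real.exp_add, Real.exp_sub, Real.exp_log ha, ← Real.log_pow, Real.exp_log (by positivity)]
    rfl
  · exact (((hasDerivAt_inv hr.ne').const_mul (n : ℝ)).neg.add d2).congr_deriv (by ring)
  · rw [add_assoc, add_div, add_comm (2 / r)]
    refine (abs_add_le _ _).trans (add_le_add ?_ b1)
    rw [abs_neg, abs_of_nonneg (by positivity), div_eq_mul_inv]
  · rw [add_div, add_comm (2 / r ^ 2)]
    refine (abs_add_le _ _).trans (add_le_add ?_ b2)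
    rw [abs_of_nonneg (by positivity), div_eq_mul_inv]

theorem NX.bb_data (h : NX L δ lam r1 I G) : ∃ ψ ψ1 ψ2 : ℝ → ℝ, ContinuousOn ψ2 (Ioi 0) ∧
    ∀ r, 0 < r → bb L lam I r = Real.exp (ψ r) ∧ HasDerivAt ψ (ψ1 r) r ∧ HasDerivAt ψ1 (ψ2 r) r ∧
      |ψ1 r + √(2 * I)| ≤ 3 / r ∧ |ψ2 r| ≤ 3 / r ^ 2 := by
  simpa only [show (2 + 1 : ℝ) = 3 by norm_num, bb, pow_one, Nat.cast_one] using
    h.pw_data (by linarith [h.hL] : 0 < L) 1

theorem NX.rs_data (h : NX L δ lam r1 I G) : ∃ ψ ψ1 ψ2 : ℝ → ℝ, ContinuousOn ψ2 (Ioi 0) ∧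
    ∀ r, 0 < r → RS L lam I δ r = Real.exp (ψ r) ∧ HasDerivAt ψ (ψ1 r) r ∧
      HasDerivAt ψ1 (ψ2 r) r ∧ |ψ1 r + √(2 * I)| ≤ 6 / r ∧ |ψ2 r| ≤ 6 / r ^ 2 := by
  have := h.hL
  have := h.d0
  have := h.l0
  obtain ⟨ψ, ψ1, ψ2, h1, h2⟩ := h.pw_data (a := lam * L ^ 2 / δ ^ 2) (by positivity) 4
  refine ⟨ψ, ψ1, ψ2, h1, fun r hr => ?_⟩
  have := h2 r hr
  rw [show (2 + (4 : ℕ) : ℝ) = 6 by norm_num] at this
  refine ⟨Eq.trans ?_ this.1, this.2⟩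
  unfold RS bb
  field_simp

theorem Hz_bd {δ z : ℝ} (h0 : 0 ≤ δ) (h1 : δ ≤ 1 / 500) (hz : 0 ≤ z) :
    1 ≤ Hz δ z ∧ Hz δ z ≤ 5 / 4 := by
  have e1 : Real.exp (1 - z) ≤ Real.exp 1 := Real.exp_le_exp.2 (by linarith)
  have e2 := Real.exp_pos (1 - z)
  have e3 := Real.exp_one_lt_d9
  unfold Hz
  constructor <;> nlinarith

theorem Hz_der (δ s : ℝ) : HasDerivAt (Hz δ) (4 * δ * Real.exp (1 - s)) s ∧
    HasDerivAt (fun s => 4 * δ * Real.exp (1 - s)) (-(4 * δ * Real.exp (1 - s))) s := by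
  have h := ((hasDerivAt_id s).const_sub 1).exp
  exact ⟨(((h.const_sub (Real.exp 1)).const_mul (4 * δ)).const_add 1).congr_deriv (by simp),
    (h.const_mul (4 * δ)).congr_deriv (by simp)⟩

theorem Hz_C2 (δ : ℝ) {U : Set E3} (hU : IsOpen U) :
    C2 U (fun x => Hz δ (x 2)) (fun x => (4 * δ * Real.exp (1 - x 2)) • e 2)
      (fun x => -(4 * δ * Real.exp (1 - x 2))) := by
  refine ((C2.coord hU 2).comp (W := univ) isOpen_univ (fun s _ => Hz_der δ s) (by fun_prop)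
    fun _ _ => mem_univ _).congr (fun _ _ => rfl) (fun _ _ => rfl) fun x _ => ?_
  simp [norm_e]

/-- Products of `Hz` with a radial exponential. -/
theorem zr_super {δ κ r1 : ℝ} {ψ ψ1 ψ2 : ℝ → ℝ} (h0 : 0 ≤ δ) (h1 : δ ≤ 1 / 500)
    (hκ : κ ∈ Icc (4 / 5 : ℝ) (6 / 5)) (hr : 100 ≤ r1) (hc : ContinuousOn ψ2 (Ioi 0))
    (hd : ∀ r, 0 < r → HasDerivAt ψ (ψ1 r) r ∧ HasDerivAt ψ1 (ψ2 r) r ∧
      |ψ1 r + κ| ≤ 6 / r ∧ |ψ2 r| ≤ 6 / r ^ 2) :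
    ∃ g l, C2 (Ext r1) (fun x => Hz δ (x 2) * Real.exp (ψ ‖x‖)) g l ∧ ∀ x ∈ Ext r1, 0 ≤ x 2 →
      Real.exp (ψ ‖x‖) * (2 * δ * Real.exp (1 - x 2) - Hz δ (x 2) * (κ ^ 2 / 2 + 10 / ‖x‖)) ≤
        -(1 / 2) * l x := by
  refine ⟨_, _, C2.zrad (a := r1) (by linarith) (Hz_der δ) (by fun_prop)
    (fun s hs => ⟨(hd s (by linarith)).1, (hd s (by linarith)).2.1⟩)
    (hc.mono (Ioi_subset_Ioi (by linarith))), fun x hx hz => ?_⟩
  have hx' : r1 < ‖x‖ := hx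
  have r0 : 0 < ‖x‖ := by linarith
  obtain ⟨-, -, b1, b2⟩ := hd _ r0
  obtain ⟨k1, k2⟩ := hκ
  obtain ⟨z1, z2⟩ := Hz_bd h0 h1 hz
  set t := 1 / ‖x‖ with ht
  have t0 : 0 < t := by positivity
  have t1 : t ≤ 1 / 100 := one_div_le_one_div_of_le (by norm_num) (by linarith)
  have e : ∀ c : ℝ, c / ‖x‖ = c * t := fun c => by rw [ht]; ring
  rw [show 6 / ‖x‖ ^ 2 = 6 * t ^ 2 by rw [ht]; ring] at b2
  rw [e] at b1
  rw [abs_le] at b1 b2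
  simp only [e]
  have n1 : ψ1 ‖x‖ ≤ 0 := by linarith
  have c1 : 2 * (4 * δ * Real.exp (1 - x 2)) * ψ1 ‖x‖ * x 2 * t ≤ 0 :=
    mul_nonpos_of_nonpos_of_nonneg (mul_nonpos_of_nonpos_of_nonneg
      (mul_nonpos_of_nonneg_of_nonpos (by positivity) n1) hz) t0.le
  have c2 : ψ2 ‖x‖ + ψ1 ‖x‖ ^ 2 + 2 * ψ1 ‖x‖ * t ≤ κ ^ 2 + 20 * t := by
    have : ψ1 ‖x‖ ^ 2 ≤ (κ + 6 * t) ^ 2 := sq_le_sq' (by linarith) (by linarith)
    nlinarith
  have c3 := mul_le_mul_of_nonneg_left c2 (show 0 ≤ Hz δ (x 2) by linarith)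
  rw [mul_left_comm]
  exact mul_le_mul_of_nonneg_left (by linarith) (Real.exp_pos _).le

/-- The same for `RS`. -/
theorem NX.rs_super (h : NX L δ lam r1 I G) {d : ℝ} (h0 : 0 ≤ d) (h1 : d ≤ 1 / 500) :
    ∃ g l, C2 (Ext r1) (fun x => Hz d (x 2) * RS L lam I δ ‖x‖) g l ∧ ∀ x ∈ Ext r1, 0 ≤ x 2 →
      RS L lam I δ ‖x‖ * (2 * d * Real.exp (1 - x 2) - Hz d (x 2) * (15 / ‖x‖)) ≤
        -(1 / 2) * l x + Vf L lam I x * (Hz d (x 2) * RS L lam I δ ‖x‖) := by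
  obtain ⟨ψ, ψ1, ψ2, c, hd⟩ := h.rs_data
  have r0 := (h.rad le_rfl).2.2.1
  obtain ⟨g, l, h2, h3⟩ := zr_super h0 h1 h.ks.1 (by linarith : 100 ≤ r1) c fun r hr => (hd r hr).2
  have e : ∀ x ∈ Ext r1, RS L lam I δ ‖x‖ = Real.exp (ψ ‖x‖) := fun x hx =>
    (hd _ (by linarith [show r1 < ‖x‖ from hx])).1
  refine ⟨g, l, h2.congr (fun x hx => by rw [e x hx]) (fun _ _ => rfl) fun _ _ => rfl,
    fun x hx hz => ?_⟩
  have h4 := h3 x hx hz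
  have h5 := (abs_le.1 (h.geo hx).2.2.1).1
  have h6 : 0 ≤ Hz d (x 2) * Real.exp (ψ ‖x‖) := by
    have := (Hz_bd h0 h1 hz).1
    positivity
  have h7 := mul_le_mul_of_nonneg_right h5 h6
  rw [h.ord.2.2.2.2.1] at h4
  rw [e x hx, show 15 / ‖x‖ = 10 / ‖x‖ + 5 / ‖x‖ by ring]
  linarith

end

end Vale.Agent.P363
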