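import Vale.Agent.P363.NDm

/-! P363, block ND: the two compensators. -/

open MeasureTheory Set Metric Filter Topology
open scoped RealInnerProductSpace

namespace Vale.Agent.P363

noncomputable section

variable {r1 : ℝ} {w w1 w2 : ℝ → ℝ}

theorem ndc_e2 (x : E3) : ⟪e 2, x⟫ = x 2 ∧ ⟪x, e 2⟫ = x 2 ∧ ‖e 2‖ = 1 := by
  refine ⟨?_, ?_, ?_⟩
  · simp [e, EuclideanSpace.inner_single_left]
  · simp [e, EuclideanSpace.inner_single_right]
  · simp [e]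

theorem ndc_nsq (x : E3) (c : ℝ) : ‖e 2 + c • x‖ ^ 2 = 1 + 2 * c * x 2 + c ^ 2 * ‖x‖ ^ 2 := by
  rw [norm_add_sq_real, inner_smul_right, (ndc_e2 x).1, (ndc_e2 x).2.2, norm_smul, mul_pow,
    Real.norm_eq_abs, sq_abs]
  ring

theorem ndc_inn (x : E3) (a b c : ℝ) :
    ⟪a • x, b • (e 2 + c • x)⟫ = a * b * (x 2 + c * ‖x‖ ^ 2) := by
  rw [real_inner_smul_left, real_inner_smul_right, inner_add_right, real_inner_smul_right,
    (ndc_e2 x).2.1, real_inner_self_eq_norm_sq]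
  ring

theorem ndc_prod {a b A B : ℝ} (ha : |a| ≤ A) (hb : |b| ≤ B) : |a * b| ≤ A * B := by
  rw [abs_mul]
  exact mul_le_mul ha hb (abs_nonneg _) ((abs_nonneg _).trans ha)

theorem ndc_num1 {u v p q t : ℝ} (hu : |u| ≤ 1) (hv : |v| ≤ 1) (hp : |p| ≤ 1) (hq : |q| ≤ 1)
    (ht : |t| ≤ 1) :
    -100 ≤ 2 * (u * u * v * p * t) + u * u * u * p * p - (u * u * q + u * u * p * p +
      2 * (u * u * p * t)) / 2 - u * v * p * t - u * u * p * p +
      (u * q + u * p * p + 2 * (u * p * t)) / 2 := by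
  have h1 := abs_le.1 (ndc_prod (ndc_prod (ndc_prod (ndc_prod hu hu) hv) hp) ht)
  have h2 := abs_le.1 (ndc_prod (ndc_prod (ndc_prod (ndc_prod hu hu) hu) hp) hp)
  have h3 := abs_le.1 (ndc_prod (ndc_prod hu hu) hq)
  have h4 := abs_le.1 (ndc_prod (ndc_prod (ndc_prod hu hu) hp) hp)
  have h5 := abs_le.1 (ndc_prod (ndc_prod (ndc_prod hu hu) hp) ht)
  have h6 := abs_le.1 (ndc_prod (ndc_prod (ndc_prod hu hv) hp) ht)
  have h7 := abs_le.1 (ndc_prod hu hq)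
  have h8 := abs_le.1 (ndc_prod (ndc_prod hu hp) hp)
  have h9 := abs_le.1 (ndc_prod (ndc_prod hu hp) ht)
  linarith [h1.1, h1.2, h2.1, h2.2, h3.1, h3.2, h4.1, h4.2, h5.1, h5.2, h6.1, h6.2, h7.1, h7.2,
    h8.1, h8.2, h9.1, h9.2]

theorem ndc_num2 {u v p q t m y : ℝ} (hu : |u| ≤ 1) (hv : |v| ≤ 1) (hp : |p| ≤ 1) (hq : |q| ≤ 1)
    (ht : |t| ≤ 1) (hm : |m| ≤ 1) (hy : y ≤ 1) :
    -100 ≤ -(m * u * q + m * u * p * p + 2 * (m * u * p * t)) / 2 +
      (2 * (m * u * v * p * t) + m * u * u * p * p) / 2 +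
      2 * (m * v * t * t + m * u * p * t) - y := by
  have h1 := abs_le.1 (ndc_prod (ndc_prod hm hu) hq)
  have h2 := abs_le.1 (ndc_prod (ndc_prod (ndc_prod hm hu) hp) hp)
  have h3 := abs_le.1 (ndc_prod (ndc_prod (ndc_prod hm hu) hp) ht)
  have h4 := abs_le.1 (ndc_prod (ndc_prod (ndc_prod (ndc_prod hm hu) hv) hp) ht)
  have h5 := abs_le.1 (ndc_prod (ndc_prod (ndc_prod (ndc_prod hm hu) hu) hp) hp)
  have h6 := abs_le.1 (ndc_prod (ndc_prod (ndc_prod hm hv) ht) ht)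
  linarith [h1.1, h1.2, h2.1, h2.2, h3.1, h3.2, h4.1, h4.2, h5.1, h5.2, h6.1, h6.2]

theorem ndc_frac {a s : ℝ} (ha : 0 ≤ a) (hs : 0 < s) (h : a ≤ s) : |a / s| ≤ 1 := by
  rw [abs_of_nonneg (div_nonneg ha hs.le)]
  exact (div_le_one hs).2 h

theorem comp1_C2 (hr : 10 ≤ r1) (hw : Rad r1 1 w w1 w2) :
    ∃ g l, C2 (Us r1 w) (fun x => Real.exp (w ‖x‖) / sf w x) g l ∧
      ∀ x ∈ Slab r1, Real.exp (w ‖x‖) / sf w x ^ 3 - 100 ≤ l x / 2 := by
  have hr0 : (0 : ℝ) ≤ r1 := by linarith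
  obtain ⟨ho, hsub, -⟩ := Us_open hw hr0
  have hW := ((hw.C2 hr0).mono ho hsub).exp
  have hS := ((sf_C2 hw hr0).mono ho hsub).comp (Γ := fun s => s⁻¹) (Γ1 := fun s => -(s ^ 2)⁻¹)
    (Γ2 := fun s => 2 * (s ^ 3)⁻¹) (W := Ioi 0) isOpen_Ioi
    (fun s hs => by
      have hs0 : s ≠ 0 := ne_of_gt hs
      refine ⟨hasDerivAt_inv hs0, ?_⟩
      have := ((hasDerivAt_pow 2 s).inv (pow_ne_zero 2 hs0)).neg
      refine this.congr_deriv ?_
      field_simp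
      norm_num
      ring)
    (continuousOn_const.mul ((continuousOn_pow 3).inv₀ fun s hs => pow_ne_zero 3 (ne_of_gt hs)))
    (fun x hx => hx.2.1)
  refine ⟨_, _, (hW.mul hS).congr (fun x _ => div_eq_mul_inv _ _) (fun _ _ => rfl)
    (fun _ _ => rfl), fun x hx => ?_⟩
  obtain ⟨hx1, hx2, hx3⟩ := hx
  have hrp : 0 < ‖x‖ := by linarith
  have hWp : 0 < Real.exp (w ‖x‖) := Real.exp_pos _
  have hsp : 0 < sf w x := by unfold sf; linarith
  have hb := hw.b ‖x‖ hx1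
  have hn := ndc_num1 (u := Real.exp (w ‖x‖) / sf w x) (v := x 2 / sf w x) (t := 1 / ‖x‖)
    (ndc_frac hWp.le hsp (by unfold sf; linarith)) (ndc_frac hx2.le hsp (by unfold sf; linarith))
    hb.1 hb.2 (ndc_frac zero_le_one hrp (by linarith))
  rw [smul_smul, ndc_inn, ndc_nsq, norm_smul, mul_pow, Real.norm_eq_abs, sq_abs]
  rw [sub_eq_add_neg]
  refine (add_le_add le_rfl hn).trans (le_of_eq ?_)
  field_simp
  ring

theorem comp2_C2 (hr : 10 ≤ r1) (hw : Rad r1 1 w w1 w2) (hw0 : ∀ r, r1 < r → w r ≤ 0)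
    {lam : ℝ} (h0 : 0 < lam) (h1 : lam ≤ 1) :
    ∃ g l, C2 (Us r1 w) (fun x => -(lam / ‖x‖ ^ 2 * Real.log (sf w x))) g l ∧
      ∀ x ∈ Slab r1, lam / ‖x‖ ^ 2 / sf w x ^ 2 / 2 - 100 ≤ l x / 2 := by
  have hr0 : (0 : ℝ) ≤ r1 := by linarith
  obtain ⟨ho, hsub, -⟩ := Us_open hw hr0
  have hE0 := C2.radial (φ := fun s => lam * (s ^ 2)⁻¹) (φ1 := fun s => lam * (-2 * (s ^ 3)⁻¹))
    (φ2 := fun s => lam * (6 * (s ^ 4)⁻¹)) le_rfl (0 : E3)
    (fun s hs => by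
      have hs0 : s ≠ 0 := ne_of_gt hs
      constructor
      · have := ((hasDerivAt_pow 2 s).inv (pow_ne_zero 2 hs0)).const_mul lam
        refine this.congr_deriv ?_
        field_simp
        norm_num
        ring
      · have := (((hasDerivAt_pow 3 s).inv (pow_ne_zero 3 hs0)).const_mul (-2)).const_mul lam
        refine this.congr_deriv ?_
        field_simp
        norm_num
        ring)
    (continuousOn_const.mul (continuousOn_const.mul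
      ((continuousOn_pow 4).inv₀ fun s hs => pow_ne_zero 4 (ne_of_gt hs))))
  simp only [sub_zero] at hE0
  have hE := hE0.mono ho fun x hx => lt_of_le_of_lt hr0 hx.1
  have hS := ((sf_C2 hw hr0).mono ho hsub).comp (Γ := Real.log) (Γ1 := fun s => s⁻¹)
    (Γ2 := fun s => -(s ^ 2)⁻¹) (W := Ioi 0) isOpen_Ioi
    (fun s hs => ⟨Real.hasDerivAt_log (ne_of_gt hs), hasDerivAt_inv (ne_of_gt hs)⟩)
    ((continuousOn_pow 2).inv₀ fun s hs => pow_ne_zero 2 (ne_of_gt hs)).neg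
    (fun x hx => hx.2.1)
  refine ⟨_, _, ((hE.mul hS).cmul (-1)).congr (fun x _ => by rw [div_eq_mul_inv]; ring)
    (fun _ _ => rfl) (fun _ _ => rfl), fun x hx => ?_⟩
  obtain ⟨hx1, hx2, hx3⟩ := hx
  have hrp : 0 < ‖x‖ := by linarith
  have hr1 : 1 ≤ ‖x‖ := by linarith
  have hWp : 0 < Real.exp (w ‖x‖) := Real.exp_pos _
  have hW1 : Real.exp (w ‖x‖) ≤ 1 := Real.exp_le_one_iff.2 (hw0 _ hx1)
  have hsp : 0 < sf w x := by unfold sf; linarith
  have hb := hw.b ‖x‖ hx1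
  have hlog : Real.log (sf w x) ≤ 1 := by
    have := Real.log_le_sub_one_of_pos hsp
    unfold sf at this ⊢
    linarith
  have hm : lam / ‖x‖ ^ 4 ≤ 1 := (div_le_one (by positivity)).2 (h1.trans (one_le_pow₀ hr1))
  have hy : Real.log (sf w x) * (lam / ‖x‖ ^ 4) ≤ 1 := by
    have : 0 ≤ lam / ‖x‖ ^ 4 := by positivity
    nlinarith
  have hn := ndc_num2 (u := Real.exp (w ‖x‖) / sf w x) (v := x 2 / sf w x) (t := 1 / ‖x‖)
    (m := lam / ‖x‖ ^ 2)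
    (ndc_frac hWp.le hsp (by unfold sf; linarith)) (ndc_frac hx2.le hsp (by unfold sf; linarith))
    hb.1 hb.2 (ndc_frac zero_le_one hrp hr1)
    (ndc_frac h0.le (by positivity) (h1.trans (one_le_pow₀ hr1))) hy
  rw [ndc_inn, ndc_nsq]
  rw [sub_eq_add_neg]
  refine (add_le_add le_rfl hn).trans (le_of_eq ?_)
  field_simp
  ring

theorem comp2_bd (hr : 10 ≤ r1) {lam : ℝ} (h0 : 0 < lam) (h1 : lam ≤ 1)
    (hw0 : ∀ r, r1 < r → w r ≤ 0 ∧ lam / r ^ 3 ≤ Real.exp (w r)) {x : E3} (hx : x ∈ Slab r1) :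
    |lam / ‖x‖ ^ 2 * Real.log (sf w x)| ≤ 5 := by
  obtain ⟨hx1, hx2, hx3⟩ := hx
  obtain ⟨ha, hb⟩ := hw0 _ hx1
  have hrp : 0 < ‖x‖ := by linarith
  have hr1 : 1 ≤ ‖x‖ := by linarith
  have hWp : 0 < Real.exp (w ‖x‖) := Real.exp_pos _
  have hW1 : Real.exp (w ‖x‖) ≤ 1 := Real.exp_le_one_iff.2 ha
  have hsp : 0 < sf w x := by unfold sf; linarith
  have hlog : Real.log (sf w x) ≤ 1 := by
    have := Real.log_le_sub_one_of_pos hsp
    unfold sf at this ⊢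
    linarith
  have hlow : Real.log lam - 3 * Real.log ‖x‖ ≤ Real.log (sf w x) := by
    have h2 : Real.log (lam / ‖x‖ ^ 3) ≤ Real.log (sf w x) :=
      Real.log_le_log (by positivity) (by unfold sf; linarith)
    rwa [Real.log_div h0.ne' (by positivity), Real.log_pow, Nat.cast_ofNat] at h2
  have hl1 : Real.log ‖x‖ ≤ ‖x‖ := by
    have := Real.log_le_sub_one_of_pos hrp
    linarith
  have hl2 : -1 ≤ lam * Real.log lam := by
    have h3 := Real.one_sub_inv_le_log_of_pos h0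
    have h4 := mul_le_mul_of_nonneg_left h3 h0.le
    rw [mul_sub, mul_inv_cancel₀ h0.ne'] at h4
    linarith
  have hq : ‖x‖ ≤ ‖x‖ ^ 2 := by nlinarith
  rw [div_mul_eq_mul_div, abs_div, abs_of_pos (by positivity : (0 : ℝ) < ‖x‖ ^ 2),
    div_le_iff₀ (by positivity), abs_le]
  have a1 : lam * Real.log (sf w x) ≤ lam * 1 := mul_le_mul_of_nonneg_left hlog h0.le
  have a2 := mul_le_mul_of_nonneg_left hlow h0.le
  have a3 : lam * Real.log ‖x‖ ≤ lam * ‖x‖ := mul_le_mul_of_nonneg_left hl1 h0.le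
  have a4 : lam * ‖x‖ ≤ 1 * ‖x‖ := mul_le_mul_of_nonneg_right h1 hrp.le
  constructor
  · nlinarith
  · nlinarith

end

end Vale.Agent.P363
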