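import Vale.Agent.P363.C

/-! P363, block ND: definitions. -/

open MeasureTheory Set Metric Filter Topology
open scoped RealInnerProductSpace

namespace Vale.Agent.P363

noncomputable section

def kT (lam I δ : ℝ) : ℝ := √(2 * (I + δ)) + eta lam

def kP (lam I δ : ℝ) : ℝ := √(2 * (I + δ)) - 2 * eta lam

def kH (I δ : ℝ) : ℝ := √(2 * (I + δ / 4))

def Vf (L lam I : ℝ) (x : E3) : ℝ := V L x + I + P0 L lam x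

def Hz (δ z : ℝ) : ℝ := 1 + 4 * δ * (Real.exp 1 - Real.exp (1 - z))

/-- A radial profile with bounded first and second derivatives. -/
structure Rad (r1 M : ℝ) (a a1 a2 : ℝ → ℝ) : Prop where
  d : ∀ r, r1 < r → HasDerivAt a (a1 r) r ∧ HasDerivAt a1 (a2 r) r
  c : ContinuousOn a2 (Ioi r1)
  b : ∀ r, r1 < r → |a1 r| ≤ M ∧ |a2 r| ≤ M

def sf (w : ℝ → ℝ) (x : E3) : ℝ := x 2 + Real.exp (w ‖x‖)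

def Us (r1 : ℝ) (w : ℝ → ℝ) : Set E3 := {x | r1 < ‖x‖ ∧ 0 < sf w x ∧ x 2 < 1}

/-- Numerical context. -/
structure NX (L δ lam r1 I G : ℝ) : Prop where
  hL : 1 ≤ L
  hG : 1 ≤ G
  d0 : 0 < δ
  d1 : δ ≤ 1 / 500
  l0 : 0 < lam
  hI : I ∈ Icc (9 / 20 : ℝ) (11 / 20)
  he : eta lam ≤ δ / 10
  hr : 1000 * L ≤ δ * r1
  big : ∀ r, r1 ≤ r → G * (1 + r) ^ 10 * ((1 + L) ^ 2 * Real.exp (2 * L)) ≤ Real.exp (δ * r / 10)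
  small : G * lam * L ≤ δ ^ 2

/-- Everything the three barriers use. -/
structure NH (L δ lam r1 I C G τ A : ℝ) (g N : E3 → ℝ) : Prop where
  nx : NX L δ lam r1 I G
  hC : 1 ≤ C
  hτ : 0 < τ
  hG : 1000 * C ^ 7 ≤ G ∧ 1000 * C ^ 7 ≤ G * τ
  ev : ∀ k ∈ Icc (4 / 5 : ℝ) (6 / 5), ∃ gY l, C2 (D L) (Ye L k A) gY l ∧ ∀ x ∈ Ext r1,
    3 / min (rA L x) (rB L x) ^ 2 * Ye L k A x ≤
      -(1 / 2) * l x + (V L x + k ^ 2 / 2) * Ye L k A x ∧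
    Ye L k A x ≤ C * Ye L k 0 x ∧ Ye L k 0 x ≤ C * Ye L k A x ∧
    |gY x 2| ≤ 2 * (|x 2| + L) / min (rA L x) (rB L x) * Ye L k A x
  od : ∃ U gU l, C2 (D L) U gU l ∧ ∀ x ∈ Ext r1, 0 ≤ x 2 →
    τ * (1 + ‖x‖) ^ (-(5 / 2) : ℝ) * fb L √(2 * I) (1 - 2 * lam) 0 (rA L x) ≤
      -(1 / 2) * l x + Vf L lam I x * U x ∧
    0 ≤ U x ∧ U x ≤ C * Uo L √(2 * I) (1 - 2 * lam) x
  far1 : ∀ x ∈ Ext r1, 0 ≤ x 2 →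
    x 2 * bb L lam I ‖x‖ ≤ C * Uo L √(2 * I) (1 - 2 * lam) x ∧
    fb L √(2 * I) (1 - 2 * lam) 0 ‖x‖ ≤ C * fb L √(2 * I) (1 - 2 * lam) 0 (rA L x)
  far2 : ∀ k ∈ Icc (4 / 5 : ℝ) (6 / 5), ∀ x ∈ Ext r1, fb L k 1 0 ‖x‖ ≤ C * Ye L k 0 x ∧
    Ye L k 0 x ≤ C * (fb L k 1 0 ‖x‖ * Real.exp (4 * L * |x 2| / ‖x‖))
  cmp : ∀ r : ℝ, 1 ≤ r → fb L (kP lam I δ) 1 0 r ≤ 100 * aa L lam I δ r ∧
    (1 / eta lam ≤ r → aa L lam I δ r ≤ 2 * RS L lam I δ r)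
  col : ∀ x ∈ Ext r1, ‖x‖ < r1 + 1 →
    g x ≤ C * Ye L (kT lam I δ) 0 x ∧ g x ≤ C * Ye L (kP lam I δ) 0 x
  slab : ∀ᵐ x : E3, x ∈ Slab r1 → N x ≤ C * aa L lam I δ ‖x‖ + C * x 2
  low : ∀ᵐ x : E3, x ∈ Ext r1 → 0 < x 2 → Uo L √(2 * I) (1 - 2 * lam) x ≤ C * N x

end

end Vale.Agent.P363
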