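import Vale.Agent.P363.NDd

/-! P363, block ND: weights on the slab. -/

open MeasureTheory Set Metric Filter Topology
open scoped RealInnerProductSpace

namespace Vale.Agent.P363

noncomputable section

variable {r1 : ℝ} {w w1 w2 a a1 a2 : ℝ → ℝ}

theorem Rad.C2 {M : ℝ} (h : Rad r1 M a a1 a2) (hr : 0 ≤ r1) :
    C2 (Ext r1) (fun x => a ‖x‖) (fun x => (a1 ‖x‖ / ‖x‖) • x)
      (fun x => a2 ‖x‖ + 2 * a1 ‖x‖ / ‖x‖) := by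
  have h1 := C2.radial hr (0 : E3) h.d h.c
  simp only [sub_zero] at h1
  exact h1

theorem ndm_norm {x : E3} (hx : 0 < ‖x‖) (c : ℝ) : ‖(c / ‖x‖) • x‖ = |c| := by
  rw [norm_smul, Real.norm_eq_abs, abs_div, abs_of_pos hx, div_mul_cancel₀ _ hx.ne']

theorem ndm_e (k : Fin 3) : ‖e k‖ = 1 := by
  simp [e]

theorem sf_C2 {M : ℝ} (hw : Rad r1 M w w1 w2) (hr : 0 ≤ r1) :
    C2 (Ext r1) (sf w) (fun x => e 2 + (Real.exp (w ‖x‖) * w1 ‖x‖ / ‖x‖) • x)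
      (fun x => Real.exp (w ‖x‖) * (w2 ‖x‖ + w1 ‖x‖ ^ 2 + 2 * w1 ‖x‖ / ‖x‖)) := by
  refine ((C2.coord (isOpen_Ext r1) 2).add (hw.C2 hr).exp).congr (fun x _ => rfl)
    (fun x _ => ?_) fun x hx => ?_
  · rw [smul_smul, mul_div_assoc]
  · rw [ndm_norm (hr.trans_lt hx), sq_abs]
    ring

theorem Us_open {M : ℝ} (hw : Rad r1 M w w1 w2) (hr : 0 ≤ r1) : IsOpen (Us r1 w) ∧
    Us r1 w ⊆ Ext r1 ∧ ∀ x ∈ Ext r1, 0 ≤ x 2 → x 2 < 1 → x ∈ Us r1 w := by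
  refine ⟨?_, fun x hx => hx.1, fun x hx h0 h1 => ⟨hx, ?_, h1⟩⟩
  · have h1 := ((sf_C2 hw hr).cont.1.isOpen_inter_preimage (isOpen_Ext r1) (isOpen_Ioi (a := 0))).inter
      (isOpen_lt (csg_cont_coord 2) (continuous_const (y := (1 : ℝ))))
    have h2 : Us r1 w = (Ext r1 ∩ sf w ⁻¹' Ioi 0) ∩ {x : E3 | x 2 < 1} :=
      Set.ext fun x => and_assoc.symm
    rw [h2]
    exact h1
  · exact add_pos_of_nonneg_of_pos h0 (Real.exp_pos _)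

theorem weight_C2 (hr : 10 ≤ r1) (hw : Rad r1 1 w w1 w2) (hw0 : ∀ r, r1 < r → w r ≤ 0)
    (ha : Rad r1 10 a a1 a2) {n : ℝ} (h0 : 0 ≤ n) (h3 : n ≤ 3) :
    ∃ g l, C2 (Us r1 w) (fun x => Real.exp (a ‖x‖ - n * Real.log (sf w x))) g l ∧
      ∀ x ∈ Slab r1,
        ‖g x‖ ^ 2 ≤ 1000 * Real.exp (a ‖x‖ - n * Real.log (sf w x)) ^ 2 / sf w x ^ 2 ∧
        -1000 * Real.exp (a ‖x‖ - n * Real.log (sf w x)) ≤ l x := by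
  have hr0 : 0 ≤ r1 := by linarith
  obtain ⟨hU, hUs, _⟩ := Us_open hw hr0
  have hlog := ((sf_C2 hw hr0).mono hU hUs).comp (Γ := Real.log) (Γ1 := fun s => s⁻¹)
    (Γ2 := fun s => -(s ^ 2)⁻¹) isOpen_Ioi
    (fun s (hs : s ∈ Ioi (0 : ℝ)) => ⟨Real.hasDerivAt_log (ne_of_gt hs), hasDerivAt_inv (ne_of_gt hs)⟩)
    ((continuousOn_id.pow 2).inv₀ fun s (hs : s ∈ Ioi (0 : ℝ)) => pow_ne_zero 2 (ne_of_gt hs)).neg
    fun x hx => hx.2.1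
  refine ⟨_, _, (((ha.C2 hr0).mono hU hUs).sub (hlog.cmul n)).exp, fun x hx => ?_⟩
  obtain ⟨hx1, hx2, hx3⟩ := hx
  have hR : 10 < ‖x‖ := hr.trans_lt hx1
  have hR0 : 0 < ‖x‖ := by linarith
  obtain ⟨a1b, a2b⟩ := ha.b _ hx1
  obtain ⟨w1b, w2b⟩ := hw.b _ hx1
  have hW0 := Real.exp_pos (w ‖x‖)
  have hW1 : Real.exp (w ‖x‖) ≤ 1 := Real.exp_le_one_iff.2 (hw0 _ hx1)
  have hs1 : Real.exp (w ‖x‖) ≤ sf w x := by
    unfold sf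
    linarith
  have hs2 : sf w x ≤ 2 := by
    unfold sf
    linarith
  have hs0 : 0 < sf w x := hW0.trans_le hs1
  have hE := Real.exp_pos (a ‖x‖ - n * Real.log (sf w x))
  have hgs : ‖e 2 + (Real.exp (w ‖x‖) * w1 ‖x‖ / ‖x‖) • x‖ ≤ 2 := by
    refine (norm_add_le _ _).trans ?_
    rw [ndm_e, ndm_norm hR0, abs_mul, abs_of_pos hW0]
    have := mul_le_one₀ hW1 (abs_nonneg _) w1b
    linarith
  have hls : Real.exp (w ‖x‖) * (w2 ‖x‖ + w1 ‖x‖ ^ 2 + 2 * w1 ‖x‖ / ‖x‖) ≤ 3 * sf w x := by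
    have p1 : w1 ‖x‖ ^ 2 ≤ 1 := (sq_le_one_iff_abs_le_one _).2 w1b
    have p2 : 2 * w1 ‖x‖ / ‖x‖ ≤ 1 := by
      rw [div_le_one hR0]
      linarith [(abs_le.1 w1b).2]
    have p3 : w2 ‖x‖ + w1 ‖x‖ ^ 2 + 2 * w1 ‖x‖ / ‖x‖ ≤ 3 := by linarith [(abs_le.1 w2b).2]
    nlinarith
  generalize e 2 + (Real.exp (w ‖x‖) * w1 ‖x‖ / ‖x‖) • x = gs at hgs ⊢
  generalize Real.exp (w ‖x‖) * (w2 ‖x‖ + w1 ‖x‖ ^ 2 + 2 * w1 ‖x‖ / ‖x‖) = ls at hls ⊢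
  generalize Real.exp (a ‖x‖ - n * Real.log (sf w x)) = E at hE ⊢
  generalize sf w x = s at hs0 hs2 hls ⊢
  have hi : 0 < s⁻¹ := inv_pos.2 hs0
  have hi2 : s⁻¹ * s = 1 := inv_mul_cancel₀ hs0.ne'
  have hgF : ‖(a1 ‖x‖ / ‖x‖) • x - n • s⁻¹ • gs‖ ≤ 26 * s⁻¹ := by
    refine (norm_sub_le _ _).trans ?_
    rw [ndm_norm hR0, norm_smul, norm_smul, Real.norm_of_nonneg h0, Real.norm_of_nonneg hi.le]
    have p1 : s⁻¹ * ‖gs‖ ≤ s⁻¹ * 2 := mul_le_mul_of_nonneg_left hgs hi.le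
    have p2 : n * (s⁻¹ * ‖gs‖) ≤ 3 * (s⁻¹ * 2) :=
      mul_le_mul h3 p1 (by positivity) (by norm_num)
    have p3 : s⁻¹ * s ≤ s⁻¹ * 2 := mul_le_mul_of_nonneg_left hs2 hi.le
    linarith
  constructor
  · rw [norm_smul, mul_pow, Real.norm_of_nonneg hE.le, div_eq_mul_inv _ (s ^ 2), ← inv_pow]
    have p1 := pow_le_pow_left₀ (norm_nonneg _) hgF 2
    have p2 := mul_le_mul_of_nonneg_left p1 (sq_nonneg E)
    have p3 : 0 ≤ E ^ 2 * s⁻¹ ^ 2 := by positivity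
    nlinarith
  · rw [mul_comm]
    refine mul_le_mul_of_nonneg_left ?_ hE.le
    have p1 : -2 ≤ 2 * a1 ‖x‖ / ‖x‖ := by
      rw [le_div_iff₀ hR0]
      linarith [(abs_le.1 a1b).1]
    have p2 : s⁻¹ * ls ≤ 3 := by
      have := mul_le_mul_of_nonneg_left hls hi.le
      nlinarith
    have p3 : 0 ≤ (s ^ 2)⁻¹ * ‖gs‖ ^ 2 := by positivity
    have p4 : n * (s⁻¹ * ls + -(s ^ 2)⁻¹ * ‖gs‖ ^ 2) ≤ 9 := by
      have : s⁻¹ * ls + -(s ^ 2)⁻¹ * ‖gs‖ ^ 2 ≤ 3 := by linarith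
      nlinarith
    have p5 := sq_nonneg ‖(a1 ‖x‖ / ‖x‖) • x - n • s⁻¹ • gs‖
    linarith [(abs_le.1 a2b).1]

end

end Vale.Agent.P363
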