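import Vale.Agent.P363.C

/-! P363, block O: definitions. -/

open MeasureTheory Set Metric Filter Topology
open scoped RealInnerProductSpace

namespace Vale.Agent.P363

noncomputable section

/-- The cube of half side `R` around `p`. -/
def Cb (p : E3) (R : ℝ) : Set E3 := Box (fun k => p k - R) (fun k => p k + R)

def phi (p : E3) (R : ℝ) (f : E3 → ℝ) : ℝ := ∫ x in Cb p R, Real.exp ‖x - p‖ * f x

/-- A normalized eigenfunction of parity `s`, nonnegative in the upper half space. -/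
structure Eg0 (L s E : ℝ) (f : E3 → ℝ) (g : E3 → E3) : Prop where
  h : H1 f g
  one : ∫ x, f x ^ 2 = 1
  sym : ∀ᵐ x : E3, f (sg x) = s * f x
  nn : ∀ᵐ x : E3, 0 < x 2 → 0 ≤ f x
  eq : ∀ f' g', H1 f' g' → q1 L f g f' g' = E * ∫ x, f x * f' x

/-- The same with a continuous representative. -/
structure Eig (L s E : ℝ) (f : E3 → ℝ) (g : E3 → E3) : Prop extends Eg0 L s E f g where
  sy : ∀ x, f (sg x) = s * f x
  ct : ContinuousOn f (D L)

/-- The spectral gap in the sector of parity `s`. -/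
def Gap (L s Λ E : ℝ) (f : E3 → ℝ) : Prop :=
  ∀ f' g', H1 f' g' → (∀ᵐ x : E3, f' (sg x) = s * f' x) →
    Λ * (∫ x, f' x ^ 2) - (Λ - E) * (∫ x, f x * f' x) ^ 2 ≤ q1 L f' g' f' g'

end

end Vale.Agent.P363
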