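import Vale.Agent.P363.OD

/-! P363, block O: the gap for hydrogen. -/

open MeasureTheory Set Metric Filter Topology
open scoped RealInnerProductSpace

namespace Vale.Agent.P363

noncomputable section

namespace OHydAux

open CIntAux

variable {f : E3 → ℝ} {g : E3 → E3}

def Df (p : E3) (f : E3 → ℝ) (g : E3 → E3) (x : E3) : E3 := g x + (f x * ‖x - p‖⁻¹) • (x - p)

theorem memLp_Df (h : H1 f g) (p : E3) : MemLp (Df p f g) 2 volume := by
  refine h.l2g.add (h.l2.of_le ((h.l2.aestronglyMeasurable.mul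
    (meas_r p).inv.aestronglyMeasurable).smul
    (continuous_id.sub continuous_const).aestronglyMeasurable) (ae_of_all _ fun x => ?_))
  rw [norm_smul, norm_mul, norm_inv, norm_norm, mul_assoc]
  exact mul_le_of_le_one_right (norm_nonneg _) inv_mul_le_one

theorem out_cube {p x : E3} (hx : x ∉ Cb p 4) : 4 ≤ ‖x - p‖ := by
  by_contra hn
  refine hx fun k => ?_
  have := abs_lt.1 ((abs_k (x - p) k).trans_lt (not_le.1 hn))
  rw [PiLp.sub_apply] at this
  constructor <;> linarith [this.1, this.2]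

theorem in_cube {p x : E3} (hx : x ∈ Cb p 4) : ‖x - p‖ ≤ 8 := by
  have k : ∀ k, (x - p) k ^ 2 ≤ 16 := fun k => by
    have := hx k
    rw [PiLp.sub_apply]
    nlinarith [this.1, this.2]
  refine le_of_pow_le_pow_left₀ two_ne_zero (by norm_num) ?_
  rw [normsq_eq_sum, Fin.sum_univ_three]
  linarith [k 0, k 1, k 2]

theorem ptw {a r s d : ℝ} (hr : 0 ≤ r) (hs : |s| ≤ r * d) (hd : 0 ≤ d) :
    a ^ 2 * (3 * (1 + r)⁻¹ + -((1 + r)⁻¹ ^ 2 * r)) + 2 * (a * (1 + r)⁻¹ * (s - a * r)) ≤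
      (5 * (1 + r)⁻¹ - 3 / 2) * a ^ 2 + 2 * d ^ 2 := by
  have h0 : 0 < (1 + r)⁻¹ := by positivity
  have h1 : (1 + r)⁻¹ * r = 1 - (1 + r)⁻¹ := by
    field_simp
    ring
  generalize (1 + r)⁻¹ = u at h0 h1 ⊢
  have h2 : a * u * s ≤ |a| * d := by
    refine (le_abs_self _).trans ?_
    rw [abs_mul, abs_mul, abs_of_pos h0, mul_assoc]
    refine mul_le_mul_of_nonneg_left ((mul_le_mul_of_nonneg_left hs h0.le).trans ?_) (abs_nonneg _)
    rw [← mul_assoc, h1]
    exact mul_le_of_le_one_left hd (by linarith)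
  have h3 : 0 ≤ a ^ 2 * (u ^ 2 * r) := by positivity
  have h4 : a ^ 2 * (u * r) = a ^ 2 * (1 - u) := by rw [h1]
  have h5 := sq_nonneg (|a| - 2 * d)
  have h6 := sq_abs a
  linarith

theorem outer (h : H1 f g) (p : E3) :
    ∫ x, f x ^ 2 ≤ 8 * (∫ x in Cb p 4, f x ^ 2) + 4 * ∫ x, ‖Df p f g x‖ ^ 2 := by
  have mf := h.l2.aestronglyMeasurable
  have hP : LocP univ fun x : E3 => 1 + ‖x - p‖ := fun K _ _ =>
    ⟨1, one_pos, ae_of_all _ fun x _ => le_add_of_nonneg_right (norm_nonneg _)⟩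
  have hφ := ((LD.const univ 1).add (LD.dist p)).inv isOpen_univ hP
  simp only [zero_add, smul_smul] at hφ
  have hψ : ∀ x : E3, -((1 + ‖x - p‖)⁻¹ ^ 2) * ‖x - p‖⁻¹ * ‖x - p‖ ^ 2 =
      -((1 + ‖x - p‖)⁻¹ ^ 2 * ‖x - p‖) := fun x => by
    rcases eq_or_ne ‖x - p‖ 0 with h0 | h0
    · simp [h0]
    · field_simp
  have b1 : ∀ x : E3, (1 + ‖x - p‖)⁻¹ ≤ 1 := fun x =>
    inv_le_one_of_one_le₀ (le_add_of_nonneg_right (norm_nonneg _))
  have b2 : ∀ x : E3, (1 + ‖x - p‖)⁻¹ * ‖x - p‖ ≤ 1 := fun x => by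
    rw [inv_mul_le_iff₀ (by positivity)]
    linarith
  have mφ : Measurable fun x : E3 => (1 + ‖x - p‖)⁻¹ := ((meas_r p).const_add 1).inv
  have i1 : Integrable fun x => f x ^ 2 * (1 + ‖x - p‖)⁻¹ := by
    refine (int_sq h).mono' ((mf.pow 2).mul mφ.aestronglyMeasurable) (ae_of_all _ fun x => ?_)
    rw [Real.norm_eq_abs, abs_of_nonneg (by positivity)]
    exact mul_le_of_le_one_right (sq_nonneg _) (b1 x)
  have i2 : Integrable fun x => f x ^ 2 * -((1 + ‖x - p‖)⁻¹ ^ 2 * ‖x - p‖) := by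
    refine (int_sq h).mono' ((mf.pow 2).mul
      ((mφ.pow_const 2).mul (meas_r p)).neg.aestronglyMeasurable) (ae_of_all _ fun x => ?_)
    rw [mul_neg, norm_neg, Real.norm_eq_abs, abs_of_nonneg (by positivity)]
    refine mul_le_of_le_one_right (sq_nonneg _) ?_
    rw [sq, mul_assoc]
    exact mul_le_one₀ (b1 x) (by positivity) (b2 x)
  obtain ⟨j0, key⟩ := radial h p (M := 1) hφ
    (fun x => by
      rw [abs_of_nonneg (by positivity)]
      exact b2 x)
    i1 (by simpa only [hψ] using i2)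
  simp only [hψ] at key
  have j1 : Integrable fun x =>
      f x ^ 2 * (3 * (1 + ‖x - p‖)⁻¹ + -((1 + ‖x - p‖)⁻¹ ^ 2 * ‖x - p‖)) :=
    ((i1.const_mul 3).add i2).congr (ae_of_all _ fun x => by simp only [Pi.add_apply]; ring)
  have mC : MeasurableSet (Cb p 4) := (isOpen_Box _ _).measurableSet
  have j2 := ((int_sq h).indicator mC).const_mul 4
  have j3 := (int_sq h).const_mul (1 / 2)
  have j4 := (memLp_Df h p).norm.integrable_sq.const_mul 2
  have s := integral_mono (j1.add (j0.const_mul 2)) ((j2.sub j3).add j4) fun x => by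
    have e : ⟪x - p, g x⟫ = ⟪x - p, Df p f g x⟫ - f x * ‖x - p‖ := by
      rw [Df, inner_add_right, real_inner_smul_right, real_inner_self_eq_norm_sq]
      rcases eq_or_ne ‖x - p‖ 0 with h0 | h0
      · simp [h0]
      · field_simp
        ring
    simp only [Pi.add_apply, Pi.sub_apply]
    rw [e]
    refine (ptw (norm_nonneg _) (abs_real_inner_le_norm _ _) (norm_nonneg _)).trans ?_
    by_cases hx : x ∈ Cb p 4
    · rw [indicator_of_mem hx]
      have := mul_le_mul_of_nonneg_right (b1 x) (sq_nonneg (f x))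
      linarith
    · rw [indicator_of_notMem hx]
      have h5 : (1 + ‖x - p‖)⁻¹ ≤ 5⁻¹ := inv_anti₀ (by norm_num) (by linarith [out_cube hx])
      have := mul_le_mul_of_nonneg_right h5 (sq_nonneg (f x))
      linarith
  rw [integral_add' j1 (j0.const_mul 2), integral_add' (j2.sub j3) j4, integral_sub' j2 j3,
    integral_const_mul, integral_const_mul, integral_const_mul, integral_const_mul,
    integral_indicator mC] at s
  linarith

theorem inner (h : H1 f g) (p : E3) : ∫ x in Cb p 4, f x ^ 2 ≤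
    phi p 4 f ^ 2 / 512 + 128 * (Real.exp 8 ^ 2 * ∫ x, ‖Df p f g x‖ ^ 2) := by
  have mC : MeasurableSet (Cb p 4) := (isOpen_Box _ _).measurableSet
  have ht : LD (Cb p 4) (fun x => Real.exp ‖x - p‖ * f x)
      (fun x => Real.exp ‖x - p‖ • Df p f g x) := by
    refine ((((LD.dist p).exp isOpen_univ).mul isOpen_univ h.ld).congr isOpen_univ
      (ae_of_all _ fun _ _ => rfl) (ae_of_all _ fun x _ => ?_)).mono (subset_univ _)
    rw [Df, smul_add, smul_smul, smul_smul, smul_smul]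
    congr 2
    ring
  have hb : ∀ᵐ x ∂(volume.restrict (Cb p 4)), Real.exp ‖x - p‖ ≤ Real.exp 8 :=
    (ae_restrict_mem mC).mono fun x hx => Real.exp_le_exp.2 (in_cube hx)
  have m1 : MemLp (fun x => Real.exp ‖x - p‖ * f x) 2 (volume.restrict (Cb p 4)) := by
    refine (h.l2.restrict _).of_le_mul (c := Real.exp 8) ht.mf (hb.mono fun x hx => ?_)
    rw [norm_mul, Real.norm_of_nonneg (Real.exp_pos _).le]
    exact mul_le_mul_of_nonneg_right hx (norm_nonneg _)
  have m2 : MemLp (fun x => Real.exp ‖x - p‖ • Df p f g x) 2 (volume.restrict (Cb p 4)) := by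
    refine ((memLp_Df h p).restrict _).of_le_mul (c := Real.exp 8) ht.mg (hb.mono fun x hx => ?_)
    rw [norm_smul, Real.norm_of_nonneg (Real.exp_pos _).le]
    exact mul_le_mul_of_nonneg_right hx (norm_nonneg _)
  have k := box_poincare (s := 8) (a := fun k => p k - 4) (b := fun k => p k + 4)
    (fun k => ⟨by linarith, by linarith⟩) ht m1 m2
  have e : ∏ k : Fin 3, (p k + 4 - (p k - 4)) = 512 := by
    rw [Fin.prod_univ_three]
    ring
  rw [e] at k
  have a1 : ∫ x in Cb p 4, f x ^ 2 ≤ ∫ x in Cb p 4, (Real.exp ‖x - p‖ * f x) ^ 2 := by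
    refine integral_mono (int_sq h).integrableOn m1.integrable_sq fun x => ?_
    simp only [mul_pow]
    exact le_mul_of_one_le_left (sq_nonneg _) (one_le_pow₀ (Real.one_le_exp (norm_nonneg _)))
  have i4 := (memLp_Df h p).norm.integrable_sq
  have a2 : ∫ x in Cb p 4, ‖Real.exp ‖x - p‖ • Df p f g x‖ ^ 2 ≤
      ∫ x in Cb p 4, Real.exp 8 ^ 2 * ‖Df p f g x‖ ^ 2 := by
    refine integral_mono_ae m2.norm.integrable_sq (i4.const_mul _).integrableOn
      (hb.mono fun x hx => ?_)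
    simp only [norm_smul, mul_pow, Real.norm_of_nonneg (Real.exp_pos _).le]
    exact mul_le_mul_of_nonneg_right (pow_le_pow_left₀ (Real.exp_pos _).le hx 2) (sq_nonneg _)
  have a3 := setIntegral_le_integral (s := Cb p 4) (i4.const_mul (Real.exp 8 ^ 2))
    (ae_of_all _ fun x => by positivity)
  rw [integral_const_mul (Real.exp 8 ^ 2) (μ := volume)] at a3
  unfold phi
  unfold Cb at a1 a2 a3 ⊢
  linarith

end OHydAux

theorem hyd_gap : ∃ R c K : ℝ, 1 ≤ R ∧ 0 < c ∧ c ≤ 1 / 4 ∧ 0 < K ∧ ∀ (p : E3) f g, H1 f g →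
    (-1 / 2 + c) * (∫ x, f x ^ 2) - K * phi p R f ^ 2 ≤
      (1 / 2) * (∫ x, ‖g x‖ ^ 2) - ∫ x, f x ^ 2 / ‖x - p‖ := by
  have E1 : 1 ≤ Real.exp 8 ^ 2 := one_le_pow₀ (Real.one_le_exp (by norm_num))
  generalize hE : Real.exp 8 ^ 2 = E at E1
  have c0 : 0 < 1 / (2 * (1024 * E + 4)) := by positivity
  have c1 : 1 / (2 * (1024 * E + 4)) ≤ 1 / 4 :=
    one_div_le_one_div_of_le (by norm_num) (by linarith)
  refine ⟨4, 1 / (2 * (1024 * E + 4)), 1, by norm_num, c0, c1, one_pos, fun p f g h => ?_⟩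
  have h1 := OHydAux.outer h p
  have h2 := OHydAux.inner h p
  have h3 := hydrogen h p
  rw [hE] at h2
  unfold OHydAux.Df at h1 h2
  generalize ∫ x, ‖g x + (f x * ‖x - p‖⁻¹) • (x - p)‖ ^ 2 = A at h1 h2 h3
  have h4 : ∫ x, f x ^ 2 ≤ phi p 4 f ^ 2 / 64 + (1024 * E + 4) * A := by linarith
  have h5 := mul_le_mul_of_nonneg_left h4 c0.le
  have h6 : 1 / (2 * (1024 * E + 4)) * ((1024 * E + 4) * A) = A / 2 := by
    field_simp
  have h7 := mul_le_mul_of_nonneg_right c1 (sq_nonneg (phi p 4 f))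
  have h8 := sq_nonneg (phi p 4 f)
  linarith

end

end Vale.Agent.P363
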