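import Vale.Agent.P363.OD

/-! P363, block O: regularity. -/

open MeasureTheory Set Metric Filter Topology
open scoped RealInnerProductSpace

namespace Vale.Agent.P363

noncomputable section

theorem oreg_R {f : E3 → ℝ} {g : E3 → E3} (h : H1 f g) (L E : ℝ) :
    MemLp (fun x => (V L x - E) * f x) 2 volume := by
  have h1 := (memLp_V h L).sub (h.l2.const_mul E)
  refine h1.ae_eq (Eventually.of_forall fun x => ?_)
  simp only [Pi.sub_apply]
  ring

theorem oreg_q {f f' : E3 → ℝ} {g g' : E3 → E3} (h : H1 f g) (h' : H1 f' g') (L : ℝ) :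
    Integrable fun x => (1 / 2) * ⟪g x, g' x⟫ + V L x * f x * f' x :=
  ((q1_int h h' L).1.const_mul _).add (q1_int h h' L).2.1

theorem Eg0.subs {L s E : ℝ} {f : E3 → ℝ} {g : E3 → E3} (h : Eg0 L s E f g) :
    Sub (D L) f g (fun x => (V L x - E) * f x) ∧
    Sub (D L) (fun x => -f x) (fun x => -g x) (fun x => -((V L x - E) * f x)) ∧
    SubQ (D L) f g (fun x => (V L x - E) * f x * f x) ∧ LocB (D L) f := by
  have hR := oreg_R h.h L E
  have h1 : Loc1 (D L) (fun x => (V L x - E) * f x) := csub_loc1 fun K _ _ => hR.restrict K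
  have h2 : Loc1 (D L) (fun x => (V L x - E) * f x * f x) := fun K _ _ =>
    (cabs_mul hR h.h.l2).integrableOn
  obtain ⟨a, b, c⟩ := sub_of_eq (isOpen_D L) (h.h.l1 (D L)) h1 h2 fun f' g' h' _ => by
    have e1 := h.eq f' g' h'
    have e2 : ∫ x, ((1 / 2) * ⟪g x, g' x⟫ + (V L x - E) * f x * f' x) =
        ∫ x, (((1 / 2) * ⟪g x, g' x⟫ + V L x * f x * f' x) - E * (f x * f' x)) :=
      integral_congr_ae (Eventually.of_forall fun x => by ring)
    rw [e2, integral_sub (oreg_q h.h h' L) ((q1_int h.h h' L).2.2.const_mul E),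
      integral_const_mul, ← e1]
    exact sub_self _
  refine ⟨a, b, c, locB_of_subQ (isOpen_D L) c fun K hK hKU => ?_⟩
  obtain ⟨M, hM⟩ := LocB.of_cont ((continuousOn_V L).sub continuousOn_const (g := fun _ => E))
    K hK hKU
  refine ⟨M, hM.mono fun x hx hxK => ?_⟩
  have h3 : |V L x - E| ≤ M := hx hxK
  have h4 := abs_le.1 h3
  have h5 : 0 ≤ M := (abs_nonneg _).trans h3
  nlinarith [mul_nonneg (sub_nonneg.2 h4.1) (sq_nonneg (f x))]

theorem oreg_congr {L s E : ℝ} {f f' : E3 → ℝ} {g : E3 → E3} (h : Eg0 L s E f g)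
    (he : ∀ᵐ x : E3, f' x = f x) : Eg0 L s E f' g where
  h := h.h.congr he (Eventually.of_forall fun _ => rfl)
  one := by
    rw [← h.one]
    exact integral_congr_ae (he.mono fun x hx => by simp only [hx])
  sym := by
    filter_upwards [he, ae_sg he, h.sym] with x a b c
    rw [a, b, c]
  nn := by
    filter_upwards [he, h.nn] with x a b
    rw [a]; exact b
  eq := fun k gk hk => by
    have e1 : q1 L f' g k gk = q1 L f g k gk :=
      integral_congr_ae (he.mono fun x hx => by simp only [hx])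
    have e2 : ∫ x, f' x * k x = ∫ x, f x * k x :=
      integral_congr_ae (he.mono fun x hx => by simp only [hx])
    rw [e1, e2]
    exact h.eq k gk hk

theorem o_reg {L s E Λ : ℝ} {f : E3 → ℝ} {g : E3 → E3} (hs : s = 1 ∨ s = -1) (h : Eg0 L s E f g)
    (hg : Gap L s Λ E f) : ∃ f', Eig L s E f' g ∧ Gap L s Λ E f' := by
  obtain ⟨a, b, -, d⟩ := h.subs
  have hss : s * s = 1 := by rcases hs with rfl | rfl <;> norm_num
  have hB : LocB (D L) (fun x => (V L x - E) * f x) :=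
    wmp_locB_mul (LocB.of_cont ((continuousOn_V L).sub continuousOn_const (g := fun _ => E))) d
  obtain ⟨v, hv, hfv⟩ := cont_rep (isOpen_D L) a b hB
  have h1 : ∀ᵐ x : E3, f x = v x := by
    filter_upwards [hfv, ae_mem_D L] with x a b using a b
  have he : ∀ᵐ x : E3, (v x + s * v (sg x)) / 2 = f x := by
    filter_upwards [h1, ae_sg h1, h.sym] with x a b c
    rw [← a, ← b, c]
    linear_combination (f x / 2) * hss
  refine ⟨fun x => (v x + s * v (sg x)) / 2, ⟨oreg_congr h he, fun x => ?_, ?_⟩, ?_⟩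
  · simp only [sg_sg]
    linear_combination (-(v (sg x)) / 2) * hss
  · exact (hv.add (continuousOn_const.mul
      (hv.comp continuous_sg.continuousOn fun x hx => mem_D_sg hx))).div_const 2
  · intro k gk hk hsym
    have e2 : ∫ x, (v x + s * v (sg x)) / 2 * k x = ∫ x, f x * k x :=
      integral_congr_ae (he.mono fun x hx => by simp only [hx])
    simp only [e2]
    exact hg k gk hk hsym

theorem oreg_le {U : Set E3} {f : E3 → ℝ} {K : ℝ} (hU : IsOpen U) (hf : ContinuousOn f U)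
    (h : ∀ᵐ x : E3, x ∈ U → f x ≤ K) : ∀ x ∈ U, f x ≤ K := by
  have ho : IsOpen (U ∩ f ⁻¹' Ioi K) := hf.isOpen_inter_preimage hU isOpen_Ioi
  have h0 : volume (U ∩ f ⁻¹' Ioi K) = 0 :=
    measure_eq_zero_iff_ae_notMem.2 (h.mono fun x hc hx =>
      absurd (hc hx.1) (not_le.2 (mem_Ioi.1 hx.2)))
  intro x hx
  by_contra hc
  exact (ho.measure_pos volume ⟨x, hx, not_le.1 hc⟩).ne' h0

theorem oreg_ball {L : ℝ} {x : E3} (hx : x ∈ Ext2 L 1) :
    closedBall x (1 / 4) ⊆ Ext2 L (1 / 2) := by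
  intro y hy
  have h1 : ‖x - y‖ ≤ 1 / 4 := by rw [← dist_eq_norm, dist_comm]; exact hy
  have h2 : rA L x ≤ ‖x - y‖ + rA L y := norm_sub_le_norm_sub_add_norm_sub x y (nA L)
  have h3 : rB L x ≤ ‖x - y‖ + rB L y := by
    have e : x + nA L = (x - y) + (y + nA L) := by abel
    unfold rB
    rw [e]
    exact norm_add_le _ _
  exact ⟨by linarith [hx.1], by linarith [hx.2]⟩

theorem oreg_V {L : ℝ} {x : E3} (hx : x ∈ Ext2 L (1 / 2)) : -4 ≤ V L x := by
  have h1 : (rA L x)⁻¹ ≤ (1 / 2)⁻¹ := inv_anti₀ (by norm_num) hx.1.le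
  have h2 : (rB L x)⁻¹ ≤ (1 / 2)⁻¹ := inv_anti₀ (by norm_num) hx.2.le
  unfold V
  norm_num at h1 h2
  linarith

theorem o_bd : ∃ K : ℝ, 1 ≤ K ∧ ∀ (L s E : ℝ) (f : E3 → ℝ) (g : E3 → E3), Eig L s E f g →
    E ≤ 0 → ∀ x ∈ Ext2 L 1, f x ≤ K := by
  obtain ⟨K, hK, H⟩ := mvb (s := 1 / 4) (C := 4) (by norm_num) (by norm_num)
  refine ⟨K + 1, by linarith, fun L s E f g h hE => ?_⟩
  have hq := h.toEg0.subs.2.2.1.mono (Ext2_subset_D (L := L) (ρ := 1 / 2) (by norm_num))
  have h1 := H _ f g _ 0 (isOpen_Ext2 L (1 / 2)) le_rfl hq (Eventually.of_forall fun x hx => by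
    have := oreg_V hx
    nlinarith [mul_nonneg (show 0 ≤ V L x - E + 4 by linarith) (sq_nonneg (f x))])
  refine oreg_le (isOpen_Ext2 L 1) (h.ct.mono (Ext2_subset_D (by norm_num))) ?_
  refine h1.mono fun x hx hx1 => ?_
  have h2 := hx (oreg_ball hx1)
  have h3 : ∫ y in closedBall x (1 / 4), f y ^ 2 ≤ 1 := by
    rw [← h.one]
    exact setIntegral_le_integral h.h.l2.integrable_sq (Eventually.of_forall fun _ => sq_nonneg _)
  have h4 : K * ((∫ y in closedBall x (1 / 4), f y ^ 2) + 0) ≤ K * 1 :=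
    mul_le_mul_of_nonneg_left (by linarith) hK
  nlinarith [sq_nonneg (f x - 1)]

theorem oreg_alg {Λ eg eu c : ℝ} (hΛ : eg < Λ) (h : Λ * 1 - (Λ - eg) * c ^ 2 ≤ eu) (h0 : 0 ≤ c)
    (hle : eu ≤ eg) : 1 ≤ c := by
  by_contra hc
  have h1 : c ^ 2 < 1 := by nlinarith
  nlinarith [mul_pos (sub_pos.2 hΛ) (sub_pos.2 h1)]

theorem o_lt {L Λ eg eu : ℝ} {g u : E3 → ℝ} {gg gu : E3 → E3} (hL : 0 < L) (h1 : Eig L 1 eg g gg)
    (h2 : Eig L (-1) eu u gu) (hp : ∀ x ∈ D L, 0 < g x) (hg : Gap L 1 Λ eg g) (hΛ : eg < Λ) :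
    eg < eu := by
  by_contra hc
  have ha := h2.h.abs
  have e0 := hg _ _ ha (Eventually.of_forall fun x => by rw [h2.sy]; simp)
  have e1 : ∫ x, |u x| ^ 2 = 1 := by simp only [sq_abs]; exact h2.one
  have e2 : q1 L (fun x => |u x|) (fun x => if 0 < u x then gu x else -gu x) (fun x => |u x|)
      (fun x => if 0 < u x then gu x else -gu x) = q1 L u gu u gu := by
    refine integral_congr_ae (Eventually.of_forall fun x => ?_)
    have a1 : V L x * |u x| * |u x| = V L x * u x * u x := by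
      rw [mul_assoc, abs_mul_abs_self, mul_assoc]
    by_cases hx : 0 < u x <;> simp only [hx, if_true, if_false, a1, inner_neg_neg]
  have e3 : ∫ x, u x * u x = 1 := by simp only [← sq]; exact h2.one
  rw [e1, e2, h2.eq u gu h2.h, e3, mul_one eu] at e0
  have c0 : 0 ≤ ∫ x, g x * |u x| := integral_nonneg_of_ae ((ae_mem_D L).mono fun x hx =>
    mul_nonneg (hp x hx).le (abs_nonneg _))
  have c1 := oreg_alg hΛ e0 c0 (not_lt.1 hc)
  have e4 := cabs_exp h1.h.l2 ha.l2 (-1)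
  rw [h1.one, e1] at e4
  have i4 : Integrable fun x => (g x + -1 * |u x|) ^ 2 :=
    (h1.h.l2.add (ha.l2.const_mul (-1))).integrable_sq
  have e5 : ∫ x, (g x + -1 * |u x|) ^ 2 = 0 :=
    le_antisymm (by linarith) (integral_nonneg fun _ => sq_nonneg _)
  have e6 := (integral_eq_zero_iff_of_nonneg (fun _ => sq_nonneg _) i4).1 e5
  have hD : (0 : E3) ∈ D L := by
    rw [csg_mem_D]
    simp only [rA, rB, zero_sub, zero_add, norm_neg, csg_nA_norm hL.le]
    exact ⟨hL, hL⟩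
  have e7 := oreg_le (K := 0) (isOpen_D L) (h1.ct.sub h2.ct.abs) (e6.mono fun x hx _ => by
    have a1 : g x + -1 * |u x| = 0 := pow_eq_zero_iff (two_ne_zero) |>.1 hx
    change g x - |u x| ≤ 0
    linarith) 0 hD
  have e8 := h2.sy 0
  rw [ctst_sg_zero] at e8
  have e9 : u 0 = 0 := by linarith
  have e10 : g 0 - |u 0| ≤ 0 := e7
  rw [e9, abs_zero] at e10
  linarith [hp 0 hD]

theorem oreg_par (a b : E3) : ⟪(1 / 2 : ℝ) • (a + b), (1 / 2 : ℝ) • (a + b)⟫ +
    ⟪(1 / 2 : ℝ) • (a - b), (1 / 2 : ℝ) • (a - b)⟫ = (1 / 2) * (⟪a, a⟫ + ⟪b, b⟫) := by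
  simp only [inner_smul_left, inner_smul_right, inner_add_left, inner_add_right, inner_sub_left,
    inner_sub_right, conj_trivial]
  ring

theorem oreg_half {F G k : E3 → ℝ} (hF : Integrable F) (hG : Integrable G) (hk : Integrable k)
    (h : ∀ x, F x + G x = (1 / 2) * (k x + k (sg x))) : (∫ x, F x) + ∫ x, G x = ∫ x, k x := by
  have h1 : Integrable fun x => k (sg x) := mp_sg.integrable_comp_of_integrable hk
  rw [← integral_add hF hG]
  simp only [h]
  rw [integral_const_mul, integral_add hk h1, integral_sg k]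
  ring

theorem o_gap {L Λ eg eu : ℝ} {g u : E3 → ℝ} {gg gu : E3 → E3} (h1 : Eig L 1 eg g gg)
    (h2 : Eig L (-1) eu u gu) (g1 : Gap L 1 Λ eg g) (g2 : Gap L (-1) Λ eu u) (f : E3 → ℝ)
    (gf : E3 → E3) (h : H1 f gf) : Λ * (∫ x, f x ^ 2) - (Λ - eg) * (∫ x, g x * f x) ^ 2 -
      (Λ - eu) * (∫ x, u x * f x) ^ 2 ≤ q1 L f gf f gf := by
  have he := (h.add h.refl).cmul (1 / 2)
  have ho := (h.sub h.refl).cmul (1 / 2)
  have a1 := g1 _ _ he (Eventually.of_forall fun x => by simp only [sg_sg]; ring)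
  have a2 := g2 _ _ ho (Eventually.of_forall fun x => by simp only [sg_sg]; ring)
  have b1 := oreg_half he.l2.integrable_sq ho.l2.integrable_sq h.l2.integrable_sq
    fun x => by ring
  have b2 := oreg_half (cabs_mul h1.h.l2 he.l2) (integrable_zero _ _ _) (cabs_mul h1.h.l2 h.l2)
    fun x => by simp only [h1.sy, Pi.zero_apply]; ring
  have b3 := oreg_half (cabs_mul h2.h.l2 ho.l2) (integrable_zero _ _ _) (cabs_mul h2.h.l2 h.l2)
    fun x => by simp only [h2.sy, Pi.zero_apply]; ring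
  have b4 := oreg_half (oreg_q he he L) (oreg_q ho ho L) (oreg_q h h L) fun x => by
    have c1 := oreg_par (gf x) (sg (gf (sg x)))
    rw [inner_sg] at c1
    rw [V_sg]
    linear_combination (1 / 2) * c1
  simp only [Pi.zero_apply, integral_zero, add_zero] at b2 b3
  rw [b2] at a1
  rw [b3] at a2
  unfold q1 at a1 a2 ⊢
  rw [← b4, ← b1]
  linarith

end

end Vale.Agent.P363
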