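import Vale.Agent.P363.OD

/-! P363, block O: trial functions. -/

open MeasureTheory Set Metric Filter Topology
open scoped RealInnerProductSpace

namespace Vale.Agent.P363

noncomputable section

theorem otri_center {ω : ℝ} (hω : 0 < ω) : ∃ (R : ℝ) (f : E3 → ℝ) (g : E3 → E3), H1 f g ∧
    (∀ x, R ≤ ‖x‖ → f x = 0 ∧ g x = 0) ∧
    (1 / 2) * (∫ x, ‖g x‖ ^ 2) - ∫ x, f x ^ 2 / ‖x‖ < (-1 / 2 + ω) * ∫ x, f x ^ 2 := by
  have hm : LD univ (fun x : E3 => Real.exp (-‖x‖))
      (fun x => Real.exp (-‖x‖) • -(‖x‖⁻¹ • x)) := LD.norm'.neg.exp isOpen_univ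
  have hm1 : ∀ x : E3, Real.exp (-‖x‖) ≤ 1 := fun x =>
    Real.exp_le_one_iff.2 (neg_nonpos.2 (norm_nonneg _))
  have hm2 : MemLp (fun x : E3 => Real.exp (-‖x‖)) 2 volume := by
    have := memLp_exp_decay (f := fun x : E3 => Real.exp (-‖x‖)) (A := univ) (a := 1) (M := 1) 0
      one_pos hm.mf MeasurableSet.univ (Eventually.of_forall fun x _ => by
        rw [abs_of_pos (Real.exp_pos _)]; simp)
    rwa [Measure.restrict_univ] at this
  set C := ∫ x : E3, Real.exp (-‖x‖) ^ 2 with hC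
  have hC0 : 0 ≤ C := integral_nonneg fun x => sq_nonneg _
  set m := Real.exp (-1) ^ 2 * volume.real (ball (0 : E3) 1) with hmdef
  have hm0 : 0 < m := mul_pos (by positivity) (ENNReal.toReal_pos
    (measure_ball_pos volume _ one_pos).ne' measure_ball_lt_top.ne)
  set ρ := C / (ω * m) + 1 with hρ
  have hρ1 : 1 ≤ ρ := by
    have : 0 ≤ C / (ω * m) := by positivity
    linarith
  obtain ⟨ξ, q, hT, -, -, hξ⟩ := exists_cut (0 : E3) (a := ρ) (b := 2 * ρ) (by linarith)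
    (by linarith)
  simp only [sub_zero] at hξ
  have hH := hT.h1.1.mul_lip hm (M := 1) (Eventually.of_forall fun x => by
    refine ⟨by rw [abs_of_pos (Real.exp_pos _)]; exact hm1 x, ?_⟩
    rw [norm_smul, norm_neg, Real.norm_eq_abs, abs_of_pos (Real.exp_pos _)]
    exact mul_le_one₀ (hm1 x) (norm_nonneg _) (ctst_unit x))
  refine ⟨2 * ρ, _, _, hH, fun x hx => ?_, ?_⟩
  · obtain ⟨h1, h2⟩ := (hξ x).2.2.2.2.1 hx
    simp [h1, h2]
  have hy := hydrogen hH 0
  simp only [sub_zero] at hy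
  have e1 : ∀ x : E3, Real.exp (-‖x‖) • q x + ξ x • Real.exp (-‖x‖) • -(‖x‖⁻¹ • x) +
      (Real.exp (-‖x‖) * ξ x * ‖x‖⁻¹) • x = Real.exp (-‖x‖) • q x := fun x => by
    module
  simp only [e1] at hy
  have b1 : ∫ x : E3, ‖Real.exp (-‖x‖) • q x‖ ^ 2 ≤ ρ⁻¹ * C := by
    rw [hC, ← integral_const_mul]
    refine integral_mono_of_nonneg (Eventually.of_forall fun x => sq_nonneg _)
      (hm2.integrable_sq.const_mul _) (Eventually.of_forall fun x => ?_)
    have h1 := (hξ x).2.2.1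
    rw [show 2 * ρ - ρ = ρ by ring, one_div] at h1
    have h2 : ρ⁻¹ ≤ 1 := inv_le_one_of_one_le₀ hρ1
    have h3 : ‖q x‖ ^ 2 ≤ ρ⁻¹ := by nlinarith [norm_nonneg (q x)]
    simp only
    rw [norm_smul, mul_pow, Real.norm_eq_abs, sq_abs, mul_comm]
    exact mul_le_mul_of_nonneg_right h3 (sq_nonneg _)
  have b2 : m ≤ ∫ x : E3, (Real.exp (-‖x‖) * ξ x) ^ 2 := by
    have h1 : ∫ x : E3, (ball (0 : E3) 1).indicator (fun _ => Real.exp (-1) ^ 2) x = m := by
      rw [integral_indicator_const _ measurableSet_ball, smul_eq_mul, mul_comm]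
    rw [← h1]
    refine integral_mono_of_nonneg (Eventually.of_forall fun x =>
      indicator_nonneg (fun _ _ => sq_nonneg _) x) hH.l2.integrable_sq
      (Eventually.of_forall fun x => ?_)
    by_cases hx : x ∈ ball (0 : E3) 1
    · have h2 : ‖x‖ < 1 := by simpa using hx
      simp only [indicator_of_mem hx]
      rw [((hξ x).2.2.2.1 (by linarith)).1, mul_one]
      exact pow_le_pow_left₀ (Real.exp_pos _).le (Real.exp_le_exp.2 (by linarith)) 2
    · simp only [indicator_of_notMem hx]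
      exact sq_nonneg _
  have b3 : ρ⁻¹ * C < ω * m := by
    have hp : 0 < ω * m := mul_pos hω hm0
    rw [inv_mul_lt_iff₀ (by linarith), hρ, add_mul, div_mul_cancel₀ _ hp.ne']
    linarith
  have b4 := mul_le_mul_of_nonneg_left b2 hω.le
  have b5 : 0 ≤ ρ⁻¹ * C := by positivity
  linarith

theorem otri_shift {R L : ℝ} {f : E3 → ℝ} {g : E3 → E3} {E : ℝ} (h : H1 f g)
    (h0 : ∀ x, R ≤ ‖x‖ → f x = 0 ∧ g x = 0)
    (hE : (1 / 2) * (∫ x, ‖g x‖ ^ 2) - ∫ x, f x ^ 2 / ‖x‖ < E * ∫ x, f x ^ 2) (hL : R ≤ L) :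
    ∃ f1 g1, H1 f1 g1 ∧ (∀ x : E3, x 2 ≤ 0 → f1 x = 0 ∧ g1 x = 0) ∧
      q1 L f1 g1 f1 g1 < E * ∫ x, f1 x ^ 2 := by
  have h1 := h.shift (-nA L)
  refine ⟨_, _, h1, fun x hx => h0 _ ?_, ?_⟩
  · have h2 := abs_coord_le (x + -nA L) 2
    have h3 : (x + -nA L) 2 = x 2 - L := by simp [nA, e_apply, sub_eq_add_neg]
    rw [h3] at h2
    linarith [neg_abs_le (x 2 - L)]
  · rw [integral_add_right_eq_self (fun x => f x ^ 2)]
    refine lt_of_le_of_lt ?_ hE
    rw [← integral_add_right_eq_self (fun x => ‖g x‖ ^ 2) (-nA L),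
      ← integral_add_right_eq_self (fun x => f x ^ 2 / ‖x‖) (-nA L), ← integral_const_mul]
    have i1 := h1.l2g.norm.integrable_sq.const_mul (1 / 2)
    have i2 := (hardy1 h1 (nA L) one_pos).1
    simp only [sub_eq_add_neg] at i2
    rw [← integral_sub i1 i2]
    obtain ⟨i3, i4, -⟩ := q1_int h1 h1 L
    refine integral_mono ((i3.const_mul _).add i4) (i1.sub i2) fun x => ?_
    have h2 : 0 ≤ (rB L x)⁻¹ * f (x + -nA L) ^ 2 :=
      mul_nonneg (inv_nonneg.2 (norm_nonneg _)) (sq_nonneg _)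
    simp only [V, rA, real_inner_self_eq_norm_sq, sub_eq_add_neg, div_eq_mul_inv]
    nlinarith

theorem o_trial {ω : ℝ} (hω : 0 < ω) : ∀ᶠ L : ℝ in atTop, ∀ s : ℝ, s = 1 ∨ s = -1 →
    ∃ f g, H1 f g ∧ (∀ᵐ x : E3, f (sg x) = s * f x) ∧
      q1 L f g f g < (-1 / 2 + ω) * ∫ x, f x ^ 2 := by
  obtain ⟨R, f0, g0, a1, a2, a3⟩ := otri_center hω
  filter_upwards [eventually_ge_atTop R] with L hL s hs
  obtain ⟨f, g, h, h0, hE⟩ := otri_shift a1 a2 a3 hL
  have hs2 : s * s = 1 := by rcases hs with rfl | rfl <;> norm_num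
  have hd : ∀ x : E3, (f x = 0 ∧ g x = 0) ∨ (f (sg x) = 0 ∧ g (sg x) = 0) := fun x =>
    (le_total (x 2) 0).imp (h0 x) fun hx => h0 _ (by rw [sg_2]; linarith)
  refine ⟨_, _, h.add (h.refl.cmul s), Eventually.of_forall fun x => ?_, ?_⟩
  · rw [sg_sg, mul_add, ← mul_assoc, hs2]
    ring
  obtain ⟨i3, i4, -⟩ := q1_int h h L
  have iF : Integrable fun x => (1 / 2) * ⟪g x, g x⟫ + V L x * f x * f x :=
    (i3.const_mul (1 / 2)).add i4
  have iG : Integrable fun x => (1 / 2) * ⟪g (sg x), g (sg x)⟫ +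
      V L (sg x) * f (sg x) * f (sg x) := mp_sg.integrable_comp_of_integrable iF
  have e1 : ∫ x, (f x + s * f (sg x)) ^ 2 = 2 * ∫ x, f x ^ 2 := by
    rw [two_mul]
    nth_rewrite 2 [← integral_sg fun x => f x ^ 2]
    rw [← integral_add h.l2.integrable_sq h.refl.l2.integrable_sq]
    refine integral_congr_ae (Eventually.of_forall fun x => ?_)
    rcases hd x with hx | hx
    · simp only [hx.1]
      linear_combination f (sg x) ^ 2 * hs2
    · simp only [hx.1]
      ring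
  have e2 : q1 L (fun x => f x + s * f (sg x)) (fun x => g x + s • sg (g (sg x)))
      (fun x => f x + s * f (sg x)) (fun x => g x + s • sg (g (sg x))) = 2 * q1 L f g f g := by
    unfold q1
    rw [two_mul]
    nth_rewrite 2 [← integral_sg fun x => (1 / 2) * ⟪g x, g x⟫ + V L x * f x * f x]
    rw [← integral_add iF iG]
    refine integral_congr_ae (Eventually.of_forall fun x => ?_)
    rcases hd x with hx | hx
    · simp only [hx.1, hx.2, zero_add, V_sg,
        real_inner_smul_left, real_inner_smul_right, inner_sg, inner_zero_left]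
      linear_combination (1 / 2 * ⟪g (sg x), g (sg x)⟫ + V L x * f (sg x) ^ 2) * hs2
    · simp only [hx.1, hx.2, ctst_sg_zero, smul_zero, add_zero,
        mul_zero, inner_zero_left]
  rw [e1, e2]
  linarith

end

end Vale.Agent.P363
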