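import Mathlib

/-! Definitions used in the statement of the P363 theorem. -/

open MeasureTheory

namespace Vale.Agent.P363

noncomputable section

/-- Physical space. -/
abbrev E3 := EuclideanSpace ℝ (Fin 3)

/-- The unit vector moving coordinate `k` of particle `i`. -/
def ev {n : ℕ} (i : Fin n) (k : Fin 3) : Fin n → E3 := Pi.single i (EuclideanSpace.single k 1)

/-- `g` is the weak derivative of `u` in coordinate `k` of particle `i`. -/
def IsWeakD {n : ℕ} (u g : (Fin n → E3) → ℂ) (i : Fin n) (k : Fin 3) : Prop :=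
  ∀ φ : (Fin n → E3) → ℝ, ContDiff ℝ (⊤ : ℕ∞) φ → HasCompactSupport φ →
    ∫ x, (fderiv ℝ φ x (ev i k) : ℂ) * u x = -∫ x, (φ x : ℂ) * g x

/-- An element of the form domain: an antisymmetric `H¹` wave function of `n` electrons with two
spin states (`ψ σ x`), together with its weak gradient `g σ i k`. -/
structure State (n : ℕ) where
  ψ : (Fin n → Fin 2) → (Fin n → E3) → ℂ
  g : (Fin n → Fin 2) → Fin n → Fin 3 → (Fin n → E3) → ℂ
  l2 : ∀ σ, MemLp (ψ σ) 2 volume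
  l2g : ∀ σ i k, MemLp (g σ i k) 2 volume
  weak : ∀ σ i k, IsWeakD (ψ σ) (g σ i k) i k
  anti : ∀ (p : Equiv.Perm (Fin n)) (σ : Fin n → Fin 2),
    ∀ᵐ x : Fin n → E3, ψ (σ ∘ p) (x ∘ p) = ((Equiv.Perm.sign p : ℤ) : ℂ) * ψ σ x

/-- Spin-summed `|ψ|²`. -/
def State.dens {n : ℕ} (Ψ : State n) (x : Fin n → E3) : ℝ := ∑ σ, ‖Ψ.ψ σ x‖ ^ 2

/-- Squared norm. -/
def State.mass {n : ℕ} (Ψ : State n) : ℝ := ∫ x, Ψ.dens x

/-- Kinetic energy `(1/2) ∫ |∇ψ|²`. -/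
def State.kinetic {n : ℕ} (Ψ : State n) : ℝ :=
  (1 / 2) * ∫ x, ∑ σ, ∑ i, ∑ k, ‖Ψ.g σ i k x‖ ^ 2

/-- The quadratic form of `∑ i, -(1/2) Δ_i + W`. -/
def State.energy {n : ℕ} (Ψ : State n) (W : (Fin n → E3) → ℝ) : ℝ :=
  Ψ.kinetic + ∫ x, W x * Ψ.dens x

/-- `Ψ` is a normalized ground state: it minimizes the form among normalized states. -/
def IsGround {n : ℕ} (W : (Fin n → E3) → ℝ) (Ψ : State n) : Prop :=
  Ψ.mass = 1 ∧ ∀ Φ : State n, Φ.mass = 1 → Ψ.energy W ≤ Φ.energy W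

/-- The spin-summed one-body density of a state of `n + 1` electrons. -/
def State.rho {n : ℕ} (Ψ : State (n + 1)) (x : E3) : ℝ :=
  (n + 1) * ∫ y : Fin n → E3, Ψ.dens (Fin.cons x y)

/-- The potential energy of a Coulomb molecule with nuclei of charges `Z j` at the points `R j`. -/
def coulomb {n M : ℕ} (Z : Fin M → ℕ) (R : Fin M → E3) (x : Fin n → E3) : ℝ :=
  -(∑ i, ∑ j, (Z j : ℝ) / ‖x i - R j‖) + ∑ i, ∑ k, if i < k then ‖x i - x k‖⁻¹ else 0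

/-- `ρ` is the density of a ground-state ensemble of `n + 1` noninteracting electrons in a
potential `v = v₁ + v₂ ∈ L^{3/2} + L^∞`. -/
def Representable (n : ℕ) (ρ : E3 → ℝ) : Prop :=
  ∃ v₁ v₂ : E3 → ℝ, MemLp v₁ (3 / 2) volume ∧ MemLp v₂ ⊤ volume ∧
    ∃ (p : ℕ → ℝ) (Ψ : ℕ → State (n + 1)), (∀ k, 0 ≤ p k) ∧ HasSum p 1 ∧
      (∀ k, IsGround (fun x => ∑ i, (v₁ (x i) + v₂ (x i))) (Ψ k)) ∧
      ∀ᵐ x : E3, HasSum (fun k => p k * (Ψ k).rho x) (ρ x)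

end

end Vale.Agent.P363
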