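import Vale.Agent.P363.C

/-! P363, block Th: definitions. -/

open MeasureTheory Set Metric Filter Topology
open scoped RealInnerProductSpace

namespace Vale.Agent.P363

noncomputable section

/-- Sum of the two Dirichlet integrals. -/
def JJ (p q : E3 → E3) : ℝ := (∫ x, ‖p x‖ ^ 2) + ∫ x, ‖q x‖ ^ 2

structure N0 (L I : ℝ) (N : E3 → ℝ) (gN : E3 → E3) : Prop where
  h : H1 N gN
  nn : ∀ x, 0 ≤ N x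
  ev : ∀ x, N (sg x) = N x
  mass : ∫ x, N x ^ 2 = 3
  lb : LocB (D L) N
  lp : LocP (D L) N
  sub : SubQ (D L) N gN (fun x => (V L x + I) * N x ^ 2)

/-- A minimizing pair with its multiplier. -/
structure MP (δ0 : ℝ) (N : E3 → ℝ) where
  Φ : E3 → ℝ
  Ω : E3 → ℝ
  gΦ : E3 → E3
  gΩ : E3 → E3
  pair : Pair N Φ Ω gΦ gΩ
  m1 : ∫ x, Φ x ^ 2 = 2
  n1 : ∀ x, 0 ≤ Φ x
  n2 : ∀ x, 0 < x 2 → 0 ≤ Ω x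
  min : ∀ Φ' Ω' p q, Pair N Φ' Ω' p q → JJ gΦ gΩ - 2 * δ0 * ((∫ x, Φ' x ^ 2) - 2) ≤ JJ p q

/-- The Euler-Lagrange equation. -/
def MP.EL {δ0 : ℝ} {N : E3 → ℝ} (m : MP δ0 N) : Prop :=
  ∀ φ p, LD univ φ p → (∃ M, ∀ᵐ x : E3, |φ x| ≤ M) → MemLp (fun x => N x • p x) 2 volume →
    ∫ x, ⟪m.Φ x • m.gΩ x - m.Ω x • m.gΦ x, p x⟫ = 2 * δ0 * ∫ x, m.Φ x * m.Ω x * φ x

/-- The minimizing pair in polar form. -/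
structure TH (L I δ0 : ℝ) (N : E3 → ℝ) (gN : E3 → E3) extends MP δ0 N where
  θ : E3 → ℝ
  gθ : E3 → E3
  n0 : N0 L I N gN
  l1 : L1 (D L) θ gθ
  bd : ∀ x, |θ x| ≤ Real.pi / 2
  pos : ∀ x, 0 < x 2 → 0 ≤ θ x
  tz : TZ (D L) θ
  rep : ∀ᵐ x : E3, 0 < N x ∧ Φ x = N x * Real.cos (θ x) ∧ Ω x = N x * Real.sin (θ x)
  el : ∀ φ p, Tst (D L) φ p →
    ∫ x, N x ^ 2 * ⟪gθ x, p x⟫ = δ0 * ∫ x, N x ^ 2 * Real.sin (2 * θ x) * φ x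

variable {L I δ0 : ℝ} {N : E3 → ℝ} {gN : E3 → E3}

def TH.X (t : TH L I δ0 N gN) (x : E3) : ℝ := N x * (Real.pi / 2 - t.θ x)

def TH.gX (t : TH L I δ0 N gN) (x : E3) : E3 := (Real.pi / 2 - t.θ x) • gN x - N x • t.gθ x

/-- Admissible functions for the Poincare inequality with weight `Φ ^ 2`. -/
structure Adm (L : ℝ) (Φ s : E3 → ℝ) (p : E3 → E3) : Prop where
  l1 : L1 (D L) s p
  ev : ∀ᵐ x : E3, s (sg x) = s x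
  i1 : Integrable (fun x => Φ x ^ 2 * s x ^ 2)
  i2 : Integrable (fun x => Φ x ^ 2 * ‖p x‖ ^ 2)

/-- The radial profile in the far slab. -/
structure Tame (r1 I : ℝ) (φ φ1 φ2 : ℝ → ℝ) : Prop where
  d : ∀ r, r1 / 2 < r → HasDerivAt φ (φ1 r) r ∧ HasDerivAt φ1 (φ2 r) r
  c : ContinuousOn φ2 (Ioi (r1 / 2))
  t : ∀ r, r1 ≤ r → |φ1 r + √(2 * I)| ≤ 1 / 100 ∧ |φ2 r| ≤ 1 / 100

/-- Hole estimate. -/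
def HoleB (L Ch : ℝ) (Φ : E3 → ℝ) : Prop :=
  ∀ s p, Adm L Φ s p → (∃ M, ∀ᵐ x : E3, |s x| ≤ M) →
    IntegrableOn (fun x => Φ x ^ 2 * s x ^ 2 / rA L x ^ 2) {x | rA L x ≤ 1 / 200} ∧
    ∫ x in {x | rA L x ≤ 1 / 200}, Φ x ^ 2 * s x ^ 2 / rA L x ^ 2 ≤
      Ch * ((∫ x, Φ x ^ 2 * ‖p x‖ ^ 2) + ∫ x, Φ x ^ 2 * s x ^ 2)

/-- Far estimate. -/
def FarB (r1 K : ℝ) (Φ : E3 → ℝ) : Prop :=
  ∀ T p, Tst (Ext r1) T p → (∀ᵐ x : E3, T (sg x) = T x) →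
    ∫ x, Φ x ^ 2 * T x ^ 2 ≤ K * ∫ x, Φ x ^ 2 * ‖p x‖ ^ 2

/-- Poincare inequality for even functions with weight `Φ ^ 2` (total mass two). -/
def Poin (L κ : ℝ) (Φ : E3 → ℝ) : Prop :=
  ∀ s p, Adm L Φ s p →
    κ * ((∫ x, Φ x ^ 2 * s x ^ 2) - (∫ x, Φ x ^ 2 * s x) ^ 2 / 2) ≤ ∫ x, Φ x ^ 2 * ‖p x‖ ^ 2

end

end Vale.Agent.P363
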