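import Vale.Agent.P363.ThD

/-! P363, block Th: the Dirichlet estimate in the upper half space. -/

open MeasureTheory Set Metric Filter Topology
open scoped RealInnerProductSpace

namespace Vale.Agent.P363

noncomputable section

namespace ThDirAux

def qa (y : ℝ) : ℝ := Real.cos y / (Real.cos y + Real.sin y)

def qb (y : ℝ) : ℝ := -1 / (Real.cos y + Real.sin y) ^ 2

theorem der {y : ℝ} (h : 0 < Real.cos y + Real.sin y) : HasDerivAt qa (qb y) y := by
  refine ((Real.hasDerivAt_cos y).div ((Real.hasDerivAt_cos y).add (Real.hasDerivAt_sin y))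
    h.ne').congr_deriv ?_
  unfold qb
  simp only [Pi.add_apply]
  congr 1
  linear_combination (-1 : ℝ) * Real.sin_sq_add_cos_sq y

theorem rng {y : ℝ} (h0 : 0 ≤ y) (h1 : y ≤ Real.pi / 2) :
    0 ≤ Real.cos y ∧ 0 ≤ Real.sin y ∧ 1 ≤ Real.cos y + Real.sin y ∧
      (Real.cos y + Real.sin y) ^ 2 ≤ 2 := by
  have hc : 0 ≤ Real.cos y := Real.cos_nonneg_of_neg_pi_div_two_le_of_le
    (by linarith [Real.pi_pos]) h1
  have hs : 0 ≤ Real.sin y := Real.sin_nonneg_of_nonneg_of_le_pi h0 (by linarith [Real.pi_pos])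
  have e := Real.sin_sq_add_cos_sq y
  refine ⟨hc, hs, ?_, by nlinarith [sq_nonneg (Real.cos y - Real.sin y)]⟩
  refine abs_le_of_sq_le_sq' ?_ (add_nonneg hc hs) |>.2
  nlinarith [mul_nonneg hc hs]

theorem bds {y : ℝ} (h0 : 0 ≤ y) (h1 : y ≤ Real.pi / 2) :
    0 ≤ qa y ∧ qa y ≤ 1 ∧ |qb y| ≤ 1 ∧ Real.cos y ^ 2 / 2 ≤ qa y ^ 2 ∧
      qa y ^ 2 ≤ Real.cos y ^ 2 := by
  obtain ⟨hc, hs, h2, h3⟩ := rng h0 h1
  have hm : 0 < Real.cos y + Real.sin y := by linarith
  have h4 : 1 ≤ (Real.cos y + Real.sin y) ^ 2 := one_le_pow₀ h2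
  unfold qa qb
  refine ⟨div_nonneg hc hm.le, (div_le_one hm).2 (by linarith), ?_, ?_, ?_⟩
  · rw [abs_div, abs_neg, abs_one, abs_of_pos (by positivity)]
    exact (div_le_one (by positivity)).2 h4
  · rw [div_pow]
    exact div_le_div_of_nonneg_left (sq_nonneg _) (by positivity) h3
  · rw [div_pow]
    exact div_le_self (sq_nonneg _) h4

theorem alg {y : ℝ} (h0 : 0 ≤ y) (h1 : y ≤ Real.pi / 2) (s : ℝ) (p g : E3) :
    ‖qa y • p + s • qb y • g‖ ^ 2 ≤ Real.cos y ^ 2 * ‖p‖ ^ 2 -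
      ⟪g, s • (qa y • p + s • qb y • g) + (qa y * s) • p⟫ := by
  obtain ⟨hc, hs, h2, h3⟩ := rng h0 h1
  have hm : Real.cos y + Real.sin y ≠ 0 := by linarith
  have h4 : 1 ≤ (Real.cos y + Real.sin y) ^ 2 := one_le_pow₀ h2
  have e : (Real.cos y + Real.sin y) ^ 2 * ‖qa y • p + s • qb y • g‖ ^ 2 =
      Real.cos y ^ 2 * ‖p‖ ^ 2 - ⟪g, s • (qa y • p + s • qb y • g) + (qa y * s) • p⟫ := by
    rw [← real_inner_self_eq_norm_sq, ← real_inner_self_eq_norm_sq]
    simp only [inner_add_left, inner_add_right, real_inner_smul_left, real_inner_smul_right,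
      real_inner_comm g p]
    unfold qa qb
    field_simp
    ring
  rw [← e]
  exact le_mul_of_one_le_left (sq_nonneg _) h4

end ThDirAux

open ThDirAux in
theorem th_dir {L I δ0 : ℝ} {N : E3 → ℝ} {gN : E3 → E3} (t : TH L I δ0 N gN) (hδ : 0 ≤ δ0)
    {s : E3 → ℝ} {p : E3 → E3} (hs : Tst (D L ∩ Hp) s p) : ∃ h gh, H1 h gh ∧
      (∀ᵐ x : E3, t.Φ x ^ 2 * s x ^ 2 / 2 ≤ h x ^ 2 ∧ h x ^ 2 ≤ t.Φ x ^ 2 * s x ^ 2) ∧
      Integrable (fun x => t.Φ x ^ 2 * ‖p x‖ ^ 2) ∧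
      (∫ x, ‖gh x‖ ^ 2) + 2 * ∫ x, (V L x + I) * h x ^ 2 ≤ ∫ x, t.Φ x ^ 2 * ‖p x‖ ^ 2 := by
  have hU : IsOpen (D L ∩ Hp) := (isOpen_D L).inter isOpen_Hp
  have hθ : ∀ x ∈ D L ∩ Hp, 0 ≤ t.θ x ∧ t.θ x ≤ Real.pi / 2 := fun x hx =>
    ⟨t.pos x hx.2, (abs_le.1 (t.bd x)).2⟩
  have off : ∀ x, x ∉ D L ∩ Hp → s x = 0 ∧ p x = 0 := by
    obtain ⟨K, _, h2, h3⟩ := hs.cpt
    exact fun x hx => h3 x fun h => hx (h2 h)
  have l1 := t.l1.mono (inter_subset_left (t := Hp))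
  have ld : LD (D L ∩ Hp) (fun x => qa (t.θ x)) (fun x => qb (t.θ x) • t.gθ x) := by
    refine LD.comp1 (W := {y | 0 < Real.cos y + Real.sin y}) hU l1.ld
      (isOpen_lt continuous_const (Real.continuous_cos.add Real.continuous_sin))
      (fun y hy => der hy) ?_ fun K _ hK => ⟨Icc 0 (Real.pi / 2), isClosed_Icc, fun y hy => ?_,
        Eventually.of_forall fun x hx => hθ x (hK hx)⟩
    · exact continuousOn_const.div
        ((Real.continuous_cos.add Real.continuous_sin).pow 2).continuousOn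
        fun y hy => pow_ne_zero 2 (ne_of_gt hy)
    · exact lt_of_lt_of_le one_pos (rng hy.1 hy.2).2.2.1
  have la : L1 (D L ∩ Hp) (fun x => qa (t.θ x)) (fun x => qb (t.θ x) • t.gθ x) := by
    refine L1.of_le (b := fun x => ‖t.gθ x‖) hU ld (ctst_loc2_zero _)
      (fun K h1 h2 => (l1.l2g K h1 h2).norm) fun K _ hK =>
        ⟨1, Eventually.of_forall fun x hx => ?_⟩
    obtain ⟨a1, a2, a3, _⟩ := bds (hθ x (hK hx)).1 (hθ x (hK hx)).2
    constructor
    · rw [abs_of_nonneg a1, abs_zero]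
      linarith
    · rw [norm_smul, Real.norm_eq_abs, abs_norm]
      have := mul_le_mul_of_nonneg_right a3 (norm_nonneg (t.gθ x))
      linarith
  have lb : LocB (D L ∩ Hp) (fun x => qa (t.θ x)) := fun K _ hK =>
    ⟨1, Eventually.of_forall fun x hx => by
      obtain ⟨a1, a2, _⟩ := bds (hθ x (hK hx)).1 (hθ x (hK hx)).2
      rw [abs_of_nonneg a1]
      exact a2⟩
  have hτ := Tst.mul hU hs la lb
  have sb : LocB (D L ∩ Hp) s := fun K _ _ => by
    obtain ⟨M, hM⟩ := hs.bd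
    exact ⟨M, hM.mono fun x hx _ => hx⟩
  have hφ := (Tst.mul hU hτ (hs.h1.1.l1 _) sb).mono (inter_subset_left (t := Hp))
  obtain ⟨j1, j2⟩ := SubQ.jacobi (isOpen_D L) t.n0.sub t.n0.lb
    (hτ.mono (inter_subset_left (t := Hp)))
  have bΦ : LocB (D L) t.Φ := fun K h1 h2 => by
    obtain ⟨M, hM⟩ := t.n0.lb K h1 h2
    refine ⟨M, ?_⟩
    filter_upwards [hM, t.rep] with x hx hr hK
    rw [hr.2.1, abs_mul]
    exact (mul_le_of_le_one_right (abs_nonneg _) (Real.abs_cos_le_one _)).trans (hx hK)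
  have bN : LocB (D L) (fun x => N x ^ 2) := fun K h1 h2 => by
    obtain ⟨M, hM⟩ := t.n0.lb K h1 h2
    refine ⟨M ^ 2, ?_⟩
    filter_upwards [hM] with x hx hK
    rw [abs_pow]
    exact pow_le_pow_left₀ (abs_nonneg _) (hx hK) 2
  have i1 : Integrable (fun x => t.Φ x ^ 2 * ‖p x‖ ^ 2) := by
    have h1 := csub_smul_tst (hs.mono (inter_subset_left (t := Hp))) t.pair.h1.l2.1.restrict bΦ
    have h2 := h1.norm.integrable_sq
    simpa only [norm_smul, mul_pow, Real.norm_eq_abs, sq_abs] using h2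
  have i2 := csub_intQ t.l1.l2g hφ (csub_smul_tst hφ (t.n0.h.l2.1.pow 2).restrict bN)
  have e1 := t.el _ _ hφ
  have e2 : 0 ≤ ∫ x, N x ^ 2 * Real.sin (2 * t.θ x) * (s x * (qa (t.θ x) * s x)) := by
    refine integral_nonneg fun x => ?_
    by_cases hx : x ∈ D L ∩ Hp
    · obtain ⟨a1, a2⟩ := hθ x hx
      have a3 := (bds a1 a2).1
      have a4 : 0 ≤ Real.sin (2 * t.θ x) :=
        Real.sin_nonneg_of_nonneg_of_le_pi (by linarith) (by linarith)
      have a5 : s x * (qa (t.θ x) * s x) = qa (t.θ x) * s x ^ 2 := by ring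
      simp only [a5]
      positivity
    · simp [(off x hx).1]
  have e3 := mul_nonneg hδ e2
  have e4 := integral_mono_of_nonneg
    (f := fun x => N x ^ 2 * ‖qa (t.θ x) • p x + s x • qb (t.θ x) • t.gθ x‖ ^ 2)
    (Eventually.of_forall fun x => by positivity) (i1.sub i2) (by
      filter_upwards [t.rep] with x hr
      by_cases hx : x ∈ D L ∩ Hp
      · have a1 := mul_le_mul_of_nonneg_left (alg (hθ x hx).1 (hθ x hx).2 (s x) (p x) (t.gθ x))
          (sq_nonneg (N x))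
        simp only [Pi.sub_apply, Pi.pow_apply, hr.2.1]
        linarith
      · simp [(off x hx).1, (off x hx).2])
  rw [integral_sub' i1 i2] at e4
  refine ⟨_, _, j1, ?_, i1, ?_⟩
  · filter_upwards [t.rep] with x hr
    by_cases hx : x ∈ D L ∩ Hp
    · obtain ⟨_, _, _, a1, a2⟩ := bds (hθ x hx).1 (hθ x hx).2
      have a3 : 0 ≤ N x ^ 2 * s x ^ 2 := by positivity
      have a4 := mul_le_mul_of_nonneg_left a1 a3
      have a5 := mul_le_mul_of_nonneg_left a2 a3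
      rw [hr.2.1]
      constructor <;> linarith
    · simp [(off x hx).1]
  · have e5 : ∫ x, (V L x + I) * (N x * (qa (t.θ x) * s x)) ^ 2 =
        ∫ x, (V L x + I) * N x ^ 2 * (qa (t.θ x) * s x) ^ 2 :=
      integral_congr_ae (Eventually.of_forall fun x => by ring)
    simp only [Pi.pow_apply] at e4
    linarith

end

end Vale.Agent.P363
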