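import Vale.Agent.P363.ThD

/-! P363, block Th: the weighted gap of `g` and the passage to unbounded functions. -/

open MeasureTheory Set Metric Filter Topology
open scoped RealInnerProductSpace

namespace Vale.Agent.P363

noncomputable section

theorem thgap_locb {U : Set E3} {s : E3 → ℝ} (hb : ∃ M, ∀ᵐ x : E3, |s x| ≤ M) : LocB U s :=
  fun _ _ _ => hb.imp fun _ h => h.mono fun _ hx _ => hx

theorem thgap_meas {L : ℝ} {f : E3 → ℝ} {g : E3 → E3} (h : LD (D L) f g) :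
    AEStronglyMeasurable f volume ∧ AEStronglyMeasurable g volume := by
  have h1 := h.mf
  have h2 := h.mg
  rw [Measure.restrict_eq_self_of_ae_mem (ae_mem_D L)] at h1 h2
  exact ⟨h1, h2⟩

theorem thgap_adm {L : ℝ} {Φ s s' : E3 → ℝ} {p p' : E3 → E3} (hΦ : AEStronglyMeasurable Φ volume)
    (h : Adm L Φ s p) (h' : LD (D L) s' p') (h1 : ∀ x, |s' x| ≤ |s x|) (h2 : ∀ x, ‖p' x‖ ≤ ‖p x‖)
    (ev : ∀ᵐ x : E3, s' (sg x) = s' x) : Adm L Φ s' p' := by
  obtain ⟨m1, m2⟩ := thgap_meas h'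
  refine ⟨⟨h', fun K hK hKU => (h.l1.l2 K hK hKU).of_le m1.restrict (Eventually.of_forall h1),
    fun K hK hKU => (h.l1.l2g K hK hKU).of_le m2.restrict (Eventually.of_forall h2)⟩, ev, ?_, ?_⟩
  · refine h.i1.mono' ((hΦ.pow 2).mul (m1.pow 2)) (Eventually.of_forall fun x => ?_)
    rw [Real.norm_of_nonneg (by positivity)]
    exact mul_le_mul_of_nonneg_left (sq_le_sq.2 (h1 x)) (sq_nonneg _)
  · refine h.i2.mono' ((hΦ.pow 2).mul (m2.norm.pow 2)) (Eventually.of_forall fun x => ?_)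
    rw [Real.norm_of_nonneg (by positivity)]
    exact mul_le_mul_of_nonneg_left (pow_le_pow_left₀ (norm_nonneg _) (h2 x) 2) (sq_nonneg _)

theorem thgap_clamp {n : ℝ} (hn : 0 ≤ n) (t : ℝ) :
    |max (-n) (min n t)| ≤ |t| ∧ |max (-n) (min n t)| ≤ n := by
  simp only [max_def, min_def, abs_le]
  have := le_abs_self t
  have := neg_abs_le t
  split_ifs <;> refine ⟨⟨?_, ?_⟩, ?_, ?_⟩ <;> linarith

theorem thgap_lim (t : ℝ) : Tendsto (fun n : ℕ => max (-(n : ℝ)) (min (n : ℝ) t)) atTop (𝓝 t) := by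
  refine tendsto_const_nhds.congr' ?_
  filter_upwards [tendsto_natCast_atTop_atTop.eventually (eventually_ge_atTop |t|)] with n hn
  rw [min_eq_right ((le_abs_self t).trans hn), max_eq_right (by linarith [neg_abs_le t])]

theorem thgap_bd (a t : ℝ) : ‖a ^ 2 * t‖ ≤ a ^ 2 + a ^ 2 * t ^ 2 := by
  rw [Real.norm_eq_abs, abs_mul, abs_of_nonneg (sq_nonneg a), ← mul_one_add]
  refine mul_le_mul_of_nonneg_left ?_ (sq_nonneg a)
  rw [← sq_abs t]
  nlinarith [sq_nonneg (|t| - 1), abs_nonneg t]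

theorem thgap_cut {r1 R : ℝ} (hr : 2 ≤ r1) (hR : 2 * r1 ≤ R) : ∃ ζ q, Tst (Ext r1) ζ q ∧
    Continuous ζ ∧ ∀ x, |ζ x| ≤ 1 ∧ ‖q x‖ ≤ 2 / r1 ∧ ζ (sg x) = ζ x ∧
      (2 * r1 ≤ ‖x‖ → ‖x‖ ≤ R → ζ x = 1) := by
  obtain ⟨ξ1, q1, t1, c1, -, h1⟩ := exists_cut 0 (a := 3 / 2 * r1) (b := 2 * r1) (by linarith)
    (by linarith)
  obtain ⟨ξ2, q2, t2, c2, -, h2⟩ := exists_cut 0 (a := R) (b := 2 * R) (by linarith) (by linarith)
  simp only [sub_zero] at h1 h2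
  have t3 := t2.add (t1.cmul (-1))
  refine ⟨fun x => ξ2 x + -1 * ξ1 x, fun x => q2 x + (-1 : ℝ) • q1 x,
    ⟨t3.ld, t3.l2g, t3.bd, closedBall 0 (2 * R) ∩ {x | 3 / 2 * r1 ≤ ‖x‖},
      (isCompact_closedBall _ _).inter_right (isClosed_le continuous_const continuous_norm),
      fun x hx => ?_, fun x hx => ?_⟩, by fun_prop, fun x => ⟨?_, ?_, ?_, fun a b => ?_⟩⟩
  · have : 3 / 2 * r1 ≤ ‖x‖ := hx.2
    show r1 < ‖x‖
    linarith
  · by_cases h : ‖x‖ ≤ 3 / 2 * r1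
    · obtain ⟨e1, e2⟩ := (h1 x).2.2.2.1 h
      obtain ⟨e3, e4⟩ := (h2 x).2.2.2.1 (by linarith)
      simp [e1, e2, e3, e4]
    · have h3 : 2 * R ≤ ‖x‖ := by
        by_contra h4
        exact hx ⟨mem_closedBall_zero_iff.2 (not_le.1 h4).le, (not_le.1 h).le⟩
      obtain ⟨e1, e2⟩ := (h1 x).2.2.2.2.1 (by linarith)
      obtain ⟨e3, e4⟩ := (h2 x).2.2.2.2.1 h3
      simp [e1, e2, e3, e4]
  · rw [abs_le]
    constructor <;> linarith [(h1 x).1, (h1 x).2.1, (h2 x).1, (h2 x).2.1]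
  · beta_reduce
    by_cases h : ‖x‖ ≤ R
    · rw [((h2 x).2.2.2.1 h).2, zero_add, neg_one_smul, norm_neg]
      refine (h1 x).2.2.1.trans (le_of_eq ?_)
      have : r1 ≠ 0 := by linarith
      field_simp
      ring
    · rw [((h1 x).2.2.2.2.1 (by linarith)).2, smul_zero, add_zero]
      refine (h2 x).2.2.1.trans ?_
      rw [div_le_div_iff₀ (by linarith) (by linarith)]
      linarith
  · beta_reduce
    rw [((h1 x).2.2.2.2.2 _ (norm_sg x)).1, ((h2 x).2.2.2.2.2 _ (norm_sg x)).1]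
  · beta_reduce
    rw [((h1 x).2.2.2.2.1 a).1, ((h2 x).2.2.2.1 b).1]
    ring

theorem g_gap {c0 L : ℝ} (ob : OB c0 L) {T : E3 → ℝ} {p : E3 → E3} (hT : Tst (D L) T p)
    (ev : ∀ᵐ x : E3, T (sg x) = T x) (h0 : ∫ x, ob.g x ^ 2 * T x = 0) :
    Integrable (fun x => ob.g x ^ 2 * ‖p x‖ ^ 2) ∧
    2 * (-1 / 2 + c0 - ob.eg) * ∫ x, ob.g x ^ 2 * T x ^ 2 ≤ ∫ x, ob.g x ^ 2 * ‖p x‖ ^ 2 := by
  have hU := isOpen_D L
  have hgl := ob.hg.l1 (D L)
  have hgb : LocB (D L) ob.g := LocB.of_cont ob.cg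
  have hf := hT.mul hU hgl hgb
  have hf2 := (hT.mul hU (hT.h1.1.l1 _) (thgap_locb hT.bd)).mul hU hgl hgb
  obtain ⟨M, hM⟩ := hT.bd
  have m1 : MemLp (fun x => ob.g x • p x) 2 volume := by
    have := hf.l2g.sub (ctst_smul (ctst_mf hT.ld) hM ob.hg.l2g)
    refine this.ae_eq (Eventually.of_forall fun x => ?_)
    simp
  have i1 : Integrable (fun x => ob.g x ^ 2 * ‖p x‖ ^ 2) := by
    refine (memLp_two_iff_integrable_sq_norm m1.1).1 m1 |>.congr (Eventually.of_forall fun x => ?_)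
    simp only [norm_smul, mul_pow, Real.norm_eq_abs, sq_abs]
  have i2 := csub_int hf2 (R := fun x => V L x * ob.g x) (g := ob.gg) (fun K hK hKU =>
    (((continuousOn_V L).mul ob.cg).mono hKU).integrableOn_compact hK) hgl.l2g
  have e1 := ob.eqg _ _ hf2.h1.1
  have e2 := ob.gap _ _ hf.h1.1
  have e3 : ∫ x, ob.g x * (ob.g x * T x) = 0 := by
    rw [← h0]
    exact integral_congr_ae (Eventually.of_forall fun x => by ring)
  have e4 : ∫ x, ob.u x * (ob.g x * T x) = 0 := by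
    refine integral_odd (ev.mono fun x hx => ?_)
    simp only [ob.odu, ob.evg, hx, neg_mul]
  have e5 : ∫ x, (ob.g x * T x) ^ 2 = ∫ x, ob.g x ^ 2 * T x ^ 2 := by simp only [mul_pow]
  have e6 : ∫ x, ob.g x * (ob.g x * (T x * T x)) = ∫ x, ob.g x ^ 2 * T x ^ 2 :=
    integral_congr_ae (Eventually.of_forall fun x => by ring)
  have e7 : q1 L (fun x => ob.g x * T x) (fun x => ob.g x • p x + T x • ob.gg x)
      (fun x => ob.g x * T x) (fun x => ob.g x • p x + T x • ob.gg x) =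
      (1 / 2) * (∫ x, ob.g x ^ 2 * ‖p x‖ ^ 2) + q1 L ob.g ob.gg (fun x => ob.g x * (T x * T x))
        (fun x => ob.g x • (T x • p x + T x • p x) + (T x * T x) • ob.gg x) := by
    unfold q1
    rw [← integral_const_mul, ← integral_add (i1.const_mul _) i2]
    refine integral_congr_ae (Eventually.of_forall fun x => ?_)
    simp only [inner_add_left, inner_add_right, real_inner_smul_left, real_inner_smul_right,
      real_inner_self_eq_norm_sq, real_inner_comm (ob.gg x) (p x), norm_smul, mul_pow,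
      Real.norm_eq_abs, sq_abs]
    ring
  rw [e3, e4, e5, e7, e1, e6] at e2
  exact ⟨i1, by linarith⟩

theorem th_var {L κ : ℝ} {Φ : E3 → ℝ} (hκ : 0 ≤ κ) (hΦ : MemLp Φ 2 volume)
    (m1 : ∫ x, Φ x ^ 2 = 2) (h : ∀ s p, Adm L Φ s p → (∃ M, ∀ᵐ x : E3, |s x| ≤ M) →
      ∃ a, κ * ∫ x, Φ x ^ 2 * (s x - a) ^ 2 ≤ ∫ x, Φ x ^ 2 * ‖p x‖ ^ 2) : Poin L κ Φ := by
  intro s p hs
  have iΦ : Integrable (fun x => Φ x ^ 2) := hΦ.integrable_sq
  have ha : ∀ n : ℕ, Adm L Φ (fun x => max (-(n : ℝ)) (min (n : ℝ) (s x)))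
      (fun x => if -(n : ℝ) < s x ∧ s x < n then p x else 0) := fun n =>
    thgap_adm hΦ.1 hs (hs.l1.ld.clamp (isOpen_D L) (by linarith [Nat.cast_nonneg (α := ℝ) n]))
      (fun x => (thgap_clamp (Nat.cast_nonneg n) _).1)
      (fun x => by
        split_ifs
        · exact le_rfl
        · simp) (hs.ev.mono fun x hx => by rw [hx])
  have hm : ∀ n : ℕ, AEStronglyMeasurable (fun x => max (-(n : ℝ)) (min (n : ℝ) (s x))) volume :=
    fun n => (thgap_meas (ha n).l1.ld).1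
  have hsq : ∀ (n : ℕ) x, Φ x ^ 2 * max (-(n : ℝ)) (min (n : ℝ) (s x)) ^ 2 ≤ Φ x ^ 2 * s x ^ 2 :=
    fun n x => mul_le_mul_of_nonneg_left (sq_le_sq.2 (thgap_clamp (Nat.cast_nonneg n) _).1)
      (sq_nonneg _)
  have t1 : Tendsto (fun n : ℕ => ∫ x, Φ x ^ 2 * max (-(n : ℝ)) (min (n : ℝ) (s x)) ^ 2) atTop
      (𝓝 (∫ x, Φ x ^ 2 * s x ^ 2)) :=
    tendsto_integral_of_dominated_convergence _ (fun n => (ha n).i1.1) hs.i1
      (fun n => Eventually.of_forall fun x => by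
        rw [Real.norm_of_nonneg (by positivity)]
        exact hsq n x)
      (Eventually.of_forall fun x => ((thgap_lim (s x)).pow 2).const_mul _)
  have t2 : Tendsto (fun n : ℕ => ∫ x, Φ x ^ 2 * max (-(n : ℝ)) (min (n : ℝ) (s x))) atTop
      (𝓝 (∫ x, Φ x ^ 2 * s x)) :=
    tendsto_integral_of_dominated_convergence (fun x => Φ x ^ 2 + Φ x ^ 2 * s x ^ 2)
      (fun n => iΦ.1.mul (hm n)) (iΦ.add hs.i1)
      (fun n => Eventually.of_forall fun x => (thgap_bd _ _).trans (by linarith [hsq n x]))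
      (Eventually.of_forall fun x => (thgap_lim (s x)).const_mul _)
  refine le_of_tendsto' ((t1.sub ((t2.pow 2).div_const 2)).const_mul κ) fun n => ?_
  obtain ⟨a, h1⟩ := h _ _ (ha n)
    ⟨n, Eventually.of_forall fun x => (thgap_clamp (Nat.cast_nonneg n) _).2⟩
  have i3 : Integrable (fun x => Φ x ^ 2 * max (-(n : ℝ)) (min (n : ℝ) (s x))) :=
    (iΦ.add (ha n).i1).mono' (iΦ.1.mul (hm n)) (Eventually.of_forall fun x => thgap_bd _ _)
  have h2 : ∫ x, Φ x ^ 2 * (max (-(n : ℝ)) (min (n : ℝ) (s x)) - a) ^ 2 =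
      (∫ x, Φ x ^ 2 * max (-(n : ℝ)) (min (n : ℝ) (s x)) ^ 2) -
        2 * a * (∫ x, Φ x ^ 2 * max (-(n : ℝ)) (min (n : ℝ) (s x))) + a ^ 2 * 2 := by
    have i4 : Integrable (fun x => Φ x ^ 2 * max (-(n : ℝ)) (min (n : ℝ) (s x)) ^ 2 -
        2 * a * (Φ x ^ 2 * max (-(n : ℝ)) (min (n : ℝ) (s x)))) := (ha n).i1.sub (i3.const_mul _)
    have e1 := integral_add i4 (iΦ.const_mul (a ^ 2))
    rw [integral_sub (ha n).i1 (i3.const_mul _), integral_const_mul, integral_const_mul, m1] at e1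
    rw [← e1]
    exact integral_congr_ae (Eventually.of_forall fun x => by ring)
  have h3 : ∫ x, Φ x ^ 2 * ‖if -(n : ℝ) < s x ∧ s x < n then p x else 0‖ ^ 2 ≤
      ∫ x, Φ x ^ 2 * ‖p x‖ ^ 2 := integral_mono (ha n).i2 hs.i2 fun x => by
    refine mul_le_mul_of_nonneg_left ?_ (sq_nonneg _)
    split_ifs
    · exact le_rfl
    · simp
  refine le_trans (mul_le_mul_of_nonneg_left ?_ hκ) (h1.trans h3)
  rw [h2]
  nlinarith [sq_nonneg (a - (∫ x, Φ x ^ 2 * max (-(n : ℝ)) (min (n : ℝ) (s x))) / 2)]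

/-- From the far estimate for test functions to admissible functions. -/
theorem far_adm {L r1 K : ℝ} {Φ s : E3 → ℝ} {p : E3 → E3} (hL : 0 ≤ L) (hr : L ≤ r1)
    (hr' : 2 ≤ r1) (hK : 0 ≤ K) (h : FarB r1 K Φ) (hs : Adm L Φ s p)
    (hb : ∃ M, ∀ᵐ x : E3, |s x| ≤ M) :
    ∫ x in {x : E3 | 2 * r1 ≤ ‖x‖}, Φ x ^ 2 * s x ^ 2 ≤
      2 * K * ((∫ x, Φ x ^ 2 * ‖p x‖ ^ 2) + 4 / r1 ^ 2 * ∫ x, Φ x ^ 2 * s x ^ 2) := by
  have hS : ∀ n : ℕ, MeasurableSet {x : E3 | 2 * r1 ≤ ‖x‖ ∧ ‖x‖ ≤ 2 * r1 + n} := fun n =>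
    ((isClosed_le continuous_const continuous_norm).inter
      (isClosed_le continuous_norm continuous_const)).measurableSet
  have hU : ⋃ n : ℕ, {x : E3 | 2 * r1 ≤ ‖x‖ ∧ ‖x‖ ≤ 2 * r1 + n} = {x : E3 | 2 * r1 ≤ ‖x‖} := by
    ext x
    simp only [mem_iUnion, mem_ofPred_eq]
    refine ⟨fun ⟨_, h1⟩ => h1.1, fun h1 => ?_⟩
    obtain ⟨n, hn⟩ := exists_nat_ge ‖x‖
    exact ⟨n, h1, by linarith⟩
  have t1 := tendsto_setIntegral_of_monotone (μ := volume) (f := fun x => Φ x ^ 2 * s x ^ 2) hS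
    (fun m n hmn x hx => ⟨hx.1, hx.2.trans (by
      have : (m : ℝ) ≤ n := by exact_mod_cast hmn
      linarith)⟩) hs.i1.integrableOn
  rw [hU] at t1
  refine le_of_tendsto' t1 fun n => ?_
  obtain ⟨ζ, q, ht, hc, hz⟩ := thgap_cut (R := 2 * r1 + n) hr'
    (le_add_of_nonneg_right (Nat.cast_nonneg n))
  have h1 := h _ _ (ht.mul (isOpen_Ext r1) (hs.l1.mono (Ext_subset_D hL hr)) (thgap_locb hb))
    (hs.ev.mono fun x hx => by rw [hx, (hz x).2.2.1])
  have hz2 : ∀ x, ζ x ^ 2 ≤ 1 := fun x => by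
    rw [← sq_abs]
    exact pow_le_one₀ (abs_nonneg _) (hz x).1
  have i1 : Integrable (fun x => Φ x ^ 2 * (s x * ζ x) ^ 2) := by
    refine (hs.i1.mul_bdd (c := 1) (hc.pow 2).aestronglyMeasurable
      (Eventually.of_forall fun x => ?_)).congr (Eventually.of_forall fun x => ?_)
    · exact (Real.norm_of_nonneg (sq_nonneg (ζ x))).le.trans (hz2 x)
    · simp only [Pi.pow_apply]
      ring
  have h2 : ∫ x in {x : E3 | 2 * r1 ≤ ‖x‖ ∧ ‖x‖ ≤ 2 * r1 + n}, Φ x ^ 2 * s x ^ 2 ≤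
      ∫ x, Φ x ^ 2 * (s x * ζ x) ^ 2 := by
    refine le_trans (le_of_eq (setIntegral_congr_fun (hS n) fun x hx => ?_))
      (setIntegral_le_integral i1 (Eventually.of_forall fun x => by positivity))
    simp only [(hz x).2.2.2 hx.1 hx.2, mul_one]
  have h3 : ∫ x, Φ x ^ 2 * ‖s x • q x + ζ x • p x‖ ^ 2 ≤
      2 * ((∫ x, Φ x ^ 2 * ‖p x‖ ^ 2) + 4 / r1 ^ 2 * ∫ x, Φ x ^ 2 * s x ^ 2) := by
    rw [← integral_const_mul, ← integral_add hs.i2 (hs.i1.const_mul _), ← integral_const_mul]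
    refine integral_mono_of_nonneg (Eventually.of_forall fun x => by positivity)
      ((hs.i2.add (hs.i1.const_mul _)).const_mul _) (Eventually.of_forall fun x => ?_)
    have a1 : ‖s x • q x + ζ x • p x‖ ≤ |s x| * (2 / r1) + ‖p x‖ := by
      refine (norm_add_le _ _).trans (add_le_add ?_ ?_)
      · rw [norm_smul]
        exact mul_le_mul_of_nonneg_left (hz x).2.1 (norm_nonneg _)
      · rw [norm_smul]
        exact mul_le_of_le_one_left (norm_nonneg _) (hz x).1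
    have a2 : ‖s x • q x + ζ x • p x‖ ^ 2 ≤ 2 * (‖p x‖ ^ 2 + 4 / r1 ^ 2 * s x ^ 2) := by
      refine (pow_le_pow_left₀ (norm_nonneg _) a1 2).trans ?_
      have a3 : (|s x| * (2 / r1)) ^ 2 = 4 / r1 ^ 2 * s x ^ 2 := by
        rw [mul_pow, sq_abs, div_pow]
        ring
      rw [← a3]
      nlinarith [sq_nonneg (|s x| * (2 / r1) - ‖p x‖)]
    have a4 := mul_le_mul_of_nonneg_left a2 (sq_nonneg (Φ x))
    simp only
    linarith
  have h4 := mul_le_mul_of_nonneg_left h3 hK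
  linarith

end

end Vale.Agent.P363
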