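import Vale.Agent.P363.ThPair

/-! P363, block Th: the competitor built from an arbitrary state. -/

open MeasureTheory Set Metric Filter Topology
open scoped RealInnerProductSpace

namespace Vale.Agent.P363

noncomputable section

variable {Y : Type} [MeasurableSpace Y] {ν : Measure Y} [SFinite ν] {L I δ0 : ℝ} {N : E3 → ℝ}
  {gN : E3 → E3}

/-- The interpolated density. -/
def Rs (Φ U N : E3 → ℝ) (s : ℝ) (x : E3) : ℝ :=
  √((1 - s - s ^ 2) * Φ x ^ 2 + s * U x ^ 2 + s ^ 2 * N x ^ 2)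

namespace ThKeyAAux

theorem vec {a b f u : ℝ} (ha : 0 ≤ a) (hb : 0 ≤ b) (p q : E3) :
    √((√a * f) ^ 2 + (√b * u) ^ 2) • (√((√a * f) ^ 2 + (√b * u) ^ 2))⁻¹ •
      ((√a * f) • √a • p + (√b * u) • √b • q) = (a * f) • p + (b * u) • q := by
  have e1 : √a * f * √a = a * f := by rw [mul_right_comm, Real.mul_self_sqrt ha]
  have e2 : √b * u * √b = b * u := by rw [mul_right_comm, Real.mul_self_sqrt hb]
  by_cases h : √((√a * f) ^ 2 + (√b * u) ^ 2) = 0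
  · rw [h, zero_smul]
    rw [Real.sqrt_eq_zero (by positivity)] at h
    have h1 : √a * f = 0 := by nlinarith [sq_nonneg (√a * f), sq_nonneg (√b * u)]
    have h2 : √b * u = 0 := by nlinarith [sq_nonneg (√a * f), sq_nonneg (√b * u)]
    rw [← e1, ← e2, h1, h2]
    simp
  · rw [smul_inv_smul₀ h, smul_smul, smul_smul, e1, e2]

theorem hyp3 {Φ U N : E3 → ℝ} {p q g : E3 → E3} (h1 : H1 Φ p) (h2 : H1 U q) (h3 : H1 N g)
    {a b c : ℝ} (ha : 0 ≤ a) (hb : 0 ≤ b) (hc : 0 ≤ c) :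
    H1 (fun x => √(a * Φ x ^ 2 + b * U x ^ 2 + c * N x ^ 2))
      (fun x => (√(a * Φ x ^ 2 + b * U x ^ 2 + c * N x ^ 2))⁻¹ •
        ((a * Φ x) • p x + (b * U x) • q x + (c * N x) • g x)) := by
  have e : ∀ x, √((√a * Φ x) ^ 2 + (√b * U x) ^ 2) ^ 2 + (√c * N x) ^ 2 =
      a * Φ x ^ 2 + b * U x ^ 2 + c * N x ^ 2 := fun x => by
    rw [Real.sq_sqrt (by positivity), mul_pow, mul_pow, mul_pow, Real.sq_sqrt ha, Real.sq_sqrt hb,
      Real.sq_sqrt hc]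
  refine (((h1.cmul √a).hyp (h2.cmul √b)).hyp (h3.cmul √c)).congr
    (ae_of_all _ fun x => by rw [e]) (ae_of_all _ fun x => ?_)
  rw [e, vec ha hb, smul_smul (√c * N x), mul_right_comm, Real.mul_self_sqrt hc]

theorem real {a b c f u n R i P Gn Pv Qv Gv Vv T E : ℝ} (ha : 0 ≤ a) (hb : 0 ≤ b) (hc : 0 ≤ c)
    (hT : 0 ≤ T) (hi : R * i = 1) (hR : R ^ 2 = a * f ^ 2 + b * u ^ 2 + c * n ^ 2)
    (hv : R * Vv = a * f * Pv + b * u * Qv + c * n * Gv)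
    (hE : R ^ 2 * T = E - 2 * i * (u * Qv) + u ^ 2 * i ^ 2 * Vv)
    (h1 : 0 ≤ P - 2 * (f * i * Pv) + (f * i) ^ 2 * Vv)
    (h2 : 0 ≤ Gn - 2 * (n * i * Gv) + (n * i) ^ 2 * Vv) :
    Vv + b * a * (f ^ 2 * T) ≤ b * E + a * P + c * Gn := by
  have k1 := mul_nonneg ha h1
  have k2 := mul_nonneg hc h2
  have k3 : a * f ^ 2 ≤ R ^ 2 := by
    have := mul_nonneg hb (sq_nonneg u)
    have := mul_nonneg hc (sq_nonneg n)
    linarith
  have k4 := mul_le_mul_of_nonneg_left (mul_le_mul_of_nonneg_right k3 hT) hb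
  have k5 : i * (a * f * Pv + b * u * Qv + c * n * Gv) = Vv := by
    rw [← hv, ← mul_assoc, mul_comm i, hi, one_mul]
  have k6 : i ^ 2 * (a * f ^ 2 + b * u ^ 2 + c * n ^ 2) * Vv = Vv := by
    rw [← hR, ← mul_pow, mul_comm i, hi]
    ring
  rw [hE] at k4
  linarith

theorem sq_exp (p v : E3) (t : ℝ) : 0 ≤ ‖p‖ ^ 2 - 2 * (t * ⟪p, v⟫) + t ^ 2 * ‖v‖ ^ 2 := by
  have := sq_nonneg ‖p - t • v‖
  rwa [norm_sub_sq_real, real_inner_smul_right, norm_smul, mul_pow, Real.norm_eq_abs,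
    sq_abs] at this

theorem pt {a b c f u n R T E : ℝ} {p q g v : E3} (ha : 0 ≤ a) (hb : 0 ≤ b) (hc : 0 ≤ c)
    (hT : 0 ≤ T) (h0 : 0 < R) (hR : R ^ 2 = a * f ^ 2 + b * u ^ 2 + c * n ^ 2)
    (hv : v = R⁻¹ • ((a * f) • p + (b * u) • q + (c * n) • g))
    (hE : R ^ 2 * T = E - 2 / R * ⟪u • q, v⟫ + u ^ 2 / R ^ 2 * ‖v‖ ^ 2) :
    ‖v‖ ^ 2 + b * a * (f ^ 2 * T) ≤ b * E + a * ‖p‖ ^ 2 + c * ‖g‖ ^ 2 := by
  refine real (Qv := ⟪q, v⟫) ha hb hc hT (mul_inv_cancel₀ h0.ne') hR ?_ ?_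
    (sq_exp p v (f * R⁻¹)) (sq_exp g v (n * R⁻¹))
  · have : R • v = (a * f) • p + (b * u) • q + (c * n) • g := by
      rw [hv, smul_inv_smul₀ h0.ne']
    rw [← real_inner_self_eq_norm_sq, ← real_inner_smul_left, this, inner_add_left, inner_add_left,
      real_inner_smul_left, real_inner_smul_left, real_inner_smul_left]
  · rw [hE, real_inner_smul_left, div_eq_mul_inv, div_eq_mul_inv, inv_pow]

theorem ratio {a f R : ℝ} (ha : 0 < a) (h0 : 0 ≤ R) (h : a * f ^ 2 ≤ R ^ 2) :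
    |f * R⁻¹| ≤ √a⁻¹ := by
  rcases h0.eq_or_lt with rfl | h0
  · simp
  · refine Real.abs_le_sqrt ?_
    rw [mul_pow, inv_pow, ← div_eq_mul_inv, div_le_iff₀ (by positivity), ← div_eq_inv_mul,
      le_div_iff₀ ha]
    linarith

end ThKeyAAux

open ThKeyAAux in
theorem key_comp (n0 : N0 L I N gN) (m : MP δ0 N) {G : E3 × Y → ℝ} {GG : E3 × Y → E3}
    (hG : HV ν G GG) {W : E3 → ℝ} {gW : E3 → E3} (hp : Pair N (nrm ν G) W (gnr ν G GG) gW)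
    {s : ℝ} (h0 : 0 < s) (h1 : s ≤ 1 / 2) : ∃ GT : E3 × Y → E3,
      LV (D L) ν (fun w => G w / Rs m.Φ (nrm ν G) N s w.1) GT ∧
      Integrable (fun w : E3 × Y => m.Φ w.1 ^ 2 * ‖GT w‖ ^ 2) (volume.prod ν) ∧
      (1 + s) * JJ m.gΦ m.gΩ - s * (∫ x, ‖gN x‖ ^ 2) -
        2 * δ0 * ((∫ x, nrm ν G x ^ 2) - 2 + s) +
        (1 - s - s ^ 2) * ∫ w, m.Φ w.1 ^ 2 * ‖GT w‖ ^ 2 ∂(volume.prod ν) ≤
      (∫ w, ‖GG w‖ ^ 2 ∂(volume.prod ν)) + ∫ x, ‖gW x‖ ^ 2 := by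
  have ha : 0 < 1 - s - s ^ 2 := by nlinarith
  have hs2 : 0 ≤ s ^ 2 := sq_nonneg s
  obtain ⟨a, ea⟩ : ∃ a, a = 1 - s - s ^ 2 := ⟨_, rfl⟩
  obtain ⟨U, eU⟩ : ∃ U, U = nrm ν G := ⟨_, rfl⟩
  obtain ⟨R, eR⟩ : ∃ R, R = Rs m.Φ (nrm ν G) N s := ⟨_, rfl⟩
  have hR : ∀ x, R x = √(a * m.Φ x ^ 2 + s * U x ^ 2 + s ^ 2 * N x ^ 2) := fun x => by
    rw [eR, ea, eU]; rfl
  rw [← eR, ← ea, ← eU]
  rw [← ea] at ha
  rw [← eU] at hp
  obtain ⟨v, hv⟩ : ∃ v : E3 → E3, ∀ x, v x = (R x)⁻¹ • ((a * m.Φ x) • m.gΦ x +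
    (s * U x) • gnr ν G GG x + (s ^ 2 * N x) • gN x) := ⟨_, fun _ => rfl⟩
  have H : H1 R v := (hyp3 m.pair.h1 hp.h1 n0.h ha.le h0.le hs2).congr (ae_of_all _ hR)
    (ae_of_all _ fun x => by rw [hv, hR])
  have R0 : ∀ x, 0 ≤ R x := fun x => by rw [hR]; exact Real.sqrt_nonneg _
  have R2 : ∀ x, R x ^ 2 = a * m.Φ x ^ 2 + s * U x ^ 2 + s ^ 2 * N x ^ 2 := fun x => by
    rw [hR, Real.sq_sqrt (by positivity)]
  have b1 : ∀ x, |m.Φ x * (R x)⁻¹| ≤ √a⁻¹ := fun x => ratio ha (R0 x) (by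
    rw [R2]
    linarith [mul_nonneg h0.le (sq_nonneg (U x)), mul_nonneg hs2 (sq_nonneg (N x))])
  have b2 : ∀ x, |U x * (R x)⁻¹| ≤ √s⁻¹ := fun x => ratio h0 (R0 x) (by
    rw [R2]
    linarith [mul_nonneg ha.le (sq_nonneg (m.Φ x)), mul_nonneg hs2 (sq_nonneg (N x))])
  have lp : LocP (D L) R := fun K h1 h2 => by
    obtain ⟨c, hc, h⟩ := n0.lp K h1 h2
    refine ⟨s * c, mul_pos h0 hc, h.mono fun x hx hK => ?_⟩
    refine (mul_le_mul_of_nonneg_left (hx hK) h0.le).trans ?_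
    refine (abs_le_of_sq_le_sq' ?_ (R0 x)).2
    rw [R2, mul_pow]
    linarith [mul_nonneg ha.le (sq_nonneg (m.Φ x)), mul_nonneg h0.le (sq_nonneg (U x))]
  have lb : LocB (D L) (fun x => (R x)⁻¹) := fun K h1 h2 => by
    obtain ⟨c, hc, h⟩ := lp K h1 h2
    refine ⟨c⁻¹, h.mono fun x hx hK => ?_⟩
    rw [abs_of_nonneg (inv_nonneg.2 (R0 x))]
    exact inv_anti₀ hc (hx hK)
  have Rp : ∀ᵐ x : E3, 0 < R x := by
    filter_upwards [ae_mem_D L, ae_of_compacts (isOpen_D L) (P := fun x => 0 < R x)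
      fun K h1 h2 => by
        obtain ⟨c, hc, h⟩ := lp K h1 h2
        exact h.mono fun x hx hK => hc.trans_le (hx hK)] with x h1 h2 using h2 h1
  have mR : AEStronglyMeasurable (fun x => (R x)⁻¹) volume :=
    H.l2.1.aemeasurable.inv.aestronglyMeasurable
  have mU : AEStronglyMeasurable (fun x => U x * (R x)⁻¹) volume := hp.h1.l2.1.mul mR
  have mΦ : AEStronglyMeasurable (fun x => m.Φ x * (R x)⁻¹) volume := m.pair.h1.l2.1.mul mR
  have uv : MemLp (fun x => (U x * (R x)⁻¹) • v x) 2 volume :=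
    CVec1Aux.mul_bd H.l2g mU (ae_of_all _ b2)
  have lv := (hG.lv (D L)).mul1 (isOpen_D L) ((H.ld.mono (subset_univ _)).inv (isOpen_D L) lp) lb
    (fun K h1 h2 => by
      obtain ⟨M, hM⟩ := lb K h1 h2
      have := CVec1Aux.mul_bd (uv.restrict K) mR.neg.restrict (M := M)
        ((ae_restrict_iff' h1.measurableSet).2 (hM.mono fun x hx hK => by
          rw [Pi.neg_apply, abs_neg]; exact hx hK))
      refine (memLp_congr_ae (ae_of_all _ fun x => ?_)).1 this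
      simp only [Pi.neg_apply, smul_smul, ← eU]
      congr 1
      ring)
  obtain ⟨GT, hGT⟩ : ∃ GT : E3 × Y → E3, ∀ w, GT w =
    (R w.1)⁻¹ • GG w - (G w / R w.1 ^ 2) • v w.1 := ⟨_, fun _ => rfl⟩
  have e1 : (fun w : E3 × Y => G w / R w.1) = fun w => (R w.1)⁻¹ * G w :=
    funext fun w => div_eq_inv_mul _ _
  have e2 : GT = fun w => (R w.1)⁻¹ • GG w + G w • -((R w.1)⁻¹ ^ 2) • v w.1 := funext fun w => by
    rw [hGT, smul_smul, sub_eq_add_neg, ← neg_smul, div_eq_mul_inv, inv_pow, mul_neg]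
  have l2 : MemLp (fun w : E3 × Y => m.Φ w.1 • GT w) 2 (volume.prod ν) := by
    have t1 := CVec1Aux.mul_bd hG.l2g mΦ.comp_fst (M := √a⁻¹) (ae_of_all _ fun w => b1 w.1)
    have t2 := CVec1Aux.smul_nrm (gm := fun x => (R x)⁻¹ • v x) hG.l2 (mR.smul H.l2g.1)
      (by simpa only [smul_smul, ← eU] using uv)
    have t3 := CVec1Aux.mul_bd t2 mΦ.comp_fst (M := √a⁻¹) (ae_of_all _ fun w => b1 w.1)
    refine (memLp_congr_ae (ae_of_all _ fun w => ?_)).1 (t1.sub t3)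
    simp only [Pi.sub_apply, hGT, smul_sub, smul_smul]
    congr 2
    ring
  obtain ⟨-, i1, j1⟩ := ae_slice2 l2
  obtain ⟨s2, i2, j2⟩ := ae_slice2 hG.l2g
  have e3 : ∀ w : E3 × Y, ‖m.Φ w.1 • GT w‖ ^ 2 = m.Φ w.1 ^ 2 * ‖GT w‖ ^ 2 := fun w => by
    rw [norm_smul, mul_pow, Real.norm_eq_abs, sq_abs]
  have i0 := (memLp_two_iff_integrable_sq_norm l2.1).1 l2
  have e4 : ∀ x y, ‖m.Φ x • GT (x, y)‖ ^ 2 = m.Φ x ^ 2 * ‖GT (x, y)‖ ^ 2 := fun x y => e3 (x, y)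
  simp only [e3, e4] at i0 i1 j1
  refine ⟨GT, by rw [e1, e2]; exact lv, i0, ?_⟩
  have key : ∀ᵐ x : E3, ‖v x‖ ^ 2 + s * a * ∫ y, m.Φ x ^ 2 * ‖GT (x, y)‖ ^ 2 ∂ν ≤
      s * ∫ y, ‖GG (x, y)‖ ^ 2 ∂ν + a * ‖m.gΦ x‖ ^ 2 + s ^ 2 * ‖gN x‖ ^ 2 := by
    filter_upwards [Rp, s2, (ae_slice2 hG.l2).1, ((hG.lv univ).nrm isOpen_univ).2]
      with x k1 k2 k3 k4
    have k5 := angular k3 k2 k1 (v x)
    rw [← (k4 trivial).2, ← CVec3Aux.nrm_sq, ← eU] at k5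
    rw [integral_const_mul]
    refine pt ha.le h0.le hs2 (integral_nonneg fun _ => sq_nonneg _) k1 (R2 x) (hv x) ?_
    simpa only [hGT] using k5
  have iv := (memLp_two_iff_integrable_sq_norm H.l2g.1).1 H.l2g
  have ip := (memLp_two_iff_integrable_sq_norm m.pair.h1.l2g.1).1 m.pair.h1.l2g
  have ig := (memLp_two_iff_integrable_sq_norm n0.h.l2g.1).1 n0.h.l2g
  have i3 := (i2.const_mul s).add (ip.const_mul a)
  have k1 := integral_mono_ae (iv.add (i1.const_mul (s * a))) (i3.add (ig.const_mul (s ^ 2))) key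
  have r1 := integral_add iv (i1.const_mul (s * a))
  have r2 := integral_add i3 (ig.const_mul (s ^ 2))
  have r3 := integral_add (i2.const_mul s) (ip.const_mul a)
  simp only [Pi.add_apply] at k1 r2
  rw [r1, r2, r3, integral_const_mul, integral_const_mul, integral_const_mul, integral_const_mul,
    j1, j2] at k1
  obtain ⟨W2, g2, w1, w2, -, w4, w5⟩ := odd_comb m.pair.h2 hp.h2 m.pair.od hp.od ha.le h0.le
  have pr : Pair N R W2 v g2 := ⟨H, w1, by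
    filter_upwards [m.pair.ev, hp.ev] with x x1 x2
    rw [hR, hR, x1, x2, n0.ev], ae_of_all _ w2, by
    filter_upwards [w4, m.pair.sum, hp.sum] with x x1 x2 x3
    rw [R2, x1]
    linear_combination a * x2 + s * x3 + N x ^ 2 * ea⟩
  have k2 := m.min _ _ _ _ pr
  have q1 := (memLp_two_iff_integrable_sq m.pair.h1.l2.1).1 m.pair.h1.l2
  have q2 := (memLp_two_iff_integrable_sq hp.h1.l2.1).1 hp.h1.l2
  have q3 := (memLp_two_iff_integrable_sq n0.h.l2.1).1 n0.h.l2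
  have r4 := integral_add ((q1.const_mul a).add (q2.const_mul s)) (q3.const_mul (s ^ 2))
  have r5 := integral_add (q1.const_mul a) (q2.const_mul s)
  simp only [Pi.add_apply] at r4
  simp only [R2] at k2
  rw [r4, r5, integral_const_mul, integral_const_mul, integral_const_mul, m.m1, n0.mass] at k2
  refine le_of_mul_le_mul_left ?_ h0
  unfold JJ at k2 ⊢
  rw [ea] at k1 k2 w5 ⊢
  linarith

end

end Vale.Agent.P363
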