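import Vale.Agent.P363.ThKeyA

/-! P363, block Th: variance bound from the Pauli principle. -/

open MeasureTheory Set Metric Filter Topology
open scoped RealInnerProductSpace

namespace Vale.Agent.P363

noncomputable section

variable {Y : Type} [MeasurableSpace Y] {ν : Measure Y} [SFinite ν] {L κ : ℝ} {Φ N : E3 → ℝ}

theorem thkb_meas {U : E3 → ℝ} (hΦ : AEStronglyMeasurable Φ volume)
    (hU : AEStronglyMeasurable U volume) (mN : AEStronglyMeasurable N volume) (s : ℝ) :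
    AEStronglyMeasurable (fun x => Φ x / Rs Φ U N s x) volume := by
  have a := hΦ.aemeasurable
  have b := hU.aemeasurable
  have c := mN.aemeasurable
  unfold Rs
  exact AEMeasurable.aestronglyMeasurable (by fun_prop)

theorem thkb_bd (U : E3 → ℝ) {s : ℝ} (h0 : 0 < s) (h1 : s ≤ 1 / 2) (x : E3) :
    (Φ x / Rs Φ U N s x) ^ 2 ≤ 1 / (1 - s - s ^ 2) := by
  have hc : 0 < 1 - s - s ^ 2 := by nlinarith
  have h2 : 0 ≤ (1 - s - s ^ 2) * Φ x ^ 2 + s * U x ^ 2 + s ^ 2 * N x ^ 2 := by positivity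
  rw [div_pow, Rs, Real.sq_sqrt h2]
  rcases h2.eq_or_lt with h | h
  · rw [← h, div_zero]
    positivity
  · rw [div_le_div_iff₀ h hc]
    nlinarith [mul_nonneg h0.le (sq_nonneg (U x)), mul_nonneg (sq_nonneg s) (sq_nonneg (N x))]

theorem thkb_four {s : ℝ} (h0 : 0 < s) (h1 : s ≤ 1 / 2) : 1 / (1 - s - s ^ 2) ≤ 4 := by
  have hc : 0 < 1 - s - s ^ 2 := by nlinarith
  rw [div_le_iff₀ hc]
  nlinarith

theorem key_var (hκ : 0 ≤ κ) (hP : Poin L κ Φ) (hΦ : MemLp Φ 2 volume) (m1 : ∫ x, Φ x ^ 2 = 2)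
    (eΦ : ∀ᵐ x : E3, Φ (sg x) = Φ x) (eN : ∀ x, N (sg x) = N x)
    (mN : AEStronglyMeasurable N volume) {G : E3 × Y → ℝ} {GT : E3 × Y → E3}
    (hG : MemLp G 2 (volume.prod ν)) (eG : ∀ w : E3 × Y, G (sg w.1, w.2) = G w)
    (pauli : ∀ f : E3 → ℝ, MemLp f 2 volume → (∀ᵐ x : E3, f (sg x) = f x) →
      ∫ y, (∫ x, f x * G (x, y)) ^ 2 ∂ν ≤ 2 * ∫ x, f x ^ 2) {s : ℝ} (h0 : 0 < s) (h1 : s ≤ 1 / 2)
    (hT : LV (D L) ν (fun w => G w / Rs Φ (nrm ν G) N s w.1) GT)
    (hi : Integrable (fun w : E3 × Y => Φ w.1 ^ 2 * ‖GT w‖ ^ 2) (volume.prod ν)) :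
    κ * ((∫ x, Φ x ^ 2 * nrm ν G x ^ 2 / Rs Φ (nrm ν G) N s x ^ 2) - 2 / (1 - s - s ^ 2)) ≤
      ∫ w, Φ w.1 ^ 2 * ‖GT w‖ ^ 2 ∂(volume.prod ν) := by
  have iG : Integrable (fun w => G w ^ 2) (volume.prod ν) := hG.integrable_sq
  have mU : AEStronglyMeasurable (nrm ν G) volume :=
    Real.continuous_sqrt.comp_aestronglyMeasurable iG.integral_prod_left.aestronglyMeasurable
  set R := Rs Φ (nrm ν G) N s with hR
  set m : E3 → ℝ := fun x => Φ x / R x with hm
  have mm : AEStronglyMeasurable m volume := thkb_meas hΦ.1 mU mN s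
  have bm : ∀ x, m x ^ 2 ≤ 1 / (1 - s - s ^ 2) := thkb_bd _ h0 h1
  have bm2 : ∀ x, |m x| ≤ 2 := fun x =>
    abs_le_of_sq_le_sq' (by linarith [bm x, thkb_four h0 h1]) (by norm_num) |> abs_le.2
  have eR : ∀ᵐ x : E3, R (sg x) = R x := by
    filter_upwards [eΦ] with x hx
    have : nrm ν G (sg x) = nrm ν G x := by
      unfold nrm
      simp only [fun y => eG (x, y)]
    simp only [hR, Rs, hx, this, eN]
  have hK : MemLp (fun w : E3 × Y => m w.1 • G w) 2 (volume.prod ν) :=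
    CVec1Aux.mul_bd hG mm.comp_fst (Eventually.of_forall fun w => bm2 w.1)
  have hf : MemLp (fun x => m x • Φ x) 2 volume :=
    CVec1Aux.mul_bd hΦ mm (Eventually.of_forall bm2)
  simp only [smul_eq_mul] at hK hf
  have iK : Integrable (fun w : E3 × Y => (m w.1 * G w) ^ 2) (volume.prod ν) := hK.integrable_sq
  have iB : Integrable (fun y => (∫ x, m x * Φ x * G (x, y)) ^ 2) ν := by
    refine (iG.integral_prod_right.const_mul (∫ x, (m x * Φ x) ^ 2)).mono'
      ((hf.1.comp_fst.mul hG.1).prod_swap.integral_prod_right'.pow 2) ?_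
    filter_upwards [cvec1a_slice hG] with y hy
    have h2 := pow_le_pow_left₀ (abs_nonneg _) (cs_integral hf hy).2 2
    rw [mul_pow, Real.sq_sqrt (integral_nonneg fun _ => sq_nonneg _),
      Real.sq_sqrt (integral_nonneg fun _ => sq_nonneg _), sq_abs] at h2
    rw [Real.norm_eq_abs, abs_of_nonneg (sq_nonneg _)]
    exact h2
  have e1 : ∀ x y, Φ x ^ 2 * (G (x, y) / R x) ^ 2 = (m x * G (x, y)) ^ 2 := by
    intro x y
    simp only [hm]
    ring
  have e2 : ∀ x y, Φ x ^ 2 * (G (x, y) / R x) = m x * Φ x * G (x, y) := by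
    intro x y
    simp only [hm]
    ring
  have key : ∀ᵐ y ∂ν, κ * ((∫ x, (m x * G (x, y)) ^ 2) - (∫ x, m x * Φ x * G (x, y)) ^ 2 / 2) ≤
      ∫ x, Φ x ^ 2 * ‖GT (x, y)‖ ^ 2 := by
    filter_upwards [hT.slice (isOpen_D L), iK.prod_left_ae, hi.prod_left_ae] with y a b c
    have := hP (fun x => G (x, y) / R x) (fun x => GT (x, y)) ⟨a, ?_, ?_, c⟩
    · simpa only [e1, e2] using this
    · filter_upwards [eR] with x hx
      rw [hx, eG (x, y)]
    · simpa only [e1] using b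
  have h2 := integral_mono_ae ((iK.integral_prod_right.sub (iB.div_const 2)).const_mul κ)
    hi.integral_prod_right key
  simp only [Pi.sub_apply] at h2
  rw [integral_const_mul, integral_sub iK.integral_prod_right (iB.div_const 2), integral_div,
    ← integral_prod_symm _ iK, ← integral_prod_symm _ hi, integral_prod _ iK] at h2
  have h3 := pauli _ hf (by
    filter_upwards [eΦ, eR] with x a b
    simp only [hm, a, b])
  have h4 : ∫ x, (m x * Φ x) ^ 2 ≤ 1 / (1 - s - s ^ 2) * ∫ x, Φ x ^ 2 := by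
    rw [← integral_const_mul]
    refine integral_mono hf.integrable_sq (hΦ.integrable_sq.const_mul _) fun x => ?_
    simp only [mul_pow]
    exact mul_le_mul_of_nonneg_right (bm x) (sq_nonneg _)
  have h5 : ∫ x, Φ x ^ 2 * nrm ν G x ^ 2 / R x ^ 2 = ∫ x, ∫ y, (m x * G (x, y)) ^ 2 ∂ν := by
    refine integral_congr_ae (Eventually.of_forall fun x => ?_)
    simp only [mul_pow]
    rw [integral_const_mul, ← CVec3Aux.nrm_sq, hm]
    ring
  rw [h5]
  refine le_trans (mul_le_mul_of_nonneg_left ?_ hκ) h2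
  rw [m1] at h4
  have e3 : 2 / (1 - s - s ^ 2) = 1 / (1 - s - s ^ 2) * 2 := by ring
  linarith

theorem key_lim {U : E3 → ℝ} (hΦ : AEStronglyMeasurable Φ volume) (hU : MemLp U 2 volume)
    (mN : AEStronglyMeasurable N volume) (pos : ∀ᵐ x : E3, 0 < Φ x) :
    Tendsto (fun s => ∫ x, Φ x ^ 2 * U x ^ 2 / Rs Φ U N s x ^ 2) (𝓝[>] 0) (𝓝 (∫ x, U x ^ 2)) := by
  have e : ∀ s x, Φ x ^ 2 * U x ^ 2 / Rs Φ U N s x ^ 2 = (Φ x / Rs Φ U N s x) ^ 2 * U x ^ 2 := by
    intro s x
    ring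
  simp only [e]
  refine tendsto_integral_filter_of_dominated_convergence (fun x => 4 * U x ^ 2)
    (Eventually.of_forall fun s => ((thkb_meas hΦ hU.1 mN s).pow 2).mul (hU.1.pow 2)) ?_
    (hU.integrable_sq.const_mul 4) ?_
  · filter_upwards [Ioc_mem_nhdsGT (by norm_num : (0 : ℝ) < 1 / 2)] with s hs
    refine Eventually.of_forall fun x => ?_
    rw [Real.norm_eq_abs, abs_of_nonneg (by positivity)]
    exact mul_le_mul_of_nonneg_right ((thkb_bd U hs.1 hs.2 x).trans (thkb_four hs.1 hs.2))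
      (sq_nonneg _)
  · filter_upwards [pos] with x hx
    have c : Continuous fun s => Rs Φ U N s x := by
      unfold Rs
      fun_prop
    have v : Rs Φ U N 0 x = Φ x := by
      simp [Rs, Real.sqrt_sq hx.le]
    have t := (c.tendsto 0).mono_left (nhdsWithin_le_nhds (s := Ioi 0))
    rw [v] at t
    have := (((tendsto_const_nhds (x := Φ x)).div t hx.ne').pow 2).mul_const (U x ^ 2)
    rw [div_self hx.ne', one_pow, one_mul] at this
    exact this

end

end Vale.Agent.P363
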