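import Vale.Agent.P363.ThPair

/-! P363, block Th: existence of a minimizing pair. -/

open MeasureTheory Set Metric Filter Topology
open scoped RealInnerProductSpace

namespace Vale.Agent.P363

noncomputable section

variable {N : E3 → ℝ} {gN : E3 → E3}

theorem thmin_dom {F : ℕ → E3 → ℝ} {f : E3 → ℝ} (hN : MemLp N 2 volume)
    (hF : ∀ n, AEStronglyMeasurable (F n) volume) (hb : ∀ n, ∀ᵐ x : E3, F n x ^ 2 ≤ N x ^ 2)
    (hl : ∀ᵐ x : E3, Tendsto (fun n => F n x) atTop (𝓝 (f x))) :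
    MemLp f 2 volume ∧ Tendsto (fun n => ∫ x, (F n x - f x) ^ 2) atTop (𝓝 0) ∧
      Tendsto (fun n => ∫ x, F n x ^ 2) atTop (𝓝 (∫ x, f x ^ 2)) := by
  have hf : AEStronglyMeasurable f volume := aestronglyMeasurable_of_tendsto_ae atTop hF hl
  have hb' : ∀ᵐ x : E3, f x ^ 2 ≤ N x ^ 2 := by
    filter_upwards [hl, ae_all_iff.2 hb] with x h1 h2
    exact le_of_tendsto' (h1.pow 2) h2
  refine ⟨hN.of_le hf ?_, ?_, ?_⟩
  · filter_upwards [hb'] with x h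
    exact sq_le_sq.1 h
  · have := tendsto_integral_of_dominated_convergence (F := fun n x => (F n x - f x) ^ 2)
      (f := fun _ => (0 : ℝ)) (fun x => 4 * N x ^ 2) (fun n => ((hF n).sub hf).pow 2)
      (hN.integrable_sq.const_mul 4) (fun n => ?_) ?_
    · simpa using this
    · filter_upwards [hb n, hb'] with x h1 h2
      rw [Real.norm_eq_abs, abs_of_nonneg (sq_nonneg _)]
      nlinarith [sq_nonneg (F n x + f x)]
    · filter_upwards [hl] with x h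
      simpa using (h.sub_const (f x)).pow 2
  · refine tendsto_integral_of_dominated_convergence (fun x => N x ^ 2) (fun n => (hF n).pow 2)
      hN.integrable_sq (fun n => ?_) ?_
    · filter_upwards [hb n] with x h1
      rwa [Real.norm_eq_abs, abs_of_nonneg (sq_nonneg _)]
    · filter_upwards [hl] with x h
      exact h.pow 2

/-- Normalized competitors. -/
def thminG (N : E3 → ℝ) (m t : ℝ) (Φ Ω : E3 → ℝ) (p q : E3 → E3) : Prop :=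
  Pair N Φ Ω p q ∧ ∫ x, Φ x ^ 2 = m ∧ (∀ x, 0 ≤ Φ x) ∧ (∀ x, 0 < x 2 → 0 ≤ Ω x) ∧ JJ p q ≤ t

theorem thmin_mid {m t : ℝ} {Φ Ω Φ' Ω' : E3 → ℝ} {p q p' q' : E3 → E3} (h : Pair N Φ Ω p q)
    (h' : Pair N Φ' Ω' p' q') (e : ∫ x, Φ x ^ 2 = m) (e' : ∫ x, Φ' x ^ 2 = m) (j : JJ p q ≤ t)
    (j' : JJ p' q' ≤ t) : ∃ Φ2 Ω2 p2 q2, thminG N m t Φ2 Ω2 p2 q2 ∧
      ∀ x, Φ2 x ^ 2 = 1 / 2 * Φ x ^ 2 + 1 / 2 * Φ' x ^ 2 := by
  obtain ⟨Φ2, Ω2, p2, q2, h1, h2, h3, h4, h5⟩ := h.convex h' (s := 1 / 2) (by norm_num)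
    (by norm_num)
  refine ⟨Φ2, Ω2, p2, q2, ⟨h1, ?_, h2, h3, by linarith⟩, fun x => by rw [h4]; ring⟩
  simp only [h4]
  rw [integral_add (h.h1.l2.integrable_sq.const_mul _) (h'.h1.l2.integrable_sq.const_mul _),
    integral_const_mul, integral_const_mul, e, e']
  ring

theorem thmin_seq (hN : H1 N gN) (nn : ∀ x, 0 ≤ N x) {m j : ℝ}
    (h : ∀ t, j < t → ∃ Φ Ω p q, Pair N Φ Ω p q ∧ ∫ x, Φ x ^ 2 = m ∧ JJ p q ≤ t) :
    ∃ (Φ Ω : ℕ → E3 → ℝ) (p q : ℕ → E3 → E3) (r : E3 → ℝ),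
      (∀ n : ℕ, thminG N m (j + 1 / ((n : ℝ) + 1)) (Φ n) (Ω n) (p n) (q n)) ∧
      ∀ᵐ x : E3, Tendsto (fun n => Φ n x ^ 2 / N x) atTop (𝓝 (r x)) := by
  let K : ℕ → Set (Lp ℝ 2 (volume : Measure E3)) := fun n => {A | ∃ Φ Ω p q,
    thminG N m (j + 1 / ((n : ℝ) + 1)) Φ Ω p q ∧ ∀ᵐ x : E3, A x = Φ x ^ 2 / N x}
  have mono : ∀ {a b : ℕ}, a ≤ b → ∀ {Φ Ω p q}, thminG N m (j + 1 / ((b : ℝ) + 1)) Φ Ω p q →
      thminG N m (j + 1 / ((a : ℝ) + 1)) Φ Ω p q := fun hab _ _ _ _ h =>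
    ⟨h.1, h.2.1, h.2.2.1, h.2.2.2.1, h.2.2.2.2.trans (by gcongr)⟩
  obtain ⟨A, hA, hc⟩ := nested_cauchy (K := K) (M := ‖hN.l2.toLp N‖)
    (fun a b hab A ⟨Φ, Ω, p, q, h1, h2⟩ => ⟨Φ, Ω, p, q, mono hab h1, h2⟩) (fun n => by
      obtain ⟨Φ, Ω, p, q, h1, h2, h3⟩ := h (j + 1 / ((n : ℝ) + 1))
        (lt_add_of_pos_right _ Nat.one_div_pos_of_nat)
      obtain ⟨Φ, Ω, p, q, h4, -⟩ := thmin_mid h1 h1 h2 h2 h3 h3
      have h5 : ∀ᵐ x : E3, ‖Φ x ^ 2 / N x‖ ≤ ‖N x‖ := by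
        filter_upwards [h4.1.sum] with x hx
        rw [Real.norm_eq_abs, Real.norm_eq_abs, abs_of_nonneg (nn x),
          abs_of_nonneg (div_nonneg (sq_nonneg _) (nn x))]
        exact div_le_of_le_mul₀ (nn x) (nn x) (by nlinarith [sq_nonneg (Ω x)])
      have h6 : MemLp (fun x => Φ x ^ 2 / N x) 2 volume := hN.l2.of_le
        ((h4.1.h1.l2.1.aemeasurable.pow_const 2).div hN.l2.1.aemeasurable).aestronglyMeasurable h5
      refine ⟨h6.toLp _, ⟨Φ, Ω, p, q, h4, h6.coeFn_toLp⟩, Lp.norm_le_norm_of_ae_le ?_⟩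
      filter_upwards [h5, h6.coeFn_toLp, hN.l2.coeFn_toLp] with x h7 h8 h9
      rwa [h8, h9])
    (fun n A ⟨Φ, Ω, p, q, h1, h2⟩ A' ⟨Φ', Ω', p', q', h1', h2'⟩ => by
      obtain ⟨Φ2, Ω2, p2, q2, h4, h5⟩ := thmin_mid h1.1 h1'.1 h1.2.1 h1'.2.1 h1.2.2.2.2
        h1'.2.2.2.2
      refine ⟨Φ2, Ω2, p2, q2, h4, ?_⟩
      filter_upwards [h2, h2', Lp.coeFn_smul (1 / 2 : ℝ) (A + A'), Lp.coeFn_add A A'] with
        x h6 h7 h8 h9
      rw [h8, Pi.smul_apply, h9, Pi.add_apply, h6, h7, h5, smul_eq_mul]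
      ring)
  obtain ⟨r, hr⟩ := cauchySeq_tendsto_of_complete hc
  obtain ⟨s, hs, hl⟩ := (tendstoInMeasure_of_tendsto_Lp hr).exists_seq_tendsto_ae
  choose Φ Ω p q h1 h2 using hA
  refine ⟨fun n => Φ (s n), fun n => Ω (s n), fun n => p (s n), fun n => q (s n), r,
    fun n => mono (hs.id_le n) (h1 (s n)), ?_⟩
  filter_upwards [hl, ae_all_iff.2 h2] with x h3 h4
  simpa only [h4] using h3

theorem pair_exists_min (hN : H1 N gN) (nn : ∀ x, 0 ≤ N x) {m : ℝ}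
    (h : ∃ Φ Ω p q, Pair N Φ Ω p q ∧ ∫ x, Φ x ^ 2 = m) :
    ∃ Φ Ω p q, Pair N Φ Ω p q ∧ ∫ x, Φ x ^ 2 = m ∧ (∀ x, 0 ≤ Φ x) ∧ (∀ x, 0 < x 2 → 0 ≤ Ω x) ∧
      ∀ Φ' Ω' p' q', Pair N Φ' Ω' p' q' → ∫ x, Φ' x ^ 2 = m → JJ p q ≤ JJ p' q' := by
  let S : Set ℝ := {t | ∃ Φ Ω p q, Pair N Φ Ω p q ∧ ∫ x, Φ x ^ 2 = m ∧ JJ p q = t}
  have n0 : ∀ p : E3 → E3, 0 ≤ ∫ x, ‖p x‖ ^ 2 := fun p => integral_nonneg fun _ => sq_nonneg _
  have hS : S.Nonempty := by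
    obtain ⟨Φ, Ω, p, q, h1, h2⟩ := h
    exact ⟨_, Φ, Ω, p, q, h1, h2, rfl⟩
  have hB : BddBelow S := ⟨0, fun t ⟨_, _, p, q, _, _, h⟩ => h ▸ add_nonneg (n0 p) (n0 q)⟩
  obtain ⟨Φ, Ω, p, q, r, h1, h2⟩ := thmin_seq hN nn (m := m) (j := sInf S) fun t ht => by
    obtain ⟨_, ⟨Φ, Ω, p, q, h1, h2, rfl⟩, h3⟩ := exists_lt_of_csInf_lt hS ht
    exact ⟨Φ, Ω, p, q, h1, h2, h3.le⟩
  obtain ⟨F, p1, c1⟩ : ∃ F : E3 → ℝ, (∀ x, 0 ≤ F x) ∧
      ∀ᵐ x : E3, Tendsto (fun n => Φ n x) atTop (𝓝 (F x)) := by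
    refine ⟨fun x => √(r x * N x), fun x => Real.sqrt_nonneg _, ?_⟩
    filter_upwards [h2, ae_all_iff.2 fun n => (h1 n).1.sum] with x h3 h4
    refine (h3.mul_const (N x)).sqrt.congr fun n => ?_
    rw [Real.sqrt_eq_iff_mul_self_eq (mul_nonneg (div_nonneg (sq_nonneg _) (nn x)) (nn x))
      ((h1 n).2.2.1 x)]
    rcases (nn x).eq_or_lt with h5 | h5
    · have := h4 n
      rw [← h5] at this ⊢
      nlinarith [sq_nonneg (Ω n x), sq_nonneg (Φ n x)]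
    · field_simp
  obtain ⟨W, p2, c2⟩ : ∃ W : E3 → ℝ, (∀ x, 0 < x 2 → 0 ≤ W x) ∧
      ∀ᵐ x : E3, Tendsto (fun n => Ω n x) atTop (𝓝 (W x)) := by
    refine ⟨fun x => if 0 < x 2 then √(N x ^ 2 - F x ^ 2) else -√(N x ^ 2 - F x ^ 2),
      fun x hx => (Real.sqrt_nonneg _).trans_eq (if_pos hx).symm, ?_⟩
    filter_upwards [c1, ae_all_iff.2 fun n => (h1 n).1.sum, ae_all_iff.2 fun n => (h1 n).1.od,
      ae_plane] with x h3 h4 h5 h6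
    have h7 := ((h3.pow 2).const_sub (N x ^ 2)).sqrt
    have h8 : ∀ n, √(N x ^ 2 - Φ n x ^ 2) = |Ω n x| := fun n => by
      rw [← h4 n, add_sub_cancel_left, Real.sqrt_sq_eq_abs]
    split_ifs with hx
    · exact h7.congr fun n => by rw [h8, abs_of_nonneg ((h1 n).2.2.2.1 x hx)]
    · refine h7.neg.congr fun n => ?_
      have h9 := (h1 n).2.2.2.1 (sg x) (by
        rw [sg_2]; exact neg_pos.2 (lt_of_le_of_ne (not_lt.1 hx) h6))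
      rw [h5] at h9
      rw [h8, abs_of_nonpos (by linarith), neg_neg]
  obtain ⟨l1, d1, d2⟩ := thmin_dom hN.l2 (fun n => (h1 n).1.h1.l2.1) (fun n => by
    filter_upwards [(h1 n).1.sum] with x hx
    nlinarith [sq_nonneg (Ω n x)]) c1
  obtain ⟨l2, d3, -⟩ := thmin_dom hN.l2 (fun n => (h1 n).1.h2.l2.1) (fun n => by
    filter_upwards [(h1 n).1.sum] with x hx
    nlinarith [sq_nonneg (Φ n x)]) c2
  have bd : ∀ n : ℕ, JJ (p n) (q n) ≤ sInf S + 1 := fun n =>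
    (h1 n).2.2.2.2.trans (add_le_add_right ((div_le_one (Nat.cast_add_one_pos n)).2
      (le_add_of_nonneg_left n.cast_nonneg)) _)
  obtain ⟨⟨a, b⟩, -, s, hs, hl⟩ :=
    ((isCompact_Icc (a := 0) (b := sInf S + 1)).prod
      (isCompact_Icc (a := 0) (b := sInf S + 1))).tendsto_subseq
      (x := fun n => (∫ x, ‖p n x‖ ^ 2, ∫ x, ‖q n x‖ ^ 2)) fun n =>
      ⟨⟨n0 _, (le_add_of_nonneg_right (n0 (q n))).trans (bd n)⟩,
        n0 _, (le_add_of_nonneg_left (n0 (p n))).trans (bd n)⟩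
  obtain ⟨g1, k1, k2⟩ := H1.lsc (fun n => (h1 (s n)).1.h1) l1 (d1.comp hs.tendsto_atTop) hl.fst_nhds
  obtain ⟨g2, k3, k4⟩ := H1.lsc (fun n => (h1 (s n)).1.h2) l2 (d3.comp hs.tendsto_atTop) hl.snd_nhds
  have k5 : a + b ≤ sInf S + 0 :=
    le_of_tendsto_of_tendsto' (hl.fst_nhds.add hl.snd_nhds)
      ((tendsto_one_div_add_atTop_nhds_zero_nat.comp hs.tendsto_atTop).const_add _)
      fun n => (h1 (s n)).2.2.2.2
  refine ⟨F, W, g1, g2, ⟨k1, k3, ?_, ?_, ?_⟩, ?_, p1, p2, fun Φ' Ω' p' q' h3 h4 => ?_⟩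
  · filter_upwards [c1, ae_sg c1, ae_all_iff.2 fun n => (h1 n).1.ev] with x h3 h4 h5
    exact tendsto_nhds_unique h4 (h3.congr fun n => (h5 n).symm)
  · filter_upwards [c2, ae_sg c2, ae_all_iff.2 fun n => (h1 n).1.od] with x h3 h4 h5
    exact tendsto_nhds_unique h4 (h3.neg.congr fun n => (h5 n).symm)
  · filter_upwards [c1, c2, ae_all_iff.2 fun n => (h1 n).1.sum] with x h3 h4 h5
    exact tendsto_nhds_unique ((h3.pow 2).add (h4.pow 2))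
      (tendsto_const_nhds.congr fun n => (h5 n).symm)
  · exact tendsto_nhds_unique d2 (tendsto_const_nhds.congr fun n => (h1 n).2.1.symm)
  · have := csInf_le hB (show JJ p' q' ∈ S from ⟨_, _, _, _, h3, h4, rfl⟩)
    rw [JJ]
    linarith

end

end Vale.Agent.P363
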