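import Vale.Agent.P363.ThMin

/-! P363, block Th: the multiplier. -/

open MeasureTheory Set Metric Filter Topology
open scoped RealInnerProductSpace

namespace Vale.Agent.P363

noncomputable section

/-- A supporting line of a convex region in the plane. -/
theorem thmul_line (A : ℝ → ℝ → Prop) (J0 : ℝ)
    (conv : ∀ m J m' J' s, A m J → A m' J' → 0 ≤ s → s ≤ 1 →
      ∃ J2, A ((1 - s) * m + s * m') J2 ∧ J2 ≤ (1 - s) * J + s * J')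
    (hmin : ∀ J, A 2 J → J0 ≤ J) (lo : ∃ m J, A m J ∧ m < 2) (hi : ∃ m J, A m J ∧ 2 < m) :
    ∃ l : ℝ, ∀ m J, A m J → J0 + l * (m - 2) ≤ J := by
  have key : ∀ m J m' J', A m J → A m' J' → m < 2 → 2 < m' →
      (J0 - J) / (2 - m) ≤ (J' - J0) / (m' - 2) := by
    intro m J m' J' h h' h1 h2
    have hd : 0 < m' - m := by linarith
    obtain ⟨J2, h3, h4⟩ := conv m J m' J' ((2 - m) / (m' - m)) h h'
      (div_nonneg (by linarith) hd.le) ((div_le_one hd).2 (by linarith))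
    have e : (1 - (2 - m) / (m' - m)) * m + (2 - m) / (m' - m) * m' = 2 := by
      field_simp
      ring
    rw [e] at h3
    have h5 := mul_le_mul_of_nonneg_left ((hmin J2 h3).trans h4) hd.le
    have e2 : (m' - m) * ((1 - (2 - m) / (m' - m)) * J + (2 - m) / (m' - m) * J') =
        (m' - 2) * J + (2 - m) * J' := by
      field_simp
      ring
    rw [e2] at h5
    rw [div_le_div_iff₀ (by linarith) (by linarith)]
    linarith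
  obtain ⟨S, hS⟩ : ∃ S : Set ℝ, S = {x | ∃ m J, A m J ∧ m < 2 ∧ x = (J0 - J) / (2 - m)} :=
    ⟨_, rfl⟩
  have hub : ∀ m' J', A m' J' → 2 < m' → (J' - J0) / (m' - 2) ∈ upperBounds S := by
    intro m' J' h' h2 x hx
    rw [hS] at hx
    obtain ⟨m, J, h, h1, rfl⟩ := hx
    exact key m J m' J' h h' h1 h2
  have hne : S.Nonempty := by
    obtain ⟨m, J, h, h1⟩ := lo
    rw [hS]
    exact ⟨_, m, J, h, h1, rfl⟩
  have hbd : BddAbove S := by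
    obtain ⟨m, J, h, h1⟩ := hi
    exact ⟨_, hub m J h h1⟩
  refine ⟨sSup S, fun m J h => ?_⟩
  rcases lt_trichotomy m 2 with h1 | h1 | h1
  · have h2 : (J0 - J) / (2 - m) ≤ sSup S := le_csSup hbd (hS ▸ ⟨m, J, h, h1, rfl⟩)
    rw [div_le_iff₀ (by linarith)] at h2
    linarith
  · subst h1
    simpa using hmin J h
  · have h2 := csSup_le hne (hub m J h h1)
    rw [le_div_iff₀ (by linarith)] at h2
    linarith

theorem thmul_q1 {f : E3 → ℝ} {g : E3 → E3} (h : H1 f g) (L : ℝ) :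
    Integrable (fun x => V L x * f x ^ 2) ∧
      -(1 / 4) * (∫ x, ‖g x‖ ^ 2) - 16 * ∫ x, f x ^ 2 ≤ ∫ x, V L x * f x ^ 2 := by
  obtain ⟨i1, i2, -⟩ := q1_int h h L
  have h1 := q1_lower h L
  rw [q1, integral_add (i1.const_mul _) i2, integral_const_mul] at h1
  simp only [real_inner_self_eq_norm_sq, mul_assoc, ← sq] at h1 i2
  exact ⟨i2, by linarith⟩

theorem thmul_nonneg (p q : E3 → E3) : 0 ≤ JJ p q :=
  add_nonneg (integral_nonneg fun _ => sq_nonneg _) (integral_nonneg fun _ => sq_nonneg _)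

theorem th_min : ∃ K : ℝ, 1 ≤ K ∧ ∀ (L a e0 : ℝ) (N : E3 → ℝ) (gN : E3 → E3), 0 < a → a ≤ 1 / 2 →
    e0 ≤ 0 → H1 N gN → (∀ x, 0 ≤ N x) → (∀ x, N (sg x) = N x) → ∫ x, N x ^ 2 = 3 →
    (∃ Φ Ω p q, Pair N Φ Ω p q ∧ |(∫ x, Φ x ^ 2) - 2| ≤ a ∧
      (1 / 2) * (∫ x, ‖p x‖ ^ 2) + (1 / 2) * (∫ x, ‖q x‖ ^ 2) + ∫ x, V L x * N x ^ 2 ≤ e0 + a) →
    ∃ (δ0 : ℝ) (m : MP δ0 N), (1 / 2) * JJ m.gΦ m.gΩ + ∫ x, V L x * N x ^ 2 ≤ e0 + K * a := by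
  refine ⟨1000000, by norm_num, ?_⟩
  rintro L a e0 N gN ha ha' he hN nn ev mass ⟨Φ, Ω, p, q, hp, hm, hE⟩
  obtain ⟨A, hA⟩ : ∃ A : ℝ → ℝ → Prop, ∀ m J, A m J ↔
      ∃ Φ Ω p q, Pair N Φ Ω p q ∧ ∫ x, Φ x ^ 2 = m ∧ JJ p q = J := ⟨_, fun _ _ => Iff.rfl⟩
  have conv : ∀ m J m' J' s, A m J → A m' J' → 0 ≤ s → s ≤ 1 →
      ∃ J2, A ((1 - s) * m + s * m') J2 ∧ J2 ≤ (1 - s) * J + s * J' := by
    intro m J m' J' s h h' h0 h1
    obtain ⟨Φ1, Ω1, p1, q1, k1, rfl, rfl⟩ := (hA _ _).1 h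
    obtain ⟨Φ2, Ω2, p2, q2, k2, rfl, rfl⟩ := (hA _ _).1 h'
    obtain ⟨Φ3, Ω3, p3, q3, k3, -, -, k4, k5⟩ := k1.convex k2 h0 h1
    refine ⟨_, (hA _ _).2 ⟨Φ3, Ω3, p3, q3, k3, ?_, rfl⟩, k5⟩
    simp only [k4]
    rw [integral_add (k1.h1.l2.integrable_sq.const_mul _) (k2.h1.l2.integrable_sq.const_mul _),
      integral_const_mul, integral_const_mul]
  have hJ : JJ p q ≤ 200 := by
    obtain ⟨i1, l1⟩ := thmul_q1 hp.h1 L
    obtain ⟨i2, l2⟩ := thmul_q1 hp.h2 L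
    have e1 : ∫ x, V L x * N x ^ 2 = (∫ x, V L x * Φ x ^ 2) + ∫ x, V L x * Ω x ^ 2 := by
      rw [← integral_add i1 i2]
      exact integral_congr_ae (by filter_upwards [hp.sum] with x hx; rw [← hx, mul_add])
    have e2 := hp.mass
    unfold JJ
    linarith
  have hT : ∫ x, ‖gN x‖ ^ 2 ≤ 200 := (hp.kin hN nn).2.trans hJ
  have hfull : A 3 (∫ x, ‖gN x‖ ^ 2) :=
    (hA _ _).2 ⟨_, _, _, _, pair_full hN ev, mass, by simp [JJ]⟩
  obtain ⟨Φt, Ωt, pt, qt, ht, mt, Jt⟩ := pair_thin hN ev mass hT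
  have hthin : A (∫ x, Φt x ^ 2) (JJ pt qt) := (hA _ _).2 ⟨_, _, _, _, ht, rfl, rfl⟩
  have hcomp : A (∫ x, Φ x ^ 2) (JJ p q) := (hA _ _).2 ⟨_, _, _, _, hp, rfl, rfl⟩
  have h0 := thmul_nonneg p q
  obtain ⟨m1, m2⟩ := abs_le.1 hm
  have two : ∃ J, A 2 J ∧ J ≤ JJ p q + a * 1500000 := by
    have gen : ∀ m' J' : ℝ, A m' J' → J' ≤ 1500000 → 1 ≤ |m' - ∫ x, Φ x ^ 2| →
        0 ≤ (2 - ∫ x, Φ x ^ 2) / (m' - ∫ x, Φ x ^ 2) → ∃ J, A 2 J ∧ J ≤ JJ p q + a * 1500000 := by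
      intro m' J' h' hJ' h1 hs
      have hd : m' - ∫ x, Φ x ^ 2 ≠ 0 := abs_pos.1 (by linarith)
      have hs' : (2 - ∫ x, Φ x ^ 2) / (m' - ∫ x, Φ x ^ 2) ≤ a := by
        refine (le_abs_self _).trans ?_
        rw [abs_div, abs_sub_comm]
        exact (div_le_self (abs_nonneg _) h1).trans hm
      obtain ⟨J2, h3, h4⟩ := conv _ _ _ _ _ hcomp h' hs (by linarith)
      have e : (1 - (2 - ∫ x, Φ x ^ 2) / (m' - ∫ x, Φ x ^ 2)) * (∫ x, Φ x ^ 2) +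
          (2 - ∫ x, Φ x ^ 2) / (m' - ∫ x, Φ x ^ 2) * m' = 2 := by
        field_simp
        ring
      rw [e] at h3
      refine ⟨J2, h3, h4.trans ?_⟩
      nlinarith [mul_nonneg hs h0, mul_le_mul_of_nonneg_left hJ' hs]
    rcases le_total (∫ x, Φ x ^ 2) 2 with h | h
    · exact gen _ _ hfull (by linarith) (le_abs.2 (Or.inl (by linarith)))
        (div_nonneg (by linarith) (by linarith))
    · exact gen _ _ hthin (by linarith) (le_abs.2 (Or.inr (by linarith)))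
        (div_nonneg_of_nonpos (by linarith) (by linarith))
  obtain ⟨J2, h2, h3⟩ := two
  obtain ⟨Φ2, Ω2, p2, q2, k2, k3, rfl⟩ := (hA _ _).1 h2
  obtain ⟨Φ0, Ω0, p0, q0, k0, k1, n1, n2, kmin⟩ := pair_exists_min hN nn ⟨_, _, _, _, k2, k3⟩
  obtain ⟨l, hl⟩ := thmul_line A (JJ p0 q0) conv
    (fun J h => by
      obtain ⟨Φ3, Ω3, p3, q3, k4, k5, rfl⟩ := (hA _ _).1 h
      exact kmin _ _ _ _ k4 k5)
    ⟨_, _, hthin, by linarith⟩ ⟨_, _, hfull, by norm_num⟩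
  refine ⟨-l / 2, ⟨Φ0, Ω0, p0, q0, k0, k1, n1, n2, fun Φ3 Ω3 p3 q3 k4 => ?_⟩, ?_⟩
  · have := hl _ _ ((hA _ _).2 ⟨_, _, _, _, k4, rfl, rfl⟩)
    linarith
  · have := kmin _ _ _ _ k2 k3
    change (1 / 2) * JJ p0 q0 + _ ≤ _
    have e : JJ p q = (∫ x, ‖p x‖ ^ 2) + ∫ x, ‖q x‖ ^ 2 := rfl
    linarith

end

end Vale.Agent.P363
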