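import Vale.Agent.P363.ThD

/-! P363, block Th: the local inequality behind the nonexistence of a potential. -/

open MeasureTheory Set Metric Filter Topology
open scoped RealInnerProductSpace

namespace Vale.Agent.P363

noncomputable section

namespace NovA

theorem zf {U : Set E3} {Γ Γ' : ℝ → ℝ} (hU : IsOpen U) (hd : ∀ z, HasDerivAt Γ (Γ' z) z)
    (hc : Continuous Γ') : L1 U (fun x => Γ (x 2)) (fun x => Γ' (x 2) • e 2) ∧
      LocB U (fun x => Γ (x 2)) := by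
  have c0 : Continuous Γ := continuous_iff_continuousAt.2 fun z => (hd z).continuousAt
  have b1 : LocB U fun x => Γ (x 2) := LocB.of_cont (c0.comp (csg_cont_coord 2)).continuousOn
  have b2 : LocB U fun x => Γ' (x 2) := LocB.of_cont (hc.comp (csg_cont_coord 2)).continuousOn
  refine ⟨L1.of_le hU ((LD.coord U 2).comp hU hd hc) (ctst_loc2_zero U) (ctst_loc2_zero U)
    fun K hK hKU => ?_, b1⟩
  obtain ⟨M, h⟩ := b1 K hK hKU
  obtain ⟨M', h'⟩ := b2 K hK hKU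
  refine ⟨max M M', ?_⟩
  filter_upwards [h, h'] with x h h' hx
  rw [norm_smul, norm_e, abs_zero, add_zero, mul_one, mul_one]
  exact ⟨le_max_of_le_left (h hx), le_max_of_le_right (h' hx)⟩

theorem pt1 (G q : E3) (ζ Φ h h1 : ℝ) :
    ⟪G, ζ • (h • (h • (ζ • G + Φ • q) + (ζ * Φ) • h1 • e 2) + (h * (ζ * Φ)) • h1 • e 2)
      + (h * (h * (ζ * Φ))) • q⟫ =
      h ^ 2 * ‖ζ • G + Φ • q‖ ^ 2 - h ^ 2 * Φ ^ 2 * ‖q‖ ^ 2 + 2 * h * h1 * ζ ^ 2 * Φ * G 2 := by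
  simp only [← real_inner_self_eq_norm_sq, inner_add_left, inner_add_right, real_inner_smul_left,
    real_inner_smul_right, inner_e, real_inner_comm G q]
  ring

theorem pt2 (v : E3) (h c d : ℝ) :
    ‖h • v + c • d • e 2‖ ^ 2 ≤ 2 * (h ^ 2 * ‖v‖ ^ 2 + c ^ 2 * d ^ 2) := by
  have h1 := norm_add_le (h • v) (c • d • e 2)
  rw [norm_smul, norm_smul, norm_smul, norm_e, mul_one, Real.norm_eq_abs, Real.norm_eq_abs,
    Real.norm_eq_abs] at h1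
  refine (pow_le_pow_left₀ (norm_nonneg _) h1 2).trans ?_
  rw [← sq_abs h, ← sq_abs c, ← sq_abs d]
  nlinarith [sq_nonneg (|h| * ‖v‖ - |c| * |d|)]

theorem pt3 (G q : E3) (ζ X a b : ℝ) :
    ⟪G, a • (ζ • (ζ • G + X • q) + (ζ * X) • q) + (ζ * (ζ * X)) • b • e 2⟫ =
      a * (‖ζ • G + X • q‖ ^ 2 - X ^ 2 * ‖q‖ ^ 2) + b * ζ ^ 2 * X * G 2 := by
  simp only [← real_inner_self_eq_norm_sq, inner_add_left, inner_add_right, real_inner_smul_left,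
    real_inner_smul_right, inner_e, real_inner_comm G q]
  ring

theorem pt4 {h h1 h2 M1 ζ n r : ℝ} (hM1 : 1 ≤ M1) (a0 : 0 ≤ h) (a1 : h ≤ 1) (b1 : |h1| ≤ M1)
    (b2 : |h2| ≤ M1) (hr : |r| ≤ n) :
    0 ≤ 4 * M1 ^ 2 * (ζ ^ 2 + n ^ 2) + (1 / 2) * (h * h1 * (2 * ζ * r)
      + ζ ^ 2 * (h1 * h1 + h * h2)) := by
  have c0 : M1 ≤ M1 ^ 2 := by nlinarith
  have c1 : |h * h1| ≤ M1 ^ 2 := by
    rw [abs_mul, abs_of_nonneg a0]; nlinarith [abs_nonneg h1]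
  have c2 : |h * h2| ≤ M1 ^ 2 := by
    rw [abs_mul, abs_of_nonneg a0]; nlinarith [abs_nonneg h2]
  have c3 : |2 * ζ * r| ≤ ζ ^ 2 + n ^ 2 := by
    rw [abs_mul, abs_mul, abs_two, ← sq_abs ζ]
    nlinarith [abs_nonneg ζ, abs_nonneg r, sq_nonneg (|ζ| - n)]
  have c4 : |h * h1 * (2 * ζ * r)| ≤ M1 ^ 2 * (ζ ^ 2 + n ^ 2) := by
    rw [abs_mul]; exact mul_le_mul c1 c3 (abs_nonneg _) (by positivity)
  have c5 := mul_le_mul_of_nonneg_left (abs_le.1 c2).1 (sq_nonneg ζ)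
  nlinarith [(abs_le.1 c4).1, mul_nonneg (sq_nonneg ζ) (mul_self_nonneg h1),
    mul_nonneg (sq_nonneg M1) (sq_nonneg ζ), mul_nonneg (sq_nonneg M1) (sq_nonneg n)]

/-- The even part. -/
theorem even {x0 : E3} {S M M1 a' B : ℝ} {Φ w1 w2 ζ : E3 → ℝ} {gΦ q : E3 → E3}
    {h h1 h2 : ℝ → ℝ} (hM1 : 1 ≤ M1) (ha : 0 ≤ a') (ha' : a' ≤ 1 / 4)
    (hh : ∀ z, HasDerivAt h (h1 z) z ∧ HasDerivAt h1 (h2 z) z)
    (hb : ∀ z, h (-z) = h z ∧ 0 ≤ h z ∧ h z ≤ 1 ∧ |h1 z| ≤ M1)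
    (hζ : Tst (ball x0 S) ζ q) (bq : ∀ x, ‖q x‖ ≤ B)
    (eζ : ∀ x, ζ (sg x) = ζ x ∧ ‖q (sg x)‖ = ‖q x‖)
    (hΦ : H1 Φ gΦ) (eΦ : ∀ᵐ x : E3, Φ (sg x) = Φ x)
    (v1 : MemLp w1 (3 / 2) volume) (v2 : AEStronglyMeasurable w2 volume ∧ ∀ᵐ x : E3, |w2 x| ≤ M)
    (sm : ∀ f g, H1 f g → (∀ᵐ x : E3, x ∉ ball x0 S → f x = 0) →
      ∫ x, |w1 x| * f x ^ 2 ≤ a' * ∫ x, ‖g x‖ ^ 2)
    (eq : ∀ f gf, H1 f gf → ∫ x, ((1 / 2) * ⟪gΦ x, gf x⟫ + (w1 x + w2 x) * Φ x * f x) = 0)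
    {J : E3 → ℝ} (hJ : ∀ x, J x = h (x 2) * h1 (x 2) * ζ x ^ 2 * Φ x * gΦ x 2
      - (1 / 2) * (h (x 2) ^ 2 * Φ x ^ 2 * ‖q x‖ ^ 2) - 2 * a' * (ζ x ^ 2 * Φ x ^ 2 * h1 (x 2) ^ 2)
      - M * (h (x 2) ^ 2 * ζ x ^ 2 * Φ x ^ 2)) :
    Integrable (Hp.indicator J) ∧ ∫ x, Hp.indicator J x ≤ 0 := by
  have c1 : Continuous h1 := continuous_iff_continuousAt.2 fun z => (hh z).2.continuousAt
  have lh : LD univ (fun x : E3 => h (x 2)) fun x => h1 (x 2) • e 2 :=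
    (LD.coord univ 2).comp isOpen_univ (fun z => (hh z).1) c1
  have bh0 : ∀ z, |h z| ≤ M1 := fun z => by
    rw [abs_of_nonneg (hb z).2.1]; linarith [(hb z).2.2.1]
  have bh : ∀ᵐ x : E3, |h (x 2)| ≤ M1 ∧ ‖h1 (x 2) • e 2‖ ≤ M1 := ae_of_all _ fun x =>
    ⟨bh0 _, by rw [norm_smul, norm_e, mul_one]; exact (hb _).2.2.2⟩
  obtain ⟨Z, bζ⟩ := hζ.bd
  have bz : ∀ᵐ x : E3, |ζ x| ≤ max Z B ∧ ‖q x‖ ≤ max Z B :=
    bζ.mono fun x hx => ⟨le_max_of_le_left hx, le_max_of_le_right (bq x)⟩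
  have hu := hΦ.mul_lip hζ.ld bz
  have hy := hu.mul_lip lh bh
  have hf := (hy.mul_lip lh bh).mul_lip hζ.ld bz
  have mζ := ctst_mf hζ.ld
  have m1 : AEStronglyMeasurable (fun x : E3 => h1 (x 2)) volume :=
    (c1.comp (csg_cont_coord 2)).aestronglyMeasurable
  have b1 : ∀ᵐ x : E3, |h1 (x 2)| ≤ M1 := ae_of_all _ fun x => (hb _).2.2.2
  have iJ : Integrable J := by
    have t1 := cabs_mul hy.l2 (ctst_smul mζ bζ (ctst_smul m1 b1 (hΦ.l2g.inner_const (𝕜 := ℝ) (e 2))))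
    have t2 := (ctst_smul (ctst_mf lh) (bh.mono fun x hx => hx.1) (ctst_smul (ctst_mg hζ.ld).norm
      (M := B) (ae_of_all _ fun x => by rw [abs_norm]; exact bq x) hΦ.l2)).integrable_sq
    have t3 := (ctst_smul m1 b1 hu.l2).integrable_sq
    refine (((t1.sub (t2.const_mul (1 / 2))).sub (t3.const_mul (2 * a'))).sub
      (hy.l2.integrable_sq.const_mul M)).congr (ae_of_all _ fun x => ?_)
    simp only [Pi.sub_apply, smul_eq_mul, hJ, inner_e]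
    ring
  have i1 := (ctst_inner hΦ.l2g hf.l2g).const_mul (1 / 2)
  have i2 := sobolev_int v1 hΦ hf
  have i3 := cabs_mul (ctst_smul v2.1 v2.2 hΦ.l2) hf.l2
  have iE : Integrable fun x => (1 / 2) * ⟪gΦ x, _⟫ + (w1 x + w2 x) * Φ x *
      (ζ x * (h (x 2) * (h (x 2) * (ζ x * Φ x)))) :=
    (i1.add (i2.add i3)).congr (ae_of_all _ fun x => by
      simp only [Pi.add_apply, smul_eq_mul]
      rw [add_mul (w1 x), add_mul (w1 x * _)])
  have i4 : Integrable fun x => |w1 x| * (h (x 2) * (ζ x * Φ x)) ^ 2 :=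
    (sobolev_int v1.abs hy hy).congr (ae_of_all _ fun x => by
      simp only [Pi.abs_apply]; ring)
  have i5 := hy.l2g.norm.integrable_sq.const_mul a'
  obtain ⟨K, -, hK, h0⟩ := hζ.cpt
  have s1 := sm _ _ hy (ae_of_all _ fun x hx => by rw [(h0 x fun h => hx (hK h)).1]; simp)
  have s2 := integral_mono_ae iJ (iE.add (i4.sub i5)) (v2.2.mono fun x hx => by
    simp only [Pi.add_apply, Pi.sub_apply]
    rw [pt1, hJ]
    have a1 := mul_le_mul_of_nonneg_left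
      (pt2 (ζ x • gΦ x + Φ x • q x) (h (x 2)) (ζ x * Φ x) (h1 (x 2))) ha
    have a2 := mul_nonneg (show 0 ≤ 1 / 2 - 2 * a' by linarith)
      (mul_nonneg (sq_nonneg (h (x 2))) (sq_nonneg ‖ζ x • gΦ x + Φ x • q x‖))
    have a3 := mul_le_mul_of_nonneg_right (neg_abs_le (w1 x)) (sq_nonneg (h (x 2) * (ζ x * Φ x)))
    have a4 := mul_le_mul_of_nonneg_right (abs_le.1 hx).1 (sq_nonneg (h (x 2) * (ζ x * Φ x)))
    linarith)
  simp only [Pi.add_apply, Pi.sub_apply] at s2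
  rw [integral_add iE (by exact i4.sub i5), integral_sub i4 i5, integral_const_mul,
    eq _ _ hf] at s2
  have od : ∀ z, h1 (-z) = -h1 z := fun z => by
    have a1 := (hh (-z)).1.comp z (hasDerivAt_neg z)
    rw [show h ∘ Neg.neg = h from funext fun z => (hb z).1] at a1
    linarith [a1.unique (hh z).1]
  have ev : ∀ᵐ x : E3, J (sg x) = J x := by
    filter_upwards [eΦ, hΦ.ld.sym_grad (s := 1) isOpen_univ (fun _ _ => mem_univ _)
      (eΦ.mono fun x hx _ => by rw [hx, one_mul])] with x e1 e2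
    have e3 := congrArg (fun v : E3 => v 2) (e2 (mem_univ _))
    simp only [sg_2, one_smul] at e3
    rw [hJ, hJ, sg_2, od, (hb _).1, e1, (eζ x).1, (eζ x).2, ← e3]
    ring
  refine ⟨iJ.indicator isOpen_Hp.measurableSet, ?_⟩
  rw [integral_indicator isOpen_Hp.measurableSet]
  linarith [integral_even iJ ev]

end NovA

open NovA in
theorem nov_ineq {x0 : E3} {S s M M1 a' : ℝ} {Φ X R w1 w2 ζ : E3 → ℝ} {gΦ gX q : E3 → E3}
    {h h1 h2 : ℝ → ℝ} (hs : 0 < s) (hM : 0 ≤ M) (hM1 : 1 ≤ M1) (ha : 0 ≤ a') (ha' : a' ≤ 1 / 4)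
    (hh : ∀ z, HasDerivAt h (h1 z) z ∧ HasDerivAt h1 (h2 z) z) (hc : Continuous h2)
    (hb : ∀ z, h (-z) = h z ∧ 0 ≤ h z ∧ h z ≤ 1 ∧ |h1 z| ≤ M1 ∧ |h2 z| ≤ M1 ∧
      (|z| ≤ s → h z = 1 ∧ h1 z = 0 ∧ h2 z = 0) ∧ (2 * s ≤ |z| → h z = 0 ∧ h1 z = 0 ∧ h2 z = 0))
    (hζ : Tst (ball x0 S) ζ q) (bq : ∃ B, ∀ x, ‖q x‖ ≤ B)
    (eζ : ∀ x, ζ (sg x) = ζ x ∧ ‖q (sg x)‖ = ‖q x‖)
    (hΦ : H1 Φ gΦ) (eΦ : ∀ᵐ x : E3, Φ (sg x) = Φ x)
    (hX : Sub (ball x0 S ∩ Hp) X gX R) (bX : ∃ B, ∀ᵐ x : E3, x ∈ ball x0 S ∩ Hp →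
      0 ≤ Φ x ∧ Φ x ≤ X x ∧ X x ≤ B)
    (v1 : MemLp w1 (3 / 2) volume) (v2 : AEStronglyMeasurable w2 volume ∧ ∀ᵐ x : E3, |w2 x| ≤ M)
    (sm : ∀ f g, H1 f g → (∀ᵐ x : E3, x ∉ ball x0 S → f x = 0) →
      ∫ x, |w1 x| * f x ^ 2 ≤ a' * ∫ x, ‖g x‖ ^ 2)
    (eq : ∀ f gf, H1 f gf → ∫ x, ((1 / 2) * ⟪gΦ x, gf x⟫ + (w1 x + w2 x) * Φ x * f x) = 0) :
    IntegrableOn (fun x => (1 - h (x 2) ^ 2) * ζ x ^ 2 * X x * R x) Hp ∧
    ∫ x in Hp, (1 - h (x 2) ^ 2) * ζ x ^ 2 * X x * R x ≤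
      (1 / 2) * (∫ x in Hp, ‖q x‖ ^ 2 * X x ^ 2) +
      (M + 2 * a' * M1 ^ 2) * (∫ x in Hp ∩ {x | x 2 ≤ 2 * s}, ζ x ^ 2 * X x ^ 2) +
      4 * M1 ^ 2 * ∫ x in {x : E3 | s ≤ x 2 ∧ x 2 ≤ 2 * s},
        (X x ^ 2 - Φ x ^ 2) * (ζ x ^ 2 + ‖q x‖ ^ 2) := by
  obtain ⟨Bq, bq⟩ := bq
  obtain ⟨B, bX⟩ := bX
  obtain ⟨iJ, nJ⟩ := even hM1 ha ha' hh
    (fun z => ⟨(hb z).1, (hb z).2.1, (hb z).2.2.1, (hb z).2.2.2.1⟩) hζ bq eζ hΦ eΦ v1 v2 sm eq
    (fun _ => rfl)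
  obtain ⟨K0, cK0, sK0, h0⟩ := hζ.cpt
  obtain ⟨Z, bζ⟩ := hζ.bd
  have hU : IsOpen (ball x0 S ∩ Hp) := isOpen_ball.inter isOpen_Hp
  have mH := isOpen_Hp.measurableSet
  have c0 : Continuous h := continuous_iff_continuousAt.2 fun z => (hh z).1.continuousAt
  have c1 : Continuous h1 := continuous_iff_continuousAt.2 fun z => (hh z).2.continuousAt
  have cK : IsCompact (K0 ∩ {x | s ≤ x 2}) :=
    cK0.inter_right (isClosed_le continuous_const (csg_cont_coord 2))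
  have sK : K0 ∩ {x | s ≤ x 2} ⊆ ball x0 S ∩ Hp := fun x hx => ⟨sK0 hx.1, hs.trans_le hx.2⟩
  have low : ∀ x : E3, 0 < x 2 → ¬s ≤ x 2 → h (x 2) = 1 ∧ h1 (x 2) = 0 ∧ h2 (x 2) = 0 :=
    fun x h3 h4 => (hb _).2.2.2.2.2.1 (by rw [abs_of_pos h3]; exact (not_le.1 h4).le)
  have lζ := hζ.h1.1.l1 (ball x0 S ∩ Hp)
  have lΦ := hΦ.l1 (ball x0 S ∩ Hp)
  have pζ : LocB (ball x0 S ∩ Hp) ζ := fun _ _ _ => ⟨Z, bζ.mono fun _ h _ => h⟩
  have pX : LocB (ball x0 S ∩ Hp) X := fun _ _ hQ => ⟨B, bX.mono fun x h hx => by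
    obtain ⟨a, b, c⟩ := h (hQ hx); rwa [abs_of_nonneg (a.trans b)]⟩
  have pΦ : LocB (ball x0 S ∩ Hp) Φ := fun _ _ hQ => ⟨B, bX.mono fun x h hx => by
    obtain ⟨a, b, c⟩ := h (hQ hx); rw [abs_of_nonneg a]; exact b.trans c⟩
  -- the test function
  obtain ⟨l1, p1⟩ := zf (Γ := fun z => 1 - h z ^ 2) (Γ' := fun z => -(2 * h z * h1 z)) hU
    (fun z => by simpa using ((hh z).1.fun_pow 2).const_sub 1) (by fun_prop)
  have pv := wmp_locB_mul pζ pX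
  have pw := wmp_locB_mul pζ pv
  have tψ := Tst.mk' hU cK sK (l1.mul hU (lζ.mul hU (lζ.mul hU hX.l1 pζ pX) pζ pv) p1 pw)
    (wmp_locB_mul p1 pw) (ae_of_all _ fun x hx hK => by
      by_cases h3 : x ∈ K0
      · rw [(low x hx.2 fun h4 => hK ⟨h3, h4⟩).1]; simp
      · rw [(h0 x h3).1]; simp)
  have n2 := hX.ineq _ _ tψ (bX.mono fun x hx => indicator_apply_nonneg fun hK => by
    obtain ⟨a, b, -⟩ := hx (sK hK)
    rw [← mul_assoc (ζ x)]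
    exact mul_nonneg (by nlinarith [(hb (x 2)).2.1, (hb (x 2)).2.2.1])
      (mul_nonneg (mul_self_nonneg _) (a.trans b)))
  have i2 := csub_int tψ hX.li hX.l1.l2g
  -- the cross term
  obtain ⟨l3, p3⟩ := zf (Γ := fun z => h z * h1 z) (Γ' := fun z => h1 z * h1 z + h z * h2 z) hU
    (fun z => (hh z).1.fun_mul (hh z).2) (by fun_prop)
  have pD : LocB (ball x0 S ∩ Hp) fun x => X x * X x - Φ x * Φ x := fun _ _ hQ =>
    ⟨B * B, bX.mono fun x h hx => by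
      obtain ⟨a, b, c⟩ := h (hQ hx)
      rw [abs_of_nonneg (by nlinarith)]; nlinarith⟩
  have pz := wmp_locB_mul pζ pζ
  have pG := wmp_locB_mul pz pD
  have tG := Tst.mk' hU cK sK (l3.mul hU ((lζ.mul hU lζ pζ pζ).mul hU
    ((hX.l1.mul hU hX.l1 pX pX).sub (lΦ.mul hU lΦ pΦ pΦ)) pz pD) p3 pG)
    (wmp_locB_mul p3 pG) (ae_of_all _ fun x hx hK => by
      by_cases h3 : x ∈ K0
      · rw [(low x hx.2 fun h4 => hK ⟨h3, h4⟩).2.1]; simp
      · rw [(h0 x h3).1]; simp)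
  have i3 := tG.h1.2.2.eval_piLp 2
  have n3 := tG.ld.integral_zero 2 tG.h1.2.1 i3
  -- integrability
  have iT : Integrable (Hp.indicator fun x => (1 - h (x 2) ^ 2) * ζ x ^ 2 * X x * R x) := by
    refine (tψ.int hX.li hX.l1.l2g).1.congr (ae_of_all _ fun x => ?_)
    simp only [indicator]
    split_ifs with d1 d2 d3
    · ring
    · exact absurd (sK d1).2 d2
    · by_cases h3 : x ∈ K0
      · rw [(low x d3 fun h4 => d1 ⟨h3, h4⟩).1]; simp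
      · rw [(h0 x h3).1]; simp
    · simp
  have mX := hX.l1.ld.mf
  have mΦ := lΦ.ld.mf
  have mζ := lζ.ld.mf
  have mq := lζ.ld.mg.norm
  have ib : ∀ (F : E3 → ℝ) (A : Set E3) (C : ℝ), MeasurableSet A → A ⊆ Hp →
      AEStronglyMeasurable F (volume.restrict (ball x0 S ∩ Hp)) → (∀ x, x ∉ K0 → F x = 0) →
      (∀ᵐ x : E3, x ∈ ball x0 S ∩ Hp → ‖F x‖ ≤ C) → Integrable (A.indicator F) :=
    fun F A C mA hA mF hF bF => (integrable_indicator_iff mA).2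
      ((IntegrableOn.of_bound ((measure_mono inter_subset_left).trans_lt measure_ball_lt_top) mF C
        ((ae_restrict_iff' hU.measurableSet).2 bF)).of_forall_sdiff_eq_zero mA
        fun x hx => hF x fun h3 => hx.2 ⟨sK0 h3, hA hx.1⟩)
  have bb : ∀ᵐ x : E3, x ∈ ball x0 S ∩ Hp → ‖q x‖ ^ 2 ≤ Bq ^ 2 ∧ ζ x ^ 2 ≤ Z ^ 2 ∧
      Φ x ^ 2 ≤ X x ^ 2 ∧ X x ^ 2 ≤ B ^ 2 := by
    filter_upwards [bX, bζ] with x h3 h4 hx
    obtain ⟨a, b, c⟩ := h3 hx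
    exact ⟨pow_le_pow_left₀ (norm_nonneg _) (bq x) 2,
      by rw [← sq_abs]; exact pow_le_pow_left₀ (abs_nonneg _) h4 2,
      pow_le_pow_left₀ a b 2, pow_le_pow_left₀ (a.trans b) c 2⟩
  have mA : MeasurableSet (Hp ∩ {x : E3 | x 2 ≤ 2 * s}) :=
    mH.inter (isClosed_le (csg_cont_coord 2) continuous_const).measurableSet
  have mS : MeasurableSet {x : E3 | s ≤ x 2 ∧ x 2 ≤ 2 * s} :=
    ((isClosed_le continuous_const (csg_cont_coord 2)).inter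
      (isClosed_le (csg_cont_coord 2) continuous_const)).measurableSet
  have j1 := (ib (fun x => ‖q x‖ ^ 2 * X x ^ 2) Hp (Bq ^ 2 * B ^ 2) mH subset_rfl
    ((mq.pow 2).mul (mX.pow 2)) (fun x hx => by simp [(h0 x hx).2]) (bb.mono fun x h hx => by
      rw [Real.norm_of_nonneg (by positivity)]
      exact mul_le_mul (h hx).1 (h hx).2.2.2 (sq_nonneg _) (sq_nonneg _))).const_mul (1 / 2)
  have j2 := (ib (fun x => ζ x ^ 2 * X x ^ 2) _ (Z ^ 2 * B ^ 2) mA inter_subset_left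
    ((mζ.pow 2).mul (mX.pow 2)) (fun x hx => by simp [(h0 x hx).1]) (bb.mono fun x h hx => by
      rw [Real.norm_of_nonneg (by positivity)]
      exact mul_le_mul (h hx).2.1 (h hx).2.2.2 (sq_nonneg _) (sq_nonneg _))).const_mul
        (M + 2 * a' * M1 ^ 2)
  have j3 := (ib (fun x => (X x ^ 2 - Φ x ^ 2) * (ζ x ^ 2 + ‖q x‖ ^ 2)) _
    (B ^ 2 * (Z ^ 2 + Bq ^ 2)) mS (fun x hx => hs.trans_le hx.1)
    (((mX.pow 2).sub (mΦ.pow 2)).mul ((mζ.pow 2).add (mq.pow 2)))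
    (fun x hx => by simp [h0 x hx]) (bb.mono fun x h hx => by
      obtain ⟨a, b, c, d⟩ := h hx
      rw [Real.norm_of_nonneg (mul_nonneg (sub_nonneg.2 c) (by positivity))]
      exact mul_le_mul (by linarith [sq_nonneg (Φ x)]) (add_le_add b a) (by positivity)
        (sq_nonneg _))).const_mul (4 * M1 ^ 2)
  refine ⟨(integrable_indicator_iff mH).1 iT, ?_⟩
  have key := integral_mono_ae (iT.sub ((j1.add j2).add j3)) ((iJ.add i2).add (i3.const_mul (1 / 2)))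
    (bb.mono fun x hx => by
      simp only [Pi.add_apply, Pi.sub_apply]
      obtain ⟨-, a0, a1, b1, b2, -, up⟩ := hb (x 2)
      by_cases hK : x ∈ K0 ∩ {x | s ≤ x 2}
      · obtain ⟨-, -, c, -⟩ := hx (sK hK)
        have hH := (sK hK).2
        simp only [indicator_of_mem hK, indicator_of_mem hH, pt3, PiLp.add_apply, PiLp.sub_apply,
          PiLp.smul_apply, smul_eq_mul, e_apply, if_true]
        have t0 := mul_nonneg (show 0 ≤ 1 - h (x 2) ^ 2 by nlinarith)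
          (sq_nonneg ‖ζ x • gX x + X x • q x‖)
        by_cases h3 : x 2 ≤ 2 * s
        · rw [indicator_of_mem (show x ∈ Hp ∩ {x : E3 | x 2 ≤ 2 * s} from ⟨hH, h3⟩),
            indicator_of_mem (show x ∈ {x : E3 | s ≤ x 2 ∧ x 2 ≤ 2 * s} from ⟨hK.2, h3⟩)]
          have t1 := mul_nonneg (mul_nonneg (sq_nonneg (h (x 2))) (sq_nonneg ‖q x‖)) (sub_nonneg.2 c)
          have t2 := mul_le_mul_of_nonneg_left (mul_le_mul (show h (x 2) ^ 2 ≤ 1 by nlinarith) c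
            (sq_nonneg _) zero_le_one) (mul_nonneg hM (sq_nonneg (ζ x)))
          have t3 := mul_le_mul_of_nonneg_left (mul_le_mul (show h1 (x 2) ^ 2 ≤ M1 ^ 2 by
            rw [← sq_abs]; exact pow_le_pow_left₀ (abs_nonneg _) b1 2) c
            (sq_nonneg _) (sq_nonneg _)) (mul_nonneg ha (sq_nonneg (ζ x)))
          have t4 := mul_nonneg (pt4 (ζ := ζ x) hM1 a0 a1 b1 b2 (abs_coord_le (q x) 2))
            (sub_nonneg.2 c)
          linarith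
        · rw [indicator_of_notMem (fun h => h3 h.2), indicator_of_notMem (fun h => h3 h.2)]
          obtain ⟨u0, u1, u2⟩ := up ((not_le.1 h3).le.trans (le_abs_self _))
          rw [u0] at t0
          rw [u0, u1, u2]
          linarith
      · simp only [indicator_of_notMem hK, inner_zero_right, PiLp.zero_apply]
        by_cases hH : x ∈ Hp
        · simp only [indicator_of_mem hH]
          by_cases h3 : x ∈ K0
          · have h4 : ¬s ≤ x 2 := fun h4 => hK ⟨h3, h4⟩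
            obtain ⟨u0, u1, -⟩ := low x hH h4
            obtain ⟨-, -, c, -⟩ := hx ⟨sK0 h3, hH⟩
            rw [indicator_of_mem (show x ∈ Hp ∩ {x : E3 | x 2 ≤ 2 * s} from
              ⟨hH, show x 2 ≤ 2 * s by linarith [not_le.1 h4]⟩),
              indicator_of_notMem (fun h => h4 h.1), u0, u1]
            have t1 := mul_nonneg (sq_nonneg ‖q x‖) (sub_nonneg.2 c)
            have t2 := mul_nonneg (mul_nonneg hM (sq_nonneg (ζ x))) (sub_nonneg.2 c)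
            have t3 : 0 ≤ a' * M1 ^ 2 * (ζ x ^ 2 * X x ^ 2) := by positivity
            linarith
          · simp [indicator, h0 x h3]
        · rw [indicator_of_notMem hH, indicator_of_notMem hH, indicator_of_notMem hH,
            indicator_of_notMem (fun h => hH h.1), indicator_of_notMem (fun h => hH (hs.trans_le h.1))]
          simp)
  simp only [Pi.add_apply, Pi.sub_apply] at key
  rw [integral_sub iT (by exact (j1.add j2).add j3), integral_add (by exact j1.add j2) j3,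
    integral_add j1 j2, integral_add (by exact iJ.add i2) (i3.const_mul _), integral_add iJ i2,
    integral_const_mul, integral_const_mul, integral_const_mul, integral_const_mul, n3,
    integral_indicator mH, integral_indicator mH, integral_indicator mA,
    integral_indicator mS] at key
  linarith

end

end Vale.Agent.P363
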