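import Vale.Agent.P363.ThNovA

/-! P363, block Th: the local contradiction. -/

open MeasureTheory Set Metric Filter Topology
open scoped RealInnerProductSpace

namespace Vale.Agent.P363

noncomputable section

theorem nb_h {s : ℝ} (hs : 0 < s) : ∃ (h h1 h2 : ℝ → ℝ) (M1 : ℝ), 1 ≤ M1 ∧
    (∀ z, HasDerivAt h (h1 z) z ∧ HasDerivAt h1 (h2 z) z) ∧ Continuous h2 ∧
    ∀ z, h (-z) = h z ∧ 0 ≤ h z ∧ h z ≤ 1 ∧ |h1 z| ≤ M1 ∧ |h2 z| ≤ M1 ∧
      (|z| ≤ s → h z = 1 ∧ h1 z = 0 ∧ h2 z = 0) ∧ (2 * s ≤ |z| → h z = 0 ∧ h1 z = 0 ∧ h2 z = 0) := by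
  obtain ⟨f, f1, f2, M, hM, hd, hc, hb, h1, h2⟩ := exists_step
  have hu : ∀ z : ℝ, HasDerivAt (fun z : ℝ => z ^ 2 / s ^ 2) (2 * z / s ^ 2) z := by
    intro z
    simpa using (hasDerivAt_pow 2 z).div_const (s ^ 2)
  have hc1 : Continuous f1 := continuous_iff_continuousAt.2 fun z => (hd z).2.continuousAt
  have hM0 : 0 < M := by linarith
  refine ⟨fun z => f (z ^ 2 / s ^ 2), fun z => f1 (z ^ 2 / s ^ 2) * (2 * z / s ^ 2),
    fun z => f2 (z ^ 2 / s ^ 2) * (2 * z / s ^ 2) * (2 * z / s ^ 2) + f1 (z ^ 2 / s ^ 2) * (2 / s ^ 2),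
    1 + 4 * M / s + 18 * M / s ^ 2, by
      have : 0 ≤ 4 * M / s := by positivity
      have : 0 ≤ 18 * M / s ^ 2 := by positivity
      linarith, fun z => ⟨(hd _).1.comp z (hu z), ?_⟩, by fun_prop, fun z => ?_⟩
  · have h3 : HasDerivAt (fun z : ℝ => 2 * z / s ^ 2) (2 / s ^ 2) z := by
      simpa using ((hasDerivAt_id z).const_mul 2).div_const (s ^ 2)
    exact ((hd _).2.comp z (hu z)).mul h3
  · have big : 2 * s ≤ |z| → 2 ≤ z ^ 2 / s ^ 2 := by
      intro h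
      rw [le_div_iff₀ (by positivity), ← sq_abs z]
      nlinarith
    have small : |z| ≤ s → z ^ 2 / s ^ 2 ≤ 1 := by
      intro h
      rw [div_le_one (by positivity), ← sq_abs z]
      nlinarith [abs_nonneg z]
    have p1 : 0 ≤ 4 * M / s := by positivity
    have p2 : 0 ≤ 18 * M / s ^ 2 := by positivity
    refine ⟨by simp, (hb _).1, (hb _).2.1, ?_, ?_, fun h => ?_, fun h => ?_⟩
    · rcases le_total (2 * s) |z| with h | h
      · simp only [(h2 _ (big h)).2.1, zero_mul, abs_zero]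
        linarith
      · have e1 : |2 * z / s ^ 2| ≤ 4 / s := by
          rw [abs_div, abs_mul, abs_two, abs_of_pos (by positivity : 0 < s ^ 2),
            div_le_div_iff₀ (by positivity) hs]
          nlinarith
        rw [abs_mul]
        have := mul_le_mul (hb (z ^ 2 / s ^ 2)).2.2.2.1 e1 (abs_nonneg _) hM0.le
        have e2 : M * (4 / s) = 4 * M / s := by ring
        linarith
    · rcases le_total (2 * s) |z| with h | h
      · simp only [(h2 _ (big h)).2.1, (h2 _ (big h)).2.2, zero_mul, add_zero, abs_zero]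
        linarith
      · have e1 : |2 * z / s ^ 2| ≤ 4 / s := by
          rw [abs_div, abs_mul, abs_two, abs_of_pos (by positivity : 0 < s ^ 2),
            div_le_div_iff₀ (by positivity) hs]
          nlinarith
        have a1 : |f2 (z ^ 2 / s ^ 2) * (2 * z / s ^ 2) * (2 * z / s ^ 2)| ≤ M * (4 / s) * (4 / s) := by
          rw [abs_mul, abs_mul]
          exact mul_le_mul (mul_le_mul (hb _).2.2.2.2 e1 (abs_nonneg _) hM0.le) e1 (abs_nonneg _)
            (by positivity)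
        have a2 : |f1 (z ^ 2 / s ^ 2) * (2 / s ^ 2)| ≤ M * (2 / s ^ 2) := by
          rw [abs_mul, abs_of_pos (by positivity : 0 < 2 / s ^ 2)]
          exact mul_le_mul_of_nonneg_right (hb _).2.2.2.1 (by positivity)
        have e2 : M * (4 / s) * (4 / s) + M * (2 / s ^ 2) = 18 * M / s ^ 2 := by
          field_simp
          ring
        have := abs_add_le (f2 (z ^ 2 / s ^ 2) * (2 * z / s ^ 2) * (2 * z / s ^ 2))
          (f1 (z ^ 2 / s ^ 2) * (2 / s ^ 2))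
        linarith
    · have := h1 _ (small h)
      simp [this.1, this.2.1, this.2.2]
    · have := h2 _ (big h)
      simp [this.1, this.2.1, this.2.2]

theorem nb_zeta : ∃ Mh : ℝ, 1 ≤ Mh ∧ ∀ (x0 : E3) (S κ : ℝ), x0 2 = 0 → 0 < S →
    ∃ ζ q, Tst (ball x0 (3 * S)) ζ q ∧ Continuous ζ ∧ Continuous q ∧ (∃ B, ∀ x, ‖q x‖ ≤ B) ∧
      (∀ x, ζ (sg x) = ζ x ∧ ‖q (sg x)‖ = ‖q x‖) ∧ ∀ x, 0 ≤ ζ x ∧
        ζ x ≤ Real.exp (κ * (x 0 - x0 0)) ∧ (‖x - x0‖ ≤ S → ζ x = Real.exp (κ * (x 0 - x0 0))) ∧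
        (2 * S ≤ ‖x - x0‖ → ζ x = 0 ∧ q x = 0) ∧ ∀ γ : ℝ, 0 < γ → ‖q x‖ ^ 2 ≤
          (1 + γ) * κ ^ 2 * ζ x ^ 2 +
            (1 + 1 / γ) * (4 * Mh / S) ^ 2 * Real.exp (κ * (x 0 - x0 0)) ^ 2 := by
  obtain ⟨f, f1, f2, M, hM, hd, hc, hb, h1, h2⟩ := exists_step
  refine ⟨M, hM, fun x0 S κ hx0 hS => ?_⟩
  have hM0 : 0 < M := by linarith
  have hc0 : Continuous f := continuous_iff_continuousAt.2 fun z => (hd z).1.continuousAt
  have hc1 : Continuous f1 := continuous_iff_continuousAt.2 fun z => (hd z).2.continuousAt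
  set E : E3 → ℝ := fun x => Real.exp (κ * (x 0 - x0 0)) with hE
  set u : E3 → ℝ := fun x => (S ^ 2)⁻¹ * ‖x - x0‖ ^ 2 with hu
  have cE : C2 univ E (fun x => E x • (κ • (e 0 - 0))) _ :=
    (((C2.coord isOpen_univ 0).sub (C2.const isOpen_univ (x0 0))).cmul κ).exp
  have cu := ((C2.normsq isOpen_univ x0).cmul (S ^ 2)⁻¹).comp isOpen_univ (fun s _ => hd s)
    hc.continuousOn (fun _ _ => mem_univ _)
  have cz := cE.mul cu
  set q : E3 → E3 := fun x => E x • (f1 (u x) • (S ^ 2)⁻¹ • (2 : ℝ) • (x - x0)) +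
    f (u x) • E x • κ • (e 0 - 0) with hq
  have big : ∀ x, 2 * S ≤ ‖x - x0‖ → 2 ≤ u x := by
    intro x h
    simp only [hu]
    rw [inv_mul_eq_div, le_div_iff₀ (by positivity)]
    nlinarith
  have small : ∀ x, ‖x - x0‖ ≤ S → u x ≤ 1 := by
    intro x h
    simp only [hu]
    rw [inv_mul_eq_div, div_le_one (by positivity)]
    nlinarith [norm_nonneg (x - x0)]
  have off : ∀ x, 2 * S ≤ ‖x - x0‖ → E x * f (u x) = 0 ∧ q x = 0 := by
    intro x h
    have := h2 _ (big x h)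
    simp [hq, this.1, this.2.1]
  have contz : Continuous fun x => E x * f (u x) := by
    have := cz.cont.1
    rwa [continuousOn_univ] at this
  have contq : Continuous q := by
    have := cz.cont.2.1
    rwa [continuousOn_univ] at this
  have hK : ∀ x, x ∉ closedBall x0 (2 * S) → 2 * S ≤ ‖x - x0‖ := by
    intro x hx
    rw [mem_closedBall, dist_eq_norm, not_le] at hx
    exact hx.le
  have cs1 : HasCompactSupport fun x => E x * f (u x) :=
    HasCompactSupport.intro (isCompact_closedBall x0 (2 * S)) fun x hx => (off x (hK x hx)).1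
  have cs2 : HasCompactSupport q :=
    HasCompactSupport.intro (isCompact_closedBall x0 (2 * S)) fun x hx => (off x (hK x hx)).2
  have sgx : ∀ x, sg x - x0 = sg (x - x0) := by
    intro x
    have : sg x0 = x0 := by simp [sg, hx0]
    rw [sg_sub, this]
  have Esg : ∀ x, E (sg x) = E x := fun x => by simp only [hE, sg_0]
  have usg : ∀ x, u (sg x) = u x := fun x => by simp only [hu, sgx, norm_sg]
  obtain ⟨B1, hB1⟩ := contz.bounded_above_of_compact_support cs1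
  obtain ⟨B2, hB2⟩ := contq.bounded_above_of_compact_support cs2
  refine ⟨fun x => E x * f (u x), q, ⟨cz.ld, contq.memLp_of_hasCompactSupport cs2,
    ⟨B1, Eventually.of_forall fun x => hB1 x⟩, closedBall x0 (2 * S), isCompact_closedBall _ _,
    closedBall_subset_ball (by linarith), fun x hx => off x (hK x hx)⟩, contz, contq, ⟨B2, hB2⟩,
    fun x => ⟨by simp only [Esg, usg], ?_⟩, fun x => ⟨mul_nonneg (Real.exp_pos _).le (hb _).1,
      mul_le_of_le_one_right (Real.exp_pos _).le (hb _).2.1, fun h => ?_, off x, fun γ hγ => ?_⟩⟩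
  · have e0 : sg (e 0) = e 0 := by simp [sg, e_apply]
    have : q (sg x) = sg (q x) := by
      simp only [hq, Esg, usg, sgx, sub_zero, sg_add, sg_smul, e0]
    rw [this, norm_sg]
  · simp only [(h1 _ (small x h)).1, mul_one, hE]
  · have hEp : 0 < E x := Real.exp_pos _
    have n1 : ‖E x • (f1 (u x) • (S ^ 2)⁻¹ • (2 : ℝ) • (x - x0))‖ ≤ 4 * M / S * E x := by
      rcases le_total (2 * S) ‖x - x0‖ with h | h
      · simp only [(h2 _ (big x h)).2.1, zero_smul, smul_zero, norm_zero]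
        positivity
      · simp only [norm_smul, Real.norm_eq_abs, abs_of_pos hEp, abs_two,
          abs_of_pos (by positivity : 0 < (S ^ 2)⁻¹)]
        have a1 : (S ^ 2)⁻¹ * (2 * ‖x - x0‖) ≤ 4 / S := by
          rw [inv_mul_eq_div, div_le_div_iff₀ (by positivity) hS]
          nlinarith
        have a2 := mul_le_mul (hb (u x)).2.2.2.1 a1 (by positivity) hM0.le
        have a3 : M * (4 / S) = 4 * M / S := by ring
        rw [mul_comm (4 * M / S)]
        exact mul_le_mul_of_nonneg_left (by linarith) hEp.le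
    have n2 : ‖f (u x) • E x • κ • (e 0 - 0)‖ = |κ| * (E x * f (u x)) := by
      simp only [norm_smul, Real.norm_eq_abs, abs_of_pos hEp, abs_of_nonneg (hb (u x)).1,
        sub_zero, norm_e]
      ring
    have n3 : ‖q x‖ ≤ 4 * M / S * E x + |κ| * (E x * f (u x)) := by
      rw [← n2]
      exact (norm_add_le _ _).trans (add_le_add n1 le_rfl)
    have n4 := pow_le_pow_left₀ (norm_nonneg _) n3 2
    refine n4.trans ?_
    change _ ≤ (1 + γ) * κ ^ 2 * (E x * f (u x)) ^ 2 + (1 + 1 / γ) * (4 * M / S) ^ 2 * E x ^ 2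
    rw [← sq_abs κ]
    set a := 4 * M / S * E x
    set b := |κ| * (E x * f (u x))
    have k1 : (1 + γ) * |κ| ^ 2 * (E x * f (u x)) ^ 2 = (1 + γ) * b ^ 2 := by simp only [b]; ring
    have k2 : (1 + 1 / γ) * (4 * M / S) ^ 2 * E x ^ 2 = (1 + 1 / γ) * a ^ 2 := by
      simp only [a]; ring
    rw [k1, k2]
    have k3 : (1 + γ) * b ^ 2 + (1 + 1 / γ) * a ^ 2 - (a + b) ^ 2 = (γ * b - a) ^ 2 / γ := by
      field_simp
      ring
    have k4 : 0 ≤ (γ * b - a) ^ 2 / γ := by positivity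
    linarith

theorem nb_int {X φ : E3 → ℝ} {x0 : E3} {S K : ℝ}
    (mX : AEStronglyMeasurable X (volume.restrict (ball x0 S ∩ Hp))) (cφ : Continuous φ)
    (h0 : ∀ x, x ∉ ball x0 S → φ x = 0)
    (hb : ∀ᵐ x : E3, x ∈ ball x0 S ∩ Hp → |φ x * X x ^ 2| ≤ K) :
    IntegrableOn (fun x => φ x * X x ^ 2) Hp := by
  have hm : MeasurableSet (ball x0 S ∩ Hp) := (isOpen_ball.inter isOpen_Hp).measurableSet
  have h1 : IntegrableOn (fun x => φ x * X x ^ 2) (ball x0 S ∩ Hp) := by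
    have : IsFiniteMeasure (volume.restrict (ball x0 S ∩ Hp)) :=
      isFiniteMeasure_restrict.2 ((measure_mono inter_subset_left).trans_lt measure_ball_lt_top).ne
    exact Integrable.of_bound (cφ.aestronglyMeasurable.mul (mX.pow 2)) K
      ((ae_restrict_iff' hm).2 hb)
  refine h1.of_forall_sdiff_eq_zero isOpen_Hp.measurableSet fun x hx => ?_
  rw [h0 x fun h => hx.2 ⟨h, hx.1⟩, zero_mul]

theorem nb_box {f : E3 → ℝ} {A : Set E3} (hA : MeasurableSet A) {a b : Fin 3 → ℝ}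
    (h : ∀ k, a k < b k) {K : ℝ} (hK : 0 ≤ K)
    (h1 : ∀ᵐ x : E3, x ∈ A → f x ≤ K ∧ (x ∉ Box a b → f x ≤ 0)) :
    ∫ x in A, f x ≤ K * ∏ k, (b k - a k) := by
  have hv := volume_Box h
  have hp : 0 ≤ ∏ k, (b k - a k) := hv.2 ▸ measureReal_nonneg
  by_cases hf : IntegrableOn f A
  · have hi : Integrable ((Box a b).indicator fun _ => K) volume :=
      (integrable_indicator_iff (isOpen_Box a b).measurableSet).2 (integrableOn_const hv.1)
    calc ∫ x in A, f x ≤ ∫ x in A, (Box a b).indicator (fun _ => K) x := by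
          refine integral_mono_ae hf hi.integrableOn ((ae_restrict_iff' hA).2 ?_)
          filter_upwards [h1] with x hx hxA
          by_cases hb : x ∈ Box a b
          · rw [indicator_of_mem hb]; exact (hx hxA).1
          · rw [indicator_of_notMem hb]; exact (hx hxA).2 hb
      _ ≤ ∫ x, (Box a b).indicator (fun _ => K) x :=
          setIntegral_le_integral hi (Eventually.of_forall fun x =>
            indicator_nonneg (fun _ _ => hK) x)
      _ = K * ∏ k, (b k - a k) := by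
          rw [integral_indicator (isOpen_Box a b).measurableSet, setIntegral_const, hv.2,
            smul_eq_mul, mul_comm]
  · rw [integral_undef hf]
    positivity

/-- The slab box around `x0`. -/
theorem nb_box2 {f : E3 → ℝ} {A : Set E3} (hA : MeasurableSet A) {x0 : E3} {S t K : ℝ}
    (hS : 0 < S) (ht : 0 < t) (hK : 0 ≤ K)
    (h1 : ∀ᵐ x : E3, x ∈ A → 0 < x 2 ∧ f x ≤ K ∧ (2 * S ≤ ‖x - x0‖ ∨ t ≤ x 2 → f x ≤ 0)) :
    ∫ x in A, f x ≤ K * (36 * S ^ 2 * t) := by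
  have := nb_box (f := f) hA (a := ![x0 0 - 3 * S, x0 1 - 3 * S, 0])
    (b := ![x0 0 + 3 * S, x0 1 + 3 * S, t]) (fun k => by fin_cases k <;> simp <;> linarith) hK (by
      filter_upwards [h1] with x hx hxA
      refine ⟨(hx hxA).2.1, fun hb => (hx hxA).2.2 ?_⟩
      by_contra hc
      push Not at hc
      apply hb
      have a0 := abs_le.1 (abs_coord_le (x - x0) 0)
      have a1 := abs_le.1 (abs_coord_le (x - x0) 1)
      simp only [PiLp.sub_apply] at a0 a1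
      intro k
      fin_cases k <;> simp <;> constructor <;> linarith [(hx hxA).1])
  refine this.trans (le_of_eq ?_)
  congr 1
  simp only [Fin.prod_univ_three, Matrix.cons_val_zero, Matrix.cons_val_one, Matrix.cons_val]
  ring

theorem nb_low {f : E3 → ℝ} (hf : IntegrableOn f Hp) {x0 : E3} (hx0 : x0 2 = 0) {S K : ℝ}
    (hS : 1 ≤ S) (h0 : ∀ᵐ x : E3, 0 < x 2 → 0 ≤ f x ∧
      (‖x - x0‖ ≤ S → 1 / 8 < x 2 → x 2 < 1 / 4 → K ≤ f x)) :
    K * (S ^ 2 / 8) ≤ ∫ x in Hp, f x := by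
  set a : Fin 3 → ℝ := ![x0 0 - S / 2, x0 1 - S / 2, 1 / 8]
  set b : Fin 3 → ℝ := ![x0 0 + S / 2, x0 1 + S / 2, 1 / 4]
  have h : ∀ k, a k < b k := fun k => by fin_cases k <;> simp [a, b] <;> linarith
  have hv := volume_Box h
  have hsub : Box a b ⊆ Hp := fun x hx => by
    have := (hx 2).1
    simp [a] at this
    change 0 < x 2
    linarith
  have e1 : volume.real (Box a b) = S ^ 2 / 8 := by
    rw [hv.2]
    simp [Fin.prod_univ_three, a, b]
    ring
  calc K * (S ^ 2 / 8) = ∫ _ in Box a b, K := by rw [setIntegral_const, e1, smul_eq_mul, mul_comm]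
    _ ≤ ∫ x in Box a b, f x := by
        refine integral_mono_ae (integrableOn_const hv.1) (hf.mono_set hsub)
          ((ae_restrict_iff' (isOpen_Box a b).measurableSet).2 ?_)
        filter_upwards [h0] with x hx hb
        have b0 := hb 0
        have b1 := hb 1
        have b2 := hb 2
        simp [a, b] at b0 b1 b2
        refine (hx (hsub hb)).2 ?_ (by linarith) (by linarith)
        have n : ‖x - x0‖ ^ 2 ≤ S ^ 2 := by
          rw [normsq_eq_sum, Fin.sum_univ_three]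
          simp only [PiLp.sub_apply, hx0, sub_zero]
          nlinarith
        exact (pow_le_pow_iff_left₀ (norm_nonneg _) (by linarith) two_ne_zero).1 n
    _ ≤ ∫ x in Hp, f x := by
        refine setIntegral_mono_set hf ((ae_restrict_iff' isOpen_Hp.measurableSet).2 ?_)
          hsub.eventuallyLE
        filter_upwards [h0] with x hx hp using (hx hp).1

set_option maxHeartbeats 800000 in
theorem nov_core {M κ δ c C : ℝ} (hM : 0 ≤ M) (hκ : 0 < κ) (hδ : 0 < δ) (hc : 0 < c)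
    (hC : 0 < C) : ∃ s > 0, ∃ S > 0, ∃ τ > 0, ∃ a' > 0, ∀ (x0 : E3) (A0 : ℝ)
    (Φ X R w1 w2 : E3 → ℝ) (gΦ gX : E3 → E3), x0 2 = 0 → 0 < A0 → H1 Φ gΦ →
    (∀ᵐ x : E3, Φ (sg x) = Φ x) → Sub (ball x0 S ∩ Hp) X gX R →
    (∀ᵐ x : E3, x ∈ ball x0 S ∩ Hp → 0 ≤ Φ x ∧ Φ x ≤ X x ∧
      Real.exp (κ * (x 0 - x0 0)) * X x ≤ C * A0 ∧
      (x 2 < 1 / 4 → c * A0 ≤ Real.exp (κ * (x 0 - x0 0)) * Φ x) ∧
      (s ≤ x 2 → X x ^ 2 - Φ x ^ 2 ≤ τ * X x ^ 2 ∧ (κ ^ 2 / 2 + δ) * X x ≤ R x)) →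
    MemLp w1 (3 / 2) volume → (AEStronglyMeasurable w2 volume ∧ ∀ᵐ x : E3, |w2 x| ≤ M) →
    (∀ f g, H1 f g → (∀ᵐ x : E3, x ∉ ball x0 S → f x = 0) →
      ∫ x, |w1 x| * f x ^ 2 ≤ a' * ∫ x, ‖g x‖ ^ 2) →
    ¬∀ f gf, H1 f gf → ∫ x, ((1 / 2) * ⟪gΦ x, gf x⟫ + (w1 x + w2 x) * Φ x * f x) = 0 := by
  obtain ⟨Mh, hMh, hz⟩ := nb_zeta
  set D1 := κ ^ 2 / 2 + δ / 2 + M + 2 with hD1
  have pD1 : 0 < D1 := by positivity
  set s := min (1 / 16) (δ * c ^ 2 / (64 * 108 * C ^ 2 * D1)) with hs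
  have ps : 0 < s := lt_min (by norm_num) (by positivity)
  have s1 : s ≤ 1 / 16 := min_le_left _ _
  have s2 : s * (64 * 108 * C ^ 2 * D1) ≤ δ * c ^ 2 :=
    (le_div_iff₀ (by positivity)).1 (min_le_right _ _)
  set γ := δ / κ ^ 2 with hγ
  have pγ : 0 < γ := by positivity
  set S := max 1 (64 * 864 * (1 + 1 / γ) * Mh ^ 2 * C ^ 2 / (δ * c ^ 2)) with hS
  have S1 : 1 ≤ S := le_max_left _ _
  have S2 : 64 * 864 * (1 + 1 / γ) * Mh ^ 2 * C ^ 2 ≤ S * (δ * c ^ 2) :=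
    (div_le_iff₀ (by positivity)).1 (le_max_right _ _)
  have pS : 0 < S := by linarith
  obtain ⟨h, h1, h2, M1, hM1, hh, hc2, hb⟩ := nb_h ps
  set D2 := 1 + 2 * κ ^ 2 + 32 * Mh ^ 2 with hD2
  have pD2 : 0 < D2 := by positivity
  have pM1 : 0 < M1 := by linarith
  set τ := δ * c ^ 2 / (64 * 432 * M1 ^ 2 * D2 * C ^ 2 * S) with hτ
  have pτ : 0 < τ := by positivity
  refine ⟨s, ps, 3 * S, by positivity, τ, pτ, 1 / (4 * M1 ^ 2), by positivity, ?_⟩
  intro x0 A0 Φ X R w1 w2 gΦ gX hx0 hA hΦ eΦ hX hp v1 v2 sm eq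
  obtain ⟨ζ, q, hζ, cζ, cq, bq, eζ, pz⟩ := hz x0 S κ hx0 pS
  have ha' : 1 / (4 * M1 ^ 2) ≤ 1 / 4 := by
    apply one_div_le_one_div_of_le (by norm_num)
    nlinarith
  have off : ∀ x, x ∉ ball x0 (3 * S) → 2 * S ≤ ‖x - x0‖ := by
    intro x hx
    rw [mem_ball, dist_eq_norm, not_lt] at hx
    linarith
  have bX : ∃ B, ∀ᵐ x : E3, x ∈ ball x0 (3 * S) ∩ Hp → 0 ≤ Φ x ∧ Φ x ≤ X x ∧ X x ≤ B := by
    refine ⟨Real.exp (κ * (3 * S)) * (C * A0), ?_⟩
    filter_upwards [hp] with x hx hm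
    obtain ⟨a1, a2, a3, -⟩ := hx hm
    refine ⟨a1, a2, ?_⟩
    have b1 := abs_le.1 (abs_coord_le (x - x0) 0)
    have b2 : ‖x - x0‖ < 3 * S := by simpa [dist_eq_norm] using hm.1
    simp only [PiLp.sub_apply] at b1
    have b3 : 1 ≤ Real.exp (κ * (3 * S)) * Real.exp (κ * (x 0 - x0 0)) := by
      rw [← Real.exp_add]
      exact Real.one_le_exp (by rw [← mul_add]; exact mul_nonneg hκ.le (by linarith))
    calc X x ≤ Real.exp (κ * (3 * S)) * Real.exp (κ * (x 0 - x0 0)) * X x :=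
          le_mul_of_one_le_left (a1.trans a2) b3
      _ ≤ _ := by
          rw [mul_assoc]
          exact mul_le_mul_of_nonneg_left a3 (Real.exp_pos _).le
  obtain ⟨i0, key⟩ := nov_ineq ps hM hM1 (by positivity) ha' hh hc2 hb hζ bq eζ hΦ eΦ hX bX v1 v2
    sm eq
  set K := (C * A0) ^ 2 with hK
  have pK : 0 < K := by positivity
  have mX := hX.l1.ld.mf
  have ch : Continuous h := continuous_iff_continuousAt.2 fun z => (hh z).1.continuousAt
  have base : ∀ᵐ x : E3, 0 < x 2 → ζ x ^ 2 * X x ^ 2 ≤ K ∧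
      (∀ γ : ℝ, 0 < γ → ‖q x‖ ^ 2 * X x ^ 2 ≤ (1 + γ) * κ ^ 2 * (ζ x ^ 2 * X x ^ 2) +
        (if 2 * S ≤ ‖x - x0‖ then 0 else (1 + 1 / γ) * (4 * Mh / S) ^ 2 * K)) := by
    filter_upwards [hp] with x hx hz
    by_cases hb2 : 2 * S ≤ ‖x - x0‖
    · have := (pz x).2.2.2.1 hb2
      simp [this.1, this.2, hb2, pK.le]
    · have hm : x ∈ ball x0 (3 * S) ∩ Hp := ⟨by by_contra h3; exact hb2 (off x h3), hz⟩
      obtain ⟨a1, a2, a3, -⟩ := hx hm
      have a4 : 0 ≤ X x := a1.trans a2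
      have a5 : Real.exp (κ * (x 0 - x0 0)) ^ 2 * X x ^ 2 ≤ K := by
        rw [← mul_pow]
        exact pow_le_pow_left₀ (by positivity) a3 2
      refine ⟨(mul_le_mul_of_nonneg_right (pow_le_pow_left₀ (pz x).1 (pz x).2.1 2)
        (sq_nonneg _)).trans a5, fun g hg => ?_⟩
      rw [if_neg hb2]
      have a6 := mul_le_mul_of_nonneg_right ((pz x).2.2.2.2 g hg) (sq_nonneg (X x))
      have a7 := mul_le_mul_of_nonneg_left a5
        (show 0 ≤ (1 + 1 / g) * (4 * Mh / S) ^ 2 by positivity)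
      linarith
  have ha01 : ∀ z, 0 ≤ 1 - h z ^ 2 ∧ 1 - h z ^ 2 ≤ 1 := fun z =>
    ⟨sub_nonneg.2 (pow_le_one₀ (hb z).2.1 (hb z).2.2.1), sub_le_self _ (sq_nonneg (h z))⟩
  have iP : IntegrableOn (fun x => ζ x ^ 2 * X x ^ 2) Hp := by
    refine nb_int (K := K) mX (cζ.pow 2) (fun x hx => by simp [((pz x).2.2.2.1 (off x hx)).1]) ?_
    filter_upwards [base] with x hx hm
    rw [abs_of_nonneg (by positivity)]
    exact (hx hm.2).1
  have iP1 : IntegrableOn (fun x => (1 - h (x 2) ^ 2) * ζ x ^ 2 * X x ^ 2) Hp := by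
    refine nb_int (K := K) mX (φ := fun x => (1 - h (x 2) ^ 2) * ζ x ^ 2) (by fun_prop)
      (fun x hx => by simp [((pz x).2.2.2.1 (off x hx)).1]) ?_
    filter_upwards [base] with x hx hm
    have := ha01 (x 2)
    rw [abs_of_nonneg (by have := this.1; positivity), mul_assoc]
    exact (mul_le_of_le_one_left (by positivity) this.2).trans (hx hm.2).1
  have bq1 : ∀ᵐ x : E3, 0 < x 2 → (ζ x ^ 2 + ‖q x‖ ^ 2) * X x ^ 2 ≤ D2 * K := by
    filter_upwards [base] with x hx hz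
    have a1 := (hx hz).1
    have a2 := (hx hz).2 1 one_pos
    have a3 : (4 * Mh / S) ^ 2 ≤ 16 * Mh ^ 2 := by
      have : 4 * Mh / S ≤ 4 * Mh := div_le_self (by positivity) S1
      have := pow_le_pow_left₀ (by positivity) this 2
      linarith
    have a4 : (if 2 * S ≤ ‖x - x0‖ then 0 else (1 + 1 / 1) * (4 * Mh / S) ^ 2 * K) ≤
        32 * Mh ^ 2 * K := by
      split_ifs
      · positivity
      · linarith [mul_le_mul_of_nonneg_right a3 pK.le]
    have a5 := mul_le_mul_of_nonneg_left a1 (show 0 ≤ 2 * κ ^ 2 by positivity)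
    simp only [hD2]
    linarith
  have iQ : IntegrableOn (fun x => ‖q x‖ ^ 2 * X x ^ 2) Hp := by
    refine nb_int (K := D2 * K) mX (φ := fun x => ‖q x‖ ^ 2) (by fun_prop)
      (fun x hx => by simp [((pz x).2.2.2.1 (off x hx)).2]) ?_
    filter_upwards [bq1] with x hx hm
    rw [abs_of_nonneg (by positivity)]
    linarith [hx hm.2, mul_nonneg (sq_nonneg (ζ x)) (sq_nonneg (X x))]
  have mH := isOpen_Hp.measurableSet
  have c2 : Continuous fun x : E3 => x 2 := by fun_prop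
  have mL : MeasurableSet {x : E3 | x 2 ≤ 2 * s} := (isClosed_le c2 continuous_const).measurableSet
  set P := ∫ x in Hp, ζ x ^ 2 * X x ^ 2
  set P1 := ∫ x in Hp, (1 - h (x 2) ^ 2) * ζ x ^ 2 * X x ^ 2
  set Lr := ∫ x in Hp ∩ {x | x 2 ≤ 2 * s}, ζ x ^ 2 * X x ^ 2 with hLr
  have e1 : (κ ^ 2 / 2 + δ) * P1 ≤ ∫ x in Hp, (1 - h (x 2) ^ 2) * ζ x ^ 2 * X x * R x := by
    rw [← integral_const_mul]
    refine integral_mono_ae (iP1.const_mul _) i0 ((ae_restrict_iff' mH).2 ?_)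
    filter_upwards [hp] with x hx hz
    by_cases hb2 : x ∈ ball x0 (3 * S)
    · obtain ⟨a1, a2, -, -, a5⟩ := hx ⟨hb2, hz⟩
      rcases le_total s (x 2) with h3 | h3
      · have a6 := mul_le_mul_of_nonneg_left (a5 h3).2 (show 0 ≤ (1 - h (x 2) ^ 2) * ζ x ^ 2 * X x
          from mul_nonneg (mul_nonneg (ha01 _).1 (sq_nonneg _)) (a1.trans a2))
        linarith
      · have hz' : 0 < x 2 := hz
        simp [((hb (x 2)).2.2.2.2.2.1 (by rwa [abs_of_pos hz'])).1]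
    · simp [((pz x).2.2.2.1 (off x hb2)).1]
  have e2 : P ≤ P1 + Lr := by
    have i3 : IntegrableOn ({x : E3 | x 2 ≤ 2 * s}.indicator fun x => ζ x ^ 2 * X x ^ 2) Hp :=
      Integrable.indicator iP mL
    rw [hLr, ← setIntegral_indicator mL, ← integral_add iP1 i3]
    refine integral_mono_ae iP (iP1.add i3) ((ae_restrict_iff' mH).2 (Eventually.of_forall ?_))
    intro x hz
    have hz' : 0 < x 2 := hz
    by_cases h3 : x 2 ≤ 2 * s
    · have : x ∈ {x : E3 | x 2 ≤ 2 * s} := h3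
      simp only [indicator_of_mem this]
      have := (ha01 (x 2)).1
      have : 0 ≤ (1 - h (x 2) ^ 2) * ζ x ^ 2 * X x ^ 2 := by positivity
      linarith
    · have : x ∉ {x : E3 | x 2 ≤ 2 * s} := h3
      simp [indicator_of_notMem this, ((hb (x 2)).2.2.2.2.2.2 (by
        rw [abs_of_pos hz']; linarith [not_le.1 h3])).1]
  have e3 : Lr ≤ K * (36 * S ^ 2 * (3 * s)) := by
    refine nb_box2 (x0 := x0) (mH.inter mL) pS (by positivity) pK.le ?_
    filter_upwards [base] with x hx hm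
    refine ⟨hm.1, (hx hm.1).1, fun h3 => ?_⟩
    rcases h3 with h3 | h3
    · simp [((pz x).2.2.2.1 h3).1]
    · have : x 2 ≤ 2 * s := hm.2
      linarith
  have far3 : ∀ x : E3, 3 * S ≤ x 2 → 2 * S ≤ ‖x - x0‖ := by
    intro x hx
    have := (le_abs_self _).trans (abs_coord_le (x - x0) 2)
    simp only [PiLp.sub_apply, hx0, sub_zero] at this
    linarith
  have e4 : (∫ x in Hp, ‖q x‖ ^ 2 * X x ^ 2) - (1 + γ) * κ ^ 2 * P ≤
      (1 + 1 / γ) * (4 * Mh / S) ^ 2 * K * (36 * S ^ 2 * (3 * S)) := by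
    rw [← integral_const_mul, ← integral_sub iQ (iP.const_mul _)]
    refine nb_box2 (x0 := x0) mH pS (by positivity) (by positivity) ?_
    filter_upwards [base] with x hx hm
    have a1 := (hx hm).2 γ pγ
    refine ⟨hm, ?_, fun h3 => ?_⟩
    · have : 0 ≤ (1 + 1 / γ) * (4 * Mh / S) ^ 2 * K := by positivity
      split_ifs at a1 <;> linarith
    · rw [if_pos (h3.elim id (far3 x))] at a1
      linarith
  have e5 : ∫ x in {x : E3 | s ≤ x 2 ∧ x 2 ≤ 2 * s}, (X x ^ 2 - Φ x ^ 2) * (ζ x ^ 2 + ‖q x‖ ^ 2) ≤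
      τ * (D2 * K) * (36 * S ^ 2 * (3 * S)) := by
    refine nb_box2 (x0 := x0) ((isClosed_le continuous_const c2).measurableSet.inter mL) pS
      (by positivity) (by positivity) ?_
    filter_upwards [bq1, hp] with x hx hx' hm
    have hz : 0 < x 2 := ps.trans_le hm.1
    have zero : 2 * S ≤ ‖x - x0‖ → (X x ^ 2 - Φ x ^ 2) * (ζ x ^ 2 + ‖q x‖ ^ 2) ≤ 0 := fun h3 => by
      simp [((pz x).2.2.2.1 h3).1, ((pz x).2.2.2.1 h3).2]
    refine ⟨hz, ?_, fun h3 => zero (h3.elim id (far3 x))⟩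
    by_cases hb2 : x ∈ ball x0 (3 * S)
    · have a1 := ((hx' ⟨hb2, hz⟩).2.2.2.2 hm.1).1
      have a2 := mul_le_mul_of_nonneg_right a1 (show 0 ≤ ζ x ^ 2 + ‖q x‖ ^ 2 by positivity)
      have a3 := mul_le_mul_of_nonneg_left (hx hz) pτ.le
      linarith
    · exact (zero (off x hb2)).trans (by positivity)
  have e6 : (c * A0) ^ 2 * (S ^ 2 / 8) ≤ P1 := by
    refine nb_low iP1 hx0 S1 ?_
    filter_upwards [hp] with x hx hz
    refine ⟨by have := (ha01 (x 2)).1; positivity, fun a1 a2 a3 => ?_⟩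
    have hm : x ∈ ball x0 (3 * S) ∩ Hp := ⟨by rw [mem_ball, dist_eq_norm]; linarith, hz⟩
    obtain ⟨b1, b2, -, b4, -⟩ := hx hm
    rw [((hb (x 2)).2.2.2.2.2.2 (by rw [abs_of_pos hz]; linarith)).1, (pz x).2.2.1 a1]
    have b5 := (b4 a3).trans (mul_le_mul_of_nonneg_left b2 (Real.exp_pos _).le)
    have := pow_le_pow_left₀ (by positivity) b5 2
    linarith
  have g1 : γ * κ ^ 2 = δ := by simp only [hγ]; field_simp
  have g2 : 2 * (1 / (4 * M1 ^ 2)) * M1 ^ 2 = 1 / 2 := by field_simp; ring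
  rw [g2] at key
  have pL : 0 ≤ Lr := setIntegral_nonneg (mH.inter mL) fun x _ => by positivity
  set T := δ * c ^ 2 * A0 ^ 2 * S ^ 2 / 64 with hT
  have pT : 0 < T := by positivity
  have t1 : D1 * (K * (36 * S ^ 2 * (3 * s))) ≤ T := by
    have := mul_le_mul_of_nonneg_right s2 (show 0 ≤ A0 ^ 2 * S ^ 2 / 64 by positivity)
    simp only [hK, hT]
    linarith
  have t2 : (1 + 1 / γ) * (4 * Mh / S) ^ 2 * K * (36 * S ^ 2 * (3 * S)) ≤ 2 * T := by
    have a1 : (1 + 1 / γ) * (4 * Mh / S) ^ 2 * K * (36 * S ^ 2 * (3 * S)) =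
        64 * 864 * (1 + 1 / γ) * Mh ^ 2 * C ^ 2 * (A0 ^ 2 * S / 32) := by
      simp only [hK]
      field_simp
      ring
    have := mul_le_mul_of_nonneg_right S2 (show 0 ≤ A0 ^ 2 * S / 32 by positivity)
    rw [a1]
    simp only [hT]
    linarith
  have t3 : 4 * M1 ^ 2 * (τ * (D2 * K) * (36 * S ^ 2 * (3 * S))) = T := by
    simp only [hτ, hK, hT]
    field_simp
    ring
  have t4 : δ / 2 * ((c * A0) ^ 2 * (S ^ 2 / 8)) = 4 * T := by simp only [hT]; ring
  have t5 := mul_le_mul_of_nonneg_left e5 (show 0 ≤ 4 * M1 ^ 2 by positivity)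
  have t6 := mul_le_mul_of_nonneg_left e2 (show 0 ≤ κ ^ 2 + δ by positivity)
  have t7 := mul_le_mul_of_nonneg_left e3 pD1.le
  have t8 := mul_le_mul_of_nonneg_left e6 (show 0 ≤ δ / 2 by positivity)
  have t9 : (1 + γ) * κ ^ 2 * P = (κ ^ 2 + δ) * P := by rw [← g1]; ring
  simp only [hD1] at t1 t7
  linarith [mul_nonneg hM pL, pL]

end

end Vale.Agent.P363
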