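import Vale.Agent.P363.ThD

/-! P363, block Th: operations on pairs. -/

open MeasureTheory Set Metric Filter Topology
open scoped RealInnerProductSpace

namespace Vale.Agent.P363

noncomputable section

variable {N Φ Ω Φ' Ω' : E3 → ℝ} {p q p' q' gN : E3 → E3}

namespace ThPairx

theorem sq (h : H1 N gN) : Integrable fun x => ‖gN x‖ ^ 2 :=
  (memLp_two_iff_integrable_sq_norm h.l2g.1).1 h.l2g

theorem comb {a b : ℝ} (ha : 0 ≤ a) (hb : 0 ≤ b) (s t : ℝ) (v w : E3) :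
    √((√a * s) ^ 2 + (√b * t) ^ 2) ^ 2 = a * s ^ 2 + b * t ^ 2 ∧
    ‖(√((√a * s) ^ 2 + (√b * t) ^ 2))⁻¹ • ((√a * s) • √a • v + (√b * t) • √b • w)‖ ^ 2 ≤
      a * ‖v‖ ^ 2 + b * ‖w‖ ^ 2 := by
  constructor
  · rw [Real.sq_sqrt (by positivity), mul_pow, mul_pow, Real.sq_sqrt ha, Real.sq_sqrt hb]
  · refine (hyp_grad_le _ _ _ _).trans (le_of_eq ?_)
    rw [norm_smul, norm_smul, mul_pow, mul_pow, Real.norm_eq_abs, Real.norm_eq_abs, sq_abs, sq_abs,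
      Real.sq_sqrt ha, Real.sq_sqrt hb]

theorem int_le {a b : ℝ} (hN : H1 N gN) (h : H1 Φ p) (h' : H1 Φ' p')
    (e : ∀ᵐ x : E3, ‖gN x‖ ^ 2 ≤ a * ‖p x‖ ^ 2 + b * ‖p' x‖ ^ 2) :
    ∫ x, ‖gN x‖ ^ 2 ≤ a * (∫ x, ‖p x‖ ^ 2) + b * ∫ x, ‖p' x‖ ^ 2 := by
  rw [← integral_const_mul, ← integral_const_mul,
    ← integral_add ((sq h).const_mul a) ((sq h').const_mul b)]
  exact integral_mono_ae (sq hN) (((sq h).const_mul a).add ((sq h').const_mul b)) e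

end ThPairx

theorem Pair.mass (h : Pair N Φ Ω p q) :
    (∫ x, Φ x ^ 2) + ∫ x, Ω x ^ 2 = ∫ x, N x ^ 2 := by
  rw [← integral_add h.h1.l2.integrable_sq h.h2.l2.integrable_sq]
  exact integral_congr_ae h.sum

theorem Pair.kin (h : Pair N Φ Ω p q) (hN : H1 N gN) (nn : ∀ x, 0 ≤ N x) :
    (∀ᵐ x : E3, N x • gN x = Φ x • p x + Ω x • q x ∧ ‖gN x‖ ^ 2 ≤ ‖p x‖ ^ 2 + ‖q x‖ ^ 2) ∧
      ∫ x, ‖gN x‖ ^ 2 ≤ JJ p q := by
  have e1 : ∀ᵐ x : E3, N x = √(Φ x ^ 2 + Ω x ^ 2) := by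
    filter_upwards [h.sum] with x hx
    rw [hx, Real.sqrt_sq (nn x)]
  have H := (h.h1.hyp h.h2).congr e1 (Eventually.of_forall fun _ => rfl)
  have e2 : ∀ᵐ x : E3,
      N x • gN x = Φ x • p x + Ω x • q x ∧ ‖gN x‖ ^ 2 ≤ ‖p x‖ ^ 2 + ‖q x‖ ^ 2 := by
    filter_upwards [hN.ld.unique isOpen_univ H.ld, e1, h.sum] with x h1 h2 h3
    rw [h1 (mem_univ _)]
    refine ⟨?_, hyp_grad_le _ _ _ _⟩
    rw [← h2]
    rcases eq_or_ne (N x) 0 with h0 | h0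
    · rw [h0] at h3
      have a : Φ x = 0 := by nlinarith [sq_nonneg (Φ x), sq_nonneg (Ω x)]
      have b : Ω x = 0 := by nlinarith [sq_nonneg (Φ x), sq_nonneg (Ω x)]
      simp [h0, a, b]
    · rw [smul_smul, mul_inv_cancel₀ h0, one_smul]
  refine ⟨e2, ?_⟩
  rw [JJ, ← integral_add (ThPairx.sq h.h1) (ThPairx.sq h.h2)]
  exact integral_mono_ae (ThPairx.sq hN) ((ThPairx.sq h.h1).add (ThPairx.sq h.h2))
    (e2.mono fun x hx => hx.2)

/-- The odd partner for a convex combination. -/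
theorem odd_comb (h : H1 Ω q) (h' : H1 Ω' q') (o : ∀ᵐ x : E3, Ω (sg x) = -Ω x)
    (o' : ∀ᵐ x : E3, Ω' (sg x) = -Ω' x) {a b : ℝ} (ha : 0 ≤ a) (hb : 0 ≤ b) :
    ∃ W gW, H1 W gW ∧ (∀ x, W (sg x) = -W x) ∧ (∀ x, 0 < x 2 → 0 ≤ W x) ∧
      (∀ᵐ x : E3, W x ^ 2 = a * Ω x ^ 2 + b * Ω' x ^ 2) ∧
      ∫ x, ‖gW x‖ ^ 2 ≤ a * (∫ x, ‖q x‖ ^ 2) + b * ∫ x, ‖q' x‖ ^ 2 := by
  have H := (h.cmul √a).hyp (h'.cmul √b)
  have t1 : ∀ {Ω : E3 → ℝ} {q : E3 → E3}, H1 Ω q → (∀ᵐ x : E3, Ω (sg x) = -Ω x) →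
      TZ univ (fun x => |Ω x|) := fun h o =>
    (TZ.of_odd isOpen_univ (fun _ _ => mem_univ _) h.ld (o.mono fun _ hx _ => hx)).dom isOpen_univ
      fun _ _ _ => ⟨1, Eventually.of_forall fun x _ h0 _ => by
        rw [abs_abs, one_mul]; linarith⟩
  have t2 : TZ univ fun x => √((√a * Ω x) ^ 2 + (√b * Ω' x) ^ 2) :=
    ((t1 h o).add (t1 h' o')).dom isOpen_univ fun _ _ _ => ⟨√a + √b,
      Eventually.of_forall fun x _ h0 _ => by
        have a0 := Real.sqrt_nonneg a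
        have b0 := Real.sqrt_nonneg b
        have c0 := abs_nonneg (Ω x)
        have d0 := abs_nonneg (Ω' x)
        rw [abs_of_nonneg (Real.sqrt_nonneg _), abs_of_nonneg (add_nonneg c0 d0)]
        refine le_trans (b := √a * |Ω x| + √b * |Ω' x|) (Real.sqrt_le_iff.2 ⟨by positivity, ?_⟩)
          (by nlinarith [mul_nonneg a0 d0, mul_nonneg b0 c0, mul_nonneg (add_nonneg a0 b0) h0.le])
        rw [mul_pow, mul_pow, ← sq_abs (Ω x), ← sq_abs (Ω' x)]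
        nlinarith [mul_nonneg (mul_nonneg a0 c0) (mul_nonneg b0 d0)]⟩
  obtain ⟨W, gW, w1, w2, w3, w4⟩ := H.oddext t2
  have u : ∀ x : E3, 0 < x 2 → W x ^ 2 = a * Ω x ^ 2 + b * Ω' x ^ 2 ∧
      ‖gW x‖ ^ 2 ≤ a * ‖q x‖ ^ 2 + b * ‖q' x‖ ^ 2 := fun x hx => by
    rw [(w4 x hx).1, (w4 x hx).2]
    exact ThPairx.comb ha hb _ _ _ _
  have s1 : ∀ {Ω : E3 → ℝ} {q : E3 → E3}, H1 Ω q → (∀ᵐ x : E3, Ω (sg x) = -Ω x) →
      ∀ᵐ x : E3, ‖q (sg x)‖ = ‖q x‖ := fun h o => by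
    filter_upwards [h.ld.sym_grad isOpen_univ (fun _ _ => mem_univ _) (s := -1)
      (o.mono fun x hx _ => by rw [hx, neg_one_mul])] with x hx
    rw [← norm_sg, hx (mem_univ _), neg_one_smul, norm_neg]
  have v : ∀ᵐ x : E3, W x ^ 2 = a * Ω x ^ 2 + b * Ω' x ^ 2 ∧
      ‖gW x‖ ^ 2 ≤ a * ‖q x‖ ^ 2 + b * ‖q' x‖ ^ 2 := by
    filter_upwards [o, o', s1 h o, s1 h' o', ae_coord_ne 2 0] with x c1 c2 c3 c4 c5
    rcases lt_or_gt_of_ne c5 with c | c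
    · have := u (sg x) (by rw [sg_2]; linarith)
      rwa [w2, w3, c1, c2, c3, c4, neg_sq, neg_sq, neg_sq] at this
    · exact u x c
  refine ⟨W, gW, w1, w2, fun x hx => (w4 x hx).1 ▸ Real.sqrt_nonneg _, v.mono fun _ hx => hx.1,
    ThPairx.int_le w1 h h' (v.mono fun _ hx => hx.2)⟩

theorem Pair.convex (h : Pair N Φ Ω p q) (h' : Pair N Φ' Ω' p' q') {s : ℝ} (h0 : 0 ≤ s)
    (h1 : s ≤ 1) : ∃ Φ2 Ω2 p2 q2, Pair N Φ2 Ω2 p2 q2 ∧ (∀ x, 0 ≤ Φ2 x) ∧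
      (∀ x, 0 < x 2 → 0 ≤ Ω2 x) ∧ (∀ x, Φ2 x ^ 2 = (1 - s) * Φ x ^ 2 + s * Φ' x ^ 2) ∧
      JJ p2 q2 ≤ (1 - s) * JJ p q + s * JJ p' q' := by
  have ha : 0 ≤ 1 - s := sub_nonneg.2 h1
  have H := (h.h1.cmul √(1 - s)).hyp (h'.h1.cmul √s)
  obtain ⟨W, gW, w1, w2, w3, w4, w5⟩ := odd_comb h.h2 h'.h2 h.od h'.od ha h0
  have u := fun x => ThPairx.comb ha h0 (Φ x) (Φ' x) (p x) (p' x)
  refine ⟨_, W, _, gW, ⟨H, w1, ?_, Eventually.of_forall w2, ?_⟩, fun x => Real.sqrt_nonneg _, w3,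
    fun x => (u x).1, ?_⟩
  · filter_upwards [h.ev, h'.ev] with x a b
    rw [a, b]
  · filter_upwards [w4, h.sum, h'.sum] with x a b c
    rw [a, (u x).1]
    linear_combination (1 - s) * b + s * c
  · have := ThPairx.int_le H h.h1 h'.h1 (Eventually.of_forall fun x => (u x).2)
    unfold JJ
    linarith

theorem pair_full (hN : H1 N gN) (ev : ∀ x, N (sg x) = N x) :
    Pair N N (fun _ => 0) gN (fun _ => 0) := by
  exact ⟨hN, H1.zero, Eventually.of_forall ev, Eventually.of_forall fun _ => by simp,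
    Eventually.of_forall fun _ => by simp⟩

theorem pair_thin (hN : H1 N gN) (ev : ∀ x, N (sg x) = N x) (mass : ∫ x, N x ^ 2 = 3) {M : ℝ}
    (hM : ∫ x, ‖gN x‖ ^ 2 ≤ M) : ∃ Φ Ω p q, Pair N Φ Ω p q ∧ ∫ x, Φ x ^ 2 ≤ 1 ∧
      JJ p q ≤ M + 30 * (3 + M) ^ 2 := by
  have M0 : 0 ≤ M := (integral_nonneg fun x => sq_nonneg _).trans hM
  obtain ⟨K, hK⟩ : ∃ K : ℝ, K = 2 * (3 + M) := ⟨_, rfl⟩
  have K0 : 0 < K := by rw [hK]; positivity
  have l0 := ((LD.coord univ 2).cmul K).clamp isOpen_univ (a := -1) (b := 1) (by norm_num)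
  obtain ⟨l1, l2⟩ := exists_ims l0
  have g0 : ∀ x : E3, ‖(if -1 < K * x 2 ∧ K * x 2 < 1 then K • e 2 else 0 : E3)‖ ≤ K := fun x => by
    split_ifs
    · rw [norm_smul, norm_e, mul_one, Real.norm_of_nonneg K0.le]
    · simpa using K0.le
  have pi0 := Real.pi_pos
  have g1 : ∀ (x : E3) (c : ℝ), |c| ≤ 1 →
      ‖(Real.pi / 2 * c) • (if -1 < K * x 2 ∧ K * x 2 < 1 then K • e 2 else 0 : E3)‖ ≤
        1 + Real.pi / 2 * K := fun x c hc => by
    rw [norm_smul, norm_mul, Real.norm_of_nonneg (by positivity), Real.norm_eq_abs]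
    calc _ ≤ Real.pi / 2 * 1 * K := by gcongr; exact g0 x
      _ ≤ _ := by linarith
  have g2 : (1 : ℝ) ≤ 1 + Real.pi / 2 * K := le_add_of_nonneg_right (by positivity)
  have a1 := hN.mul_lip l1 (M := 1 + Real.pi / 2 * K) (Eventually.of_forall fun x =>
    ⟨(Real.abs_sin_le_one _).trans g2, g1 x _ (Real.abs_cos_le_one _)⟩)
  have a2 := hN.mul_lip l2 (M := 1 + Real.pi / 2 * K) (Eventually.of_forall fun x =>
    ⟨(Real.abs_cos_le_one _).trans g2, by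
      rw [neg_smul, norm_neg]; exact g1 x _ (Real.abs_sin_le_one _)⟩)
  have od : ∀ x : E3, max (-1) (min 1 (K * sg x 2)) = -max (-1) (min 1 (K * x 2)) := fun x => by
    rw [sg_2, mul_neg]
    generalize K * x 2 = t
    simp only [max_def, min_def]
    split_ifs <;> linarith
  refine ⟨_, _, _, _, ⟨a2, a1, Eventually.of_forall fun x => ?_, Eventually.of_forall fun x => ?_,
    Eventually.of_forall fun x => ?_⟩, ?_, ?_⟩
  · rw [od, ev, mul_neg, Real.cos_neg]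
  · rw [od, ev, mul_neg, Real.sin_neg, neg_mul]
  · linear_combination N x ^ 2 * Real.cos_sq_add_sin_sq (Real.pi / 2 * max (-1) (min 1 (K * x 2)))
  · have m : MeasurableSet {x : E3 | |x 2| ≤ 1 / K} :=
      (isClosed_le (by fun_prop) continuous_const).measurableSet
    have b1 := strip_bound hN (a := 1 / K) (by positivity)
    rw [← integral_indicator m, mass] at b1
    refine (integral_mono a2.l2.integrable_sq (hN.l2.integrable_sq.indicator m) fun x => ?_).trans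
      (b1.trans ?_)
    · by_cases hx : x ∈ {x : E3 | |x 2| ≤ 1 / K}
      · rw [indicator_of_mem hx]
        simp only [mul_pow]
        exact mul_le_of_le_one_left (sq_nonneg _) (Real.cos_sq_le_one _)
      · rw [indicator_of_notMem hx]
        have hx' : 1 < |K * x 2| := by
          rw [abs_mul, abs_of_pos K0, mul_comm, ← div_lt_iff₀ K0]
          exact not_le.1 hx
        rcases lt_abs.1 hx' with c | c
        · simp only [min_eq_left c.le, max_eq_right (show (-1 : ℝ) ≤ 1 by norm_num)]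
          simp
        · simp only [max_eq_left ((min_le_right 1 (K * x 2)).trans
            (show K * x 2 ≤ -1 by linarith))]
          simp
    · calc _ ≤ 2 * (1 / K) * (3 + M) := by gcongr
        _ = 1 := by rw [hK]; field_simp
  · rw [JJ, ← integral_add (ThPairx.sq a2) (ThPairx.sq a1)]
    have i1 : Integrable fun x => ‖gN x‖ ^ 2 + (Real.pi / 2) ^ 2 * K ^ 2 * N x ^ 2 :=
      (ThPairx.sq hN).add (hN.l2.integrable_sq.const_mul _)
    refine (integral_mono ((ThPairx.sq a2).add (ThPairx.sq a1)) i1 fun x => ?_).trans ?_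
    · simp only [Pi.add_apply]
      rw [add_comm, ims_identity]
      have := pow_le_pow_left₀ (norm_nonneg _) (g0 x) 2
      nlinarith [mul_nonneg (sq_nonneg (N x)) (sq_nonneg (Real.pi / 2))]
    · rw [integral_add (ThPairx.sq hN) (hN.l2.integrable_sq.const_mul _), integral_const_mul, mass,
        hK]
      have : Real.pi ^ 2 ≤ 10 := by nlinarith [Real.pi_lt_d2]
      nlinarith [mul_le_mul_of_nonneg_right this (sq_nonneg (3 + M))]

end

end Vale.Agent.P363
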