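import Vale.Agent.P363.ThGap

/-! P363, block Th: the cutoff used in the Poincare inequality. -/

open MeasureTheory Set Metric Filter Topology
open scoped RealInnerProductSpace

namespace Vale.Agent.P363

noncomputable section

def thpU (L : ℝ) (x : E3) : ℝ := if rA L x ≤ 1 / 200 then 1 / rA L x ^ 2 else 0

theorem thpU_nn (L : ℝ) (x : E3) : 0 ≤ thpU L x := by
  unfold thpU
  split_ifs
  · positivity
  · exact le_rfl

theorem thp_sum {L : ℝ} (hL : 0 ≤ L) (x : E3) : 2 * L ≤ rA L x + rB L x := by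
  have hn : ‖nA L + nA L‖ = 2 * L := by
    rw [← two_smul ℝ, norm_smul, csg_nA_norm hL]
    norm_num
  have := norm_sub_le (x + nA L) (x - nA L)
  rw [show x + nA L - (x - nA L) = nA L + nA L by abel, hn] at this
  unfold rA rB
  linarith

theorem thp_cut {L r1 s0 e1 : ℝ} (hL : 1 ≤ L) (hr : L + 1 ≤ r1) (h0 : 0 < s0) (h1 : s0 < e1)
    (h2 : e1 ≤ 1 / 200) : ∃ χ q, Tst (D L) χ q ∧ ∀ x, 0 ≤ χ x ∧ χ x ≤ 1 ∧ χ (sg x) = χ x ∧
      (x ∉ Blk L (3 * r1) s0 → χ x = 0 ∧ q x = 0) ∧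
      (e1 ≤ rA L x → e1 ≤ rB L x → ‖x‖ ≤ 2 * r1 → χ x = 1) ∧
      ‖q x‖ ^ 2 ≤ (thpU L x + thpU L (sg x)) / Real.log (e1 / s0) ^ 2 + 1 / r1 ^ 2 := by
  obtain ⟨ξ, u, tξ, -, -, hξ⟩ := exists_logcut (nA L) h0 h1
  obtain ⟨j, v, tj, -, -, hj⟩ := exists_cut (0 : E3) (a := 2 * r1) (b := 3 * r1) (by linarith)
    (by linarith)
  simp only [sub_zero] at hj
  have hL0 : 0 ≤ L := by linarith
  have hl : 0 < Real.log (e1 / s0) := Real.log_pos ((one_lt_div h0).2 h1)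
  have hr0 : 0 < r1 := by linarith
  have t2 : Tst univ (fun x => ξ (sg x)) (fun x => sg (u (sg x))) := tξ.refl
  have t3 := tj.add ((tξ.add t2).cmul (-1))
  have hu : ∀ x, ‖u x‖ ^ 2 ≤ thpU L x / Real.log (e1 / s0) ^ 2 := by
    intro x
    obtain ⟨-, -, a3, -, a5, -⟩ := hξ x
    by_cases h : rA L x ≤ 1 / 200
    · unfold thpU
      rw [if_pos h, div_div, ← mul_pow, ← one_pow 2, ← div_pow]
      exact pow_le_pow_left₀ (norm_nonneg _) a3 2
    · rw [(a5 (show e1 ≤ rA L x by linarith [not_le.1 h])).2, norm_zero]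
      have := thpU_nn L x
      norm_num
      positivity
  have key : ∀ x, 0 ≤ j x + -1 * (ξ x + ξ (sg x)) ∧ j x + -1 * (ξ x + ξ (sg x)) ≤ 1 ∧
      (x ∉ Blk L (3 * r1) s0 → j x + -1 * (ξ x + ξ (sg x)) = 0 ∧
        v x + (-1 : ℝ) • (u x + sg (u (sg x))) = 0) ∧
      (e1 ≤ rA L x → e1 ≤ rB L x → ‖x‖ ≤ 2 * r1 → j x + -1 * (ξ x + ξ (sg x)) = 1) ∧
      ‖v x + (-1 : ℝ) • (u x + sg (u (sg x)))‖ ^ 2 ≤
        (thpU L x + thpU L (sg x)) / Real.log (e1 / s0) ^ 2 + 1 / r1 ^ 2 := by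
    intro x
    obtain ⟨a1, a2, -, a4, a5, -⟩ := hξ x
    obtain ⟨b1, b2, -, b4, b5, -⟩ := hξ (sg x)
    obtain ⟨c1, c2, c3, c4, c5, -⟩ := hj x
    have eA : ‖x - nA L‖ = rA L x := rfl
    have eB : ‖sg x - nA L‖ = rB L x := rA_sg L x
    rw [eA] at a4 a5
    rw [eB] at b4 b5
    have g1 := thp_sum hL0 x
    have g2 := abs_le.1 (abs_rA_sub hL0 x).1
    have g3 := abs_le.1 (abs_rA_sub hL0 x).2
    have n1 := div_nonneg (thpU_nn L x) (sq_nonneg (Real.log (e1 / s0)))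
    have n2 := div_nonneg (thpU_nn L (sg x)) (sq_nonneg (Real.log (e1 / s0)))
    have n3 : 0 ≤ 1 / r1 ^ 2 := by positivity
    have u1 := hu x
    have u2 := hu (sg x)
    rw [add_div]
    rcases lt_or_ge (rA L x) e1 with hA | hA
    · obtain ⟨d1, d2⟩ := b5 (by linarith)
      obtain ⟨d3, d4⟩ := c4 (by linarith [g2.1])
      rw [d1, d2, d3, d4, ctst_sg_zero]
      refine ⟨by linarith, by linarith, fun hx => ?_, fun h => absurd hA (not_lt.2 h), ?_⟩
      · have : rA L x ≤ s0 := by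
          by_contra hc
          exact hx ⟨by linarith [g2.1], (not_le.1 hc).le, by linarith⟩
        obtain ⟨d5, d6⟩ := a4 this
        rw [d5, d6]
        constructor <;> simp
      · simp only [add_zero, zero_add, neg_smul, one_smul, norm_neg]
        linarith
    obtain ⟨d1, d2⟩ := a5 hA
    rw [d1, d2]
    rcases lt_or_ge (rB L x) e1 with hB | hB
    · obtain ⟨d3, d4⟩ := c4 (by linarith [g3.1])
      rw [d3, d4]
      refine ⟨by linarith, by linarith, fun hx => ?_, fun _ h => absurd hB (not_lt.2 h), ?_⟩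
      · have : rB L x ≤ s0 := by
          by_contra hc
          exact hx ⟨by linarith [g3.1], by linarith, (not_le.1 hc).le⟩
        obtain ⟨d5, d6⟩ := b4 this
        rw [d5, d6, ctst_sg_zero]
        constructor <;> simp
      · simp only [zero_add, neg_smul, one_smul, norm_neg, norm_sg]
        linarith
    obtain ⟨d3, d4⟩ := b5 hB
    rw [d3, d4, ctst_sg_zero]
    refine ⟨by linarith, by linarith, fun hx => ?_, fun _ _ h => ?_, ?_⟩
    · have : 3 * r1 ≤ ‖x‖ := by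
        by_contra hc
        exact hx ⟨(not_le.1 hc).le, by linarith, by linarith⟩
      obtain ⟨d5, d6⟩ := c5 this
      rw [d5, d6]
      constructor <;> simp
    · rw [(c4 h).1]
      ring
    · simp only [add_zero, smul_zero]
      rw [show 3 * r1 - 2 * r1 = r1 by ring] at c3
      have := pow_le_pow_left₀ (norm_nonneg _) c3 2
      rw [div_pow, one_pow] at this
      linarith
  refine ⟨_, _, ⟨t3.ld, t3.l2g, t3.bd, _, isCompact_Blk L (3 * r1) s0, Blk_subset_D h0,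
    fun x => (key x).2.2.1⟩, fun x => ⟨(key x).1, (key x).2.1, ?_, (key x).2.2⟩⟩
  rw [sg_sg, ((hj x).2.2.2.2.2 (sg x) (norm_sg x)).1, add_comm (ξ (sg x))]

theorem thp_meas {L : ℝ} {s : E3 → ℝ} {p : E3 → E3} (h : L1 (D L) s p) :
    AEStronglyMeasurable s volume := by
  have := h.ld.mf
  rwa [Measure.restrict_eq_self_of_ae_mem (ae_mem_D L)] at this

theorem thp_shift {L : ℝ} {Φ s : E3 → ℝ} {p : E3 → E3} (hΦ : MemLp Φ 2 volume) (h : Adm L Φ s p)
    {M : ℝ} (hM : ∀ᵐ x : E3, |s x| ≤ M) (a : ℝ) :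
    Adm L Φ (fun x => s x - a) p ∧ ∀ᵐ x : E3, |s x - a| ≤ M + |a| := by
  have hb : ∀ᵐ x : E3, |s x - a| ≤ M + |a| := by
    filter_upwards [hM] with x hx
    linarith [abs_sub (s x) a]
  have l1 : L1 (D L) (fun x => s x - a) p :=
    (h.l1.sub (C2.const (isOpen_D L) a).l1.1).congr (isOpen_D L)
      (Eventually.of_forall fun _ _ => rfl) (Eventually.of_forall fun _ _ => by simp)
  refine ⟨⟨l1, ?_, ?_, h.i2⟩, hb⟩
  · filter_upwards [h.ev] with x hx
    rw [hx]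
  · refine hΦ.integrable_sq.mul_bdd (c := (M + |a|) ^ 2) ((thp_meas l1).pow 2) ?_
    filter_upwards [hb] with x hx
    rw [Real.norm_eq_abs, abs_pow]
    exact pow_le_pow_left₀ (abs_nonneg _) hx 2

theorem thp_mean {m s : E3 → ℝ} (hm : Integrable m) (h0 : ∀ x, 0 ≤ m x)
    (hs : AEStronglyMeasurable s volume) {M : ℝ} (hM : ∀ᵐ x : E3, |s x| ≤ M) :
    ∃ a, ∫ x, m x * (s x - a) = 0 := by
  have i1 : Integrable (fun x => m x * s x) := hm.mul_bdd (c := M) hs hM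
  refine ⟨(∫ x, m x * s x) / ∫ x, m x, ?_⟩
  simp only [mul_sub]
  rw [integral_sub i1 (hm.mul_const _), integral_mul_const]
  by_cases h : ∫ x, m x = 0
  · have h1 := (integral_eq_zero_iff_of_nonneg h0 hm).1 h
    have h2 : ∫ x, m x * s x = 0 := by
      refine integral_eq_zero_of_ae ?_
      filter_upwards [h1] with x hx
      simp [hx]
    rw [h, h2]
    simp
  · field_simp
    ring

theorem thp_hole {L Ch : ℝ} {Φ w : E3 → ℝ} {p : E3 → E3} (hh : HoleB L Ch Φ) (h : Adm L Φ w p)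
    (hb : ∃ M, ∀ᵐ x : E3, |w x| ≤ M) (ev : ∀ᵐ x : E3, Φ (sg x) = Φ x) :
    Integrable (fun x => Φ x ^ 2 * w x ^ 2 * (thpU L x + thpU L (sg x))) ∧
      ∫ x, Φ x ^ 2 * w x ^ 2 * (thpU L x + thpU L (sg x)) ≤
        2 * (Ch * ((∫ x, Φ x ^ 2 * ‖p x‖ ^ 2) + ∫ x, Φ x ^ 2 * w x ^ 2)) := by
  obtain ⟨h1, h2⟩ := hh w p h hb
  have hm : MeasurableSet {x : E3 | rA L x ≤ 1 / 200} :=
    (isClosed_le (continuous_rA L).1 continuous_const).measurableSet
  have e : (fun x => Φ x ^ 2 * w x ^ 2 * thpU L x) =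
      {x : E3 | rA L x ≤ 1 / 200}.indicator (fun x => Φ x ^ 2 * w x ^ 2 / rA L x ^ 2) := by
    funext x
    unfold thpU
    by_cases hx : rA L x ≤ 1 / 200
    · rw [if_pos hx, indicator_of_mem (by exact hx), mul_one_div]
    · rw [if_neg hx, indicator_of_notMem (by exact hx), mul_zero]
  have i1 : Integrable (fun x => Φ x ^ 2 * w x ^ 2 * thpU L x) := by
    rw [e]
    exact (integrable_indicator_iff hm).2 h1
  have i2 : ∫ x, Φ x ^ 2 * w x ^ 2 * thpU L x ≤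
      Ch * ((∫ x, Φ x ^ 2 * ‖p x‖ ^ 2) + ∫ x, Φ x ^ 2 * w x ^ 2) := by
    rw [e, integral_indicator hm]
    exact h2
  have e2 : (fun x => Φ (sg x) ^ 2 * w (sg x) ^ 2 * thpU L (sg x)) =ᵐ[volume]
      fun x => Φ x ^ 2 * w x ^ 2 * thpU L (sg x) := by
    filter_upwards [ev, h.ev] with x a b
    rw [a, b]
  have i3 : Integrable (fun x => Φ x ^ 2 * w x ^ 2 * thpU L (sg x)) :=
    (mp_sg.integrable_comp_of_integrable i1).congr e2
  have i4 : ∫ x, Φ x ^ 2 * w x ^ 2 * thpU L (sg x) = ∫ x, Φ x ^ 2 * w x ^ 2 * thpU L x := by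
    rw [← integral_congr_ae e2]
    exact integral_sg (fun x => Φ x ^ 2 * w x ^ 2 * thpU L x)
  simp only [mul_add]
  refine ⟨i1.add i3, ?_⟩
  rw [integral_add i1 i3, i4]
  linarith

end

end Vale.Agent.P363
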