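import Vale.Agent.P363.ThD

/-! P363, block Th: weighted maximum principle and two test computations. -/

open MeasureTheory Set Metric Filter Topology
open scoped RealInnerProductSpace

namespace Vale.Agent.P363

noncomputable section

variable {U A : Set E3} {N w : E3 → ℝ} {gN gw : E3 → E3}

theorem thw_sq {f : E3 → ℝ} (h : LocB U f) : LocB U (fun x => f x ^ 2) := by
  simpa only [pow_two] using wmp_locB_mul h h

theorem thw_pos_part (hU : IsOpen U) (hw : L1 U w gw) (hb : LocB U w)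
    (tz : TZ U (fun x => max (w x) 0)) :
    L1 U (Hp.indicator fun x => max (w x) 0) (Hp.indicator fun x => if 0 < w x then gw x else 0) ∧
      LocB U (Hp.indicator fun x => max (w x) 0) := by
  have h1 := (hw.ld.pos hU).cut hU tz
  have b1 : ∀ x, |Hp.indicator (fun x => max (w x) 0) x| ≤ |w x| := fun x => by
    by_cases hx : x ∈ Hp
    · rw [indicator_of_mem hx, abs_of_nonneg (le_max_right _ _)]
      exact max_le (le_abs_self _) (abs_nonneg _)
    · rw [indicator_of_notMem hx, abs_zero]; exact abs_nonneg _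
  have b2 : ∀ x, ‖Hp.indicator (fun x => if 0 < w x then gw x else 0) x‖ ≤ ‖gw x‖ := fun x => by
    by_cases hx : x ∈ Hp
    · rw [indicator_of_mem hx]
      split_ifs
      · exact le_rfl
      · rw [norm_zero]; exact norm_nonneg _
    · rw [indicator_of_notMem hx, norm_zero]; exact norm_nonneg _
  refine ⟨⟨h1, fun K hK hKU => (hw.l2 K hK hKU).of_le (h1.mf.mono_set hKU)
    (Eventually.of_forall b1), fun K hK hKU => (hw.l2g K hK hKU).of_le (h1.mg.mono_set hKU)
    (Eventually.of_forall b2)⟩, fun K hK hKU => ?_⟩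
  obtain ⟨M, hM⟩ := hb K hK hKU
  exact ⟨M, hM.mono fun x a hx => (b1 x).trans (a hx)⟩

theorem wwmp {lam : ℝ} (hU : IsOpen U) (hA : IsClosed A) (hAU : A ⊆ U) (hl : 0 < lam)
    (hN : MemLp N 2 volume) (lb : LocB U N) (hp : ∀ᵐ x : E3, 0 < N x) (hw : L1 U w gw)
    (hb : LocB U w) (b1 : ∀ᵐ x : E3, x ∈ U → 0 < x 2 → w x ≤ 1)
    (col : ∀ᵐ x : E3, x ∈ U → 0 < x 2 → x ∉ A → w x ≤ 0) (tz : TZ U (fun x => max (w x) 0))
    (ineq : ∀ ψ p, Tst U ψ p → (∀ᵐ x : E3, 0 ≤ ψ x) → (∀ x, x 2 < 0 → ψ x = 0 ∧ p x = 0) →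
      ∫ x, (N x ^ 2 * ⟪gw x, p x⟫ + lam * N x ^ 2 * w x * ψ x) ≤ 0) :
    ∀ᵐ x : E3, x ∈ U → 0 < x 2 → w x ≤ 0 := by
  obtain ⟨hv, vb⟩ := thw_pos_part hU hw hb tz
  set v := Hp.indicator fun x => max (w x) 0 with hvd
  set gv := Hp.indicator fun x => if 0 < w x then gw x else 0 with hgd
  have alt : ∀ x, (v x = 0 ∧ gv x = 0) ∨ (v x = w x ∧ gv x = gw x ∧ 0 < x 2) := fun x => by
    by_cases hx : x ∈ Hp
    · rw [hvd, hgd, indicator_of_mem hx, indicator_of_mem hx]
      by_cases h0 : 0 < w x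
      · exact Or.inr ⟨max_eq_left h0.le, if_pos h0, hx⟩
      · exact Or.inl ⟨max_eq_right (not_lt.1 h0), if_neg h0⟩
    · exact Or.inl ⟨indicator_of_notMem hx _, indicator_of_notMem hx _⟩
  have v0 : ∀ x, 0 ≤ v x := fun x => indicator_nonneg (fun y _ => le_max_right _ _) x
  have v1 : ∀ᵐ x : E3, x ∈ U → v x ≤ 1 := by
    filter_upwards [b1] with x a hx
    rcases alt x with h | h
    · rw [h.1]; exact zero_le_one
    · rw [h.1]; exact a hx h.2.2
  have vA : ∀ᵐ x : E3, x ∈ U → x ∉ A → v x = 0 := by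
    filter_upwards [col] with x a hx hxA
    rcases alt x with h | h
    · exact h.1
    · exact le_antisymm (h.1 ▸ a hx h.2.2 hxA) (v0 x)
  have iN : Integrable (fun x => N x ^ 2) := hN.integrable_sq
  have mN : AEStronglyMeasurable (fun x => N x ^ 2) (volume.restrict U) := iN.1.restrict
  have lR : Loc1 U (fun x => lam * N x ^ 2 * w x) :=
    csub_loc1_mul (fun K _ _ => (iN.const_mul lam).integrableOn) hw.ld.mf hb
  have key : ∀ m : ℕ, ∀ᵐ x : E3,
      (A ∩ closedBall (0 : E3) m).indicator (fun x => N x ^ 2 * v x ^ 2) x = 0 := by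
    intro m
    have hKm : IsCompact (A ∩ closedBall (0 : E3) m) := (isCompact_closedBall _ _).inter_left hA
    have i0 : Integrable ((A ∩ closedBall (0 : E3) m).indicator fun x => N x ^ 2 * v x ^ 2) :=
      (integrable_indicator_iff hKm.measurableSet).2
        (csub_loc1_mul (fun K _ _ => iN.integrableOn) (hv.ld.mf.pow 2) (thw_sq vb) _ hKm
          (inter_subset_left.trans hAU))
    refine WmpQ.ae_zero i0 (fun x => indicator_nonneg (fun y _ => by positivity) x)
      (a := fun n : ℕ => (1 / (n : ℝ)) ^ 2 * (lam⁻¹ * ∫ x, N x ^ 2)) ?_ ?_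
    · have := ((tendsto_one_div_atTop_nhds_zero_nat (𝕜 := ℝ)).pow 2).mul_const
        (lam⁻¹ * ∫ x, N x ^ 2)
      simpa using this
    filter_upwards [eventually_ge_atTop m, eventually_gt_atTop 0] with n hmn hn0
    have hn : (0 : ℝ) < n := Nat.cast_pos.2 hn0
    have hmn' : (m : ℝ) ≤ n := Nat.cast_le.2 hmn
    obtain ⟨ξ, q, ht, hc, -, hq⟩ := exists_cut (0 : E3) hn.le (show (n : ℝ) < 2 * n by linarith)
    have hK : IsCompact (A ∩ closedBall (0 : E3) (2 * n)) :=
      (isCompact_closedBall _ _).inter_left hA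
    have ξl := ht.h1.1.l1 U
    have ξb : LocB U ξ := LocB.of_cont hc.continuousOn
    have t1 := Tst.mk' hU hK (inter_subset_left.trans hAU) (ξl.mul hU hv ξb vb)
      (wmp_locB_mul ξb vb) (by
        filter_upwards [vA] with x h1 hx hxK
        by_cases hxA : x ∈ A
        · have : 2 * (n : ℝ) ≤ ‖x - 0‖ := by
            by_contra hcon
            exact hxK ⟨hxA, mem_closedBall_iff_norm.2 (not_le.1 hcon).le⟩
          rw [((hq x).2.2.2.2.1 this).1, zero_mul]
        · rw [h1 hx hxA, mul_zero])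
    have t2 := t1.mul hU ξl ξb
    set K := A ∩ closedBall (0 : E3) (2 * n) with hKd
    have a := ineq _ _ t2 (Eventually.of_forall fun x => mul_nonneg (hq x).1
      (indicator_nonneg (fun y _ => mul_nonneg (hq y).1 (v0 y)) x)) (fun x hx => by
        have h0 : v x = 0 ∧ gv x = 0 := (alt x).resolve_right fun h => by linarith [h.2.2]
        by_cases hxK : x ∈ K
        · simp only [indicator_of_mem hxK, h0.1, h0.2, mul_zero, smul_zero, zero_smul, add_zero,
            and_self]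
        · simp only [indicator_of_notMem hxK, mul_zero, smul_zero, zero_smul, add_zero, and_self])
    have j1 := csub_intQ hw.l2g t2 (csub_smul_tst t2 mN (thw_sq lb))
    have j2 := (t2.int lR hw.l2g).1
    have s1 : ∫ x, (lam * (A ∩ closedBall (0 : E3) m).indicator (fun x => N x ^ 2 * v x ^ 2) x -
        (1 / (n : ℝ)) ^ 2 * N x ^ 2) ≤ 0 := by
      refine le_trans (integral_mono_ae ((i0.const_mul _).sub (iN.const_mul _)) (j1.add j2) ?_) a
      filter_upwards [v1] with x hv1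
      have q1 : ‖q x‖ ^ 2 ≤ (1 / (n : ℝ)) ^ 2 := by
        have := (hq x).2.2.1
        rw [show 2 * (n : ℝ) - n = n by ring] at this
        exact pow_le_pow_left₀ (norm_nonneg _) this 2
      have n0 : 0 ≤ (1 / (n : ℝ)) ^ 2 * N x ^ 2 := by positivity
      have ind : (A ∩ closedBall (0 : E3) m).indicator (fun x => N x ^ 2 * v x ^ 2) x ≤
          K.indicator (fun x => N x ^ 2 * (ξ x * v x) ^ 2) x := by
        by_cases hx : x ∈ A ∩ closedBall (0 : E3) m
        · have h1 : ‖x - 0‖ ≤ m := mem_closedBall_iff_norm.1 hx.2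
          have h2 : x ∈ K := ⟨hx.1, mem_closedBall_iff_norm.2 (by linarith)⟩
          rw [indicator_of_mem hx, indicator_of_mem h2, ((hq x).2.2.2.1 (h1.trans hmn')).1, one_mul]
        · rw [indicator_of_notMem hx]
          exact indicator_nonneg (fun y _ => by positivity) x
      have ind' := mul_le_mul_of_nonneg_left ind hl.le
      simp only [Pi.add_apply]
      by_cases hxK : x ∈ K
      · simp only [indicator_of_mem hxK] at ind' ⊢
        rcases alt x with h | h
        · simp only [h.1, h.2, mul_zero, smul_zero, zero_smul, add_zero, inner_zero_right,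
            ne_eq, OfNat.ofNat_ne_zero, not_false_eq_true, zero_pow] at ind' ⊢
          linarith
        · have hv1' := hv1 (hAU hxK.1)
          have e1 : ⟪gw x, ξ x • (ξ x • gv x + v x • q x) + (ξ x * v x) • q x⟫ =
              ‖ξ x • gv x + v x • q x‖ ^ 2 - v x ^ 2 * ‖q x‖ ^ 2 := by
            rw [← h.2.1, norm_add_sq_real]
            simp only [inner_add_right, real_inner_smul_right, real_inner_smul_left, norm_smul,
              mul_pow, Real.norm_eq_abs, sq_abs, real_inner_self_eq_norm_sq]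
            ring
          have e2 : v x ^ 2 * ‖q x‖ ^ 2 ≤ (1 / (n : ℝ)) ^ 2 :=
            (mul_le_of_le_one_left (sq_nonneg _) (pow_le_one₀ (v0 x) hv1')).trans q1
          have e3 := mul_le_mul_of_nonneg_left e2 (sq_nonneg (N x))
          have e4 := mul_nonneg (sq_nonneg (N x)) (sq_nonneg ‖ξ x • gv x + v x • q x‖)
          rw [e1, ← h.1]
          nlinarith
      · simp only [indicator_of_notMem hxK, mul_zero, smul_zero, zero_smul, add_zero,
          inner_zero_right] at ind' ⊢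
        linarith
    rw [integral_sub (i0.const_mul _) (iN.const_mul _), integral_const_mul,
      integral_const_mul] at s1
    rw [mul_left_comm, ← div_eq_inv_mul, le_div_iff₀ hl]
    linarith
  filter_upwards [ae_all_iff.2 key, vA, hp] with x h1 h2 h3 hx hz
  have h4 : v x = 0 := by
    by_cases hxA : x ∈ A
    · obtain ⟨m, hm⟩ := exists_nat_ge ‖x‖
      have := h1 m
      rw [indicator_of_mem (show x ∈ A ∩ closedBall (0 : E3) m from
        ⟨hxA, mem_closedBall_zero_iff.2 hm⟩)] at this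
      exact pow_eq_zero_iff two_ne_zero |>.1 ((mul_eq_zero.1 this).resolve_left (by positivity))
    · exact h2 hx hxA
  rw [hvd, indicator_of_mem (show x ∈ Hp from hz)] at h4
  exact (le_max_left _ _).trans h4.le

/-- Quotient of a `C2` function by `N`. -/
theorem quot_C2 {Y l c : E3 → ℝ} {gY : E3 → E3} (hY : C2 U Y gY l) (h0 : ∀ x ∈ U, 0 ≤ Y x)
    (hs : SubQ U N gN (fun x => c x * N x ^ 2)) (lb : LocB U N) (lp : LocP U N) :
    L1 U (fun x => Y x / N x) (fun x => (N x)⁻¹ • gY x - (Y x / N x ^ 2) • gN x) ∧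
    LocB U (fun x => Y x / N x) ∧ ∀ ψ p, Tst U ψ p → (∀ᵐ x : E3, 0 ≤ ψ x) →
      Integrable (fun x => (2 * c x * Y x - l x) * N x * ψ x) ∧
      ∫ x, (2 * c x * Y x - l x) * N x * ψ x ≤
        ∫ x, N x ^ 2 * ⟪(N x)⁻¹ • gY x - (Y x / N x ^ 2) • gN x, p x⟫ := by
  have hU := hY.op
  have n1 := csub_inv_l1 hU hs.l1 lp
  have n2 := csub_inv_b lp
  have l1 : L1 U (fun x => Y x / N x) (fun x => (N x)⁻¹ • gY x - (Y x / N x ^ 2) • gN x) := by
    refine (hY.l1.1.mul hU n1 hY.l1.2.1 n2).congr hU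
      (Eventually.of_forall fun x _ => div_eq_mul_inv _ _) (Eventually.of_forall fun x _ => ?_)
    rw [smul_smul, div_eq_mul_inv, ← inv_pow, mul_neg, neg_smul]
    abel
  have l2 : LocB U (fun x => Y x / N x) := by
    simpa only [div_eq_mul_inv] using wmp_locB_mul hY.l1.2.1 n2
  refine ⟨l1, l2, fun ψ p ht hψ => ?_⟩
  obtain ⟨K, hK, hKU, hz⟩ := ht.cpt
  obtain ⟨c0, hc0, hw⟩ := lp K hK hKU
  have t1 := ht.mul hU l1 l2
  have t2 := ht.mul hU hs.l1 lb
  have m1 := csub_smul_tst t1 hs.l1.ld.mf lb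
  have a := hs.ineq _ _ t1 (by
    filter_upwards [hψ, hw] with x a b
    by_cases hx : x ∈ K
    · exact mul_nonneg (div_nonneg (h0 x (hKU hx)) (hc0.trans_le (b hx)).le) a
    · rw [(hz x hx).1, mul_zero]) m1
  obtain ⟨i1, i2, i3⟩ := hs.int t1 m1
  obtain ⟨j1, j2, b⟩ := hY.weak t2.ld t2.h1.2.1 t2.h1.2.2 hK hKU fun x hx => by
    simp only [(hz x hx).1, (hz x hx).2, mul_zero, smul_zero, zero_smul, add_zero, and_self]
  have k1 := csub_intQ l1.l2g ht (csub_smul_tst ht (hs.l1.ld.mf.pow 2) (thw_sq lb))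
  have iA := (((i1.add i2).const_mul (1 / 2)).add i3).const_mul 2
  have iB := j1.add j2
  have e1 := integral_add k1 (iA.sub iB)
  have e2 := integral_sub iA iB
  rw [integral_const_mul] at e2
  simp only [Pi.add_apply, Pi.sub_apply, Pi.pow_apply] at e1 e2
  have e3 : (fun x => (2 * c x * Y x - l x) * N x * ψ x) =ᵐ[volume] fun x =>
      N x ^ 2 * ⟪(N x)⁻¹ • gY x - (Y x / N x ^ 2) • gN x, p x⟫ +
      (2 * (1 / 2 * (‖gN x‖ ^ 2 * (Y x / N x * ψ x) + N x * ⟪gN x, (Y x / N x) • p x +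
        ψ x • ((N x)⁻¹ • gY x - (Y x / N x ^ 2) • gN x)⟫) + c x * N x ^ 2 * (Y x / N x * ψ x)) -
      (⟪gY x, N x • p x + ψ x • gN x⟫ + l x * (N x * ψ x))) := by
    filter_upwards [hw] with x b
    by_cases hx : x ∈ K
    · have hw0 : N x ≠ 0 := (hc0.trans_le (b hx)).ne'
      simp only [inner_add_right, inner_sub_right, inner_sub_left, real_inner_smul_right,
        real_inner_smul_left, real_inner_self_eq_norm_sq, real_inner_comm (gY x) (gN x)]
      field_simp
      ring
    · simp only [(hz x hx).1, (hz x hx).2, smul_zero, zero_smul, add_zero, mul_zero,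
        inner_zero_right, sub_zero]
  refine ⟨(k1.add (iA.sub iB)).congr e3.symm, ?_⟩
  rw [integral_congr_ae e3, e1, e2, b]
  linarith

/-- Quotient of an exponential by `N`. -/
theorem quot_exp {Λ B l : E3 → ℝ} {gΛ gB : E3 → E3} {C : ℝ} (hB : C2 U B gB l) (hΛ : L1 U Λ gΛ)
    (bΛ : LocB U Λ) (hN : L1 U N gN) (lb : LocB U N) (lp : LocP U N)
    (iΛ : ∀ ψ p, Tst U ψ p → (∀ᵐ x : E3, 0 ≤ ψ x) → (∀ x, x 2 < 0 → ψ x = 0 ∧ p x = 0) →
      ∫ x, ((1 / 2) * ⟪gΛ x - (N x)⁻¹ • gN x, p x⟫ + (‖gN x‖ ^ 2 / (2 * N x ^ 2) - C) * ψ x) ≤ 0) :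
    L1 U (fun x => Real.exp (Λ x + B x) / N x)
      (fun x => (Real.exp (Λ x + B x) / N x) • (gΛ x + gB x - (N x)⁻¹ • gN x)) ∧
    LocB U (fun x => Real.exp (Λ x + B x) / N x) ∧
    ∀ ψ p, Tst U ψ p → (∀ᵐ x : E3, 0 ≤ ψ x) → (∀ x, x 2 < 0 → ψ x = 0 ∧ p x = 0) →
      Integrable (fun x => (2 * C - l x) * Real.exp (Λ x + B x) * N x * ψ x) ∧
      ∫ x, N x ^ 2 * ⟪(Real.exp (Λ x + B x) / N x) • (gΛ x + gB x - (N x)⁻¹ • gN x), p x⟫ ≤
        ∫ x, (2 * C - l x) * Real.exp (Λ x + B x) * N x * ψ x := by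
  have hU := hB.op
  have n1 := csub_inv_l1 hU hN lp
  have n2 := csub_inv_b lp
  have s1 := hΛ.add hB.l1.1
  have eb : LocB U (fun x => Real.exp (Λ x + B x)) := fun K hK hKU => by
    obtain ⟨M, hM⟩ := bΛ K hK hKU
    obtain ⟨M', hM'⟩ := hB.l1.2.1 K hK hKU
    refine ⟨Real.exp (M + M'), ?_⟩
    filter_upwards [hM, hM'] with x a b hx
    rw [abs_of_pos (Real.exp_pos _)]
    exact Real.exp_le_exp.2 (add_le_add ((le_abs_self _).trans (a hx))
      ((le_abs_self _).trans (b hx)))
  have el : L1 U (fun x => Real.exp (Λ x + B x))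
      (fun x => Real.exp (Λ x + B x) • (gΛ x + gB x)) := by
    have h1 := s1.ld.exp hU
    refine ⟨h1, fun K hK hKU => ?_, fun K hK hKU => ?_⟩
    · obtain ⟨M, hM⟩ := eb K hK hKU
      have := ctst_fin hK
      exact MemLp.of_bound (h1.mf.mono_set hKU) M ((ae_restrict_iff' hK.measurableSet).2 hM)
    · obtain ⟨M, hM⟩ := eb K hK hKU
      exact ctst_smul (h1.mf.mono_set hKU) ((ae_restrict_iff' hK.measurableSet).2 hM)
        (s1.l2g K hK hKU)
  have l1 : L1 U (fun x => Real.exp (Λ x + B x) / N x)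
      (fun x => (Real.exp (Λ x + B x) / N x) • (gΛ x + gB x - (N x)⁻¹ • gN x)) := by
    refine (el.mul hU n1 eb n2).congr hU
      (Eventually.of_forall fun x _ => div_eq_mul_inv _ _) (Eventually.of_forall fun x _ => ?_)
    rw [div_eq_mul_inv]
    module
  have l2 : LocB U (fun x => Real.exp (Λ x + B x) / N x) := by
    simpa only [div_eq_mul_inv] using wmp_locB_mul eb n2
  refine ⟨l1, l2, fun ψ p ht hψ hneg => ?_⟩
  obtain ⟨K, hK, hKU, hz⟩ := ht.cpt
  obtain ⟨c0, hc0, hw⟩ := lp K hK hKU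
  have t1 := ht.mul hU hN lb
  have t2 := t1.mul hU el eb
  have nn : ∀ᵐ x : E3, 0 ≤ Real.exp (Λ x + B x) * (N x * ψ x) := by
    filter_upwards [hψ, hw] with x a b
    by_cases hx : x ∈ K
    · exact mul_nonneg (Real.exp_pos _).le (mul_nonneg (hc0.trans_le (b hx)).le a)
    · rw [(hz x hx).1, mul_zero, mul_zero]
  have a := iΛ _ _ t2 nn fun x hx => by
    simp only [(hneg x hx).1, (hneg x hx).2, mul_zero, smul_zero, zero_smul, add_zero, and_self]
  obtain ⟨j1, j2, b⟩ := hB.weak t2.ld t2.h1.2.1 t2.h1.2.2 hK hKU fun x hx => by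
    simp only [(hz x hx).1, (hz x hx).2, mul_zero, smul_zero, zero_smul, add_zero, and_self]
  have g1 : Loc2 U (fun x => (N x)⁻¹ • gN x) := fun K hK hKU => by
    obtain ⟨M, hM⟩ := n2 K hK hKU
    exact ctst_smul (n1.ld.mf.mono_set hKU) ((ae_restrict_iff' hK.measurableSet).2 hM)
      (hN.l2g K hK hKU)
  have g2 : Loc2 U (fun x => gΛ x - (N x)⁻¹ • gN x) := fun K hK hKU =>
    (hΛ.l2g K hK hKU).sub (g1 K hK hKU)
  have g3 : Loc1 U (fun x => ‖gN x‖ ^ 2 / (2 * N x ^ 2) - C) := fun K hK hKU => by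
    have := ctst_fin hK
    refine Integrable.sub (((g1.sq K hK hKU).const_mul (1 / 2)).congr
      (Eventually.of_forall fun x => ?_)) (integrable_const C)
    simp only [norm_smul, mul_pow, Real.norm_eq_abs, sq_abs]
    ring
  have g4 : Loc1 U (fun x => 2 * C - l x) := fun K hK hKU =>
    ((continuousOn_const.sub hB.cont.2.2).mono hKU).integrableOn_compact hK
  have i1 := (t2.int g4 g2).1
  have i2 : Integrable (fun x => (2 * C - l x) * Real.exp (Λ x + B x) * N x * ψ x) :=
    i1.congr (Eventually.of_forall fun x => by simp only; ring)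
  refine ⟨i2, ?_⟩
  have k1 := csub_intQ l1.l2g ht (csub_smul_tst ht (hN.ld.mf.pow 2) (thw_sq lb))
  have iA := (csub_int t2 g3 g2).const_mul 2
  have iB := j1.add j2
  have e1 := integral_add (iA.add iB) i2
  have e2 := integral_add iA iB
  rw [integral_const_mul] at e2
  simp only [Pi.add_apply] at e1 e2
  rw [b] at e2
  rw [e2] at e1
  refine le_trans (integral_mono_ae k1 ((iA.add iB).add i2) ?_) (e1.le.trans (by linarith))
  filter_upwards [hw, nn] with x b n0
  by_cases hx : x ∈ K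
  · have hw0 : N x ≠ 0 := (hc0.trans_le (b hx)).ne'
    have n3 := mul_nonneg n0 (sq_nonneg ‖gΛ x + gB x‖)
    rw [norm_add_sq_real] at n3
    simp only [Pi.add_apply, inner_add_right, inner_add_left, inner_sub_left,
      real_inner_smul_right, real_inner_smul_left, real_inner_self_eq_norm_sq,
      real_inner_comm (gΛ x) (gN x), real_inner_comm (gB x) (gN x), real_inner_comm (gΛ x) (gB x)]
    rw [← sub_nonneg]
    refine n3.trans (le_of_eq ?_)
    field_simp
    ring
  · simp only [Pi.add_apply, (hz x hx).1, (hz x hx).2, smul_zero, zero_smul,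
      add_zero, mul_zero, inner_zero_right, le_refl]

end

end Vale.Agent.P363
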